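import Vale.Agent.P078.G4

/-! An abstract field of fibres. -/

namespace Vale.Agent.P078

open Finset Polynomial Filter Topology
open scoped ComplexConjugate Pointwise Classical

/-- A field of states over a space with a group action. -/
structure Fib (Ω Γ R : Type*) [TopologicalSpace Ω] [Group Γ] [MulAction Γ Ω] [Ring R]
    [StarRing R] [Algebra ℂ R] where
  ρ : Γ →* R
  φ : Ω → R →ₗ[ℂ] ℂ
  I : (Ω → ℝ) → ℝ
  x : R
  B : Finset Γ
  cf : Γ → ℂ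
  enc : Γ → ℕ
  enc_inj : Function.Injective enc
  ρs : ∀ g, star (ρ g) = ρ g⁻¹
  cact : ∀ g : Γ, Continuous fun ω : Ω => g • ω
  cont : ∀ y, Continuous fun ω => φ ω y
  one : ∀ ω, φ ω 1 = 1
  st : ∀ ω y, φ ω (star y) = conj (φ ω y)
  act : ∀ (g : Γ) ω y, φ (g • ω) y = φ ω (ρ g⁻¹ * y * ρ g)
  mul : ∀ ω g, φ ω (ρ g) ≠ 0 → g • ω = ω ∧ ∀ y, φ ω (y * ρ g) = φ ω y * φ ω (ρ g)
  I_add : ∀ {f g}, Continuous f → Continuous g → I (fun ω => f ω + g ω) = I f + I g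
  I_mono : ∀ {f g}, Continuous f → Continuous g → (∀ ω, f ω ≤ g ω) → I f ≤ I g
  I_smul : ∀ (c : ℝ) {f}, Continuous f → I (fun ω => c * f ω) = c * I f
  I_one : I (fun _ => 1) = 1
  I_act : ∀ (g : Γ) {f}, Continuous f → I (fun ω => f (g • ω)) = I f
  x_eq : x = ∑ s ∈ B, cf s • ρ s
  x_sa : star x = x
  x_zero : ∀ ω, φ ω x = 0
  x_bd : ∀ ω z, |(φ ω (star z * x * z)).re| ≤ (φ ω (star z * z)).re
  B_one : 1 ∈ B
  B_inv : B⁻¹ = B

namespace Fib

variable {Ω Γ R : Type*} [TopologicalSpace Ω] [Group Γ] [MulAction Γ Ω] [Ring R]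
  [StarRing R] [Algebra ℂ R] (F : Fib Ω Γ R) {ω : Ω} {g h k : Γ}

/-- Equality of germs. -/
def rel (ω : Ω) (g h : Γ) : Prop := F.φ ω (F.ρ (g⁻¹ * h)) ≠ 0

theorem rel_refl (ω : Ω) (g : Γ) : F.rel ω g g := by simp [rel, F.one]

variable {F}

theorem conj_eq (ω : Ω) (g h : Γ) : F.φ ω (F.ρ (h⁻¹ * g)) = conj (F.φ ω (F.ρ (g⁻¹ * h))) := by
  rw [← F.st, F.ρs, mul_inv_rev, inv_inv]

theorem rel.symm (e : F.rel ω g h) : F.rel ω h g := by
  rw [rel, conj_eq]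
  simpa [rel] using e

theorem rel.mulr (e : F.rel ω g h) (y : R) :
    F.φ ω (y * F.ρ h) = F.φ ω (y * F.ρ g) * F.φ ω (F.ρ (g⁻¹ * h)) := by
  rw [← (F.mul ω _ e).2, mul_assoc, ← map_mul, mul_inv_cancel_left]

theorem rel.mull (e : F.rel ω g h) (y : R) :
    F.φ ω (F.ρ h⁻¹ * y) = conj (F.φ ω (F.ρ (g⁻¹ * h))) * F.φ ω (F.ρ g⁻¹ * y) := by
  have := congrArg conj (e.mulr (star y))
  rw [map_mul conj, ← F.st, ← F.st, star_mul, star_mul, star_star, F.ρs, F.ρs] at this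
  rw [this, mul_comm]

theorem rel.trans (e : F.rel ω g h) (e' : F.rel ω h k) : F.rel ω g k := by
  rw [rel, map_mul F.ρ, e'.mulr, ← map_mul F.ρ]
  exact mul_ne_zero e e'

theorem rel.smul (e : F.rel ω g h) : g • ω = h • ω := by
  have := (F.mul ω _ e).1
  rw [mul_smul, inv_smul_eq_iff] at this
  exact this.symm

theorem rel.norm (e : F.rel ω g h) :
    conj (F.φ ω (F.ρ (g⁻¹ * h))) * F.φ ω (F.ρ (g⁻¹ * h)) = 1 := by
  have := e.mulr (F.ρ h⁻¹)
  rw [← map_mul F.ρ, ← map_mul F.ρ, inv_mul_cancel, map_one, F.one, conj_eq ω g h] at this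
  exact this.symm

theorem rel_act : F.rel (g • ω) h k ↔ F.rel ω (h * g) (k * g) := by
  simp only [rel, F.act, ← map_mul, mul_inv_rev, mul_assoc]

theorem rel.left (e : F.rel ω g h) (s : Γ) : F.rel ω (s * g) (s * h) := by
  simpa only [rel, mul_inv_rev, mul_assoc, inv_mul_cancel_left] using e

theorem rel_ev (ω : Ω) (g h : Γ) : ∀ᶠ ω' in 𝓝 ω, F.rel ω' g h ↔ F.rel ω g h := by
  have c := F.cont (F.ρ (g⁻¹ * h))
  by_cases e : F.rel ω g h
  · exact (c.continuousAt.eventually_ne e).mono fun _ e' => iff_of_true e' e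
  · have : ∀ᶠ ω' in 𝓝 ω, conj (F.φ ω' (F.ρ (g⁻¹ * h))) * F.φ ω' (F.ρ (g⁻¹ * h)) ≠ 1 :=
      ((Complex.continuous_conj.comp c).mul c).continuousAt.eventually_ne (by
        rw [Pi.mul_apply, not_not.1 e, mul_zero]
        exact zero_ne_one)
    exact this.mono fun _ e' => iff_of_false (fun a => e' a.norm) e

variable (F) in
/-- The canonical representative of a germ. -/
noncomputable def r (ω : Ω) (g : Γ) : Γ :=
  Function.argminOn F.enc {h | F.rel ω g h} ⟨g, F.rel_refl ω g⟩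

theorem rel_r (ω : Ω) (g : Γ) : F.rel ω g (F.r ω g) := 
  Function.argminOn_mem F.enc {h | F.rel ω g h} _

theorem rel.le (e : F.rel ω g h) : F.enc (F.r ω g) ≤ F.enc h :=
  Function.argminOn_le F.enc {h | F.rel ω g h} e

theorem rel.r_eq (e : F.rel ω g h) : F.r ω g = F.r ω h :=
  F.enc_inj ((e.trans (rel_r ω h)).le.antisymm (e.symm.trans (rel_r ω g)).le)

theorem r_r : F.r ω (F.r ω g) = F.r ω g := (rel_r ω g).symm.r_eq

theorem rel_of_r (e : F.r ω g = F.r ω h) : F.rel ω g h :=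
  (rel_r ω g).trans (e ▸ (rel_r ω h).symm)

theorem r_smul : F.r ω g • ω = g • ω := (rel_r ω g).smul.symm

theorem r_ev (ω : Ω) (g : Γ) : ∀ᶠ ω' in 𝓝 ω, F.r ω' g = F.r ω g := by
  have hf : {h | F.enc h ≤ F.enc g}.Finite :=
    (Set.finite_Iic (F.enc g)).preimage F.enc_inj.injOn
  refine ((eventually_all_finite hf).2 fun h _ => rel_ev (F := F) ω g h).mono fun ω' e => ?_
  exact F.enc_inj (((e _ (F.rel_refl ω g).le).2 (rel_r ω g)).le.antisymm
    ((e _ (F.rel_refl ω' g).le).1 (rel_r ω' g)).le)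

variable (F) in
/-- The matrix on a fibre. -/
noncomputable def X (ω : Ω) (g h : Γ) : ℂ :=
  if F.r ω g = g ∧ F.r ω h = h then F.φ ω (F.ρ g⁻¹ * F.x * F.ρ h) else 0

theorem X_rr (ω : Ω) (g h : Γ) :
    F.X ω (F.r ω g) (F.r ω h) = F.φ ω (F.ρ (F.r ω g)⁻¹ * F.x * F.ρ (F.r ω h)) :=
  if_pos ⟨r_r, r_r⟩

theorem X_diag (ω : Ω) (g : Γ) : F.X ω g g = 0 := by
  rw [X, ← F.act, F.x_zero, ite_self]

theorem X_hc [StarModule ℂ R] (ω : Ω) : HC (F.X ω) := by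
  refine ⟨fun i j => ?_, fun S ξ => ?_⟩
  · simp only [X, and_comm (a := F.r ω j = j)]
    split_ifs
    · rw [← F.st, star_mul, star_mul, F.ρs, F.ρs, F.x_sa, inv_inv, mul_assoc]
    · simp
  · set T := S.filter fun i => F.r ω i = i
    have k : ∀ y, F.φ ω (star (∑ i ∈ T, ξ i • F.ρ i) * y * ∑ i ∈ T, ξ i • F.ρ i) =
        ∑ i ∈ T, ∑ j ∈ T, conj (ξ i) * F.φ ω (F.ρ i⁻¹ * y * F.ρ j) * ξ j := fun y => by
      simp only [star_sum, star_smul, F.ρs, sum_mul, mul_sum, map_sum, smul_mul_assoc,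
        mul_smul_comm, map_smul, smul_eq_mul, RCLike.star_def]
      rw [sum_comm]
      exact sum_congr rfl fun i _ => sum_congr rfl fun j _ => by ring
    have e1 : qf (F.X ω) S ξ = ∑ i ∈ T, ∑ j ∈ T, conj (ξ i) * F.φ ω (F.ρ i⁻¹ * F.x * F.ρ j) * ξ j := by
      simp only [qf, T, sum_filter, X]
      refine sum_congr rfl fun i _ => ?_
      by_cases a : F.r ω i = i <;> simp [a]
    have e2 := k 1
    rw [mul_one] at e2
    rw [e1, ← k]
    refine (F.x_bd ω _).trans ?_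
    rw [e2, Complex.re_sum]
    refine (sum_congr rfl fun i hi => ?_).trans_le
      (sum_le_sum_of_subset_of_nonneg (filter_subset _ S) fun _ _ _ => by positivity)
    rw [sum_eq_single_of_mem i hi fun j hj e => ?_]
    · rw [mul_one, ← map_mul, inv_mul_cancel, map_one, F.one, mul_one, Complex.conj_mul',
        ← Complex.ofReal_pow, Complex.ofReal_re]
    · have : ¬F.rel ω i j := fun a => e (by
        rw [← (mem_filter.1 hj).2, ← a.r_eq, (mem_filter.1 hi).2])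
      rw [mul_one, ← map_mul, not_not.1 this, mul_zero, zero_mul]

theorem X_ne {i j : Γ} (e : F.X ω i j ≠ 0) :
    F.r ω j = j ∧ ∃ s ∈ F.B, F.r ω (s * j) = i := by
  rw [Fib.X] at e
  split_ifs at e with a
  · refine ⟨a.2, ?_⟩
    rw [F.x_eq, mul_sum, sum_mul, map_sum] at e
    obtain ⟨s, hs, e⟩ := exists_ne_zero_of_sum_ne_zero e
    rw [mul_smul_comm, smul_mul_assoc, map_smul, mul_assoc, ← map_mul, ← map_mul] at e
    exact ⟨s, hs, (rel.r_eq (right_ne_zero_of_smul e)).symm.trans a.1⟩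
  · exact absurd rfl e

theorem inv_mem {n : ℕ} {b : Γ} (hb : b ∈ F.B ^ n) : b⁻¹ ∈ F.B ^ n := by
  rw [← F.B_inv, inv_pow]
  exact inv_mem_inv hb

theorem dist (ω : Ω) (g : Γ) (K : ℕ) : ∃ l : Γ → ℕ, (∀ i j, F.X ω i j ≠ 0 → l i ≤ l j + 1) ∧
    l (F.r ω g) = 0 ∧ ∀ i, l i < K + 1 → ∃ b ∈ F.B ^ K, F.r ω (b * g) = i := by
  let P : Γ → Set ℕ := fun i => {n | (∃ b ∈ F.B ^ n, F.r ω (b * g) = i) ∨ K < n}
  have hP : ∀ i, sInf (P i) ∈ P i := fun i => Nat.sInf_mem ⟨K + 1, Or.inr K.lt_succ_self⟩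
  refine ⟨fun i => sInf (P i), fun i j e => Nat.sInf_le ?_,
    Nat.le_zero.1 (Nat.sInf_le (Or.inl ⟨1, by simp, by rw [one_mul]⟩)), fun i hi => ?_⟩
  · obtain ⟨-, s, hs, e2⟩ := X_ne e
    rcases hP j with ⟨b, hb, e3⟩ | a
    · refine Or.inl ⟨s * b, by rw [pow_succ']; exact mul_mem_mul hs hb, ?_⟩
      rw [← e2, ← e3, mul_assoc]
      exact ((rel_r ω _).left s).r_eq
    · exact Or.inr (a.trans (Nat.lt_succ_self _))
  · rcases hP i with ⟨b, hb, e3⟩ | a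
    · exact ⟨b, pow_subset_pow_right F.B_one (Nat.lt_succ_iff.1 hi) hb, e3⟩
    · exact absurd hi (not_lt.2 a)

variable (F) in
/-- Balls around the root. -/
noncomputable def V (ω : Ω) (K : ℕ) : Finset Γ := (F.B ^ K).image (F.r ω)

theorem one_mem (K : ℕ) : (1 : Γ) ∈ F.B ^ K := one_mem_pow F.B_one

theorem V_lc (K : ℕ) : IsLocallyConstant fun ω => F.V ω K :=
  (IsLocallyConstant.iff_eventually_eq _).2 fun ω =>
    ((eventually_all_finset _).2 fun b _ => r_ev (F := F) ω b).mono fun _ e => image_congr e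

variable {m : ℕ} {σ σ' : Ω → Fin m → ℂ}

variable (F) in
/-- The local potential at the root. -/
noncomputable def a (Q : ℝ[X]) (σ : Ω → Fin m → ℂ) (ω : Ω) : ℝ :=
  aQ Q (F.X ω) (fun g => σ (g • ω)) (F.V ω Q.natDegree) (F.r ω 1)

theorem aQ_loc (Q : ℝ[X]) {π π' : Γ → Fin m → ℂ} (h1 : ∀ v, ∑ c, π v c = 1)
    (h2 : ∀ v, ∑ c, π' v c = 1) {W W' : Finset Γ}
    (hW : ∀ b ∈ F.B ^ Q.natDegree, (F.r ω (b * g) ∈ W ↔ F.r ω (b * g) ∈ W') ∧
      π (F.r ω (b * g)) = π' (F.r ω (b * g))) :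
    aQ Q (F.X ω) π W (F.r ω g) = aQ Q (F.X ω) π' W' (F.r ω g) := by
  obtain ⟨l, l1, l2, l3⟩ := dist (F := F) ω g Q.natDegree
  refine sum_congr rfl fun k hk => ?_
  rw [loc h1 h2 l l1 l2 (fun i hi => ?_) (fun i hi => ?_) (mem_range.1 hk)]
  all_goals obtain ⟨b, hb, rfl⟩ := l3 i hi
  exacts [(hW b hb).1, (hW b hb).2]

theorem aQ_tr (Q : ℝ[X]) {π : Γ → Fin m → ℂ} (h1 : ∀ v, ∑ c, π v c = 1) {W : Finset Γ}
    (hW : ∀ b ∈ F.B ^ Q.natDegree, F.r ω (b * g) ∈ W ∧ π (F.r ω (b * g)) = σ ((b * g) • ω)) :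
    aQ Q (F.X ω) π W (F.r ω g) = F.a Q σ (g • ω) := by
  have k : ∀ b, F.r ω (F.r (g • ω) b * g) = F.r ω (b * g) := fun b =>
    (rel_act.1 (rel_r _ b)).r_eq.symm
  rw [aQ_loc Q h1 h1 (W' := (F.V (g • ω) Q.natDegree).image fun h => F.r ω (h * g))
    fun b hb => ⟨iff_of_true (hW b hb).1
      (mem_image.2 ⟨_, mem_image_of_mem _ hb, k b⟩), rfl⟩]
  refine sum_congr rfl fun n _ => ?_
  have := mom_emb (x := F.X ω) (π := π) (x' := F.X (g • ω)) (π' := fun h => σ (h • g • ω))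
    (fun h => F.r ω (h * g)) (F.V (g • ω) Q.natDegree) ?_ ?_
    (fun i => F.φ ω (F.ρ ((i * g)⁻¹ * F.r ω (i * g))))
    (fun i => conj (F.φ ω (F.ρ ((i * g)⁻¹ * F.r ω (i * g))))) (fun i _ => (rel_r ω _).norm) ?_
    (mem_image_of_mem _ (one_mem Q.natDegree)) n
  · rw [k, one_mul] at this
    rw [this]
  · intro i hi j hj e
    obtain ⟨b, -, rfl⟩ := mem_image.1 hi
    obtain ⟨c, -, rfl⟩ := mem_image.1 hj
    rw [← r_r, (rel_act.2 (rel_of_r e)).r_eq, r_r]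
  · intro i hi
    obtain ⟨b, hb, rfl⟩ := mem_image.1 hi
    rw [k, (hW b hb).2, r_smul, mul_smul]
  · intro i hi j hj
    obtain ⟨b, -, rfl⟩ := mem_image.1 hi
    obtain ⟨c, -, rfl⟩ := mem_image.1 hj
    rw [X_rr, X_rr, F.act, (rel_r ω _).mulr, mul_assoc (F.ρ _), mul_assoc (F.ρ _),
      (rel_r ω _).mull]
    simp only [mul_inv_rev, map_mul, mul_assoc]

theorem a_congr (Q : ℝ[X]) (h1 : ∀ ω, ∑ c, σ ω c = 1)
    (h : ∀ b ∈ F.B ^ Q.natDegree, σ (b • ω) = σ' (b • ω)) : F.a Q σ ω = F.a Q σ' ω := by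
  rw [a, aQ_tr (σ := σ') Q (fun _ => h1 _) fun b hb => ?_, one_smul]
  rw [mul_one, r_smul]
  exact ⟨mem_image_of_mem _ hb, h b hb⟩

theorem a_cont (Q : ℝ[X]) (h1 : ∀ ω, ∑ c, σ ω c = 1) (h : IsLocallyConstant σ) :
    Continuous (F.a Q σ) := by
  refine continuous_iff_continuousAt.2 fun ω => ?_
  set W := F.V ω Q.natDegree
  let y : Γ → Γ → C(Ω, ℂ) := fun i j => ⟨_, F.cont (F.ρ i⁻¹ * F.x * F.ρ j)⟩
  let p : Γ → Fin m → C(Ω, ℂ) := fun i c => ContinuousMap.const _ (σ (i • ω) c)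
  have hp : ∀ v, ∑ c, p v c = 1 := fun v => by
    ext
    simp [p, h1]
  refine ContinuousAt.congr (f := fun ω' => ∑ k ∈ range (Q.natDegree + 1),
    Q.coeff k * (mom y p W (F.r ω 1) k ω').re) (by fun_prop) ?_
  filter_upwards [(V_lc (F := F) Q.natDegree).eventually_eq ω, r_ev (F := F) ω 1,
    (eventually_all_finset W).2 fun b _ => r_ev (F := F) ω b,
    (eventually_all_finset W).2 fun b _ => (h.comp_continuous (F.cact b)).eventually_eq ω]
    with ω' e1 e2 e3 e4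
  rw [a, e1, e2]
  refine sum_congr rfl fun k _ => ?_
  have := mom_map ((Pi.evalRingHom (fun _ => ℂ) ω').comp ContinuousMap.coeFnRingHom) (x := y) hp W
    (F.r ω 1) k
  have e5 : ∀ i ∈ W, F.r ω' i = i := fun i hi => by
    obtain ⟨b, -, e⟩ := mem_image.1 hi
    rw [e3 i hi, ← e, r_r]
  have e6 := mom_emb (x := F.X ω') (π := fun g => σ (g • ω')) (x' := fun i j => y i j ω')
    (π' := fun i c => p i c ω') id W (Set.injOn_id _) e4 1 1 (by simp)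
    (fun i hi j hj => by simp [X, e5 i hi, e5 j hj, y])
    (mem_image_of_mem _ (one_mem Q.natDegree)) k
  rw [image_id] at e6
  exact congrArg (fun t : ℂ => Q.coeff k * t.re) (this.trans e6.symm)

end Fib

end Vale.Agent.P078
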