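import Vale.Agent.P078.Stmts

/-! WP P: fractions with nonnegative residues, a Harnack inequality and the barrier step. -/

namespace Vale.Agent.P078

open scoped ComplexConjugate
open Polynomial Filter Topology

namespace Pf

theorem card_roots (p : ℂ[X]) : p.roots.card = p.natDegree :=
  (IsAlgClosed.splits p).natDegree_eq_card_roots.symm

theorem dir {p s q : ℂ[X]} {l : ℝ} {j : ℕ} (e : p = (X - C (l : ℂ)) ^ j * q)
    (h : ∀ z : ℂ, 0 < z.im → (s.eval z * conj (p.eval z)).im ≤ 0) (u : ℂ) (hu : 0 < u.im) :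
    (s.eval (l : ℂ) * conj (q.eval (l : ℂ)) * conj u ^ j).im ≤ 0 := by
  have hc : Continuous fun η : ℝ =>
      (s.eval ((l : ℂ) + η * u) * conj (q.eval ((l : ℂ) + η * u)) * conj u ^ j).im := by
    have h1 : Continuous fun η : ℝ => (l : ℂ) + η * u := by fun_prop
    exact Complex.continuous_im.comp (((s.continuous.comp h1).mul
      (Complex.continuous_conj.comp (q.continuous.comp h1))).mul continuous_const)
  have ht := (hc.tendsto 0).mono_left (nhdsWithin_le_nhds (s := Set.Ioi 0))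
  simp only [Complex.ofReal_zero, zero_mul, add_zero] at ht
  refine le_of_tendsto ht (eventually_nhdsWithin_of_forall fun η (hη : 0 < η) => ?_)
  have h2 := h ((l : ℂ) + η * u) (by simpa using mul_pos hη hu)
  have e2 : s.eval ((l : ℂ) + η * u) * conj (p.eval ((l : ℂ) + η * u)) = ((η ^ j : ℝ) : ℂ) *
      (s.eval ((l : ℂ) + η * u) * conj (q.eval ((l : ℂ) + η * u)) * conj u ^ j) := by
    rw [e]
    simp only [eval_mul, eval_pow, eval_sub, eval_X, eval_C, add_sub_cancel_left, map_mul, map_pow,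
      Complex.conj_ofReal, mul_pow]
    push_cast
    ring
  rw [e2, Complex.im_ofReal_mul] at h2
  exact nonpos_of_mul_nonpos_right h2 (pow_pos hη j) |> fun h => h

theorem two_le {G : ℂ} {j : ℕ} (hj : 2 ≤ j) (h : ∀ u : ℂ, 0 < u.im → (G * conj u ^ j).im ≤ 0) :
    G = 0 := by
  have hj' : (2 : ℝ) ≤ j := by exact_mod_cast hj
  have key : ∀ θ : ℝ, 0 < θ → θ < 2 * Real.pi → G.im * Real.cos θ - G.re * Real.sin θ ≤ 0 :=
    fun θ h1 h2 => by
    have := h (Complex.exp ((θ / j : ℝ) * Complex.I)) (by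
      rw [Complex.exp_ofReal_mul_I_im]
      refine Real.sin_pos_of_pos_of_lt_pi (by positivity) ?_
      rw [div_lt_iff₀ (by linarith)]
      nlinarith [Real.pi_pos])
    rw [← map_pow, ← Complex.exp_nat_mul, show (j : ℂ) * ((θ / j : ℝ) * Complex.I) =
      (θ : ℝ) * Complex.I by
        have : (j : ℂ) ≠ 0 := Nat.cast_ne_zero.2 (by omega)
        push_cast
        field_simp] at this
    simp only [Complex.mul_im, Complex.conj_re, Complex.conj_im, Complex.exp_ofReal_mul_I_re,
      Complex.exp_ofReal_mul_I_im] at this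
    linarith
  have hπ := Real.pi_pos
  have h1 := key (Real.pi / 2) (by linarith) (by linarith)
  have h2 := key (Real.pi / 2 + Real.pi) (by linarith) (by linarith)
  have h3 := key Real.pi (by linarith) (by linarith)
  have h4 := key (Real.pi / 4) (by linarith) (by linarith)
  rw [Real.cos_pi_div_two, Real.sin_pi_div_two] at h1
  rw [Real.cos_add_pi, Real.sin_add_pi, Real.cos_pi_div_two, Real.sin_pi_div_two] at h2
  rw [Real.cos_pi, Real.sin_pi] at h3
  rw [Real.cos_pi_div_four, Real.sin_pi_div_four] at h4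
  have h5 : G.re = 0 := by linarith
  have h6 : (0 : ℝ) < √2 / 2 := by positivity
  rw [h5] at h4
  have h7 : G.im = 0 := le_antisymm (by nlinarith) (by linarith)
  exact Complex.ext h5 h7

theorem one_le {G : ℂ} (h : ∀ u : ℂ, 0 < u.im → (G * conj u ^ 1).im ≤ 0) :
    G.im = 0 ∧ 0 ≤ G.re := by
  have key : ∀ t : ℝ, G.im * t ≤ G.re := fun t => by
    have := h ⟨t, 1⟩ one_pos
    simp only [pow_one, Complex.mul_im, Complex.conj_re, Complex.conj_im] at this
    linarith
  refine ⟨by_contra fun h0 => ?_, by simpa using key 0⟩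
  have := key ((G.re + 1) / G.im)
  rw [mul_div_cancel₀ _ h0] at this
  linarith

theorem re_eq {z : ℂ} (h : z.im = 0) : ((z.re : ℝ) : ℂ) = z := Complex.ext rfl (by simp [h])

theorem pf_cop (p s : ℂ[X]) (hp : p ≠ 0) (hr : ∀ z, p.IsRoot z → z.im = 0)
    (hd : s.natDegree ≤ p.natDegree)
    (h : ∀ z : ℂ, 0 < z.im → (s.eval z * conj (p.eval z)).im ≤ 0)
    (hc : ∀ z, p.IsRoot z → ¬ s.IsRoot z) :
    ∃ (c : ℂ) (Λ : Finset ℝ) (ρ : ℝ → ℝ) (d : ℝ → ℂ[X]),
      (∀ l ∈ Λ, 0 ≤ ρ l ∧ p = (X - C (l : ℂ)) * d l) ∧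
        s = C c * p + ∑ l ∈ Λ, C (ρ l : ℂ) * d l := by
  classical
  have mult : ∀ l : ℝ, p.rootMultiplicity (l : ℂ) ≤ 1 := fun l => by
    by_contra hj
    obtain ⟨q, e, hq⟩ := exists_eq_pow_rootMultiplicity_mul_and_not_dvd p hp (l : ℂ)
    have h0 := two_le (by omega) (dir e h)
    rw [dvd_iff_isRoot] at hq
    rcases mul_eq_zero.1 h0 with h1 | h1
    · exact hc l ((rootMultiplicity_pos hp).1 (by omega)) h1
    · exact hq (by simpa using h1)
  let d : ℝ → ℂ[X] := fun l => p /ₘ (X - C (l : ℂ))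
  let Λ : Finset ℝ := p.roots.toFinset.image Complex.re
  have mem : ∀ l ∈ Λ, p.IsRoot (l : ℂ) := fun l hl => by
    obtain ⟨z, hz, rfl⟩ := Finset.mem_image.1 hl
    have := isRoot_of_mem_roots (Multiset.mem_toFinset.1 hz)
    rwa [re_eq (hr z this)]
  have e : ∀ l ∈ Λ, p = (X - C (l : ℂ)) * d l := fun l hl =>
    (mul_divByMonic_eq_iff_isRoot.2 (mem l hl)).symm
  have d0 : ∀ l ∈ Λ, (d l).eval (l : ℂ) ≠ 0 := fun l hl h0 => by
    obtain ⟨q, hq⟩ := dvd_iff_isRoot.2 h0
    have : 2 ≤ p.rootMultiplicity (l : ℂ) := (le_rootMultiplicity_iff hp).2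
      ⟨q, by rw [sq, mul_assoc, ← hq, ← e l hl]⟩
    linarith [mult l]
  have res : ∀ l ∈ Λ, (s.eval (l : ℂ) / (d l).eval (l : ℂ)).im = 0 ∧
      0 ≤ (s.eval (l : ℂ) / (d l).eval (l : ℂ)).re := fun l hl => by
    obtain ⟨h1, h2⟩ := one_le (dir (j := 1) (by rw [pow_one]; exact e l hl) h)
    rw [div_eq_mul_inv, Complex.inv_def, ← mul_assoc, Complex.im_mul_ofReal, Complex.re_mul_ofReal,
      h1, zero_mul]
    exact ⟨rfl, mul_nonneg h2 (inv_nonneg.2 (Complex.normSq_nonneg _))⟩
  refine ⟨s.coeff p.natDegree / p.leadingCoeff, Λ,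
    fun l => (s.eval (l : ℂ) / (d l).eval (l : ℂ)).re, d, fun l hl => ⟨(res l hl).2, e l hl⟩, ?_⟩
  have nd : p.roots.Nodup := Multiset.nodup_iff_count_le_one.2 fun z => by
    rw [count_roots]
    by_cases hz : p.IsRoot z
    · rw [← re_eq (hr z hz)]
      exact mult _
    · rw [rootMultiplicity_eq_zero hz]
      exact zero_le_one
  rw [← sub_eq_zero]
  refine eq_zero_of_degree_lt_of_eval_finset_eq_zero p.roots.toFinset ?_ fun z hz => ?_
  · rw [Multiset.toFinset_card_of_nodup nd, card_roots, degree_lt_iff_coeff_zero]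
    intro m hm
    have h1 : ∀ l ∈ Λ, (C (((s.eval (l : ℂ) / (d l).eval (l : ℂ)).re : ℝ) : ℂ) * d l).coeff m = 0 :=
      fun l hl => by
      have h2 := congrArg natDegree (e l hl)
      rw [natDegree_mul (X_sub_C_ne_zero _) (fun h0 => d0 l hl (by rw [h0, eval_zero])),
        natDegree_X_sub_C] at h2
      rw [coeff_C_mul, coeff_eq_zero_of_natDegree_lt (by omega), mul_zero]
    rw [coeff_sub, coeff_add, finsetSum_coeff, Finset.sum_eq_zero h1, add_zero, coeff_C_mul]
    rcases hm.eq_or_lt with rfl | hm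
    · rw [coeff_natDegree, div_mul_cancel₀ _ (leadingCoeff_ne_zero.2 hp), sub_self]
    · rw [coeff_eq_zero_of_natDegree_lt hm, coeff_eq_zero_of_natDegree_lt (hd.trans_lt hm),
        mul_zero, sub_zero]
  · have hz1 := isRoot_of_mem_roots (Multiset.mem_toFinset.1 hz)
    have hl : z.re ∈ Λ := Finset.mem_image_of_mem _ hz
    have hz2 := re_eq (hr z hz1)
    rw [← hz2] at hz1 ⊢
    rw [eval_sub, eval_add, eval_mul, hz1.eq_zero, mul_zero, zero_add, eval_finsetSum,
      Finset.sum_eq_single_of_mem _ hl, eval_mul, eval_C, re_eq (res _ hl).1,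
      div_mul_cancel₀ _ (d0 _ hl), sub_self]
    intro l hl' hne
    have h2 := hz1.eq_zero
    rw [e l hl', eval_mul, eval_sub, eval_X, eval_C] at h2
    rw [eval_mul, (mul_eq_zero.1 h2).resolve_left
      (sub_ne_zero.2 fun h3 => hne (Complex.ofReal_injective h3).symm), mul_zero]

theorem prod_le (K : ℝ) (hK : 0 ≤ K) (z w : ℂ) (m : Multiset ℂ)
    (h : ∀ t ∈ m, ‖w - t‖ ≤ K * ‖z - t‖) :
    ‖(m.map fun t => X - C t).prod.eval w‖ ≤ K ^ m.card * ‖(m.map fun t => X - C t).prod.eval z‖ := by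
  induction m using Multiset.induction_on with
  | empty => simp
  | cons a m ih =>
    simp only [Multiset.map_cons, Multiset.prod_cons, eval_mul, eval_sub, eval_X, eval_C, norm_mul,
      Multiset.card_cons, pow_succ]
    refine (mul_le_mul (h a (Multiset.mem_cons_self _ _))
      (ih fun t ht => h t (Multiset.mem_cons_of_mem ht)) (norm_nonneg _) (by positivity)).trans
      (le_of_eq (by ring))

theorem coeff_lin (l : ℂ) (d : ℂ[X]) (k : ℕ) :
    ((X - C l) * d).coeff (k + 1) = d.coeff k - l * d.coeff (k + 1) := by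
  rw [sub_mul, coeff_sub, coeff_X_mul, coeff_C_mul]

theorem coeff_lin0 (l : ℂ) (d : ℂ[X]) : ((X - C l) * d).coeff 0 = -l * d.coeff 0 := by
  simp

theorem coeff_fst (m : Multiset ℂ) (h : ∀ t ∈ m, t ≠ 0) :
    (m.map fun t => X - C t).prod.coeff 1 =
      (m.map fun t => X - C t).prod.coeff 0 * (m.map fun t => (-t)⁻¹).sum := by
  induction m using Multiset.induction_on with
  | empty => simp [Polynomial.coeff_one]
  | cons a m ih =>
    have ha := h a (Multiset.mem_cons_self _ _)
    simp only [Multiset.map_cons, Multiset.prod_cons, Multiset.sum_cons]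
    rw [coeff_lin a _ 0, coeff_lin0, zero_add, ih fun t ht => h t (Multiset.mem_cons_of_mem ht)]
    field_simp
    ring

theorem amgm (c : ℝ) (hc : 0 < c) (m : Multiset ℂ) (h : ∀ t ∈ m, t.re < 0) :
    2 * (m.card : ℝ) ≤ c * (m.map fun t => -t.re).sum + (m.map fun t => (-t.re)⁻¹).sum / c := by
  induction m using Multiset.induction_on with
  | empty => simp
  | cons a m ih =>
    have ha : 0 < -a.re := neg_pos.2 (h a (Multiset.mem_cons_self _ _))
    have := ih fun t ht => h t (Multiset.mem_cons_of_mem ht)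
    have h2 : 2 ≤ c * -a.re + (-a.re)⁻¹ / c := by
      have h3 : 0 < c * -a.re := mul_pos hc ha
      rw [div_eq_mul_inv, ← mul_inv, mul_comm (-a.re) c, ← sub_nonneg]
      have : ∀ x : ℝ, x ≠ 0 → x + x⁻¹ - 2 = (x - 1) ^ 2 / x := fun x hx => by
        field_simp
        ring
      rw [this _ h3.ne']
      positivity
    simp only [Multiset.map_cons, Multiset.sum_cons, Multiset.card_cons]
    push_cast
    rw [add_div]
    linarith

theorem cast_sum (m : Multiset ℂ) (f : ℂ → ℝ) (g : ℂ → ℂ) (h : ∀ t ∈ m, (f t : ℂ) = g t) :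
    (((m.map f).sum : ℝ) : ℂ) = (m.map g).sum := by
  induction m using Multiset.induction_on with
  | empty => simp
  | cons a m ih =>
    simp only [Multiset.map_cons, Multiset.sum_cons, Complex.ofReal_add]
    rw [h a (Multiset.mem_cons_self _ _), ih fun t ht => h t (Multiset.mem_cons_of_mem ht)]

end Pf

open Pf

theorem pf : PFStmt := by
  intro p s hp hr hd h
  induction hn : p.natDegree using Nat.strong_induction_on generalizing p s with
  | _ n ih =>
    by_cases hc : ∀ z, p.IsRoot z → ¬ s.IsRoot z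
    · exact pf_cop p s hp hr hd h hc
    by_cases hs : s = 0
    · exact ⟨0, ∅, 0, 0, by simp, by simp [hs]⟩
    push Not at hc
    obtain ⟨μ, h1, h2⟩ := hc
    obtain ⟨p1, rfl⟩ := dvd_iff_isRoot.2 h1
    obtain ⟨s1, rfl⟩ := dvd_iff_isRoot.2 h2
    have hp1 : p1 ≠ 0 := right_ne_zero_of_mul hp
    have hs1 : s1 ≠ 0 := right_ne_zero_of_mul hs
    rw [natDegree_mul (X_sub_C_ne_zero _) hp1, natDegree_X_sub_C] at hd hn
    rw [natDegree_mul (X_sub_C_ne_zero _) hs1, natDegree_X_sub_C] at hd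
    obtain ⟨c, Λ, ρ, d, h3, h4⟩ := ih p1.natDegree (by omega) p1 s1 hp1
      (fun z hz => hr z (by rw [IsRoot, eval_mul, hz.eq_zero, mul_zero])) (by omega)
      (fun z hz => by
        have h5 := h z hz
        have e : ((X - C μ) * s1).eval z * conj (((X - C μ) * p1).eval z) =
            (Complex.normSq (z - μ) : ℂ) * (s1.eval z * conj (p1.eval z)) := by
          rw [← Complex.mul_conj]
          simp only [eval_mul, eval_sub, eval_X, eval_C, map_mul]
          ring
        rw [e, Complex.im_ofReal_mul] at h5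
        have h6 : 0 < Complex.normSq (z - μ) := Complex.normSq_pos.2 (sub_ne_zero.2 fun e => by
          rw [e, hr μ h1] at hz
          exact lt_irrefl _ hz)
        exact nonpos_of_mul_nonpos_right h5 h6 |> fun h => h) rfl
    refine ⟨c, Λ, ρ, fun l => (X - C μ) * d l, fun l hl => ⟨(h3 l hl).1, ?_⟩, ?_⟩
    · rw [mul_left_comm, ← (h3 l hl).2]
    · rw [h4, mul_add, Finset.mul_sum]
      simp only [mul_left_comm]

theorem har : HarStmt := by
  intro n σ z w hz
  have h0 : 0 < |z.im| := abs_pos.2 fun e => by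
    rw [e, mul_zero] at hz
    exact lt_irrefl _ hz
  set K := 1 + ‖w - z‖ / |z.im| with hK
  have K1 : 1 ≤ K := le_add_of_nonneg_right (by positivity)
  refine ⟨(K ^ n)⁻¹, by positivity, fun p hp hr => ?_⟩
  have h1 := prod_le K (by positivity) z w p.roots fun t ht => by
    have h2 := hr t (isRoot_of_mem_roots ht)
    have h3 : |z.im| ≤ ‖z - t‖ := by
      refine le_trans ?_ (Complex.abs_im_le_norm _)
      rw [Complex.sub_im]
      refine sq_le_sq.1 ?_
      have : z.im * t.im ≤ 0 := by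
        by_contra h4
        push Not at h4
        nlinarith [mul_pos hz h4, mul_self_pos.2 (abs_pos.1 h0)]
      nlinarith [sq_nonneg t.im]
    have h4 : ‖w - z‖ ≤ ‖w - z‖ / |z.im| * ‖z - t‖ := by
      rw [div_mul_eq_mul_div, le_div_iff₀ h0]
      exact mul_le_mul_of_nonneg_left h3 (norm_nonneg _)
    have h5 := norm_sub_le_norm_sub_add_norm_sub w z t
    rw [hK]
    linarith
  rw [card_roots] at h1
  rw [inv_mul_le_iff₀ (by positivity), ← C_leadingCoeff_mul_prod_multiset_X_sub_C (card_roots p)]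
  simp only [eval_mul, eval_C, norm_mul]
  rw [mul_left_comm]
  refine mul_le_mul_of_nonneg_left (h1.trans ?_) (norm_nonneg _)
  exact mul_le_mul_of_nonneg_right (pow_le_pow_right₀ K1 hp) (norm_nonneg _)

theorem bar : BarStmt := by
  intro r p s φ δ hr hp hs ha hroot him hφ h1 hδ
  classical
  obtain ⟨k, rfl⟩ : ∃ k, r = k + 1 := ⟨r - 1, by omega⟩
  simp only [Nat.add_sub_cancel]
  have hn : p.natDegree = k + 1 := le_antisymm hp (le_natDegree_of_ne_zero ha)
  have hp0 : p ≠ 0 := by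
    rintro rfl
    exact ha rfl
  have hl : p.leadingCoeff = p.coeff (k + 1) := by rw [← hn, coeff_natDegree]
  set a := p.coeff (k + 1) with ha'
  have hc := card_roots p
  have e := C_leadingCoeff_mul_prod_multiset_X_sub_C hc
  rw [hl] at e
  rw [hn] at hc
  have hR : ∀ t ∈ p.roots, t.im = 0 ∧ t.re < 0 := fun t ht => hroot t (isRoot_of_mem_roots ht)
  have h00 : p.coeff 0 ≠ 0 := fun h => by
    have := (hroot 0 (by rwa [IsRoot, ← coeff_zero_eq_eval_zero])).2
    simp at this
  set A := (p.roots.map fun t => -t.re).sum with hA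
  set B := (p.roots.map fun t => (-t.re)⁻¹).sum with hB
  have ck : p.coeff k = a * A := by
    have := multiset_prod_X_sub_C_coeff_card_pred p.roots (by omega)
    rw [hc, Nat.add_sub_cancel] at this
    rw [← congrArg (coeff · k) e, coeff_C_mul, this, hA, cast_sum _ _ (fun t => -t) fun t ht => by
      rw [Complex.ofReal_neg, re_eq (hR t ht).1], Multiset.sum_map_neg, Multiset.map_id']
  have c1 : p.coeff 1 = p.coeff 0 * B := by
    have := coeff_fst p.roots fun t ht h => by simpa [h] using (hR t ht).2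
    rw [hB, cast_sum _ _ (fun t => (-t)⁻¹) fun t ht => by
      rw [Complex.ofReal_inv, Complex.ofReal_neg, re_eq (hR t ht).1]]
    conv_lhs => rw [← e, coeff_C_mul, this, ← mul_assoc, ← coeff_C_mul, e]
  rw [c1, mul_div_cancel_left₀ _ h00, Complex.ofReal_re] at h1
  have hk : (1 : ℝ) ≤ k := by exact_mod_cast (by omega : 1 ≤ k)
  have hD : ∀ t ∈ p.roots, -t.re ≤ A - ((k + 1 : ℕ) : ℝ) * δ := fun t ht => by
    have h2 := amgm (φ / k) (by positivity) (p.roots.erase t) fun u hu =>
      (hR u (Multiset.mem_of_mem_erase hu)).2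
    rw [Multiset.card_erase_of_mem ht, hc, Nat.pred_succ] at h2
    rw [← Multiset.cons_erase ht, Multiset.map_cons, Multiset.sum_cons] at hA hB
    set A' := ((p.roots.erase t).map fun t => -t.re).sum
    set B' := ((p.roots.erase t).map fun t => (-t.re)⁻¹).sum
    have h3 : B' ≤ φ := by linarith [inv_pos.2 (neg_pos.2 (hR t ht).2)]
    have h4 : B' / (φ / k) ≤ k := by
      rw [div_le_iff₀ (by positivity), mul_div_cancel₀ _ (by positivity)]
      exact h3
    have h5 : (k : ℝ) ≤ φ / k * A' := by linarith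
    rw [div_mul_eq_mul_div, le_div_iff₀ (by positivity)] at h5
    have h6 : ((k + 1 : ℕ) : ℝ) * δ * φ ≤ A' * φ := by
      rw [hδ]
      push_cast
      nlinarith
    linarith [le_of_mul_le_mul_right h6 hφ]
  set D := A - ((k + 1 : ℕ) : ℝ) * δ with hD'
  have D0 : 0 < D := by
    obtain ⟨t, ht⟩ := Multiset.card_pos_iff_exists_mem.1 (show 0 < p.roots.card by omega)
    linarith [hD t ht, (hR t ht).2]
  have den : p.coeff k - ((k + 1 : ℕ) : ℂ) * δ * a = a * D := by
    rw [ck, hD']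
    push_cast
    ring
  have D1 : (D : ℂ) ≠ 0 := Complex.ofReal_ne_zero.2 D0.ne'
  rw [den]
  refine ⟨mul_ne_zero ha D1, ?_⟩
  obtain ⟨c, Λ, ρ, d, h2, h3⟩ := pf p s hp0 (fun z hz => (hroot z hz).1) (hn ▸ hs) him
  have lr : ∀ l ∈ Λ, (l : ℂ) ∈ p.roots := fun l hl => (mem_roots hp0).2 (by
    rw [(h2 l hl).2]
    simp)
  have l0 : ∀ l ∈ Λ, l < 0 := fun l hl => (hR _ (lr l hl)).2
  have d1 : ∀ l ∈ Λ, (d l).coeff (k + 1) = 0 := fun l hl => by
    have h4 := congrArg natDegree (h2 l hl).2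
    rw [natDegree_mul (X_sub_C_ne_zero _) (fun h0 => hp0 (by rw [(h2 l hl).2, h0, mul_zero])),
      natDegree_X_sub_C] at h4
    exact coeff_eq_zero_of_natDegree_lt (by omega)
  have d2 : ∀ l ∈ Λ, (d l).coeff k = a := fun l hl => by
    have h4 := coeff_lin l (d l) k
    rw [← (h2 l hl).2, d1 l hl, mul_zero, sub_zero] at h4
    exact h4.symm
  have d3 : ∀ l ∈ Λ, (d l).coeff 0 = p.coeff 0 * ((-l)⁻¹ : ℝ) := fun l hl => by
    have h4 := coeff_lin0 l (d l)
    have h5 : (l : ℂ) ≠ 0 := Complex.ofReal_ne_zero.2 (l0 l hl).ne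
    rw [← (h2 l hl).2] at h4
    rw [h4]
    push_cast
    field_simp
  have sc : ∀ m, s.coeff m = c * p.coeff m + ∑ l ∈ Λ, (ρ l : ℂ) * (d l).coeff m := fun m => by
    conv_lhs => rw [h3]
    simp only [coeff_add, coeff_C_mul, finsetSum_coeff]
  have s1 : (s.coeff k - ((k + 1 : ℕ) : ℂ) * δ * s.coeff (k + 1)) / (a * D) =
      c + ((∑ l ∈ Λ, ρ l * D⁻¹ : ℝ) : ℂ) := by
    rw [sc, sc, Finset.sum_congr rfl fun l hl => by rw [d2 l hl],
      Finset.sum_eq_zero (s := Λ) (f := fun l => (ρ l : ℂ) * (d l).coeff (k + 1))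
        fun l hl => by rw [d1 l hl, mul_zero], ← Finset.sum_mul, ← Finset.sum_mul,
      div_eq_iff (mul_ne_zero ha D1), add_mul, ← den]
    push_cast
    rw [← ha']
    have : (∑ l ∈ Λ, (ρ l : ℂ)) * (D : ℂ)⁻¹ * (p.coeff k - ((k : ℂ) + 1) * δ * a) =
        (∑ l ∈ Λ, (ρ l : ℂ)) * a := by
      push_cast at den
      rw [den]
      field_simp
    rw [this]
    ring
  have s2 : s.coeff 0 / p.coeff 0 = c + ((∑ l ∈ Λ, ρ l * (-l)⁻¹ : ℝ) : ℂ) := by
    rw [sc, div_eq_iff h00, add_mul, Complex.ofReal_sum, Finset.sum_mul]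
    congr 1
    exact Finset.sum_congr rfl fun l hl => by
      rw [d3 l hl, Complex.ofReal_mul]
      ring
  rw [s1, s2, Complex.add_re, Complex.add_re, Complex.ofReal_re, Complex.ofReal_re]
  refine add_le_add_right (Finset.sum_le_sum fun l hl => ?_) _
  exact mul_le_mul_of_nonneg_left (inv_anti₀ (neg_pos.2 (l0 l hl)) (hD _ (lr l hl))) (h2 l hl).1

end Vale.Agent.P078
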