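import Vale.Agent.P078.A1
import Vale.Agent.P078.PF

/-! The greedy colouring. -/

namespace Vale.Agent.P078

open Finset Polynomial Filter Topology
open scoped ComplexConjugate Pointwise Classical

/-- The interlacing property of the potential. -/
def QP (Q : ℝ[X]) (θ : ℝ) : Prop :=
  ∀ (r : ℕ) (w : Fin r → ℝ) (p₀ p : ℂ[X]) (q : Fin r → ℂ[X]), (∀ c, 0 ≤ w c) → ∑ c, w c = 1 →
    p = ∑ c, C (w c : ℂ) * q c → RR p₀ → RR p → (∀ c, RR (q c)) →
    (∀ c, (q c).natDegree = p₀.natDegree + 1) → p.natDegree = p₀.natDegree + 1 →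
    (∀ c (z : ℂ), 0 < z.im → 0 < ((q c).eval z / p₀.eval z).im) →
    ∃ c, trQ Q (q c) ≤ trQ Q p + θ

section Top

variable {Ω : Type*} [TopologicalSpace Ω] {m : ℕ} {σ : Ω → Fin m → ℂ} {e : Set Ω}
  {col : Ω → Fin m}

theorem cont_lc {α : Type*} {t : Ω → α} (ht : IsLocallyConstant t) {f : α → Ω → ℝ}
    (hf : ∀ a, Continuous (f a)) : Continuous fun ω => f (t ω) ω :=
  continuous_iff_continuousAt.2 fun ω => (hf (t ω)).continuousAt.congr
    ((ht.eventually_eq ω).mono fun _ e => by simp only [e])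

theorem lc_mem (he : IsClopen e) : IsLocallyConstant fun ω => ω ∈ e :=
  (IsLocallyConstant.iff_eventually_eq _).2 fun ω => by
    by_cases h : ω ∈ e
    · exact mem_of_superset (he.isOpen.mem_nhds h) fun _ a => propext (iff_of_true a h)
    · exact mem_of_superset (he.compl.isOpen.mem_nhds h) fun _ a => propext (iff_of_false a h)

/-- Indicator functions. -/
noncomputable def ind {Ω : Type*} (e : Set Ω) (ω : Ω) : ℝ := if ω ∈ e then 1 else 0

theorem ind_cont (he : IsClopen e) : Continuous (ind e) :=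
  cont_lc (lc_mem he) (f := fun p _ => if p then 1 else 0) fun _ => continuous_const

omit [TopologicalSpace Ω] in
theorem ind_nn (ω : Ω) : 0 ≤ ind e ω := by
  rw [ind]
  positivity

/-- Fix the colours on `e`. -/
noncomputable def ov {Ω : Type*} (e : Set Ω) (col : Ω → Fin m) (σ : Ω → Fin m → ℂ) (ω : Ω) :
    Fin m → ℂ := if ω ∈ e then Pi.single (col ω) 1 else σ ω

omit [TopologicalSpace Ω] in
theorem Prob.ov (h : Prob σ) (e : Set Ω) (col : Ω → Fin m) : Prob (ov e col σ) := fun ω => by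
  rw [P078.ov]
  split_ifs
  · refine ⟨fun c => ⟨if c = col ω then 1 else 0, by positivity, ?_⟩, by simp⟩
    rw [Pi.single_apply]
    split_ifs <;> simp
  · exact h ω

theorem ov_lc (h : IsLocallyConstant σ) (he : IsClopen e) (hc : IsLocallyConstant col) :
    IsLocallyConstant (ov e col σ) :=
  (IsLocallyConstant.iff_eventually_eq _).2 fun ω => by
    filter_upwards [(lc_mem he).eventually_eq ω, hc.eventually_eq ω, h.eventually_eq ω]
      with _ e1 e2 e3
    simp only [ov, e1, e2, e3]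

theorem ex_col [CompactSpace Ω] [T2Space Ω] [TotallyDisconnectedSpace Ω] [NeZero m]
    {f : Fin m → Ω → ℝ} (hf : ∀ c, Continuous (f c)) {θ : ℝ} (hθ : 0 < θ) :
    ∃ col : Ω → Fin m, IsLocallyConstant col ∧ ∀ ω c, f (col ω) ω ≤ f c ω + θ := by
  obtain ⟨n, g, h, h1, h2⟩ := ContinuousMap.exists_finite_approximation_of_mem_nhds_diagonal
    (S := {p | dist p.1 p.2 < θ / 2}) ⟨fun ω c => f c ω, continuous_pi hf⟩
    ((isOpen_lt continuous_dist continuous_const).mem_nhdsSet.2 (by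
      rintro ⟨a, b⟩ (rfl : a = b)
      simpa using hθ))
  choose k hk using fun i => Finite.exists_min (h i)
  refine ⟨fun ω => k (g ω), ((IsLocallyConstant.iff_continuous g).2 h1).comp k, fun ω c => ?_⟩
  have a := fun c => (dist_le_pi_dist _ _ c).trans_lt (h2 ω)
  simp only [Real.dist_eq, abs_lt, ContinuousMap.coe_mk] at a
  linarith [(a c).1, (a (k (g ω))).2, hk (g ω) c]

end Top

namespace Fib

variable {Ω Γ R : Type*} [TopologicalSpace Ω] [Group Γ] [MulAction Γ Ω] [Ring R]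
  [StarRing R] [Algebra ℂ R] {F : Fib Ω Γ R} {ω : Ω} {m : ℕ} {σ : Ω → Fin m → ℂ} {e : Set Ω}
  {Q : ℝ[X]} {θ : ℝ}

theorem I_sum {α : Type*} (s : Finset α) {f : α → Ω → ℝ} (hf : ∀ i, Continuous (f i)) :
    F.I (fun ω => ∑ i ∈ s, f i ω) = ∑ i ∈ s, F.I (f i) := by
  induction s using Finset.induction_on with
  | empty => simpa using F.I_smul 0 (f := fun _ => 0) continuous_const
  | insert i s hi ih =>
    simp only [sum_insert hi]
    rw [F.I_add (hf i) (continuous_finset_sum _ fun i _ => hf i), ih]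

theorem I_const (c : ℝ) : F.I (fun _ => c) = c := by
  simpa [F.I_one] using F.I_smul c (f := fun _ => 1) continuous_const

variable (F) in
/-- Separated sets. -/
def Sep (K : ℕ) (e : Set Ω) : Prop :=
  ∀ b ∈ F.B ^ K, ∀ b' ∈ F.B ^ K, ∀ ω ∈ e, (b * b') • ω ∈ e → F.rel ω 1 (b * b')

theorem cost [StarModule ℂ R] (hQ : QP Q θ) (hσ : Prob σ) (hs : F.Sep Q.natDegree e) (hω : ω ∈ e) :
    ∃ c, ∑ w ∈ F.V ω Q.natDegree,
      (F.a Q (ov e (fun _ => c) σ) (w • ω) - F.a Q σ (w • ω)) ≤ θ := by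
  set K := Q.natDegree
  have hπ : Prob fun g : Γ => σ (g • ω) := fun g => hσ _
  have hm : ∀ b ∈ F.B ^ K, ∀ b' ∈ F.B ^ K,
      F.r ω (b * b') ∈ (F.B ^ K * F.B ^ K).image (F.r ω) := fun b hb b' hb' =>
    mem_image_of_mem _ (mul_mem_mul hb hb')
  obtain ⟨c, hc⟩ := upd (X_hc (F := F) ω) hπ hQ (hm 1 (one_mem K) 1 (one_mem K))
  rw [mul_one, ← sub_le_iff_le_add', ← sum_sub_distrib] at hc
  have h1 := fun v => ((hπ.update (F.r ω 1) c) v).2
  have h2 := fun v => (hπ v).2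
  refine ⟨c, le_of_eq_of_le ?_ hc⟩
  rw [← sum_subset (s₁ := F.V ω K) (image_subset_image fun b hb => by
    simpa using Finset.mul_mem_mul (one_mem K) hb) fun v hv hn => ?_]
  · refine sum_congr rfl fun v hv => ?_
    obtain ⟨b, hb, rfl⟩ := mem_image.1 hv
    rw [r_smul, aQ_tr (σ := ov e (fun _ => c) σ) Q h1 fun b' hb' => ⟨hm b' hb' b hb, ?_⟩,
      aQ_tr (σ := σ) Q h2 fun b' hb' => ⟨hm b' hb' b hb, by rw [r_smul]⟩]
    by_cases a : F.r ω (b' * b) = F.r ω 1
    · rw [a, Function.update_self, (rel_of_r a).smul, one_smul, ov, if_pos hω]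
    · rw [Function.update_of_ne a, ov, if_neg fun a' => a (hs b' hb' b hb ω hω a').r_eq.symm,
        r_smul]
  · obtain ⟨g, -, rfl⟩ := mem_image.1 hv
    rw [sub_eq_zero]
    refine aQ_loc Q h1 h2 fun b hb => ⟨Iff.rfl, Function.update_of_ne (fun a => hn ?_) _ _⟩
    have := ((rel_of_r a).left b⁻¹).r_eq
    rw [inv_mul_cancel_left, mul_one] at this
    exact this ▸ mem_image_of_mem _ (inv_mem hb)

theorem transport [CompactSpace Ω] {K : ℕ} {d : Ω → ℝ} (hd : Continuous d) (he : IsClopen e)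
    (hs : F.Sep K e) (h0 : ∀ ω, (∀ b ∈ F.B ^ K, b • ω ∉ e) → d ω = 0) :
    F.I d = F.I fun ω => ind e ω * ∑ w ∈ F.V ω K, d (w • ω) := by
  set T := (V_lc (F := F) K).range_finite.toFinset.biUnion id
  have hT : ∀ ω, F.V ω K ⊆ T := fun ω w hw =>
    mem_biUnion.2 ⟨_, (Set.Finite.mem_toFinset _).2 ⟨ω, rfl⟩, hw⟩
  let f : Γ → Ω → ℝ := fun w ω => if ω ∈ e ∧ w ∈ F.V ω K then d (w • ω) else 0
  have hf : ∀ w, Continuous (f w) := fun w =>
    cont_lc ((lc_mem he).prodMk (V_lc (F := F) K))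
      (f := fun p ω => if p.1 ∧ w ∈ p.2 then d (w • ω) else 0) fun p => by
      split_ifs
      exacts [hd.comp (F.cact w), continuous_const]
  have e1 : ∀ ω, ind e ω * ∑ w ∈ F.V ω K, d (w • ω) = ∑ w ∈ T, f w ω := fun ω => by
    by_cases a : ω ∈ e
    · simp [ind, f, a, inter_eq_right.2 (hT ω)]
    · simp [ind, f, a]
  have e2 : ∀ ω, d ω = ∑ w ∈ T, f w (w⁻¹ • ω) := fun ω => by
    simp only [f, smul_inv_smul]
    by_cases a : ∃ b ∈ F.B ^ K, b • ω ∈ e
    · obtain ⟨b, hb, a⟩ := a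
      have k : (F.r (b • ω) b⁻¹)⁻¹ • ω = b • ω := by rw [inv_smul_eq_iff, r_smul, inv_smul_smul]
      have k2 : F.r (b • ω) b⁻¹ ∈ F.V (b • ω) K := mem_image_of_mem _ (inv_mem hb)
      refine ((sum_eq_single_of_mem _ (hT _ k2) fun w _ hw => if_neg fun a' => hw ?_).trans
        (if_pos (by rw [k]; exact ⟨a, k2⟩))).symm
      obtain ⟨a1, a2⟩ := a'
      obtain ⟨c, hc, a3⟩ := mem_image.1 a2
      have a4 : c • w⁻¹ • ω = ω := by rw [← r_smul (F := F), a3, smul_inv_smul]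
      have a5 := hs b hb c hc _ a1 (by rwa [mul_smul, a4])
      have a6 := a5.smul
      rw [one_smul, mul_smul, a4] at a6
      have a7 := (a5.left b⁻¹).r_eq
      rw [inv_mul_cancel_left, mul_one, a3, a6] at a7
      exact a7.symm
    · simp [h0 ω fun b hb a' => a ⟨b, hb, a'⟩]
  simp only [e1]
  rw [I_sum T hf, funext e2, I_sum T (f := fun w ω => f w (w⁻¹ • ω))
    fun w => (hf w).comp (F.cact _)]
  exact sum_congr rfl fun w _ => F.I_act _ (hf w)

variable [StarModule ℂ R] [CompactSpace Ω] [T2Space Ω] [TotallyDisconnectedSpace Ω] [NeZero m]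

theorem step (hQ : QP Q θ) (hθ : 0 < θ) (hσ : Prob σ) (hl : IsLocallyConstant σ) (he : IsClopen e)
    (hs : F.Sep Q.natDegree e) : ∃ col, IsLocallyConstant col ∧
      F.I (F.a Q (ov e col σ)) ≤ F.I (F.a Q σ) + 2 * θ * F.I (ind e) := by
  have c0 := a_cont (F := F) Q (fun ω => (hσ ω).2) hl
  have c1 : ∀ col, IsLocallyConstant col → Continuous (F.a Q (ov e col σ)) := fun col hc =>
    a_cont Q (fun ω => (hσ.ov e col ω).2) (ov_lc hl he hc)
  have c2 : ∀ {d : Ω → ℝ}, Continuous d →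
      Continuous fun ω => ∑ w ∈ F.V ω Q.natDegree, d (w • ω) := fun {d} hd =>
    cont_lc (V_lc (F := F) _) (f := fun W ω => ∑ w ∈ W, d (w • ω)) fun W =>
      continuous_finset_sum _ fun w _ => hd.comp (F.cact w)
  obtain ⟨col, h1, h2⟩ := ex_col (fun c => c2 ((c1 _ (IsLocallyConstant.const c)).fun_sub c0)) hθ
  have c3 := (c1 col h1).fun_sub c0
  refine ⟨col, h1, ?_⟩
  rw [show F.a Q (ov e col σ) = fun ω => F.a Q σ ω + (F.a Q (ov e col σ) ω - F.a Q σ ω) by simp,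
    F.I_add c0 c3, transport c3 he hs fun ω h => sub_eq_zero.2 (a_congr Q
      (fun ω => (hσ.ov e col ω).2) fun b hb => if_neg (h b hb)), ← F.I_smul _ (ind_cont he)]
  refine add_le_add_right (F.I_mono ((ind_cont he).fun_mul (c2 c3))
    ((ind_cont he).const_mul _) fun ω => ?_) _
  by_cases a : ω ∈ e
  · obtain ⟨c, hc⟩ := cost hQ hσ hs a
    rw [ind, if_pos a, one_mul, mul_one, two_mul]
    refine le_of_eq_of_le (sum_congr rfl fun w hw => ?_) ((h2 ω c).trans (add_le_add_left hc _))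
    obtain ⟨b, hb, rfl⟩ := mem_image.1 hw
    rw [r_smul, a_congr (σ' := ov e (Function.const _ (col ω)) σ) Q
      (fun ω => (hσ.ov e col ω).2) fun b' hb' => ?_]
    rw [ov, ov, ← mul_smul]
    split_ifs with a'
    · rw [← (hs b' hb' b hb ω a a').smul, one_smul, Function.const_apply]
    · rfl
  · simp [ind, a]

omit [CompactSpace Ω] [T2Space Ω] [TotallyDisconnectedSpace Ω] [NeZero m] in
theorem a_bd (hσ : Prob σ) (h : ∀ t, |t| ≤ 1 → -θ ≤ Q.eval t ∧ Q.eval t ≤ 4) (ω : Ω) :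
    -θ ≤ F.a Q σ ω ∧ F.a Q σ ω ≤ 4 :=
  aQ_rep pf (X_hc ω) (fun _ => hσ _) Q (mem_image_of_mem _ (one_mem _)) fun l hl =>
    h l ((chi_RR (X_hc ω) (fun _ => hσ _) _ _ (by simp)).2 _ hl).2

omit [CompactSpace Ω] [T2Space Ω] [TotallyDisconnectedSpace Ω] in
theorem left (hθ : θ ≤ 1) (h : ∀ t, |t| ≤ 1 → -θ ≤ Q.eval t ∧ Q.eval t ≤ 4) (hσ : Prob σ)
    (hl : IsLocallyConstant σ) (he : IsClopen e) : F.I (F.a Q (ov e (fun _ => 0) σ)) ≤
      F.I (F.a Q σ) + 5 * #(F.B ^ Q.natDegree) * F.I (ind e) := by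
  have c0 := a_cont (F := F) Q (fun ω => (hσ ω).2) hl
  have c1 : ∀ b : Γ, Continuous fun ω => ind e (b • ω) := fun b => (ind_cont he).comp (F.cact b)
  have c2 := continuous_finset_sum (F.B ^ Q.natDegree) fun b _ => c1 b
  have hp := hσ.ov e fun _ => 0
  refine (F.I_mono (a_cont Q (fun ω => (hp ω).2) (ov_lc hl he (IsLocallyConstant.const 0)))
    (c0.fun_add (c2.const_mul 5)) fun ω => ?_).trans_eq ?_
  · by_cases a : ∃ b ∈ F.B ^ Q.natDegree, b • ω ∈ e
    · obtain ⟨b, hb, a⟩ := a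
      have := single_le_sum (f := fun b => ind e (b • ω)) (fun _ _ => ind_nn _) hb
      rw [ind, if_pos a] at this
      linarith [(a_bd (F := F) hσ h ω).1, (a_bd (F := F) hp h ω).2]
    · rw [a_congr (σ' := σ) Q (fun ω => (hp ω).2) fun b hb => if_neg fun a' => a ⟨b, hb, a'⟩]
      linarith [sum_nonneg (s := F.B ^ Q.natDegree) fun b _ => ind_nn (e := e) (b • ω)]
  · rw [F.I_add c0 (c2.const_mul 5), F.I_smul _ c2, I_sum _ c1]
    simp only [F.I_act _ (ind_cont he), sum_const, nsmul_eq_mul, mul_assoc]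

theorem steps (hQ : QP Q θ) (hθ : 0 < θ) (hσ : Prob σ) (hl : IsLocallyConstant σ) {n : ℕ}
    {e : Fin n → Set Ω} (he : ∀ j, IsClopen (e j)) (hs : ∀ j, F.Sep Q.natDegree (e j))
    (J : Finset (Fin n)) : ∃ σ' : Ω → Fin m → ℂ, Prob σ' ∧ IsLocallyConstant σ' ∧
      (∀ j ∈ J, ∀ ω ∈ e j, ∃ c, σ' ω = Pi.single c 1) ∧
      F.I (F.a Q σ') ≤ F.I (F.a Q σ) + 2 * θ * ∑ j ∈ J, F.I (ind (e j)) := by
  induction J using Finset.induction_on with
  | empty => exact ⟨σ, hσ, hl, by simp, by simp⟩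
  | insert i J hi ih =>
    obtain ⟨τ, t1, t2, t3, t4⟩ := ih
    obtain ⟨col, h1, h2⟩ := step hQ hθ t1 t2 (he i) (hs i)
    refine ⟨_, t1.ov _ col, ov_lc t2 (he i) h1, fun j hj ω hω => ?_, by
      rw [sum_insert hi]; linarith⟩
    by_cases a : ω ∈ e i
    · exact ⟨_, if_pos a⟩
    · rw [ov, if_neg a]
      exact t3 j ((mem_insert.1 hj).resolve_left fun a' => a (a' ▸ hω)) ω hω

end Fib

end Vale.Agent.P078
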