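import Vale.Agent.P078.A2

/-! The potential of a deterministic colouring. -/

namespace Vale.Agent.P078

open Finset Polynomial Filter Topology
open scoped ComplexConjugate Pointwise Classical

namespace Fib

variable {Ω Γ R : Type*} [TopologicalSpace Ω] [Group Γ] [MulAction Γ Ω] [Ring R]
  [StarRing R] [Algebra ℂ R] {F : Fib Ω Γ R} {ω : Ω} {m : ℕ} {Q : ℝ[X]} {θ : ℝ}

theorem V_rep {K : ℕ} {i : Γ} (h : i ∈ F.V ω K) : F.r ω i = i := by
  obtain ⟨b, -, rfl⟩ := mem_image.1 h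
  exact r_r

theorem res {K : ℕ} {g : Γ} (hg : F.r ω g ∈ F.V ω K) (w : R) :
    F.φ ω (w * F.ρ g) = ∑ i ∈ F.V ω K, F.φ ω (w * F.ρ i) * F.φ ω (F.ρ (i⁻¹ * g)) := by
  rw [sum_eq_single_of_mem _ hg fun i hi e => ?_, ← (rel_r ω g).symm.mulr]
  have : ¬F.rel ω i g := fun a => e (by rw [← a.r_eq, V_rep hi])
  rw [not_not.1 this, mul_zero]

theorem xres {K : ℕ} {j : Γ} (hj : F.r ω j = j) (hg : ∀ s ∈ F.B, F.r ω (s * j) ∈ F.V ω K) (w : R) :
    F.φ ω (w * F.x * F.ρ j) = ∑ i ∈ F.V ω K, F.φ ω (w * F.ρ i) * F.X ω i j := by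
  have k : ∀ w, F.φ ω (w * F.x * F.ρ j) = ∑ s ∈ F.B, F.cf s * F.φ ω (w * F.ρ (s * j)) := fun w => by
    rw [F.x_eq, mul_sum, sum_mul, map_sum]
    simp only [mul_smul_comm, smul_mul_assoc, map_smul, smul_eq_mul, map_mul F.ρ, mul_assoc]
  rw [k, sum_congr rfl fun s hs => by rw [res (hg s hs), mul_sum], sum_comm]
  refine sum_congr rfl fun i hi => ?_
  rw [Fib.X, if_pos ⟨V_rep hi, hj⟩, k, mul_sum]
  exact sum_congr rfl fun s _ => by rw [map_mul F.ρ i⁻¹]; ring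

theorem wk_supp (S : Finset Γ) (k : ℕ) :
    ∀ j, wk (F.X ω) S (F.r ω 1) k j ≠ 0 → ∃ b ∈ F.B ^ k, F.r ω b = j := by
  induction k with
  | zero => exact fun j h => ⟨1, by simp, by_contra fun a => h (if_neg fun e => a e.symm)⟩
  | succ k ih =>
    intro i h
    obtain ⟨j, -, h⟩ := exists_ne_zero_of_sum_ne_zero h
    obtain ⟨b, hb, rfl⟩ := ih j (right_ne_zero_of_mul h)
    obtain ⟨-, s, hs, e⟩ := X_ne (left_ne_zero_of_mul h)
    exact ⟨s * b, by rw [pow_succ']; exact Finset.mul_mem_mul hs hb,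
      ((rel_r ω b).left s).r_eq.trans e⟩

variable {col : Ω → Fin m} {p : Fin m → R}

theorem pw (hp : ∀ c ω w, F.φ ω (w * p c) = if col ω = c then F.φ ω w else 0) {K k : ℕ}
    (hk : k ≤ K) (w : R) : F.φ ω (w * (∑ c, p c * F.x * p c) ^ k * F.ρ (F.r ω 1)) =
      ∑ j ∈ (F.V ω K).filter fun i => col (i • ω) = col (F.r ω 1 • ω), F.φ ω (w * F.ρ j) *
        wk (F.X ω) ((F.V ω K).filter fun i => col (i • ω) = col (F.r ω 1 • ω)) (F.r ω 1) k j := by
  have h1 : ∀ h w, F.φ (h • ω) (F.ρ h * w) = F.φ ω (w * F.ρ h) := fun h w => by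
    rw [F.act, ← mul_assoc, ← map_mul, inv_mul_cancel, map_one, one_mul]
  have h2 : ∀ c w h, F.φ ω (w * p c * F.ρ h) =
      if col (h • ω) = c then F.φ ω (w * F.ρ h) else 0 := fun c w h => by
    rw [← h1, ← mul_assoc, hp, h1]
  induction k generalizing w with
  | zero =>
    simp only [wk, mul_ite, mul_one, mul_zero, pow_zero]
    rw [sum_ite_eq']
    refine (if_pos ?_).symm
    exact mem_filter.2 ⟨mem_image_of_mem _ (one_mem K), rfl⟩
  | succ k ih =>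
    rw [pow_succ', ← mul_assoc, ih (Nat.le_of_succ_le hk)]
    simp only [wk, mul_sum]
    rw [sum_comm]
    refine sum_congr rfl fun j hj => ?_
    simp only [← mul_assoc]
    rw [← sum_mul]
    by_cases a : wk (F.X ω) ((F.V ω K).filter fun i => col (i • ω) = col (F.r ω 1 • ω))
      (F.r ω 1) k j = 0
    · rw [a, mul_zero, mul_zero]
    obtain ⟨b, hb, rfl⟩ := wk_supp _ _ _ a
    rw [sum_mul, map_sum]
    simp only [h2, (mem_filter.1 hj).2, sum_ite_eq, mem_univ, if_true]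
    rw [xres (K := K) r_r fun s hs => ?_, sum_filter]
    · simp only [h2, ite_mul, zero_mul]
    · rw [← ((rel_r ω b).left s).r_eq]
      exact mem_image_of_mem _ (pow_subset_pow_right F.B_one hk (by
        rw [pow_succ']; exact Finset.mul_mem_mul hs hb))

theorem a_det (hp : ∀ c ω w, F.φ ω (w * p c) = if col ω = c then F.φ ω w else 0) (ω : Ω) :
    F.a Q (fun ω => Pi.single (col ω) 1) ω = ∑ k ∈ range (Q.natDegree + 1),
      Q.coeff k * (F.φ ω ((∑ c, p c * F.x * p c) ^ k)).re := by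
  rw [a, aQ]
  refine sum_congr rfl fun k hk => ?_
  have o : F.r ω 1 ∈ F.V ω Q.natDegree := mem_image_of_mem _ (one_mem _)
  have := pw (ω := ω) hp (Nat.lt_succ_iff.1 (mem_range.1 hk)) (F.ρ (F.r ω 1)⁻¹)
  rw [← F.act, sum_eq_single_of_mem (F.r ω 1) (by exact mem_filter.2 ⟨o, rfl⟩) fun j hj e => ?_,
    ← map_mul, inv_mul_cancel, map_one, F.one, one_mul] at this
  · rw [mom_det (fun i => col (i • ω)) (fun v c => by rw [Pi.single_apply]; simp only [eq_comm]) o,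
      ← this, r_smul, one_smul]
  · have : ¬F.rel ω (F.r ω 1) j := fun a => e (by
      rw [← V_rep (mem_filter.1 hj).1, ← a.r_eq, r_r])
    rw [← map_mul, not_not.1 this, zero_mul]

theorem main [StarModule ℂ R] [CompactSpace Ω] [T2Space Ω] [TotallyDisconnectedSpace Ω]
    (hm : 2 ≤ m) (h0 : 0 < θ) (h1 : θ ≤ 1) (hQ : QP Q θ)
    (hb : ∀ t, |t| ≤ 1 → -θ ≤ Q.eval t ∧ Q.eval t ≤ 4 ∧ (t ≤ 4 / m → Q.eval t ≤ θ))
    (hs : ∀ η : ℝ, 0 < η → ∃ (n : ℕ) (e : Fin n → Set Ω),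
      (∀ j, IsClopen (e j) ∧ F.Sep Q.natDegree (e j)) ∧
      (∀ i j, i ≠ j → ∀ ω ∈ e i, ω ∉ e j) ∧ 1 - η ≤ ∑ j, F.I (ind (e j))) :
    ∃ col : Ω → Fin (m ^ 2), IsLocallyConstant col ∧ ∀ p : Fin (m ^ 2) → R,
      (∀ c ω w, F.φ ω (w * p c) = if col ω = c then F.φ ω w else 0) →
      F.I (fun ω => ∑ k ∈ range (Q.natDegree + 1),
        Q.coeff k * (F.φ ω ((∑ c, p c * F.x * p c) ^ k)).re) ≤ 4 * θ := by
  have : NeZero (m ^ 2) := ⟨by positivity⟩
  obtain ⟨N, hN⟩ : ∃ N : ℝ, N = #(F.B ^ Q.natDegree) := ⟨_, rfl⟩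
  have N0 : 0 ≤ N := hN ▸ Nat.cast_nonneg _
  obtain ⟨n, e, e1, e2, e3⟩ := hs (θ / (5 * N + 1)) (by positivity)
  have hu : Prob fun (_ : Ω) (_ : Fin (m ^ 2)) => ((m ^ 2 : ℕ) : ℂ)⁻¹ := fun _ =>
    ⟨fun _ => ⟨((m ^ 2 : ℕ) : ℝ)⁻¹, by positivity, by simp⟩, by
      rw [sum_const, card_univ, Fintype.card_fin, nsmul_eq_mul,
        mul_inv_cancel₀ (Nat.cast_ne_zero.2 this.1)]⟩
  obtain ⟨σ, s1, s2, s3, s4⟩ := steps hQ h0 hu (IsLocallyConstant.const _) (fun j => (e1 j).1)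
    (fun j => (e1 j).2) univ
  have s5 := F.I_mono (a_cont (F := F) Q (fun ω => (hu ω).2) (IsLocallyConstant.const _))
    (continuous_const (y := θ)) fun ω => (aQ_rep (a := -θ) pf (X_hc ω) (fun _ => hu ω) Q
      (mem_image_of_mem _ (one_mem _)) fun l hl => by
        have := hb l ((chi_RR (X_hc ω) (fun _ => hu ω) _ _ (by simp)).2 _ hl).2
        exact ⟨this.1, this.2.2 (root_lt har bar (X_hc ω) (X_diag ω) hm _ hl)⟩).2
  have hL : IsClopen (⋃ j, e j)ᶜ := (isClopen_iUnion_of_finite fun j => (e1 j).1).compl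
  have s6 := left (F := F) h1 (fun t ht => ⟨(hb t ht).1, (hb t ht).2.1⟩) s1 s2 hL
  have s7 : (fun _ => 1) = fun ω => ind (⋃ j, e j)ᶜ ω + ∑ j, ind (e j) ω := funext fun ω => by
    simp only [ind]
    by_cases a : ∃ j, ω ∈ e j
    · obtain ⟨j, a⟩ := a
      rw [sum_eq_single j (fun i _ h => if_neg (e2 _ _ h.symm ω a)) (by simp), if_pos a,
        if_neg fun h => h (Set.mem_iUnion.2 ⟨j, a⟩), zero_add]
    · rw [if_pos (by simpa using a), sum_eq_zero fun j _ => if_neg fun h => a ⟨j, h⟩, add_zero]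
  have s8 := F.I_one
  rw [s7, F.I_add (ind_cont hL) (continuous_finset_sum _ fun j _ => ind_cont (e1 j).1),
    I_sum _ fun j => ind_cont (e1 j).1] at s8
  have s9 := F.I_mono continuous_const (ind_cont hL) ind_nn
  rw [I_const] at s5 s9
  have hd : ∀ ω, ∃ c, ov (⋃ j, e j)ᶜ (fun _ => 0) σ ω = Pi.single c 1 := fun ω => by
    rw [ov]
    split_ifs with a
    · exact ⟨_, rfl⟩
    · obtain ⟨j, a⟩ := Set.mem_iUnion.1 (not_not.1 a)
      exact s3 j (mem_univ _) ω a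
  let k : (Fin (m ^ 2) → ℂ) → Fin (m ^ 2) := fun π =>
    if h : ∃ c, π = Pi.single c 1 then h.choose else 0
  refine ⟨k ∘ ov (⋃ j, e j)ᶜ (fun _ => 0) σ, (ov_lc s2 hL (IsLocallyConstant.const 0)).comp k,
    fun p hp => ?_⟩
  have t0 : ov (⋃ j, e j)ᶜ (fun _ => 0) σ =
      fun ω => Pi.single ((k ∘ ov (⋃ j, e j)ᶜ (fun _ => 0) σ) ω) 1 := funext fun ω =>
    (hd ω).choose_spec.trans (congrArg (Pi.single · 1) (dif_pos (hd ω)).symm)
  rw [← funext (a_det hp), ← t0]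
  have t1 : 5 * N * F.I (ind (⋃ j, e j)ᶜ) ≤ θ := by
    have : F.I (ind (⋃ j, e j)ᶜ) * (5 * N + 1) ≤ θ := by
      rw [← le_div_iff₀ (by positivity)]
      linarith
    linarith
  rw [← hN] at s6
  nlinarith

end Fib

end Vale.Agent.P078
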