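import Vale.Agent.P078.A3

/-! The field of fibres of a Cartan pair. -/

namespace Vale.Agent.P078

open Finset Polynomial Filter Topology WeakDual
open scoped ComplexConjugate Pointwise Classical

/-- An abstract tracial pair with normalizing unitaries. -/
structure Cart (D R Γ : Type*) [CommCStarAlgebra D] [CStarAlgebra R] [Group Γ] where
  j : D →⋆ₐ[ℂ] R
  τ : R →ₗ[ℂ] ℂ
  E : R → D
  ρ : Γ →* R
  tr : ∀ y z, τ (y * z) = τ (z * y)
  st : ∀ y, τ (star y) = conj (τ y)
  pos : ∀ y, 0 ≤ (τ (star y * y)).re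
  faith : ∀ a, τ (j (star a * a)) = 0 → a = 0
  one : τ 1 = 1
  hE : ∀ y b, τ (j b * j (E y)) = τ (j b * y)
  nE : ∀ y, ‖E y‖ ≤ ‖y‖
  ρs : ∀ g, star (ρ g) = ρ g⁻¹
  nor : ∀ g a, ∃ b, j b = ρ g⁻¹ * j a * ρ g
  max : ∀ y, (∀ b, j b * y = y * j b) → ∃ a, j a = y

section Gel

variable {D : Type*} [CommCStarAlgebra D]

theorem gel_ext {a b : D} (h : ∀ ω : characterSpace ℂ D, ω a = ω b) : a = b :=
  (gelfandStarTransform D).injective (ContinuousMap.ext h)

theorem gel_cont (a : D) : Continuous fun ω : characterSpace ℂ D => ω a :=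
  (gelfandStarTransform D a).continuous

/-- The element with a given Gelfand transform. -/
noncomputable def lift (f : characterSpace ℂ D → ℝ) : D :=
  if h : ∃ a : D, ∀ ω : characterSpace ℂ D, ω a = f ω then h.choose else 0

theorem lift_spec {f : characterSpace ℂ D → ℝ} (hf : Continuous f) (ω : characterSpace ℂ D) :
    ω (lift f) = f ω := by
  have h : ∃ a : D, ∀ ω : characterSpace ℂ D, ω a = f ω :=
    ⟨(gelfandStarTransform D).symm ⟨fun ω => f ω, Complex.continuous_ofReal.comp hf⟩, fun ω =>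
      congrArg (fun t : C(characterSpace ℂ D, ℂ) => t ω)
        ((gelfandStarTransform D).apply_symm_apply _)⟩
  rw [lift, dif_pos h]
  exact h.choose_spec ω

theorem gel_norm (ω : characterSpace ℂ D) (a : D) : ‖ω a‖ ≤ ‖a‖ :=
  ((gelfandStarTransform D a).norm_coe_le_norm ω).trans_eq (StarAlgEquiv.norm_map _ a)

theorem idem_val {e : D} (he : e * e = e) (ω : characterSpace ℂ D) : ω e = 0 ∨ ω e = 1 := by
  have := congrArg ω he
  rw [map_mul] at this
  exact or_iff_not_imp_left.2 fun h => mul_left_cancel₀ h (this.trans (mul_one _).symm)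

theorem idem_clopen {e : D} (he : e * e = e) : IsClopen {ω : characterSpace ℂ D | ω e = 1} := by
  refine ⟨isClosed_eq (gel_cont e) continuous_const, ?_⟩
  rw [show {ω : characterSpace ℂ D | ω e = 1} = {ω | ω e ≠ 0} from Set.ext fun ω =>
    ⟨fun (h : ω e = 1) => by simp [h], (idem_val he ω).resolve_left⟩]
  exact isOpen_ne_fun (gel_cont e) continuous_const

end Gel

namespace Cart

variable {D R Γ : Type*} [CommCStarAlgebra D] [CStarAlgebra R] [Group Γ] (C : Cart D R Γ)

theorem E_eq {y : R} {a : D} (h : ∀ b, C.τ (C.j b * C.j a) = C.τ (C.j b * y)) : C.E y = a := by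
  refine sub_eq_zero.1 (C.faith _ ?_)
  rw [map_mul, map_sub C.j (C.E y), mul_sub, map_sub, C.hE, h, sub_self]

theorem E_j (a : D) : C.E (C.j a) = a := C.E_eq fun _ => rfl

theorem j_inj {a b : D} (h : C.j a = C.j b) : a = b := by rw [← C.E_j a, h, C.E_j]

theorem E_left (a : D) (y : R) : C.E (C.j a * y) = a * C.E y :=
  C.E_eq fun b => by rw [map_mul C.j, ← mul_assoc, ← mul_assoc, ← map_mul C.j, C.hE]

theorem E_right (a : D) (y : R) : C.E (y * C.j a) = C.E y * a :=
  C.E_eq fun b => by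
    rw [← map_mul C.j, mul_comm (C.E y), ← mul_assoc b, mul_comm b, map_mul C.j, C.hE, ← mul_assoc,
      C.tr _ (C.j a), map_mul C.j, mul_assoc]

theorem E_star (y : R) : C.E (star y) = star (C.E y) :=
  C.E_eq fun b => by
    have := congrArg conj (C.hE y (star b))
    rw [← C.st, ← C.st, star_mul, star_mul, map_star, star_star, C.tr, C.tr (star y)] at this
    rw [map_star, this]

theorem τ_E (y : R) : C.τ (C.j (C.E y)) = C.τ y := by simpa using C.hE y 1

/-- The automorphisms. -/
noncomputable def α (g : Γ) : D →⋆ₐ[ℂ] D :=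
  have h : ∀ a, C.j (C.E (C.ρ g⁻¹ * C.j a * C.ρ g)) = C.ρ g⁻¹ * C.j a * C.ρ g := fun a => by
    obtain ⟨b, hb⟩ := C.nor g a
    rw [← hb, C.E_j]
  have h1 : C.ρ g⁻¹ * C.ρ g = 1 := by rw [← map_mul, inv_mul_cancel, map_one]
  have h2 : ∀ y, C.ρ g * (C.ρ g⁻¹ * y) = y := fun y => by
    rw [← mul_assoc, ← map_mul, mul_inv_cancel, map_one, one_mul]
  { toFun := fun a => C.E (C.ρ g⁻¹ * C.j a * C.ρ g)
    map_one' := C.j_inj (by rw [h, map_one, mul_one, h1])
    map_mul' := fun a b => C.j_inj (by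
      rw [h, map_mul, map_mul, h, h]
      simp only [mul_assoc, h2])
    map_zero' := C.j_inj (by rw [h, map_zero, mul_zero, zero_mul])
    map_add' := fun a b => C.j_inj (by rw [h, map_add, map_add, h, h, mul_add, add_mul])
    commutes' := fun c => C.j_inj (by
      rw [h, AlgHomClass.commutes, ← Algebra.commutes, mul_assoc, h1, mul_one])
    map_star' := fun a => C.j_inj (by
      rw [h, map_star, map_star, h, star_mul, star_mul, C.ρs, C.ρs, inv_inv, mul_assoc]) }

theorem j_α (g : Γ) (a : D) : C.j (C.α g a) = C.ρ g⁻¹ * C.j a * C.ρ g := by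
  obtain ⟨b, hb⟩ := C.nor g a
  change C.j (C.E _) = _
  rw [← hb, C.E_j]

theorem τ_conj (g : Γ) (y : R) : C.τ (C.ρ g⁻¹ * y * C.ρ g) = C.τ y := by
  rw [C.tr, ← mul_assoc, ← map_mul, mul_inv_cancel, map_one, one_mul]

theorem j_ρ (g : Γ) (a : D) : C.j a * C.ρ g = C.ρ g * C.j (C.α g a) := by
  rw [j_α, ← mul_assoc, ← mul_assoc, ← map_mul, mul_inv_cancel, map_one, one_mul]

theorem α_E (g : Γ) (y : R) : C.E (C.ρ g⁻¹ * y * C.ρ g) = C.α g (C.E y) :=
  C.E_eq fun b => by
    have k : ∀ z, C.τ (C.j b * (C.ρ g⁻¹ * z * C.ρ g)) = C.τ (C.j (C.α g⁻¹ b) * z) := fun z => by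
      rw [← mul_assoc, ← mul_assoc, j_ρ, mul_assoc (C.ρ _), τ_conj]
    rw [j_α, k, k, C.hE]

/-- The action on the spectrum. -/
@[reducible] noncomputable def act : MulAction Γ (characterSpace ℂ D) where
  smul g ω := CharacterSpace.compContinuousMap (C.α g) ω
  one_smul ω := CharacterSpace.ext fun a => congrArg ω (C.j_inj (by
    change C.j (C.α 1 a) = _
    simp [j_α]))
  mul_smul g h ω := CharacterSpace.ext fun a => congrArg ω (C.j_inj (by
    change C.j (C.α (g * h) a) = C.j (C.α h (C.α g a))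
    simp only [j_α, mul_inv_rev, map_mul, mul_assoc]))

/-- The states. -/
noncomputable def φ (ω : characterSpace ℂ D) : R →ₗ[ℂ] ℂ where
  toFun y := ω (C.E y)
  map_add' y z := by
    rw [← map_add, C.E_eq (a := C.E y + C.E z) fun b => by
      rw [map_add, mul_add, mul_add, map_add, map_add, C.hE, C.hE]]
  map_smul' c y := by
    rw [C.E_eq (a := c • C.E y) fun b => by
      rw [map_smul, mul_smul_comm, mul_smul_comm, map_smul, map_smul, C.hE], map_smul]
    rfl

theorem φ_j (ω : characterSpace ℂ D) (a : D) : C.φ ω (C.j a) = ω a := congrArg ω (C.E_j a)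

theorem φ_left (ω : characterSpace ℂ D) (a : D) (y : R) : C.φ ω (C.j a * y) = ω a * C.φ ω y :=
  (congrArg ω (C.E_left a y)).trans (map_mul ω _ _)

theorem φ_right (ω : characterSpace ℂ D) (a : D) (y : R) : C.φ ω (y * C.j a) = C.φ ω y * ω a :=
  (congrArg ω (C.E_right a y)).trans (map_mul ω _ _)

theorem φ_one (ω : characterSpace ℂ D) : C.φ ω 1 = 1 := by rw [← map_one C.j, φ_j, map_one]

theorem φ_mul (ω : characterSpace ℂ D) (g : Γ) (h : C.φ ω (C.ρ g) ≠ 0) :
    (∀ b, ω (C.α g b) = ω b) ∧ ∀ y, C.φ ω (y * C.ρ g) = C.φ ω y * C.φ ω (C.ρ g) := by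
  have h1 : ∀ b, b * C.E (C.ρ g) = C.E (C.ρ g) * C.α g b := fun b => by
    rw [← E_left, j_ρ, E_right]
  have h2 : ∀ b, ω (C.α g b) = ω b := fun b => by
    have := congrArg ω (h1 b)
    rw [map_mul, map_mul, mul_comm] at this
    exact (mul_left_cancel₀ h this).symm
  have h3 : C.ρ g⁻¹ * C.ρ g = 1 := by rw [← map_mul, inv_mul_cancel, map_one]
  obtain ⟨q, hq⟩ := C.max (C.j (C.E (C.ρ g)) * C.ρ g⁻¹) fun b => by
    rw [← mul_assoc, ← map_mul, h1, map_mul, j_α, mul_assoc, mul_assoc, mul_assoc, ← map_mul C.ρ,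
      mul_inv_cancel, map_one, mul_one, mul_assoc]
  have h4 : C.j (C.E (C.ρ g)) = C.j q * C.ρ g := by rw [hq, mul_assoc, h3, mul_one]
  have h5 := C.φ_left ω q (C.ρ g)
  rw [← h4, φ_j] at h5
  refine ⟨h2, fun y => ?_⟩
  have h6 := C.φ_right ω (C.E (C.ρ g)) y
  rw [h4, j_ρ, ← mul_assoc, φ_right, h2,
    ← mul_right_cancel₀ h ((one_mul _).trans h5), mul_one] at h6
  exact h6

/-- The integral. -/
noncomputable def I (f : characterSpace ℂ D → ℝ) : ℝ := (C.τ (C.j (lift f))).re

theorem I_eq {f : characterSpace ℂ D → ℝ} (a : D) (h : ∀ ω : characterSpace ℂ D, (ω a).re = f ω) :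
    C.I f = (C.τ (C.j a)).re := by
  have hf : Continuous f := funext h ▸ Complex.continuous_re.comp (gel_cont a)
  have : lift f = (2⁻¹ : ℂ) • (a + star a) := gel_ext fun ω => by
    rw [lift_spec hf, map_smul, map_add, map_star, ← h, RCLike.star_def, Complex.add_conj]
    simp
  rw [I, this, map_smul, map_smul, map_add, map_add, map_star, C.st, Complex.add_conj]
  simp

variable [PartialOrder R] [StarOrderedRing R]

theorem le_one {y : R} (h : IsSelfAdjoint y) (h1 : ‖y‖ ≤ 1) : y ≤ 1 :=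
  h.le_algebraMap_norm_self.trans (by
    rw [Algebra.algebraMap_eq_smul_one]
    simpa using smul_le_smul_of_nonneg_right h1 (zero_le_one (α := R)))

theorem φ_pos (ω : characterSpace ℂ D) {y : R} (h : 0 ≤ y) : 0 ≤ (C.φ ω y).re := by
  have a := (CStarAlgebra.norm_le_iff_le_algebraMap (algebraMap ℝ R ‖y‖ - y) (norm_nonneg y)
    (sub_nonneg.2 (IsSelfAdjoint.of_nonneg h).le_algebraMap_norm_self)).2 (sub_le_self _ h)
  have b : ‖C.φ ω (algebraMap ℝ R ‖y‖ - y)‖ ≤ ‖y‖ := (gel_norm ω _).trans ((C.nE _).trans a)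
  rw [map_sub, Algebra.algebraMap_eq_smul_one, ← Complex.coe_smul, map_smul, φ_one] at b
  have := (Complex.re_le_norm _).trans b
  simpa using this

theorem τ_mono {y z : R} (h : y ≤ z) : (C.τ y).re ≤ (C.τ z).re := by
  obtain ⟨s, e⟩ := CStarAlgebra.nonneg_iff_eq_star_mul_self.1 (sub_nonneg.2 h)
  have := C.pos s
  rwa [← e, map_sub, Complex.sub_re, sub_nonneg] at this

theorem tot (sp : ∀ t : D, IsSelfAdjoint t → ∃ e, e * e = e ∧ 0 ≤ C.j (e * t * e) ∧
    C.j ((1 - e) * t * (1 - e)) ≤ 0) : TotallyDisconnectedSpace (characterSpace ℂ D) := by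
  have : TotallySeparatedSpace (characterSpace ℂ D) := by
    refine totallySeparatedSpace_iff_exists_isClopen.2 fun ω ω' h => ?_
    obtain ⟨f, f0, f1, -⟩ := exists_continuous_zero_one_of_isClosed (isClosed_singleton (x := ω'))
      (isClosed_singleton (x := ω)) (Set.disjoint_singleton.2 h.symm)
    have hf : Continuous fun t => 2 * f t - 1 := by fun_prop
    obtain ⟨e, e1, e2, e3⟩ := sp (lift fun t => 2 * f t - 1) (gel_ext fun t => by
      rw [map_star, lift_spec hf, RCLike.star_def, Complex.conj_ofReal])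
    have a := C.φ_pos ω' e2
    have b := C.φ_pos ω (neg_nonneg.2 e3)
    rw [map_neg] at b
    rw [φ_j, map_mul, map_mul, lift_spec hf] at a b
    refine ⟨_, idem_clopen e1, (idem_val e1 ω).resolve_left fun h => ?_, fun (h : ω' e = 1) => ?_⟩
    · rw [map_sub, h, f1 rfl] at b
      norm_num at b
    · rw [h, f0 rfl] at a
      norm_num at a
  infer_instance

/-- The field of fibres. -/
noncomputable def fib [Countable Γ] (x : R) (B : Finset Γ) (cf : Γ → ℂ)
    (h1 : x = ∑ s ∈ B, cf s • C.ρ s) (h2 : IsSelfAdjoint x) (h3 : ‖x‖ ≤ 1) (h4 : C.E x = 0)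
    (h5 : 1 ∈ B) (h6 : B⁻¹ = B) : @Fib (characterSpace ℂ D) Γ R _ _ C.act _ _ _ :=
  letI := C.act
  { ρ := C.ρ
    φ := C.φ
    I := C.I
    x := x
    B := B
    cf := cf
    enc := (exists_injective_nat Γ).choose
    enc_inj := (exists_injective_nat Γ).choose_spec
    ρs := C.ρs
    cact := fun g => (CharacterSpace.compContinuousMap (C.α g)).continuous
    cont := fun y => gel_cont (C.E y)
    one := C.φ_one
    st := fun ω y => (congrArg ω (C.E_star y)).trans (map_star ω _)
    act := fun g ω y => (congrArg ω (C.α_E g y)).symm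
    mul := fun ω g h => ⟨CharacterSpace.ext (C.φ_mul ω g h).1, (C.φ_mul ω g h).2⟩
    I_add := fun {f g} hf hg => by
      rw [C.I_eq (lift f + lift g) fun ω => by
        rw [map_add, lift_spec hf, lift_spec hg, ← Complex.ofReal_add, Complex.ofReal_re],
        map_add, map_add, Complex.add_re, I, I]
    I_mono := fun {f g} hf hg h => by
      have c : Continuous fun ω => √(g ω - f ω) := (hg.fun_sub hf).sqrt
      rw [C.I_eq (f := g) (lift f + star (lift fun ω => √(g ω - f ω)) * lift fun ω => √(g ω - f ω))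
        fun ω => by
          rw [map_add, map_mul, map_star, lift_spec hf, lift_spec c, RCLike.star_def,
            Complex.conj_ofReal, ← Complex.ofReal_mul, Real.mul_self_sqrt (sub_nonneg.2 (h ω)),
            ← Complex.ofReal_add, Complex.ofReal_re, add_sub_cancel],
        map_add, map_add, Complex.add_re, map_mul, map_star]
      exact le_add_of_nonneg_right (C.pos _)
    I_smul := fun c f hf => by
      rw [C.I_eq ((c : ℂ) • lift f) fun ω => by
        rw [map_smul, lift_spec hf, smul_eq_mul, ← Complex.ofReal_mul, Complex.ofReal_re],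
        map_smul, map_smul, smul_eq_mul, Complex.re_ofReal_mul, I]
    I_one := by rw [C.I_eq 1 fun ω => by simp, map_one, C.one, Complex.one_re]
    I_act := fun g f hf => by
      rw [C.I_eq (f := fun ω => f (g • ω)) (C.α g (lift f))
        fun ω => congrArg Complex.re (lift_spec hf (g • ω)), j_α, τ_conj, I]
    x_eq := h1
    x_sa := h2
    x_zero := fun ω => (congrArg ω h4).trans (map_zero ω)
    x_bd := fun ω z => by
      have k : ∀ y : R, IsSelfAdjoint y → ‖y‖ ≤ 1 →
          (C.φ ω (star z * y * z)).re ≤ (C.φ ω (star z * z)).re := fun y y1 y2 => by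
        have := C.φ_pos ω (star_left_conjugate_nonneg
          (sub_nonneg.2 (le_one y1 y2)) z)
        rwa [mul_sub, sub_mul, mul_one, map_sub, Complex.sub_re, sub_nonneg] at this
      have := k (-x) h2.neg (by rwa [norm_neg])
      rw [mul_neg, neg_mul, map_neg, Complex.neg_re] at this
      exact abs_le'.2 ⟨k x h2 h3, this⟩
    B_one := h5
    B_inv := h6 }

end Cart

end Vale.Agent.P078
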