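import Vale.Agent.P078.N2
import Vale.Agent.P132.Basic

/-! Elements orthogonal to the normalizer have no atoms: any normalizer. -/

namespace Vale.Agent.P078

open scoped InnerProductSpace ComplexConjugate ComplexOrder
open Vale.Agent.P104 Vale.Agent.P082 Finset Filter Topology ContinuousLinearMap

universe u

variable {H : Type u} [NormedAddCommGroup H] [InnerProductSpace ℂ H] [CompleteSpace H]
  {A M : VonNeumannAlgebra H} {ξ : H}

namespace AM

open R W CutA NT

theorem inv0 (hA : IsMasa A M) (ht : CV A M ξ) {z u : H →L[ℂ] H} (hz : z ∈ M)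
    (hs : IsSelfAdjoint z) (h0 : ∀ a ∈ A, ⟪ξ, (a * z) ξ⟫_ℂ = 0) (hu : Normalizes A M u) :
    ⟪ξ, (star u * z * u) ξ⟫_ℂ = 0 := by
  have uu : u * star u = 1 := hu.2.1.2
  have uu' : star u * u = 1 := hu.2.1.1
  have zM : star u * z * u ∈ M := mul_mem (mul_mem (star_mem hu.1) hz) hu.1
  refine norm_eq_zero.1 (le_antisymm (le_of_forall_pos_le_add fun κ k0 => ?_) (norm_nonneg _))
  obtain ⟨δ, d0, hδ⟩ := P132.strong_of_sep ht.2.2 (u ξ) ‖z‖ (κ / (‖u ξ‖ + 1)) (by positivity)
  obtain ⟨n, e, he, h1⟩ := lq hA ht hz hs (t := 0)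
    ⟨zero_mem _, fun b hb => by rw [h0 b hb]; simp⟩ d0
  rw [sub_zero] at h1
  have h2 := hδ _ (pin_mem hA he hz) (pin_norm he hs) h1
  have k : ∀ i, ⟪ξ, (star u * (e i * z * e i) * u) ξ⟫_ℂ =
      ⟪ξ, (star u * e i * u * (star u * z * u)) ξ⟫_ℂ := fun i => by
    have cA := hu.2.2.2 _ (he.1 i).1
    have a1 : star u * (e i * z * e i) * u =
        star u * e i * u * (star u * z * u) * (star u * e i * u) := by
      calc _ = star u * e i * (u * star u) * z * (u * star u) * e i * u := by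
            simp only [uu, mul_one, mul_assoc, one_mul]
        _ = _ := by simp only [mul_assoc]
    have a2 : star u * e i * u * (star u * e i * u) = star u * e i * u := by
      calc _ = star u * (e i * (u * star u) * e i) * u := by simp only [mul_assoc]
        _ = _ := by rw [uu, mul_one, (he.1 i).2.isIdempotentElem.eq]
    rw [a1, ht.r (mul_mem (hA.1 _ cA) zM) cA, ← mul_assoc, a2]
  have h3 : ⟪ξ, (star u * z * u) ξ⟫_ℂ = ⟪u ξ, pin e z (u ξ)⟫_ℂ := by
    rw [← inner_star_right, ← mul_apply_eq_comp, ← mul_apply_eq_comp, pin, mul_sum,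
      sum_mul, _root_.sum_apply, inner_sum]
    simp only [k]
    rw [← inner_sum, ← _root_.sum_apply, ← sum_mul, ← sum_mul, ← mul_sum, he.2.2, mul_one, uu',
      one_mul]
  rw [h3, zero_add]
  refine (norm_inner_le_norm _ _).trans ((mul_le_mul_of_nonneg_left h2 (norm_nonneg _)).trans ?_)
  rw [mul_div_assoc', div_le_iff₀ (by positivity)]
  nlinarith

theorem inv1 (hA : IsMasa A M) (ht : CV A M ξ) {z u : H →L[ℂ] H} (hz : z ∈ M)
    (h0 : ∀ a ∈ A, ⟪ξ, (a * z) ξ⟫_ℂ = 0) (hu : Normalizes A M u) :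
    ⟪ξ, (star u * z * u) ξ⟫_ℂ = 0 := by
  have h1 : ∀ a ∈ A, ⟪ξ, (a * star z) ξ⟫_ℂ = 0 := fun a ha => by
    have := congrArg conj (h0 _ (star_mem ha))
    rw [inner_conj_symm, map_zero, ← inner_star_right, star_mul, star_star] at this
    rwa [ht.l ha (star_mem hz)]
  have a := inv0 hA ht (add_mem hz (star_mem hz)) (by simp [IsSelfAdjoint, add_comm])
    (fun a ha => by rw [mul_add, add_apply, inner_add_right, h0 a ha, h1 a ha, add_zero]) hu
  have b := inv0 hA ht (vn_smul_mem Complex.I (sub_mem hz (star_mem hz)))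
    (by simp [IsSelfAdjoint, smul_sub, neg_add_eq_sub])
    (fun a ha => by
      rw [mul_smul_comm, mul_sub, smul_apply, sub_apply, inner_smul_right, inner_sub_right, h0 a ha,
        h1 a ha, sub_zero, mul_zero]) hu
  rw [mul_add, add_mul, add_apply, inner_add_right] at a
  rw [mul_smul_comm, smul_mul_assoc, mul_sub, sub_mul, smul_apply, sub_apply, inner_smul_right,
    inner_sub_right, mul_eq_zero] at b
  have b' := b.resolve_left Complex.I_ne_zero
  linear_combination (a + b') / 2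

theorem orth_star (hA : IsMasa A M) (ht : CV A M ξ) {w : H →L[ℂ] H} (hw : w ∈ M)
    (ho : ∀ b ∈ nsp A M, ⟪b ξ, w ξ⟫_ℂ = 0) : ∀ b ∈ nsp A M, ⟪b ξ, star w ξ⟫_ℂ = 0 := by
  intro b hb
  refine Submodule.span_induction (p := fun b _ => ⟪b ξ, star w ξ⟫_ℂ = 0) (fun u hu => ?_)
    (by simp) (fun a b _ _ h1 h2 => by rw [add_apply, inner_add_left, h1, h2, add_zero])
    (fun c a _ h => by rw [smul_apply, inner_smul_left, h, mul_zero]) hb
  have uN : u ∈ nsp A M := Submodule.subset_span hu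
  have := inv1 hA ht (mul_mem hu.1 hw) (fun a ha => by
    have := ho _ (star_mem (mul_mem (le_nsp hA ha) uN))
    rwa [inner_star_left, ← mul_apply_eq_comp, mul_assoc] at this) hu
  rw [← mul_assoc, show star u * u = 1 from hu.2.1.1, one_mul] at this
  rw [inner_star_right, ← mul_apply_eq_comp, ← inner_conj_symm, this, map_zero]

theorem wm (hA : IsMasa A M) (ht : CV A M ξ) {y : H →L[ℂ] H}
    (hy : y ∈ M) (ho : ∀ b ∈ nsp A M, ⟪b ξ, y ξ⟫_ℂ = 0) : NoAtom A ξ y := by
  by_contra hn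
  obtain ⟨w, wM, w0, w1, -, w2⟩ := atom hA ht hy ho hn
  obtain ⟨v, vM, v0, v1, v2, v3⟩ := atom hA ht (star_mem wM) (orth_star hA ht wM w1)
    (has_atom hA ht wM w0 (conj_mem hA wM w2))
  obtain ⟨s, sA, s0, hs⟩ := nz hA vM v0 (conj_mem hA vM v3) (by
    simpa only [star_star] using conj_mem hA (star_mem vM) fun p hp pp => by
      obtain ⟨t, tA, pt, e⟩ := w2 p hp pp
      refine ⟨t, tA, pt, ?_⟩
      simpa only [star_mul, pp.isSelfAdjoint.star_eq, pt.isSelfAdjoint.star_eq] using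
        (congrArg star (v2 t tA p hp (by
          simpa only [star_mul, pp.isSelfAdjoint.star_eq, pt.isSelfAdjoint.star_eq] using
            (congrArg star e).symm))).symm)
  have := NT.orth_cut hA ht vM v1 (one_mem A) sA hs
  rw [one_mul, inner_self_eq_zero] at this
  exact s0 (ht.2.2 _ (mul_mem vM (hA.1 s sA)) this)

end AM

end Vale.Agent.P078
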