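import Vale.Agent.P078.N1

/-! Expectations onto relative commutants of subalgebras of `A`. -/

namespace Vale.Agent.P078

open scoped InnerProductSpace ComplexConjugate ComplexOrder
open Vale.Agent.P104 Vale.Agent.P082 Finset Filter Topology ContinuousLinearMap

universe u

variable {H : Type u} [NormedAddCommGroup H] [InnerProductSpace ℂ H] [CompleteSpace H]
  {A M N : VonNeumannAlgebra H} {ξ : H}

namespace AM

open R W CutA NT

theorem ce0 (hA : IsMasa A M) (hξ : CV A M ξ) (hN : ∀ y ∈ N, y ∈ M)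
    (hZ : ∀ y ∈ M, (∀ e ∈ A, IsStarProjection e → (∀ w ∈ N, e * w = w * e) → e * y = y * e) →
      y ∈ N) (y : H →L[ℂ] H) (hy : y ∈ M) :
    ∃ a ∈ N, ‖a‖ ≤ ‖y‖ ∧ ∀ b ∈ N, ⟪ξ, (b * a) ξ⟫_ℂ = ⟪ξ, (b * y) ξ⟫_ℂ ∧
      ⟪ξ, (a * b) ξ⟫_ℂ = ⟪ξ, (y * b) ξ⟫_ℂ := by
  let K : Set (H →L[ℂ] H) :=
    {z | z ∈ M ∧ ‖z‖ ≤ ‖y‖ ∧ ∀ b ∈ N, ⟪ξ, (b * z) ξ⟫_ℂ = ⟪ξ, (b * y) ξ⟫_ℂ ∧
      ⟪ξ, (z * b) ξ⟫_ℂ = ⟪ξ, (y * b) ξ⟫_ℂ}
  have hyK : y ∈ K := ⟨hy, le_rfl, fun _ _ => ⟨rfl, rfl⟩⟩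
  have hbd : BddBelow ((fun z : H →L[ℂ] H => ‖z ξ‖) '' K) :=
    ⟨0, by rintro _ ⟨z, -, rfl⟩; exact norm_nonneg _⟩
  obtain ⟨r, -, hr, hrK⟩ := exists_seq_tendsto_sInf (Set.Nonempty.image _ ⟨y, hyK⟩) hbd
  set m := sInf ((fun z : H →L[ℂ] H => ‖z ξ‖) '' K)
  have hm : ∀ z ∈ K, m ≤ ‖z ξ‖ := fun z hz => csInf_le hbd ⟨z, hz, rfl⟩
  choose v hv hvr using hrK
  let v' : ℕ → P082.Alg M := fun n => ⟨v n, (hv n).1⟩
  have hb : ∀ n, ‖v' n‖ ≤ ‖y‖ := fun n => (hv n).2.1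
  obtain ⟨z, hzd⟩ : ∃ z, z = P082.wlim (hyperfilter ℕ) v' := ⟨_, rfl⟩
  have hs : ∀ η, Tendsto (fun n => ⟪η, v n ξ⟫_ℂ) (hyperfilter ℕ) (𝓝 ⟪η, z.1 ξ⟫_ℂ) := fun η =>
    hzd ▸ P082.wlim_spec hb ξ η
  have hzK : z.1 ∈ K := by
    refine ⟨z.2, hzd ▸ P082.wlim_norm_le hb, fun b hb' => ⟨?_, ?_⟩⟩
    · have h1 := hs (star b ξ)
      simp only [inner_star_left] at h1
      exact tendsto_nhds_unique h1 (tendsto_const_nhds.congr fun n => ((hv n).2.2 b hb').1.symm)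
    · exact tendsto_nhds_unique (hzd ▸ P082.wlim_spec (U := hyperfilter ℕ) hb (b ξ) ξ)
        (tendsto_const_nhds.congr fun n => ((hv n).2.2 b hb').2.symm)
  have hzm : ‖z.1 ξ‖ ≤ m := by
    have h1 := (hs (z.1 ξ)).norm
    have h2 : Tendsto (fun n => ‖z.1 ξ‖ * r n) (hyperfilter ℕ) (𝓝 (‖z.1 ξ‖ * m)) :=
      (hr.mono_left Nat.hyperfilter_le_atTop).const_mul _
    have h3 := le_of_tendsto_of_tendsto' h1 h2 fun n => by
      rw [← hvr n]; exact norm_inner_le_norm _ _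
    rw [inner_self_eq_norm_sq_to_K, norm_pow, RCLike.norm_ofReal, abs_norm, sq] at h3
    rcases (norm_nonneg (z.1 ξ)).eq_or_lt with h | h
    · rw [← h]; exact le_csInf (Set.Nonempty.image _ ⟨y, hyK⟩) (by rintro _ ⟨z, -, rfl⟩; exact norm_nonneg _)
    · exact le_of_mul_le_mul_left h3 h
  have huniq : ∀ z' ∈ K, ‖z' ξ‖ = ‖z.1 ξ‖ → z' = z.1 := by
    intro z' hz' he
    have hmid : (2⁻¹ : ℂ) • (z' + z.1) ∈ K := by
      refine ⟨vn_smul_mem _ (add_mem hz'.1 hzK.1), ?_, fun b hb => ?_⟩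
      · rw [norm_smul]
        have := norm_add_le z' z.1
        have a1 := hz'.2.1
        have a2 := hzK.2.1
        simp only [norm_inv, Complex.norm_ofNat]
        linarith
      · rw [mul_smul_comm, mul_add, smul_apply, add_apply, inner_smul_right, inner_add_right,
          (hz'.2.2 b hb).1, (hzK.2.2 b hb).1, smul_mul_assoc, add_mul, smul_apply, add_apply,
          inner_smul_right, inner_add_right, (hz'.2.2 b hb).2, (hzK.2.2 b hb).2]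
        constructor <;> ring
    have h1 := hm _ hmid
    rw [smul_apply, add_apply, norm_smul] at h1
    simp only [norm_inv, Complex.norm_ofNat] at h1
    have h2 := parallelogram_law_with_norm ℂ (z' ξ) (z.1 ξ)
    rw [he] at h2
    have h3 : ‖z' ξ - z.1 ξ‖ = 0 := by
      have a1 := norm_nonneg (z.1 ξ)
      have a2 : 2 * ‖z.1 ξ‖ ≤ ‖z' ξ + z.1 ξ‖ := by linarith
      have a3 := mul_self_le_mul_self (by positivity) a2
      exact mul_self_eq_zero.1 (le_antisymm (by nlinarith) (mul_self_nonneg _))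
    exact sub_eq_zero.1 (hξ.2.2 _ (sub_mem hz'.1 hzK.1) (norm_eq_zero.1 h3))
  refine ⟨z.1, hZ _ hzK.1 fun E hE pE cE => ?_, hzK.2.1, hzK.2.2⟩
  obtain ⟨s, hsd⟩ : ∃ s : H →L[ℂ] H, s = 1 - (E + E) := ⟨_, rfl⟩
  have hsA : s ∈ A := hsd ▸ sub_mem (one_mem A) (add_mem hE hE)
  have hsM := hA.1 s hsA
  have s1 : star s = s := by rw [hsd, star_sub, star_add, star_one, pE.isSelfAdjoint.star_eq]
  have s2 : s * s = 1 := by
    rw [hsd]
    simp only [mul_sub, sub_mul, mul_add, add_mul, mul_one, one_mul, pE.isIdempotentElem.eq]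
    abel
  have sc : ∀ b ∈ N, s * b = b * s := fun b hb => by
    rw [hsd, sub_mul, mul_sub, add_mul, mul_add, cE b hb, one_mul, mul_one]
  have hsu : s ∈ unitary (H →L[ℂ] H) := ⟨by rw [s1, s2], by rw [s1, s2]⟩
  have h1 : s * z.1 * s = z.1 := by
    refine huniq _ ⟨mul_mem (mul_mem hsM hzK.1) hsM, ?_, fun b hb => ⟨?_, ?_⟩⟩ ?_
    · rw [CStarRing.norm_mul_mem_unitary _ hsu, CStarRing.norm_mem_unitary_mul _ hsu]
      exact hzK.2.1
    · rw [← mul_assoc, hξ.r (mul_mem (hN b hb) (mul_mem hsM hzK.1)) hsA, ← mul_assoc,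
        sc b hb, mul_assoc, ← mul_assoc s, s2, one_mul, (hzK.2.2 b hb).1]
    · rw [mul_assoc, mul_assoc, sc b hb, hξ.l hsA (mul_mem hzK.1 (mul_mem (hN b hb) hsM)),
        mul_assoc, mul_assoc, s2, mul_one, (hzK.2.2 b hb).2]
    · refine (sq_eq_sq₀ (norm_nonneg _) (norm_nonneg _)).1 ?_
      have e : star (s * z.1 * s) * (s * z.1 * s) = s * (star z.1 * z.1 * s) := by
        rw [star_mul, star_mul, s1]
        calc s * (star z.1 * s) * (s * z.1 * s) = s * (star z.1 * (s * s) * z.1 * s) := by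
              simp only [mul_assoc]
          _ = _ := by rw [s2, mul_one]
      rw [norm_sq_apply, norm_sq_apply, e, hξ.l hsA
        (mul_mem (mul_mem (star_mem hzK.1) hzK.1) hsM), mul_assoc, s2, mul_one]
  have h2 : s * z.1 = z.1 * s := by
    conv_lhs => rw [← h1]
    rw [← mul_assoc, ← mul_assoc, s2, one_mul]
  rw [hsd, sub_mul, mul_sub, one_mul, mul_one, sub_right_inj, add_mul, mul_add, ← two_smul ℂ,
    ← two_smul ℂ] at h2
  exact smul_right_injective _ (two_ne_zero) h2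

theorem ce1 (hA : IsMasa A M) (hξ : CV A M ξ) (hN : ∀ y ∈ N, y ∈ M)
    (hZ : ∀ y ∈ M, (∀ e ∈ A, IsStarProjection e → (∀ w ∈ N, e * w = w * e) → e * y = y * e) →
      y ∈ N) {x : H →L[ℂ] H} (hx : x ∈ M) (xs : IsSelfAdjoint x) :
    ∃ a ∈ N, IsSelfAdjoint a ∧ ‖a‖ ≤ ‖x‖ ∧ ∀ b ∈ N, ⟪b ξ, (x - a) ξ⟫_ℂ = 0 := by
  obtain ⟨a, a1, a2, a3⟩ := ce0 hA hξ hN hZ x hx
  refine ⟨(2⁻¹ : ℂ) • (a + star a), vn_smul_mem _ (add_mem a1 (star_mem a1)), half_sa _,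
    (half_norm _).trans a2, fun b hb => ?_⟩
  have e1 := (a3 _ (star_mem hb)).1
  have e2 := congrArg conj (a3 _ hb).2
  rw [inner_conj_symm, inner_conj_symm, mul_apply_eq_comp, mul_apply_eq_comp, ← inner_star_right,
    ← inner_star_right x, xs.star_eq] at e2
  rw [mul_apply_eq_comp, mul_apply_eq_comp, inner_star_right, inner_star_right] at e1
  rw [sub_apply, smul_apply, add_apply, inner_sub_right, inner_smul_right, inner_add_right, e1, e2]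
  ring

theorem split (hA : IsMasa A M) (hξ : CV A M ξ) {N : ℕ → VonNeumannAlgebra H}
    (hN : ∀ n, ∀ y ∈ N n, y ∈ M ∧ y ∈ N (n + 1))
    (hZ : ∀ n, ∀ y ∈ M, (∀ e ∈ A, IsStarProjection e → (∀ w ∈ N n, e * w = w * e) →
      e * y = y * e) → y ∈ N n)
    (hd : ∀ u, Normalizes A M u → ∀ η : ℝ, 0 < η → ∃ n, ∃ y ∈ N n, ‖(u - y) ξ‖ ≤ η)
    {x : H →L[ℂ] H} (hx : x ∈ M) (xs : IsSelfAdjoint x) {η : ℝ} (hη : 0 < η) :
    ∃ n, ∃ a ∈ N n, ∃ z ∈ M, IsSelfAdjoint a ∧ IsSelfAdjoint z ∧ ‖a‖ ≤ ‖x‖ ∧ ‖z‖ ≤ ‖x‖ ∧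
      ‖(z - a) ξ‖ ≤ η ∧ ∀ b ∈ nsp A M, ⟪b ξ, (x - z) ξ⟫_ℂ = 0 := by
  choose a a1 a2 a3 a4 using fun n => ce1 hA hξ (fun y hy => (hN n y hy).1) (hZ n) hx xs
  let v : ℕ → P082.Alg M := fun n => ⟨a n, (hN n _ (a1 n)).1⟩
  have hb : ∀ n, ‖v n‖ ≤ ‖x‖ := a3
  obtain ⟨z, hz⟩ : ∃ z, z = P082.wlim (hyperfilter ℕ) v := ⟨_, rfl⟩
  have hs : ∀ ζ η, Tendsto (fun n => ⟪η, a n ζ⟫_ℂ) (hyperfilter ℕ) (𝓝 ⟪η, z.1 ζ⟫_ℂ) :=
    fun ζ η => hz ▸ P082.wlim_spec hb ζ η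
  have mono : ∀ k n, k ≤ n → ∀ y ∈ N k, y ∈ N n := fun k n h y hy => by
    induction n, h using Nat.le_induction with
    | base => exact hy
    | succ n _ ih => exact (hN n y ih).2
  have o1 : ∀ k, ∀ b ∈ N k, ⟪b ξ, (x - z.1) ξ⟫_ℂ = 0 := fun k b hb => by
    have h1 : Tendsto (fun n => ⟪b ξ, (x - a n) ξ⟫_ℂ) (hyperfilter ℕ)
        (𝓝 ⟪b ξ, (x - z.1) ξ⟫_ℂ) := by
      simp only [sub_apply, inner_sub_right]
      exact tendsto_const_nhds.sub (hs _ _)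
    exact tendsto_nhds_unique h1 (tendsto_const_nhds.congr'
      (((eventually_ge_atTop k).filter_mono Nat.hyperfilter_le_atTop).mono fun n hn =>
        (a4 n b (mono k n hn b hb)).symm))
  have zs : IsSelfAdjoint z.1 := by
    ext ζ
    refine ext_inner_left ℂ fun η => ?_
    rw [inner_star_right, ← inner_conj_symm]
    refine tendsto_nhds_unique ((Complex.continuous_conj.tendsto _).comp (hs η ζ))
      ((hs ζ η).congr fun n => ?_)
    rw [Function.comp_apply, inner_conj_symm, ← inner_star_right, (a2 n).star_eq]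
  have h2 : Tendsto (fun n => (⟪z.1 ξ, (z.1 - a n) ξ⟫_ℂ).re) (hyperfilter ℕ) (𝓝 0) := by
    have := (Complex.continuous_re.tendsto _).comp
      ((tendsto_const_nhds (x := ⟪z.1 ξ, z.1 ξ⟫_ℂ)).sub (hs ξ (z.1 ξ)))
    rw [sub_self, Complex.zero_re] at this
    exact this.congr fun n => by rw [Function.comp_apply, sub_apply, inner_sub_right]
  obtain ⟨n, hn⟩ := (h2.eventually (gt_mem_nhds (show (0 : ℝ) < η ^ 2 by positivity))).exists
  refine ⟨n, a n, a1 n, z.1, z.2, a2 n, zs, a3 n, hz ▸ P082.wlim_norm_le hb,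
    le_of_sq_le hη.le ?_, fun b hb => ?_⟩
  · have e1 : ⟪a n ξ, (z.1 - a n) ξ⟫_ℂ = 0 := by
      rw [show z.1 - a n = (x - a n) - (x - z.1) by abel, sub_apply, inner_sub_right,
        a4 n _ (a1 n), o1 n _ (a1 n), sub_zero]
    have e2 := inner_self_eq_norm_sq (𝕜 := ℂ) ((z.1 - a n) ξ)
    nth_rw 1 [sub_apply] at e2
    rw [inner_sub_left, e1, sub_zero] at e2
    rw [← e2]
    exact hn.le
  · refine Submodule.span_induction (p := fun b _ => ⟪b ξ, (x - z.1) ξ⟫_ℂ = 0) (fun u hu => ?_)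
      (by simp) (fun a b _ _ h1 h2 => by rw [add_apply, inner_add_left, h1, h2, add_zero])
      (fun c a _ h => by rw [smul_apply, inner_smul_left, h, mul_zero]) hb
    refine norm_eq_zero.1 (le_antisymm (le_of_forall_pos_le_add fun κ k0 => ?_) (norm_nonneg _))
    obtain ⟨k, y, y1, y2⟩ := hd u hu (κ / (‖(x - z.1) ξ‖ + 1)) (by positivity)
    rw [show u ξ = (u - y) ξ + y ξ by simp, inner_add_left, o1 k y y1, add_zero, zero_add]
    refine (norm_inner_le_norm _ _).trans ((mul_le_mul_of_nonneg_right y2 (norm_nonneg _)).trans ?_)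
    rw [div_mul_eq_mul_div, div_le_iff₀ (by positivity)]
    nlinarith

end AM

end Vale.Agent.P078
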