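import Vale.Agent.P078.Defs

/-! Algebras which are approximately finite over a maximal abelian subalgebra. -/

namespace Vale.Agent.P078

open scoped InnerProductSpace

variable {H : Type*} [NormedAddCommGroup H] [InnerProductSpace ℂ H] [CompleteSpace H]

/-- A faithful vector functional of `M` has `A` in its centralizer, and self-adjoint elements of
`M` are approximated by elements of tracial subalgebras `N` with `A ⊆ N ⊆ M`. -/
def ApproxFinite (A M : VonNeumannAlgebra H) : Prop :=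
  ∃ ξ : H, (∀ x ∈ M, x ξ = 0 → x = 0) ∧
    (∀ a ∈ A, ∀ x ∈ M, ⟪ξ, (a * x) ξ⟫_ℂ = ⟪ξ, (x * a) ξ⟫_ℂ) ∧
    ∀ x ∈ M, IsSelfAdjoint x → ∀ η : ℝ, 0 < η → ∃ N : VonNeumannAlgebra H, (∀ a ∈ A, a ∈ N) ∧
      (∀ y ∈ N, y ∈ M) ∧ (∃ ζ, TraceVec N ζ) ∧
      ∃ y ∈ N, IsSelfAdjoint y ∧ ‖y‖ ≤ ‖x‖ ∧ ‖(x - y) ξ‖ ≤ η

end Vale.Agent.P078
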