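import Vale.Agent.P078.WM1

/-! Partitions, cuts and the localisation of an atom. -/

namespace Vale.Agent.P078

open scoped InnerProductSpace ComplexConjugate ComplexOrder
open Vale.Agent.P104 Vale.Agent.P082 Finset R

universe u

variable {H : Type u} [NormedAddCommGroup H] [InnerProductSpace ℂ H] [CompleteSpace H]
  {A M : VonNeumannAlgebra H} {ξ : H}

namespace W

/-- A partition with an arbitrary finite index type. -/
structure Part {ι : Type} [Fintype ι] (A : VonNeumannAlgebra H) (p : ι → H →L[ℂ] H) : Prop where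
  mem : ∀ i, p i ∈ A
  proj : ∀ i, IsStarProjection (p i)
  orth : ∀ i j, i ≠ j → p i * p j = 0
  sum : ∑ i, p i = 1

theorem Part.one : Part A fun _ : Unit => 1 :=
  ⟨fun _ => one_mem A, fun _ => .one _, fun _ _ h => absurd rfl h, by simp⟩

theorem Part.two {p : H →L[ℂ] H} (h : p ∈ A) (pp : IsStarProjection p) :
    Part A fun b : Bool => bif b then p else 1 - p := by
  refine ⟨?_, ?_, ?_, by simp⟩
  · rintro (_ | _)
    exacts [sub_mem (one_mem A) h, h]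
  · rintro (_ | _)
    exacts [pp.one_sub, pp]
  · rintro (_ | _) (_ | _) e <;> simp_all [mul_sub, sub_mul, pp.isIdempotentElem.eq]

theorem Part.glue (hA : IsMasa A M) {ι : Type} [Fintype ι] {f : ι → H →L[ℂ] H} (hf : Part A f)
    {κ : ι → Type} [∀ i, Fintype (κ i)] {Q : ∀ i, κ i → H →L[ℂ] H} (hQ : ∀ i, Part A (Q i)) :
    Part A fun x : Σ i, κ i => f x.1 * Q x.1 x.2 := by
  refine ⟨fun x => mul_mem (hf.mem _) ((hQ _).mem _), fun x => hA.proj_mul (hf.mem _)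
    ((hQ _).mem _) (hf.proj _) ((hQ _).proj _), ?_, ?_⟩
  · rintro ⟨i, a⟩ ⟨j, b⟩ e
    dsimp only
    by_cases h : i = j
    · subst h
      rw [hA.2.1 _ (hf.mem i) _ ((hQ i).mem b), mul_assoc, ← mul_assoc (Q i a),
        (hQ i).orth a b fun h => e (by rw [h]), zero_mul, mul_zero]
    · rw [hA.2.1 _ (hf.mem i) _ ((hQ i).mem a), mul_assoc, ← mul_assoc (f i), hf.orth i j h,
        zero_mul, mul_zero]
  · rw [Fintype.sum_sigma]
    simp only [← mul_sum, (hQ _).sum, mul_one, hf.sum]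

theorem Part.fin {ι : Type} [Fintype ι] {f : ι → H →L[ℂ] H} (hf : Part A f) :
    IsPartition A fun i => f ((Fintype.equivFin ι).symm i) :=
  ⟨fun _ => ⟨hf.mem _, hf.proj _⟩, fun _ _ h => hf.orth _ _ fun e =>
    h ((Fintype.equivFin ι).symm.injective e), by rw [Equiv.sum_comp _ f, hf.sum]⟩

theorem refine (hA : IsMasa A M) (F : Finset (H →L[ℂ] H)) :
    ∃ (ι : Type) (_ : Fintype ι) (Q : ι → H →L[ℂ] H), Part A Q ∧
      ∀ p ∈ F, p ∈ A → IsStarProjection p → ∀ i, Q i * p = Q i ∨ Q i * p = 0 := by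
  classical
  induction F using Finset.induction_on with
  | empty => exact ⟨Unit, inferInstance, _, Part.one, by simp⟩
  | insert p F _ ih =>
    obtain ⟨ι, _, Q, hQ, h⟩ := ih
    by_cases hp : p ∈ A ∧ IsStarProjection p
    · have t := Part.two hp.1 hp.2
      refine ⟨_, inferInstance, _, hQ.glue hA (κ := fun _ => Bool) fun _ => t,
        forall_mem_insert _ _ _ |>.2 ⟨?_, fun r hr rA pr x => ?_⟩⟩
      · rintro - - ⟨i, _ | _⟩
        · right
          simp [mul_assoc, sub_mul, hp.2.isIdempotentElem.eq]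
        · left
          simp [mul_assoc, hp.2.isIdempotentElem.eq]
      · beta_reduce
        rw [hA.2.1 _ (hQ.mem _) _ (t.mem _), mul_assoc]
        exact (h r hr rA pr x.1).imp (fun e => by rw [e]) fun e => by rw [e, mul_zero]
    · exact ⟨ι, inferInstance, Q, hQ, forall_mem_insert _ _ _ |>.2
        ⟨fun a b => absurd ⟨a, b⟩ hp, h⟩⟩

theorem norm_cut {ι : Type} [Fintype ι] {r g : ι → H →L[ℂ] H} (pr : ∀ i, IsStarProjection (r i))
    (or : ∀ i j, i ≠ j → r i * r j = 0) (pg : ∀ i, IsStarProjection (g i))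
    (og : ∀ i j, i ≠ j → g i * g j = 0) (y : H →L[ℂ] H) : ‖∑ i, r i * y * g i‖ ≤ ‖y‖ := by
  have ps : IsStarProjection (∑ j, g j) := by
    refine ⟨?_, isSelfAdjoint_sum _ fun j _ => (pg j).isSelfAdjoint⟩
    rw [IsIdempotentElem, sum_mul_sum]
    refine sum_congr rfl fun i _ => ?_
    rw [sum_eq_single i (fun j _ hj => og i j hj.symm) (by simp), (pg i).isIdempotentElem.eq]
  refine le_of_sq_le (norm_nonneg _) (norm_sq_le_of_le (sq_nonneg _) ?_)
  refine le_trans ?_ (smul_le_smul_of_nonneg_left (sub_nonneg.1 ps.one_sub.nonneg) (sq_nonneg _))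
  rw [star_sum, sum_mul_sum, smul_sum]
  refine sum_le_sum fun i _ => ?_
  rw [sum_eq_single i (fun j _ hj => by
    simp only [star_mul, (pr i).isSelfAdjoint.star_eq, mul_assoc]
    rw [← mul_assoc (r i), or i j hj.symm, zero_mul, mul_zero, mul_zero]) (by simp)]
  have a := conj_le_smul ((star_mul_self_le_norm_sq (r i * y)).trans (smul_le_smul_of_nonneg_right
    (pow_le_pow_left₀ (norm_nonneg _) ((norm_mul_le _ _).trans
      (mul_le_of_le_one_left (norm_nonneg y) (pr i).norm_le)) 2) zero_le_one)) (g i)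
  rw [(pg i).isSelfAdjoint.star_eq, (pg i).isIdempotentElem.eq] at a
  rw [star_mul (r i * y), (pg i).isSelfAdjoint.star_eq]
  simpa only [mul_assoc] using a

theorem on_sub {π g t : H →L[ℂ] H} (pπ : IsStarProjection π) (pg : IsStarProjection g)
    (h : 0 ≤ g * t * g) (e : π * g = π) : 0 ≤ π * t * π := by
  have e' : g * π = π := by
    simpa only [star_mul, pπ.isSelfAdjoint.star_eq, pg.isSelfAdjoint.star_eq] using congrArg star e
  have := pπ.isSelfAdjoint.conjugate_nonneg h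
  rwa [← mul_assoc, ← mul_assoc, e, mul_assoc _ g, e'] at this

theorem kill {π a b h : H →L[ℂ] H} {κ : ℝ} (pπ : IsStarProjection π) (κ0 : 0 < κ)
    (h1 : 0 ≤ π * (h - (κ : ℂ) • 1) * π) (h2 : 0 ≤ π * (a + a + a - (h + h)) * π)
    (h3 : 0 ≤ 3 • (π * (b + b - h) * π)) (h4 : a + b ≤ h) : π = 0 := by
  have h5 := pπ.isSelfAdjoint.conjugate_nonneg (sub_nonneg.2 h4)
  have s := add_nonneg (add_nonneg h1 (nsmul_nonneg h2 2)) (add_nonneg h3 (nsmul_nonneg h5 6))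
  have e : π * (h - (κ : ℂ) • 1) * π + 2 • (π * (a + a + a - (h + h)) * π) +
      (3 • (π * (b + b - h) * π) + 6 • (π * (h - (a + b)) * π)) = -((κ : ℂ) • π) := by
    simp only [mul_sub, sub_mul, mul_add, add_mul, mul_smul_comm, smul_mul_assoc, mul_one,
      pπ.isIdempotentElem.eq]
    module
  rw [e, neg_nonneg] at s
  exact (smul_eq_zero.1 (le_antisymm s (smul_nn κ0.le pπ.nonneg))).resolve_left
    (Complex.ofReal_ne_zero.2 κ0.ne')

theorem ptw (hA : IsMasa A M) {a h g e : H →L[ℂ] H} {κ : ℝ} (κ0 : 0 ≤ κ) (aA : a ∈ A) (hA' : h ∈ A)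
    (gA : g ∈ A) (eA : e ∈ A) (pg : IsStarProjection g) (pe : IsStarProjection e) (a0 : 0 ≤ a)
    (ah : a ≤ h) (h1 : (1 - g) * (a + a + a - (h + h)) * (1 - g) ≤ 0)
    (h2 : (1 - e) * (h - (κ : ℂ) • 1) * (1 - e) ≤ 0) :
    3 * ‖a ξ‖ ^ 2 ≤ 3 * ‖h‖ * (⟪ξ, (g * e * a) ξ⟫_ℂ).re + 2 * (⟪ξ, (h * a) ξ⟫_ℂ).re +
      3 * κ * (⟪ξ, a ξ⟫_ℂ).re := by
  have h0 := a0.trans ah
  have o := one_mem A
  have gA' := mul_mem gA eA
  have pg' := hA.proj_mul gA eA pg pe
  have πA := mul_mem gA (sub_mem o eA)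
  have pπ := hA.proj_mul gA (sub_mem o eA) pg pe.one_sub
  have κA : h - (κ : ℂ) • 1 ∈ A := sub_mem hA' (vn_smul_mem _ o)
  have n0 : a ≤ (‖h‖ : ℂ) • 1 := by
    rw [Complex.coe_smul]
    exact ah.trans (le_norm_smul h0.isSelfAdjoint.star_eq)
  have n1 := pg'.isSelfAdjoint.conjugate_nonneg (sub_nonneg.2 n0)
  have n2 := neg_nonneg.2 h1
  have n3 := pg.isSelfAdjoint.conjugate_nonneg h0
  have n4 := pπ.isSelfAdjoint.conjugate_nonneg (sub_nonneg.2 ah)
  have n5 := on_sub (t := -(h - (κ : ℂ) • 1)) pπ pe.one_sub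
    (by rw [mul_neg, neg_mul]; exact neg_nonneg.2 h2)
    (by rw [mul_assoc, pe.one_sub.isIdempotentElem.eq])
  have n6 := smul_nn κ0 pπ.one_sub.nonneg
  rw [cj hA gA' pg' (sub_mem (vn_smul_mem _ o) aA)] at n1
  rw [cj hA (sub_mem o gA) pg.one_sub (sub_mem (add_mem (add_mem aA aA) aA) (add_mem hA' hA'))]
    at n2
  rw [cj hA gA pg hA'] at n3
  rw [cj hA πA pπ (sub_mem hA' aA)] at n4
  rw [cj hA πA pπ (neg_mem κA)] at n5
  obtain ⟨D, hD⟩ : ∃ D, D = ((3 * ‖h‖ : ℝ) : ℂ) • (g * e) + (2 : ℂ) • h + ((3 * κ : ℝ) : ℂ) • 1 -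
    (3 : ℂ) • a := ⟨_, rfl⟩
  have D0 : 0 ≤ D := by
    refine (add_nonneg (add_nonneg (add_nonneg (nsmul_nonneg n1 3) n2) (nsmul_nonneg n3 2))
      (nsmul_nonneg (add_nonneg (add_nonneg n4 n5) n6) 3)).trans_eq ?_
    simp only [hD, mul_sub, sub_mul, add_mul, neg_mul, smul_mul_assoc, mul_one, one_mul]
    push_cast
    module
  have DA : D ∈ A := hD ▸ sub_mem (add_mem (add_mem (vn_smul_mem _ gA') (vn_smul_mem _ hA'))
    (vn_smul_mem _ o)) (vn_smul_mem _ aA)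
  have k := re_nonneg (ξ := ξ) (Commute.mul_nonneg D0 a0 (hA.2.1 D DA a aA))
  rw [norm_sq_apply, a0.isSelfAdjoint.star_eq]
  simp only [hD, sub_mul, add_mul, smul_mul_assoc, one_mul, ContinuousLinearMap.sub_apply,
    ContinuousLinearMap.add_apply, ContinuousLinearMap.smul_apply, inner_sub_right, inner_add_right,
    inner_smul_right, Complex.sub_re, Complex.add_re, Complex.re_ofReal_mul, Complex.mul_re,
    Complex.re_ofNat, Complex.im_ofNat, zero_mul, sub_zero, Complex.ofReal_re, Complex.ofReal_im]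
    at k
  linarith

variable {y : H →L[ℂ] H} {T : (H →L[ℂ] H) → H →L[ℂ] H}

theorem exT (hA : IsMasa A M) (ht : TraceVec M ξ) (hy : y ∈ M) :
    ∃ T : (H →L[ℂ] H) → H →L[ℂ] H, ∀ p ∈ A, IsE A ξ (star y * p * y) (T p) := by
  have : ∀ p, ∃ t, p ∈ A → IsE A ξ (star y * p * y) t := fun p => by
    by_cases h : p ∈ A
    · obtain ⟨a, a1, -, a2⟩ := ce H A M ξ hA ht _ (mul_mem (mul_mem (star_mem hy) (hA.1 p h)) hy)
      exact ⟨a, fun _ => ⟨a1, a2⟩⟩
    · exact ⟨0, fun h' => absurd h' h⟩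
  choose T hT using this
  exact ⟨T, hT⟩

theorem T_sum (hA : IsMasa A M) (ht : TraceVec M ξ)
    (hT : ∀ p ∈ A, IsE A ξ (star y * p * y) (T p)) {ι : Type} [Fintype ι] {p : ι → H →L[ℂ] H}
    (hp : ∀ i, p i ∈ A) : T (∑ i, p i) = ∑ i, T (p i) := by
  refine uniq hA ht (hT _ (sum_mem fun i _ => hp i)) ⟨sum_mem fun i _ => (hT _ (hp i)).1,
    fun b hb => ?_⟩
  simp only [mul_sum, sum_mul, ContinuousLinearMap.sum_apply, inner_sum, (hT _ (hp _)).2 b hb]

theorem T_add (hA : IsMasa A M) (ht : TraceVec M ξ)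
    (hT : ∀ p ∈ A, IsE A ξ (star y * p * y) (T p)) {p q : H →L[ℂ] H} (hp : p ∈ A) (hq : q ∈ A) :
    T (p + q) = T p + T q := by
  refine uniq hA ht (hT _ (add_mem hp hq)) ⟨add_mem (hT _ hp).1 (hT _ hq).1, fun b hb => ?_⟩
  simp only [mul_add, add_mul, ContinuousLinearMap.add_apply, inner_add_right, (hT _ hp).2 b hb,
    (hT _ hq).2 b hb]

theorem T_nn (hA : IsMasa A M) (ht : TraceVec M ξ) (hy : y ∈ M)
    (hT : ∀ p ∈ A, IsE A ξ (star y * p * y) (T p)) {p : H →L[ℂ] H} (hp : p ∈ A)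
    (pp : IsStarProjection p) : 0 ≤ T p :=
  nonneg hA ht (mul_mem (mul_mem (star_mem hy) (hA.1 p hp)) hy)
    (star_left_conjugate_nonneg pp.nonneg y) (hT p hp)

theorem loc (hA : IsMasa A M) (hT : ∀ p ∈ A, IsE A ξ (star y * p * y) (T p))
    (hn : ¬NoAtom A ξ y) : ∃ f ∈ A, IsStarProjection f ∧ ∀ (ι : Type) (_ : Fintype ι)
      (Q : ι → H →L[ℂ] H), Part A Q → 5 / 6 * ‖T f ξ‖ ^ 2 < ∑ i, ‖T (f * Q i) ξ‖ ^ 2 := by
  by_contra h
  push Not at h
  have k : ∀ n : ℕ, ∃ (ι : Type) (_ : Fintype ι) (f : ι → H →L[ℂ] H), Part A f ∧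
      ∑ i, ‖T (f i) ξ‖ ^ 2 ≤ (5 / 6) ^ n * ‖T 1 ξ‖ ^ 2 := fun n => by
    induction n with
    | zero => exact ⟨Unit, inferInstance, _, Part.one, by simp⟩
    | succ n ih =>
      obtain ⟨ι, _, f, hf, e⟩ := ih
      choose κ hκ Q hQ hs using fun i => h (f i) (hf.mem i) (hf.proj i)
      refine ⟨_, inferInstance, _, hf.glue hA hQ, ?_⟩
      rw [Fintype.sum_sigma]
      refine (sum_le_sum fun i _ => hs i).trans ?_
      rw [← mul_sum, pow_succ]
      linarith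
  refine hn fun η η0 => ?_
  obtain ⟨n, hn⟩ := exists_pow_lt_of_lt_one (show 0 < η / (‖T 1 ξ‖ ^ 2 + 1) by positivity)
    (show (5 / 6 : ℝ) < 1 by norm_num)
  obtain ⟨ι, _, f, hf, e⟩ := k n
  refine ⟨_, _, fun i => T (f ((Fintype.equivFin ι).symm i)), hf.fin, fun i => hT _ (hf.mem _), ?_⟩
  rw [Equiv.sum_comp _ fun i => ‖T (f i) ξ‖ ^ 2]
  rw [lt_div_iff₀ (by positivity)] at hn
  have : (0 : ℝ) < (5 / 6) ^ n := by positivity
  linarith

end W

end Vale.Agent.P078
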