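import Vale.Agent.P078.Stm3
import Vale.Agent.P078.WM2

/-! Interfaces for the optimal number of pieces over every maximal abelian subalgebra. -/

namespace Vale.Agent.P078

open scoped InnerProductSpace

universe u

/-- The fourth power of the `4`-norm of the block `a y b`. -/
noncomputable def Psi {H : Type u} [NormedAddCommGroup H] [InnerProductSpace ℂ H] (ξ : H)
    (y a b : H →L[ℂ] H) : ℝ := ‖(b * y * a * y * b) ξ‖ ^ 2

/-- WP B2: random colourings with bounded dependence. -/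
def Block2Stmt : Prop := ∀ r n d : ℕ, 4 ≤ r → ∀ η : ℝ, 0 < η → ∃ ε : ℝ, 0 < ε ∧
  ∀ (H : Type u) [NormedAddCommGroup H] [InnerProductSpace ℂ H] [CompleteSpace H]
    (M : VonNeumannAlgebra H) (ξ : H), TraceVec M ξ → ∀ (ι α : Type) [Fintype ι] [DecidableEq ι]
    [Fintype α] (e : α → H →L[ℂ] H) (N : α → Finset ι) (p : (ι → Fin r) → Fin r → H →L[ℂ] H)
    (y : H →L[ℂ] H), W.Part M e → (∀ a, (N a).card ≤ d) → (∀ π, W.Part M (p π)) →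
    (∀ π k a, p π k * e a = e a * p π k) →
    (∀ π π' k a, (∀ i ∈ N a, π i = π' i) → p π k * e a = p π' k * e a) →
    (∀ k, ∑ π, p π k = ((Fintype.card (ι → Fin r) : ℂ) / r) • 1) →
    y ∈ M → IsSelfAdjoint y → ‖y‖ ≤ 1 →
    ∑ S ∈ Finset.univ.erase ∅, ∑ S' ∈ Finset.univ.erase ∅,
      Psi ξ y (∑ a with S ⊆ N a, e a) (∑ a with S' ⊆ N a, e a) ≤ ε →
    ∃ π, (⟪ξ, (R.pin (p π) y ^ n) ξ⟫_ℂ).re ≤ (2 / √r) ^ n + η

/-- WP P2: atoms of the translated partitions. -/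
def AtomStmt : Prop := ∀ d : ℕ, ∃ C : ℝ, 0 < C ∧ ∀ (H : Type u) [NormedAddCommGroup H]
  [InnerProductSpace ℂ H] [CompleteSpace H] (A M : VonNeumannAlgebra H) (ξ : H), IsMasa A M →
  TraceVec M ξ → ∀ (ι : Type) [Fintype ι] [DecidableEq ι] (F : Fin d → ι → H →L[ℂ] H),
  (∀ s, W.Part A (F s)) → ∃ (α : Type) (_ : Fintype α) (e : α → H →L[ℂ] H) (I : α → Fin d → ι),
    W.Part A e ∧ (∀ a s, e a * F s (I a s) = e a) ∧ ∀ y ∈ M, IsSelfAdjoint y →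
      ∑ S ∈ Finset.univ.erase ∅, ∑ S' ∈ Finset.univ.erase ∅,
        Psi ξ y (∑ a with S ⊆ Finset.univ.image (I a), e a)
          (∑ a with S' ⊆ Finset.univ.image (I a), e a) ≤
      C * ∑ s, ∑ s', ∑ i, ∑ j, Psi ξ y (F s i) (F s' j)

/-- WP L2: a partition all of whose translates have small blocks. -/
def Cut2Stmt : Prop := ∀ (H : Type u) [NormedAddCommGroup H] [InnerProductSpace ℂ H]
  [CompleteSpace H] (A M : VonNeumannAlgebra H) (ξ : H), IsMasa A M → TraceVec M ξ →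
  ∀ y ∈ M, IsSelfAdjoint y → (∀ b ∈ R.nsp A M, ⟪b ξ, y ξ⟫_ℂ = 0) →
  ∀ (d : ℕ) (v : Fin d → H →L[ℂ] H), (∀ s, Normalizes A M (v s)) → ∀ ε : ℝ, 0 < ε →
  ∃ (n : ℕ) (f : Fin n → H →L[ℂ] H), W.Part A f ∧
    ∑ s, ∑ s', ∑ i, ∑ j, Psi ξ y (star (v s) * f i * v s) (star (v s') * f j * v s') ≤ ε

/-- WP C3: an equivariant local family of two-sided pavings. -/
def Core3Stmt : Prop := ∀ (H : Type u) [NormedAddCommGroup H] [InnerProductSpace ℂ H]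
  [CompleteSpace H] (A M : VonNeumannAlgebra H) (ξ : H), IsMasa A M → TraceVec M ξ →
  ∀ (m : ℕ) [NeZero (m ^ 2)], 2 ≤ m → ∀ x ∈ Submodule.span ℂ {u | Normalizes A M u},
  IsSelfAdjoint x → ‖x‖ ≤ 1 → (∀ a ∈ A, ⟪ξ, (a * x) ξ⟫_ℂ = 0) → ∀ η : ℝ, 0 < η →
  ∃ (d : ℕ) (v : Fin d → H →L[ℂ] H), (∀ s, Normalizes A M (v s)) ∧
    ∀ (n : ℕ) (f : Fin n → H →L[ℂ] H), W.Part A f →
    ∃ p : (Fin n → Fin (m ^ 2)) → Fin (m ^ 2) → H →L[ℂ] H, (∀ π, W.Part A (p π)) ∧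
      (∀ π k t, p (fun i => π i + t) (k + t) = p π k) ∧
      (∀ π π' k, ∀ b ∈ A, ∀ I : Fin d → Fin n, (∀ s, b * (star (v s) * f (I s) * v s) = b) →
        (∀ s, π (I s) = π' (I s)) → p π k * b = p π' k * b) ∧
      ∀ π, ∃ w ∈ M, 0 ≤ w ∧ (⟪ξ, w ξ⟫_ℂ).re ≤ η ∧
        R.pin (p π) x ≤ ((12 / m : ℝ) : ℂ) • 1 + w ∧ -R.pin (p π) x ≤ ((12 / m : ℝ) : ℂ) • 1 + w

/-- The final statement: the optimal order for every tracial inclusion. -/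
def Final4Stmt : Prop := ∃ C : ℝ, ∀ (H : Type u) [NormedAddCommGroup H] [InnerProductSpace ℂ H]
  [CompleteSpace H] (A M : VonNeumannAlgebra H) (ξ : H), IsMasa A M →
  TraceVec M ξ → ∀ ε : ℝ, 0 < ε → ε < 1 → ∃ r : ℕ, 1 ≤ r ∧ (r : ℝ) ≤ C / ε ^ 2 ∧
    ∀ x ∈ M, IsSelfAdjoint x → SoPavable A M x ε r

end Vale.Agent.P078
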