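import Vale.Agent.P078.FinN
import Vale.Agent.P078.Stm4
import Vale.Agent.P078.Defs4

/-! Paving passes to strong limits when the abelian algebra lies in a centralizer. -/

namespace Vale.Agent.P078

open scoped InnerProductSpace ComplexConjugate ComplexOrder
open Vale.Agent.P104 Vale.Agent.P082 Finset ContinuousLinearMap

universe u

variable {H : Type u} [NormedAddCommGroup H] [InnerProductSpace ℂ H] [CompleteSpace H]
  {A M : VonNeumannAlgebra H} {ξ : H}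

namespace AP

open R F2 FN

theorem tbpin (hA : IsMasa A M)
    (hc : ∀ a ∈ A, ∀ x ∈ M, ⟪ξ, (a * x) ξ⟫_ℂ = ⟪ξ, (x * a) ξ⟫_ℂ) {r : ℕ}
    {p : Fin r → H →L[ℂ] H} (pp : IsPartition A p) {T : H →L[ℂ] H} {c η : ℝ}
    (h : Tb M ξ T c η) : Tb M ξ (pin p T) c η := by
  obtain ⟨W, a1, a2, a3, a4, a5⟩ := h
  have e : ⟪ξ, pin p W ξ⟫_ℂ = ⟪ξ, W ξ⟫_ℂ := by
    have k : ∀ i, ⟪ξ, (p i * W * p i) ξ⟫_ℂ = ⟪ξ, (p i * W) ξ⟫_ℂ := fun i => by
      rw [← hc _ (pp.1 i).1 _ (mul_mem (hA.1 _ (pp.1 i).1) a1), ← mul_assoc,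
        (pp.1 i).2.isIdempotentElem.eq]
    rw [pin, _root_.sum_apply, inner_sum]
    simp only [k]
    rw [← inner_sum, ← _root_.sum_apply, ← sum_mul, pp.2.2, one_mul]
  refine ⟨R.pin p W, pin_mem hA pp a1, pin_nonneg pp a2, by rwa [e], ?_, ?_⟩
  · rw [← pin_one pp, ← pin_add]
    exact pin_mono pp a4
  · rw [← pin_one pp, ← pin_add, ← pin_neg]
    exact pin_mono pp a5

theorem lim (hA : IsMasa A M) (hs : ∀ x ∈ M, x ξ = 0 → x = 0)
    (hc : ∀ a ∈ A, ∀ x ∈ M, ⟪ξ, (a * x) ξ⟫_ℂ = ⟪ξ, (x * a) ξ⟫_ℂ) {r : ℕ} {c η : ℝ} (c0 : 0 ≤ c)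
    (hη : 0 < η) (h : ∀ x ∈ M, IsSelfAdjoint x → ∀ κ : ℝ, 0 < κ → ∃ y ∈ M, IsSelfAdjoint y ∧
      ‖y‖ ≤ ‖x‖ ∧ ‖(x - y) ξ‖ ≤ κ ∧ SoPavable A M y c r) :
    ∀ x ∈ M, IsSelfAdjoint x → SoPavable A M x (c + 3 * η) r := by
  refine tail fun x hx xs hn F δ d0 => ?_
  obtain ⟨θ, t0, hθ⟩ := sepF hs F d0
  obtain ⟨y, yM, ys, yn, y1, y2⟩ := h x hx xs (η * θ / 2) (by positivity)
  obtain ⟨p, pp, a, aA, as, an, q, qM, q1, q2, q3⟩ := y2 {ξ} (η * θ / 6) (by positivity)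
  have q2' := (q2 ξ (mem_singleton_self ξ)).le
  have p1 := IsStarProjection.one (H →L[ℂ] H)
  obtain ⟨S, hSd⟩ : ∃ S, S = pin p y - a := ⟨_, rfl⟩
  have SM : S ∈ M := hSd ▸ sub_mem (pin_mem hA pp yM) (hA.1 _ aA)
  have Ss : IsSelfAdjoint S := hSd ▸ (pin_sa pp ys).sub as
  have Sn : ‖S‖ ≤ 2 := by
    rw [hSd]
    linarith [norm_sub_le (pin p y) a, CutA.pin_norm pp ys]
  have q4 : ‖q * S * q‖ ≤ c := by
    rw [hSd]
    exact q3.trans (mul_le_of_le_one_right c0 (yn.trans hn))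
  obtain ⟨z, hz⟩ : ∃ z, z = (1 - q) * (S * ((2⁻¹ : ℂ) • (1 + q))) := ⟨_, rfl⟩
  have sz : star z = (2⁻¹ : ℂ) • (1 + q) * (S * (1 - q)) := by
    simp [hz, Ss.star_eq, q1.isSelfAdjoint.star_eq, mul_assoc]
  have b1 := cross (ξ := ξ) (η' := η * θ ^ 2 / 2) (one_mem M) p1 (y := z)
    (hz ▸ mul_mem (sub_mem (one_mem _) qM) (mul_mem SM (vn_smul_mem _ (add_mem (one_mem _) qM))))
    hη (by
      have n1 : ‖(2⁻¹ : ℂ) • (1 + q)‖ ≤ 1 := by
        rw [norm_smul, norm_inv, Complex.norm_ofNat]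
        linarith [norm_add_le 1 q, p1.norm_le, q1.norm_le]
      have n2 : ‖star z ((1 : H →L[ℂ] H) ξ)‖ ≤ 2 * (η * θ / 6) := by
        rw [sz, mul_apply_eq_comp, mul_apply_eq_comp]
        exact ((le_opNorm _ _).trans (mul_le_of_le_one_left (norm_nonneg _) n1)).trans
          ((le_opNorm _ _).trans (mul_le_mul Sn q2' (norm_nonneg _) zero_le_two))
      have := pow_le_pow_left₀ (norm_nonneg _) n2 2
      rw [inv_mul_le_iff₀ hη]
      nlinarith [sq_nonneg (η * θ)])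
  have b0 := ofNorm (M := M) (ξ := ξ) p1 (Ss.conjugate_self q1.isSelfAdjoint) q4
  have b2 := tbpin hA hc pp (Tb.sq (ξ := ξ) (η := η * θ ^ 2 / 2) (sub_mem hx yM) (xs.sub ys) hη (by
    have := pow_le_pow_left₀ (norm_nonneg _) y1 2
    rw [inv_mul_le_iff₀ hη]
    nlinarith [sq_nonneg (η * θ)]))
  have e0 : 1 * (pin p x - a) * 1 = 1 * (q * S * q) * 1 + 1 * (z + star z) * 1 +
      pin p (x - y) := by
    have : S = q * S * q + (z + star z) := by
      rw [sz, hz]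
      simp only [mul_smul_comm, smul_mul_assoc, mul_add, add_mul, mul_sub, sub_mul, mul_assoc,
        mul_one, one_mul]
      module
    have e1 : pin p x = pin p y + pin p (x - y) := by rw [← pin_add, add_sub_cancel]
    simp only [one_mul, mul_one]
    rw [← this, e1, hSd]
    abel
  have b3 := (b0.add b1).add b2
  rw [← e0] at b3
  obtain ⟨Q, QM, Q1, Q0, Q2, Q3⟩ := cutg (c := c + 2 * η) (one_mem M) p1
    (fun y _ => by rw [one_mul, mul_one]) ((pin_sa pp xs).sub as)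
    (by positivity) hη t0 (mono b3 (by linarith) (by linarith))
  exact ⟨p, pp, a, aA, as, an.trans (yn.trans hn), Q, QM, Q1,
    fun v hv => hθ _ (sub_mem (one_mem _) QM) Q0 Q2 v hv, Q3.trans (le_of_eq (by ring))⟩

theorem up {N : VonNeumannAlgebra H} (hN : ∀ y ∈ N, y ∈ M) {x : H →L[ℂ] H} {c : ℝ} {r : ℕ}
    (h : SoPavable A N x c r) : SoPavable A M x c r := fun F δ d => by
  obtain ⟨p, pp, a, aA, as, an, q, qM, q1⟩ := h F δ d
  exact ⟨p, pp, a, aA, as, an, q, hN q qM, q1⟩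

theorem pad {x : H →L[ℂ] H} {c : ℝ} {r r' : ℕ} (h : SoPavable A M x c r) (e : r ≤ r') :
    SoPavable A M x c r' := by
  induction r', e using Nat.le_induction with
  | base => exact h
  | succ n _ ih =>
    intro F δ d
    obtain ⟨p, pp, a, aA, as, an, q, qM, q1, q2, q3⟩ := ih F δ d
    refine ⟨Fin.cons 0 p, ⟨fun i => ?_, fun i j => ?_, ?_⟩, a, aA, as, an, q, qM, q1, q2, ?_⟩
    · induction i using Fin.cases with
      | zero => exact ⟨zero_mem _, .zero _⟩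
      | succ i => exact pp.1 i
    · induction i using Fin.cases with
      | zero => exact fun _ => zero_mul _
      | succ i =>
        induction j using Fin.cases with
        | zero => exact fun _ => mul_zero _
        | succ j => exact fun e => pp.2.1 i j fun k => e (by rw [k])
    · rw [Fin.sum_univ_succ]
      simpa using pp.2.2
    · rw [Fin.sum_univ_succ]
      simpa using q3

end AP

/-- The number of pieces is the one of the tracial case with half the error. -/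
theorem apx {ε : ℝ} (e0 : 0 < ε) {r : ℕ}
    (h : ∀ (N : VonNeumannAlgebra H) (ζ : H), IsMasa A N → TraceVec N ζ →
      ∀ x ∈ N, IsSelfAdjoint x → SoPavable A N x (ε / 2) r)
    (hA : IsMasa A M) (hM : ApproxFinite A M) :
    ∀ x ∈ M, IsSelfAdjoint x → SoPavable A M x ε r := by
  obtain ⟨ξ, hs, hc, hM⟩ := hM
  have := AP.lim (c := ε / 2) (η := ε / 6) (r := r) hA hs hc (by positivity) (by positivity)
    fun x hx xs κ k0 => by
      obtain ⟨N, n1, n2, ⟨ζ, n3⟩, y, y1, y2, y3, y4⟩ := hM x hx xs κ k0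
      exact ⟨y, n2 y y1, y2, y3, y4, AP.up n2
        (h N ζ ⟨n1, hA.2.1, fun z hz => hA.2.2 z (n2 z hz)⟩ n3 y y1 y2)⟩
  rwa [show ε / 2 + 3 * (ε / 6) = ε by ring] at this

/-- The optimal order for algebras which are approximately finite over `A`. -/
theorem apx4 (h4 : Final4Stmt.{u}) : ∃ C : ℝ, ∀ (H : Type u) [NormedAddCommGroup H]
    [InnerProductSpace ℂ H] [CompleteSpace H] (A M : VonNeumannAlgebra H), IsMasa A M →
    ApproxFinite A M → ∀ ε : ℝ, 0 < ε → ε < 1 → ∃ r : ℕ, 1 ≤ r ∧ (r : ℝ) ≤ C / ε ^ 2 ∧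
      ∀ x ∈ M, IsSelfAdjoint x → SoPavable A M x ε r := by
  obtain ⟨C, h4⟩ := h4
  refine ⟨4 * |C| + 1, fun H _ _ _ A M hA hM ε e0 e1 => ⟨⌊|C| / (ε / 2) ^ 2⌋₊ + 1,
    Nat.le_add_left _ _, ?_, apx e0 (fun N ζ hN ht x hx xs => ?_) hA hM⟩⟩
  · have a1 := Nat.floor_le (show 0 ≤ |C| / (ε / 2) ^ 2 by positivity)
    have a2 : 1 ≤ 1 / ε ^ 2 := by
      rw [le_div_iff₀ (by positivity)]
      nlinarith
    have a3 : (4 * |C| + 1) / ε ^ 2 = |C| / (ε / 2) ^ 2 + 1 / ε ^ 2 := by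
      field_simp
      ring
    push_cast
    linarith
  · obtain ⟨r, -, r2, h⟩ := h4 H A N ζ hN ht (ε / 2) (by positivity) (by linarith)
    exact AP.pad (h x hx xs) (Nat.le_succ_of_le (Nat.le_floor (r2.trans
      (div_le_div_of_nonneg_right (le_abs_self C) (by positivity)))))

end Vale.Agent.P078
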