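import Vale.Agent.P078.Defs

/-! Maximal abelian subalgebras whose normalizer is approximately finite. -/

namespace Vale.Agent.P078

open scoped InnerProductSpace

variable {H : Type*} [NormedAddCommGroup H] [InnerProductSpace ℂ H] [CompleteSpace H]

/-- A faithful vector state of `M` has `A` in its centralizer, and the normalizer of `A` is
approximated by an increasing sequence of tracial algebras `A ⊆ N n ⊆ M`, each of which is the
relative commutant in `M` of its central projections. -/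
def AmenableNormalizer (A M : VonNeumannAlgebra H) : Prop :=
  ∃ ξ : H, ‖ξ‖ = 1 ∧ (∀ x ∈ M, x ξ = 0 → x = 0) ∧
    (∀ a ∈ A, ∀ x ∈ M, ⟪ξ, (a * x) ξ⟫_ℂ = ⟪ξ, (x * a) ξ⟫_ℂ) ∧
    ∃ N : ℕ → VonNeumannAlgebra H, (∀ n, (∀ a ∈ A, a ∈ N n) ∧ (∀ y ∈ N n, y ∈ M ∧ y ∈ N (n + 1)) ∧
      (∃ ζ, TraceVec (N n) ζ) ∧ ∀ y ∈ M, (∀ e ∈ A, IsStarProjection e →
        (∀ w ∈ N n, e * w = w * e) → e * y = y * e) → y ∈ N n) ∧
      ∀ v, Normalizes A M v → ∀ η : ℝ, 0 < η → ∃ n, ∃ y ∈ N n, ‖(v - y) ξ‖ ≤ η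

end Vale.Agent.P078
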