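import Vale.Agent.P078.N3
import Vale.Agent.P078.Am1
import Vale.Agent.P078.Am2
import Vale.Agent.P078.Apx
import Vale.Agent.P078.Defs5

/-! Paving when the normalizer is approximately finite. -/

namespace Vale.Agent.P078

open scoped InnerProductSpace ComplexConjugate ComplexOrder
open Vale.Agent.P104 Vale.Agent.P082 Finset ContinuousLinearMap

universe u

variable {H : Type u} [NormedAddCommGroup H] [InnerProductSpace ℂ H] [CompleteSpace H]
  {A M : VonNeumannAlgebra H} {ξ : H}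

namespace AM

open R F2 FN

theorem tbso (hA : IsMasa A M) {y : H →L[ℂ] H} (yM : y ∈ M) (ys : IsSelfAdjoint y)
    (yn : ‖y‖ ≤ 1) {r : ℕ} {c η θ : ℝ} (c0 : 0 ≤ c) (hη : 0 < η) (t0 : 0 < θ)
    (y2 : SoPavable A M y c r) : ∃ p : Fin r → H →L[ℂ] H, IsPartition A p ∧ ∃ a ∈ A,
      IsSelfAdjoint a ∧ ‖a‖ ≤ 1 ∧ Tb M ξ (pin p y - a) (c + η) (η * θ ^ 2 / 4) := by
  obtain ⟨p, pp, a, aA, as, an, q, qM, q1, q2, q3⟩ := y2 {ξ} (η * θ / 6) (by positivity)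
  have q2' := (q2 ξ (mem_singleton_self ξ)).le
  have p1 := IsStarProjection.one (H →L[ℂ] H)
  obtain ⟨S, hSd⟩ : ∃ S, S = pin p y - a := ⟨_, rfl⟩
  have SM : S ∈ M := hSd ▸ sub_mem (pin_mem hA pp yM) (hA.1 _ aA)
  have Ss : IsSelfAdjoint S := hSd ▸ (pin_sa pp ys).sub as
  have Sn : ‖S‖ ≤ 2 := by
    rw [hSd]
    linarith [norm_sub_le (pin p y) a, CutA.pin_norm pp ys]
  have q4 : ‖q * S * q‖ ≤ c := by
    rw [hSd]
    exact q3.trans (mul_le_of_le_one_right c0 yn)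
  obtain ⟨z, hz⟩ : ∃ z, z = (1 - q) * (S * ((2⁻¹ : ℂ) • (1 + q))) := ⟨_, rfl⟩
  have sz : star z = (2⁻¹ : ℂ) • (1 + q) * (S * (1 - q)) := by
    simp [hz, Ss.star_eq, q1.isSelfAdjoint.star_eq, mul_assoc]
  have b1 := cross (ξ := ξ) (η' := η * θ ^ 2 / 4) (one_mem M) p1 (y := z)
    (hz ▸ mul_mem (sub_mem (one_mem _) qM) (mul_mem SM (vn_smul_mem _ (add_mem (one_mem _) qM))))
    hη (by
      have n1 : ‖(2⁻¹ : ℂ) • (1 + q)‖ ≤ 1 := by
        rw [norm_smul, norm_inv, Complex.norm_ofNat]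
        linarith [norm_add_le 1 q, p1.norm_le, q1.norm_le]
      have n2 : ‖star z ((1 : H →L[ℂ] H) ξ)‖ ≤ 2 * (η * θ / 6) := by
        rw [sz, mul_apply_eq_comp, mul_apply_eq_comp]
        exact ((le_opNorm _ _).trans (mul_le_of_le_one_left (norm_nonneg _) n1)).trans
          ((le_opNorm _ _).trans (mul_le_mul Sn q2' (norm_nonneg _) zero_le_two))
      have := pow_le_pow_left₀ (norm_nonneg _) n2 2
      rw [inv_mul_le_iff₀ hη]
      nlinarith [sq_nonneg (η * θ)])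
  have b0 := ofNorm (M := M) (ξ := ξ) p1 (Ss.conjugate_self q1.isSelfAdjoint) q4
  have e0 : S = 1 * (q * S * q) * 1 + 1 * (z + star z) * 1 := by
    rw [sz, hz]
    simp only [mul_smul_comm, smul_mul_assoc, mul_add, add_mul, mul_sub, sub_mul, mul_assoc,
      mul_one, one_mul]
    module
  have b3 := b0.add b1
  rw [← e0, zero_add, hSd] at b3
  exact ⟨p, pp, a, aA, as, an.trans yn, b3⟩

theorem main (hA : IsMasa A M) (hM : AmenableNormalizer A M) {r m : ℕ} (hm : 2 ≤ m) {c η : ℝ}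
    (c0 : 0 ≤ c) (hη : 0 < η)
    (h : ∀ (N : VonNeumannAlgebra H) (ζ : H), IsMasa A N → TraceVec N ζ →
      ∀ x ∈ N, IsSelfAdjoint x → SoPavable A N x c r) :
    ∀ x ∈ M, IsSelfAdjoint x → SoPavable A M x (c + 10 / m + 3 * η) (r * m ^ 2) := by
  obtain ⟨ξ, x1, hs, hc, N, hN, hd⟩ := hM
  have ht : CV A M ξ := ⟨x1, hc, hs⟩
  refine tail fun x hx xs hn F δ d0 => ?_
  obtain ⟨θ, t0, hθ⟩ := sepF hs F d0
  obtain ⟨n, b, b1, z, zM, bs, zs, bn, zn, z1, z2⟩ := split hA ht (fun n => (hN n).2.1)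
    (fun n => (hN n).2.2.2) hd hx xs (show 0 < η * θ / 2 by positivity)
  obtain ⟨n1, n2, ⟨ζ, n3⟩, -⟩ := hN n
  have bM := (n2 b b1).1
  obtain ⟨p, pp, a, aA, as, an, t1⟩ := tbso (ξ := ξ) hA bM bs (bn.trans hn) c0 hη t0
    (AP.up (fun y hy => (n2 y hy).1)
      (h (N n) ζ ⟨n1, hA.2.1, fun z hz => hA.2.2 z (n2 z hz).1⟩ n3 b b1 bs))
  obtain ⟨y, hy⟩ : ∃ y, y = (2⁻¹ : ℂ) • (x - z) := ⟨_, rfl⟩
  have yM : y ∈ M := hy ▸ vn_smul_mem _ (sub_mem hx zM)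
  have ys : IsSelfAdjoint y := by simp [hy, IsSelfAdjoint, xs.star_eq, zs.star_eq]
  have yn : ‖y‖ ≤ 1 := by
    rw [hy, norm_smul, norm_inv, Complex.norm_ofNat]
    linarith [norm_sub_le x z]
  obtain ⟨p', pp', t2⟩ := NT.wpave hA ht hm yM ys yn (wm hA ht yM fun b hb => by
    rw [hy, smul_apply, inner_smul_right, z2 b hb, mul_zero])
    (show 0 < η * θ ^ 2 / 4 by positivity)
  obtain ⟨P, PP, P1, P2⟩ := prod_part hA pp pp'
  have t3 := AP.tbpin hA hc PP (Tb.sq (ξ := ξ) (η := η * θ ^ 2 / 4) (sub_mem zM bM) (zs.sub bs) hη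
    (by
      have := pow_le_pow_left₀ (norm_nonneg _) z1 2
      rw [inv_mul_le_iff₀ hη]
      nlinarith [sq_nonneg (η * θ)]))
  have t4 := AP.tbpin hA hc pp' t1
  have t5 := AP.tbpin hA hc pp t2
  rw [← P2] at t5
  have e0 : 1 * (pin P x - a) * 1 = pin p' (pin p b - a) + pin P (z - b) + pin P y + pin P y := by
    have e1 : x = b + (z - b) + y + y := by
      rw [hy]
      module
    rw [sub_eq_add_neg (pin p b), pin_add, pin_neg, ← P1,
      pin_fix pp' fun i => hA.2.1 _ (pp'.1 i).1 _ aA, one_mul, mul_one]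
    nth_rw 1 [e1]
    rw [pin_add, pin_add, pin_add]
    abel
  have b3 := ((t4.add t3).add t5).add t5
  rw [← e0] at b3
  obtain ⟨Q, QM, Q1, Q0, Q2, Q3⟩ := cutg (c := c + 10 / m + 2 * η) (one_mem M) (.one _)
    (fun y _ => by rw [one_mul, mul_one]) ((pin_sa PP xs).sub as)
    (by positivity) hη t0 (mono b3 (le_of_eq (by ring)) (by linarith))
  exact ⟨P, PP, a, aA, as, an, Q, QM, Q1,
    fun v hv => hθ _ (sub_mem (one_mem _) QM) Q0 Q2 v hv, Q3.trans (le_of_eq (by ring))⟩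

end AM

/-- The order `ε⁻⁴` when the normalizer is approximately finite. -/
theorem amen4 (h4 : Final4Stmt.{u}) : ∃ C : ℝ, ∀ (H : Type u) [NormedAddCommGroup H]
    [InnerProductSpace ℂ H] [CompleteSpace H] (A M : VonNeumannAlgebra H), IsMasa A M →
    AmenableNormalizer A M → ∀ ε : ℝ, 0 < ε → ε < 1 → ∃ r : ℕ, 1 ≤ r ∧ (r : ℝ) ≤ C / ε ^ 4 ∧
      ∀ x ∈ M, IsSelfAdjoint x → SoPavable A M x ε r := by
  obtain ⟨C, h4⟩ := h4
  refine ⟨(4 * |C| + 1) * 41 ^ 2, fun H _ _ _ A M hA hM ε e0 e1 => ?_⟩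
  obtain ⟨m, hm⟩ : ∃ m, m = ⌈40 / ε⌉₊ := ⟨_, rfl⟩
  have m0 : 1 ≤ 1 / ε := by rw [le_div_iff₀ e0]; linarith
  have m1 : 40 / ε ≤ m := hm ▸ Nat.le_ceil _
  have m2 : (m : ℝ) < 40 / ε + 1 := hm ▸ Nat.ceil_lt_add_one (by positivity)
  have m3 : 40 ≤ 40 / ε := by rw [le_div_iff₀ e0]; linarith
  have m4 : 2 ≤ m := by exact_mod_cast (show (2 : ℝ) ≤ m by linarith)
  have m5 : (m : ℝ) ≤ 41 / ε := by
    rw [show 41 / ε = 40 / ε + 1 / ε by ring]
    linarith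
  have m6 : 10 / (m : ℝ) ≤ ε / 4 := by
    rw [div_le_iff₀ (by linarith)]
    rw [div_le_iff₀ e0] at m1
    linarith
  refine ⟨(⌊|C| / (ε / 2) ^ 2⌋₊ + 1) * m ^ 2, Nat.one_le_iff_ne_zero.2 (by positivity), ?_,
    fun x hx xs => FN.So.mono (AM.main hA hM m4 (c := ε / 2) (η := ε / 12) (by positivity)
      (by positivity) (fun N ζ hN ht x hx xs => ?_) x hx xs) (by linarith)⟩
  · have a1 := Nat.floor_le (show 0 ≤ |C| / (ε / 2) ^ 2 by positivity)
    have a2 : 1 ≤ 1 / ε ^ 2 := by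
      rw [le_div_iff₀ (by positivity)]
      nlinarith
    have a3 : (4 * |C| + 1) * 41 ^ 2 / ε ^ 4 = (|C| / (ε / 2) ^ 2 + 1 / ε ^ 2) * (41 / ε) ^ 2 := by
      field_simp
      ring
    rw [a3]
    push_cast
    exact mul_le_mul (by linarith) (pow_le_pow_left₀ (by positivity) m5 2) (by positivity)
      (by positivity)
  · obtain ⟨r, -, r2, h⟩ := h4 H A N ζ hN ht (ε / 2) (by positivity) (by linarith)
    exact AP.pad (h x hx xs) (Nat.le_succ_of_le (Nat.le_floor (r2.trans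
      (div_le_div_of_nonneg_right (le_abs_self C) (by positivity)))))

end Vale.Agent.P078
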