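import Vale.Agent.P078.Defs

/-! Maximal abelian subalgebras whose normalizer is hyperfinite. -/

namespace Vale.Agent.P078

open scoped InnerProductSpace

variable {H : Type*} [NormedAddCommGroup H] [InnerProductSpace ℂ H] [CompleteSpace H]

/-- There is an increasing sequence of tracial algebras `A ⊆ N n ⊆ M`, each the relative commutant
in `M` of its central projections, which approximates the normalizer of `A` on every vector whose
functional has `A` in its centralizer. -/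
def HyperfiniteNormalizer (A M : VonNeumannAlgebra H) : Prop :=
  ∃ N : ℕ → VonNeumannAlgebra H, (∀ n, (∀ a ∈ A, a ∈ N n) ∧ (∀ y ∈ N n, y ∈ M ∧ y ∈ N (n + 1)) ∧
    (∃ ζ, TraceVec (N n) ζ) ∧ ∀ y ∈ M, (∀ e ∈ A, IsStarProjection e →
      (∀ w ∈ N n, e * w = w * e) → e * y = y * e) → y ∈ N n) ∧
    ∀ ξ : H, (∀ a ∈ A, ∀ x ∈ M, ⟪ξ, (a * x) ξ⟫_ℂ = ⟪ξ, (x * a) ξ⟫_ℂ) →
      ∀ v, Normalizes A M v → ∀ η : ℝ, 0 < η → ∃ n, ∃ y ∈ N n, ‖(v - y) ξ‖ ≤ η

end Vale.Agent.P078
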