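import Vale.Agent.P078.Am3
import Vale.Agent.P078.Defs6

/-! Paving over all maximal abelian subalgebras with hyperfinite normalizer. -/

namespace Vale.Agent.P078

open scoped InnerProductSpace InnerProduct ComplexConjugate ComplexOrder
open Vale.Agent.P104 Vale.Agent.P082 Finset ContinuousLinearMap

universe u

variable {H : Type u} [NormedAddCommGroup H] [InnerProductSpace ℂ H] [CompleteSpace H]
  {A M : VonNeumannAlgebra H}

namespace AM

open R F2 FN Cor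

variable {K : Type u} [NormedAddCommGroup K] [InnerProductSpace ℂ K] [CompleteSpace K]
  {V : K →L[ℂ] H} {ξ : K}

theorem corn (hA : IsMasa A M) (hM : HyperfiniteNormalizer A M) (h : Iso V) (he : ex V 1 ∈ A)
    (ht : CV (corner A V) (corner M V) ξ) : AmenableNormalizer (corner A V) (corner M V) := by
  obtain ⟨N, hN, hd⟩ := hM
  have heM := hA.1 _ he
  have pe := h.proj (.one _)
  have ee := pe.isIdempotentElem.eq
  have sub : ∀ {P Q : VonNeumannAlgebra H}, ex V 1 ∈ P → (∀ y ∈ P, y ∈ Q) →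
      ∀ T ∈ corner P V, T ∈ corner Q V := fun hP hQ T hT => by
    rw [← h.cp_ex T]
    exact h.cp_mem (hQ _ hP) (hQ _ (h.ex_mem hP hT))
  have k : ∀ x : H →L[ℂ] H, ⟪V ξ, x (V ξ)⟫_ℂ = ⟪ξ, cp V x ξ⟫_ℂ := fun x => by
    rw [cp_apply, adjoint_inner_right]
  refine ⟨ξ, ht.1, ht.2.2, ht.2.1, fun n => corner (N n) V, fun n => ?_, fun u hu η hη => ?_⟩
  · obtain ⟨n1, n2, ⟨ζ, n3⟩, n4⟩ := hN n
    have eN := n1 _ he
    refine ⟨sub he n1, fun T hT => ⟨sub eN (fun y hy => (n2 y hy).1) T hT,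
      sub eN (fun y hy => (n2 y hy).2) T hT⟩, ⟨_, tv h eN (ζ := ex V 1 ζ) (fun e => ?_) ?_
        (fun x hx y hy => ?_) fun x hx e => n3.2.2 _ (mul_mem (mul_mem eN hx) eN) ?_⟩,
      fun T hT hc => ?_⟩
    · have a := congrArg (fun T : H →L[ℂ] H => ‖T (V ξ)‖) (n3.2.2 _ eN e)
      simp only [ex_apply, h _, one_apply_eq_self, h.norm, ht.1, zero_apply, norm_zero] at a
      exact one_ne_zero a
    · rw [← mul_apply_eq_comp, ee]
    · have a : ∀ x ∈ N n, ∀ y ∈ N n, ⟪ex V 1 ζ, (ex V 1 * x * ex V 1 * y * ex V 1) (ex V 1 ζ)⟫_ℂ =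
          ⟪ζ, (ex V 1 * x * ex V 1 * (ex V 1 * y * ex V 1)) ζ⟫_ℂ := fun x _ y _ => by
        rw [← inner_star_right, pe.isSelfAdjoint.star_eq, ← mul_apply_eq_comp, ← mul_apply_eq_comp]
        congr 2
        simp only [← mul_assoc, ee]
        simp only [mul_assoc, ee]
      rw [a x hx y hy, a y hy x hx]
      exact n3.2.1 _ (mul_mem (mul_mem eN hx) eN) _ (mul_mem (mul_mem eN hy) eN)
    · rwa [← mul_apply_eq_comp, mul_assoc, ee] at e
    · rw [← h.cp_ex T]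
      refine h.cp_mem eN (n4 _ (h.ex_mem heM hT) fun e eA p1 ce => ?_)
      have c := hA.2.1 _ he _ eA
      have a := congrArg (ex V) (hc (cp V e) (h.cp_mem he eA)
        ⟨by rw [IsIdempotentElem, ← h.cp_mul _ c, p1.isIdempotentElem.eq],
          by rw [IsSelfAdjoint, ← cp_star, p1.isSelfAdjoint.star_eq]⟩ fun w hw => by
        have := congrArg (cp V) (ce _ (h.ex_mem eN hw))
        rwa [h.cp_mul _ c, h.cp_mul' _ c, h.cp_ex] at this)
      rw [h.ex_mul, h.ex_mul, ex_cp, mul_assoc _ (ex V 1), h.one_ex, ← mul_assoc, ← mul_assoc,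
        h.ex_one, c, mul_assoc e, h.one_ex, mul_assoc _ e, ← c, ← mul_assoc, h.ex_one] at a
      exact a
  · obtain ⟨n, y, y1, y2⟩ := hd (V ξ) (fun a ha x hx => by
      have c := hA.2.1 _ he _ ha
      rw [k, k, h.cp_mul _ c, h.cp_mul' _ c]
      exact ht.l (h.cp_mem he ha) (h.cp_mem heM hx)) _ (NT.nrm_ext h hA he hu) η hη
    refine ⟨n, cp V y, h.cp_mem ((hN n).1 _ he) y1, le_trans (le_of_eq ?_)
      (((V†).le_opNorm _).trans ((mul_le_of_le_one_left (norm_nonneg _) h.op').trans y2))⟩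
    simp only [sub_apply, add_apply, ex_apply, cp_apply, h _, one_apply_eq_self, map_sub, map_add,
      sub_self, add_zero]

end AM

open FN in
/-- The order `ε⁻⁴` for standard algebras when the normalizer is hyperfinite. -/
theorem hyp4 (h4 : Final4Stmt.{u}) (hS : SingStmt.{u}) (hP : ProjStmt.{u}) :
    ∃ C : ℝ, ∀ (H : Type u) [NormedAddCommGroup H]
    [InnerProductSpace ℂ H] [CompleteSpace H] (A M : VonNeumannAlgebra H), IsMasa A M →
    (∃ ξ, StdVec M ξ) → HyperfiniteNormalizer A M → ∀ ε : ℝ, 0 < ε → ε < 1 →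
    ∃ r : ℕ, 1 ≤ r ∧ (r : ℝ) ≤ C / ε ^ 4 ∧ ∀ x ∈ M, IsSelfAdjoint x → SoPavable A M x ε r := by
  obtain ⟨C, h4⟩ := amen4 h4
  refine ⟨16 * |C| + 9, fun H _ _ _ A M hA ⟨ξ, hξ⟩ hM ε e0 e1 => ?_⟩
  obtain ⟨s, s1, s2⟩ := ex_s (show 0 < ε / 4 by positivity) (by linarith)
  refine ⟨⌊|C| / (ε / 2) ^ 4⌋₊ + 1 + 2 ^ s, le_add_left Nat.one_le_two_pow, ?_, fun x hx hx' =>
    So.mono (NT.mixed hS hP hA hξ (c := ε / 2)
      (fun f hf pf ζ z1 z2 z3 x hx hx' hn v θ hθ => NT.genC ⟨0, Nat.succ_pos _⟩ (by positivity)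
        (fun K _ _ _ V ξ h fA ht x hx hx' hn θ hθ => ?_)
        hA hf pf z1 z2 z3 hx hx' hn v hθ) s (show 0 < ε / 12 by positivity) x hx hx')
      (by linarith)⟩
  · have a1 := Nat.floor_le (show 0 ≤ |C| / (ε / 2) ^ 4 by positivity)
    have m0 : 1 ≤ 1 / ε := by rw [le_div_iff₀ e0]; linarith
    have a2 : 1 / ε ≤ (1 / ε) ^ 4 := le_self_pow₀ m0 (by norm_num)
    have a3 : (16 * |C| + 9) / ε ^ 4 = |C| / (ε / 2) ^ 4 + 9 * (1 / ε) ^ 4 := by
      field_simp
      ring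
    rw [show 2 / (ε / 4) = 8 * (1 / ε) by field_simp; norm_num] at s2
    push_cast
    linarith
  · obtain ⟨r, -, r2, h1⟩ := h4 K _ _ (Cor.masa h hA fA) (AM.corn hA hM h fA ht) (ε / 2)
      (by positivity) (by linarith)
    obtain ⟨p, pp, a, aA, as, an, q, qM, q1, q2, q3⟩ := AP.pad (h1 x hx hx')
      (Nat.le_succ_of_le (Nat.le_floor (r2.trans
        (div_le_div_of_nonneg_right (le_abs_self C) (by positivity))))) {ξ} θ hθ
    exact ⟨p, pp, a, aA, as, an.trans hn, q, qM, q1, (q2 ξ (mem_singleton_self ξ)).le,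
      q3.trans (mul_le_of_le_one_right (by positivity) hn)⟩

end Vale.Agent.P078
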