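import Vale.Agent.P078.Am4

/-! Paving when the normalizer is approximated by centralizers. -/

namespace Vale.Agent.P078

open scoped InnerProductSpace InnerProduct ComplexConjugate ComplexOrder
open Vale.Agent.P104 Vale.Agent.P082 ContinuousLinearMap Finset Filter Topology

universe u

variable {H : Type u} [NormedAddCommGroup H] [InnerProductSpace ℂ H] [CompleteSpace H]
  {A M N : VonNeumannAlgebra H} {ξ : H}

namespace AM

open R F2 FN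

theorem star_eq {x n : H →L[ℂ] H} (hx : x ∈ M) (xs : IsSelfAdjoint x) (hn : n ∈ M)
    (h : ∀ y ∈ M, ⟪ξ, (n * y) ξ⟫_ℂ = ⟪ξ, (y * n) ξ⟫_ℂ) : ‖(x - star n) ξ‖ = ‖(x - n) ξ‖ := by
  rw [← sq_eq_sq₀ (norm_nonneg _) (norm_nonneg _), norm_sq_apply, norm_sq_apply]
  have a1 := h x hx
  have a2 := h _ (star_mem hn)
  have a3 := congrArg conj a1
  rw [inner_conj_symm, inner_conj_symm, ← inner_star_right, ← inner_star_right, star_mul,
    star_mul, xs.star_eq] at a3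
  simp only [star_sub, star_star, xs.star_eq, mul_sub, sub_mul, sub_apply, inner_sub_right, a1, a2,
    a3]
  congr 1
  ring

theorem tr_nn (hN : ∀ z ∈ N, z ∈ M) (ht : CV N M ξ) {h k : H →L[ℂ] H} (hh : h ∈ N) (hk : k ∈ M)
    (h0 : 0 ≤ h) (k0 : 0 ≤ k) : 0 ≤ (⟪ξ, (h * k) ξ⟫_ℂ).re := by
  obtain ⟨s, hs⟩ := CStarAlgebra.nonneg_iff_eq_star_mul_self.1
    (show (0 : Alg N) ≤ ⟨h, hh⟩ from h0)
  have hs' : h = star s.1 * s.1 := congrArg Subtype.val hs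
  rw [hs', mul_assoc, ht.l (star_mem s.2) (mul_mem (hN _ s.2) hk)]
  exact R.re_nonneg (star_right_conjugate_nonneg k0 s.1)

theorem clampU (hN : ∀ z ∈ N, z ∈ M) (ht : CV N M ξ) {x b : H →L[ℂ] H} (hx : x ∈ M)
    (x1 : x ≤ 1) (hb : b ∈ N) (hs : IsSelfAdjoint b) :
    ∃ g ∈ N, IsSelfAdjoint g ∧ g ≤ 1 ∧ (-1 ≤ b → -1 ≤ g) ∧ ‖(x - g) ξ‖ ≤ ‖(x - b) ξ‖ := by
  obtain ⟨e, eN, pe, c, h0, h1⟩ := spec H N (b - 1) (sub_mem hb (one_mem _))
    (hs.sub (IsSelfAdjoint.one _))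
  have ee := pe.isIdempotentElem.eq
  have cb : b * e = e * b := by
    rw [mul_sub, sub_mul, mul_one, one_mul] at c
    exact (sub_left_injective c).symm
  have eb : e * (e * b) = e * b := by rw [← mul_assoc, ee]
  have fN : 1 - e ∈ N := sub_mem (one_mem _) eN
  have hN' : e * (b - 1) * e ∈ N := mul_mem (mul_mem eN (sub_mem hb (one_mem _))) eN
  have fs := pe.one_sub.isSelfAdjoint
  refine ⟨e + (1 - e) * b * (1 - e), add_mem eN (mul_mem (mul_mem fN hb) fN),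
    pe.isSelfAdjoint.add (by simpa only [fs.star_eq] using hs.conjugate (1 - e)), ?_,
    fun h => ?_, ?_⟩
  · rw [← sub_nonneg]
    convert neg_nonneg.2 h1 using 1
    simp only [mul_sub, sub_mul, one_mul, mul_one, mul_assoc, cb, eb, ee]
    abel
  · have := add_nonneg (add_nonneg pe.nonneg pe.nonneg)
      (star_left_conjugate_nonneg (sub_nonneg.2 h) (1 - e))
    rw [← sub_nonneg]
    convert this using 1
    simp only [fs.star_eq, mul_sub, sub_mul, one_mul, mul_one, mul_assoc, cb, eb, ee, mul_neg,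
      neg_mul]
    abel
  · set g := e + (1 - e) * b * (1 - e) with hg
    set h := e * (b - 1) * e with hh
    have e1 : x - b = x - g - h := by
      simp only [hg, hh, mul_sub, sub_mul, one_mul, mul_one, mul_assoc, cb, eb, ee]
      abel
    have e2 : h * (x - g) = -(h * (1 - x)) := by
      have : h * g = h := by
        have k : e * (1 - e) = 0 := by rw [mul_sub, mul_one, ee, sub_self]
        rw [hg, hh, mul_add, mul_assoc _ e e, ee, mul_assoc _ e, ← mul_assoc e, ← mul_assoc e, k]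
        simp
      rw [mul_sub, mul_sub, this, mul_one, neg_sub]
    have e3 := tr_nn hN ht hN' (sub_mem (one_mem _) hx) h0 (sub_nonneg.2 x1)
    have e4 : (⟪(x - g) ξ, h ξ⟫_ℂ).re ≤ 0 := by
      rw [← inner_conj_symm, Complex.conj_re, ← (IsSelfAdjoint.of_nonneg h0).star_eq,
        inner_star_left, ← mul_apply_eq_comp, e2, neg_apply, inner_neg_right, Complex.neg_re]
      linarith
    rw [e1, sub_apply (x - g) h]
    refine le_of_sq_le (norm_nonneg _) ?_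
    rw [@norm_sub_sq ℂ]
    simp only [RCLike.re_to_complex]
    nlinarith [sq_nonneg ‖h ξ‖]

theorem clamp (hN : ∀ z ∈ N, z ∈ M) (ht : CV N M ξ) {x b : H →L[ℂ] H} (hx : x ∈ M)
    (xs : IsSelfAdjoint x) (x1 : ‖x‖ ≤ 1) (hb : b ∈ N) (hs : IsSelfAdjoint b) :
    ∃ g ∈ N, ‖g‖ ≤ 1 ∧ ‖(x - g) ξ‖ ≤ ‖(x - b) ξ‖ := by
  have k : ∀ x : H →L[ℂ] H, IsSelfAdjoint x → ‖x‖ ≤ 1 → x ≤ 1 := fun x xs x1 =>
    xs.le_algebraMap_norm_self.trans (by
      rw [← map_one (algebraMap ℝ (H →L[ℂ] H))]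
      exact algebraMap_mono _ x1)
  obtain ⟨g, gN, gs, g1, -, g2⟩ := clampU hN ht hx (k x xs x1) hb hs
  obtain ⟨g', gN', gs', g1', g3, g2'⟩ := clampU hN ht (neg_mem hx)
    (k _ xs.neg (by rwa [norm_neg])) (neg_mem gN) gs.neg
  refine ⟨-g', neg_mem gN', ?_, ?_⟩
  · rw [norm_neg]
    exact R.norm_le_of_le gs' zero_le_one (by simpa using g1')
      (by simpa using neg_le.1 (g3 (neg_le_neg g1)))
  · rw [show -x - g' = -(x - -g') by abel, show -x - -g = -(x - g) by abel, neg_apply, neg_apply,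
      norm_neg, norm_neg] at g2'
    exact g2'.trans g2

theorem cexp (hN : ∀ z ∈ N, z ∈ M) (ht : CV N M ξ) {x : H →L[ℂ] H} (hx : x ∈ M)
    (xs : IsSelfAdjoint x) (x1 : ‖x‖ ≤ 1) :
    ∃ z ∈ N, IsSelfAdjoint z ∧ ‖z‖ ≤ 1 ∧ ∀ b ∈ N, ⟪b ξ, (x - z) ξ⟫_ℂ = 0 := by
  let K : Set (H →L[ℂ] H) := {z | z ∈ N ∧ ‖z‖ ≤ 1}
  have hne : ((fun z : H →L[ℂ] H => ‖(x - z) ξ‖) '' K).Nonempty :=
    Set.Nonempty.image _ ⟨0, zero_mem _, by simp⟩
  have hbd : BddBelow ((fun z : H →L[ℂ] H => ‖(x - z) ξ‖) '' K) :=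
    ⟨0, by rintro _ ⟨z, -, rfl⟩; exact norm_nonneg _⟩
  obtain ⟨r, -, hr, hrK⟩ := exists_seq_tendsto_sInf hne hbd
  set m := sInf ((fun z : H →L[ℂ] H => ‖(x - z) ξ‖) '' K)
  have hm : ∀ z ∈ K, m ≤ ‖(x - z) ξ‖ := fun z hz => csInf_le hbd ⟨z, hz, rfl⟩
  choose v hv hvr using hrK
  let v' : ℕ → Alg N := fun n => ⟨v n, (hv n).1⟩
  have hb : ∀ n, ‖v' n‖ ≤ 1 := fun n => (hv n).2
  obtain ⟨w, hw⟩ : ∃ w, w = wlim (hyperfilter ℕ) v' := ⟨_, rfl⟩
  have hs : ∀ η, Tendsto (fun n => ⟪η, (x - v n) ξ⟫_ℂ) (hyperfilter ℕ) (𝓝 ⟪η, (x - w.1) ξ⟫_ℂ) :=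
    fun η => by
      simp only [sub_apply, inner_sub_right]
      exact tendsto_const_nhds.sub (hw ▸ wlim_spec hb ξ η)
  have w1 : ‖w.1‖ ≤ 1 := hw ▸ wlim_norm_le hb
  have hzm : ‖(x - w.1) ξ‖ ≤ m := by
    have h1 := (hs ((x - w.1) ξ)).norm
    have h2 : Tendsto (fun n => ‖(x - w.1) ξ‖ * r n) (hyperfilter ℕ) (𝓝 (‖(x - w.1) ξ‖ * m)) :=
      (hr.mono_left Nat.hyperfilter_le_atTop).const_mul _
    have h3 := le_of_tendsto_of_tendsto' h1 h2 fun n => by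
      rw [← hvr n]; exact norm_inner_le_norm _ _
    rw [inner_self_eq_norm_sq_to_K, norm_pow, RCLike.norm_ofReal, abs_norm, sq] at h3
    rcases (norm_nonneg ((x - w.1) ξ)).eq_or_lt with h | h
    · rw [← h]; exact le_csInf hne (by rintro _ ⟨z, -, rfl⟩; exact norm_nonneg _)
    · exact le_of_mul_le_mul_left h3 h
  have b3 := star_eq hx xs (hN _ w.2) (ht.2.1 _ w.2)
  obtain ⟨z, hz⟩ : ∃ z, z = (2⁻¹ : ℂ) • (w.1 + star w.1) := ⟨_, rfl⟩
  have zN : z ∈ N := hz ▸ vn_smul_mem _ (add_mem w.2 (star_mem w.2))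
  have zs : IsSelfAdjoint z := hz ▸ R.half_sa _
  have z2 : ‖(x - z) ξ‖ ≤ m := by
    rw [show (x - z) ξ = (2⁻¹ : ℂ) • ((x - w.1) ξ + (x - star w.1) ξ) by
      simp only [hz, sub_apply, smul_apply, add_apply]; module, norm_smul, norm_inv,
      Complex.norm_ofNat]
    linarith [norm_add_le ((x - w.1) ξ) ((x - star w.1) ξ)]
  have k1 : ∀ c ∈ N, IsSelfAdjoint c → (⟪(x - z) ξ, c ξ⟫_ℂ).re = 0 := fun c cN cs => by
    have k : ∀ t : ℝ, 0 ≤ -2 * t * (⟪(x - z) ξ, c ξ⟫_ℂ).re + t ^ 2 * ‖c ξ‖ ^ 2 := fun t => by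
      obtain ⟨g, gN, g1, g2⟩ := clamp hN ht hx xs x1 (add_mem zN (vn_smul_mem (t : ℂ) cN))
        (zs.add ((show IsSelfAdjoint (t : ℂ) from Complex.conj_ofReal _).smul cs))
      have := pow_le_pow_left₀ (norm_nonneg _) ((z2.trans (hm g ⟨gN, g1⟩)).trans g2) 2
      rw [← sub_sub, sub_apply (x - z), @norm_sub_sq ℂ, smul_apply, inner_smul_right, norm_smul,
        Complex.norm_real, mul_pow, Real.norm_eq_abs, sq_abs] at this
      simp only [RCLike.re_to_complex, Complex.re_ofReal_mul] at this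
      linarith
    set a := (⟪(x - z) ξ, c ξ⟫_ℂ).re
    set B := ‖c ξ‖ ^ 2
    have B0 : 0 ≤ B := by positivity
    have := k (a / (B + 1))
    rw [show -2 * (a / (B + 1)) * a + (a / (B + 1)) ^ 2 * B = -(a ^ 2 * (B + 2)) / (B + 1) ^ 2 by
      field_simp; ring, le_div_iff₀ (by positivity)] at this
    exact pow_eq_zero_iff two_ne_zero |>.1 (le_antisymm (by nlinarith [sq_nonneg a]) (sq_nonneg a))
  have ys := xs.sub zs
  have yM := sub_mem hx (hN z zN)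
  have k2 : ∀ b ∈ N, (⟪(x - z) ξ, b ξ⟫_ℂ).re = 0 := fun b bN => by
    have e1 : (⟪(x - z) ξ, star b ξ⟫_ℂ).re = (⟪(x - z) ξ, b ξ⟫_ℂ).re := by
      rw [← inner_conj_symm, Complex.conj_re, inner_star_left, ← mul_apply_eq_comp,
        ht.l bN yM, mul_apply_eq_comp, ← inner_star_left, ys.star_eq]
    have := k1 _ (add_mem bN (star_mem bN)) (by simp [IsSelfAdjoint, add_comm])
    rw [add_apply, inner_add_right, Complex.add_re, e1] at this
    linarith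
  refine ⟨z, zN, zs, hz ▸ (R.half_norm _).trans w1, fun b bN => ?_⟩
  have := k2 _ (vn_smul_mem Complex.I bN)
  rw [smul_apply, inner_smul_right, Complex.I_mul_re, neg_eq_zero] at this
  rw [← inner_conj_symm, show ⟪(x - z) ξ, b ξ⟫_ℂ = 0 from Complex.ext (k2 b bN) this]
  simp

theorem inv2 (hA : IsMasa A M) (ht : CV A M ξ) {ζ : H} (hz' : CV A M ζ) {z : H →L[ℂ] H}
    (hz : z ∈ M) (hs : IsSelfAdjoint z) (h0 : ∀ a ∈ A, ⟪ζ, (a * z) ζ⟫_ℂ = 0) :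
    ⟪ξ, z ξ⟫_ℂ = 0 := by
  refine norm_eq_zero.1 (le_antisymm (le_of_forall_pos_le_add fun κ k0 => ?_) (norm_nonneg _))
  obtain ⟨δ, d0, hδ⟩ := P132.strong_of_sep hz'.2.2 ξ ‖z‖ κ k0
  obtain ⟨n, e, he, h1⟩ := NT.lq hA hz' hz hs (t := 0)
    ⟨zero_mem _, fun b hb => by rw [h0 b hb]; simp⟩ d0
  rw [sub_zero] at h1
  have h2 := hδ _ (pin_mem hA he hz) (CutA.pin_norm he hs) h1
  rw [← NT.pin_tr hA ht he hz, zero_add]
  refine (norm_inner_le_norm _ _).trans ?_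
  rwa [ht.1, one_mul]

theorem inv3 (hA : IsMasa A M) (ht : CV A M ξ) {ζ : H} (hz' : CV A M ζ) {z : H →L[ℂ] H}
    (hz : z ∈ M) (h0 : ∀ a ∈ A, ⟪ζ, (a * z) ζ⟫_ℂ = 0) : ⟪ξ, z ξ⟫_ℂ = 0 := by
  have h1 : ∀ a ∈ A, ⟪ζ, (a * star z) ζ⟫_ℂ = 0 := fun a ha => by
    have := congrArg conj (h0 _ (star_mem ha))
    rw [inner_conj_symm, map_zero, ← inner_star_right, star_mul, star_star] at this
    rwa [hz'.l ha (star_mem hz)]
  have a := inv2 hA ht hz' (add_mem hz (star_mem hz)) (by simp [IsSelfAdjoint, add_comm])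
    (fun a ha => by rw [mul_add, add_apply, inner_add_right, h0 a ha, h1 a ha, add_zero])
  have b := inv2 hA ht hz' (vn_smul_mem Complex.I (sub_mem hz (star_mem hz)))
    (by simp [IsSelfAdjoint, smul_sub, neg_add_eq_sub])
    (fun a ha => by
      rw [mul_smul_comm, mul_sub, smul_apply, sub_apply, inner_smul_right, inner_sub_right, h0 a ha,
        h1 a ha, sub_zero, mul_zero])
  rw [add_apply, inner_add_right] at a
  rw [smul_apply, sub_apply, inner_smul_right, inner_sub_right, mul_eq_zero] at b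
  have b' := b.resolve_left Complex.I_ne_zero
  linear_combination (a + b') / 2

theorem ce2 (hA : IsMasa A M) (ht : CV A M ξ) (hA' : ∀ a ∈ A, a ∈ N) (hN : ∀ z ∈ N, z ∈ M) {ζ : H}
    (hZ : CV N M ζ) {x : H →L[ℂ] H} (hx : x ∈ M) (xs : IsSelfAdjoint x) (x1 : ‖x‖ ≤ 1) :
    ∃ a ∈ N, IsSelfAdjoint a ∧ ‖a‖ ≤ 1 ∧ ∀ b ∈ N, ⟪b ξ, (x - a) ξ⟫_ℂ = 0 := by
  obtain ⟨a, a1, a2, a3, a4⟩ := cexp hN hZ hx xs x1
  refine ⟨a, a1, a2, a3, fun b hb => ?_⟩
  rw [← inner_star_right, ← mul_apply_eq_comp]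
  refine inv3 hA ht ⟨hZ.1, fun a ha => hZ.2.1 a (hA' a ha), hZ.2.2⟩
    (mul_mem (star_mem (hN b hb)) (sub_mem hx (hN a a1))) fun c hc => ?_
  have := a4 _ (mul_mem hb (star_mem (hA' c hc)))
  rwa [← inner_star_right, ← mul_apply_eq_comp, star_mul, star_star, mul_assoc] at this

/-- The normalizer is approximated by centralizers of faithful states. -/
def AC (A M : VonNeumannAlgebra H) : Prop := ∃ ξ, CV A M ξ ∧
  ∃ (N : ℕ → VonNeumannAlgebra H) (ζ : ℕ → H), (∀ n, (∀ a ∈ A, a ∈ N n) ∧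
    (∀ y ∈ N n, y ∈ M ∧ y ∈ N (n + 1)) ∧ CV (N n) M (ζ n)) ∧
    ∀ v, Normalizes A M v → ∀ η : ℝ, 0 < η → ∃ n, ∃ y ∈ N n, ‖(v - y) ξ‖ ≤ η

theorem split2 (hA : IsMasa A M) (hξ : CV A M ξ) {N : ℕ → VonNeumannAlgebra H}
    (hN : ∀ n, ∀ y ∈ N n, y ∈ M ∧ y ∈ N (n + 1))
    {ζ : ℕ → H} (hA' : ∀ n, ∀ a ∈ A, a ∈ N n) (hZ : ∀ n, CV (N n) M (ζ n))
    (hd : ∀ u, Normalizes A M u → ∀ η : ℝ, 0 < η → ∃ n, ∃ y ∈ N n, ‖(u - y) ξ‖ ≤ η)
    {x : H →L[ℂ] H} (hx : x ∈ M) (xs : IsSelfAdjoint x) (x1 : ‖x‖ ≤ 1) {η : ℝ} (hη : 0 < η) :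
    ∃ n, ∃ a ∈ N n, ∃ z ∈ M, IsSelfAdjoint a ∧ IsSelfAdjoint z ∧ ‖a‖ ≤ 1 ∧ ‖z‖ ≤ 1 ∧
      ‖(z - a) ξ‖ ≤ η ∧ ∀ b ∈ nsp A M, ⟪b ξ, (x - z) ξ⟫_ℂ = 0 := by
  choose a a1 a2 a3 a4 using fun n => ce2 hA hξ (hA' n) (fun y hy => (hN n y hy).1) (hZ n) hx xs x1
  let v : ℕ → P082.Alg M := fun n => ⟨a n, (hN n _ (a1 n)).1⟩
  have hb : ∀ n, ‖v n‖ ≤ 1 := a3
  obtain ⟨z, hz⟩ : ∃ z, z = P082.wlim (hyperfilter ℕ) v := ⟨_, rfl⟩
  have hs : ∀ ζ η : H, Tendsto (fun n => ⟪η, a n ζ⟫_ℂ) (hyperfilter ℕ) (𝓝 ⟪η, z.1 ζ⟫_ℂ) :=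
    fun ζ η => hz ▸ P082.wlim_spec hb ζ η
  have mono : ∀ k n, k ≤ n → ∀ y ∈ N k, y ∈ N n := fun k n h y hy => by
    induction n, h using Nat.le_induction with
    | base => exact hy
    | succ n _ ih => exact (hN n y ih).2
  have o1 : ∀ k, ∀ b ∈ N k, ⟪b ξ, (x - z.1) ξ⟫_ℂ = 0 := fun k b hb => by
    have h1 : Tendsto (fun n => ⟪b ξ, (x - a n) ξ⟫_ℂ) (hyperfilter ℕ)
        (𝓝 ⟪b ξ, (x - z.1) ξ⟫_ℂ) := by
      simp only [sub_apply, inner_sub_right]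
      exact tendsto_const_nhds.sub (hs _ _)
    exact tendsto_nhds_unique h1 (tendsto_const_nhds.congr'
      (((eventually_ge_atTop k).filter_mono Nat.hyperfilter_le_atTop).mono fun n hn =>
        (a4 n b (mono k n hn b hb)).symm))
  have zs : IsSelfAdjoint z.1 := by
    ext ζ
    refine ext_inner_left ℂ fun η => ?_
    rw [inner_star_right, ← inner_conj_symm]
    refine tendsto_nhds_unique ((Complex.continuous_conj.tendsto _).comp (hs η ζ))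
      ((hs ζ η).congr fun n => ?_)
    rw [Function.comp_apply, inner_conj_symm, ← inner_star_right, (a2 n).star_eq]
  have h2 : Tendsto (fun n => (⟪z.1 ξ, (z.1 - a n) ξ⟫_ℂ).re) (hyperfilter ℕ) (𝓝 0) := by
    have := (Complex.continuous_re.tendsto _).comp
      ((tendsto_const_nhds (x := ⟪z.1 ξ, z.1 ξ⟫_ℂ)).sub (hs ξ (z.1 ξ)))
    rw [sub_self, Complex.zero_re] at this
    exact this.congr fun n => by rw [Function.comp_apply, sub_apply, inner_sub_right]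
  obtain ⟨n, hn⟩ := (h2.eventually (gt_mem_nhds (show (0 : ℝ) < η ^ 2 by positivity))).exists
  refine ⟨n, a n, a1 n, z.1, z.2, a2 n, zs, a3 n, hz ▸ P082.wlim_norm_le hb,
    le_of_sq_le hη.le ?_, fun b hb => ?_⟩
  · have e1 : ⟪a n ξ, (z.1 - a n) ξ⟫_ℂ = 0 := by
      rw [show z.1 - a n = (x - a n) - (x - z.1) by abel, sub_apply, inner_sub_right,
        a4 n _ (a1 n), o1 n _ (a1 n), sub_zero]
    have e2 := inner_self_eq_norm_sq (𝕜 := ℂ) ((z.1 - a n) ξ)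
    nth_rw 1 [sub_apply] at e2
    rw [inner_sub_left, e1, sub_zero] at e2
    rw [← e2]
    exact hn.le
  · refine Submodule.span_induction (p := fun b _ => ⟪b ξ, (x - z.1) ξ⟫_ℂ = 0) (fun u hu => ?_)
      (by simp) (fun a b _ _ h1 h2 => by rw [add_apply, inner_add_left, h1, h2, add_zero])
      (fun c a _ h => by rw [smul_apply, inner_smul_left, h, mul_zero]) hb
    refine norm_eq_zero.1 (le_antisymm (le_of_forall_pos_le_add fun κ k0 => ?_) (norm_nonneg _))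
    obtain ⟨k, y, y1, y2⟩ := hd u hu (κ / (‖(x - z.1) ξ‖ + 1)) (by positivity)
    rw [show u ξ = (u - y) ξ + y ξ by simp, inner_add_left, o1 k y y1, add_zero, zero_add]
    refine (norm_inner_le_norm _ _).trans ((mul_le_mul_of_nonneg_right y2 (norm_nonneg _)).trans ?_)
    rw [div_mul_eq_mul_div, div_le_iff₀ (by positivity)]
    nlinarith

theorem main2 (hA : IsMasa A M) (hM : AC A M) {r m : ℕ} (hm : 2 ≤ m) {c η : ℝ}
    (c0 : 0 ≤ c) (hη : 0 < η)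
    (h : ∀ (N : VonNeumannAlgebra H) (ζ : H), IsMasa A N → TraceVec N ζ →
      ∀ x ∈ N, IsSelfAdjoint x → SoPavable A N x c r) :
    ∀ x ∈ M, IsSelfAdjoint x → SoPavable A M x (c + 10 / m + 3 * η) (r * m ^ 2) := by
  obtain ⟨ξ, ht, N, ζ, hN, hd⟩ := hM
  have hs := ht.2.2
  have hc := ht.2.1
  refine tail fun x hx xs hn F δ d0 => ?_
  obtain ⟨θ, t0, hθ⟩ := sepF hs F d0
  obtain ⟨n, b, b1, z, zM, bs, zs, bn, zn, z1, z2⟩ := split2 hA ht (fun n => (hN n).2.1)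
    (fun n => (hN n).1) (fun n => (hN n).2.2) hd hx xs hn (show 0 < η * θ / 2 by positivity)
  obtain ⟨n1, n2, n4⟩ := hN n
  have n3 : TraceVec (N n) (ζ n) := ⟨n4.1, fun x hx y hy => n4.2.1 x hx y (n2 y hy).1,
    fun x hx => n4.2.2 x (n2 x hx).1⟩
  have bM := (n2 b b1).1
  obtain ⟨p, pp, a, aA, as, an, t1⟩ := tbso (ξ := ξ) hA bM bs bn c0 hη t0
    (AP.up (fun y hy => (n2 y hy).1)
      (h (N n) _ ⟨n1, hA.2.1, fun z hz => hA.2.2 z (n2 z hz).1⟩ n3 b b1 bs))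
  obtain ⟨y, hy⟩ : ∃ y, y = (2⁻¹ : ℂ) • (x - z) := ⟨_, rfl⟩
  have yM : y ∈ M := hy ▸ vn_smul_mem _ (sub_mem hx zM)
  have ys : IsSelfAdjoint y := by simp [hy, IsSelfAdjoint, xs.star_eq, zs.star_eq]
  have yn : ‖y‖ ≤ 1 := by
    rw [hy, norm_smul, norm_inv, Complex.norm_ofNat]
    linarith [norm_sub_le x z]
  obtain ⟨p', pp', t2⟩ := NT.wpave hA ht hm yM ys yn (wm hA ht yM fun b hb => by
    rw [hy, smul_apply, inner_smul_right, z2 b hb, mul_zero])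
    (show 0 < η * θ ^ 2 / 4 by positivity)
  obtain ⟨P, PP, P1, P2⟩ := prod_part hA pp pp'
  have t3 := AP.tbpin hA hc PP (Tb.sq (ξ := ξ) (η := η * θ ^ 2 / 4) (sub_mem zM bM) (zs.sub bs) hη
    (by
      have := pow_le_pow_left₀ (norm_nonneg _) z1 2
      rw [inv_mul_le_iff₀ hη]
      nlinarith [sq_nonneg (η * θ)]))
  have t4 := AP.tbpin hA hc pp' t1
  have t5 := AP.tbpin hA hc pp t2
  rw [← P2] at t5
  have e0 : 1 * (pin P x - a) * 1 = pin p' (pin p b - a) + pin P (z - b) + pin P y + pin P y := by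
    have e1 : x = b + (z - b) + y + y := by
      rw [hy]
      module
    rw [sub_eq_add_neg (pin p b), pin_add, pin_neg, ← P1,
      pin_fix pp' fun i => hA.2.1 _ (pp'.1 i).1 _ aA, one_mul, mul_one]
    nth_rw 1 [e1]
    rw [pin_add, pin_add, pin_add]
    abel
  have b3 := ((t4.add t3).add t5).add t5
  rw [← e0] at b3
  obtain ⟨Q, QM, Q1, Q0, Q2, Q3⟩ := cutg (c := c + 10 / m + 2 * η) (one_mem M) (.one _)
    (fun y _ => by rw [one_mul, mul_one]) ((pin_sa PP xs).sub as)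
    (by positivity) hη t0 (mono b3 (le_of_eq (by ring)) (by linarith))
  exact ⟨P, PP, a, aA, as, an, Q, QM, Q1,
    fun v hv => hθ _ (sub_mem (one_mem _) QM) Q0 Q2 v hv, Q3.trans (le_of_eq (by ring))⟩

end AM

/-- The order `ε⁻⁴` when the normalizer is approximately finite. -/
theorem amen5 (h4 : Final4Stmt.{u}) : ∃ C : ℝ, ∀ (H : Type u) [NormedAddCommGroup H]
    [InnerProductSpace ℂ H] [CompleteSpace H] (A M : VonNeumannAlgebra H), IsMasa A M →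
    AM.AC A M → ∀ ε : ℝ, 0 < ε → ε < 1 → ∃ r : ℕ, 1 ≤ r ∧ (r : ℝ) ≤ C / ε ^ 4 ∧
      ∀ x ∈ M, IsSelfAdjoint x → SoPavable A M x ε r := by
  obtain ⟨C, h4⟩ := h4
  refine ⟨(4 * |C| + 1) * 41 ^ 2, fun H _ _ _ A M hA hM ε e0 e1 => ?_⟩
  obtain ⟨m, hm⟩ : ∃ m, m = ⌈40 / ε⌉₊ := ⟨_, rfl⟩
  have m0 : 1 ≤ 1 / ε := by rw [le_div_iff₀ e0]; linarith
  have m1 : 40 / ε ≤ m := hm ▸ Nat.le_ceil _
  have m2 : (m : ℝ) < 40 / ε + 1 := hm ▸ Nat.ceil_lt_add_one (by positivity)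
  have m3 : 40 ≤ 40 / ε := by rw [le_div_iff₀ e0]; linarith
  have m4 : 2 ≤ m := by exact_mod_cast (show (2 : ℝ) ≤ m by linarith)
  have m5 : (m : ℝ) ≤ 41 / ε := by
    rw [show 41 / ε = 40 / ε + 1 / ε by ring]
    linarith
  have m6 : 10 / (m : ℝ) ≤ ε / 4 := by
    rw [div_le_iff₀ (by linarith)]
    rw [div_le_iff₀ e0] at m1
    linarith
  refine ⟨(⌊|C| / (ε / 2) ^ 2⌋₊ + 1) * m ^ 2, Nat.one_le_iff_ne_zero.2 (by positivity), ?_,
    fun x hx xs => FN.So.mono (AM.main2 hA hM m4 (c := ε / 2) (η := ε / 12) (by positivity)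
      (by positivity) (fun N ζ hN ht x hx xs => ?_) x hx xs) (by linarith)⟩
  · have a1 := Nat.floor_le (show 0 ≤ |C| / (ε / 2) ^ 2 by positivity)
    have a2 : 1 ≤ 1 / ε ^ 2 := by
      rw [le_div_iff₀ (by positivity)]
      nlinarith
    have a3 : (4 * |C| + 1) * 41 ^ 2 / ε ^ 4 = (|C| / (ε / 2) ^ 2 + 1 / ε ^ 2) * (41 / ε) ^ 2 := by
      field_simp
      ring
    rw [a3]
    push_cast
    exact mul_le_mul (by linarith) (pow_le_pow_left₀ (by positivity) m5 2) (by positivity)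
      (by positivity)
  · obtain ⟨r, -, r2, h⟩ := h4 H A N ζ hN ht (ε / 2) (by positivity) (by linarith)
    exact AP.pad (h x hx xs) (Nat.le_succ_of_le (Nat.le_floor (r2.trans
      (div_le_div_of_nonneg_right (le_abs_self C) (by positivity)))))

end Vale.Agent.P078
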