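import Vale.Agent.P078.Defs

/-! Maximal abelian subalgebras whose normalizer is approximated by centralizers. -/

namespace Vale.Agent.P078

open scoped InnerProductSpace

variable {H : Type*} [NormedAddCommGroup H] [InnerProductSpace ℂ H] [CompleteSpace H]

/-- For every vector `ξ` whose functional has `A` in its centralizer there are increasing algebras
`A ⊆ N n ⊆ M`, each in the centralizer of a vector functional with the same support as that of `ξ`,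
which approximate at `ξ` the normalizing unitaries keeping `ξ` in this support. -/
def TameNormalizer (A M : VonNeumannAlgebra H) : Prop :=
  ∀ ξ : H, (∀ a ∈ A, ∀ x ∈ M, ⟪ξ, (a * x) ξ⟫_ℂ = ⟪ξ, (x * a) ξ⟫_ℂ) →
    ∃ (N : ℕ → VonNeumannAlgebra H) (ζ : ℕ → H), (∀ n, (∀ a ∈ A, a ∈ N n) ∧
      (∀ y ∈ N n, y ∈ M ∧ y ∈ N (n + 1)) ∧ (∀ x ∈ M, x (ζ n) = 0 ↔ x ξ = 0) ∧
      ∀ y ∈ N n, ∀ x ∈ M, ⟪ζ n, (y * x) (ζ n)⟫_ℂ = ⟪ζ n, (x * y) (ζ n)⟫_ℂ) ∧
      ∀ v, Normalizes A M v → (∀ x ∈ M, x ξ = 0 → x (v ξ) = 0) → ∀ η : ℝ, 0 < η →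
        ∃ n, ∃ y ∈ N n, ‖(v - y) ξ‖ ≤ η

end Vale.Agent.P078
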