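import Vale.Agent.P078.Am5
import Vale.Agent.P078.Defs7

/-! Paving over all maximal abelian subalgebras with tame normalizer. -/

namespace Vale.Agent.P078

open scoped InnerProductSpace InnerProduct ComplexConjugate ComplexOrder
open Vale.Agent.P104 Vale.Agent.P082 Finset ContinuousLinearMap

universe u

variable {H : Type u} [NormedAddCommGroup H] [InnerProductSpace ℂ H] [CompleteSpace H]
  {A M : VonNeumannAlgebra H}

namespace AM

open R F2 FN Cor

variable {K : Type u} [NormedAddCommGroup K] [InnerProductSpace ℂ K] [CompleteSpace K]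
  {V : K →L[ℂ] H} {ξ : K}

theorem cv2 {N : VonNeumannAlgebra H} (h : Iso V) (heM : ex V 1 ∈ M) (he : ex V 1 ∈ N) {ζ : H}
    (h0 : ζ ≠ 0) (h1 : ex V 1 ζ = ζ)
    (h2 : ∀ a ∈ N, ∀ x ∈ M, ⟪ζ, (a * x) ζ⟫_ℂ = ⟪ζ, (x * a) ζ⟫_ℂ)
    (h3 : ∀ T ∈ corner M V, ex V T ζ = 0 → T = 0) :
    CV (corner N V) (corner M V) (((‖ζ‖⁻¹ : ℝ) : ℂ) • (V†) ζ) := by
  have n0 : ‖ζ‖ ≠ 0 := norm_ne_zero_iff.2 h0
  have n1 : ‖(V†) ζ‖ = ‖ζ‖ := by
    rw [← h.norm]
    exact congrArg norm h1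
  have k : ∀ T : K →L[ℂ] K, ⟪(V†) ζ, T ((V†) ζ)⟫_ℂ = ⟪ζ, ex V T ζ⟫_ℂ := fun T => by
    rw [adjoint_inner_left, ex_apply]
  refine ⟨?_, fun S hS T hT => ?_, fun T hT e => ?_⟩
  · rw [norm_smul, n1, Complex.norm_real, norm_inv, norm_norm, inv_mul_cancel₀ n0]
  · have := h2 _ (h.ex_mem he hS) _ (h.ex_mem heM hT)
    simp only [← h.ex_mul] at this
    simp only [map_smul, inner_smul_left, inner_smul_right, k, this]
  · rw [map_smul, smul_eq_zero] at e
    have e' : T ((V†) ζ) = 0 := e.resolve_left (by exact_mod_cast inv_ne_zero n0)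
    exact h3 T hT (by rw [ex_apply, e', map_zero])

theorem corn2 (hA : IsMasa A M) (hM : TameNormalizer A M) (h : Iso V) (he : ex V 1 ∈ A)
    (ht : CV (corner A V) (corner M V) ξ) : AC (corner A V) (corner M V) := by
  have heM := hA.1 _ he
  have sub : ∀ {P Q : VonNeumannAlgebra H}, ex V 1 ∈ P → (∀ y ∈ P, y ∈ Q) →
      ∀ T ∈ corner P V, T ∈ corner Q V := fun hP hQ T hT => by
    rw [← h.cp_ex T]
    exact h.cp_mem (hQ _ hP) (hQ _ (h.ex_mem hP hT))
  have k : ∀ (x : H →L[ℂ] H) (η : K), ⟪V η, x (V η)⟫_ℂ = ⟪η, cp V x η⟫_ℂ := fun x η => by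
    rw [cp_apply, adjoint_inner_right]
  obtain ⟨N, ζ, hN, hd⟩ := hM (V ξ) fun a ha x hx => by
    have c := hA.2.1 _ he _ ha
    rw [k, k, h.cp_mul _ c, h.cp_mul' _ c]
    exact ht.l (h.cp_mem he ha) (h.cp_mem heM hx)
  refine ⟨ξ, ht, fun n => corner (N n) V, fun n => ((‖ζ n‖⁻¹ : ℝ) : ℂ) • (V†) (ζ n), fun n => ?_,
    fun u hu η hη => ?_⟩
  · obtain ⟨n1, n2, n3, n4⟩ := hN n
    have eN := n1 _ he
    refine ⟨sub he n1, fun T hT => ⟨sub eN (fun y hy => (n2 y hy).1) T hT,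
      sub eN (fun y hy => (n2 y hy).2) T hT⟩, cv2 h heM eN (fun e => ?_) ?_ n4 fun T hT e => ?_⟩
    · have a := congrArg norm ((n3 1 (one_mem _)).1 e)
      rw [one_apply_eq_self, h.norm, ht.1, norm_zero] at a
      exact one_ne_zero a
    · have a := (n3 _ (sub_mem (one_mem _) heM)).2 (by
        rw [sub_apply, ex_apply, h, one_apply_eq_self, one_apply_eq_self, sub_self])
      rw [sub_apply, one_apply_eq_self, sub_eq_zero] at a
      exact a.symm
    · have a := congrArg (V†) ((n3 _ (h.ex_mem heM hT)).1 e)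
      rw [ex_apply, h, h, map_zero] at a
      exact ht.2.2 T hT a
  · obtain ⟨n, y, y1, y2⟩ := hd _ (NT.nrm_ext h hA he hu) (fun x hx e => by
      have a := ht.2.2 _ (h.cp_mem heM (mul_mem (star_mem hx) hx)) (by
        rw [cp_apply, mul_apply_eq_comp, e, map_zero, map_zero])
      have b := norm_sq_apply x (V (u ξ))
      rw [k, a] at b
      have c : x (V (u ξ)) = 0 := by simpa using b
      simpa only [sub_apply, add_apply, ex_apply, h _, one_apply_eq_self, sub_self, add_zero]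
        using c) η hη
    refine ⟨n, cp V y, h.cp_mem ((hN n).1 _ he) y1, le_trans (le_of_eq ?_)
      (((V†).le_opNorm _).trans ((mul_le_of_le_one_left (norm_nonneg _) h.op').trans y2))⟩
    simp only [sub_apply, add_apply, ex_apply, cp_apply, h _, one_apply_eq_self, map_sub, map_add,
      sub_self, add_zero]

end AM

open FN in
/-- The order `ε⁻⁴` for standard algebras when the normalizer is tame. -/
theorem hyp5 (h4 : Final4Stmt.{u}) (hS : SingStmt.{u}) (hP : ProjStmt.{u}) :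
    ∃ C : ℝ, ∀ (H : Type u) [NormedAddCommGroup H]
    [InnerProductSpace ℂ H] [CompleteSpace H] (A M : VonNeumannAlgebra H), IsMasa A M →
    (∃ ξ, StdVec M ξ) → TameNormalizer A M → ∀ ε : ℝ, 0 < ε → ε < 1 →
    ∃ r : ℕ, 1 ≤ r ∧ (r : ℝ) ≤ C / ε ^ 4 ∧ ∀ x ∈ M, IsSelfAdjoint x → SoPavable A M x ε r := by
  obtain ⟨C, h4⟩ := amen5 h4
  refine ⟨16 * |C| + 9, fun H _ _ _ A M hA ⟨ξ, hξ⟩ hM ε e0 e1 => ?_⟩
  obtain ⟨s, s1, s2⟩ := ex_s (show 0 < ε / 4 by positivity) (by linarith)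
  refine ⟨⌊|C| / (ε / 2) ^ 4⌋₊ + 1 + 2 ^ s, le_add_left Nat.one_le_two_pow, ?_, fun x hx hx' =>
    So.mono (NT.mixed hS hP hA hξ (c := ε / 2)
      (fun f hf pf ζ z1 z2 z3 x hx hx' hn v θ hθ => NT.genC ⟨0, Nat.succ_pos _⟩ (by positivity)
        (fun K _ _ _ V ξ h fA ht x hx hx' hn θ hθ => ?_)
        hA hf pf z1 z2 z3 hx hx' hn v hθ) s (show 0 < ε / 12 by positivity) x hx hx')
      (by linarith)⟩
  · have a1 := Nat.floor_le (show 0 ≤ |C| / (ε / 2) ^ 4 by positivity)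
    have m0 : 1 ≤ 1 / ε := by rw [le_div_iff₀ e0]; linarith
    have a2 : 1 / ε ≤ (1 / ε) ^ 4 := le_self_pow₀ m0 (by norm_num)
    have a3 : (16 * |C| + 9) / ε ^ 4 = |C| / (ε / 2) ^ 4 + 9 * (1 / ε) ^ 4 := by
      field_simp
      ring
    rw [show 2 / (ε / 4) = 8 * (1 / ε) by field_simp; norm_num] at s2
    push_cast
    linarith
  · obtain ⟨r, -, r2, h1⟩ := h4 K _ _ (Cor.masa h hA fA) (AM.corn2 hA hM h fA ht) (ε / 2)
      (by positivity) (by linarith)
    obtain ⟨p, pp, a, aA, as, an, q, qM, q1, q2, q3⟩ := AP.pad (h1 x hx hx')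
      (Nat.le_succ_of_le (Nat.le_floor (r2.trans
        (div_le_div_of_nonneg_right (le_abs_self C) (by positivity))))) {ξ} θ hθ
    exact ⟨p, pp, a, aA, as, an.trans hn, q, qM, q1, (q2 ξ (mem_singleton_self ξ)).le,
      q3.trans (mul_le_of_le_one_right (by positivity) hn)⟩

end Vale.Agent.P078
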