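import Vale.Agent.P078.Stm4
import Vale.Agent.P078.EB

/-! Atoms of finitely many partitions. -/

namespace Vale.Agent.P078

open scoped InnerProductSpace ComplexConjugate ComplexOrder
open Vale.Agent.P104 Vale.Agent.P082 Finset R

universe u

namespace At

variable {H : Type u} [NormedAddCommGroup H] [InnerProductSpace ℂ H] [CompleteSpace H]
  {A M : VonNeumannAlgebra H} {ξ : H}

theorem q_add (ht : TraceVec M ξ) {t w : H →L[ℂ] H} (tM : t ∈ M) (wM : w ∈ M) (t0 : 0 ≤ t)
    (w0 : 0 ≤ w) : ‖t ξ‖ ^ 2 + ‖w ξ‖ ^ 2 ≤ ‖(t + w) ξ‖ ^ 2 := by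
  have := EB.tr_nn ht tM wM t0 w0
  rw [mul_apply_eq_comp, ← inner_star_left, t0.isSelfAdjoint.star_eq] at this
  rw [add_apply, @norm_add_sq ℂ]
  simp only [RCLike.re_to_complex]
  linarith

theorem q_mono (ht : TraceVec M ξ) {t w : H →L[ℂ] H} (tM : t ∈ M) (wM : w ∈ M) (t0 : 0 ≤ t)
    (h : t ≤ w) : ‖t ξ‖ ^ 2 ≤ ‖w ξ‖ ^ 2 := by
  have := q_add ht tM (sub_mem wM tM) t0 (sub_nonneg.2 h)
  rw [add_sub_cancel] at this
  linarith [sq_nonneg ‖(w - t) ξ‖]

theorem q_sum (ht : TraceVec M ξ) {κ : Type} {t : κ → H →L[ℂ] H} (tM : ∀ k, t k ∈ M)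
    (t0 : ∀ k, 0 ≤ t k) (s : Finset κ) : ∑ k ∈ s, ‖t k ξ‖ ^ 2 ≤ ‖(∑ k ∈ s, t k) ξ‖ ^ 2 := by
  classical
  induction s using Finset.induction_on with
  | empty => simp
  | insert a s ha ih =>
    rw [sum_insert ha, sum_insert ha]
    exact (add_le_add le_rfl ih).trans
      (q_add ht (tM a) (sum_mem fun k _ => tM k) (t0 a) (sum_nonneg fun k _ => t0 k))

theorem psi_symm (ht : TraceVec M ξ) {y a b : H →L[ℂ] H} (yM : y ∈ M) (ys : IsSelfAdjoint y)
    (aM : a ∈ M) (bM : b ∈ M) (pa : IsStarProjection a) (pb : IsStarProjection b) :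
    Psi ξ y a b = Psi ξ y b a := by
  have zM : a * y * b ∈ M := mul_mem (mul_mem aM yM) bM
  have e0 : star (a * y * b) = b * y * a := by
    rw [star_mul, star_mul, pa.isSelfAdjoint.star_eq, pb.isSelfAdjoint.star_eq, ys.star_eq,
      mul_assoc]
  have e1 : b * y * a * y * b = star (a * y * b) * (a * y * b) := by
    rw [e0]
    simp only [mul_assoc, ← mul_assoc a a, pa.isIdempotentElem.eq]
  have e2 : a * y * b * y * a = (a * y * b) * star (a * y * b) := by
    rw [e0]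
    simp only [mul_assoc, ← mul_assoc b b, pb.isIdempotentElem.eq]
  rw [Psi, Psi, e1, e2, norm_sq_apply, norm_sq_apply]
  generalize a * y * b = z at zM
  simp only [star_mul, star_star, mul_assoc]
  rw [ht.2.1 _ (star_mem zM) _ (mul_mem zM (mul_mem (star_mem zM) zM))]
  simp only [mul_assoc]

theorem atoms0 (hA : IsMasa A M) {ι : Type} [Fintype ι] : ∀ (d : ℕ) (F : Fin d → ι → H →L[ℂ] H),
    (∀ s, W.Part A (F s)) → ∃ (α : Type) (_ : Fintype α) (e : α → H →L[ℂ] H) (I : α → Fin d → ι),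
      W.Part A e ∧ ∀ a s, e a * F s (I a s) = e a
  | 0, _, _ => ⟨Unit, inferInstance, _, fun _ => Fin.elim0, W.Part.one, fun _ s => s.elim0⟩
  | d + 1, F, hF => by
    obtain ⟨α, _, e, I, he, h⟩ := atoms0 hA d (fun s => F s.succ) fun s => hF _
    refine ⟨_, inferInstance, _, fun x => Fin.cons x.2 (I x.1),
      he.glue hA (κ := fun _ => ι) fun _ => hF 0, fun x s => ?_⟩
    beta_reduce
    refine Fin.cases ?_ (fun s => ?_) s
    · rw [Fin.cons_zero, mul_assoc, ((hF 0).proj _).isIdempotentElem.eq]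
    · rw [Fin.cons_succ, mul_assoc, hA.2.1 _ ((hF 0).mem _) _ ((hF _).mem _), ← mul_assoc, h]

theorem sub_proj {α : Type} [Fintype α] {e : α → H →L[ℂ] H} (he : W.Part A e) (s : Finset α) :
    IsStarProjection (∑ a ∈ s, e a) := by
  refine ⟨?_, isSelfAdjoint_sum _ fun a _ => (he.proj a).isSelfAdjoint⟩
  rw [IsIdempotentElem, sum_mul_sum]
  refine sum_congr rfl fun a ha => ?_
  rw [sum_eq_single_of_mem a ha fun b _ hb => he.orth a b hb.symm]
  exact (he.proj a).isIdempotentElem.eq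

theorem side (hA : IsMasa A M) (ht : TraceVec M ξ) {ι α : Type} [Fintype ι] [DecidableEq ι]
    [Fintype α] {d : ℕ} {F : Fin d → ι → H →L[ℂ] H} (hF : ∀ s, W.Part A (F s))
    {e : α → H →L[ℂ] H} {I : α → Fin d → ι} (he : W.Part A e) (h : ∀ a s, e a * F s (I a s) = e a)
    {y b : H →L[ℂ] H} (yM : y ∈ M) (ys : IsSelfAdjoint y) (bM : b ∈ M) (bs : IsSelfAdjoint b) :
    ∑ S ∈ univ.erase ∅, Psi ξ y (∑ a with S ⊆ univ.image (I a), e a) b ≤
      4 ^ d * d * ∑ s, ∑ i, Psi ξ y (F s i) b := by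
  have eM := fun a => hA.1 _ (he.mem a)
  have T0 : ∀ {a a' : H →L[ℂ] H}, a ≤ a' → b * y * a * y * b ≤ b * y * a' * y * b := fun h => by
    simpa only [mul_assoc] using bs.conjugate_le_conjugate (ys.conjugate_le_conjugate h)
  have TM : ∀ {a : H →L[ℂ] H}, a ∈ M → b * y * a * y * b ∈ M := fun h =>
    mul_mem (mul_mem (mul_mem (mul_mem bM yM) h) yM) bM
  have T1 : ∀ {a : H →L[ℂ] H}, 0 ≤ a → 0 ≤ b * y * a * y * b := fun h => by simpa using T0 h
  have FE : ∀ s i, F s i = ∑ a, if I a s = i then e a else 0 := fun s i => by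
    rw [← one_mul (F s i), ← he.sum, sum_mul]
    refine sum_congr rfl fun a _ => ?_
    split_ifs with c
    · rw [← c, h]
    · rw [← h a s, mul_assoc, (hF s).orth _ _ c, mul_zero]
  have k1 : ∀ i, ∑ S with i ∈ S, ∑ a with S ⊆ univ.image (I a), e a ≤
      ((2 ^ d : ℝ) : ℂ) • ∑ s, F s i := fun i => by
    simp only [FE, sum_filter (s := (univ : Finset α))]
    rw [sum_comm, sum_comm (s := (univ : Finset (Fin d))), smul_sum]
    refine sum_le_sum fun a _ => ?_
    rw [← sum_filter, ← sum_filter, sum_const, sum_const, ← Nat.cast_smul_eq_nsmul ℂ,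
      ← Nat.cast_smul_eq_nsmul ℂ, smul_smul, ← sub_nonneg, ← sub_smul, ← Complex.ofReal_natCast,
      ← Complex.ofReal_natCast, ← Complex.ofReal_mul, ← Complex.ofReal_sub]
    refine smul_nn (sub_nonneg.2 ?_) (he.proj a).nonneg
    by_cases c : ∃ s, I a s = i
    · obtain ⟨s, hs⟩ := c
      have c1 : 1 ≤ #{s | I a s = i} := card_pos.2 ⟨s, by simpa using hs⟩
      have c2 : #{S ∈ ({S | i ∈ S} : Finset (Finset ι)) | S ⊆ univ.image (I a)} ≤ 2 ^ d := by
        refine (card_le_card (t := (univ.image (I a)).powerset) fun S hS =>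
          mem_powerset.2 (mem_filter.1 hS).2).trans ?_
        rw [card_powerset]
        exact Nat.pow_le_pow_right two_pos (card_image_le.trans (by simp))
      exact_mod_cast c2.trans (Nat.le_mul_of_pos_right _ c1)
    · rw [filter_eq_empty_iff.2 fun S hS hS' => c (by simpa using hS' (mem_filter.1 hS).2)]
      simp
  have k2 : ∀ i, ∑ S with i ∈ S, Psi ξ y (∑ a with S ⊆ univ.image (I a), e a) b ≤
      4 ^ d * d * ∑ s, Psi ξ y (F s i) b := fun i => by
    have p0 : ∀ S : Finset ι, 0 ≤ ∑ a with S ⊆ univ.image (I a), e a := fun S =>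
      sum_nonneg fun a _ => (he.proj a).nonneg
    have pM : ∀ S : Finset ι, ∑ a with S ⊆ univ.image (I a), e a ∈ M := fun S =>
      sum_mem fun a _ => eM a
    refine (q_sum ht (fun S => TM (pM S)) (fun S => T1 (p0 S)) _).trans ?_
    rw [← sum_mul, ← sum_mul, ← mul_sum]
    refine (q_mono ht (TM (sum_mem fun S _ => pM S)) (TM (vn_smul_mem _ (sum_mem fun s _ =>
      hA.1 _ ((hF s).mem i)))) (T1 (sum_nonneg fun S _ => p0 S)) (T0 (k1 i))).trans ?_
    rw [mul_smul_comm, smul_mul_assoc, smul_mul_assoc, smul_apply, norm_smul, mul_pow,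
      Complex.norm_real, Real.norm_eq_abs, sq_abs, ← pow_mul, mul_comm d, pow_mul, mul_sum, sum_mul,
      sum_mul, _root_.sum_apply, mul_assoc]
    refine mul_le_mul (by norm_num) ((pow_le_pow_left₀ (norm_nonneg _) (norm_sum_le _ _) 2).trans
      (sq_sum_le_card_mul_sum_sq.trans_eq (by simp [Psi]))) (by positivity) (by positivity)
  rw [sum_comm, mul_sum]
  refine le_trans ?_ (sum_le_sum fun i _ => k2 i)
  simp only [sum_filter (s := (univ : Finset (Finset ι)))]
  rw [sum_comm]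
  refine (sum_le_sum fun S hS => ?_).trans (sum_le_sum_of_subset_of_nonneg (subset_univ _)
    fun S _ _ => sum_nonneg fun i _ => by split_ifs <;> simp [Psi])
  obtain ⟨i, hi⟩ := nonempty_iff_ne_empty.2 (ne_of_mem_erase hS)
  exact (if_pos hi).ge.trans (single_le_sum (f := fun i => if i ∈ S then
    Psi ξ y (∑ a with S ⊆ univ.image (I a), e a) b else 0)
    (fun i _ => by split_ifs <;> simp [Psi]) (mem_univ i))

end At

theorem atoms : AtomStmt.{u} := fun d => by
  refine ⟨(4 ^ d * d) ^ 2 + 1, by positivity, fun H _ _ _ A M ξ hA ht ι _ _ F hF => ?_⟩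
  obtain ⟨α, _, e, I, he, h⟩ := At.atoms0 hA d F hF
  refine ⟨α, inferInstance, e, I, he, h, fun y yM ys => ?_⟩
  have pM : ∀ S : Finset ι, ∑ a with S ⊆ univ.image (I a), e a ∈ M := fun S =>
    sum_mem fun a _ => hA.1 _ (he.mem a)
  have FM := fun s i => hA.1 _ ((hF s).mem i)
  rw [sum_comm]
  refine (sum_le_sum fun S _ => At.side hA ht hF he h yM ys (pM S)
    (At.sub_proj he _).isSelfAdjoint).trans ?_
  rw [← mul_sum, sum_comm]
  have k : ∀ s, ∑ S ∈ univ.erase ∅, ∑ i, Psi ξ y (F s i) (∑ a with S ⊆ univ.image (I a), e a) ≤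
      4 ^ d * d * ∑ s', ∑ i, ∑ j, Psi ξ y (F s i) (F s' j) := fun s => by
    rw [sum_comm, sum_comm (s := (univ : Finset (Fin d))), mul_sum]
    refine sum_le_sum fun i _ => ?_
    simp only [fun S => At.psi_symm ht yM ys (FM s i) (pM S) ((hF s).proj i) (At.sub_proj he _),
      fun s' j => At.psi_symm ht yM ys (FM s i) (FM s' j) ((hF s).proj i) ((hF s').proj j)]
    exact At.side hA ht hF he h yM ys (FM s i) ((hF s).proj i).isSelfAdjoint
  refine (mul_le_mul_of_nonneg_left (sum_le_sum fun s _ => k s) (by positivity)).trans ?_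
  rw [← mul_sum, ← mul_assoc, ← sq]
  exact mul_le_mul_of_nonneg_right (by linarith) (sum_nonneg fun _ _ => sum_nonneg fun _ _ =>
    sum_nonneg fun _ _ => sum_nonneg fun _ _ => sq_nonneg _)

end Vale.Agent.P078
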