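import Vale.Agent.P078.StmN

/-! A tracial corner over a maximal abelian subalgebra. -/

namespace Vale.Agent.P078

open scoped InnerProductSpace ComplexConjugate ComplexOrder
open Vale.Agent.P104 Vale.Agent.P082 ContinuousLinearMap Filter Topology Finset R

universe u

namespace Av

variable {H : Type u} [NormedAddCommGroup H] [InnerProductSpace ℂ H] [CompleteSpace H]
  {A M : VonNeumannAlgebra H} {ξ : H}

theorem inner_R (m : P132.Mod M ξ) (x : H →L[ℂ] H) (η w : H) :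
    ⟪η, m.R x w⟫_ℂ = ⟪m.J w, x (m.J η)⟫_ℂ := by
  rw [P132.HMod.R_apply, m.inner_J_right, inner_star_left]

theorem exists_inv {u : H →L[ℂ] H} (hu : u ∈ A) {t : ℝ} (ht : 0 < t) (h : (t : ℂ) • 1 ≤ u) :
    ∃ v ∈ A, v * u = 1 := by
  have h1 : IsUnit ((t : ℂ) • 1 : Alg A) := by
    rw [← Algebra.algebraMap_eq_smul_one]
    exact (IsUnit.mk0 _ (Complex.ofReal_ne_zero.2 ht.ne')).map _
  obtain ⟨v, hv⟩ := (CStarAlgebra.isUnit_of_le ((t : ℂ) • 1 : Alg A) (b := ⟨u, hu⟩) h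
    ⟨smul_nn ht.le (zero_le_one (α := H →L[ℂ] H)), h1⟩).exists_left_inv
  exact ⟨v.1, v.2, congrArg Subtype.val hv⟩

end Av

theorem avgS (hP : ProjStmt.{u}) : AvgStmt.{u} := by
  intro H _ _ _ A M ξ m hA hξ g gM pg hg κ hκ
  obtain ⟨z1, hz1⟩ : ∃ z, z = g ξ := ⟨_, rfl⟩
  have gg := pg.isIdempotentElem.eq
  have Rg : m.R g ξ = z1 := by simpa [gg, hz1] using hg 1 (one_mem _)
  have Rg1 : m.R g z1 = z1 := by
    rw [hz1, ← m.comm_R gM gM, Rg, hz1, ← mul_apply_eq_comp, gg]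
  have k0 : ∀ y ∈ M, g (y z1) = m.R g (m.R y z1) := fun y hy => by
    have := hg y hy
    rw [m.R_mul_apply, m.R_mul_apply, Rg] at this
    rw [this, hz1]
    rfl
  obtain ⟨z0, hz0, h0⟩ := hP H A M ξ m hA z1
  choose N e he h1 using fun n : ℕ => h0 (1 / ((n : ℝ) + 1)) Nat.one_div_pos_of_nat
  have eA := fun n i => ((he n).1 i).1
  have eM := fun n i => hA.1 _ (eA n i)
  have ee := fun n i => ((he n).1 i).2.isIdempotentElem.eq
  let Z : ℕ → H := fun n => ∑ i, e n i (m.R (e n i) z1)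
  have hZ : Tendsto Z atTop (𝓝 z0) := tendsto_iff_norm_sub_tendsto_zero.2
    (squeeze_zero (fun _ => norm_nonneg _) (fun n => h1 n _ _ (he n) fun j => ⟨j, ee n j⟩)
      tendsto_one_div_add_atTop_nhds_zero_nat)
  have hZ' : ∀ (T : H →L[ℂ] H) (η : H), Tendsto (fun n => ⟪η, T (Z n)⟫_ℂ) (hyperfilter ℕ)
      (𝓝 ⟪η, T z0⟫_ℂ) := fun T η => (tendsto_const_nhds.inner
        ((T.continuous.tendsto _).comp hZ)).mono_left Nat.hyperfilter_le_atTop
  let G : ℕ → Alg M := fun n => ⟨pin (e n) g, pin_mem hA (he n) gM⟩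
  have G0 : ∀ n, 0 ≤ (G n).1 := fun n => pin_nonneg (he n) pg.nonneg
  have hb : ∀ n, ‖G n‖ ≤ 1 := fun n => (CStarAlgebra.norm_le_one_iff_of_nonneg _ (G0 n)).2
    ((pin_mono (he n) pg.le_one).trans_eq (pin_fix (he n) fun i => by simp))
  obtain ⟨g0, g0M, hs⟩ : ∃ g0 ∈ M, ∀ w η, Tendsto (fun n => ⟪η, (G n).1 w⟫_ℂ) (hyperfilter ℕ)
      (𝓝 ⟪η, g0 w⟫_ℂ) := ⟨_, (wlim (hyperfilter ℕ) G).2, wlim_spec hb⟩
  have g0s : IsSelfAdjoint g0 := ContinuousLinearMap.ext fun w => ext_inner_left ℂ fun η => by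
    have a1 := (Complex.continuous_conj.tendsto _).comp (hs η w)
    rw [inner_star_right, ← inner_conj_symm]
    refine tendsto_nhds_unique a1 ((hs w η).congr fun n => ?_)
    rw [Function.comp_apply, inner_conj_symm, ← inner_star_right,
      (IsSelfAdjoint.of_nonneg (G0 n)).star_eq]
  have k1 : ∀ y ∈ M, g0 (y z1) = m.R g (m.R y z0) := fun y hy => ext_inner_left ℂ fun η => by
    refine tendsto_nhds_unique (hs _ η) ((hZ' (m.R g * m.R y) η).congr fun n => ?_)
    congr 1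
    simp only [Z, G, pin, map_sum, _root_.sum_apply, mul_apply_eq_comp]
    refine sum_congr rfl fun i _ => ?_
    have := k0 _ (mul_mem (eM n i) hy)
    rw [mul_apply_eq_comp] at this
    rw [this, m.comm_R (eM n i) gM, m.R_mul_apply, m.comm_R (eM n i) hy]
  have k2 : ∀ y ∈ M, g0 (y z0) = m.R g0 (m.R y z0) := fun y hy => ext_inner_left ℂ fun η => by
    rw [Av.inner_R]
    refine tendsto_nhds_unique (hZ' (g0 * y) η) ((hs _ _).congr fun n => ?_)
    rw [← Av.inner_R]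
    congr 1
    simp only [Z, G, pin, map_sum, m.R_sum, _root_.sum_apply, mul_apply_eq_comp]
    refine sum_congr rfl fun i _ => ?_
    have := k1 _ (mul_mem hy (eM n i))
    rw [mul_apply_eq_comp] at this
    rw [m.comm_R (eM n i) (eM n i), m.comm_R hy (eM n i), m.comm_R g0M (eM n i), this,
      m.R_mul_apply, m.R_mul_apply, m.R_mul_apply]
  have k3 : ∀ d ∈ M, (∀ y ∈ M, d (y z1) = 0) → ∀ y ∈ M, d * y * g0 = 0 := fun d dM h y hy => by
    have a1 : ∀ y ∈ M, d * y * g = 0 := fun y hy => hξ.2 _ (mul_mem (mul_mem dM hy) gM)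
      (by rw [mul_apply_eq_comp, mul_apply_eq_comp, ← hz1, h y hy])
    refine ContinuousLinearMap.ext fun w => ext_inner_left ℂ fun η => ?_
    rw [mul_apply_eq_comp, ← inner_star_left]
    refine tendsto_nhds_unique (hs w _) (tendsto_const_nhds.congr fun n => ?_)
    rw [inner_star_left, ← mul_apply_eq_comp]
    congr 2
    simp only [G, pin, mul_sum]
    refine (sum_eq_zero fun i _ => ?_).symm
    rw [← mul_assoc, ← mul_assoc, mul_assoc d, a1 _ (mul_mem hy (eM n i)), zero_mul]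
  have g0A : g0 ∈ A := hA.mem_of_proj g0M fun a aA pa => by
    have aM := hA.1 a aA
    have a1 := k3 (a * g0 - g0 * a) (sub_mem (mul_mem aM g0M) (mul_mem g0M aM)) fun y hy => by
      have := k1 _ (mul_mem aM hy)
      rw [mul_apply_eq_comp] at this
      rw [sub_apply, mul_apply_eq_comp, mul_apply_eq_comp, this, k1 y hy, m.comm_R aM gM,
        m.comm_R aM hy, hz0 a aA, m.R_mul_apply, sub_self]
    have a2 : star (a * g0 - g0 * a) * (a * g0 - g0 * a) = 0 := by
      have : star (a * g0 - g0 * a) = -(a * g0 - g0 * a) := by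
        rw [star_sub, star_mul, star_mul, pa.isSelfAdjoint.star_eq, g0s.star_eq, neg_sub]
      rw [this, neg_mul, neg_eq_zero, mul_sub, ← mul_assoc, ← mul_assoc, a1 a aM]
      have := a1 1 (one_mem _)
      rw [mul_one] at this
      rw [this, zero_mul, sub_self]
    exact sub_eq_zero.1 ((CStarRing.star_mul_self_eq_zero_iff _).1 a2)
  obtain ⟨t, t0, t1, t2⟩ : ∃ t : ℝ, 0 < t ∧ t ≤ 1 ∧ t * ‖z1‖ ^ 2 ≤ (κ / 2) ^ 2 := by
    refine ⟨min 1 ((κ / 2) ^ 2 / (‖z1‖ ^ 2 + 1)), by positivity, min_le_left _ _, ?_⟩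
    refine (mul_le_mul (min_le_right _ _) (le_add_of_nonneg_right zero_le_one) (by positivity)
      (by positivity)).trans_eq ?_
    field_simp
  obtain ⟨f, fA, pf, -, f0, f1⟩ := spec H A (g0 - (t : ℂ) • 1)
    (sub_mem g0A (vn_smul_mem _ (one_mem _)))
    (g0s.sub ((show IsSelfAdjoint (t : ℂ) from Complex.conj_ofReal _).smul (.one _)))
  have ff := pf.isIdempotentElem.eq
  have fM := hA.1 f fA
  have hA' : 1 - f ∈ A := sub_mem (one_mem _) fA
  obtain ⟨v, vA, hv⟩ := Av.exists_inv (u := f * g0 * f + (1 - f))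
    (add_mem (mul_mem (mul_mem fA g0A) fA) hA') t0 (by
      rw [← sub_nonneg]
      convert add_nonneg f0 (smul_nn (sub_nonneg.2 t1) pf.one_sub.nonneg) using 1
      simp only [mul_sub, sub_mul, mul_smul_comm, smul_mul_assoc, mul_one, ff]
      push_cast
      module)
  obtain ⟨k, kA, kg, fk⟩ : ∃ k ∈ A, k * g0 = f ∧ f * k = k := by
    refine ⟨v * f, mul_mem vA fA, ?_, by rw [hA.2.1 f fA _ (mul_mem vA fA), mul_assoc, ff]⟩
    have := congrArg (· * f) hv
    simp only [one_mul, mul_assoc, add_mul, sub_mul, ff, sub_self, add_zero] at this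
    rwa [hA.2.1 g0 g0A f fA, ← mul_assoc f, ff, ← mul_assoc v] at this
  have kM := hA.1 k kA
  have gk : g0 * k = f := by rw [hA.2.1 _ g0A _ kA, kg]
  have cen : ∀ x ∈ M, (f * x * f) (k z0) = m.R (f * x * f) (k z0) := fun x hx => by
    have xM := mul_mem (mul_mem fM hx) fM
    have := k2 _ (mul_mem (mul_mem kM xM) kM)
    rw [← m.R_mul_apply, ← mul_apply_eq_comp, ← mul_assoc, ← mul_assoc, gk, mul_assoc _ k, kg,
      mul_assoc k, m.R_mul_apply, ← hz0 k kA, mul_assoc _ f f, ff, ← mul_assoc, ← mul_assoc, ff]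
      at this
    exact this
  have hn : ‖(1 - f) z0‖ ≤ κ / 2 := by
    have hM := hA.1 _ hA'
    have ph := pf.one_sub
    have b1 : ⟪(1 - f) z0, z0⟫_ℂ = ⟪(1 - f) z0, z1⟫_ℂ := by
      refine tendsto_nhds_unique (hZ' 1 _) (tendsto_const_nhds.congr fun n => ?_)
      rw [show ⟪(1 - f) z0, z1⟫_ℂ = ⟪(1 - f) z0, (∑ i, e n i) z1⟫_ℂ by rw [(he n).2.2]; rfl]
      change _ = ⟪(1 - f) z0, Z n⟫_ℂ
      simp only [Z, inner_sum, _root_.sum_apply]
      refine sum_congr rfl fun i _ => ?_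
      have s := ((he n).1 i).2.isSelfAdjoint.star_eq
      rw [m.comm_R (eM n i) (eM n i), ← inner_star_left (m.R _), ← m.R_star, s,
        ← m.comm_R hM (eM n i), ← hz0 _ (eA n i), ← mul_apply_eq_comp,
        hA.2.1 _ hA' _ (eA n i), mul_apply_eq_comp, ← s, inner_star_left, s, ← mul_apply_eq_comp,
        ee]
    have b2 : ⟪(1 - f) z0, z1⟫_ℂ = ⟪((1 - f) * g0 * (1 - f)) z1, z1⟫_ℂ := by
      rw [hA.2.1 _ hA' _ g0A, mul_assoc, ph.isIdempotentElem.eq, mul_apply_eq_comp, k1 _ hM,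
        ← hz0 _ hA', ← pg.isSelfAdjoint.star_eq, m.R_star, inner_star_left, Rg1]
    have b3 := re_nonneg (ξ := z1) (neg_nonneg.2 f1)
    have b4 := re_nonneg (ξ := z1) (smul_nn t0.le pf.nonneg)
    have b5 : ((1 - f) * g0 * (1 - f)) = (t : ℂ) • 1 - (t : ℂ) • f -
        -((1 - f) * (g0 - (t : ℂ) • 1) * (1 - f)) := by
      simp only [mul_sub, sub_mul, mul_smul_comm, smul_mul_assoc, mul_one, one_mul, ff]
      module
    have b6 := norm_sq_apply (1 - f) z0
    rw [ph.isSelfAdjoint.star_eq, ph.isIdempotentElem.eq, ← inner_conj_symm, Complex.conj_re, b1,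
      b2, ← inner_conj_symm, Complex.conj_re, b5, sub_apply _ _ z1, sub_apply _ _ z1,
      inner_sub_right, inner_sub_right, Complex.sub_re, Complex.sub_re, smul_apply,
      inner_smul_right, Complex.re_ofReal_mul] at b6
    have b7 : (⟪z1, (1 : H →L[ℂ] H) z1⟫_ℂ).re = ‖z1‖ ^ 2 := inner_self_eq_norm_sq (𝕜 := ℂ) _
    rw [b7] at b6
    exact le_of_sq_le (by positivity) (by linarith)
  obtain ⟨n, hn'⟩ := (Metric.tendsto_atTop.1 hZ) (κ / 2) (half_pos hκ)
  refine ⟨f, fA, pf, k z0, by rw [← mul_apply_eq_comp, fk], fun x hx y hy => ?_,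
    fun x hx h => ?_, _, e n, he n, ?_⟩
  · have s : ∀ x y : H →L[ℂ] H, f * x * f * y * f = f * x * f * (f * y * f) := fun x y => by
      simp only [mul_assoc, ← mul_assoc f f, ff]
    have s' : star (f * y * f) = f * star y * f := by
      rw [star_mul, star_mul, pf.isSelfAdjoint.star_eq, mul_assoc]
    rw [s, s, mul_apply_eq_comp, cen y hy, m.comm_R (mul_mem (mul_mem fM hx) fM)
      (mul_mem (mul_mem fM hy) fM), ← inner_star_left, ← m.R_star, s', ← cen _ (star_mem hy), ← s',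
      inner_star_left, ← mul_apply_eq_comp]
  · have xM := mul_mem (mul_mem fM hx) fM
    have e1 : f * x * f = f * x * f * 1 * g0 * k := by
      rw [mul_one, mul_assoc _ g0, gk, mul_assoc _ f f, ff]
    rw [e1, k3 _ xM (fun y hy => ?_) 1 (one_mem _), zero_mul]
    have e2 : f * x * f = f * x * f * k * g0 := by rw [mul_assoc _ k, kg, mul_assoc _ f f, ff]
    rw [e2, mul_apply_eq_comp, k1 y hy, m.comm_R (mul_mem xM kM) gM, m.comm_R (mul_mem xM kM) hy,
      mul_apply_eq_comp, h, map_zero, map_zero]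
  · rw [← map_sum, ← hz1]
    have c1 := hn' n le_rfl
    rw [dist_eq_norm] at c1
    have c2 := le_of_opNorm_le _ pf.one_sub.norm_le (Z n - z0)
    have c3 := norm_add_le ((1 - f) (Z n - z0)) ((1 - f) z0)
    rw [← map_add, sub_add_cancel] at c3
    change ‖(1 - f) (Z n)‖ ≤ κ
    linarith

end Vale.Agent.P078
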