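import Vale.Agent.P078.H5

/-! Signed local potentials. -/

namespace Vale.Agent.P078

open Finset Polynomial Filter Topology
open scoped ComplexConjugate Pointwise Classical ComplexOrder

/-- Change the state on `e`. -/
noncomputable def ow {Ω α : Type*} (e : Set Ω) (τ σ : Ω → α) (ω : Ω) : α :=
  if ω ∈ e then τ ω else σ ω

theorem ow_lc {Ω α : Type*} [TopologicalSpace Ω] {e : Set Ω} {τ σ : Ω → α} (he : IsClopen e)
    (h : IsLocallyConstant τ) (h' : IsLocallyConstant σ) : IsLocallyConstant (ow e τ σ) :=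
  (IsLocallyConstant.iff_eventually_eq _).2 fun ω => by
    filter_upwards [(lc_mem he).eventually_eq ω, h.eventually_eq ω, h'.eventually_eq ω]
      with _ e1 e2 e3
    simp only [ow, e1, e2, e3]

theorem ow_of {Ω α : Type*} (e : Set Ω) {τ σ : Ω → α} {P : Ω → α → Prop} (h : ∀ ω, P ω (τ ω))
    (h' : ∀ ω, P ω (σ ω)) (ω : Ω) : P ω (ow e τ σ ω) := by
  rw [ow]
  split_ifs
  exacts [h ω, h' ω]

theorem Prob.ow {Ω : Type*} {m : ℕ} {τ σ : Ω → Fin m → ℂ} (h : Prob τ) (h' : Prob σ) (e : Set Ω) :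
    Prob (ow e τ σ) :=
  ow_of e (P := fun _ (μ : Fin m → ℂ) => (∀ c, ∃ t : ℝ, 0 ≤ t ∧ μ c = t) ∧ ∑ c, μ c = 1) h h'

namespace Fib

variable {Ω Γ R : Type*} [TopologicalSpace Ω] [Group Γ] [MulAction Γ Ω] [Ring R]
  [StarRing R] [Algebra ℂ R] {F : Fib Ω Γ R} {ω : Ω} {g : Γ} {m : ℕ} {σ σ' τ : Ω → Fin m → ℂ}
  {sg : Fin m → ℝ}

variable (F) in
/-- The signed matrices. -/
noncomputable def Y (sg : Fin m → ℝ) (ω : Ω) (c : Fin m) (i j : Γ) : ℂ := sg c * F.X ω i j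

theorem Y_hc [StarModule ℂ R] (h : ∀ c, |sg c| ≤ 1) (ω : Ω) (c : Fin m) : HC (F.Y sg ω c) := by
  refine ⟨fun i j => by rw [Y, Y, (X_hc ω).herm, map_mul, Complex.conj_ofReal], fun S ξ => ?_⟩
  have : qf (F.Y sg ω c) S ξ = sg c * qf (F.X ω) S ξ := by
    simp only [qf, Y, mul_sum]
    exact sum_congr rfl fun i _ => sum_congr rfl fun j _ => by ring
  rw [this, Complex.re_ofReal_mul, abs_mul]
  exact (mul_le_of_le_one_left (abs_nonneg _) (h c)).trans ((X_hc ω).bd S ξ)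

theorem Y_diag (ω : Ω) (c : Fin m) (i : Γ) : F.Y sg ω c i i = 0 := by rw [Y, X_diag, mul_zero]

variable (F) in
/-- The signed local potential at the root. -/
noncomputable def b (sg : Fin m → ℝ) (Q : ℝ[X]) (σ : Ω → Fin m → ℂ) (ω : Ω) : ℝ :=
  S.aQ Q (F.Y sg ω) (fun g => σ (g • ω)) (F.V ω Q.natDegree) (F.r ω 1)

theorem bQ_loc (Q : ℝ[X]) {π π' : Γ → Fin m → ℂ} (h1 : ∀ v, ∑ c, π v c = 1)
    (h2 : ∀ v, ∑ c, π' v c = 1) {W W' : Finset Γ}
    (hW : ∀ b ∈ F.B ^ Q.natDegree, (F.r ω (b * g) ∈ W ↔ F.r ω (b * g) ∈ W') ∧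
      π (F.r ω (b * g)) = π' (F.r ω (b * g))) :
    S.aQ Q (F.Y sg ω) π W (F.r ω g) = S.aQ Q (F.Y sg ω) π' W' (F.r ω g) := by
  obtain ⟨l, l1, l2, l3⟩ := dist (F := F) ω g Q.natDegree
  refine sum_congr rfl fun k hk => ?_
  rw [S.loc (x := F.Y sg ω) h1 h2 l (fun c i j e => l1 i j (right_ne_zero_of_mul e)) l2
    (fun i hi => ?_) (fun i hi => ?_) (mem_range.1 hk)]
  all_goals obtain ⟨b, hb, rfl⟩ := l3 i hi
  exacts [(hW b hb).1, (hW b hb).2]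

theorem bQ_tr (Q : ℝ[X]) {π : Γ → Fin m → ℂ} (h1 : ∀ v, ∑ c, π v c = 1) {W : Finset Γ}
    (hW : ∀ b ∈ F.B ^ Q.natDegree, F.r ω (b * g) ∈ W ∧ π (F.r ω (b * g)) = σ ((b * g) • ω)) :
    S.aQ Q (F.Y sg ω) π W (F.r ω g) = F.b sg Q σ (g • ω) := by
  have k : ∀ b, F.r ω (F.r (g • ω) b * g) = F.r ω (b * g) := fun b =>
    (rel_act.1 (rel_r _ b)).r_eq.symm
  rw [bQ_loc (sg := sg) Q h1 h1 (W' := (F.V (g • ω) Q.natDegree).image fun h => F.r ω (h * g))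
    fun b hb => ⟨iff_of_true (hW b hb).1
      (mem_image.2 ⟨_, mem_image_of_mem _ hb, k b⟩), rfl⟩]
  refine sum_congr rfl fun n _ => ?_
  have := S.mom_emb (x := F.Y sg ω) (π := π) (x' := F.Y sg (g • ω))
    (π' := fun h => σ (h • g • ω))
    (fun h => F.r ω (h * g)) (F.V (g • ω) Q.natDegree) ?_ ?_
    (fun i => F.φ ω (F.ρ ((i * g)⁻¹ * F.r ω (i * g))))
    (fun i => conj (F.φ ω (F.ρ ((i * g)⁻¹ * F.r ω (i * g))))) (fun i _ => (rel_r ω _).norm) ?_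
    (mem_image_of_mem _ (one_mem Q.natDegree)) n
  · rw [k, one_mul] at this
    rw [this]
  · intro i hi j hj e
    obtain ⟨b, -, rfl⟩ := mem_image.1 hi
    obtain ⟨c, -, rfl⟩ := mem_image.1 hj
    rw [← r_r, (rel_act.2 (rel_of_r e)).r_eq, r_r]
  · intro i hi
    obtain ⟨b, hb, rfl⟩ := mem_image.1 hi
    rw [k, (hW b hb).2, r_smul, mul_smul]
  · intro s i hi j hj
    obtain ⟨b, -, rfl⟩ := mem_image.1 hi
    obtain ⟨c, -, rfl⟩ := mem_image.1 hj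
    rw [Y, Y, X_rr, X_rr, F.act, (rel_r ω _).mulr, mul_assoc (F.ρ _), mul_assoc (F.ρ _),
      (rel_r ω _).mull]
    simp only [mul_inv_rev, map_mul, mul_assoc, mul_left_comm (sg s : ℂ)]

theorem b_congr (Q : ℝ[X]) (h1 : ∀ ω, ∑ c, σ ω c = 1)
    (h : ∀ b ∈ F.B ^ Q.natDegree, σ (b • ω) = σ' (b • ω)) : F.b sg Q σ ω = F.b sg Q σ' ω := by
  rw [Fib.b, bQ_tr (σ := σ') Q (fun _ => h1 _) fun b hb => ?_, one_smul]
  rw [mul_one, r_smul]
  exact ⟨mem_image_of_mem _ hb, h b hb⟩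

theorem b_cont (Q : ℝ[X]) (h1 : ∀ ω, ∑ c, σ ω c = 1) (h : IsLocallyConstant σ) :
    Continuous (F.b sg Q σ) := by
  refine continuous_iff_continuousAt.2 fun ω => ?_
  set W := F.V ω Q.natDegree
  let y : Fin m → Γ → Γ → C(Ω, ℂ) := fun c i j =>
    ⟨_, (F.cont (F.ρ i⁻¹ * F.x * F.ρ j)).const_mul (sg c : ℂ)⟩
  let p : Γ → Fin m → C(Ω, ℂ) := fun i c => ContinuousMap.const _ (σ (i • ω) c)
  have hp : ∀ v, ∑ c, p v c = 1 := fun v => by
    ext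
    simp [p, h1]
  refine ContinuousAt.congr (f := fun ω' => ∑ k ∈ range (Q.natDegree + 1),
    Q.coeff k * (S.mom y p W (F.r ω 1) k ω').re) (by fun_prop) ?_
  filter_upwards [(V_lc (F := F) Q.natDegree).eventually_eq ω, r_ev (F := F) ω 1,
    (eventually_all_finset W).2 fun b _ => r_ev (F := F) ω b,
    (eventually_all_finset W).2 fun b _ => (h.comp_continuous (F.cact b)).eventually_eq ω]
    with ω' e1 e2 e3 e4
  rw [Fib.b, e1, e2]
  refine sum_congr rfl fun k _ => ?_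
  have := S.mom_map ((Pi.evalRingHom (fun _ => ℂ) ω').comp ContinuousMap.coeFnRingHom) (x := y)
    hp W (F.r ω 1) k
  have e5 : ∀ i ∈ W, F.r ω' i = i := fun i hi => by
    obtain ⟨b, -, e⟩ := mem_image.1 hi
    rw [e3 i hi, ← e, r_r]
  have e6 := S.mom_emb (x := F.Y sg ω') (π := fun g => σ (g • ω'))
    (x' := fun c i j => y c i j ω')
    (π' := fun i c => p i c ω') id W (Set.injOn_id _) e4 1 1 (by simp)
    (fun c i hi j hj => by simp [X, Y, e5 i hi, e5 j hj, y])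
    (mem_image_of_mem _ (one_mem Q.natDegree)) k
  rw [image_id] at e6
  exact congrArg (fun t : ℂ => Q.coeff k * t.re) (this.trans e6.symm)

variable {e : Set Ω} {Q : ℝ[X]} {θ : ℝ}

theorem cost_eq (hσ : Prob σ) (hs : F.Sep Q.natDegree e) (hω : ω ∈ e) : ∃ W, F.r ω 1 ∈ W ∧
    ∀ μ : Fin m → ℂ, (Prob fun _ : Unit => μ) → ∑ w ∈ F.V ω Q.natDegree,
      (F.b sg Q (ow e (fun _ => μ) σ) (w • ω) - F.b sg Q σ (w • ω)) =
      ∑ v ∈ W, S.aQ Q (F.Y sg ω) (Function.update (fun g => σ (g • ω)) (F.r ω 1) μ) W v -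
        ∑ v ∈ W, S.aQ Q (F.Y sg ω) (fun g => σ (g • ω)) W v := by
  set K := Q.natDegree
  have hπ : Prob fun g : Γ => σ (g • ω) := fun g => hσ _
  have hm : ∀ b ∈ F.B ^ K, ∀ b' ∈ F.B ^ K,
      F.r ω (b * b') ∈ (F.B ^ K * F.B ^ K).image (F.r ω) := fun b hb b' hb' =>
    mem_image_of_mem _ (Finset.mul_mem_mul hb hb')
  refine ⟨(F.B ^ K * F.B ^ K).image (F.r ω), by simpa using hm 1 (one_mem K) 1 (one_mem K),
    fun μ hμ => ?_⟩
  have h1 := fun v => (S.prob_upd hπ (F.r ω 1) hμ v).2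
  have h2 := fun v => (hπ v).2
  rw [← sum_sub_distrib, ← sum_subset (s₁ := F.V ω K) (image_subset_image fun b hb => by
    simpa using Finset.mul_mem_mul (one_mem K) hb) fun v hv hn => ?_]
  · refine sum_congr rfl fun v hv => ?_
    obtain ⟨b, hb, rfl⟩ := mem_image.1 hv
    rw [r_smul, bQ_tr (σ := ow e (fun _ => μ) σ) Q h1 fun b' hb' => ⟨hm b' hb' b hb, ?_⟩,
      bQ_tr (σ := σ) Q h2 fun b' hb' => ⟨hm b' hb' b hb, by rw [r_smul]⟩]
    by_cases a : F.r ω (b' * b) = F.r ω 1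
    · rw [a, Function.update_self, (rel_of_r a).smul, one_smul, ow, if_pos hω]
    · rw [Function.update_of_ne a, ow, if_neg fun a' => a (hs b' hb' b hb ω hω a').r_eq.symm,
        r_smul]
  · obtain ⟨g, -, rfl⟩ := mem_image.1 hv
    rw [sub_eq_zero]
    refine bQ_loc Q h1 h2 fun b hb => ⟨Iff.rfl, Function.update_of_ne (fun a => hn ?_) _ _⟩
    have := ((rel_of_r a).left b⁻¹).r_eq
    rw [inv_mul_cancel_left, mul_one] at this
    exact this ▸ mem_image_of_mem _ (inv_mem hb)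

theorem sum_cont (K : ℕ) {d : Ω → ℝ} (hd : Continuous d) :
    Continuous fun ω => ∑ w ∈ F.V ω K, d (w • ω) :=
  cont_lc (V_lc (F := F) _) (f := fun W ω => ∑ w ∈ W, d (w • ω)) fun _ =>
    continuous_finset_sum _ fun w _ => hd.comp (F.cact w)

theorem gen [CompactSpace Ω] (hσ : Prob σ) (hl : IsLocallyConstant σ) (hτ : Prob τ)
    (hl' : IsLocallyConstant τ) (he : IsClopen e) (hs : F.Sep Q.natDegree e)
    (h : ∀ ω ∈ e, ∑ w ∈ F.V ω Q.natDegree,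
      (F.b sg Q (ow e (fun _ => τ ω) σ) (w • ω) - F.b sg Q σ (w • ω)) ≤ θ) :
    F.I (F.b sg Q (ow e τ σ)) ≤ F.I (F.b sg Q σ) + θ * F.I (ind e) := by
  have c0 := b_cont (F := F) (sg := sg) Q (fun ω => (hσ ω).2) hl
  have hp := fun ω => (hτ.ow hσ e ω).2
  have c3 := (b_cont (F := F) (sg := sg) Q hp (ow_lc he hl' hl)).fun_sub c0
  rw [show F.b sg Q (ow e τ σ) =
      fun ω => F.b sg Q σ ω + (F.b sg Q (ow e τ σ) ω - F.b sg Q σ ω) by simp,
    F.I_add c0 c3, transport c3 he hs fun ω h => sub_eq_zero.2 (b_congr Q hp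
      fun b hb => if_neg (h b hb)), ← F.I_smul _ (ind_cont he)]
  refine add_le_add_right (F.I_mono ((ind_cont he).fun_mul (sum_cont _ c3))
    ((ind_cont he).const_mul _) fun ω => ?_) _
  by_cases a : ω ∈ e
  · rw [ind, if_pos a, one_mul, mul_one]
    refine le_of_eq_of_le (sum_congr rfl fun w hw => ?_) (h ω a)
    obtain ⟨b, hb, rfl⟩ := mem_image.1 hw
    rw [r_smul, b_congr (σ' := ow e (fun _ => τ ω) σ) Q hp fun b' hb' => ?_]
    rw [ow, ow, ← mul_smul]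
    split_ifs with a'
    · rw [← (hs b' hb' b hb ω a a').smul, one_smul]
    · rfl
  · simp [ind, a]

variable [StarModule ℂ R]

theorem b_bd (h1 : ∀ c, |sg c| ≤ 1) (hσ : Prob σ) {lo hi : ℝ}
    (h : ∀ t, |t| ≤ 1 → lo ≤ Q.eval t ∧ Q.eval t ≤ hi) (ω : Ω) :
    lo ≤ F.b sg Q σ ω ∧ F.b sg Q σ ω ≤ hi :=
  S.aQ_rep pf (Y_hc h1 ω) (fun _ => hσ _) Q (mem_image_of_mem _ (one_mem _)) fun l hl =>
    h l ((S.chi_RR (Y_hc h1 ω) (fun _ => hσ _) _ _ (by simp)).2 _ hl).2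

theorem left' (h1 : ∀ c, |sg c| ≤ 1) {lo hi : ℝ} (h : ∀ t, |t| ≤ 1 → lo ≤ Q.eval t ∧ Q.eval t ≤ hi)
    (hσ : Prob σ) (hl : IsLocallyConstant σ) (hτ : Prob τ) (hl' : IsLocallyConstant τ)
    (he : IsClopen e) : F.I (F.b sg Q (ow e τ σ)) ≤
      F.I (F.b sg Q σ) + (hi - lo) * #(F.B ^ Q.natDegree) * F.I (ind e) := by
  have c0 := b_cont (F := F) (sg := sg) Q (fun ω => (hσ ω).2) hl
  have c1 : ∀ b : Γ, Continuous fun ω => ind e (b • ω) := fun b => (ind_cont he).comp (F.cact b)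
  have c2 := continuous_finset_sum (F.B ^ Q.natDegree) fun b _ => c1 b
  have hp := hτ.ow hσ e
  have h0 : 0 ≤ hi - lo := sub_nonneg.2 ((h 0 (by simp)).1.trans (h 0 (by simp)).2)
  refine (F.I_mono (b_cont Q (fun ω => (hp ω).2) (ow_lc he hl' hl))
    (c0.fun_add (c2.const_mul (hi - lo))) fun ω => ?_).trans_eq ?_
  · by_cases a : ∃ b ∈ F.B ^ Q.natDegree, b • ω ∈ e
    · obtain ⟨b, hb, a⟩ := a
      have := single_le_sum (f := fun b => ind e (b • ω)) (fun _ _ => ind_nn _) hb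
      rw [ind, if_pos a] at this
      linarith [(b_bd (F := F) h1 hσ h ω).1, (b_bd (F := F) h1 hp h ω).2,
        le_mul_of_one_le_right h0 this]
    · rw [b_congr (σ' := σ) Q (fun ω => (hp ω).2) fun b hb => if_neg fun a' => a ⟨b, hb, a'⟩]
      exact le_add_of_nonneg_right (mul_nonneg h0 (sum_nonneg fun _ _ => ind_nn _))
  · rw [F.I_add c0 (c2.const_mul _), F.I_smul _ c2, I_sum _ c1]
    simp only [F.I_act _ (ind_cont he), sum_const, nsmul_eq_mul, mul_assoc]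

variable (F) in
/-- Almost everything is covered by separated sets. -/
def Cov : Prop := ∀ (K : ℕ) (η : ℝ), 0 < η → ∃ (n : ℕ) (e : Fin n → Set Ω),
  (∀ j, IsClopen (e j) ∧ F.Sep K (e j)) ∧ (∀ i j, i ≠ j → ∀ ω ∈ e i, ω ∉ e j) ∧
    1 - η ≤ ∑ j, F.I (ind (e j))

theorem stage (h1 : ∀ c, |sg c| ≤ 1) {lo hi : ℝ} (h : ∀ t, |t| ≤ 1 → lo ≤ Q.eval t ∧ Q.eval t ≤ hi)
    (hc : F.Cov) (P G : Ω → (Fin m → ℂ) → Prop) (hθ : 0 ≤ θ)
    (st : ∀ (σ : Ω → Fin m → ℂ) (e : Set Ω), Prob σ → IsLocallyConstant σ → (∀ ω, P ω (σ ω)) →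
      IsClopen e → F.Sep Q.natDegree e → ∃ τ, Prob τ ∧ IsLocallyConstant τ ∧
        (∀ ω, P ω (τ ω) ∧ G ω (τ ω)) ∧
        F.I (F.b sg Q (ow e τ σ)) ≤ F.I (F.b sg Q σ) + θ * F.I (ind e))
    (hσ : Prob σ) (hl : IsLocallyConstant σ) (hP : ∀ ω, P ω (σ ω)) (hτ : Prob τ)
    (hl' : IsLocallyConstant τ) (hG : ∀ ω, G ω (τ ω)) {η : ℝ} (hη : 0 < η) :
    ∃ σ', Prob σ' ∧ IsLocallyConstant σ' ∧ (∀ ω, G ω (σ' ω)) ∧
      F.I (F.b sg Q σ') ≤ F.I (F.b sg Q σ) + θ + η := by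
  obtain ⟨N, hN⟩ : ∃ N : ℝ, N = (hi - lo) * #(F.B ^ Q.natDegree) := ⟨_, rfl⟩
  have N0 : 0 ≤ N := hN ▸ mul_nonneg (sub_nonneg.2 ((h 0 (by simp)).1.trans (h 0 (by simp)).2))
    (Nat.cast_nonneg _)
  obtain ⟨n, e, e1, e2, e3⟩ := hc Q.natDegree (η / (N + 1)) (by positivity)
  have k : ∀ J : Finset (Fin n), ∃ σ' : Ω → Fin m → ℂ, Prob σ' ∧ IsLocallyConstant σ' ∧
      (∀ ω, P ω (σ' ω)) ∧ (∀ j ∈ J, ∀ ω ∈ e j, G ω (σ' ω)) ∧
      F.I (F.b sg Q σ') ≤ F.I (F.b sg Q σ) + θ * ∑ j ∈ J, F.I (ind (e j)) := fun J => by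
    induction J using Finset.induction_on with
    | empty => exact ⟨σ, hσ, hl, hP, by simp, by simp⟩
    | insert i J hi ih =>
      obtain ⟨σ', t1, t2, t3, t4, t5⟩ := ih
      obtain ⟨τ', u1, u2, u3, u4⟩ := st σ' _ t1 t2 t3 (e1 i).1 (e1 i).2
      refine ⟨_, u1.ow t1 (e i), ow_lc (e1 i).1 u2 t2, ow_of _ (fun ω => (u3 ω).1) t3,
        fun j hj ω hω => ?_, by rw [sum_insert hi]; linarith⟩
      rw [ow]
      split_ifs with a
      exacts [(u3 ω).2, t4 j ((mem_insert.1 hj).resolve_left fun a' => a (a' ▸ hω)) ω hω]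
  obtain ⟨σ', s1, s2, -, s3, s4⟩ := k univ
  have hL : IsClopen (⋃ j, e j)ᶜ := (isClopen_iUnion_of_finite fun j => (e1 j).1).compl
  have s6 := left' (F := F) h1 h s1 s2 hτ hl' hL
  have s7 : (fun _ => 1) = fun ω => ind (⋃ j, e j)ᶜ ω + ∑ j, ind (e j) ω := funext fun ω => by
    simp only [ind]
    by_cases a : ∃ j, ω ∈ e j
    · obtain ⟨j, a⟩ := a
      rw [sum_eq_single j (fun i _ h => if_neg (e2 _ _ h.symm ω a)) (by simp), if_pos a,
        if_neg fun h => h (Set.mem_iUnion.2 ⟨j, a⟩), zero_add]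
    · rw [if_pos (by simpa using a), sum_eq_zero fun j _ => if_neg fun h => a ⟨j, h⟩, add_zero]
  have s8 := F.I_one
  rw [s7, F.I_add (ind_cont hL) (continuous_finset_sum _ fun j _ => ind_cont (e1 j).1),
    I_sum _ fun j => ind_cont (e1 j).1] at s8
  have s9 := F.I_mono continuous_const (ind_cont hL) ind_nn
  rw [I_const] at s9
  refine ⟨_, hτ.ow s1 _, ow_lc hL hl' s2, fun ω => ?_, s6.trans ?_⟩
  · rw [ow]
    split_ifs with a
    · exact hG ω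
    · obtain ⟨j, a⟩ := Set.mem_iUnion.1 (not_not.1 a)
      exact s3 j (mem_univ _) ω a
  · have : F.I (ind (⋃ j, e j)ᶜ) * (N + 1) ≤ η := by
      rw [← le_div_iff₀ (by positivity)]
      linarith
    rw [← hN]
    nlinarith

end Fib

end Vale.Agent.P078
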