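import Vale.Agent.P078.B1

/-! The two stages. -/

namespace Vale.Agent.P078

open Finset Polynomial Filter Topology
open scoped ComplexConjugate Pointwise Classical ComplexOrder

theorem wk_smul {ι : Type*} [DecidableEq ι] (t : ℂ) (x : ι → ι → ℂ) (S : Finset ι) (v : ι) (k : ℕ) :
    ∀ i, wk (fun i j => t * x i j) S v k i = t ^ k * wk x S v k i := by
  induction k with
  | zero => simp [wk]
  | succ k ih =>
    intro i
    simp only [wk, ih, mul_sum]
    exact sum_congr rfl fun j _ => by ring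

/-- Powers of `1 + t`. -/
noncomputable def PN (N : ℕ) : ℝ[X] := (X + C 1) ^ N

namespace Fib

variable {Ω Γ R : Type*} [TopologicalSpace Ω] [Group Γ] [MulAction Γ Ω] [Ring R]
  [StarRing R] [Algebra ℂ R] {F : Fib Ω Γ R} {m n : ℕ} {σ τ : Ω → Fin m → ℂ} {sg : Fin m → ℝ}
  {Q : ℝ[X]} {θ : ℝ}

theorem b_det {col : Ω → Fin n} {p : Fin n → R}
    (hp : ∀ c ω w, F.φ ω (w * p c) = if col ω = c then F.φ ω w else 0) {pl : Fin n → Fin m}
    (h1 : Function.Injective pl) {s : ℝ} (h2 : ∀ c, sg (pl c) = s) (h3 : Prob τ)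
    (h4 : ∀ ω, τ ω (pl (col ω)) = 3⁻¹) (h5 : ∀ ω c, c ≠ pl (col ω) → τ ω c = 0 ∨ sg c = 0) (ω : Ω) :
    F.b sg Q τ ω = ∑ k ∈ range (Q.natDegree + 1),
      Q.coeff k * ((3⁻¹ * s : ℂ) ^ k * F.φ ω ((∑ c, p c * F.x * p c) ^ k)).re := by
  rw [Fib.b, S.aQ]
  refine sum_congr rfl fun k hk => ?_
  have o : F.r ω 1 ∈ F.V ω Q.natDegree := mem_image_of_mem _ (one_mem _)
  have := pw (ω := ω) hp (Nat.lt_succ_iff.1 (mem_range.1 hk)) (F.ρ (F.r ω 1)⁻¹)
  rw [← F.act, sum_eq_single_of_mem (F.r ω 1) (by exact mem_filter.2 ⟨o, rfl⟩) fun j hj e => ?_,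
    ← map_mul, inv_mul_cancel, map_one, F.one, one_mul] at this
  · rw [S.mom_scale (α := 3⁻¹) (β := 3) (by norm_num) (fun i => pl (col (i • ω)))
      (fun _ => (h3 _).2) (fun _ => h4 _) (fun v c hc => (h5 _ c hc).imp_right fun a => by
        ext
        simp [Y, a]), S.mom_det (fun i => pl (col (i • ω))) (fun _ _ => rfl) o]
    simp only [Y, h2, h1.eq_iff, ← mul_assoc]
    rw [wk_smul, ← this, r_smul, one_smul]
  · have : ¬F.rel ω (F.r ω 1) j := fun a => e (by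
      rw [← V_rep (mem_filter.1 hj).1, ← a.r_eq, r_r])
    rw [← map_mul, not_not.1 this, zero_mul]

variable [StarModule ℂ R]

theorem b_cmp (h1 : ∀ c, |sg c| ≤ 1) (hσ : Prob σ) {P : ℝ[X]} {D L : ℝ}
    (h : ∀ t, |t| ≤ 1 → P.eval t ≤ D + L * Q.eval t) (ω : Ω) :
    F.b sg P σ ω ≤ D + L * F.b sg Q σ ω := by
  have hπ : Prob fun g : Γ => σ (g • ω) := fun g => hσ _
  obtain ⟨Λ, ρ, r1, r2, r3⟩ := S.mom_rep pf (Y_hc (F := F) h1 ω) hπ
    (V := F.V ω (P.natDegree + Q.natDegree)) (mem_image_of_mem _ (one_mem _))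
  have e : ∀ T : ℝ[X], T.natDegree ≤ P.natDegree + Q.natDegree →
      F.b sg T σ ω = ∑ l ∈ Λ, ρ l * T.eval l := fun T hT => by
    rw [Fib.b, bQ_loc T (fun v => (hπ v).2) (fun v => (hπ v).2)
      (W' := F.V ω (P.natDegree + Q.natDegree)) fun b hb => ⟨by
        rw [mul_one]
        exact iff_of_true (mem_image_of_mem _ hb)
          (mem_image_of_mem _ (pow_subset_pow_right F.B_one hT hb)), rfl⟩]
    simp only [S.aQ, r3, Complex.ofReal_re, mul_sum, eval_eq_sum_range]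
    rw [sum_comm]
    exact sum_congr rfl fun l _ => sum_congr rfl fun k _ => by ring
  rw [e P (by omega), e Q (by omega), ← mul_one D, ← r2, mul_sum, mul_sum, ← sum_add_distrib]
  refine sum_le_sum fun l hl => ?_
  have := mul_le_mul_of_nonneg_left
    (h l ((S.chi_RR (Y_hc h1 ω) hπ _ _ (by simp)).2 _ (r1 l hl).2).2) (r1 l hl).1
  linarith

variable [CompactSpace Ω] [T2Space Ω] [TotallyDisconnectedSpace Ω]

theorem stage1 [NeZero n] (h1 : ∀ c, |sg c| ≤ 1) (hQ : QP Q θ) (hθ : 0 < θ)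
    (h : ∀ t, |t| ≤ 1 → -θ ≤ Q.eval t ∧ Q.eval t ≤ 4) (hc : F.Cov) {ν : Fin n → Fin m → ℂ}
    (hν : Prob ν) (hσ : Prob σ) (hl : IsLocallyConstant σ)
    (h0 : ∀ ω s, σ ω s = ∑ c, ((n : ℝ)⁻¹ : ℝ) * ν c s) : ∃ col : Ω → Fin n, IsLocallyConstant col ∧
      F.I (F.b sg Q fun ω => ν (col ω)) ≤ F.I (F.b sg Q σ) + 3 * θ := by
  have n0 : (n : ℝ) ≠ 0 := Nat.cast_ne_zero.2 (NeZero.ne n)
  obtain ⟨σ', s1, s2, s3, s4⟩ := stage (θ := 2 * θ) h1 h hc (fun _ μ => ∃ w : Fin n → ℝ,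
    (∀ c, 0 ≤ w c) ∧ ∑ c, w c = 1 ∧ ∀ s, μ s = ∑ c, w c * ν c s) (fun _ μ => ∃ c, μ = ν c)
    (by positivity) (fun σ e a1 a2 a3 a4 a5 => by
      have c0 := b_cont (F := F) (sg := sg) Q (fun ω => (a1 ω).2) a2
      obtain ⟨col, b1, b2⟩ := ex_col (fun c => sum_cont (F := F) Q.natDegree ((b_cont (F := F)
        (sg := sg) Q (fun ω => (Prob.ow (τ := fun _ => ν c) (fun _ => hν c) a1 e ω).2)
        (ow_lc a4 (IsLocallyConstant.const _) a2)).fun_sub c0)) hθ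
      refine ⟨fun ω => ν (col ω), fun _ => hν _, b1.comp ν, fun ω => ⟨⟨Pi.single (col ω) 1,
        fun c => by rw [Pi.single_apply]; positivity, by simp, fun s => by
          simp [Pi.single_apply, apply_ite]⟩, _, rfl⟩,
        gen a1 a2 (fun _ => hν _) (b1.comp ν) a4 a5 fun ω hω => ?_⟩
      obtain ⟨w, w0, w1, w2⟩ := a3 (F.r ω 1 • ω)
      obtain ⟨W, W1, W2⟩ := cost_eq (F := F) (sg := sg) a1 a5 hω
      obtain ⟨c, hc⟩ := S.upd (Y_hc (F := F) h1 ω) (π := fun g => σ (g • ω)) (fun _ => a1 _) hQ W1 w0 w1 hν w2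
      have := W2 _ fun _ => hν c
      linarith [b2 ω c]) hσ hl (fun ω => ⟨fun _ => (n : ℝ)⁻¹, fun _ => by positivity, by simp [n0], h0 ω⟩)
    (τ := fun _ => ν 0) (fun _ => hν 0) (IsLocallyConstant.const _) (fun _ => ⟨0, rfl⟩) hθ
  let k : (Fin m → ℂ) → Fin n := fun μ => if h : ∃ c, μ = ν c then h.choose else 0
  refine ⟨k ∘ σ', s2.comp k, ?_⟩
  rw [show (fun ω => ν ((k ∘ σ') ω)) = σ' from funext fun ω =>
    ((s3 ω).choose_spec.trans (congrArg ν (dif_pos (s3 ω)).symm)).symm]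
  linarith

omit [T2Space Ω] [TotallyDisconnectedSpace Ω] in
theorem stage2 (h1 : ∀ c, |sg c| ≤ 1) (hθ : 0 < θ) (hc : F.Cov) (N : ℕ) (hσ : Prob σ)
    (hl : IsLocallyConstant σ) (hτ : Prob τ) (hl' : IsLocallyConstant τ)
    (h0 : ∀ ω s, sg s = 0 ∨ τ ω s ≤ σ ω s) :
    F.I (F.b sg (PN N) τ) ≤ F.I (F.b sg (PN N) σ) + θ := by
  obtain ⟨σ', -, -, s3, s4⟩ := stage (θ := 0) (Q := PN N) (lo := 0) (hi := 2 ^ N) h1
    (fun t ht => by
      obtain ⟨a, b⟩ := abs_le.1 ht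
      rw [PN, eval_pow, eval_add, eval_X, eval_C]
      exact ⟨pow_nonneg (by linarith) _, pow_le_pow_left₀ (by linarith) (by linarith) _⟩)
    hc (fun ω μ => ∀ s, sg s = 0 ∨ τ ω s ≤ μ s) (fun ω μ => μ = τ ω) le_rfl
    (fun σ e a1 a2 a3 a4 a5 => ⟨τ, hτ, hl', fun ω => ⟨fun _ => .inr le_rfl, rfl⟩,
      gen a1 a2 hτ hl' a4 a5 fun ω hω => by
        obtain ⟨W, W1, W2⟩ := cost_eq (F := F) (sg := sg) a1 a5 hω
        rw [W2 _ fun _ => hτ ω, sub_nonpos]
        refine S.upd2 (Y_hc h1 ω) (Y_diag ω) (fun _ => a1 _) W1 (fun _ => hτ ω) (fun s => ?_) N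
        rw [r_smul, one_smul]
        exact (a3 ω s).imp_left fun a => by
          ext
          simp [Y, a]⟩) hσ hl h0 hτ hl' (fun _ => rfl) hθ
  rwa [add_zero, funext s3] at s4

theorem main2 {k : ℕ} (hk : 1 ≤ k) (hc : F.Cov) (N : ℕ) (h0 : 0 < θ) (h1 : θ ≤ 1 / 2)
    (hq : QStmt) : ∃ col : Ω → Fin (3 * k ^ 2), IsLocallyConstant col ∧ ∀ p : Fin (3 * k ^ 2) → R,
      (∀ c ω w, F.φ ω (w * p c) = if col ω = c then F.φ ω w else 0) → ∀ s : ℝ, s = 1 ∨ s = -1 →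
      F.I (fun ω => ∑ i ∈ range ((PN N).natDegree + 1), (PN N).coeff i *
        ((3⁻¹ * s : ℂ) ^ i * F.φ ω ((∑ c, p c * F.x * p c) ^ i)).re) ≤
        (1 + 5 / (3 * k)) ^ N + (2 ^ N * 5 + 1) * θ := by
  have : NeZero (3 * k ^ 2) := ⟨by positivity⟩
  have k0 : (0 : ℝ) < k := by exact_mod_cast hk
  have k1 : (k : ℂ) ≠ 0 := by exact_mod_cast k0.ne'
  obtain ⟨Q, q1, q2⟩ := hq (4 / (3 * k : ℕ)) (5 / (3 * k)) θ (by push_cast; gcongr; norm_num) h0 h1
  let e : Fin (3 * k ^ 2) × Fin 3 ≃ Fin ((3 * k) ^ 2) := Fintype.equivFinOfCardEq (by simp; ring)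
  let sg : Fin ((3 * k) ^ 2) → ℝ := fun s => ![1, -1, 0] (e.symm s).2
  have g1 : ∀ s, |sg s| ≤ 1 := fun s => by
    simp only [sg]
    generalize (e.symm s).2 = a
    fin_cases a <;> simp
  let ν : Fin (3 * k ^ 2) → Fin ((3 * k) ^ 2) → ℂ := fun c s => if (e.symm s).1 = c then 3⁻¹ else 0
  have hν : Prob ν := fun c => ⟨fun s => ⟨if (e.symm s).1 = c then 3⁻¹ else 0, by positivity, by
    simp only [ν]
    split_ifs <;> simp⟩, by
      rw [← e.sum_comp, Fintype.sum_prod_type]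
      simp [ν]⟩
  have hu : Prob fun (_ : Ω) (_ : Fin ((3 * k) ^ 2)) => (((3 * k) ^ 2 : ℕ) : ℂ)⁻¹ := fun _ =>
    ⟨fun _ => ⟨(((3 * k) ^ 2 : ℕ) : ℝ)⁻¹, by positivity, by simp⟩, by
      rw [sum_const, card_univ, Fintype.card_fin, nsmul_eq_mul,
        mul_inv_cancel₀ (Nat.cast_ne_zero.2 (by positivity))]⟩
  obtain ⟨col, c1, c2⟩ := stage1 g1 q2 h0 (fun t ht => ⟨(q1 t ht).1, (q1 t ht).2.1⟩) hc hν hu
    (IsLocallyConstant.const _) fun _ s => by
      simp only [ν, mul_ite, mul_zero, sum_ite_eq, mem_univ, if_true]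
      push_cast
      field_simp
  have c3 := F.I_mono (b_cont (F := F) (sg := sg) Q (fun ω => (hu ω).2) (IsLocallyConstant.const _))
    (continuous_const (y := θ)) fun ω => (S.aQ_rep (a := -θ) pf (Y_hc g1 ω) (fun _ => hu ω) Q
      (mem_image_of_mem _ (one_mem _)) fun l hl => by
        have := q1 l ((S.chi_RR (Y_hc g1 ω) (fun _ => hu ω) _ _ (by simp)).2 _ hl).2
        exact ⟨this.1, this.2.2.1 (S.root_lt har bar (Y_hc g1 ω) (Y_diag ω) (by omega) _ hl)⟩).2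
  have hσ : Prob fun ω => ν (col ω) := fun _ => hν _
  have c4 := b_cont (F := F) (sg := sg) Q (fun ω => (hσ ω).2) (c1.comp ν)
  have c5 := F.I_mono (b_cont (F := F) (sg := sg) _ (fun ω => (hσ ω).2) (c1.comp ν))
    (continuous_const.fun_add (c4.const_mul _)) (b_cmp (P := PN N)
      (D := (1 + 5 / (3 * k)) ^ N + 2 ^ N * θ) (L := 2 ^ N) g1 hσ fun t ht => by
      obtain ⟨a, b⟩ := abs_le.1 ht
      rw [PN, eval_pow, eval_add, eval_X, eval_C, add_assoc, ← mul_add]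
      rcases le_total t (5 / (3 * k)) with c | c
      · exact (pow_le_pow_left₀ (by linarith) (by linarith) _).trans (le_add_of_nonneg_right
          (mul_nonneg (by positivity) (by linarith [(q1 t ht).1])))
      · exact ((pow_le_pow_left₀ (by linarith) (by linarith) _).trans (le_mul_of_one_le_right
          (by positivity) (by linarith [(q1 t ht).2.2.2 c]))).trans (le_add_of_nonneg_left
            (by positivity)))
  rw [F.I_add continuous_const (c4.const_mul _), I_const, F.I_smul _ c4] at c5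
  rw [I_const] at c3
  refine ⟨col, c1, fun p hp s hs => ?_⟩
  obtain ⟨a, a1, a2⟩ : ∃ a : Fin 3, a ≠ 2 ∧ ![1, -1, 0] a = s := by
    rcases hs with rfl | rfl
    exacts [⟨0, by simp, rfl⟩, ⟨1, by simp, rfl⟩]
  let T : Fin (3 * k ^ 2) → Fin ((3 * k) ^ 2) → ℝ := fun c s =>
    (if s = e (c, a) then 3⁻¹ else 0) + if s = e (c, 2) then 2 / 3 else 0
  have hτ : Prob fun ω s => (T (col ω) s : ℂ) := fun ω => ⟨fun s => ⟨_, by
    simp only [T]
    positivity, rfl⟩, by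
      simp only [T, ← Complex.ofReal_sum, sum_add_distrib, sum_ite_eq', mem_univ, if_true]
      norm_num⟩
  have c6 := stage2 g1 h0 hc N hσ (c1.comp ν) hτ (c1.comp fun c s => (T c s : ℂ)) fun ω s => by
    by_cases b : s = e (col ω, 2)
    · exact .inl (by simp [sg, b])
    · refine .inr ?_
      simp only [T, ν, if_neg b, add_zero]
      split_ifs with b1 b2
      · simp
      · simp [b1] at b2
      · simp
      · simp
  rw [← funext (b_det hp (pl := fun c => e (c, a)) (sg := sg) (fun _ _ h => by simpa using h)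
    (fun c => by simp [sg, a2]) hτ (fun ω => by simp [T, a1]) fun ω c h => ?_)]
  · nlinarith [mul_le_mul_of_nonneg_left (c2.trans (add_le_add_left c3 _))
      (show (0 : ℝ) ≤ 2 ^ N by positivity)]
  · by_cases b : c = e (col ω, 2)
    · exact .inr (by simp [sg, b])
    · exact .inl (by simp [T, b, h])

end Fib

end Vale.Agent.P078
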