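import Mathlib

/-! Resampling operators on the space of square summable families indexed by colourings. -/

namespace Vale.Agent.P078.BB

open scoped InnerProductSpace
open Finset

variable {H : Type*} [NormedAddCommGroup H] [InnerProductSpace ℂ H] [CompleteSpace H]
variable {ι : Type} [Fintype ι] [DecidableEq ι] {r : ℕ}

/-- Families of vectors indexed by colourings. -/
abbrev K (ι : Type) (r : ℕ) (H : Type*) := PiLp 2 (fun _ : (ι → Fin r) => H)

noncomputable def mk {β : Type} [Fintype β] {X Y : Type*} [NormedAddCommGroup X]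
    [NormedSpace ℂ X] [NormedAddCommGroup Y] [NormedSpace ℂ Y] (g : β → X →L[ℂ] Y) :
    X →L[ℂ] PiLp 2 (fun _ : β => Y) :=
  ((PiLp.continuousLinearEquiv 2 ℂ (fun _ : β => Y)).symm : (β → Y) →L[ℂ] _) ∘L
    ContinuousLinearMap.pi g

theorem mk_apply {β : Type} [Fintype β] {X Y : Type*} [NormedAddCommGroup X]
    [NormedSpace ℂ X] [NormedAddCommGroup Y] [NormedSpace ℂ Y] (g : β → X →L[ℂ] Y) (x : X)
    (b : β) : mk g x b = g b x := rfl

noncomputable def ml (t : (ι → Fin r) → H →L[ℂ] H) : K ι r H →L[ℂ] K ι r H :=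
  mk fun w => t w ∘L PiLp.proj 2 (fun _ : (ι → Fin r) => H) w

noncomputable def E (V : Finset ι) : K ι r H →L[ℂ] K ι r H :=
  mk fun w => ((Fintype.card (ι → Fin r) : ℂ)⁻¹) •
    ∑ u, PiLp.proj 2 (fun _ : (ι → Fin r) => H) (V.piecewise u w)

theorem ml_apply (t : (ι → Fin r) → H →L[ℂ] H) (F : K ι r H) (w : ι → Fin r) :
    ml t F w = t w (F w) := rfl

theorem E_apply (V : Finset ι) (F : K ι r H) (w : ι → Fin r) :
    E V F w = ((Fintype.card (ι → Fin r) : ℂ)⁻¹) • ∑ u, F (V.piecewise u w) := by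
  simp [E, mk_apply, ContinuousLinearMap.sum_apply]

theorem ml_mul (s t : (ι → Fin r) → H →L[ℂ] H) : ml (fun w => s w * t w) = ml s * ml t := by
  ext F w; rfl

theorem ml_one : ml (fun _ : ι → Fin r => (1 : H →L[ℂ] H)) = 1 := by
  ext F w; rfl

theorem ml_zero : ml (fun _ : ι → Fin r => (0 : H →L[ℂ] H)) = 0 := by
  ext F w; rfl

theorem ml_sum {β : Type*} (s : Finset β) (t : β → (ι → Fin r) → H →L[ℂ] H) :
    ml (fun w => ∑ b ∈ s, t b w) = ∑ b ∈ s, ml (t b) := by
  ext F w
  simp [ml_apply, ContinuousLinearMap.sum_apply]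

theorem ml_pow (t : (ι → Fin r) → H →L[ℂ] H) : ∀ n : ℕ, ml (fun w => t w ^ n) = ml t ^ n
  | 0 => by simp only [pow_zero, ml_one]
  | n + 1 => by simp only [pow_succ, ml_mul, ml_pow t n]

theorem ml_sa {t : (ι → Fin r) → H →L[ℂ] H} (h : ∀ w, IsSelfAdjoint (t w)) :
    IsSelfAdjoint (ml t) := by
  rw [ContinuousLinearMap.isSelfAdjoint_iff_isSymmetric]
  intro F G
  simp only [PiLp.inner_apply, ContinuousLinearMap.coe_coe, ml_apply]
  exact sum_congr rfl fun w _ => (h w).isSymmetric _ _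

theorem ml_pr {t : (ι → Fin r) → H →L[ℂ] H} (h : ∀ w, IsStarProjection (t w)) :
    IsStarProjection (ml t) :=
  ⟨by
    show _ * _ = _
    rw [← ml_mul]; congr 1; funext w; exact (h w).isIdempotentElem.eq,
   ml_sa fun w => (h w).isSelfAdjoint⟩

theorem ml_le {t : (ι → Fin r) → H →L[ℂ] H} (h : ∀ w, ‖t w‖ ≤ 1) : ‖ml t‖ ≤ 1 := by
  refine ContinuousLinearMap.opNorm_le_bound _ zero_le_one fun F => ?_
  rw [one_mul]
  refine le_of_sq_le_sq ?_ (norm_nonneg _)
  rw [PiLp.norm_sq_eq_of_L2, PiLp.norm_sq_eq_of_L2]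
  refine sum_le_sum fun w _ => pow_le_pow_left₀ (norm_nonneg _) ?_ 2
  exact ((t w).le_opNorm _).trans (mul_le_of_le_one_left (norm_nonneg _) (h w))

theorem swap {X : Type*} [AddCommMonoid X] (V : Finset ι) (g : (ι → Fin r) → (ι → Fin r) → X) :
    ∑ u, ∑ v, g (V.piecewise v u) (V.piecewise u v) = ∑ u, ∑ v, g u v := by
  rw [← Fintype.sum_prod_type', ← Fintype.sum_prod_type']
  have hi : Function.Involutive fun x : (ι → Fin r) × (ι → Fin r) =>
      (V.piecewise x.2 x.1, V.piecewise x.1 x.2) := fun x => by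
    ext i <;> by_cases h : i ∈ V <;> simp [piecewise, h]
  exact Equiv.sum_comp hi.toPerm fun x => g x.1 x.2

variable [NeZero r]

theorem cne : (Fintype.card (ι → Fin r) : ℂ) ≠ 0 := Nat.cast_ne_zero.2 Fintype.card_ne_zero

theorem E_mul (U V : Finset ι) : (E U * E V : K ι r H →L[ℂ] _) = E (U ∪ V) := by
  ext F w
  have k : ∀ u v : ι → Fin r, V.piecewise v (U.piecewise u w) =
      (U ∪ V).piecewise (V.piecewise v u) w := fun u v => by
    funext i
    by_cases h : i ∈ V <;> by_cases h' : i ∈ U <;> simp [piecewise, h, h']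
  rw [ContinuousLinearMap.mul_apply, E_apply, E_apply]
  simp only [E_apply, k, ← smul_sum]
  rw [swap V fun u _ => F ((U ∪ V).piecewise u w)]
  simp only [sum_const, card_univ, ← smul_sum]
  rw [← Nat.cast_smul_eq_nsmul ℂ, smul_smul, smul_smul, mul_assoc, inv_mul_cancel₀ cne, mul_one]

theorem E_empty : (E ∅ : K ι r H →L[ℂ] _) = 1 := by
  ext F w
  simp only [E_apply, piecewise_empty, sum_const, card_univ, ContinuousLinearMap.one_apply]
  rw [← Nat.cast_smul_eq_nsmul ℂ, smul_smul, inv_mul_cancel₀ cne, one_smul]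

theorem E_pr (U : Finset ι) : IsStarProjection (E U : K ι r H →L[ℂ] _) := by
  refine ⟨by show _ * _ = _; rw [E_mul, union_self], ?_⟩
  rw [ContinuousLinearMap.isSelfAdjoint_iff_isSymmetric]
  intro F G
  simp only [PiLp.inner_apply, ContinuousLinearMap.coe_coe, E_apply, inner_smul_left,
    inner_smul_right, sum_inner, inner_sum, ← mul_sum, map_inv₀, Complex.conj_natCast]
  congr 1
  rw [← swap U fun w u => ⟪F w, G (U.piecewise u w)⟫_ℂ]
  refine sum_congr rfl fun w _ => sum_congr rfl fun u _ => ?_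
  have : U.piecewise (U.piecewise w u) (U.piecewise u w) = w := by
    funext i
    by_cases h : i ∈ U <;> simp [piecewise, h]
  simp only [this]

theorem E_comm (U V : Finset ι) : Commute (E U : K ι r H →L[ℂ] _) (E V) := by
  rw [Commute, SemiconjBy, E_mul, E_mul, union_comm]

theorem ml_E {t : (ι → Fin r) → H →L[ℂ] H} {V : Finset ι}
    (h : ∀ u w, t (V.piecewise u w) = t w) : Commute (ml t) (E V) := by
  ext F w
  simp only [ContinuousLinearMap.mul_apply, E_apply, ml_apply, h, map_smul, map_sum]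

theorem E_ml_E {t : (ι → Fin r) → H →L[ℂ] H} {V : Finset ι}
    (h : ∀ u w, t (V.piecewise u w) = t u) :
    E V * ml t * E V = ml (fun _ => ((Fintype.card (ι → Fin r) : ℂ)⁻¹) • ∑ u, t u) * E V := by
  ext F w
  have k : ∀ u, E V F (V.piecewise u w) = E V F w := fun u => by
    have : ∀ v : ι → Fin r, V.piecewise v (V.piecewise u w) = V.piecewise v w := fun v => by
      funext i
      by_cases h : i ∈ V <;> simp [piecewise, h]
    simp only [E_apply, this]
  simp only [ContinuousLinearMap.mul_apply, ml_apply]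
  rw [E_apply]
  simp only [ml_apply, h, k, ContinuousLinearMap.smul_apply, ContinuousLinearMap.sum_apply]

noncomputable def D (U : Finset ι) : K ι r H →L[ℂ] K ι r H :=
  U.noncommProd (fun i => 1 - E {i}) fun _ _ _ _ _ =>
    (Commute.one_left _).sub_left ((Commute.one_right _).sub_right (E_comm _ _))

theorem D_empty : (D ∅ : K ι r H →L[ℂ] _) = 1 := noncommProd_empty _ _

theorem D_insert {U : Finset ι} {i : ι} (h : i ∉ U) :
    (D (insert i U) : K ι r H →L[ℂ] _) = (1 - E {i}) * D U :=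
  noncommProd_insert_of_notMem _ _ _ _ h

theorem comm_D {T : K ι r H →L[ℂ] K ι r H} {U : Finset ι} (h : ∀ i ∈ U, Commute T (E {i})) :
    Commute T (D U) :=
  noncommProd_commute _ _ _ _ fun i hi => (Commute.one_right _).sub_right (h i hi)

theorem E_D (V U : Finset ι) : Commute (E V : K ι r H →L[ℂ] _) (D U) :=
  comm_D fun _ _ => E_comm _ _

theorem D_pr (U : Finset ι) : IsStarProjection (D U : K ι r H →L[ℂ] _) := by
  induction U using Finset.induction_on with
  | empty => rw [D_empty]; exact .one _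
  | insert i U hi ih =>
    rw [D_insert hi]
    exact (E_pr _).one_sub.mul ih ((Commute.one_left _).sub_left (E_D _ _))

theorem D_ins (i : ι) (U : Finset ι) :
    (D (insert i U) : K ι r H →L[ℂ] _) = (1 - E {i}) * D U := by
  by_cases h : i ∈ U
  · rw [insert_eq_of_mem h, ← insert_erase h, D_insert (notMem_erase _ _), ← mul_assoc,
      (E_pr _).one_sub.isIdempotentElem.eq]
  · exact D_insert h

theorem D_mul (S T : Finset ι) : (D S * D T : K ι r H →L[ℂ] _) = D (S ∪ T) := by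
  induction S using Finset.induction_on with
  | empty => rw [D_empty, one_mul, empty_union]
  | insert i U hi ih => rw [insert_union, D_ins, D_ins, mul_assoc, ih]

theorem E_eq (V : Finset ι) :
    (E V : K ι r H →L[ℂ] _) = ∑ S ∈ V.powerset, ((-1 : ℂ) ^ S.card) • D S := by
  induction V using Finset.induction_on with
  | empty => simp [E_empty, D_empty]
  | insert i U hi ih =>
    rw [sum_powerset_insert hi, insert_eq, ← E_mul, ih, mul_sum, ← sum_add_distrib]
    refine sum_congr rfl fun S hS => ?_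
    rw [card_insert_of_notMem fun h => hi (mem_powerset.1 hS h), D_ins, pow_succ, sub_mul,
      one_mul, mul_smul_comm]
    module

theorem fib {A B : Type*} [Fintype B] [DecidableEq B] (s : Finset A) (f : A → B) (g : B → ℝ)
    (hg : ∀ b, 0 ≤ g b) (c : ℕ) (hc : ∀ b, (s.filter fun a => f a = b).card ≤ c) :
    ∑ a ∈ s, g (f a) ≤ c * ∑ b, g b := by
  rw [← sum_fiberwise_of_maps_to (t := univ) (g := f) (fun _ _ => mem_univ _), mul_sum]
  refine sum_le_sum fun b _ => ?_
  rw [sum_congr rfl (g := fun _ => g b) fun a ha => by rw [(mem_filter.1 ha).2], sum_const,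
    nsmul_eq_mul]
  exact mul_le_mul_of_nonneg_right (by exact_mod_cast hc b) (hg b)

/-- The graded norm. -/
noncomputable def Nn (F : K ι r H) : ℝ := ‖mk (fun U : Finset ι => D U) F‖

theorem Nn_sq (F : K ι r H) : Nn F ^ 2 = ∑ U : Finset ι, ‖D U F‖ ^ 2 := by
  rw [Nn, PiLp.norm_sq_eq_of_L2]; rfl

theorem Nn_nn (F : K ι r H) : 0 ≤ Nn F := norm_nonneg _

/-- Boundedness for the graded norm. -/
def Bd (T : K ι r H →L[ℂ] K ι r H) (c : ℝ) : Prop := 0 ≤ c ∧ ∀ F, Nn (T F) ≤ c * Nn F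

theorem Bd.mul {S T : K ι r H →L[ℂ] K ι r H} {a b : ℝ} (h : Bd S a) (k : Bd T b) :
    Bd (S * T) (a * b) :=
  ⟨mul_nonneg h.1 k.1, fun F => (h.2 _).trans (by
    rw [mul_assoc]; exact mul_le_mul_of_nonneg_left (k.2 F) h.1)⟩

theorem Bd.add {S T : K ι r H →L[ℂ] K ι r H} {a b : ℝ} (h : Bd S a) (k : Bd T b) :
    Bd (S + T) (a + b) :=
  ⟨add_nonneg h.1 k.1, fun F => by
    have := h.2 F
    have := k.2 F
    have e : Nn ((S + T) F) ≤ Nn (S F) + Nn (T F) := by
      rw [Nn, ContinuousLinearMap.add_apply, map_add]; exact norm_add_le _ _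
    linarith⟩

theorem Bd.mono {S : K ι r H →L[ℂ] K ι r H} {a b : ℝ} (h : Bd S a) (k : a ≤ b) : Bd S b :=
  ⟨h.1.trans k, fun F => (h.2 F).trans (mul_le_mul_of_nonneg_right k (Nn_nn F))⟩

theorem Bd.sum {β : Type} [Fintype β] {S : β → K ι r H →L[ℂ] K ι r H} {a : ℝ} (ha : 0 ≤ a)
    (h : ∀ b, Bd (S b) a) : Bd (∑ b, S b) (Fintype.card β * a) :=
  ⟨by positivity, fun F => by
    rw [Nn, ContinuousLinearMap.sum_apply, map_sum]
    refine (norm_sum_le _ _).trans ((sum_le_sum fun b _ => (h b).2 F).trans ?_)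
    rw [sum_const, card_univ, nsmul_eq_mul, mul_assoc]⟩

theorem Bd.of {T : K ι r H →L[ℂ] K ι r H} (h : ∀ i, Commute T (E {i})) (k : ‖T‖ ≤ 1) :
    Bd T 1 := by
  refine ⟨zero_le_one, fun F => ?_⟩
  rw [one_mul]
  refine le_of_sq_le_sq ?_ (Nn_nn _)
  rw [Nn_sq, Nn_sq]
  refine sum_le_sum fun U _ => pow_le_pow_left₀ (norm_nonneg _) ?_ 2
  rw [← ContinuousLinearMap.mul_apply, ← (comm_D fun i _ => h i).eq, ContinuousLinearMap.mul_apply]
  exact (T.le_opNorm _).trans (mul_le_of_le_one_left (norm_nonneg _) k)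

theorem Bd.pow {S : K ι r H →L[ℂ] K ι r H} {a : ℝ} (h : Bd S a) : ∀ n : ℕ, Bd (S ^ n) (a ^ n)
  | 0 => by
    rw [pow_zero, pow_zero]
    exact ⟨zero_le_one, fun F => by simp⟩
  | n + 1 => by rw [pow_succ, pow_succ]; exact (h.pow n).mul h

/-- The constant family. -/
noncomputable def f0 (ξ : H) : K ι r H := WithLp.toLp 2 fun _ => ξ

theorem f0_sq (ξ : H) (h : ‖ξ‖ = 1) : ‖(f0 ξ : K ι r H)‖ ^ 2 = Fintype.card (ι → Fin r) := by
  rw [PiLp.norm_sq_eq_of_L2]
  simp [f0, h]

theorem Nn_f0 (ξ : H) (h : ‖ξ‖ = 1) : Nn (f0 ξ : K ι r H) ^ 2 = Fintype.card (ι → Fin r) := by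
  rw [Nn_sq, sum_eq_single ∅, D_empty, ContinuousLinearMap.one_apply, f0_sq ξ h]
  · intro U _ hU
    obtain ⟨i, hi⟩ := nonempty_iff_ne_empty.2 hU
    have k : E {i} (f0 ξ : K ι r H) = f0 ξ := by
      ext w
      simp only [E_apply, f0, sum_const, card_univ]
      rw [← Nat.cast_smul_eq_nsmul ℂ, smul_smul, inv_mul_cancel₀ cne, one_smul]
    have c : Commute (1 - E {i} : K ι r H →L[ℂ] _) (D U) :=
      (Commute.one_left _).sub_left (E_D _ _)
    have c2 : (D U : K ι r H →L[ℂ] _) = D U * (1 - E {i}) := by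
      rw [← c.eq, ← D_ins, insert_eq_of_mem hi]
    rw [c2, ContinuousLinearMap.mul_apply, ContinuousLinearMap.sub_apply, k]
    simp
  · simp

end Vale.Agent.P078.BB
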