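import Vale.Agent.P078.B2a

/-! The local averaging projection. -/

namespace Vale.Agent.P078.BB

open scoped InnerProductSpace
open Finset

theorem pyth {X : Type*} [NormedAddCommGroup X] [InnerProductSpace ℂ X] [CompleteSpace X]
    {β : Type} [Fintype β] {q : β → X →L[ℂ] X} (h : ∀ b, IsStarProjection (q b))
    (hs : ∑ b, q b = 1) (u : X) : ‖u‖ ^ 2 = ∑ b, ‖q b u‖ ^ 2 := by
  have k : ⟪u, u⟫_ℂ = ∑ b, ⟪q b u, q b u⟫_ℂ := by
    have k0 : ∑ b, q b u = u := by rw [← ContinuousLinearMap.sum_apply, hs]; rfl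
    conv_lhs => enter [3]; rw [← k0]
    rw [inner_sum]
    refine sum_congr rfl fun b _ => ?_
    have := (h b).isSelfAdjoint.isSymmetric u (q b u)
    simp only [ContinuousLinearMap.coe_coe] at this
    rw [this, ← ContinuousLinearMap.mul_apply, (h b).isIdempotentElem.eq]
  simp only [inner_self_eq_norm_sq_to_K] at k
  exact_mod_cast k

theorem ctr {X : Type*} [NormedAddCommGroup X] [NormedSpace ℂ X] {T : X →L[ℂ] X} (h : ‖T‖ ≤ 1)
    (u : X) : ‖T u‖ ≤ ‖u‖ :=
  (T.le_opNorm u).trans (mul_le_of_le_one_left (norm_nonneg _) h)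

theorem pin_le {X : Type*} [NormedAddCommGroup X] [InnerProductSpace ℂ X] [CompleteSpace X]
    {β : Type} [Fintype β] {q : β → X →L[ℂ] X} (h : ∀ b, IsStarProjection (q b))
    (ho : ∀ a b, a ≠ b → q a * q b = 0) (hs : ∑ b, q b = 1) (T : X →L[ℂ] X) {c : ℝ} (hc : 0 ≤ c)
    (hT : ∀ b, ‖q b * T * q b‖ ≤ c) : ‖∑ b, q b * T * q b‖ ≤ c := by
  refine ContinuousLinearMap.opNorm_le_bound _ hc fun u => ?_
  refine le_of_sq_le_sq ?_ (by positivity)
  rw [mul_pow, pyth h hs, pyth h hs u, mul_sum]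
  refine sum_le_sum fun b _ => ?_
  have k : q b * ∑ a, q a * T * q a = q b * T * q b * q b := by
    rw [mul_sum, sum_eq_single b]
    · rw [← mul_assoc, ← mul_assoc, (h b).isIdempotentElem.eq, mul_assoc _ (q b),
        (h b).isIdempotentElem.eq]
    · intro a _ ha
      rw [← mul_assoc, ← mul_assoc, ho _ _ ha.symm, zero_mul, zero_mul]
    · simp
  rw [← ContinuousLinearMap.mul_apply, k, ContinuousLinearMap.mul_apply, ← mul_pow]
  exact pow_le_pow_left₀ (norm_nonneg _) (((q b * T * q b).le_opNorm _).trans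
    (mul_le_mul_of_nonneg_right (hT b) (norm_nonneg _))) 2

variable {H : Type*} [NormedAddCommGroup H] [InnerProductSpace ℂ H] [CompleteSpace H]
variable {ι : Type} [Fintype ι] [DecidableEq ι] {r : ℕ} [NeZero r] {α : Type} [Fintype α]

/-- The data of a local random colouring. -/
structure St (e : α → H →L[ℂ] H) (N : α → Finset ι) (p : (ι → Fin r) → Fin r → H →L[ℂ] H)
    (d : ℕ) : Prop where
  epr : ∀ a, IsStarProjection (e a)
  eo : ∀ a b, a ≠ b → e a * e b = 0
  es : ∑ a, e a = 1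
  cd : ∀ a, (N a).card ≤ d
  ppr : ∀ π k, IsStarProjection (p π k)
  po : ∀ π j k, j ≠ k → p π j * p π k = 0
  ps : ∀ π, ∑ k, p π k = 1
  cm : ∀ π k a, p π k * e a = e a * p π k
  loc : ∀ π π' k a, (∀ i ∈ N a, π i = π' i) → p π k * e a = p π' k * e a
  avg : ∀ k, ∑ π, p π k = ((Fintype.card (ι → Fin r) : ℂ) / r) • 1

noncomputable def cs (ι : Type) [Fintype ι] [DecidableEq ι] (r : ℕ) (x : H →L[ℂ] H) :
    K ι r H →L[ℂ] K ι r H := ml fun _ => x

noncomputable def pk (p : (ι → Fin r) → Fin r → H →L[ℂ] H) (k : Fin r) :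
    K ι r H →L[ℂ] K ι r H := ml fun w => p w k

noncomputable def PP (r : ℕ) (e : α → H →L[ℂ] H) (N : α → Finset ι) : K ι r H →L[ℂ] K ι r H :=
  ∑ a, cs ι r (e a) * E (N a)

theorem cs_E (x : H →L[ℂ] H) (V : Finset ι) : Commute (cs ι r x) (E V) := ml_E fun _ _ => rfl

theorem cs_D (x : H →L[ℂ] H) (V : Finset ι) : Commute (cs ι r x) (D V) :=
  comm_D fun _ _ => cs_E _ _

theorem cs_mul (x y : H →L[ℂ] H) : cs ι r (x * y) = cs ι r x * cs ι r y := ml_mul _ _

theorem cs_sum {β : Type*} (s : Finset β) (t : β → H →L[ℂ] H) :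
    cs ι r (∑ b ∈ s, t b) = ∑ b ∈ s, cs ι r (t b) := ml_sum s fun b _ => t b

variable {e : α → H →L[ℂ] H} {N : α → Finset ι} {p : (ι → Fin r) → Fin r → H →L[ℂ] H} {d : ℕ}

theorem St.cpr (h : St e N p d) (a : α) : IsStarProjection (cs ι r (e a)) :=
  ml_pr fun _ => h.epr a

theorem St.csum (h : St e N p d) : ∑ a, cs ι r (e a) = 1 := by
  rw [← cs_sum, h.es]; exact ml_one

theorem St.co (h : St e N p d) {a b : α} (hab : a ≠ b) : cs ι r (e a) * cs ι r (e b) = 0 := by
  rw [← cs_mul, h.eo a b hab]; exact ml_zero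

theorem St.kpr (h : St e N p d) (k : Fin r) : IsStarProjection (pk p k) :=
  ml_pr fun _ => h.ppr _ k

theorem St.ksum (h : St e N p d) : ∑ k, pk p k = 1 := by
  simp only [pk]
  rw [← ml_sum univ fun k w => p w k]
  simp only [h.ps]
  exact ml_one

theorem St.ko (h : St e N p d) (j k : Fin r) (hjk : j ≠ k) : pk p j * pk p k = 0 := by
  rw [pk, pk, ← ml_mul]
  simp only [h.po _ j k hjk]
  exact ml_zero

theorem St.kc (h : St e N p d) (k : Fin r) (a : α) : Commute (pk p k) (cs ι r (e a)) := by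
  rw [Commute, SemiconjBy, pk, cs, ← ml_mul, ← ml_mul]
  simp only [h.cm]

theorem St.bd (h : St e N p d) (k : Fin r) : Bd (pk p k) (2 ^ d) := by
  refine ⟨by positivity, fun F => le_of_sq_le_sq ?_ (mul_nonneg (by positivity) (Nn_nn F))⟩
  have k1 : ∀ a U, ‖cs ι r (e a) (D U (pk p k F))‖ ^ 2 ≤ ‖cs ι r (e a) (D (U \ N a) F)‖ ^ 2 := by
    intro a U
    have c : Commute (pk p k * cs ι r (e a)) (D (U \ N a)) := comm_D fun i hi => by
      rw [pk, cs, ← ml_mul]
      refine ml_E fun u w => h.loc _ _ _ _ fun j hj => ?_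
      rw [piecewise_eq_of_notMem]
      rw [mem_singleton]
      rintro rfl
      exact (mem_sdiff.1 hi).2 hj
    have e1 : cs ι r (e a) * D U * pk p k = D U * pk p k * (cs ι r (e a) * D (U \ N a)) := by
      rw [(cs_D _ _).eq, mul_assoc, ← (h.kc k a).eq, mul_assoc, ← mul_assoc (pk p k), c.eq,
        ← mul_assoc (D U) (D _), D_mul, union_eq_left.2 sdiff_subset]
    refine pow_le_pow_left₀ (norm_nonneg _) ?_ 2
    have e2 := congrArg (fun T : K ι r H →L[ℂ] K ι r H => T F) e1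
    simp only [ContinuousLinearMap.mul_apply] at e2
    rw [e2]
    exact (ctr (D_pr U).norm_le _).trans (ctr (h.kpr k).norm_le _)
  rw [mul_pow, Nn_sq, Nn_sq]
  rw [sum_congr rfl fun U _ => pyth h.cpr h.csum (D U (pk p k F)),
    sum_congr rfl fun U _ => pyth h.cpr h.csum (D U F), sum_comm, sum_comm (s := (univ : Finset (Finset ι))),
    mul_sum]
  refine sum_le_sum fun a _ => (sum_le_sum fun U _ => k1 a U).trans ?_
  refine (fib univ (fun U => U \ N a) (fun U => ‖cs ι r (e a) (D U F)‖ ^ 2)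
    (fun _ => by positivity) (2 ^ d) fun U' => ?_).trans ?_
  · refine (card_le_card_of_injOn (t := (N a).powerset) (fun U => U ∩ N a)
      (fun U _ => by simp) fun U hU V hV hUV => ?_).trans ?_
    · have h1 := (mem_filter.1 (mem_coe.1 hU)).2
      have h2 := (mem_filter.1 (mem_coe.1 hV)).2
      rw [← sdiff_union_inter U (N a), ← sdiff_union_inter V (N a), h1, h2]
      exact congrArg _ hUV
    · rw [card_powerset]; exact Nat.pow_le_pow_right two_pos (h.cd a)
  · refine mul_le_mul_of_nonneg_right ?_ (sum_nonneg fun _ _ => by positivity)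
    have : (1 : ℝ) ≤ 2 ^ d := one_le_pow₀ one_le_two
    push_cast
    nlinarith

theorem PP_E (V : Finset ι) : Commute (PP r e N) (E V) :=
  Commute.sum_left _ _ _ fun _ _ => (cs_E _ _).mul_left (E_comm _ _)

theorem St.mid (h : St e N p d) (T : K ι r H →L[ℂ] K ι r H) (hT : ∀ a, Commute T (cs ι r (e a))) :
    PP r e N * T * PP r e N = ∑ a, E (N a) * (T * cs ι r (e a)) * E (N a) := by
  rw [PP, sum_mul, sum_mul]
  refine sum_congr rfl fun a _ => ?_
  have k : ∀ b, cs ι r (e a) * E (N a) * T * (cs ι r (e b) * E (N b)) =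
      E (N a) * (T * (cs ι r (e a) * cs ι r (e b))) * E (N b) := fun b => by
    rw [(cs_E _ _).eq, mul_assoc (E _), ← (hT a).eq]
    simp only [mul_assoc]
  rw [mul_sum, sum_eq_single a, k, (h.cpr a).isIdempotentElem.eq]
  · intro b _ hb
    rw [k, h.co hb.symm, mul_zero, mul_zero, zero_mul]
  · simp

theorem St.Ppr (h : St e N p d) : IsStarProjection (PP r e N) := by
  refine ⟨?_, isSelfAdjoint_sum _ fun a _ =>
    ((h.cpr a).mul (E_pr _) (cs_E _ _)).isSelfAdjoint⟩
  have := h.mid 1 fun _ => Commute.one_left _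
  rw [mul_one] at this
  show _ * _ = _
  rw [this, PP]
  refine sum_congr rfl fun a _ => ?_
  rw [one_mul, ← (cs_E _ _).eq, mul_assoc, (E_pr _).isIdempotentElem.eq]

theorem St.PpP (h : St e N p d) (k : Fin r) :
    PP r e N * pk p k * PP r e N = ((r : ℂ)⁻¹) • PP r e N := by
  rw [h.mid _ (h.kc k), PP, smul_sum]
  refine sum_congr rfl fun a _ => ?_
  have k1 : ∀ u w : ι → Fin r, p ((N a).piecewise u w) k * e a = p u k * e a := fun u w =>
    h.loc _ _ _ _ fun j hj => piecewise_eq_of_mem (N a) u w hj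
  rw [pk, cs, ← ml_mul, E_ml_E k1, ← sum_mul, h.avg]
  ext F w
  simp only [ml_apply, ContinuousLinearMap.smul_apply, smul_mul_assoc, one_mul, smul_smul,
    PiLp.smul_apply, ContinuousLinearMap.mul_apply]
  rw [div_eq_mul_inv, ← mul_assoc, inv_mul_cancel₀ cne, one_mul]

theorem St.pP (h : St e N p d) (k : Fin r) : ‖pk p k * PP r e N‖ ≤ 1 / √r := by
  have r0 : (0 : ℝ) < r := Nat.cast_pos.2 (Nat.pos_of_ne_zero (NeZero.ne r))
  refine le_of_sq_le_sq ?_ (by positivity)
  rw [sq, ← CStarRing.norm_star_mul_self, star_mul, h.Ppr.isSelfAdjoint.star_eq,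
    (h.kpr k).isSelfAdjoint.star_eq, ← mul_assoc, mul_assoc _ (pk p k) (pk p k),
    (h.kpr k).isIdempotentElem.eq, h.PpP, norm_smul, norm_inv, Complex.norm_natCast, div_pow,
    Real.sq_sqrt r0.le, one_pow, one_div]
  exact mul_le_of_le_one_right (by positivity) h.Ppr.norm_le

theorem St.Pp (h : St e N p d) (k : Fin r) : ‖PP r e N * pk p k‖ ≤ 1 / √r := by
  rw [← norm_star, star_mul, h.Ppr.isSelfAdjoint.star_eq, (h.kpr k).isSelfAdjoint.star_eq]
  exact h.pP k

theorem St.Qeq (h : St e N p d) : 1 - PP r e N = ∑ S ∈ univ.erase ∅,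
    (-(-1 : ℂ) ^ S.card) • (cs ι r (∑ a with S ⊆ N a, e a) * D S) := by
  have k : PP r e N = ∑ S : Finset ι,
      ((-1 : ℂ) ^ S.card) • (cs ι r (∑ a with S ⊆ N a, e a) * D S) := by
    simp only [PP, E_eq, mul_sum, cs_sum, sum_mul, smul_sum, mul_smul_comm]
    rw [sum_comm' (t' := univ) (s' := fun S => univ.filter fun a => S ⊆ N a)]
    simp
  rw [k, ← add_sum_erase _ _ (mem_univ ∅)]
  simp only [card_empty, pow_zero, one_smul, empty_subset, filter_true, D_empty, mul_one, h.es]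
  rw [cs, ml_one, sub_add_cancel_left, ← sum_neg_distrib]
  exact sum_congr rfl fun S _ => (neg_smul _ _).symm

end Vale.Agent.P078.BB
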