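import Mathlib

/-! Definitions used in the statement on strong-operator paving. -/

namespace Vale.Agent.P078

open scoped InnerProductSpace

variable {H : Type*} [NormedAddCommGroup H] [InnerProductSpace ℂ H] [CompleteSpace H]

/-- `A` is a maximal abelian subalgebra of `M`. -/
def IsMasa (A M : VonNeumannAlgebra H) : Prop :=
  (∀ a ∈ A, a ∈ M) ∧ (∀ a ∈ A, ∀ b ∈ A, a * b = b * a) ∧
    ∀ x ∈ M, (∀ a ∈ A, a * x = x * a) → x ∈ A

/-- `u` is a unitary of `M` with `u A u* = A`. -/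
def Normalizes (A M : VonNeumannAlgebra H) (u : H →L[ℂ] H) : Prop :=
  u ∈ M ∧ u ∈ unitary (H →L[ℂ] H) ∧ (∀ a ∈ A, u * a * star u ∈ A) ∧ ∀ a ∈ A, star u * a * u ∈ A

/-- The normalizer of `A` generates `M`: its commutant is contained in that of `M`. -/
def Regular (A M : VonNeumannAlgebra H) : Prop :=
  ∀ T : H →L[ℂ] H, (∀ u, Normalizes A M u → T * u = u * T) → ∀ x ∈ M, T * x = x * T

/-- `ξ` is a separating unit vector whose vector state is a trace on `M`. -/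
def TraceVec (M : VonNeumannAlgebra H) (ξ : H) : Prop :=
  ‖ξ‖ = 1 ∧ (∀ x ∈ M, ∀ y ∈ M, ⟪ξ, (x * y) ξ⟫_ℂ = ⟪ξ, (y * x) ξ⟫_ℂ) ∧ ∀ x ∈ M, x ξ = 0 → x = 0

/-- Mutually orthogonal projections of `A` with sum `1`. -/
def IsPartition (A : VonNeumannAlgebra H) {r : ℕ} (p : Fin r → H →L[ℂ] H) : Prop :=
  (∀ i, p i ∈ A ∧ IsStarProjection (p i)) ∧ (∀ i j, i ≠ j → p i * p j = 0) ∧ ∑ i, p i = 1

/-- `x` is `(ε, r)` so-pavable over `A`. -/
def SoPavable (A M : VonNeumannAlgebra H) (x : H →L[ℂ] H) (ε : ℝ) (r : ℕ) : Prop :=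
  ∀ (F : Finset H) (δ : ℝ), 0 < δ → ∃ p : Fin r → H →L[ℂ] H, IsPartition A p ∧
    ∃ a ∈ A, IsSelfAdjoint a ∧ ‖a‖ ≤ ‖x‖ ∧ ∃ q ∈ M, IsStarProjection q ∧
      (∀ η ∈ F, ‖(1 - q) η‖ < δ) ∧ ‖q * (∑ i, p i * x * p i - a) * q‖ ≤ ε * ‖x‖

end Vale.Agent.P078
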