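import Vale.Agent.P078.B2b
import Vale.Agent.P078.Defs

/-! The error estimate. -/

namespace Vale.Agent.P078.BB

open scoped InnerProductSpace
open Finset

variable {H : Type*} [NormedAddCommGroup H] [InnerProductSpace ℂ H] [CompleteSpace H]
variable {ι : Type} [Fintype ι] [DecidableEq ι] {r : ℕ} [NeZero r] {α : Type} [Fintype α]
variable {M : VonNeumannAlgebra H} {ξ : H}

theorem ip_star (T : H →L[ℂ] H) (u v : H) : ⟪u, (star T) v⟫_ℂ = ⟪T u, v⟫_ℂ := by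
  rw [ContinuousLinearMap.star_eq_adjoint, ContinuousLinearMap.adjoint_inner_right]

theorem tr_star (ht : TraceVec M ξ) {X : H →L[ℂ] H} (hX : X ∈ M) : ‖(star X) ξ‖ = ‖X ξ‖ := by
  have k := ht.2.1 (star X) (star_mem hX) X hX
  have k2 := ip_star (star X) ξ ((star X) ξ)
  rw [star_star] at k2
  rw [ContinuousLinearMap.mul_apply, ContinuousLinearMap.mul_apply, ip_star, k2,
    inner_self_eq_norm_sq_to_K, inner_self_eq_norm_sq_to_K] at k
  have : ‖X ξ‖ ^ 2 = ‖(star X) ξ‖ ^ 2 := by exact_mod_cast k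
  exact ((sq_eq_sq₀ (norm_nonneg _) (norm_nonneg _)).1 this).symm

theorem tr_key (ht : TraceVec M ξ) {z X : H →L[ℂ] H} (hz : z ∈ M) (hX : X ∈ M) {c : ℝ}
    (hc : ‖X‖ ≤ c) : ‖z (X ξ)‖ ^ 2 ≤ ‖(star z * z) ξ‖ * (c * ‖X ξ‖) := by
  have k := ht.2.1 (star X) (star_mem hX) (star z * z * X) (mul_mem (mul_mem (star_mem hz) hz) hX)
  have s : star (star z * z) = star z * z := by rw [star_mul, star_star]
  have k3 := ip_star (star z * z) ξ (X ((star X) ξ))
  rw [s] at k3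
  have k4 : ⟪z (X ξ), z (X ξ)⟫_ℂ = ⟪(star z * z) ξ, X ((star X) ξ)⟫_ℂ := by
    rw [← k3, ← ip_star z, ← ip_star X]
    exact k
  have k5 : ‖z (X ξ)‖ ^ 2 = ‖⟪z (X ξ), z (X ξ)⟫_ℂ‖ := by
    rw [inner_self_eq_norm_sq_to_K, norm_pow]; simp
  rw [k5, k4]
  refine (norm_inner_le_norm _ _).trans (mul_le_mul_of_nonneg_left ?_ (norm_nonneg _))
  rw [← tr_star ht hX]
  exact (X.le_opNorm _).trans (mul_le_mul_of_nonneg_right hc (norm_nonneg _))

/-- Every coordinate is `X ξ` with `X` in `M` of norm at most `c`. -/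
def Rep (M : VonNeumannAlgebra H) (ξ : H) (c : ℝ) (F : K ι r H) : Prop :=
  ∀ w, ∃ X ∈ M, ‖X‖ ≤ c ∧ F w = X ξ

theorem Rep.ml {c : ℝ} {F : K ι r H} (h : Rep M ξ c F) {t : (ι → Fin r) → H →L[ℂ] H}
    (hm : ∀ w, t w ∈ M) (ht : ∀ w, ‖t w‖ ≤ 1) : Rep M ξ c (ml t F) := fun w => by
  obtain ⟨X, h1, h2, h3⟩ := h w
  refine ⟨t w * X, mul_mem (hm w) h1, (norm_mul_le _ _).trans
    ((mul_le_of_le_one_left (norm_nonneg _) (ht w)).trans h2), ?_⟩
  rw [ml_apply, h3]; rfl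

theorem Rep.E {c : ℝ} {F : K ι r H} (h : Rep M ξ c F) (V : Finset ι) :
    Rep M ξ (2 * c) ((1 - E V : K ι r H →L[ℂ] K ι r H) F) := fun w => by
  choose X h1 h2 h3 using h
  refine ⟨X w - ((Fintype.card (ι → Fin r) : ℂ)⁻¹) • ∑ u, X (V.piecewise u w),
    sub_mem (h1 w) (M.toStarSubalgebra.smul_mem (sum_mem fun u _ => h1 _) _), ?_, ?_⟩
  · refine (norm_sub_le _ _).trans ?_
    have c0 : (0 : ℝ) < Fintype.card (ι → Fin r) := Nat.cast_pos.2 Fintype.card_pos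
    have : ‖∑ u, X (V.piecewise u w)‖ ≤ Fintype.card (ι → Fin r) * c := by
      refine (norm_sum_le _ _).trans ((sum_le_sum fun u _ => h2 _).trans ?_)
      rw [sum_const, card_univ, nsmul_eq_mul]
    rw [norm_smul, norm_inv, Complex.norm_natCast]
    have k := mul_le_mul_of_nonneg_left this (inv_nonneg.2 c0.le)
    rw [← mul_assoc, inv_mul_cancel₀ c0.ne', one_mul] at k
    linarith [h2 w]
  · rw [ContinuousLinearMap.sub_apply, PiLp.sub_apply, E_apply]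
    simp only [ContinuousLinearMap.one_apply, h3, ContinuousLinearMap.sub_apply,
      ContinuousLinearMap.smul_apply, ContinuousLinearMap.sum_apply]

theorem Rep.D {F : K ι r H} (h : Rep M ξ 1 F) (U : Finset ι) :
    Rep M ξ (2 ^ U.card) (D U F) := by
  induction U using Finset.induction_on with
  | empty => simpa [D_empty] using h
  | insert i U hi ih =>
    rw [D_insert hi, card_insert_of_notMem hi, pow_succ', ContinuousLinearMap.mul_apply]
    exact ih.E _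

theorem Rep.key (ht : TraceVec M ξ) {c : ℝ} (hc : 0 ≤ c) {F : K ι r H} (h : Rep M ξ c F)
    {z : H →L[ℂ] H} (hz : z ∈ M) {δ : ℝ} (hδ : 0 < δ) (G : K ι r H) :
    ‖⟪G, cs ι r z F⟫_ℂ‖ ≤ δ * ‖G‖ ^ 2 + c * δ * ‖F‖ ^ 2 +
      c * Fintype.card (ι → Fin r) / δ ^ 3 * ‖(star z * z) ξ‖ ^ 2 := by
  have k1 : ‖cs ι r z F‖ ^ 2 ≤ c * δ ^ 2 * ‖F‖ ^ 2 +
      c * Fintype.card (ι → Fin r) / δ ^ 2 * ‖(star z * z) ξ‖ ^ 2 := by
    rw [PiLp.norm_sq_eq_of_L2, PiLp.norm_sq_eq_of_L2 _ F, mul_sum]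
    have : c * Fintype.card (ι → Fin r) / δ ^ 2 * ‖(star z * z) ξ‖ ^ 2 =
        ∑ _w : ι → Fin r, c / δ ^ 2 * ‖(star z * z) ξ‖ ^ 2 := by
      rw [sum_const, card_univ, nsmul_eq_mul]; ring
    rw [this, ← sum_add_distrib]
    refine sum_le_sum fun w _ => ?_
    obtain ⟨X, h1, h2, h3⟩ := h w
    rw [cs, ml_apply, h3]
    refine (tr_key ht hz h1 h2).trans ?_
    generalize ‖(star z * z) ξ‖ = a
    generalize ‖X ξ‖ = b
    have e1 : c * δ ^ 2 * b ^ 2 + c / δ ^ 2 * a ^ 2 - a * (c * b) =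
        c * ((δ * b - a / δ / 2) ^ 2 + 3 / 4 * (a / δ) ^ 2) := by
      field_simp; ring
    have e2 : 0 ≤ c * ((δ * b - a / δ / 2) ^ 2 + 3 / 4 * (a / δ) ^ 2) := by positivity
    linarith
  refine (norm_inner_le_norm _ _).trans ?_
  have k2 := div_le_div_of_nonneg_right k1 hδ.le
  generalize ‖cs ι r z F‖ = b at *
  generalize ‖G‖ = a
  have e1 : δ * a ^ 2 + b ^ 2 / δ - a * b = δ * ((a - b / δ / 2) ^ 2 + 3 / 4 * (b / δ) ^ 2) := by
    field_simp; ring
  have e2 : 0 ≤ δ * ((a - b / δ / 2) ^ 2 + 3 / 4 * (b / δ) ^ 2) := by positivity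
  have e3 : (c * δ ^ 2 * ‖F‖ ^ 2 + c * Fintype.card (ι → Fin r) / δ ^ 2 * ‖(star z * z) ξ‖ ^ 2) / δ =
      c * δ * ‖F‖ ^ 2 + c * Fintype.card (ι → Fin r) / δ ^ 3 * ‖(star z * z) ξ‖ ^ 2 := by
    field_simp
  linarith

variable {e : α → H →L[ℂ] H} {N : α → Finset ι} {p : (ι → Fin r) → Fin r → H →L[ℂ] H} {d : ℕ}

theorem St.et_pr (h : St e N p d) (s : Finset α) : IsStarProjection (∑ a ∈ s, e a) := by
  refine ⟨?_, isSelfAdjoint_sum _ fun a _ => (h.epr a).isSelfAdjoint⟩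
  show _ * _ = _
  rw [sum_mul]
  refine sum_congr rfl fun a ha => ?_
  rw [mul_sum, sum_eq_single_of_mem a ha fun b _ hb => h.eo _ _ hb.symm,
    (h.epr a).isIdempotentElem.eq]

theorem cnt (d : ℕ) (g : Finset ι → ℝ) (hg : ∀ U, 0 ≤ g U) :
    ∑ S ∈ univ.erase ∅, ∑ T ∈ univ.erase ∅,
      (if S.card ≤ d ∧ T.card ≤ d then g (S ∪ T) else 0) ≤ 16 ^ d * ∑ U, g U := by
  have k : ∑ S ∈ univ.erase ∅, ∑ T ∈ univ.erase ∅,
      (if S.card ≤ d ∧ T.card ≤ d then g (S ∪ T) else 0) ≤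
      ∑ x : Finset ι × Finset ι with x.1.card ≤ d ∧ x.2.card ≤ d, g (x.1 ∪ x.2) := by
    rw [sum_filter, ← sum_product']
    refine sum_le_sum_of_subset_of_nonneg (subset_univ _) fun x _ _ => ?_
    split_ifs
    exacts [hg _, le_rfl]
  refine k.trans ((fib _ (fun x : Finset ι × Finset ι => x.1 ∪ x.2) g hg (16 ^ d)
    fun U => ?_).trans (by push_cast; rfl))
  by_cases hU : U.card ≤ 2 * d
  · refine (card_le_card (t := U.powerset ×ˢ U.powerset) fun x hx => ?_).trans ?_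
    · rw [← (mem_filter.1 hx).2, mem_product, mem_powerset, mem_powerset]
      exact ⟨subset_union_left, subset_union_right⟩
    · rw [card_product, card_powerset, ← pow_add, show 16 = 2 ^ 4 by rfl, ← pow_mul]
      exact Nat.pow_le_pow_right two_pos (by omega)
  · rw [filter_eq_empty_iff.2, card_empty]
    · exact Nat.zero_le _
    · intro x hx hx2
      have := (mem_filter.1 hx).2
      have := card_union_le x.1 x.2
      rw [hx2] at this
      omega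

theorem St.err (h : St e N p d) (ht : TraceVec M ξ) (he : ∀ a, e a ∈ M) {y : H →L[ℂ] H}
    (hy : y ∈ M) (ys : IsSelfAdjoint y) {ε δ : ℝ} (hδ : 0 < δ)
    (hε : ∑ S ∈ univ.erase ∅, ∑ T ∈ univ.erase ∅, ‖((∑ a with T ⊆ N a, e a) * y *
      (∑ a with S ⊆ N a, e a) * y * (∑ a with T ⊆ N a, e a)) ξ‖ ^ 2 ≤ ε)
    (G : K ι r H) {F : K ι r H} (hF : Rep M ξ 1 F) :
    ‖⟪G, ((1 - PP r e N) * cs ι r y * (1 - PP r e N)) F⟫_ℂ‖ ≤ 16 ^ d * δ * Nn G ^ 2 +
      16 ^ d * 4 ^ d * δ * Nn F ^ 2 + 4 ^ d * Fintype.card (ι → Fin r) / δ ^ 3 * ε := by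
  set t : Finset ι → H →L[ℂ] H := fun S => ∑ a with S ⊆ N a, e a with htd
  have tM : ∀ S, t S ∈ M := fun S => sum_mem fun a _ => he a
  have tp : ∀ S, IsStarProjection (t S) := fun S => h.et_pr _
  have t0 : ∀ S : Finset ι, ¬ S.card ≤ d → t S = 0 := fun S hS =>
    sum_eq_zero fun a ha => absurd ((card_le_card (mem_filter.1 ha).2).trans (h.cd a)) hS
  set A : ℝ := 4 ^ d * Fintype.card (ι → Fin r) / δ ^ 3 with hA
  have A0 : 0 ≤ A := by positivity
  have k : ∀ S T : Finset ι, ‖⟪G, (cs ι r (t S) * D S * cs ι r y * (cs ι r (t T) * D T) :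
      K ι r H →L[ℂ] K ι r H) F⟫_ℂ‖ ≤
      (if S.card ≤ d ∧ T.card ≤ d then
        δ * ‖D (S ∪ T) G‖ ^ 2 + 4 ^ d * δ * ‖D (S ∪ T) F‖ ^ 2 else 0) +
      A * ‖(t T * y * t S * y * t T) ξ‖ ^ 2 := fun S T => by
    have e1 : cs ι r (t S) * D S * cs ι r y * (cs ι r (t T) * D T) =
        D (S ∪ T) * cs ι r (t S * y * t T) * D (S ∪ T) := by
      rw [← (cs_D _ (S ∪ T)).eq, mul_assoc _ (D _) (D _), D_mul, union_self, ← D_mul, cs_mul,
        cs_mul, mul_assoc _ (D S), ← (cs_D y S).eq, mul_assoc (cs ι r (t S)),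
        mul_assoc (cs ι r y), ← mul_assoc (D S), ← (cs_D (t T) S).eq]
      simp only [mul_assoc]
    rw [e1]
    split_ifs with hc
    · have e2 := (D_pr (H := H) (r := r) (S ∪ T)).isSelfAdjoint.isSymmetric G
        (cs ι r (t S * y * t T) (D (S ∪ T) F))
      simp only [ContinuousLinearMap.coe_coe] at e2
      rw [ContinuousLinearMap.mul_apply, ContinuousLinearMap.mul_apply, ← e2]
      have r4 : Rep M ξ (4 ^ d) (D (S ∪ T) F) := fun w => by
        obtain ⟨X, h1, h2, h3⟩ := hF.D (S ∪ T) w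
        refine ⟨X, h1, h2.trans ?_, h3⟩
        rw [show (4 : ℝ) = 2 ^ 2 by norm_num, ← pow_mul]
        exact pow_le_pow_right₀ one_le_two (by have := card_union_le S T; omega)
      have e3 : star (t S * y * t T) * (t S * y * t T) = t T * y * t S * y * t T := by
        rw [star_mul, star_mul, (tp S).isSelfAdjoint.star_eq, (tp T).isSelfAdjoint.star_eq,
          ys.star_eq]
        simp only [← mul_assoc]
        rw [mul_assoc _ (t S) (t S), (tp S).isIdempotentElem.eq]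
      have := r4.key ht (by positivity) (mul_mem (mul_mem (tM S) hy) (tM T)) hδ (D (S ∪ T) G)
      rwa [e3] at this
    · have : t S * y * t T = 0 := by
        rcases not_and_or.1 hc with h1 | h1 <;> simp [t0 _ h1]
      rw [this, cs, ml_zero]
      simp only [mul_zero, zero_mul, ContinuousLinearMap.zero_apply, inner_zero_right, norm_zero,
        zero_add]
      positivity
  rw [h.Qeq, sum_mul, sum_mul, ContinuousLinearMap.sum_apply, inner_sum]
  have k2 : ∀ S : Finset ι, ‖⟪G, ((-(-1 : ℂ) ^ S.card) • (cs ι r (t S) * D S) * cs ι r y *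
      ∑ T ∈ univ.erase (∅ : Finset ι), (-(-1 : ℂ) ^ T.card) • (cs ι r (t T) * D T) :
      K ι r H →L[ℂ] K ι r H) F⟫_ℂ‖ ≤
      ∑ T ∈ univ.erase (∅ : Finset ι), ((if S.card ≤ d ∧ T.card ≤ d then
        δ * ‖D (S ∪ T) G‖ ^ 2 + 4 ^ d * δ * ‖D (S ∪ T) F‖ ^ 2 else 0) +
      A * ‖(t T * y * t S * y * t T) ξ‖ ^ 2) := fun S => by
    rw [mul_sum, ContinuousLinearMap.sum_apply, inner_sum]
    refine (norm_sum_le _ _).trans (sum_le_sum fun T _ => le_trans (le_of_eq ?_) (k S T))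
    simp only [smul_mul_assoc, mul_smul_comm, ContinuousLinearMap.smul_apply, inner_smul_right,
      norm_mul, norm_neg, norm_pow, norm_one, one_pow, one_mul]
  refine (norm_sum_le _ _).trans ((sum_le_sum fun S _ => k2 S).trans ?_)
  simp only [sum_add_distrib, ← mul_sum]
  have k3 := cnt d (fun U => δ * ‖D U G‖ ^ 2 + 4 ^ d * δ * ‖D U F‖ ^ 2) fun U => by positivity
  rw [sum_add_distrib, ← mul_sum, ← mul_sum, ← Nn_sq, ← Nn_sq] at k3
  have k4 := mul_le_mul_of_nonneg_left hε A0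
  linarith

end Vale.Agent.P078.BB
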