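import Vale.Agent.P078.Stm4

/-! Interfaces for colourings with bounded dependence. -/

namespace Vale.Agent.P078

open Finset
open scoped InnerProductSpace

universe u

/-- Products of commuting projections and of their complements. -/
structure DC {K : Type u} [NormedAddCommGroup K] [InnerProductSpace ℂ K] [CompleteSpace K]
    {ι : Type} [DecidableEq ι] (E : ι → K →L[ℂ] K) (D A : Finset ι → K →L[ℂ] K) : Prop where
  D0 : D ∅ = 1
  Di : ∀ i S, D (insert i S) = (1 - E i) * D S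
  Dp : ∀ S, IsStarProjection (D S)
  Du : ∀ S T, D S * D T = D (S ∪ T)
  Dc : ∀ X S, (∀ i ∈ S, Commute X (E i)) → Commute X (D S)
  A0 : A ∅ = 1
  Ai : ∀ i S, A (insert i S) = E i * A S
  Ap : ∀ S, IsStarProjection (A S)
  Ac : ∀ X S, (∀ i ∈ S, Commute X (E i)) → Commute X (A S)
  AD : ∀ N, A N = ∑ S ∈ N.powerset, (-1 : ℂ) ^ S.card • D S

/-- Existence of the products. -/
def BKA : Prop := ∀ (K : Type u) [NormedAddCommGroup K] [InnerProductSpace ℂ K] [CompleteSpace K]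
  (ι : Type) [DecidableEq ι] (E : ι → K →L[ℂ] K), (∀ i, IsStarProjection (E i)) →
  (∀ i j, Commute (E i) (E j)) → ∃ D A, DC E D A

/-- The abstract estimate. -/
def BKC : Prop := ∀ r n d : ℕ, 4 ≤ r → ∀ η : ℝ, 0 < η → ∃ ε : ℝ, 0 < ε ∧
  ∀ (K : Type u) [NormedAddCommGroup K] [InnerProductSpace ℂ K] [CompleteSpace K] (ι α : Type)
    [Fintype ι] [DecidableEq ι] [Fintype α] (E : ι → K →L[ℂ] K) (D A : Finset ι → K →L[ℂ] K)
    (e : α → K →L[ℂ] K) (N : α → Finset ι) (P : Fin r → K →L[ℂ] K) (Y : K →L[ℂ] K) (f : K)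
    (ψ : Finset ι → Finset ι → ℝ), DC E D A → (∀ i j, Commute (E i) (E j)) →
    (∀ a, IsStarProjection (e a)) → (∀ a b, a ≠ b → e a * e b = 0) → ∑ a, e a = 1 →
    (∀ a, (N a).card ≤ d) →
    (∀ k, IsStarProjection (P k)) → (∀ k l, k ≠ l → P k * P l = 0) → ∑ k, P k = 1 →
    IsSelfAdjoint Y → ‖Y‖ ≤ 1 → (∀ a i, Commute (e a) (E i)) → (∀ i, Commute Y (E i)) →
    (∀ k a, Commute (P k) (e a)) → (∀ k a, ∀ i ∉ N a, Commute (P k * e a) (E i)) →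
    (∀ k a, A (N a) * (P k * e a) * A (N a) = (r : ℂ)⁻¹ • (e a * A (N a))) → (∀ i, E i f = f) →
    ∑ S ∈ univ.erase ∅, ∑ T ∈ univ.erase ∅, ψ S T ^ 2 ≤ ε →
    (∀ (j : ℕ) k S T, ‖((∑ a with S ⊆ N a, e a) * Y * ∑ a with T ⊆ N a, e a)
      (D (S ∪ T) (P k ((R.pin P Y ^ j) f)))‖ ^ 2 ≤
        ψ S T * 2 ^ (S ∪ T).card * ‖f‖ * ‖D (S ∪ T) (P k ((R.pin P Y ^ j) f))‖) →
    (⟪f, (R.pin P Y ^ n) f⟫_ℂ).re ≤ ((2 / √r) ^ n + η) * ‖f‖ ^ 2

end Vale.Agent.P078
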