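import Vale.Agent.P078.BK0

/-! Products of commuting projections. -/

namespace Vale.Agent.P078

open Finset

universe u

theorem ex_prod {R : Type*} [Ring R] [StarRing R] {ι : Type} [DecidableEq ι] (F : ι → R)
    (h : ∀ i, IsStarProjection (F i)) (hc : ∀ i j, Commute (F i) (F j)) : ∃ D : Finset ι → R,
      D ∅ = 1 ∧ (∀ i S, D (insert i S) = F i * D S) ∧ (∀ S, IsStarProjection (D S)) ∧
      (∀ S T, D S * D T = D (S ∪ T)) ∧ ∀ X S, (∀ i ∈ S, Commute X (F i)) → Commute X (D S) := by
  let D : Finset ι → R := fun S => S.noncommProd F fun i _ j _ _ => hc i j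
  have h1 : ∀ i S, i ∉ S → D (insert i S) = F i * D S := fun i S hi =>
    noncommProd_insert_of_notMem _ _ _ _ hi
  have h2 : ∀ i S, D (insert i S) = F i * D S := fun i S => by
    by_cases hi : i ∈ S
    · rw [insert_eq_of_mem hi, ← insert_erase hi, h1 _ _ (notMem_erase _ _), ← mul_assoc,
        (h i).isIdempotentElem.eq]
    · exact h1 i S hi
  have h3 : ∀ X S, (∀ i ∈ S, Commute X (F i)) → Commute X (D S) := fun X S hS =>
    noncommProd_commute _ _ _ _ hS
  refine ⟨D, rfl, h2, fun S => ?_, fun S T => ?_, h3⟩
  · induction S using Finset.induction_on with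
    | empty => exact IsStarProjection.one R
    | insert i S _ ih =>
      rw [h2]
      exact (h i).mul ih (h3 _ _ fun j _ => hc i j)
  · induction S using Finset.induction_on with
    | empty => exact (one_mul _).trans (by rw [empty_union])
    | insert i S _ ih => rw [insert_union, h2, h2, mul_assoc, ih]

theorem bka : BKA.{u} := by
  intro K _ _ _ ι _ E h hc
  obtain ⟨D, d1, d2, d3, d4, d5⟩ := ex_prod (fun i => 1 - E i) (fun i => (h i).one_sub)
    fun i j => (Commute.one_left _).sub_left ((Commute.one_right _).sub_right (hc i j))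
  obtain ⟨A, a1, a2, a3, -, a5⟩ := ex_prod E h hc
  refine ⟨D, A, d1, d2, d3, d4, fun X S hS => d5 X S fun i hi =>
    (Commute.one_right X).sub_right (hS i hi), a1, a2, a3, a5, fun N => ?_⟩
  induction N using Finset.induction_on with
  | empty => simp [a1, d1]
  | insert i N hi ih =>
    rw [sum_powerset_insert hi, a2, ih, mul_sum, ← sum_add_distrib]
    refine sum_congr rfl fun S hS => ?_
    rw [card_insert_of_notMem fun c => hi (mem_powerset.1 hS c), d2, pow_succ, mul_smul_comm,
      sub_mul, one_mul, smul_sub]
    module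

end Vale.Agent.P078
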