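import Vale.Agent.P078.Stm2

/-! Small blocks after a small cut. -/

namespace Vale.Agent.P078.CutA

open scoped InnerProductSpace ComplexConjugate ComplexOrder
open Vale.Agent.P104 Finset Filter Topology R

universe u

variable {H : Type u} [NormedAddCommGroup H] [InnerProductSpace ℂ H] [CompleteSpace H]
  {A M : VonNeumannAlgebra H} {ξ : H} {r s : ℕ} {p : Fin r → H →L[ℂ] H}
  {p' : Fin s → H →L[ℂ] H} {a b z t : H →L[ℂ] H}

theorem spec' (M : VonNeumannAlgebra H) (ht : t ∈ M) (hsa : IsSelfAdjoint t) :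
    ∃ e ∈ M, IsStarProjection e ∧ (∀ s, IsSelfAdjoint s → Commute s t → Commute s e) ∧
      0 ≤ e * t * e ∧ (1 - e) * t * (1 - e) ≤ 0 := by
  have hc : 0 < ‖t‖ + 1 := by positivity
  obtain ⟨h0, h1⟩ := sa_shift (IsStarProjection.one (H →L[ℂ] H)) hsa.star_eq (by simp) hc
    (by linarith)
  obtain ⟨E, hEM, hE, -, h3, h4, -, h5⟩ := bis_mem (M := M)
    (vn_smul_mem _ (add_mem ht (vn_smul_mem _ (one_mem M)))) (IsStarProjection.one _) h0 h1
  have hct : ∀ s, IsSelfAdjoint s → Commute s t → Commute s E := by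
    intro s hs hst
    have : Commute s ((((2 * (‖t‖ + 1))⁻¹ : ℝ) : ℂ) • (t + ((‖t‖ + 1 : ℝ) : ℂ) • 1)) :=
      (hst.add_right ((Commute.one_right s).smul_right _)).smul_right _
    exact h5 s this (by rwa [hs.star_eq])
  have hne : ((‖t‖ + 1 : ℝ) : ℂ) ≠ 0 := by exact_mod_cast hc.ne'
  have e0 : (2 : ℂ) • ((((2 * (‖t‖ + 1))⁻¹ : ℝ) : ℂ) • (t + ((‖t‖ + 1 : ℝ) : ℂ) • 1)) =
      (((‖t‖ + 1 : ℝ) : ℂ))⁻¹ • t + 1 := by
    rw [smul_smul, smul_add, smul_smul]
    have a1 : (2 : ℂ) * (((2 * (‖t‖ + 1))⁻¹ : ℝ) : ℂ) = (((‖t‖ + 1 : ℝ) : ℂ))⁻¹ := by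
      rw [Complex.ofReal_inv, Complex.ofReal_mul]; push_cast; field_simp
    rw [a1, inv_mul_cancel₀ hne, one_smul]
  rw [e0] at h3 h4
  have hEE := hE.isIdempotentElem.eq
  have hcc : (0 : ℂ) ≤ ((‖t‖ + 1 : ℝ) : ℂ) := by exact_mod_cast hc.le
  refine ⟨E, hEM, hE, hct, ?_, ?_⟩
  · have a1 := smul_nonneg hcc (star_left_conjugate_nonneg h3 E)
    have e : ((‖t‖ + 1 : ℝ) : ℂ) • (star E * ((((‖t‖ + 1 : ℝ) : ℂ))⁻¹ • t + 1 - E) * E) =
        E * t * E := by
      rw [hE.isSelfAdjoint.star_eq]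
      simp only [mul_sub, sub_mul, mul_add, add_mul, mul_one, hEE, mul_smul_comm, smul_mul_assoc,
        add_sub_cancel_right, smul_smul, mul_inv_cancel₀ hne, one_smul]
    rwa [e] at a1
  · have a1 := smul_nonneg hcc (star_left_conjugate_nonneg (sub_nonneg.2 h4) (1 - E))
    have e : ((‖t‖ + 1 : ℝ) : ℂ) • (star (1 - E) *
        (1 - ((((‖t‖ + 1 : ℝ) : ℂ))⁻¹ • t + 1 - E)) * (1 - E)) = -((1 - E) * t * (1 - E)) := by
      have e1 : 1 - ((((‖t‖ + 1 : ℝ) : ℂ))⁻¹ • t + 1 - E) = E - (((‖t‖ + 1 : ℝ) : ℂ))⁻¹ • t := by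
        abel
      have e2 : (1 - E) * E = 0 := by rw [sub_mul, one_mul, hEE, sub_self]
      rw [hE.one_sub.isSelfAdjoint.star_eq, e1, mul_sub (1 - E) E, e2, zero_sub, neg_mul, smul_neg,
        mul_smul_comm, smul_mul_assoc, smul_smul, mul_inv_cancel₀ hne, one_smul]
    rw [e] at a1
    exact neg_nonneg.1 a1

/-- Refinement of partitions. -/
def Rf (e : Fin r → H →L[ℂ] H) (f : Fin s → H →L[ℂ] H) : Prop := ∀ a, ∃ l, e a * f l = e a

theorem Rf.trans {n : ℕ} {g : Fin n → H →L[ℂ] H} (h : Rf p p') (h' : Rf p' g) : Rf p g := by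
  intro a
  obtain ⟨l, hl⟩ := h a
  obtain ⟨k, hk⟩ := h' l
  exact ⟨k, by rw [← hl, mul_assoc, hk]⟩

theorem prod_rf (hA : IsMasa A M) (h : IsPartition A p) (h' : IsPartition A p') :
    ∃ P : Fin (r * s) → H →L[ℂ] H, IsPartition A P ∧ Rf P p ∧ Rf P p' := by
  have c : ∀ i j, p i * p' j = p' j * p i := fun i j => hA.2.1 _ (h.1 i).1 _ (h'.1 j).1
  have k : ∀ F : Fin r → Fin s → H →L[ℂ] H, ∑ k : Fin (r * s),
      F (finProdFinEquiv.symm k).1 (finProdFinEquiv.symm k).2 = ∑ i, ∑ j, F i j := fun F => by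
    rw [finProdFinEquiv.symm.sum_comp fun x => F x.1 x.2, Fintype.sum_prod_type]
  refine ⟨fun k => p (finProdFinEquiv.symm k).1 * p' (finProdFinEquiv.symm k).2,
    ⟨fun k => ⟨mul_mem (h.1 _).1 (h'.1 _).1, (h.1 _).2.mul (h'.1 _).2 (c _ _)⟩, fun k l e => ?_,
      ?_⟩, fun k => ⟨(finProdFinEquiv.symm k).1, ?_⟩, fun k => ⟨(finProdFinEquiv.symm k).2, ?_⟩⟩
  · beta_reduce
    by_cases e1 : (finProdFinEquiv.symm k).1 = (finProdFinEquiv.symm l).1
    · have e2 : (finProdFinEquiv.symm k).2 ≠ (finProdFinEquiv.symm l).2 := fun e2 =>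
        e (finProdFinEquiv.symm.injective (Prod.ext e1 e2))
      rw [c (finProdFinEquiv.symm l).1, mul_assoc, ← mul_assoc (p' _), h'.2.1 _ _ e2, zero_mul,
        mul_zero]
    · rw [c (finProdFinEquiv.symm k).1, mul_assoc, ← mul_assoc (p _), h.2.1 _ _ e1, zero_mul,
        mul_zero]
  · rw [k fun i j => p i * p' j, ← sum_mul_sum, h.2.2, h'.2.2, one_mul]
  · beta_reduce
    rw [c, mul_assoc, (h.1 _).2.isIdempotentElem.eq]
  · beta_reduce
    rw [mul_assoc, (h'.1 _).2.isIdempotentElem.eq]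

theorem blk (h : IsPartition A p) (i : Fin r) (z : H →L[ℂ] H) : p i * pin p z = p i * z * p i := by
  rw [pin, mul_sum, sum_eq_single i (fun j _ hj => by
    rw [← mul_assoc, ← mul_assoc, h.2.1 i j hj.symm, zero_mul, zero_mul]) (by simp),
    ← mul_assoc, ← mul_assoc, (h.1 i).2.isIdempotentElem.eq]

theorem blk' (h : IsPartition A p) (i : Fin r) (z : H →L[ℂ] H) :
    pin p z * p i = p i * z * p i := by
  rw [pin, sum_mul, sum_eq_single i (fun j _ hj => by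
    rw [mul_assoc, h.2.1 j i hj, mul_zero]) (by simp), mul_assoc, (h.1 i).2.isIdempotentElem.eq]

theorem pin_rf (hA : IsMasa A M) (h : IsPartition A p) (h' : IsPartition A p') (hr : Rf p p')
    (z : H →L[ℂ] H) : pin p (pin p' z) = pin p z := by
  refine sum_congr rfl fun i _ => ?_
  obtain ⟨l, hl⟩ := hr i
  have hl' : p' l * p i = p i := by rw [hA.2.1 _ (h'.1 l).1 _ (h.1 i).1, hl]
  calc p i * pin p' z * p i = p i * (p' l * pin p' z) * p i := by rw [← mul_assoc, hl]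
    _ = p i * p' l * z * (p' l * p i) := by rw [blk h']; simp only [mul_assoc]
    _ = _ := by rw [hl, hl']

theorem rf_self (h : IsPartition A p) : Rf p p := fun a => ⟨a, (h.1 a).2.isIdempotentElem.eq⟩

theorem adj (hA : IsMasa A M) (ht : TraceVec M ξ) (h : IsPartition A p) (ha : a ∈ M)
    (hb : b ∈ M) : ⟪pin p a ξ, b ξ⟫_ℂ = ⟪a ξ, pin p b ξ⟫_ℂ := by
  simp only [pin, _root_.sum_apply, inner_sum, sum_inner]
  refine sum_congr rfl fun i _ => ?_
  have m := hA.1 _ (h.1 i).1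
  have e := (h.1 i).2.isSelfAdjoint.star_eq
  have k1 : ⟪(p i * a * p i) ξ, b ξ⟫_ℂ = ⟪ξ, (p i * (star a * p i * b)) ξ⟫_ℂ := by
    rw [← inner_star_right, star_mul, star_mul, e]
    simp only [mul_assoc]
    rfl
  have k2 : ⟪a ξ, (p i * b * p i) ξ⟫_ℂ = ⟪ξ, (star a * p i * b * p i) ξ⟫_ℂ := by
    rw [← inner_star_right]
    simp only [mul_assoc]
    rfl
  rw [k1, k2, ht.2.1 _ m _ (mul_mem (mul_mem (star_mem ha) m) hb)]

theorem pin_sub (a b : H →L[ℂ] H) : pin p (a - b) = pin p a - pin p b := by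
  rw [sub_eq_add_neg, pin_add, pin_neg, sub_eq_add_neg]

theorem pyth (hA : IsMasa A M) (ht : TraceVec M ξ) (h : IsPartition A p) (ha : a ∈ M) :
    ‖a ξ‖ ^ 2 = ‖pin p a ξ‖ ^ 2 + ‖(a - pin p a) ξ‖ ^ 2 := by
  have m := pin_mem hA h ha
  have o : ⟪pin p a ξ, (a - pin p a) ξ⟫_ℂ = 0 := by
    rw [adj hA ht h ha (sub_mem ha m), pin_sub, pin_rf hA h h (rf_self h), sub_self]
    simp
  have := norm_add_sq_eq_norm_sq_add_norm_sq_of_inner_eq_zero _ _ o
  rw [← add_apply, add_sub_cancel] at this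
  rw [sq, sq, sq, this]

theorem pin_le (hA : IsMasa A M) (ht : TraceVec M ξ) (h : IsPartition A p) (ha : a ∈ M) :
    ‖pin p a ξ‖ ≤ ‖a ξ‖ :=
  le_of_sq_le (norm_nonneg _) (by rw [pyth hA ht h ha]; exact le_add_of_nonneg_right (sq_nonneg _))

theorem pin_norm (h : IsPartition A p) (hz : IsSelfAdjoint z) : ‖pin p z‖ ≤ ‖z‖ := by
  have one : pin p (((‖z‖ : ℝ) : ℂ) • 1) = ((‖z‖ : ℝ) : ℂ) • 1 := pin_fix h fun i => by simp
  have e : algebraMap ℝ (H →L[ℂ] H) ‖z‖ = ((‖z‖ : ℝ) : ℂ) • 1 := by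
    rw [Algebra.algebraMap_eq_smul_one, Complex.coe_smul]
  have sa : IsSelfAdjoint (pin p z) :=
    isSelfAdjoint_sum _ fun i _ => hz.conjugate_self (h.1 i).2.isSelfAdjoint
  refine norm_le_of_le sa (norm_nonneg _) ?_ ?_
  · rw [← one]
    exact pin_mono h (e ▸ hz.le_algebraMap_norm_self)
  · rw [← one, ← pin_neg]
    have := hz.neg.le_algebraMap_norm_self
    rw [norm_neg, e] at this
    exact pin_mono h this

theorem lq (hA : IsMasa A M) (ht : TraceVec M ξ) (hz : z ∈ M) (hs : IsSelfAdjoint z)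
    (hE : IsE A ξ z t) {η : ℝ} (hη : 0 < η) :
    ∃ (n : ℕ) (e : Fin n → H →L[ℂ] H), IsPartition A e ∧ ‖pin e (z - t) ξ‖ ≤ η := by
  by_contra hh
  push Not at hh
  have tM := hA.1 _ hE.1
  have wM := sub_mem hz tM
  let S : Set ℝ := {x | ∃ (n : ℕ) (e : Fin n → H →L[ℂ] H), IsPartition A e ∧ ‖pin e (z - t) ξ‖ = x}
  have hne : S.Nonempty := ⟨_, 1, fun _ => 1, ⟨fun _ => ⟨one_mem A, .one _⟩,
    fun i j h => absurd (Subsingleton.elim i j) h, by simp⟩, rfl⟩
  have hlo : ∀ x ∈ S, η ≤ x := by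
    rintro _ ⟨n, e, he, rfl⟩
    exact (hh n e he).le
  have hbd : BddBelow S := ⟨η, hlo⟩
  obtain ⟨ρ, -, hr, hrK⟩ := exists_seq_tendsto_sInf hne hbd
  have c0 : η ≤ sInf S := le_csInf hne hlo
  have hm : ∀ (n : ℕ) (e : Fin n → H →L[ℂ] H), IsPartition A e → sInf S ≤ ‖pin e (z - t) ξ‖ :=
    fun n e he => csInf_le hbd ⟨n, e, he, rfl⟩
  generalize sInf S = c at hr c0 hm
  choose N P hP hPr using hrK
  have fix : ∀ {n : ℕ} {e : Fin n → H →L[ℂ] H}, IsPartition A e → ∀ b ∈ A, pin e b = b :=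
    fun he b hb => pin_fix he fun i => hA.2.1 _ (he.1 i).1 _ hb
  let v : ℕ → P082.Alg M := fun n => ⟨pin (P n) z, pin_mem hA (hP n) hz⟩
  have hb : ∀ n, ‖v n‖ ≤ ‖z‖ := fun n => pin_norm (hP n) hs
  obtain ⟨z0, hzd⟩ : ∃ z0, z0 = P082.wlim (hyperfilter ℕ) v := ⟨_, rfl⟩
  have hw : ∀ x y, Tendsto (fun n => ⟪y, pin (P n) z x⟫_ℂ) (hyperfilter ℕ) (𝓝 ⟪y, z0.1 x⟫_ℂ) :=
    fun x y => hzd ▸ P082.wlim_spec hb x y
  have zA : z0.1 ∈ A := by
    refine hA.mem_of_proj z0.2 fun E hEA pE => ?_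
    have hR : IsPartition A ![E, 1 - E] := by
      refine ⟨fun i => ?_, fun i j hij => ?_, by simp⟩
      · fin_cases i
        · exact ⟨hEA, pE⟩
        · exact ⟨sub_mem (one_mem A) hEA, pE.one_sub⟩
      · fin_cases i <;> fin_cases j <;> simp_all [mul_sub, sub_mul, pE.isIdempotentElem.eq]
    have k1 : ∀ y, Tendsto (fun n => ⟪y, (pin (P n) z - pin ![E, 1 - E] (pin (P n) z)) ξ⟫_ℂ)
        (hyperfilter ℕ) (𝓝 ⟪y, (z0.1 - pin ![E, 1 - E] z0.1) ξ⟫_ℂ) := by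
      intro y
      have e : ∀ w : H →L[ℂ] H, ⟪y, (w - pin ![E, 1 - E] w) ξ⟫_ℂ = ⟪y, w ξ⟫_ℂ -
          (⟪star E y, w (E ξ)⟫_ℂ + ⟪star (1 - E) y, w ((1 - E) ξ)⟫_ℂ) := by
        intro w
        rw [inner_star_left, inner_star_left, ← inner_add_right, ← inner_sub_right, pin,
          Fin.sum_univ_two]
        rfl
      simp only [e]
      exact (hw _ _).sub ((hw _ _).add (hw _ _))
    have k2 : Tendsto (fun n => (pin (P n) z - pin ![E, 1 - E] (pin (P n) z)) ξ) atTop (𝓝 0) := by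
      rw [tendsto_zero_iff_norm_tendsto_zero]
      have k3 : Tendsto (fun n => √(ρ n ^ 2 - c ^ 2)) atTop (𝓝 0) := by
        have := ((hr.pow 2).sub_const (c ^ 2)).sqrt
        rwa [sub_self, Real.sqrt_zero] at this
      refine squeeze_zero (fun _ => norm_nonneg _) (fun n => Real.le_sqrt_of_sq_le ?_) k3
      obtain ⟨Q, hQ, q1, -⟩ := prod_part hA (hP n) hR
      have a1 := pyth hA ht hR (pin_mem hA (hP n) wM)
      have a2 := pow_le_pow_left₀ (hη.le.trans c0) (hm _ Q hQ) 2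
      rw [hPr n, ← q1] at a1
      rw [q1, pin_sub, fix (hP n) t hE.1, pin_sub, fix hR t hE.1, sub_sub_sub_cancel_right] at a1
      rw [q1, pin_sub, fix (hP n) t hE.1, pin_sub, fix hR t hE.1] at a2
      linarith
    have k4 : (z0.1 - pin ![E, 1 - E] z0.1) ξ = 0 := by
      refine ext_inner_left ℂ fun y => ?_
      exact tendsto_nhds_unique (k1 y)
        (tendsto_const_nhds.inner (k2.mono_left Nat.hyperfilter_le_atTop))
    have k5 := sub_eq_zero.1 (ht.2.2 _ (sub_mem z0.2 (pin_mem hA hR z0.2)) k4)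
    have k6 := blk hR 0 z0.1
    have k7 := blk' hR 0 z0.1
    rw [← k5] at k6 k7
    exact k6.trans k7.symm
  have zt : z0.1 ξ = t ξ := by
    have k : ∀ b ∈ A, ⟪ξ, (b * z0.1) ξ⟫_ℂ = ⟪ξ, (b * t) ξ⟫_ℂ := by
      intro b hb
      have h1 := hw ξ (star b ξ)
      simp only [inner_star_left] at h1
      refine tendsto_nhds_unique h1 (tendsto_const_nhds.congr fun n => ?_)
      have := adj hA ht (hP n) (hA.1 _ (star_mem hb)) hz
      rw [fix (hP n) _ (star_mem hb), inner_star_left, inner_star_left] at this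
      rw [hE.2 b hb]
      exact this
    have k2 := k _ (star_mem (sub_mem zA hE.1))
    have k3 := norm_sq_apply (z0.1 - t) ξ
    rw [mul_sub, sub_apply (star (z0.1 - t) * z0.1), inner_sub_right, k2,
      sub_self, Complex.zero_re] at k3
    exact sub_eq_zero.1 (norm_eq_zero.1 (pow_eq_zero_iff two_ne_zero |>.1 k3))
  have k1 : ∀ n, c ^ 2 ≤ (⟪pin (P 0) (z - t) ξ, pin (P n) z ξ⟫_ℂ - ⟪pin (P 0) (z - t) ξ, t ξ⟫_ℂ).re := by
    intro n
    obtain ⟨Q, hQ, q1, -⟩ := prod_part hA (hP 0) (hP n)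
    have a2 := pow_le_pow_left₀ (hη.le.trans c0) (hm _ Q hQ) 2
    have a3 : ⟪pin Q (z - t) ξ, pin Q (z - t) ξ⟫_ℂ =
        ⟪pin (P 0) (z - t) ξ, pin (P n) (z - t) ξ⟫_ℂ := by
      rw [← adj hA ht hQ (pin_mem hA hQ wM) wM, pin_rf hA hQ hQ (rf_self hQ), q1,
        adj hA ht (hP n) (pin_mem hA (hP 0) wM) wM]
    rw [← inner_sub_right, ← sub_apply, ← fix (hP n) t hE.1, ← pin_sub,
      fix (hP n) t hE.1, ← a3]
    exact a2.trans_eq (inner_self_eq_norm_sq (𝕜 := ℂ) _).symm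
  have k2 := (Complex.continuous_re.tendsto _).comp
    ((hw ξ (pin (P 0) (z - t) ξ)).sub_const ⟪pin (P 0) (z - t) ξ, t ξ⟫_ℂ)
  rw [zt, sub_self, Complex.zero_re] at k2
  have k3 := ge_of_tendsto' k2 k1
  have := pow_pos (hη.trans_le c0) 2
  linarith

theorem all {ι : Type} [Finite ι] (hA : IsMasa A M)
    (Φ : ι → (n : ℕ) → (Fin n → H →L[ℂ] H) → Prop)
    (h1 : ∀ i, ∃ n e, IsPartition A e ∧ Φ i n e)
    (h2 : ∀ i n e m e', IsPartition A e → IsPartition A e' → Rf e' e → Φ i n e → Φ i m e') :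
    ∃ n e, IsPartition A e ∧ ∀ i, Φ i n e := by
  classical
  have := Fintype.ofFinite ι
  suffices ∀ s : Finset ι, ∃ n e, IsPartition A e ∧ ∀ i ∈ s, Φ i n e by
    obtain ⟨n, e, he, h⟩ := this univ
    exact ⟨n, e, he, fun i => h i (mem_univ i)⟩
  intro s
  induction s using Finset.induction_on with
  | empty => exact ⟨1, fun _ => 1, ⟨fun _ => ⟨one_mem A, .one _⟩,
      fun i j h => absurd (Subsingleton.elim i j) h, by simp⟩, by simp⟩
  | insert i s _ ih =>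
    obtain ⟨n, e, he, h⟩ := ih
    obtain ⟨m, e', he', h'⟩ := h1 i
    obtain ⟨P, hP, r1, r2⟩ := prod_rf hA he he'
    exact ⟨_, P, hP, forall_mem_insert _ _ _ |>.2
      ⟨h2 i _ _ _ _ he' hP r2 h', fun j hj => h2 j _ _ _ _ he hP r1 (h j hj)⟩⟩

theorem one (hA : IsMasa A M) (ht : TraceVec M ξ) {y : H →L[ℂ] H} (hy : y ∈ M)
    (hn : NoAtom A ξ y) {η : ℝ} (hη : 0 < η) : ∃ (n : ℕ) (f : Fin n → H →L[ℂ] H),
      IsPartition A f ∧ ∃ (N : ℕ) (e : Fin N → H →L[ℂ] H), IsPartition A e ∧ Rf e f ∧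
        ∑ l, ‖pin e (star y * f l * y) ξ‖ ^ 2 ≤ η := by
  obtain ⟨n, f, t, hf, hE, hs⟩ := hn (η / 4) (by positivity)
  have zM : ∀ l, star y * f l * y ∈ M := fun l =>
    mul_mem (mul_mem (star_mem hy) (hA.1 _ (hf.1 l).1)) hy
  obtain ⟨κ, hκ⟩ : ∃ κ, κ = √(η / (4 * (n + 1))) := ⟨_, rfl⟩
  have κ0 : 0 < κ := hκ ▸ Real.sqrt_pos.2 (by positivity)
  have κ1 : κ ^ 2 = η / (4 * (n + 1)) := hκ ▸ Real.sq_sqrt (by positivity)
  obtain ⟨N, e, he, h⟩ := all hA (fun l _ e => ‖pin e (star y * f l * y - t l) ξ‖ ≤ κ)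
    (fun l => lq hA ht (zM l) ((hf.1 l).2.isSelfAdjoint.conjugate' y) (hE l) κ0)
    (fun l _ e _ e' he he' hr h => by
      rw [← pin_rf hA he' he hr]
      exact (pin_le hA ht he' (pin_mem hA he (sub_mem (zM l) (hA.1 _ (hE l).1)))).trans h)
  obtain ⟨P, hP, r1, r2⟩ := prod_rf hA he hf
  refine ⟨n, f, hf, _, P, hP, r2, ?_⟩
  have k : ∀ l, ‖pin P (star y * f l * y) ξ‖ ^ 2 ≤ 2 * ‖t l ξ‖ ^ 2 + 2 * κ ^ 2 := by
    intro l
    rw [← pin_rf hA hP he r1]
    have a1 := pin_le hA ht hP (pin_mem hA he (zM l))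
    have a2 := h l
    rw [pin_sub, pin_fix he (z := t l) fun i => hA.2.1 _ (he.1 i).1 _ (hE l).1,
      sub_apply] at a2
    have a3 := norm_le_insert' (pin e (star y * f l * y) ξ) (t l ξ)
    have a4 := pow_le_pow_left₀ (norm_nonneg _) (a1.trans (a3.trans (add_le_add_right a2 _))) 2
    nlinarith [sq_nonneg (‖t l ξ‖ - κ)]
  refine (sum_le_sum fun l _ => k l).trans ?_
  rw [sum_add_distrib, ← mul_sum, sum_const, card_univ, Fintype.card_fin, nsmul_eq_mul, κ1]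
  have : (n : ℝ) * (2 * (η / (4 * (n + 1)))) ≤ η / 2 := by
    rw [← mul_div_assoc, ← mul_div_assoc, div_le_iff₀ (by positivity)]
    nlinarith
  linarith

theorem cutF (hA : IsMasa A M) (ht : TraceVec M ξ) {ι : Type} [Fintype ι] (y : ι → H →L[ℂ] H)
    (hy : ∀ i, y i ∈ M) (hn : ∀ i, NoAtom A ξ (y i)) {ε : ℝ} (hε : 0 < ε) :
    ∃ (N : ℕ) (e : Fin N → H →L[ℂ] H), IsPartition A e ∧ ∃ q ∈ M, IsStarProjection q ∧
      (∀ a, e a * q = q * e a) ∧ ‖(1 - q) ξ‖ ≤ ε ∧ ∀ i a b, ‖e a * y i * e b * q‖ ≤ ε := by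
  have η0 : 0 < ε ^ 6 / (Fintype.card ι + 1) := by positivity
  choose n f hf N0 e0 he0 hr0 hs0 using fun i => one hA ht (hy i) (hn i) η0
  have zM : ∀ i l, star (y i) * f i l * y i ∈ M := fun i l =>
    mul_mem (mul_mem (star_mem (hy i)) (hA.1 _ ((hf i).1 l).1)) (hy i)
  obtain ⟨N, e, he, h⟩ := all hA (fun i _ e => Rf e (f i) ∧
      ∑ l, ‖pin e (star (y i) * f i l * y i) ξ‖ ^ 2 ≤ ε ^ 6 / (Fintype.card ι + 1))
    (fun i => ⟨_, _, he0 i, hr0 i, hs0 i⟩)
    (fun i _ e _ e' he he' hr h => ⟨hr.trans h.1, (sum_le_sum fun l _ => by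
      rw [← pin_rf hA he' he hr]
      exact pow_le_pow_left₀ (norm_nonneg _) (pin_le hA ht he' (pin_mem hA he (zM i l))) 2).trans
        h.2⟩)
  obtain ⟨x, hx⟩ : ∃ x : (i : ι) → Fin (n i) → H →L[ℂ] H,
    x = fun i l => pin e (star (y i) * f i l * y i) := ⟨_, rfl⟩
  have xM : ∀ i l, x i l ∈ M := fun i l => hx ▸ pin_mem hA he (zM i l)
  have xc : ∀ a i l, Commute (e a) (x i l) := fun a i l => by
    rw [hx]
    exact (blk he a _).trans (blk' he a _).symm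
  obtain ⟨W, hW⟩ : ∃ W, W = ∑ i, ∑ l, star (x i l) * x i l := ⟨_, rfl⟩
  have W0 : 0 ≤ W := hW ▸ sum_nonneg fun i _ => sum_nonneg fun l _ => star_mul_self_nonneg _
  have WM : W ∈ M := hW ▸ sum_mem fun i _ => sum_mem fun l _ => mul_mem (star_mem (xM i l)) (xM i l)
  have Wx : ∀ i l, star (x i l) * x i l ≤ W := fun i l => by
    rw [hW]
    exact (single_le_sum (f := fun l => star (x i l) * x i l)
      (fun l _ => star_mul_self_nonneg _) (mem_univ l)).trans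
      (single_le_sum (f := fun i => ∑ l, star (x i l) * x i l)
        (fun i _ => sum_nonneg fun l _ => star_mul_self_nonneg _) (mem_univ i))
  have Wc : ∀ a, Commute (e a) W := fun a => by
    rw [hW]
    refine Commute.sum_right _ _ _ fun i _ => Commute.sum_right _ _ _ fun l _ =>
      Commute.mul_right ?_ (xc a i l)
    have := (xc a i l).star_star
    rwa [(he.1 a).2.isSelfAdjoint.star_eq] at this
  have Wt : (⟪ξ, W ξ⟫_ℂ).re ≤ ε ^ 4 * ε ^ 2 := by
    have : (⟪ξ, W ξ⟫_ℂ).re = ∑ i, ∑ l, ‖x i l ξ‖ ^ 2 := by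
      simp only [hW, _root_.sum_apply, inner_sum, Complex.re_sum, norm_sq_apply]
    rw [this, hx]
    refine (sum_le_sum fun i _ => (h i).2).trans ?_
    rw [sum_const, card_univ, nsmul_eq_mul, ← mul_div_assoc, div_le_iff₀ (by positivity)]
    have : 0 < ε ^ 6 := by positivity
    nlinarith
  have hη : 0 < ε ^ 4 := by positivity
  obtain ⟨E, eM, e1, ec, e2, e3⟩ := spec' M (t := W - ((ε ^ 4 : ℝ) : ℂ) • 1)
    (sub_mem WM (vn_smul_mem _ (one_mem _)))
    (W0.isSelfAdjoint.sub ((show IsSelfAdjoint ((ε ^ 4 : ℝ) : ℂ) from Complex.conj_ofReal _).smul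
      (.one _)))
  obtain ⟨q, hq⟩ : ∃ q, q = 1 - E := ⟨_, rfl⟩
  have qM : q ∈ M := hq ▸ sub_mem (one_mem _) eM
  have q1 : IsStarProjection q := hq ▸ e1.one_sub
  rw [← hq] at e3
  have qc : ∀ a, e a * q = q * e a := fun a => by
    rw [hq]
    exact ((Commute.one_right _).sub_right (ec _ (he.1 a).2.isSelfAdjoint
      ((Wc a).sub_right ((Commute.one_right _).smul_right _)))).eq
  refine ⟨N, e, he, q, qM, q1, qc, ?_, fun i a b => ?_⟩
  · rw [hq, sub_sub_cancel]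
    have t1 := re_nonneg (ξ := ξ) e2
    have t2 := re_nonneg (ξ := ξ) (q1.isSelfAdjoint.conjugate_nonneg W0)
    have t3 : ⟪ξ, (E * W * E) ξ⟫_ℂ + ⟪ξ, (q * W * q) ξ⟫_ℂ = ⟪ξ, W ξ⟫_ℂ := by
      rw [ht.2.1 _ (mul_mem eM WM) _ eM, ht.2.1 _ (mul_mem qM WM) _ qM, ← mul_assoc, ← mul_assoc,
        e1.isIdempotentElem.eq, q1.isIdempotentElem.eq, ← inner_add_right,
        ← add_apply, ← add_mul, hq, add_sub_cancel, one_mul]
    have t4 := congrArg Complex.re t3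
    have t5 := norm_sq_apply E ξ
    rw [e1.isSelfAdjoint.star_eq] at t5
    rw [mul_sub, sub_mul, mul_smul_comm, smul_mul_assoc, mul_one, sub_apply,
      inner_sub_right, smul_apply, inner_smul_right, Complex.sub_re,
      Complex.re_ofReal_mul, ← t5] at t1
    rw [Complex.add_re] at t4
    exact le_of_sq_le hε.le (le_of_mul_le_mul_left (by linarith) hη)
  · obtain ⟨l, hl⟩ := (h i).1 a
    have k1 : ‖x i l * q‖ ≤ ε ^ 2 := by
      refine le_of_sq_le (by positivity) ?_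
      rw [sq, ← CStarRing.norm_star_mul_self]
      refine (CStarAlgebra.norm_le_iff_le_algebraMap _ (by positivity)
        (star_mul_self_nonneg _)).2 ?_
      have a1 := q1.isSelfAdjoint.conjugate_le_conjugate (Wx i l)
      have a2 : q * W * q = ((ε ^ 4 : ℝ) : ℂ) • 1 - ((ε ^ 4 : ℝ) : ℂ) • (1 - q) +
          q * (W - ((ε ^ 4 : ℝ) : ℂ) • 1) * q := by
        simp only [mul_sub, sub_mul, mul_smul_comm, smul_mul_assoc, mul_one,
          q1.isIdempotentElem.eq]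
        module
      have a3 : q * W * q ≤ ((ε ^ 4 : ℝ) : ℂ) • 1 := by
        rw [a2]
        exact (add_le_of_nonpos_right e3).trans (sub_le_self _ (smul_nn hη.le q1.one_sub.nonneg))
      rw [star_mul, q1.isSelfAdjoint.star_eq, Algebra.algebraMap_eq_smul_one, ← Complex.coe_smul,
        ← pow_mul]
      refine le_trans (le_of_eq ?_) (a1.trans a3)
      simp only [mul_assoc]
    have pf := ((hf i).1 l).2
    have k2 : ‖f i l * y i * e b * q‖ ≤ ε := by
      refine le_of_sq_le hε.le ?_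
      rw [sq, ← CStarRing.norm_star_mul_self]
      have : star (f i l * y i * e b * q) * (f i l * y i * e b * q) = q * e b * (x i l * q) := by
        have : e b * x i l = e b * (star (y i) * f i l * y i) * e b := by
          rw [hx]
          exact blk he b _
        rw [star_mul, star_mul, star_mul, q1.isSelfAdjoint.star_eq, pf.isSelfAdjoint.star_eq,
          (he.1 b).2.isSelfAdjoint.star_eq, mul_assoc q (e b), ← mul_assoc (e b) (x i l), this]
        conv_rhs => rw [← pf.isIdempotentElem.eq]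
        simp only [mul_assoc]
      rw [this]
      have a1 := norm_mul_le (q * e b) (x i l * q)
      have a2 : ‖q * e b‖ ≤ 1 := (norm_mul_le _ _).trans
        (mul_le_one₀ q1.norm_le (norm_nonneg _) (he.1 b).2.norm_le)
      have a3 := mul_le_mul_of_nonneg_right a2 (norm_nonneg (x i l * q))
      linarith
    have : e a * y i * e b * q = e a * (f i l * y i * e b * q) := by
      conv_lhs => rw [← hl]
      simp only [mul_assoc]
    rw [this]
    exact (norm_mul_le _ _).trans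
      ((mul_le_of_le_one_left (norm_nonneg _) (he.1 a).2.norm_le).trans k2)

end Vale.Agent.P078.CutA

namespace Vale.Agent.P078

universe u

theorem cut : CutStmt.{u} := by
  intro H _ _ _ A M ξ hA ht y hy hn ε hε
  obtain ⟨N, e, he, q, qM, q1, qc, q2, h⟩ := CutA.cutF hA ht (ι := Unit) (fun _ => y)
    (fun _ => hy) (fun _ => hn) hε
  refine ⟨N, e, he, q, qM, q1, q2, fun a b => ?_⟩
  have : e a * (q * y * q) * e b = q * (e a * y * e b * q) := by
    rw [mul_assoc (e a * y), qc b, ← mul_assoc, ← mul_assoc, ← mul_assoc, ← mul_assoc, qc a]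
    simp only [mul_assoc]
  rw [this]
  exact (norm_mul_le _ _).trans
    ((mul_le_of_le_one_left (norm_nonneg _) q1.norm_le).trans (h () a b))

end Vale.Agent.P078
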