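import Vale.Agent.P078.BK0
import Vale.Agent.P078.Cut

/-! The concrete model for colourings with bounded dependence. -/

namespace Vale.Agent.P078

open Finset
open scoped InnerProductSpace

universe u

namespace BKB

variable {H : Type u} [NormedAddCommGroup H] [InnerProductSpace ℂ H] [CompleteSpace H]
variable {ι : Type} [Fintype ι] [DecidableEq ι] {r : ℕ}

abbrev K (ι : Type) [Fintype ι] (r : ℕ) (H : Type u) := PiLp 2 (fun _ : ι → Fin r => H)

noncomputable def op (T : (ι → Fin r) → H →L[ℂ] H) (s : (ι → Fin r) → ι → Fin r) :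
    K ι r H →L[ℂ] K ι r H :=
  (PiLp.continuousLinearEquiv 2 ℂ (fun _ : ι → Fin r => H)).symm.toContinuousLinearMap ∘L
    ContinuousLinearMap.pi fun w => T w ∘L PiLp.proj 2 (fun _ : ι → Fin r => H) (s w)

theorem op_apply (T : (ι → Fin r) → H →L[ℂ] H) (s : (ι → Fin r) → ι → Fin r) (F : K ι r H)
    (w : ι → Fin r) : op T s F w = T w (F (s w)) := rfl

theorem ext2 {X Y : K ι r H →L[ℂ] K ι r H} (h : ∀ F w, X F w = Y F w) : X = Y :=
  ContinuousLinearMap.ext fun F => PiLp.ext fun w => h F w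

noncomputable def pw : ((ι → Fin r) → H →L[ℂ] H) →ₐ[ℂ] (K ι r H →L[ℂ] K ι r H) where
  toFun T := op T id
  map_one' := ext2 fun _ _ => rfl
  map_mul' _ _ := ext2 fun _ _ => rfl
  map_zero' := ext2 fun _ _ => rfl
  map_add' _ _ := ext2 fun _ _ => rfl
  commutes' _ := ext2 fun _ _ => rfl

theorem pw_apply (T : (ι → Fin r) → H →L[ℂ] H) (F : K ι r H) (w : ι → Fin r) :
    pw T F w = T w (F w) := rfl

theorem pw_sa {T : (ι → Fin r) → H →L[ℂ] H} (h : ∀ w, IsSelfAdjoint (T w)) :
    IsSelfAdjoint (pw T) := by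
  rw [ContinuousLinearMap.isSelfAdjoint_iff_isSymmetric]
  intro F G
  simp only [PiLp.inner_apply, ContinuousLinearMap.coe_coe, pw_apply]
  exact sum_congr rfl fun w _ => (h w).isSymmetric _ _

theorem pw_proj {T : (ι → Fin r) → H →L[ℂ] H} (h : ∀ w, IsStarProjection (T w)) :
    IsStarProjection (pw T) := by
  refine ⟨?_, pw_sa fun w => (h w).isSelfAdjoint⟩
  show pw T * pw T = pw T
  rw [← map_mul]
  exact congrArg _ (funext fun w => (h w).isIdempotentElem.eq)

theorem pw_norm {T : (ι → Fin r) → H →L[ℂ] H} (h : ∀ w, ‖T w‖ ≤ 1) : ‖pw T‖ ≤ 1 := by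
  refine ContinuousLinearMap.opNorm_le_bound _ zero_le_one fun F => ?_
  rw [one_mul]
  refine le_of_sq_le_sq ?_ (norm_nonneg _)
  rw [PiLp.norm_sq_eq_of_L2, PiLp.norm_sq_eq_of_L2]
  refine sum_le_sum fun w _ => pow_le_pow_left₀ (norm_nonneg _) ?_ 2
  exact ((T w).le_opNorm _).trans (mul_le_of_le_one_left (norm_nonneg _) (h w))

noncomputable def E (i : ι) : K ι r H →L[ℂ] K ι r H :=
  (r : ℂ)⁻¹ • ∑ j : Fin r, op (fun _ => 1) fun w => Function.update w i j

theorem E_apply (i : ι) (F : K ι r H) (w : ι → Fin r) :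
    E i F w = (r : ℂ)⁻¹ • ∑ j : Fin r, F (Function.update w i j) := by
  simp only [E, _root_.smul_apply, _root_.sum_apply, PiLp.smul_apply,
    WithLp.ofLp_sum, Finset.sum_apply, op_apply, one_apply_eq_self]

theorem sum_upd {V : Type*} [AddCommMonoid V] (i : ι) (g : (ι → Fin r) → (ι → Fin r) → V) :
    ∑ w, ∑ j, g w (Function.update w i j) = ∑ w, ∑ j, g (Function.update w i j) w := by
  rw [← sum_product', ← sum_product']
  refine sum_nbij' (fun x => (Function.update x.1 i x.2, x.1 i))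
    (fun x => (Function.update x.1 i x.2, x.1 i)) ?_ ?_ ?_ ?_ ?_ <;> simp

theorem avg_const {V : Type*} [AddCommGroup V] [Module ℂ V] (hr : r ≠ 0) (v : V) :
    (r : ℂ)⁻¹ • ∑ _j : Fin r, v = v := by
  rw [sum_const, card_univ, Fintype.card_fin, ← Nat.cast_smul_eq_nsmul ℂ, smul_smul,
    inv_mul_cancel₀ (Nat.cast_ne_zero.2 hr), one_smul]

theorem E_upd (i : ι) (F : K ι r H) (w : ι → Fin r) (j : Fin r) :
    E i F (Function.update w i j) = E i F w := by
  simp only [E_apply, Function.update_idem]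

theorem E_proj (hr : r ≠ 0) (i : ι) : IsStarProjection (E i : K ι r H →L[ℂ] K ι r H) := by
  refine ⟨ext2 fun F w => ?_, ?_⟩
  · rw [mul_apply_eq_comp, E_apply]
    simp only [E_upd]
    exact avg_const hr _
  · rw [ContinuousLinearMap.isSelfAdjoint_iff_isSymmetric]
    intro F G
    simp only [PiLp.inner_apply, ContinuousLinearMap.coe_coe, E_apply, inner_smul_left,
      inner_smul_right, sum_inner, inner_sum, map_inv₀, map_natCast, ← mul_sum]
    rw [sum_upd i fun w w' => ⟪F w', G w⟫_ℂ]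

theorem E_comm (i l : ι) : Commute (E i : K ι r H →L[ℂ] K ι r H) (E l) := by
  by_cases h : i = l
  · rw [h]
  refine ext2 fun F w => ?_
  simp only [mul_apply_eq_comp, E_apply, ← smul_sum]
  rw [sum_comm]
  simp only [Function.update_comm h]

/-- Invariance in the coordinate `i`. -/
def Inv (i : ι) (T : (ι → Fin r) → H →L[ℂ] H) : Prop := ∀ w j, T (Function.update w i j) = T w

theorem Inv.comm {i : ι} {T : (ι → Fin r) → H →L[ℂ] H} (h : Inv i T) : Commute (pw T) (E i) := by
  refine ext2 fun F w => ?_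
  simp only [mul_apply_eq_comp, E_apply, pw_apply, map_smul, map_sum, h w]

noncomputable def avg (i : ι) (T : (ι → Fin r) → H →L[ℂ] H) (w : ι → Fin r) : H →L[ℂ] H :=
  (r : ℂ)⁻¹ • ∑ j : Fin r, T (Function.update w i j)

theorem E_pw_E (i : ι) (T : (ι → Fin r) → H →L[ℂ] H) :
    E i * pw T * E i = pw (avg i T) * E i := by
  refine ext2 fun F w => ?_
  rw [mul_apply_eq_comp, mul_apply_eq_comp, mul_apply_eq_comp, E_apply, pw_apply]
  simp only [pw_apply, E_upd, avg, _root_.smul_apply, _root_.sum_apply]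

theorem avg_inv (i : ι) (T : (ι → Fin r) → H →L[ℂ] H) : Inv i (avg i T) := fun w j => by
  simp only [avg, Function.update_idem]

theorem Inv.avg {l : ι} {T : (ι → Fin r) → H →L[ℂ] H} (h : Inv l T) (i : ι) :
    Inv l (avg i T) := fun w j => by
  by_cases e : l = i
  · rw [e]; exact avg_inv i T w j
  · simp only [BKB.avg, Function.update_comm e, h _ j]

theorem avg_sum (hr : r ≠ 0) (i : ι) (T : (ι → Fin r) → H →L[ℂ] H) :
    ∑ w, avg i T w = ∑ w, T w := by
  simp only [avg, ← smul_sum]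
  rw [sum_upd i fun _ w' => T w', sum_comm]
  exact avg_const hr _

theorem inv_const {T : (ι → Fin r) → H →L[ℂ] H} (h : ∀ i, Inv i T) (w w' : ι → Fin r) :
    T w' = T w := by
  have k : ∀ S : Finset ι, T (S.piecewise w' w) = T w := fun S => by
    induction S using Finset.induction_on with
    | empty => rw [piecewise_empty]
    | insert i S _ ih => rw [piecewise_insert, h i, ih]
  simpa using k univ

variable {D A : Finset ι → K ι r H →L[ℂ] K ι r H}

theorem A_pw (hr : r ≠ 0) (h : DC E D A) (T : (ι → Fin r) → H →L[ℂ] H) (N : Finset ι) :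
    ∃ U, A N * pw T * A N = pw U * A N ∧ (∀ i, i ∈ N ∨ Inv i T → Inv i U) ∧
      ∑ w, U w = ∑ w, T w := by
  induction N using Finset.induction_on with
  | empty => exact ⟨T, by rw [h.A0, one_mul], fun i hi => hi.resolve_left (by simp), rfl⟩
  | insert i N _ ih =>
    obtain ⟨U, h1, h2, h3⟩ := ih
    have c : E i * A N = A N * E i := h.Ac _ _ fun l _ => E_comm i l
    refine ⟨avg i U, ?_, fun l hl => ?_, by rw [avg_sum hr, h3]⟩
    · calc A (insert i N) * pw T * A (insert i N) = E i * (A N * pw T * A N) * E i := by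
            rw [h.Ai]
            conv_lhs => enter [2]; rw [c]
            simp only [mul_assoc]
        _ = E i * pw U * E i * A N := by
            rw [h1, mul_assoc, mul_assoc, ← c]
            simp only [mul_assoc]
        _ = _ := by rw [E_pw_E, h.Ai, mul_assoc]
    · by_cases e : l = i
      · rw [e]; exact avg_inv i U
      · exact (h2 l (hl.imp_left fun hl => (mem_insert.1 hl).resolve_left e)).avg i

theorem A_mean (hr : r ≠ 0) (h : DC E D A) {T : (ι → Fin r) → H →L[ℂ] H} {N : Finset ι}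
    (hT : ∀ i ∉ N, Inv i T) {z : H →L[ℂ] H}
    (hs : ∑ w, T w = (Fintype.card (ι → Fin r) : ℂ) • z) :
    A N * pw T * A N = pw (fun _ => z) * A N := by
  obtain ⟨U, h1, h2, h3⟩ := A_pw hr h T N
  have : U = fun _ => z := funext fun w => by
    have k : ∑ w', U w' = (Fintype.card (ι → Fin r) : ℂ) • U w := by
      rw [sum_congr rfl fun w' _ => inv_const (fun i => h2 i ((em _).imp_right (hT i))) w w',
        sum_const, card_univ, Nat.cast_smul_eq_nsmul]
    have : Nonempty (ι → Fin r) := ⟨w⟩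
    exact smul_right_injective _ (Nat.cast_ne_zero.2 Fintype.card_ne_zero) (by
      simp only; rw [← k, h3, hs])
  rw [h1, this]

/-- The constant vector. -/
noncomputable def cst (ι : Type) [Fintype ι] (r : ℕ) (ξ : H) : K ι r H :=
  WithLp.toLp 2 fun _ => ξ

theorem cst_apply (ξ : H) (w : ι → Fin r) : cst ι r ξ w = ξ := rfl

theorem cst_sq {ξ : H} (h : ‖ξ‖ = 1) : ‖cst ι r ξ‖ ^ 2 = Fintype.card (ι → Fin r) := by
  rw [PiLp.norm_sq_eq_of_L2]
  simp only [cst_apply, h, one_pow, sum_const, card_univ, nsmul_eq_mul, mul_one]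

variable {M : VonNeumannAlgebra H} {ξ : H}

theorem D_pw (hr : r ≠ 0) (h : DC E D A) {W : (ι → Fin r) → H →L[ℂ] H} (hW : ∀ w, W w ∈ M)
    (hn : ∀ w, ‖W w‖ ≤ 1) (U : Finset ι) : ∃ X : (ι → Fin r) → H →L[ℂ] H, (∀ w, X w ∈ M) ∧
      (∀ w, ‖X w‖ ≤ 2 ^ U.card) ∧ D U (pw W (cst ι r ξ)) = pw X (cst ι r ξ) := by
  induction U using Finset.induction_on with
  | empty => exact ⟨W, hW, by simpa using hn, by rw [h.D0, one_apply_eq_self]⟩
  | insert i U hi ih =>
    obtain ⟨X, h1, h2, h3⟩ := ih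
    refine ⟨fun w => X w - avg i X w, fun w => sub_mem (h1 w) ?_, fun w => ?_, ?_⟩
    · exact M.toStarSubalgebra.smul_mem (sum_mem fun j _ => h1 _) _
    · have r0 : (0 : ℝ) < r := by exact_mod_cast Nat.pos_of_ne_zero hr
      have : ‖avg i X w‖ ≤ 2 ^ U.card := by
        rw [avg, norm_smul, norm_inv, Complex.norm_natCast, inv_mul_le_iff₀ r0]
        refine (norm_sum_le _ _).trans ((sum_le_card_nsmul _ _ _ fun j _ => h2 _).trans ?_)
        rw [card_univ, Fintype.card_fin, nsmul_eq_mul]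
      rw [card_insert_of_notMem hi, pow_succ]
      linarith [norm_sub_le (X w) (avg i X w), h2 w]
    · rw [h.Di, mul_apply_eq_comp, h3]
      refine PiLp.ext fun w => ?_
      simp only [_root_.sub_apply, one_apply_eq_self, PiLp.sub_apply, E_apply,
        pw_apply, cst_apply, avg, _root_.smul_apply, _root_.sum_apply]

theorem nsq (x : H →L[ℂ] H) : ((‖x ξ‖ ^ 2 : ℝ) : ℂ) = ⟪ξ, (star x * x) ξ⟫_ℂ := by
  rw [mul_apply_eq_comp, ContinuousLinearMap.star_eq_adjoint,
    ContinuousLinearMap.adjoint_inner_right, inner_self_eq_norm_sq_to_K]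
  push_cast
  rfl

theorem tr_est (ht : TraceVec M ξ) {z X : H →L[ℂ] H} (hz : z ∈ M) (hX : X ∈ M) :
    ‖z (X ξ)‖ ^ 2 ≤ ‖(star z * z) ξ‖ * ‖X‖ * ‖X ξ‖ := by
  have sX : star X ∈ M := star_mem hX
  have zz : star z * z ∈ M := mul_mem (star_mem hz) hz
  have k1 : ‖star X ξ‖ = ‖X ξ‖ := by
    rw [← sq_eq_sq₀ (norm_nonneg _) (norm_nonneg _), ← Complex.ofReal_inj, nsq, nsq, star_star,
      ht.2.1 _ hX _ sX]
  have k2 : ((‖z (X ξ)‖ ^ 2 : ℝ) : ℂ) = ⟪(star z * z) ξ, X (star X ξ)⟫_ℂ := by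
    have sa : IsSelfAdjoint (star z * z) := IsSelfAdjoint.star_mul_self z
    rw [← mul_apply_eq_comp z, nsq, star_mul, mul_assoc, ← mul_assoc (star z),
      ht.2.1 _ sX _ (mul_mem zz hX), mul_assoc, mul_apply_eq_comp (star z * z), mul_apply_eq_comp X]
    exact (sa.isSymmetric _ _).symm
  have k3 : ‖z (X ξ)‖ ^ 2 = ‖⟪(star z * z) ξ, X (star X ξ)⟫_ℂ‖ := by
    rw [← k2, Complex.norm_real, Real.norm_eq_abs, abs_of_nonneg (sq_nonneg _)]
  rw [k3, mul_assoc, ← k1]
  exact (norm_inner_le_norm _ _).trans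
    (mul_le_mul_of_nonneg_left (X.le_opNorm _) (norm_nonneg _))

theorem key (ht : TraceVec M ξ) {z : H →L[ℂ] H} (hz : z ∈ M) {X : (ι → Fin r) → H →L[ℂ] H}
    (hX : ∀ w, X w ∈ M) {c : ℝ} (hc : 0 ≤ c) (hn : ∀ w, ‖X w‖ ≤ c) :
    ‖pw (fun _ => z) (pw X (cst ι r ξ))‖ ^ 2 ≤
      ‖(star z * z) ξ‖ * c * ‖cst ι r ξ‖ * ‖pw X (cst ι r ξ)‖ := by
  have k : ∑ w, ‖X w ξ‖ ≤ ‖cst ι r ξ‖ * ‖pw X (cst ι r ξ)‖ := by
    refine le_of_sq_le_sq ?_ (by positivity)
    rw [mul_pow, cst_sq ht.1, PiLp.norm_sq_eq_of_L2]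
    simpa only [card_univ, pw_apply, cst_apply] using
      sq_sum_le_card_mul_sum_sq (s := univ) (f := fun w => ‖X w ξ‖)
  rw [PiLp.norm_sq_eq_of_L2, mul_assoc]
  refine le_trans ?_ (mul_le_mul_of_nonneg_left k (by positivity))
  rw [mul_sum]
  refine sum_le_sum fun w _ => (tr_est ht hz (hX w)).trans ?_
  have := hn w
  gcongr

theorem part_sum {α : Type} [Fintype α] {e : α → H →L[ℂ] H} (he : W.Part M e) (s : Finset α) :
    IsStarProjection (∑ a ∈ s, e a) := by
  refine ⟨?_, isSelfAdjoint_sum _ fun a _ => (he.proj a).isSelfAdjoint⟩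
  show _ * _ = _
  rw [sum_mul]
  refine sum_congr rfl fun a ha => ?_
  rw [mul_sum, sum_eq_single_of_mem a ha fun b _ hb => he.orth _ _ hb.symm,
    (he.proj a).isIdempotentElem.eq]

end BKB

open BKB in
theorem block2b (hA : BKA.{u}) (hC : BKC.{u}) : Block2Stmt.{u} := by
  intro r n d hr η hη
  obtain ⟨ε, hε, hC⟩ := hC r n d hr η hη
  refine ⟨ε, hε, fun H _ _ _ M ξ ht ι α _ _ _ e N p y he hN hp hpe hdep hsum hy hs hn hΨ => ?_⟩
  have r0 : r ≠ 0 := by omega
  obtain ⟨D, A, h⟩ := hA (K ι r H) ι E (E_proj r0) E_comm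
  have cI : ∀ (z : H →L[ℂ] H) (i : ι), Commute (pw fun _ : ι → Fin r => z) (E i) := fun z i =>
    Inv.comm fun _ _ => rfl
  have pin_eq : R.pin (fun k => pw fun w => p w k) (pw fun _ => y) =
      pw fun w => R.pin (p w) y := by
    simp only [R.pin, ← map_mul, ← map_sum]
    exact congrArg _ (funext fun w => by simp only [Finset.sum_apply, Pi.mul_apply])
  have cs : ∀ s : Finset α, ∑ a ∈ s, pw (fun _ : ι → Fin r => e a) =
      pw fun _ => ∑ a ∈ s, e a := fun s => by
    rw [← map_sum]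
    exact congrArg _ (funext fun w => by simp only [Finset.sum_apply])
  have inv : ∀ k a, ∀ i ∉ N a, BKB.Inv i fun w => p w k * e a := fun k a i hi w j =>
    hdep _ _ k a fun l hl => Function.update_of_ne (by rintro rfl; exact hi hl) _ _
  have main := hC (K ι r H) ι α E D A (fun a => pw fun _ => e a) N (fun k => pw fun w => p w k)
    (pw fun _ => y) (cst ι r ξ)
    (fun S T => ‖((∑ a with T ⊆ N a, e a) * y * (∑ a with S ⊆ N a, e a) * y *
      ∑ a with T ⊆ N a, e a) ξ‖) h E_comm (fun a => pw_proj fun _ => he.proj a)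
    (fun a b hab => by
      rw [← map_mul, ← map_zero pw]
      exact congrArg _ (funext fun _ => he.orth a b hab))
    (by rw [cs, he.sum]; exact map_one pw) hN (fun k => pw_proj fun w => (hp w).proj k)
    (fun k l hkl => by
      rw [← map_mul, ← map_zero pw]
      exact congrArg _ (funext fun w => (hp w).orth k l hkl))
    (by
      rw [← map_sum, ← map_one pw]
      exact congrArg _ (funext fun w => by rw [Finset.sum_apply]; exact (hp w).sum))
    (pw_sa fun _ => hs) (pw_norm fun _ => hn) (fun a i => cI _ i) (cI y)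
    (fun k a => by
      show _ * _ = _ * _
      rw [← map_mul, ← map_mul]
      exact congrArg _ (funext fun w => hpe w k a))
    (fun k a i hi => by rw [← map_mul]; exact (inv k a i hi).comm)
    (fun k a => by
      have k1 := A_mean r0 h (inv k a) (z := (r : ℂ)⁻¹ • e a) (by
        rw [← sum_mul, hsum, smul_mul_assoc, one_mul, smul_smul, div_eq_mul_inv])
      have k2 : pw (fun _ : ι → Fin r => (r : ℂ)⁻¹ • e a) = (r : ℂ)⁻¹ • pw fun _ => e a :=
        ext2 fun _ _ => rfl
      rw [← map_mul, ← smul_mul_assoc, ← k2]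
      exact k1)
    (fun i => PiLp.ext fun w => by
      rw [E_apply]
      exact avg_const r0 ξ)
    hΨ
    (fun j k S T => by
      have pp : ∀ w, IsPartition M (p w) := fun w =>
        ⟨fun l => ⟨(hp w).mem l, (hp w).proj l⟩, (hp w).orth, (hp w).sum⟩
      have pM : ∀ w, R.pin (p w) y ∈ M := fun w =>
        sum_mem fun l _ => mul_mem (mul_mem ((hp w).mem l) hy) ((hp w).mem l)
      obtain ⟨X, x1, x2, x3⟩ := D_pw (ξ := ξ) (M := M) r0 h
        (W := fun w => p w k * R.pin (p w) y ^ j)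
        (fun w => mul_mem ((hp w).mem k) (pow_mem (pM w) j)) (fun w => by
          refine (norm_mul_le _ _).trans (mul_le_one₀ ((hp w).proj k).norm_le (norm_nonneg _) ?_)
          induction j with
          | zero => rw [pow_zero]; exact ContinuousLinearMap.norm_id_le
          | succ j ih =>
            rw [pow_succ]
            exact (norm_mul_le _ _).trans (mul_le_one₀ ih (norm_nonneg _)
              ((CutA.pin_norm (pp w) hs).trans hn))) (S ∪ T)
      have e1 : (pw fun w => p w k) ((R.pin (fun k => pw fun w => p w k) (pw fun _ => y) ^ j)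
          (cst ι r ξ)) = pw (fun w => p w k * R.pin (p w) y ^ j) (cst ι r ξ) := by
        rw [pin_eq, ← map_pow, ← mul_apply_eq_comp, ← map_mul]
        rfl
      have sS := part_sum he (univ.filter fun a => S ⊆ N a)
      have sT := part_sum he (univ.filter fun a => T ⊆ N a)
      have mS : ∀ s : Finset α, ∑ a ∈ s, e a ∈ M := fun s => sum_mem fun a _ => he.mem a
      have k1 := key ht (z := (∑ a with S ⊆ N a, e a) * y * ∑ a with T ⊆ N a, e a)
        (mul_mem (mul_mem (mS _) hy) (mS _)) x1 (by positivity) x2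
      rw [e1, x3, cs, cs, ← map_mul, ← map_mul]
      refine k1.trans (le_of_eq ?_)
      rw [star_mul, star_mul, sS.isSelfAdjoint.star_eq, sT.isSelfAdjoint.star_eq, hs.star_eq]
      simp only [mul_assoc]
      rw [← mul_assoc (∑ a with S ⊆ N a, e a), sS.isIdempotentElem.eq])
  have : Nonempty (Fin r) := ⟨⟨0, by omega⟩⟩
  obtain ⟨w, -, hw⟩ := exists_le_of_sum_le (s := univ) univ_nonempty
    (f := fun w : ι → Fin r => (⟪ξ, (R.pin (p w) y ^ n) ξ⟫_ℂ).re)
    (g := fun _ => (2 / √r) ^ n + η) (by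
      rw [pin_eq, ← map_pow, cst_sq ht.1, PiLp.inner_apply, Complex.re_sum] at main
      rw [sum_const, card_univ, nsmul_eq_mul, mul_comm]
      exact main)
  exact ⟨w, hw⟩

end Vale.Agent.P078
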