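import Vale.Agent.P078.Stm2

/-! A random colouring of small blocks. -/

namespace Vale.Agent.P078

open scoped InnerProductSpace

namespace Blk

open Finset

variable {H : Type*} [NormedAddCommGroup H] [InnerProductSpace ℂ H] [CompleteSpace H]
variable {ι : Type} [Fintype ι] [DecidableEq ι]

theorem rei {M : Type*} [AddCommMonoid M] (a : ι) (F : Finset ι → M) :
    ∑ S, F S = ∑ S, if a ∈ S then 0 else F S + F (insert a S) := by
  have h1 : ∑ S, F S = ∑ S with a ∉ S, F S + ∑ S with a ∈ S, F S := by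
    rw [add_comm, sum_filter_add_sum_filter_not]
  have h2 : ∑ S with a ∈ S, F S = ∑ S with a ∉ S, F (insert a S) := by
    refine sum_nbij' (fun S => S.erase a) (fun S => insert a S) ?_ ?_ ?_ ?_ ?_
    · intro S _; simp
    · intro S _; simp
    · intro S h; exact insert_erase (by simpa using h)
    · intro S h; exact erase_insert (by simpa using h)
    · intro S h; rw [insert_erase (by simpa using h)]
  rw [h1, h2, ← sum_add_distrib, sum_filter]
  exact sum_congr rfl fun S _ => by split_ifs <;> simp_all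

/-- The space of excitations. -/
abbrev L (ι : Type) (H : Type*) := PiLp 2 (fun _ : Finset ι => H)

/-- Orthogonal projections with sum one. -/
structure Pa (e : ι → H →L[ℂ] H) : Prop where
  pr : ∀ a, IsStarProjection (e a)
  ort : ∀ a b, a ≠ b → e a * e b = 0
  one : ∑ a, e a = 1

noncomputable def bld (e : ι → H →L[ℂ] H) (G : ι → Finset ι → H) : L ι H :=
  WithLp.toLp 2 fun S => ∑ a, e a (G a S)

variable {e : ι → H →L[ℂ] H}

theorem Pa.ee (h : Pa e) (a : ι) (w : H) : e a (e a w) = e a w := by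
  rw [← mul_apply_eq_comp, (h.pr a).isIdempotentElem.eq]

theorem Pa.sym (h : Pa e) (a : ι) (u w : H) : ⟪e a u, w⟫_ℂ = ⟪u, e a w⟫_ℂ :=
  (h.pr a).isSelfAdjoint.isSymmetric u w

theorem Pa.sum (h : Pa e) (a : ι) (g : ι → H) : e a (∑ b, e b (g b)) = e a (g a) := by
  rw [map_sum, sum_eq_single a, h.ee]
  · intro b _ hb
    rw [← mul_apply_eq_comp, h.ort _ _ hb.symm, zero_apply]
  · simp

theorem Pa.tot (h : Pa e) (w : H) : ∑ a, e a w = w := by
  rw [← _root_.sum_apply, h.one, one_apply_eq_self]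

theorem Pa.mk_e (h : Pa e) (G : ι → Finset ι → H) (a : ι) (S : Finset ι) :
    e a (bld e G S) = e a (G a S) := h.sum a _

theorem Pa.ipH (h : Pa e) (u w : H) : ⟪u, w⟫_ℂ = ∑ a, ⟪e a u, e a w⟫_ℂ := by
  conv_lhs => rw [← h.tot w, inner_sum]
  exact sum_congr rfl fun a _ => by rw [h.sym, h.ee]

theorem Pa.ip (h : Pa e) (u w : L ι H) : ⟪u, w⟫_ℂ = ∑ a, ∑ S, ⟪e a (u S), e a (w S)⟫_ℂ := by
  rw [PiLp.inner_apply, sum_comm]
  exact sum_congr rfl fun S _ => h.ipH _ _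

theorem Pa.nsq (h : Pa e) (u : L ι H) : ‖u‖ ^ 2 = ∑ a, ∑ S, ‖e a (u S)‖ ^ 2 := by
  have := h.ip u u
  simp only [inner_self_eq_norm_sq_to_K] at this
  exact_mod_cast this

noncomputable def D (e : ι → H →L[ℂ] H) (α β : ℝ) (v : L ι H) : L ι H :=
  bld e fun a S => if a ∈ S then (β : ℂ) • v (S.erase a) else (α : ℂ) • v S

noncomputable def Ws (e : ι → H →L[ℂ] H) (α β : ℝ) (v : L ι H) : L ι H :=
  bld e fun a S => if a ∈ S then 0 else (α : ℂ) • v S + (β : ℂ) • v (insert a S)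

noncomputable def Pw (T : Finset ι → H →L[ℂ] H) (v : L ι H) : L ι H :=
  WithLp.toLp 2 fun S => T S (v S)

theorem Pw_le (T : Finset ι → H →L[ℂ] H) {c : ℝ} (hc : 0 ≤ c) (hT : ∀ S, ‖T S‖ ≤ c) (v : L ι H) :
    ‖Pw T v‖ ≤ c * ‖v‖ := by
  refine le_of_sq_le_sq ?_ (by positivity)
  rw [mul_pow, PiLp.norm_sq_eq_of_L2, PiLp.norm_sq_eq_of_L2, mul_sum]
  refine sum_le_sum fun S _ => ?_
  rw [← mul_pow]
  have : ‖T S (v S)‖ ≤ c * ‖v S‖ :=
    ((T S).le_opNorm _).trans (mul_le_mul_of_nonneg_right (hT S) (norm_nonneg _))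
  exact pow_le_pow_left₀ (norm_nonneg _) this 2

theorem Pa.D_le (h : Pa e) {α β c : ℝ} (hc : 0 ≤ c) (hab : α ^ 2 + β ^ 2 ≤ c ^ 2) (v : L ι H) :
    ‖D e α β v‖ ≤ c * ‖v‖ := by
  refine le_of_sq_le_sq ?_ (by positivity)
  rw [mul_pow, h.nsq, h.nsq, mul_sum]
  refine sum_le_sum fun a _ => ?_
  rw [rei a, mul_sum]
  refine sum_le_sum fun S _ => ?_
  split_ifs with hS
  · positivity
  · simp only [D, h.mk_e, hS, if_false, mem_insert_self, if_true, erase_insert hS, map_smul,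
      norm_smul, Complex.norm_real, Real.norm_eq_abs, mul_pow, sq_abs]
    nlinarith [sq_nonneg ‖e a (v S)‖]

theorem Pa.adj (h : Pa e) (α β : ℝ) (u v : L ι H) : ⟪u, Ws e α β v⟫_ℂ = ⟪D e α β u, v⟫_ℂ := by
  rw [h.ip, h.ip]
  refine sum_congr rfl fun a _ => ?_
  rw [rei a fun S => ⟪e a (D e α β u S), e a (v S)⟫_ℂ]
  refine sum_congr rfl fun S _ => ?_
  split_ifs with hS
  · simp only [Ws, h.mk_e, hS, if_true, map_zero, inner_zero_right]
  · simp only [Ws, D, h.mk_e, hS, if_false, mem_insert_self, if_true, erase_insert hS, map_smul,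
      map_add, inner_add_right, inner_smul_right, inner_smul_left, Complex.conj_ofReal]

theorem D_lin (α β : ℝ) (v : L ι H) :
    D e α β v = (α : ℂ) • D e 1 0 v + (β : ℂ) • D e 0 1 v := by
  ext S
  simp only [D, bld, PiLp.add_apply, PiLp.smul_apply, smul_sum, ← sum_add_distrib]
  exact sum_congr rfl fun a _ => by split_ifs <;> simp

theorem Pw_lin (T : Finset ι → H →L[ℂ] H) (α β : ℂ) (u v : L ι H) :
    Pw T (α • u + β • v) = α • Pw T u + β • Pw T v := by
  ext S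
  simp [Pw]

def Deg (d : ℕ) (v : L ι H) : Prop := ∀ S : Finset ι, d ≤ S.card → v S = 0

theorem Deg.D {d : ℕ} {v : L ι H} (h : Deg d v) (α β : ℝ) : Deg (d + 1) (D e α β v) := by
  intro S hS
  refine sum_eq_zero fun a _ => ?_
  beta_reduce
  split_ifs with ha
  · rw [h _ (by rw [card_erase_of_mem ha]; omega), smul_zero, map_zero]
  · rw [h _ (by omega), smul_zero, map_zero]

theorem Deg.Ws {d : ℕ} {v : L ι H} (h : Deg d v) (α β : ℝ) : Deg d (Ws e α β v) := by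
  intro S hS
  refine sum_eq_zero fun a _ => ?_
  beta_reduce
  split_ifs with ha
  · exact map_zero _
  · rw [h _ hS, h _ (hS.trans (card_le_card (subset_insert _ _)))]; simp

theorem Deg.Pw {d : ℕ} {v : L ι H} (h : Deg d v) (T : Finset ι → H →L[ℂ] H) : Deg d (Pw T v) :=
  fun S hS => by
    show T S (v S) = 0
    rw [h S hS, map_zero]

theorem Pa.qC (h : Pa e) (v : L ι H) (S : Finset ι) :
    (∑ a ∈ S, e a) (D e 0 1 v S) = D e 0 1 v S := by
  conv_rhs => rw [← h.tot (D e 0 1 v S), ← sum_filter_add_sum_filter_not univ (· ∈ S)]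
  rw [_root_.sum_apply, filter_mem_eq_inter, univ_inter, left_eq_add]
  refine sum_eq_zero fun a ha => ?_
  simp only [D, h.mk_e, (mem_filter.1 ha).2, if_false]
  simp

theorem Pa.small (h : Pa e) {y : H →L[ℂ] H} {ε : ℝ} (h0 : 0 ≤ ε) (hε : ∀ a b, ‖e a * y * e b‖ ≤ ε)
    {d : ℕ} (u : L ι H) {v : L ι H} (hv : Deg d v) :
    ‖⟪D e 0 1 u, Pw (fun _ => y) (D e 0 1 v)⟫_ℂ‖ ≤ ‖u‖ * (d ^ 2 * ε * ‖v‖) := by
  have k : ⟪D e 0 1 u, Pw (fun _ => y) (D e 0 1 v)⟫_ℂ = ⟪D e 0 1 u, Pw (fun S =>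
      if S.card ≤ d then (∑ a ∈ S, e a) * y * ∑ a ∈ S, e a else 0) (D e 0 1 v)⟫_ℂ := by
    rw [PiLp.inner_apply, PiLp.inner_apply]
    refine sum_congr rfl fun S _ => ?_
    simp only [Pw]
    split_ifs with hS
    · have hs : IsSelfAdjoint (∑ a ∈ S, e a) :=
        isSelfAdjoint_sum _ fun a _ => (h.pr a).isSelfAdjoint
      rw [mul_apply_eq_comp, mul_apply_eq_comp, h.qC,
        ← ContinuousLinearMap.adjoint_inner_left (∑ a ∈ S, e a), hs.adjoint_eq, h.qC]
    · rw [hv.D 0 1 S (by omega)]; simp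
  have n1 : ∀ w, ‖D e 0 1 w‖ ≤ ‖w‖ := fun w => by
    simpa using h.D_le (α := 0) (β := 1) zero_le_one (by norm_num) w
  rw [k]
  refine (norm_inner_le_norm _ _).trans (mul_le_mul (n1 u) ?_ (norm_nonneg _) (norm_nonneg _))
  refine (Pw_le _ (c := d ^ 2 * ε) (by positivity) (fun S => ?_) _).trans
    (mul_le_mul_of_nonneg_left (n1 v) (by positivity))
  split_ifs with hS
  · rw [sum_mul, sum_mul]
    refine (norm_sum_le _ _).trans ((sum_le_card_nsmul _ _ (S.card * ε) fun a _ => ?_).trans ?_)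
    · rw [mul_sum]
      refine (norm_sum_le _ _).trans ((sum_le_card_nsmul _ _ ε fun b _ => hε a b).trans ?_)
      rw [nsmul_eq_mul]
    · have : (S.card : ℝ) ≤ d := by exact_mod_cast hS
      rw [nsmul_eq_mul, ← mul_assoc, ← sq]
      gcongr
  · rw [norm_zero]; positivity

theorem Pa.step (h : Pa e) {y : H →L[ℂ] H} (hy : ‖y‖ ≤ 1) {ε : ℝ} (h0 : 0 ≤ ε)
    (hε : ∀ a b, ‖e a * y * e b‖ ≤ ε) {t s : ℝ} (ht : 0 ≤ t) (hs : t ^ 2 + s ^ 2 = 1)
    {d : ℕ} {v : L ι H} (hv : Deg d v) :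
    ‖Ws e t s (Pw (fun _ => y) (D e t s v))‖ ≤ (2 * t + d ^ 2 * ε) * ‖v‖ := by
  set u := Ws e t s (Pw (fun _ => y) (D e t s v)) with hu
  have nP : ∀ w, ‖D e 1 0 w‖ ≤ ‖w‖ := fun w => by
    simpa using h.D_le (α := 1) (β := 0) zero_le_one (by norm_num) w
  have nA : ∀ w, ‖D e (t ^ 2 / 2) (t * s) w‖ ≤ t * ‖w‖ := fun w =>
    h.D_le ht (by nlinarith [sq_nonneg (t ^ 2)]) w
  have nY : ∀ w : L ι H, ‖Pw (fun _ => y) w‖ ≤ ‖w‖ := fun w => by
    simpa using Pw_le (fun _ => y) zero_le_one (fun _ => hy) w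
  have k : ⟪u, u⟫_ℂ = ⟪D e 1 0 u, Pw (fun _ => y) (D e (t ^ 2 / 2) (t * s) v)⟫_ℂ +
      ⟪D e (t ^ 2 / 2) (t * s) u, Pw (fun _ => y) (D e 1 0 v)⟫_ℂ +
      (s ^ 2 : ℝ) * ⟪D e 0 1 u, Pw (fun _ => y) (D e 0 1 v)⟫_ℂ := by
    conv_lhs => enter [3]; rw [hu]
    rw [h.adj, D_lin t s u, D_lin t s v, D_lin (t ^ 2 / 2) _ u, D_lin (t ^ 2 / 2) _ v]
    simp only [Pw_lin, inner_add_left, inner_add_right, inner_smul_left, inner_smul_right,
      Complex.conj_ofReal]
    push_cast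
    ring
  have b1 := (norm_inner_le_norm (𝕜 := ℂ) _ _).trans (mul_le_mul (nP u) ((nY _).trans (nA v))
    (norm_nonneg _) (norm_nonneg _))
  have b2 := (norm_inner_le_norm (𝕜 := ℂ) _ _).trans (mul_le_mul (nA u) ((nY _).trans (nP v))
    (norm_nonneg _) (by positivity))
  have b3 := h.small h0 hε u hv
  have b4 : ‖((s ^ 2 : ℝ) : ℂ) * ⟪D e 0 1 u, Pw (fun _ => y) (D e 0 1 v)⟫_ℂ‖ ≤
      ‖u‖ * (d ^ 2 * ε * ‖v‖) := by
    rw [norm_mul, Complex.norm_real, Real.norm_eq_abs, abs_of_nonneg (sq_nonneg s)]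
    exact (mul_le_of_le_one_left (norm_nonneg _) (by nlinarith [sq_nonneg t])).trans b3
  have b5 : ‖u‖ * ‖u‖ ≤ ‖u‖ * ((2 * t + d ^ 2 * ε) * ‖v‖) := by
    have e1 : ‖⟪u, u⟫_ℂ‖ = ‖u‖ * ‖u‖ := by
      rw [inner_self_eq_norm_sq_to_K, norm_pow, sq]; simp
    rw [← e1, k]
    refine (norm_add₃_le).trans ?_
    nlinarith
  rcases (norm_nonneg u).eq_or_lt with h1 | h1
  · rw [← h1]; positivity
  · exact le_of_mul_le_mul_left b5 h1

variable {r : ℕ}

noncomputable def ph (t s : ℝ) (k c : Fin r) : ℝ := if c = k then s / t else -t / s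

noncomputable def J (t s : ℝ) (k : Fin r) (ω : ι → Fin r) (v : L ι H) : H :=
  ∑ S, ((∏ a ∈ S, ph t s k (ω a) : ℝ) : ℂ) • v S

theorem J_y (t s : ℝ) (k : Fin r) (ω : ι → Fin r) (v : L ι H) (y : H →L[ℂ] H) :
    y (J t s k ω v) = J t s k ω (Pw (fun _ => y) v) := by
  simp only [J, map_sum, map_smul, Pw]

theorem Pa.J_p (h : Pa e) {t s : ℝ} (ht : 0 < t) (hs0 : 0 < s) (hs : t ^ 2 + s ^ 2 = 1)
    (k : Fin r) (ω : ι → Fin r) (v : L ι H) :
    (∑ a with ω a = k, e a) (J t s k ω v) = J t s k ω (D e t s (Ws e t s v)) := by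
  conv_rhs => rw [← h.tot (J t s k ω _)]
  rw [_root_.sum_apply, sum_filter]
  refine sum_congr rfl fun a _ => ?_
  have hc : (t : ℂ) ^ 2 + (s : ℂ) ^ 2 = 1 := by exact_mod_cast hs
  have ht' : (t : ℂ) ≠ 0 := by exact_mod_cast ht.ne'
  have hs' : (s : ℂ) ≠ 0 := by exact_mod_cast hs0.ne'
  have k1 : (if ω a = k then e a (J t s k ω v) else 0) =
      ∑ S, if ω a = k then ((∏ a ∈ S, ph t s k (ω a) : ℝ) : ℂ) • e a (v S) else 0 := by
    split_ifs <;> simp only [J, map_sum, map_smul, sum_const_zero]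
  rw [k1, rei a]
  simp only [J, map_sum, map_smul]
  rw [rei a fun S => ((∏ a ∈ S, ph t s k (ω a) : ℝ) : ℂ) • e a (D e t s (Ws e t s v) S)]
  refine sum_congr rfl fun S _ => ?_
  by_cases hS : a ∈ S
  · simp only [hS, if_true]
  have k2 : e a (Ws e t s v S) = (t : ℂ) • e a (v S) + (s : ℂ) • e a (v (insert a S)) := by
    simp only [Ws, h.mk_e, hS, if_false, map_add, map_smul]
  simp only [hS, if_false, D, h.mk_e, mem_insert_self, if_true, erase_insert hS, map_smul, k2,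
    prod_insert hS]
  generalize (∏ a ∈ S, ph t s k (ω a) : ℝ) = q
  by_cases hk : ω a = k
  · simp only [ph, hk, if_true]
    push_cast
    match_scalars
    · field_simp; linear_combination (-(q : ℂ)) * hc
    · field_simp; linear_combination (-(q : ℂ)) * hc
  · simp only [ph, hk, if_false, add_zero]
    push_cast
    symm
    match_scalars
    · field_simp; ring
    · field_simp; ring

theorem J_sum {t s : ℝ} (ht : 0 < t) (hs0 : 0 < s) (hs : t ^ 2 + s ^ 2 = 1) (hr : r * t ^ 2 = 1)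
    (k : Fin r) (v : L ι H) :
    ∑ ω : ι → Fin r, J t s k ω v = ((r : ℂ) ^ Fintype.card ι) • v ∅ := by
  have h0 : ∑ c, ph t s k c = 0 := by
    rw [← add_sum_erase _ _ (mem_univ k), sum_congr rfl (f := fun c => ph t s k c) (g := fun _ => -t / s)
      fun c hc => if_neg (ne_of_mem_erase hc), sum_const, card_erase_of_mem (mem_univ k),
      card_univ, Fintype.card_fin, nsmul_eq_mul, Nat.cast_sub k.pos, ph, if_pos rfl]
    push_cast
    field_simp
    linear_combination hs - hr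
  simp only [J]
  rw [sum_comm, sum_eq_single ∅]
  · simp only [prod_empty, Complex.ofReal_one, one_smul, sum_const, card_univ, Fintype.card_fun,
      Fintype.card_fin]
    rw [← Nat.cast_smul_eq_nsmul ℂ, Nat.cast_pow]
  · intro S _ hS
    obtain ⟨a, ha⟩ := nonempty_iff_ne_empty.2 hS
    rw [← sum_smul, ← Complex.ofReal_sum]
    have : ∑ ω : ι → Fin r, ∏ a ∈ S, ph t s k (ω a) = 0 := by
      have k1 : ∀ ω : ι → Fin r, ∏ a ∈ S, ph t s k (ω a) =
          ∏ b, (fun b c => if b ∈ S then ph t s k c else 1) b (ω b) := fun ω => by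
        simp only [prod_ite_mem, univ_inter]
      simp only [k1]
      rw [← Fintype.piFinset_univ,
        ← prod_univ_sum (fun _ => univ) fun b c => if b ∈ S then ph t s k c else 1]
      exact prod_eq_zero (mem_univ a) (by simp only [ha, if_true, h0])
    rw [this, Complex.ofReal_zero, zero_smul]
  · simp

noncomputable def G0 (ξ : H) : L ι H := WithLp.toLp 2 fun S => if S = ∅ then ξ else 0

noncomputable def sq (e : ι → H →L[ℂ] H) (y : H →L[ℂ] H) (t s : ℝ) (ξ : H) : ℕ → L ι H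
  | 0 => Ws e t s (G0 ξ)
  | n + 1 => Ws e t s (Pw (fun _ => y) (D e t s (sq e y t s ξ n)))

theorem G0_deg (ξ : H) : Deg 1 (G0 ξ : L ι H) := fun S hS => by
  have : S ≠ ∅ := by rintro rfl; simp at hS
  simp only [G0, this, if_false]

theorem sq_deg (y : H →L[ℂ] H) (t s : ℝ) (ξ : H) : ∀ n, Deg (n + 1) (sq e y t s ξ n)
  | 0 => (G0_deg ξ).Ws _ _
  | n + 1 => (((sq_deg y t s ξ n).D _ _).Pw _).Ws _ _

theorem Pa.sq_le (h : Pa e) {y : H →L[ℂ] H} (hy : ‖y‖ ≤ 1) {ε : ℝ} (h0 : 0 ≤ ε)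
    (hε : ∀ a b, ‖e a * y * e b‖ ≤ ε) {t s : ℝ} (ht : 0 ≤ t) (hs : t ^ 2 + s ^ 2 = 1) {ξ : H}
    (hξ : ‖ξ‖ = 1) (m : ℕ) : ∀ n ≤ m, ‖sq e y t s ξ n‖ ≤ t * (2 * t + m ^ 2 * ε) ^ n
  | 0, _ => by
    have k1 : Ws e t s (G0 ξ) = D e t 0 (G0 ξ) := by
      simp only [Ws, D]
      congr 1
      ext a S
      split_ifs <;> simp [G0]
    have k2 : ‖(G0 ξ : L ι H)‖ = 1 := by
      rw [← sq_eq_sq₀ (norm_nonneg _) zero_le_one, PiLp.norm_sq_eq_of_L2, sum_eq_single ∅]
      · simp [G0, hξ]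
      · intro S _ hS; simp [G0, hS]
      · simp
    rw [sq, k1, pow_zero, ← k2]
    exact h.D_le ht (by simp) _
  | n + 1, hn => by
    have hd : Deg m (sq e y t s ξ n) := fun S hS => sq_deg y t s ξ n S (by omega)
    refine (h.step hy h0 hε ht hs hd).trans ?_
    rw [pow_succ _ n, ← mul_assoc, mul_comm]
    exact mul_le_mul_of_nonneg_right (h.sq_le hy h0 hε ht hs hξ m n (by omega)) (by positivity)

theorem Pa.pw (h : Pa e) {t s : ℝ} (ht : 0 < t) (hs0 : 0 < s) (hs : t ^ 2 + s ^ 2 = 1)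
    (k : Fin r) (ω : ι → Fin r) (y : H →L[ℂ] H) (ξ : H) : ∀ n : ℕ,
    (((∑ a with ω a = k, e a) * y) ^ n * ∑ a with ω a = k, e a) ξ =
      J t s k ω (D e t s (sq e y t s ξ n))
  | 0 => by
    rw [pow_zero, one_mul, sq, ← h.J_p ht hs0 hs]
    congr 1
    rw [J, sum_eq_single ∅]
    · simp [G0]
    · intro S _ hS; simp [G0, hS]
    · simp
  | n + 1 => by
    rw [pow_succ', mul_assoc, mul_apply_eq_comp, h.pw ht hs0 hs k ω y ξ n, mul_apply_eq_comp, J_y,
      h.J_p ht hs0 hs, sq]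

theorem Pa.pin_pow {p : Fin r → H →L[ℂ] H} (h : Pa p) (y : H →L[ℂ] H) :
    ∀ n : ℕ, R.pin p y ^ n = ∑ k, (p k * y) ^ n * p k
  | 0 => by simp only [pow_zero, one_mul, h.one]
  | n + 1 => by
    have k1 : ∀ k, p k * ((p k * y) ^ n * p k) = (p k * y) ^ n * p k := fun k => by
      cases n with
      | zero => rw [pow_zero, one_mul, (h.pr k).isIdempotentElem.eq]
      | succ n => rw [pow_succ', ← mul_assoc, ← mul_assoc, ← mul_assoc,
          (h.pr k).isIdempotentElem.eq]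
    rw [pow_succ', h.pin_pow y n, R.pin, sum_mul]
    refine sum_congr rfl fun k _ => ?_
    rw [mul_sum, sum_eq_single k, mul_assoc, k1, pow_succ', mul_assoc (p k * y)]
    · intro j _ hj
      rw [← k1 j, mul_assoc, ← mul_assoc (p k) (p j), h.ort _ _ hj.symm, zero_mul, mul_zero]
    · simp

theorem Pa.col (h : Pa e) (ω : ι → Fin r) : Pa fun k => ∑ a with ω a = k, e a := by
  have k1 : ∀ j k, (∑ a with ω a = j, e a) * ∑ a with ω a = k, e a =
      if j = k then ∑ a with ω a = j, e a else 0 := fun j k => by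
    rw [sum_mul]
    split_ifs with hjk
    · subst hjk
      refine sum_congr rfl fun a ha => ?_
      rw [mul_sum, sum_eq_single_of_mem a ha fun b _ hb => h.ort _ _ hb.symm,
        (h.pr a).isIdempotentElem.eq]
    · rw [← sum_const_zero]
      refine sum_congr rfl fun a ha => ?_
      rw [mul_sum]
      refine sum_eq_zero fun b hb => h.ort _ _ ?_
      rintro rfl
      exact hjk ((mem_filter.1 ha).2.symm.trans (mem_filter.1 hb).2)
  refine ⟨fun k => ⟨?_, isSelfAdjoint_sum _ fun a _ => (h.pr a).isSelfAdjoint⟩,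
    fun j k hjk => by rw [k1, if_neg hjk], ?_⟩
  · show _ * _ = _
    rw [k1, if_pos rfl]
  · rw [sum_fiberwise, h.one]

theorem pow_bd {a b ε : ℝ} (ha : 0 ≤ a) (ha1 : a ≤ 1) (hb : 0 ≤ b) (h0 : 0 ≤ ε) (h1 : ε ≤ 1) :
    ∀ n : ℕ, (a + b * ε) ^ n ≤ a ^ n + ((1 + b) ^ n - 1) * ε
  | 0 => by simp
  | n + 1 => by
    have ih := pow_bd ha ha1 hb h0 h1 n
    have k1 : a ^ n ≤ 1 := pow_le_one₀ ha ha1
    have k2 : 0 ≤ (1 + b) ^ n - 1 := sub_nonneg.2 (one_le_pow₀ (by linarith))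
    have k3 : a + b * ε ≤ 1 + b := by nlinarith
    have k4 := mul_le_mul_of_nonneg_right ih (by positivity : 0 ≤ a + b * ε)
    have k5 := mul_le_mul_of_nonneg_left k3 (mul_nonneg k2 h0)
    have k6 := mul_le_mul_of_nonneg_right k1 (mul_nonneg hb h0)
    rw [pow_succ, pow_succ, pow_succ]
    nlinarith

end Blk

open Blk in
theorem block : BlockStmt := by
  intro r n hr
  refine ⟨(1 + n ^ 2) ^ n, fun H _ _ _ N e h1 h2 h3 y _ hy ε hε ξ hξ => ?_⟩
  have h : Pa e := ⟨h1, h2, h3⟩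
  have hr' : (4 : ℝ) ≤ r := by exact_mod_cast hr
  have hq : (2 : ℝ) ≤ √r := Real.le_sqrt_of_sq_le (by linarith)
  set t : ℝ := 1 / √r with htd
  have ht : 0 < t := by positivity
  have hrt : r * t ^ 2 = 1 := by
    rw [htd, div_pow, Real.sq_sqrt (by linarith)]; field_simp
  have ht2 : 2 * t ≤ 1 := by rw [htd, mul_one_div, div_le_one (by linarith)]; exact hq
  set s : ℝ := √(1 - t ^ 2) with hsd
  have hs0 : 0 < s := Real.sqrt_pos.2 (by nlinarith)
  have hs : t ^ 2 + s ^ 2 = 1 := by rw [hsd, Real.sq_sqrt (by nlinarith)]; ring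
  have h0 : 0 ≤ ε := by
    rcases isEmpty_or_nonempty (Fin N) with hN | ⟨⟨a⟩⟩
    · have := h.tot ξ
      rw [Finset.univ_eq_empty, Finset.sum_empty] at this
      rw [← this, norm_zero] at hξ
      exact absurd hξ zero_ne_one
    · exact (norm_nonneg _).trans (hε a a)
  have hε' : ∀ a b, ‖e a * y * e b‖ ≤ min ε 1 := fun a b => le_min (hε a b) <|
    (norm_mul_le _ _).trans (mul_le_one₀ ((norm_mul_le _ _).trans
      (mul_le_one₀ (h1 a).norm_le (norm_nonneg _) hy)) (norm_nonneg _) (h1 b).norm_le)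
  have h0' : 0 ≤ min ε 1 := le_min h0 zero_le_one
  have hb := h.sq_le hy h0' hε' ht.le hs hξ n n le_rfl
  have hp := pow_bd (by positivity) ht2 (sq_nonneg (n : ℝ)) h0' (min_le_right _ _) n
  set B := (2 * t + n ^ 2 * min ε 1) ^ n with hB
  have hB0 : 0 ≤ B := by positivity
  have k1 : ∀ k : Fin r, ∑ ω : Fin N → Fin r,
      (⟪ξ, (((∑ a with ω a = k, e a) * y) ^ n * ∑ a with ω a = k, e a) ξ⟫_ℂ).re ≤
        r ^ N * (t * (t * B)) := fun k => by
    simp only [h.pw ht hs0 hs]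
    rw [← Complex.re_sum, ← inner_sum, J_sum ht hs0 hs hrt]
    refine (Complex.re_le_norm _).trans ((norm_inner_le_norm _ _).trans ?_)
    rw [hξ, one_mul, norm_smul, norm_pow, Complex.norm_natCast, Fintype.card_fin]
    refine mul_le_mul_of_nonneg_left ?_ (by positivity)
    have : D e t s (sq e y t s ξ n) ∅ = (t : ℂ) • sq e y t s ξ n ∅ := by
      simp only [D, bld, Finset.notMem_empty, if_false, h.tot]
    rw [this, norm_smul, Complex.norm_real, Real.norm_eq_abs, abs_of_pos ht]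
    exact mul_le_mul_of_nonneg_left ((PiLp.norm_apply_le _ _).trans hb) ht.le
  have : Nonempty (Fin r) := ⟨⟨0, by omega⟩⟩
  obtain ⟨ω, -, hω⟩ := Finset.exists_le_of_sum_le (s := Finset.univ) Finset.univ_nonempty
    (f := fun ω : Fin N → Fin r =>
      (⟪ξ, (R.pin (fun k => ∑ a with ω a = k, e a) y ^ n) ξ⟫_ℂ).re) (g := fun _ => B) (by
      simp only [fun ω : Fin N → Fin r => (h.col ω).pin_pow y n, _root_.sum_apply, inner_sum,
        Complex.re_sum]
      rw [Finset.sum_comm]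
      refine (Finset.sum_le_sum fun k _ => ?_).trans (le_of_eq (b := ∑ _ω : Fin N → Fin r, B)
        (a := ∑ _k : Fin r, r ^ N * (t * (t * B))) ?_)
      · simpa only [_root_.sum_apply, inner_sum, Complex.re_sum] using k1 k
      · simp only [Finset.sum_const, Finset.card_univ, Fintype.card_fun, Fintype.card_fin,
          nsmul_eq_mul]
        push_cast
        linear_combination (r ^ N * B) * hrt)
  refine ⟨ω, hω.trans (hp.trans ?_)⟩
  have e1 : 2 * t = 2 / √r := by rw [htd]; ring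
  have e2 : (1 : ℝ) ≤ (1 + n ^ 2) ^ n := one_le_pow₀ (by nlinarith [sq_nonneg (n : ℝ)])
  rw [e1]
  nlinarith [min_le_left ε 1]

end Vale.Agent.P078
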