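import Vale.Agent.P078.B2c
import Vale.Agent.P078.Stm4

/-! Random colourings with bounded dependence. -/

namespace Vale.Agent.P078

open scoped InnerProductSpace
open Finset

universe u

namespace BB

theorem tele {X : Type*} [NormedAddCommGroup X] [InnerProductSpace ℂ X] [CompleteSpace X]
    {S T : X →L[ℂ] X} (hT : IsSelfAdjoint T) (f : X) (n : ℕ) {B : ℝ}
    (h : ∀ m ≤ n, ∀ j ≤ n, ‖⟪(T ^ m) f, (S - T) ((S ^ j) f)⟫_ℂ‖ ≤ B) :
    ∀ j m, m + j = n → (⟪(T ^ m) f, (S ^ j) f⟫_ℂ).re ≤ (⟪(T ^ n) f, f⟫_ℂ).re + j * B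
  | 0, m, e => by simp [← e]
  | j + 1, m, e => by
    have ih := tele hT f n h j (m + 1) (by omega)
    have k := h m (by omega) j (by omega)
    have e1 := hT.isSymmetric ((T ^ m) f) ((S ^ j) f)
    simp only [ContinuousLinearMap.coe_coe] at e1
    rw [pow_succ', ContinuousLinearMap.mul_apply, e1] at ih
    rw [ContinuousLinearMap.sub_apply, inner_sub_right] at k
    have k2 := (Complex.re_le_norm _).trans k
    rw [Complex.sub_re] at k2
    have e2 : ((j + 1 : ℕ) : ℝ) * B = j * B + B := by push_cast; ring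
    rw [pow_succ' S, ContinuousLinearMap.mul_apply, e2, ← add_assoc]
    exact (sub_le_iff_le_add'.1 k2).trans (add_le_add ih le_rfl)

theorem npow {X : Type*} [NormedAddCommGroup X] [NormedSpace ℂ X] {T : X →L[ℂ] X} {c : ℝ}
    (h : ‖T‖ ≤ c) : ∀ n : ℕ, ‖T ^ n‖ ≤ c ^ n
  | 0 => by rw [pow_zero, pow_zero]; exact ContinuousLinearMap.norm_id_le
  | n + 1 => by
    rw [pow_succ, pow_succ]
    exact (norm_mul_le _ _).trans (mul_le_mul (npow h n) h (norm_nonneg _)
      (pow_nonneg ((norm_nonneg _).trans h) n))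

theorem alg1 {R : Type*} [Ring R] (q P Y : R) : q * Y * q - q * (P * Y + (1 - P) * Y * P) * q =
    q * ((1 - P) * Y * (1 - P)) * q := by noncomm_ring

theorem alg2 {R : Type*} [Ring R] (q P Y : R) : q * (P * Y + (1 - P) * Y * P) * q =
    q * P * (Y * q) + q * (1 - P) * Y * (P * q) := by noncomm_ring

theorem sa_pin {X : Type*} [NormedAddCommGroup X] [InnerProductSpace ℂ X] [CompleteSpace X]
    {β : Type} [Fintype β] {q : β → X →L[ℂ] X} (h : ∀ b, IsStarProjection (q b))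
    {U : X →L[ℂ] X} (hU : IsSelfAdjoint U) : IsSelfAdjoint (∑ b, q b * U * q b) :=
  isSelfAdjoint_sum _ fun b _ => hU.conjugate_self (h b).isSelfAdjoint

theorem sa_sub {X : Type*} [NormedAddCommGroup X] [InnerProductSpace ℂ X] [CompleteSpace X]
    {U V : X →L[ℂ] X} (hU : IsSelfAdjoint U) (hV : IsSelfAdjoint V) : IsSelfAdjoint (U - V) :=
  hU.sub hV

theorem pick {a b η : ℝ} (ha : 0 ≤ a) (hb : 0 ≤ b) (hη : 0 < η) :
    ∃ δ ε : ℝ, 0 < δ ∧ 0 < ε ∧ a * δ + b / δ ^ 3 * ε ≤ η := by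
  set δ := η / (2 * (a + 1)) with hd
  have d0 : 0 < δ := by positivity
  refine ⟨δ, η * δ ^ 3 / (2 * (b + 1)), d0, by positivity, ?_⟩
  have k1 : a * δ ≤ η / 2 := by
    rw [hd, ← mul_div_assoc, div_le_div_iff₀ (by positivity) two_pos]; nlinarith
  have k2 : b / δ ^ 3 * (η * δ ^ 3 / (2 * (b + 1))) = b * η / (2 * (b + 1)) := by field_simp
  have k3 : b * η / (2 * (b + 1)) ≤ η / 2 := by
    rw [div_le_div_iff₀ (by positivity) two_pos]; nlinarith
  linarith

end BB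

open BB in
theorem block2 : Block2Stmt.{u} := by
  intro r n d hr η hη
  set c : ℝ := 2 ^ d with hc
  set κ : ℝ := r * (c * 2 * c) with hκ
  set A : ℝ := c * κ ^ n with hA
  have c1 : 1 ≤ c := one_le_pow₀ one_le_two
  have r4 : (4 : ℝ) ≤ r := by exact_mod_cast hr
  have κ1 : 1 ≤ κ := by nlinarith [mul_le_mul c1 c1 zero_le_one (by linarith)]
  obtain ⟨δ, ε, hδ, hε, hs⟩ := pick (a := n * r * ((16 ^ d + 16 ^ d * 4 ^ d) * A ^ 2))
    (b := n * r * 4 ^ d) (by positivity) (by positivity) hη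
  refine ⟨ε, hε, fun H _ _ _ M ξ ht ι α _ _ _ e N p y he hN hp h1 h2 h3 hy ys yn hP => ?_⟩
  haveI : NeZero r := ⟨by omega⟩
  have h : St e N p d := ⟨he.proj, he.orth, he.sum, hN, fun π => (hp π).proj,
    fun π => (hp π).orth, fun π => (hp π).sum, h1, h2, h3⟩
  set W : ℝ := (Fintype.card (ι → Fin r) : ℝ) with hW
  have W0 : 0 < W := Nat.cast_pos.2 Fintype.card_pos
  set P : K ι r H →L[ℂ] K ι r H := PP r e N with hPd
  set Y : K ι r H →L[ℂ] K ι r H := cs ι r y with hY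
  have Yn : ‖Y‖ ≤ 1 := ml_le fun _ => yn
  have Ys : IsSelfAdjoint Y := ml_sa fun _ => ys
  have Pp : IsStarProjection P := h.Ppr
  set S : K ι r H →L[ℂ] K ι r H := ∑ k, pk p k * Y * pk p k with hS
  set T : K ι r H →L[ℂ] K ι r H := ∑ k, pk p k * (P * Y + (1 - P) * Y * P) * pk p k with hT
  have ST : S - T = ∑ k, pk p k * ((1 - P) * Y * (1 - P)) * pk p k := by
    rw [hS, hT, ← sum_sub_distrib]
    exact sum_congr rfl fun k _ => alg1 _ _ _
  have sa : ∀ U : K ι r H →L[ℂ] K ι r H, IsSelfAdjoint U →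
      IsSelfAdjoint (∑ k, pk p k * U * pk p k) := fun U hU =>
    sa_pin h.kpr hU
  have Ss : IsSelfAdjoint S := sa Y Ys
  have Ts : IsSelfAdjoint T := by
    have : T = S - (S - T) := by abel
    rw [this, ST]
    exact sa_sub Ss (sa _ (Ys.conjugate_self Pp.one_sub.isSelfAdjoint))
  have Tn : ‖T‖ ≤ 2 / √r := by
    refine pin_le h.kpr h.ko h.ksum _ (by positivity) fun k => ?_
    have n1 := (h.kpr k).norm_le
    have n2 : ‖Y * pk p k‖ ≤ 1 := (norm_mul_le _ _).trans (mul_le_one₀ Yn (norm_nonneg _) n1)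
    have n3 : ‖pk p k * (1 - P) * Y‖ ≤ 1 := (norm_mul_le _ _).trans (mul_le_one₀
      ((norm_mul_le _ _).trans (mul_le_one₀ n1 (norm_nonneg _) Pp.one_sub.norm_le))
      (norm_nonneg _) Yn)
    have n4 := (norm_mul_le _ _).trans (mul_le_mul (h.pP k) n2 (norm_nonneg _) (by positivity))
    have n5 := (norm_mul_le _ _).trans (mul_le_mul n3 (h.Pp k) (norm_nonneg _) zero_le_one)
    rw [alg2]
    refine (norm_add_le _ _).trans ((add_le_add n4 n5).trans (le_of_eq ?_))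
    ring
  have bY : Bd Y 1 := .of (fun _ => cs_E _ _) Yn
  have bP : Bd P 1 := .of (fun _ => PP_E _) Pp.norm_le
  have bQ : Bd (1 - P) 1 := .of (fun _ => (Commute.one_left _).sub_left (PP_E _))
    Pp.one_sub.norm_le
  have bS : Bd S κ := (Bd.sum (by positivity) fun k => ((h.bd k).mul bY).mul (h.bd k)).mono (by
    rw [Fintype.card_fin, hκ]
    exact mul_le_mul_of_nonneg_left (by nlinarith) (by positivity))
  have bT : Bd T κ := (Bd.sum (by positivity) fun k =>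
    ((h.bd k).mul ((bP.mul bY).add ((bQ.mul bY).mul bP))).mul (h.bd k)).mono (by
      rw [Fintype.card_fin, hκ]
      exact le_of_eq (by ring))
  have nb : ∀ {U : K ι r H →L[ℂ] K ι r H}, Bd U κ → ∀ m ≤ n, ∀ k,
      Nn (pk p k ((U ^ m) (f0 ξ))) ^ 2 ≤ A ^ 2 * W := fun {U} hU m hm k => by
    have b := ((h.bd k).mul (hU.pow m)).mono (b := A)
      (mul_le_mul_of_nonneg_left (pow_le_pow_right₀ κ1 hm) (by positivity))
    rw [hW, ← Nn_f0 (ι := ι) (r := r) ξ ht.1, ← mul_pow]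
    exact pow_le_pow_left₀ (Nn_nn _) (b.2 _) 2
  have Sm : S = ml fun w => R.pin (p w) y := by
    simp only [hS, hY, R.pin, pk, cs, ← ml_mul]
    rw [← ml_sum univ fun k w => p w k * y * p w k]
  have pm : ∀ w, R.pin (p w) y ∈ M := fun w =>
    sum_mem fun k _ => mul_mem (mul_mem ((hp w).mem k) hy) ((hp w).mem k)
  have pn : ∀ w, ‖R.pin (p w) y‖ ≤ 1 := fun w =>
    pin_le (hp w).proj (hp w).orth (hp w).sum y zero_le_one fun k => (norm_mul_le _ _).trans
      (mul_le_one₀ ((norm_mul_le _ _).trans (mul_le_one₀ ((hp w).proj k).norm_le (norm_nonneg _)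
        yn)) (norm_nonneg _) ((hp w).proj k).norm_le)
  have rp : ∀ j : ℕ, Rep M ξ 1 ((S ^ j) (f0 ξ)) := fun j => by
    induction j with
    | zero => exact fun w => ⟨1, one_mem M, ContinuousLinearMap.norm_id_le, rfl⟩
    | succ j ih =>
      rw [pow_succ', ContinuousLinearMap.mul_apply]
      nth_rewrite 1 [Sm]
      exact ih.ml pm pn
  set B : ℝ := r * ((16 ^ d + 16 ^ d * 4 ^ d) * A ^ 2 * δ + 4 ^ d / δ ^ 3 * ε) * W with hB
  have er : ∀ m ≤ n, ∀ j ≤ n, ‖⟪(T ^ m) (f0 ξ), (S - T) ((S ^ j) (f0 ξ))⟫_ℂ‖ ≤ B := by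
    intro m hm j hj
    rw [ST, ContinuousLinearMap.sum_apply, inner_sum]
    refine (norm_sum_le _ _).trans ((sum_le_card_nsmul _ _
      (((16 ^ d + 16 ^ d * 4 ^ d) * A ^ 2 * δ + 4 ^ d / δ ^ 3 * ε) * W) fun k _ => ?_).trans ?_)
    · have e1 := (h.kpr k).isSelfAdjoint.isSymmetric ((T ^ m) (f0 ξ))
        (((1 - P) * Y * (1 - P)) (pk p k ((S ^ j) (f0 ξ))))
      simp only [ContinuousLinearMap.coe_coe] at e1
      rw [ContinuousLinearMap.mul_apply, ContinuousLinearMap.mul_apply, ← e1]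
      refine (h.err ht he.mem hy ys hδ hP _ ((rp j).ml (fun w => (hp w).mem k)
        fun w => ((hp w).proj k).norm_le)).trans ?_
      have b1 := mul_le_mul_of_nonneg_left (nb bT m hm k) (by positivity : 0 ≤ 16 ^ d * δ)
      have b2 := mul_le_mul_of_nonneg_left (nb bS j hj k) (by positivity : 0 ≤ 16 ^ d * 4 ^ d * δ)
      refine (add_le_add (add_le_add b1 b2) le_rfl).trans (le_of_eq ?_)
      rw [← hW]
      ring
    · rw [card_univ, Fintype.card_fin, nsmul_eq_mul, hB]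
      exact le_of_eq (by ring)
  have fin := tele Ts (f0 ξ) n er n 0 (zero_add n)
  have t1 : (⟪(T ^ n) (f0 ξ), f0 ξ⟫_ℂ).re ≤ (2 / √r) ^ n * W := by
    refine (Complex.re_le_norm _).trans ((norm_inner_le_norm _ _).trans ?_)
    have : ‖T ^ n‖ ≤ (2 / √r) ^ n := npow Tn n
    rw [hW, ← f0_sq (ι := ι) (r := r) ξ ht.1, sq, ← mul_assoc]
    exact mul_le_mul_of_nonneg_right (((T ^ n).le_opNorm _).trans
      (mul_le_mul_of_nonneg_right this (norm_nonneg _))) (norm_nonneg _)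
  obtain ⟨π, -, hπ⟩ := exists_le_of_sum_le (s := univ) univ_nonempty
    (f := fun π : ι → Fin r => (⟪ξ, (R.pin (p π) y ^ n) ξ⟫_ℂ).re)
    (g := fun _ => (2 / √r) ^ n + η) (by
      rw [Sm, ← ml_pow, pow_zero, PiLp.inner_apply, Complex.re_sum] at fin
      rw [sum_const, card_univ, nsmul_eq_mul, ← hW]
      refine le_trans (le_of_eq rfl) (fin.trans ?_)
      have : n * B = (n * r * ((16 ^ d + 16 ^ d * 4 ^ d) * A ^ 2) * δ +
        n * r * 4 ^ d / δ ^ 3 * ε) * W := by rw [hB]; ring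
      have := mul_le_mul_of_nonneg_right hs W0.le
      linarith)
  exact ⟨π, hπ⟩

end Vale.Agent.P078
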