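import Vale.Agent.P078.B2

/-! Equivariant greedy colourings. -/

namespace Vale.Agent.P078

open Finset Polynomial Filter Topology
open scoped ComplexConjugate Pointwise Classical ComplexOrder

theorem S.G_perm {ι R : Type*} [DecidableEq ι] [CommRing R] {r : ℕ} (e : Equiv.Perm (Fin r))
    {y : Fin r → ι → ι → R} (hy : ∀ c, y (e c) = y c) (π : ι → Fin r → R) (z : R) (V : Finset ι)
    (F : Finset (ι × Fin r)) : G (fun v c => π v (e c)) (S.g0 (fun _ => z) y) V F =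
      G π (S.g0 (fun _ => z) y) V (F.image (Prod.map id e)) := by
  induction V using Finset.induction_on generalizing F with
  | empty =>
    rw [G_empty, G_empty, S.g0, S.g0]
    refine Eq.trans ?_ (Equiv.prod_comp e _)
    refine prod_congr rfl fun c _ => ?_
    rw [hy, show sl (F.image (Prod.map id e)) (e c) = sl F c by
      ext i
      simp]
    rfl
  | insert v V hv ih =>
    rw [G_insert hv, G_insert hv]
    refine Eq.trans ?_ (Equiv.sum_comp e _)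
    exact sum_congr rfl fun c _ => by rw [ih, image_insert]; rfl

theorem S.aQ_perm {ι : Type*} [DecidableEq ι] {r : ℕ} (e : Equiv.Perm (Fin r))
    {x : Fin r → ι → ι → ℂ} (hx : ∀ c, x (e c) = x c) (π : ι → Fin r → ℂ) (Q : ℝ[X]) (V : Finset ι)
    (v : ι) : S.aQ Q x (fun v c => π v (e c)) V v = S.aQ Q x π V v := by
  have h : ∀ V, S.Pw x (fun v c => π v (e c)) V = S.Pw x π V := fun V =>
    S.G_perm e (fun c => by rw [hx]) (fun v c => PowerSeries.C (π v c)) 1 V ∅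
  simp only [S.aQ, S.mom, S.ser, h]

/-- Invariant integrals. -/
structure Inv (Ω Γ : Type*) [TopologicalSpace Ω] [Group Γ] [MulAction Γ Ω] where
  I : (Ω → ℝ) → ℝ
  add : ∀ {f g}, Continuous f → Continuous g → I (fun ω => f ω + g ω) = I f + I g
  mono : ∀ {f g}, Continuous f → Continuous g → (∀ ω, f ω ≤ g ω) → I f ≤ I g
  smul : ∀ (c : ℝ) {f}, Continuous f → I (fun ω => c * f ω) = c * I f
  one : I (fun _ => 1) = 1
  act : ∀ (g : Γ) {f}, Continuous f → I (fun ω => f (g • ω)) = I f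

namespace Fib

variable {Ω Γ R : Type*} [TopologicalSpace Ω] [Group Γ] [MulAction Γ Ω] [Ring R]
  [StarRing R] [Algebra ℂ R] {F : Fib Ω Γ R} {m n : ℕ} {σ σ' : Ω → Fin m → ℂ} {sg : Fin m → ℝ}
  {Q : ℝ[X]} {θ : ℝ} {ω ω' : Ω}

/-- Change the integral. -/
def wI (F : Fib Ω Γ R) (J : Inv Ω Γ) : Fib Ω Γ R :=
  { F with I := J.I, I_add := J.add, I_mono := J.mono, I_smul := J.smul, I_one := J.one,
           I_act := J.act }

theorem r_congr (h : F.φ ω' = F.φ ω) : F.r ω' = F.r ω := funext fun g => by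
  have e : ∀ g k, F.rel ω' g k ↔ F.rel ω g k := fun g k => by rw [rel, rel, h]
  exact F.enc_inj (((e _ _).2 (rel_r ω g)).le.antisymm ((e _ _).1 (rel_r ω' g)).le)

theorem b_sh (h : F.φ ω' = F.φ ω) (e : Equiv.Perm (Fin m)) (he : ∀ s, sg (e s) = sg s)
    (h1 : ∀ (g : Γ) s, σ (g • ω') (e s) = σ' (g • ω) s) : F.b sg Q σ ω' = F.b sg Q σ' ω := by
  have a : F.Y sg ω' = F.Y sg ω := by
    ext
    simp only [Y, Fib.X, r_congr h, h]
  rw [Fib.b, Fib.b, V, V, r_congr h, a, ← S.aQ_perm e (fun c => by ext; rw [Y, Y, he])]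
  simp only [h1]

variable (F sg) in
/-- A symmetry shifting the colours. -/
structure Sym [NeZero n] (ν : Fin n → Fin m → ℂ) where
  sh : Fin n → Ω → Ω
  E : Fin n → Equiv.Perm (Fin m)
  lab : Ω → Fin n
  cont : ∀ t, Continuous (sh t)
  φ : ∀ t ω, F.φ (sh t ω) = F.φ ω
  act : ∀ t (g : Γ) ω, g • sh t ω = sh t (g • ω)
  add : ∀ t t' ω, sh t (sh t' ω) = sh (t + t') ω
  zero : ∀ ω, sh 0 ω = ω
  lc : IsLocallyConstant lab
  lab_sh : ∀ t ω, lab (sh t ω) = lab ω + t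
  sg_E : ∀ t s, sg (E t s) = sg s
  ν_E : ∀ t c s, ν (c + t) (E t s) = ν c s
  inj : Function.Injective ν

variable [StarModule ℂ R] [CompactSpace Ω] [T2Space Ω] [TotallyDisconnectedSpace Ω] [NeZero n]
  {ν : Fin n → Fin m → ℂ}

theorem stepE (Z : F.Sym sg ν) (h1 : ∀ c, |sg c| ≤ 1) (hQ : QP Q θ) (hθ : 0 < θ) (hν : Prob ν)
    (a1 : Prob σ) (a2 : IsLocallyConstant σ) (a3 : ∀ ω, ∃ w : Fin n → ℝ, (∀ c, 0 ≤ w c) ∧
      ∑ c, w c = 1 ∧ ∀ s, σ ω s = ∑ c, w c * ν c s) (a0 : ∀ t ω s, σ (Z.sh t ω) (Z.E t s) = σ ω s)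
    {e : Set Ω} (a4 : IsClopen e) (a5 : F.Sep Q.natDegree e) (a6 : ∀ t ω, Z.sh t ω ∈ e ↔ ω ∈ e) :
    ∃ col : Ω → Fin n, IsLocallyConstant col ∧ (∀ t ω, col (Z.sh t ω) = col ω + t) ∧
      ∀ J : Inv Ω Γ, J.I (F.b sg Q (ow e (fun ω => ν (col ω)) σ)) ≤
        J.I (F.b sg Q σ) + 2 * θ * J.I (ind e) := by
  have c0 := b_cont (F := F) (sg := sg) Q (fun ω => (a1 ω).2) a2
  obtain ⟨col, b1, b2⟩ := ex_col (fun c => sum_cont (F := F) Q.natDegree ((b_cont (F := F)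
    (sg := sg) Q (fun ω => (Prob.ow (τ := fun _ => ν c) (fun _ => hν c) a1 e ω).2)
    (ow_lc a4 (IsLocallyConstant.const _) a2)).fun_sub c0)) hθ
  have b3 : IsLocallyConstant fun ω => col (Z.sh (-Z.lab ω) ω) + Z.lab ω :=
    (IsLocallyConstant.iff_eventually_eq _).2 fun ω => by
      filter_upwards [Z.lc.eventually_eq ω, (b1.comp_continuous (Z.cont (-Z.lab ω))).eventually_eq ω]
        with ω' e1 e2
      rw [e1]
      exact congrArg (· + _) e2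
  refine ⟨_, b3, fun t ω => by
    rw [Z.lab_sh, Z.add, neg_add, neg_add_cancel_right, add_assoc], fun J =>
    gen (F := F.wI J) a1 a2 (fun _ => hν _) (b3.comp ν) a4 a5 fun ω hω => ?_⟩
  set ω0 := Z.sh (-Z.lab ω) ω with h0
  have k : ω = Z.sh (Z.lab ω) ω0 := by rw [h0, Z.add, add_neg_cancel, Z.zero]
  obtain ⟨w, w0, w1, w2⟩ := a3 (F.r ω0 1 • ω0)
  obtain ⟨W, W1, W2⟩ := cost_eq (F := F) (sg := sg) a1 a5 ((a6 _ _).2 hω : ω0 ∈ e)
  obtain ⟨c, hc⟩ := S.upd (Y_hc (F := F) h1 ω0) (π := fun g => σ (g • ω0)) (fun _ => a1 _) hQ W1 w0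
    w1 hν w2
  have k1 := W2 _ fun _ => hν c
  have k2 := b2 ω0 c
  change ∑ w ∈ F.V ω Q.natDegree, (F.b sg Q (ow e (fun _ => ν (col ω0 + Z.lab ω)) σ) (w • ω) -
    F.b sg Q σ (w • ω)) ≤ _
  generalize Z.lab ω = t at k ⊢
  rw [k, V, r_congr (Z.φ t ω0), ← V]
  refine le_of_eq_of_le (sum_congr rfl fun g _ => ?_) (k2.trans (by linarith))
  rw [Z.act, b_sh (σ' := ow e (fun _ => ν (col ω0)) σ) (Z.φ t _) (Z.E t) (Z.sg_E t) fun h s => ?_,
    b_sh (σ' := σ) (Z.φ t _) (Z.E t) (Z.sg_E t) fun h s => by rw [Z.act, a0]]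
  simp only [Z.act, ow, a6]
  split_ifs
  exacts [Z.ν_E _ _ _, a0 _ _ _]

theorem stageE (Z : F.Sym sg ν) (h1 : ∀ c, |sg c| ≤ 1) (hQ : QP Q θ) (hθ : 0 < θ)
    (h : ∀ t, |t| ≤ 1 → -θ ≤ Q.eval t ∧ Q.eval t ≤ 4) (hν : Prob ν) (𝒥 : Set (Inv Ω Γ))
    (hc : ∀ η : ℝ, 0 < η → ∃ (n : ℕ) (e : Fin n → Set Ω), (∀ j, IsClopen (e j) ∧
      F.Sep Q.natDegree (e j) ∧ ∀ t ω, Z.sh t ω ∈ e j ↔ ω ∈ e j) ∧
      (∀ i j, i ≠ j → ∀ ω ∈ e i, ω ∉ e j) ∧ ∀ J ∈ 𝒥, 1 - η ≤ ∑ j, J.I (ind (e j)))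
    {μ : Fin m → ℂ} (hσ : Prob fun _ : Ω => μ) (h0 : ∀ s, μ s = ∑ c, ((n : ℝ)⁻¹ : ℝ) * ν c s)
    (h2 : ∀ t s, μ (Z.E t s) = μ s) : ∃ col : Ω → Fin n, IsLocallyConstant col ∧
      (∀ t ω, col (Z.sh t ω) = col ω + t) ∧
      ∀ J ∈ 𝒥, J.I (F.b sg Q fun ω => ν (col ω)) ≤ J.I (F.b sg Q fun _ => μ) + 3 * θ := by
  have n0 : (n : ℝ) ≠ 0 := Nat.cast_ne_zero.2 (NeZero.ne n)
  obtain ⟨N, hN⟩ : ∃ N : ℝ, N = (4 - -θ) * #(F.B ^ Q.natDegree) := ⟨_, rfl⟩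
  have N0 : 0 ≤ N := hN ▸ mul_nonneg (by linarith) (Nat.cast_nonneg _)
  obtain ⟨d, e, e1, e2, e3⟩ := hc (θ / (N + 1)) (by positivity)
  have q : ∀ (e : Set Ω) (col : Ω → Fin n) (σ : Ω → Fin m → ℂ), (∀ t ω, Z.sh t ω ∈ e ↔ ω ∈ e) →
      (∀ t ω, col (Z.sh t ω) = col ω + t) → (∀ t ω s, σ (Z.sh t ω) (Z.E t s) = σ ω s) → ∀ t ω s,
      ow e (fun ω => ν (col ω)) σ (Z.sh t ω) (Z.E t s) = ow e (fun ω => ν (col ω)) σ ω s :=
    fun e col σ a b c t ω s => by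
      simp only [ow, a, b]
      split_ifs
      exacts [Z.ν_E _ _ _, c _ _ _]
  have k : ∀ K : Finset (Fin d), ∃ σ' : Ω → Fin m → ℂ, Prob σ' ∧ IsLocallyConstant σ' ∧
      (∀ ω, ∃ w : Fin n → ℝ, (∀ c, 0 ≤ w c) ∧ ∑ c, w c = 1 ∧ ∀ s, σ' ω s = ∑ c, w c * ν c s) ∧
      (∀ t ω s, σ' (Z.sh t ω) (Z.E t s) = σ' ω s) ∧ (∀ j ∈ K, ∀ ω ∈ e j, ∃ c, σ' ω = ν c) ∧
      ∀ J : Inv Ω Γ, J.I (F.b sg Q σ') ≤
        J.I (F.b sg Q fun _ => μ) + 2 * θ * ∑ j ∈ K, J.I (ind (e j)) := fun K => by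
    induction K using Finset.induction_on with
    | empty => exact ⟨_, hσ, IsLocallyConstant.const _, fun _ => ⟨fun _ => (n : ℝ)⁻¹,
        fun _ => by positivity, by simp [n0], h0⟩, fun t _ => h2 t, by simp, by simp⟩
    | insert i K hi ih =>
      obtain ⟨σ', t1, t2, t3, t0, t4, t5⟩ := ih
      obtain ⟨col, u1, u2, u3⟩ := stepE Z h1 hQ hθ hν t1 t2 t3 t0 (e1 i).1 (e1 i).2.1 (e1 i).2.2
      refine ⟨_, Prob.ow (τ := fun ω => ν (col ω)) (fun _ => hν _) t1 (e i),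
        ow_lc (e1 i).1 (u1.comp ν) t2, ow_of (P := fun _ (μ : Fin m → ℂ) => ∃ w : Fin n → ℝ,
          (∀ c, 0 ≤ w c) ∧ ∑ c, w c = 1 ∧ ∀ s, μ s = ∑ c, w c * ν c s) _
          (fun ω => ⟨Pi.single (col ω) 1, fun c => by rw [Pi.single_apply]; positivity, by simp,
            fun s => by simp [Pi.single_apply, apply_ite]⟩) t3, q _ _ _ (e1 i).2.2 u2 t0,
        fun j hj ω hω => ?_, fun J => by rw [sum_insert hi]; linarith [u3 J, t5 J]⟩
      rw [ow]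
      split_ifs with a
      exacts [⟨_, rfl⟩, t4 j ((mem_insert.1 hj).resolve_left fun a' => a (a' ▸ hω)) ω hω]
  obtain ⟨σ', s1, s2, -, s0, s3, s4⟩ := k univ
  have hL : IsClopen (⋃ j, e j)ᶜ := (isClopen_iUnion_of_finite fun j => (e1 j).1).compl
  have s5 := q (⋃ j, e j)ᶜ Z.lab σ' (fun t ω => by simp [fun j => (e1 j).2.2 t ω]) Z.lab_sh s0
  have hd : ∀ ω, ∃ c, ow (⋃ j, e j)ᶜ (fun ω => ν (Z.lab ω)) σ' ω = ν c := fun ω => by
    rw [ow]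
    split_ifs with a
    · exact ⟨_, rfl⟩
    · obtain ⟨j, a⟩ := Set.mem_iUnion.1 (not_not.1 a)
      exact s3 j (mem_univ _) ω a
  choose col hcol using hd
  refine ⟨col, IsLocallyConstant.desc col ν (by
    rw [show ν ∘ col = _ from (funext hcol).symm]
    exact ow_lc hL (Z.lc.comp ν) s2) Z.inj,
    fun t ω => Z.inj (funext fun s => ?_), fun J hJ => ?_⟩
  · obtain ⟨s, rfl⟩ := (Z.E t).surjective s
    rw [← hcol, s5, hcol, Z.ν_E]
  have s6 : J.I (F.b sg Q _) ≤ J.I (F.b sg Q σ') + (4 - -θ) * #(F.B ^ Q.natDegree) * J.I _ :=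
    left' (F := F.wI J) h1 h s1 s2 (τ := fun ω => ν (Z.lab ω)) (fun _ => hν _) (Z.lc.comp ν) hL
  have s7 : (fun _ => 1) = fun ω => ind (⋃ j, e j)ᶜ ω + ∑ j, ind (e j) ω := funext fun ω => by
    simp only [ind]
    by_cases a : ∃ j, ω ∈ e j
    · obtain ⟨j, a⟩ := a
      rw [sum_eq_single j (fun i _ h => if_neg (e2 _ _ h.symm ω a)) (by simp), if_pos a,
        if_neg fun h => h (Set.mem_iUnion.2 ⟨j, a⟩), zero_add]
    · rw [if_pos (by simpa using a), sum_eq_zero fun j _ => if_neg fun h => a ⟨j, h⟩, add_zero]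
  have s8 := J.one
  rw [s7, J.add (ind_cont hL) (continuous_finset_sum _ fun j _ => ind_cont (e1 j).1),
    show J.I _ = ∑ j, J.I (ind (e j)) from
      I_sum (F := F.wI J) _ fun j => ind_cont (e1 j).1] at s8
  have s9 := J.mono continuous_const (ind_cont hL) ind_nn
  rw [show J.I (fun _ => 0) = 0 from I_const (F := F.wI J) 0] at s9
  have : J.I (ind (⋃ j, e j)ᶜ) * (N + 1) ≤ θ := by
    rw [← le_div_iff₀ (by positivity)]
    linarith [e3 J hJ]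
  rw [← hN, funext hcol] at s6
  nlinarith [s4 J]

end Fib

end Vale.Agent.P078
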