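import Vale.Agent.P078.C1

/-! The label extension. -/

namespace Vale.Agent.P078

open Finset Polynomial Filter Topology
open scoped ComplexConjugate Pointwise Classical ComplexOrder

namespace Fib

variable {Ω Γ R : Type*} [TopologicalSpace Ω] [Group Γ] [MulAction Γ Ω] [Ring R]
  [StarRing R] [Algebra ℂ R] {F : Fib Ω Γ R} {m n : ℕ} {σ τ : Ω → Fin m → ℂ} {sg : Fin m → ℝ}
  {Q : ℝ[X]} {θ : ℝ}

theorem b_det4 {col : Ω → Fin n} {p : Fin n → R}
    (hp : ∀ c ω w, F.φ ω (w * p c) = if col ω = c then F.φ ω w else 0) {pl : Fin n → Fin m}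
    (h1 : Function.Injective pl) {s : ℝ} (h2 : ∀ c, sg (pl c) = s) (h3 : Prob τ)
    (h4 : ∀ ω, τ ω (pl (col ω)) = 4⁻¹) (h5 : ∀ ω c, c ≠ pl (col ω) → τ ω c = 0 ∨ sg c = 0) (ω : Ω) :
    F.b sg Q τ ω = ∑ k ∈ range (Q.natDegree + 1),
      Q.coeff k * ((4⁻¹ * s : ℂ) ^ k * F.φ ω ((∑ c, p c * F.x * p c) ^ k)).re := by
  rw [Fib.b, S.aQ]
  refine sum_congr rfl fun k hk => ?_
  have o : F.r ω 1 ∈ F.V ω Q.natDegree := mem_image_of_mem _ (one_mem _)
  have := pw (ω := ω) hp (Nat.lt_succ_iff.1 (mem_range.1 hk)) (F.ρ (F.r ω 1)⁻¹)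
  rw [← F.act, sum_eq_single_of_mem (F.r ω 1) (by exact mem_filter.2 ⟨o, rfl⟩) fun j hj e => ?_,
    ← map_mul, inv_mul_cancel, map_one, F.one, one_mul] at this
  · rw [S.mom_scale (α := 4⁻¹) (β := 4) (by norm_num) (fun i => pl (col (i • ω)))
      (fun _ => (h3 _).2) (fun _ => h4 _) (fun v c hc => (h5 _ c hc).imp_right fun a => by
        ext
        simp [Y, a]), S.mom_det (fun i => pl (col (i • ω))) (fun _ _ => rfl) o]
    simp only [Y, h2, h1.eq_iff, ← mul_assoc]
    rw [wk_smul, ← this, r_smul, one_smul]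
  · have : ¬F.rel ω (F.r ω 1) j := fun a => e (by
      rw [← V_rep (mem_filter.1 hj).1, ← a.r_eq, r_r])
    rw [← map_mul, not_not.1 this, zero_mul]

variable (F n) in
/-- Points with labelled fibres. -/
def Ext : Type _ := {p : Ω × (Γ → Fin n) // ∀ g h, F.rel p.1 g h → p.2 g = p.2 h}

instance : TopologicalSpace (F.Ext n) := inferInstanceAs (TopologicalSpace (Subtype _))

instance [T2Space Ω] : T2Space (F.Ext n) := inferInstanceAs (T2Space (Subtype _))

instance [TotallyDisconnectedSpace Ω] : TotallyDisconnectedSpace (F.Ext n) :=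
  inferInstanceAs (TotallyDisconnectedSpace (Subtype _))

instance [CompactSpace Ω] : CompactSpace (F.Ext n) := by
  refine isCompact_iff_compactSpace.1 (IsClosed.isCompact (?_ : IsClosed
    {p : Ω × (Γ → Fin n) | ∀ g h, F.rel p.1 g h → p.2 g = p.2 h}))
  simp only [Set.setOf_forall, imp_iff_not_or, Set.setOf_or]
  refine isClosed_iInter fun g => isClosed_iInter fun h => IsClosed.union ?_
    (isClosed_eq ((continuous_apply g).comp continuous_snd)
      ((continuous_apply h).comp continuous_snd))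
  simp only [rel, not_not]
  exact isClosed_eq ((F.cont _).comp continuous_fst) continuous_const

instance : MulAction Γ (F.Ext n) where
  smul g p := ⟨(g • p.1.1, fun h => p.1.2 (h * g)), fun _ _ e => p.2 _ _ (rel_act.1 e)⟩
  one_smul p := Subtype.ext (Prod.ext (one_smul _ _) (funext fun h => congrArg p.1.2 (mul_one h)))
  mul_smul g h p := Subtype.ext (Prod.ext (mul_smul _ _ _)
    (funext fun k => congrArg p.1.2 (mul_assoc _ _ _).symm))

theorem ext_fst : Continuous fun p : F.Ext n => p.1.1 := continuous_subtype_val.fst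

theorem ext_snd (g : Γ) : Continuous fun p : F.Ext n => p.1.2 g :=
  (continuous_apply g).comp continuous_subtype_val.snd

variable (F) in
/-- The section defined by a labelling. -/
def sec (l : Ω → Fin n) (ω : Ω) : F.Ext n :=
  ⟨(ω, fun g => l (g • ω)), fun _ _ e => congrArg l e.smul⟩

theorem sec_cont {l : Ω → Fin n} (h : IsLocallyConstant l) : Continuous (F.sec l) :=
  (continuous_id.prodMk (continuous_pi fun g => h.continuous.comp (F.cact g))).subtype_mk _

theorem sec_act (l : Ω → Fin n) (g : Γ) (ω : Ω) : g • F.sec l ω = F.sec l (g • ω) :=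
  Subtype.ext (Prod.ext rfl (funext fun h => congrArg l (mul_smul h g ω)))

variable (F) in
/-- The integral along a section. -/
def secI {l : Ω → Fin n} (h : IsLocallyConstant l) : Inv (F.Ext n) Γ where
  I f := F.I fun ω => f (F.sec l ω)
  add hf hg := F.I_add (hf.comp (sec_cont h)) (hg.comp (sec_cont h))
  mono hf hg e := F.I_mono (hf.comp (sec_cont h)) (hg.comp (sec_cont h)) fun _ => e _
  smul c _ hf := F.I_smul c (hf.comp (sec_cont h))
  one := F.I_one
  act g f hf := by
    simp only [sec_act]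
    exact F.I_act g (hf.comp (sec_cont h))

variable (F) in
/-- The extended field of fibres. -/
def ext (J : Inv (F.Ext n) Γ) : Fib (F.Ext n) Γ R :=
  { F with
    φ := fun p => F.φ p.1.1
    I := J.I
    cact := fun g => (((F.cact g).comp ext_fst).prodMk
      (continuous_pi fun h => ext_snd (h * g))).subtype_mk _
    cont := fun y => (F.cont y).comp ext_fst
    one := fun p => F.one _
    st := fun p => F.st _
    act := fun g p => F.act g _
    mul := fun p g h => ⟨Subtype.ext (Prod.ext (F.mul _ g h).1 (funext fun k => p.2 _ _ (by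
      have : F.rel p.1.1 1 g := by simpa [rel] using h
      simpa using (this.left k).symm))), (F.mul _ g h).2⟩
    I_add := J.add
    I_mono := J.mono
    I_smul := J.smul
    I_one := J.one
    I_act := J.act
    x_zero := fun p => F.x_zero _
    x_bd := fun p => F.x_bd _ }

theorem ext_loc [CompactSpace Ω] [T2Space Ω] {α : Type*} {col : F.Ext n → α}
    (h : IsLocallyConstant col) : ∃ T : Finset Γ, ∀ p q : F.Ext n, p.1.1 = q.1.1 →
      (∀ g ∈ T, p.1.2 g = q.1.2 g) → col p = col q := by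
  have hc : IsClosed {z : F.Ext n × F.Ext n | z.1.1.1 = z.2.1.1 ∧ col z.1 ≠ col z.2} := by
    refine (isClosed_eq (ext_fst.comp continuous_fst) (ext_fst.comp continuous_snd)).inter ?_
    exact (((h.comp_continuous continuous_fst).prodMk (h.comp_continuous continuous_snd))
      {z | z.1 = z.2}).isClosed_compl
  obtain ⟨T, hT⟩ := hc.isCompact.elim_finite_subcover
    (fun g : Γ => {z : F.Ext n × F.Ext n | z.1.1.2 g ≠ z.2.1.2 g})
    (fun g => isOpen_ne_fun ((ext_snd g).comp continuous_fst) ((ext_snd g).comp continuous_snd))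
    fun z hz => by
      by_contra a
      exact hz.2 (congrArg col (Subtype.ext (Prod.ext hz.1 (funext fun g => by_contra fun b =>
        a (Set.mem_iUnion.2 ⟨g, b⟩)))))
  refine ⟨T, fun p q h1 h2 => by_contra fun a => ?_⟩
  obtain ⟨g, hg, b⟩ := Set.mem_iUnion₂.1 (hT (show (p, q) ∈ _ from ⟨h1, a⟩))
  exact b (h2 g hg)

variable [StarModule ℂ R] [CompactSpace Ω] [T2Space Ω] [TotallyDisconnectedSpace Ω]

theorem main3 {k : ℕ} [NeZero (k ^ 2)] (hk : 1 ≤ k) (hc : F.Cov) (N : ℕ) (h0 : 0 < θ)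
    (h1 : θ ≤ 1 / 2) (hq : QStmt) : ∃ (T : Finset Γ) (cl : (Ω → Fin (k ^ 2)) → Ω → Fin (k ^ 2)),
      (∀ l t ω, cl (fun ω => l ω + t) ω = cl l ω + t) ∧
      (∀ l l' ω, (∀ g ∈ T, l (g • ω) = l' (g • ω)) → cl l ω = cl l' ω) ∧
      ∀ l, IsLocallyConstant l → IsLocallyConstant (cl l) ∧ ∀ p : Fin (k ^ 2) → R,
      (∀ c ω w, F.φ ω (w * p c) = if cl l ω = c then F.φ ω w else 0) → ∀ s : ℝ, s = 1 ∨ s = -1 →
      F.I (fun ω => ∑ i ∈ range ((PN N).natDegree + 1), (PN N).coeff i *
        ((4⁻¹ * s : ℂ) ^ i * F.φ ω ((∑ c, p c * F.x * p c) ^ i)).re) ≤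
        (1 + 5 / (2 * k)) ^ N + (2 ^ N * 5 + 1) * θ := by
  have k0 : (0 : ℝ) < k := by exact_mod_cast hk
  have k1 : (k : ℂ) ≠ 0 := by exact_mod_cast k0.ne'
  obtain ⟨Q, q1, q2⟩ := hq (4 / (2 * k : ℕ)) (5 / (2 * k)) θ (by push_cast; gcongr; norm_num) h0 h1
  let e : Fin (k ^ 2) × Fin 4 ≃ Fin ((2 * k) ^ 2) := Fintype.equivFinOfCardEq (by simp; ring)
  let sg : Fin ((2 * k) ^ 2) → ℝ := fun s => ![1, -1, 0, 0] (e.symm s).2
  have g1 : ∀ s, |sg s| ≤ 1 := fun s => by
    simp only [sg]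
    generalize (e.symm s).2 = a
    fin_cases a <;> simp
  let ν : Fin (k ^ 2) → Fin ((2 * k) ^ 2) → ℂ := fun c s => if (e.symm s).1 = c then 4⁻¹ else 0
  have hν : Prob ν := fun c => ⟨fun s => ⟨if (e.symm s).1 = c then 4⁻¹ else 0, by positivity, by
    simp only [ν]
    split_ifs <;> simp⟩, by
      rw [← e.sum_comp, Fintype.sum_prod_type]
      simp [ν]⟩
  have hu : Prob fun (_ : Ω) (_ : Fin ((2 * k) ^ 2)) => (((2 * k) ^ 2 : ℕ) : ℂ)⁻¹ :=
    fun _ => ⟨fun _ => ⟨(((2 * k) ^ 2 : ℕ) : ℝ)⁻¹, by positivity, by simp⟩, by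
      rw [sum_const, card_univ, Fintype.card_fin, nsmul_eq_mul,
        mul_inv_cancel₀ (Nat.cast_ne_zero.2 (by positivity))]⟩
  let F' := F.ext (F.secI (IsLocallyConstant.const (0 : Fin (k ^ 2))))
  let Z : F'.Sym sg ν :=
    { sh := fun t p => ⟨(p.1.1, fun g => p.1.2 g + t), fun g h a => congrArg (· + t) (p.2 g h a)⟩
      E := fun t => e.symm.trans (((Equiv.addRight t).prodCongr (Equiv.refl _)).trans e)
      lab := fun p => p.1.2 1
      cont := fun t => (ext_fst.prodMk (continuous_pi fun g =>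
        (continuous_of_discreteTopology (f := (· + t))).comp (ext_snd g))).subtype_mk _
      φ := fun _ _ => rfl
      act := fun _ _ _ => rfl
      add := fun t t' p => Subtype.ext (Prod.ext rfl (funext fun g => by
        simp only [add_assoc, add_comm t]))
      zero := fun p => Subtype.ext (Prod.ext rfl (funext fun g => add_zero _))
      lc := (IsLocallyConstant.iff_continuous _).2 (ext_snd 1)
      lab_sh := fun _ _ => rfl
      sg_E := fun t s => by simp [sg]
      ν_E := fun t c s => by simp [ν]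
      inj := fun c d h => by simpa [ν] using (congrFun h (e (c, 0))).symm }
  obtain ⟨cE, c0, c1, c2⟩ := stageE Z g1 q2 h0 (fun t ht => ⟨(q1 t ht).1, (q1 t ht).2.1⟩) hν
    {J | ∃ l h, J = F.secI (l := l) h} (fun η hη => by
      obtain ⟨n, f, f1, f2, f3⟩ := hc Q.natDegree η hη
      exact ⟨n, fun j => {p | p.1.1 ∈ f j}, fun j => ⟨(f1 j).1.preimage ext_fst,
        fun b hb b' hb' p => (f1 j).2 b hb b' hb' p.1.1, fun _ _ => Iff.rfl⟩,
        fun i j h p => f2 i j h p.1.1, by rintro _ ⟨l, h, rfl⟩; exact f3⟩) (fun p => hu p.1.1) (fun s => by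
      simp only [ν, mul_ite, mul_zero, sum_ite_eq, mem_univ, if_true]
      push_cast
      field_simp
      norm_num) fun _ _ => rfl
  obtain ⟨T, hT⟩ := ext_loc c0
  refine ⟨T, fun l ω => cE (F.sec l ω), fun l t ω => c1 t (F.sec l ω),
    fun l l' ω h => hT _ _ rfl h, fun l hl => ?_⟩
  have c1 := c0.comp_continuous (sec_cont hl)
  refine ⟨c1, fun p hp s hs => ?_⟩
  have c2 : F.I (F.b sg Q fun ω => ν (cE (F.sec l ω))) ≤
      F.I (F.b sg Q fun _ _ => (((2 * k) ^ 2 : ℕ) : ℂ)⁻¹) + 3 * θ := by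
    refine le_of_eq_of_le (congrArg F.I (funext fun ω => ?_)) (c2 _ ⟨l, hl, rfl⟩)
    simp only [Fib.b, sec_act]
    rfl
  obtain ⟨col, hcol⟩ : ∃ col, col = fun ω => cE (F.sec l ω) := ⟨_, rfl⟩
  replace c1 : IsLocallyConstant col := hcol ▸ c1
  simp only [← congrFun hcol] at c2 hp
  have c3 := F.I_mono (b_cont (F := F) (sg := sg) Q (fun ω => (hu ω).2) (IsLocallyConstant.const _))
    (continuous_const (y := θ)) fun ω => (S.aQ_rep (a := -θ) pf (Y_hc g1 ω) (fun _ => hu ω) Q
      (mem_image_of_mem _ (one_mem _)) fun l hl => by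
        have := q1 l ((S.chi_RR (Y_hc g1 ω) (fun _ => hu ω) _ _ (by simp)).2 _ hl).2
        exact ⟨this.1, this.2.2.1 (S.root_lt har bar (Y_hc g1 ω) (Y_diag ω) (by omega) _ hl)⟩).2
  have hσ : Prob fun ω => ν (col ω) := fun _ => hν _
  have c4 := b_cont (F := F) (sg := sg) Q (fun ω => (hσ ω).2) (c1.comp ν)
  have c5 := F.I_mono (b_cont (F := F) (sg := sg) _ (fun ω => (hσ ω).2) (c1.comp ν))
    (continuous_const.fun_add (c4.const_mul _)) (b_cmp (P := PN N)
      (D := (1 + 5 / (2 * k)) ^ N + 2 ^ N * θ) (L := 2 ^ N) g1 hσ fun t ht => by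
      obtain ⟨a, b⟩ := abs_le.1 ht
      rw [PN, eval_pow, eval_add, eval_X, eval_C, add_assoc, ← mul_add]
      rcases le_total t (5 / (2 * k)) with c | c
      · exact (pow_le_pow_left₀ (by linarith) (by linarith) _).trans (le_add_of_nonneg_right
          (mul_nonneg (by positivity) (by linarith [(q1 t ht).1])))
      · exact ((pow_le_pow_left₀ (by linarith) (by linarith) _).trans (le_mul_of_one_le_right
          (by positivity) (by linarith [(q1 t ht).2.2.2 c]))).trans (le_add_of_nonneg_left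
            (by positivity)))
  rw [F.I_add continuous_const (c4.const_mul _), I_const, F.I_smul _ c4] at c5
  rw [I_const] at c3
  obtain ⟨a, a1, a2⟩ : ∃ a : Fin 4, a ≠ 2 ∧ ![1, -1, 0, 0] a = s := by
    rcases hs with rfl | rfl
    exacts [⟨0, by simp, rfl⟩, ⟨1, by simp, rfl⟩]
  let T : Fin (k ^ 2) → Fin ((2 * k) ^ 2) → ℝ := fun c s =>
    (if s = e (c, a) then 4⁻¹ else 0) + if s = e (c, 2) then 3 / 4 else 0
  have hτ : Prob fun ω s => (T (col ω) s : ℂ) := fun ω => ⟨fun s => ⟨_, by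
    simp only [T]
    positivity, rfl⟩, by
      simp only [T, ← Complex.ofReal_sum, sum_add_distrib, sum_ite_eq', mem_univ, if_true]
      norm_num⟩
  have c6 := stage2 g1 h0 hc N hσ (c1.comp ν) hτ (c1.comp fun c s => (T c s : ℂ)) fun ω s => by
    by_cases b : s = e (col ω, 2)
    · exact .inl (by simp [sg, b])
    · refine .inr ?_
      simp only [T, ν, if_neg b, add_zero]
      split_ifs with b1 b2
      · simp
      · simp [b1] at b2
      · simp
      · simp
  rw [← funext (b_det4 hp (pl := fun c => e (c, a)) (sg := sg) (fun _ _ h => by simpa using h)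
    (fun c => by simp [sg, a2]) hτ (fun ω => by simp [T, a1]) fun ω c h => ?_)]
  · nlinarith [mul_le_mul_of_nonneg_left (c2.trans (add_le_add_left c3 _))
      (show (0 : ℝ) ≤ 2 ^ N by positivity)]
  · by_cases b : c = e (col ω, 2)
    · exact .inr (by simp [sg, b])
    · exact .inl (by simp [T, b, h])

end Fib

end Vale.Agent.P078
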