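import Vale.Agent.P078.StmN

/-! Paving in a tracial corner. -/

namespace Vale.Agent.P078

open scoped InnerProductSpace InnerProduct
open Vale.Agent.P104 ContinuousLinearMap

universe u

namespace Cor

variable {H K : Type u} [NormedAddCommGroup H] [InnerProductSpace ℂ H] [CompleteSpace H]
  [NormedAddCommGroup K] [InnerProductSpace ℂ K] [CompleteSpace K]
  {A M : VonNeumannAlgebra H} {V : K →L[ℂ] H}

/-- Compression. -/
noncomputable def cp (V : K →L[ℂ] H) (x : H →L[ℂ] H) : K →L[ℂ] K := V† ∘L x ∘L V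

/-- Extension by zero. -/
noncomputable def ex (V : K →L[ℂ] H) (T : K →L[ℂ] K) : H →L[ℂ] H := V ∘L T ∘L V†

/-- An isometry. -/
def Iso (V : K →L[ℂ] H) : Prop := ∀ k, (V†) (V k) = k

theorem cp_apply (x : H →L[ℂ] H) (k : K) : cp V x k = (V†) (x (V k)) := rfl

theorem ex_apply (T : K →L[ℂ] K) (η : H) : ex V T η = V (T ((V†) η)) := rfl

theorem cp_star (x : H →L[ℂ] H) : cp V (star x) = star (cp V x) := by
  simp [cp, star_eq_adjoint, adjoint_comp, comp_assoc]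

theorem ex_star (T : K →L[ℂ] K) : ex V (star T) = star (ex V T) := by
  simp [ex, star_eq_adjoint, adjoint_comp, comp_assoc]

theorem cp_zero : cp V 0 = 0 := by
  ext k; simp [cp_apply]

theorem ex_zero : ex V 0 = 0 := by
  ext k; simp [ex_apply]

theorem ex_sub (S T : K →L[ℂ] K) : ex V (S - T) = ex V S - ex V T := by
  ext k; simp [ex_apply]

theorem ex_sum {ι : Type*} (s : Finset ι) (T : ι → K →L[ℂ] K) :
    ex V (∑ i ∈ s, T i) = ∑ i ∈ s, ex V (T i) := by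
  ext k; simp [ex_apply, map_sum]

theorem ex_cp (x : H →L[ℂ] H) : ex V (cp V x) = ex V 1 * x * ex V 1 := rfl

theorem ex_mid (S T : K →L[ℂ] K) (x : H →L[ℂ] H) :
    ex V S * x * ex V T = ex V (S * cp V x * T) := rfl

theorem cp_mid (x y : H →L[ℂ] H) : cp V (x * ex V 1 * y) = cp V x * cp V y := rfl

theorem Iso.norm (h : Iso V) (k : K) : ‖V k‖ = ‖k‖ := by
  rw [← sq_eq_sq₀ (norm_nonneg _) (norm_nonneg _), ← inner_self_eq_norm_sq (𝕜 := ℂ),
    ← inner_self_eq_norm_sq (𝕜 := ℂ), ← adjoint_inner_left, h]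

theorem Iso.op (h : Iso V) : ‖V‖ ≤ 1 :=
  opNorm_le_bound _ zero_le_one fun k => by rw [h.norm, one_mul]

theorem Iso.op' (h : Iso V) : ‖V†‖ ≤ 1 := by
  rw [LinearIsometryEquiv.norm_map]; exact h.op

theorem Iso.cp_ex (h : Iso V) (T : K →L[ℂ] K) : cp V (ex V T) = T := by
  ext k; rw [cp_apply, ex_apply, h, h]

theorem Iso.ex_mul (h : Iso V) (S T : K →L[ℂ] K) : ex V (S * T) = ex V S * ex V T := by
  ext η; simp only [ex_apply, mul_apply_eq_comp, h _]

theorem Iso.proj (h : Iso V) {T : K →L[ℂ] K} (hT : IsStarProjection T) :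
    IsStarProjection (ex V T) :=
  ⟨by rw [IsIdempotentElem, ← h.ex_mul, hT.1.eq], by rw [IsSelfAdjoint, ← ex_star, hT.2.star_eq]⟩

theorem Iso.cp_left (h : Iso V) (x : H →L[ℂ] H) : cp V (ex V 1 * x) = cp V x := by
  ext k; simp only [cp_apply, ex_apply, mul_apply_eq_comp, h _, one_apply_eq_self]

theorem Iso.cp_right (h : Iso V) (x : H →L[ℂ] H) : cp V (x * ex V 1) = cp V x := by
  ext k; simp only [cp_apply, ex_apply, mul_apply_eq_comp, h _, one_apply_eq_self]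

theorem Iso.cp_mul (h : Iso V) {x : H →L[ℂ] H} (y : H →L[ℂ] H) (hx : ex V 1 * x = x * ex V 1) :
    cp V (x * y) = cp V x * cp V y := by
  rw [← cp_mid, ← hx, mul_assoc, h.cp_left]

theorem Iso.cp_mul' (h : Iso V) (x : H →L[ℂ] H) {y : H →L[ℂ] H} (hy : ex V 1 * y = y * ex V 1) :
    cp V (x * y) = cp V x * cp V y := by
  rw [← cp_mid, mul_assoc, hy, ← mul_assoc, h.cp_right]

theorem comp3 {A B C D : Type*} [NormedAddCommGroup A] [NormedSpace ℂ A] [NormedAddCommGroup B]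
    [NormedSpace ℂ B] [NormedAddCommGroup C] [NormedSpace ℂ C] [NormedAddCommGroup D]
    [NormedSpace ℂ D] {f : C →L[ℂ] D} {g : B →L[ℂ] C} {k : A →L[ℂ] B} {r s t : ℝ} (hf : ‖f‖ ≤ r)
    (hg : ‖g‖ ≤ s) (hk : ‖k‖ ≤ t) : ‖f ∘L g ∘L k‖ ≤ r * (s * t) :=
  (opNorm_comp_le _ _).trans (mul_le_mul hf ((opNorm_comp_le _ _).trans (mul_le_mul hg hk
    (norm_nonneg _) ((norm_nonneg _).trans hg))) (norm_nonneg _) ((norm_nonneg _).trans hf))

theorem Iso.cp_le (h : Iso V) (x : H →L[ℂ] H) : ‖cp V x‖ ≤ ‖x‖ := by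
  simpa [cp] using comp3 h.op' (le_refl ‖x‖) h.op

theorem Iso.ex_le (h : Iso V) (T : K →L[ℂ] K) : ‖ex V T‖ ≤ ‖T‖ := by
  simpa [ex] using comp3 h.op (le_refl ‖T‖) h.op'

/-- The reduced algebra. -/
noncomputable def corner (M : VonNeumannAlgebra H) (V : K →L[ℂ] H) : VonNeumannAlgebra K where
  toStarSubalgebra := StarSubalgebra.centralizer ℂ (cp V '' (M.commutant : Set (H →L[ℂ] H)))
  centralizer_centralizer' := by simp

theorem mem_corner₀ {T : K →L[ℂ] K} :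
    T ∈ corner M V ↔ ∀ y ∈ M.commutant, cp V y * T = T * cp V y := by
  change T ∈ StarSubalgebra.centralizer ℂ _ ↔ _
  rw [StarSubalgebra.mem_centralizer_iff]
  refine ⟨fun h y hy => (h _ ⟨y, hy, rfl⟩).1, ?_⟩
  rintro h _ ⟨y, hy, rfl⟩
  exact ⟨h y hy, by rw [← cp_star]; exact h _ (star_mem hy)⟩

theorem Iso.cp_mem (h : Iso V) (he : ex V 1 ∈ M) {x : H →L[ℂ] H} (hx : x ∈ M) :
    cp V x ∈ corner M V := mem_corner₀.2 fun y hy => by
  rw [← h.cp_mul _ (commute_of_mem he hy), ← h.cp_mul' _ (commute_of_mem he hy),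
    commute_of_mem hx hy]

theorem Iso.one_ex (h : Iso V) (T : K →L[ℂ] K) : ex V 1 * ex V T = ex V T := by
  rw [← h.ex_mul, one_mul]

theorem Iso.ex_one (h : Iso V) (T : K →L[ℂ] K) : ex V T * ex V 1 = ex V T := by
  rw [← h.ex_mul, mul_one]

theorem Iso.ex_mem (h : Iso V) (he : ex V 1 ∈ M) {T : K →L[ℂ] K} (hT : T ∈ corner M V) :
    ex V T ∈ M := mem_of_commute fun y hy => by
  have c := commute_of_mem he hy
  have e1 := h.one_ex T
  have e2 := h.ex_one T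
  have p := (h.proj (.one _)).1.eq
  have := congrArg (ex V) (mem_corner₀.1 hT y hy)
  rw [h.ex_mul, h.ex_mul, ex_cp] at this
  calc y * ex V T = ex V 1 * y * ex V 1 * ex V T := by rw [c, mul_assoc y, p, mul_assoc, e1]
    _ = ex V T * y := by rw [this, mul_assoc (ex V 1), ← c, ← mul_assoc (ex V 1), p, ← mul_assoc, e2]

theorem exists_range {e : H →L[ℂ] H} (he : IsStarProjection e) : ∃ (K : Type u)
    (_ : NormedAddCommGroup K) (_ : InnerProductSpace ℂ K) (_ : CompleteSpace K) (V : K →L[ℂ] H),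
    Iso V ∧ ex V 1 = e := by
  let U : Submodule ℂ H := (1 - e).ker
  have hU : ∀ η, η ∈ U ↔ e η = η := fun η => by
    change η - e η = 0 ↔ _
    rw [sub_eq_zero, eq_comm]
  have : CompleteSpace U := (isClosed_ker (1 - e)).completeSpace_coe
  refine ⟨U, inferInstance, inferInstance, this, U.subtypeL, fun k => ?_, ?_⟩
  · rw [Submodule.adjoint_subtypeL]
    exact Submodule.orthogonalProjectionOnto_mem_subspace_eq_self k
  · ext η
    rw [ex_apply, Submodule.adjoint_subtypeL]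
    refine Submodule.eq_starProjection_of_mem_of_inner_eq_zero
      ((hU _).2 (by rw [← mul_apply_eq_comp, he.1.eq])) fun w hw => ?_
    rw [← (hU w).1 hw, ← adjoint_inner_left, ← star_eq_adjoint, he.2.star_eq, map_sub,
      ← mul_apply_eq_comp, he.1.eq, sub_self, inner_zero_left]

theorem masa (h : Iso V) (hA : IsMasa A M) (he : ex V 1 ∈ A) :
    IsMasa (corner A V) (corner M V) := by
  have heM := hA.1 _ he
  refine ⟨fun T hT => ?_, fun S hS T hT => ?_, fun T hT hc => ?_⟩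
  · rw [← h.cp_ex T]
    exact h.cp_mem heM (hA.1 _ (h.ex_mem he hT))
  · rw [← h.cp_ex (S * T), ← h.cp_ex (T * S), h.ex_mul, h.ex_mul,
      hA.2.1 _ (h.ex_mem he hS) _ (h.ex_mem he hT)]
  · rw [← h.cp_ex T]
    refine h.cp_mem he (hA.2.2 _ (h.ex_mem heM hT) fun a ha => ?_)
    have c := hA.2.1 _ he _ ha
    have := congrArg (ex V) (hc _ (h.cp_mem he ha))
    rw [h.ex_mul, h.ex_mul, ex_cp] at this
    calc a * ex V T = ex V 1 * a * ex V 1 * ex V T := by
          rw [c, mul_assoc a, h.ex_one, mul_assoc, h.one_ex]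
      _ = ex V T * a := by
          rw [this, mul_assoc (ex V 1), ← c, ← mul_assoc (ex V 1), h.ex_one, ← mul_assoc, h.ex_one]

theorem tv (h : Iso V) (he : ex V 1 ∈ M) {ζ : H} (h0 : ζ ≠ 0) (h1 : ex V 1 ζ = ζ)
    (h2 : ∀ x ∈ M, ∀ y ∈ M, ⟪ζ, (ex V 1 * x * ex V 1 * y * ex V 1) ζ⟫_ℂ =
      ⟪ζ, (ex V 1 * y * ex V 1 * x * ex V 1) ζ⟫_ℂ)
    (h3 : ∀ x ∈ M, (ex V 1 * x * ex V 1) ζ = 0 → ex V 1 * x * ex V 1 = 0) :
    TraceVec (corner M V) (((‖ζ‖⁻¹ : ℝ) : ℂ) • (V†) ζ) := by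
  have n0 : ‖ζ‖ ≠ 0 := norm_ne_zero_iff.2 h0
  have n1 : ‖(V†) ζ‖ = ‖ζ‖ := by
    rw [← h.norm]
    exact congrArg norm h1
  have k : ∀ T : K →L[ℂ] K, ⟪(V†) ζ, T ((V†) ζ)⟫_ℂ = ⟪ζ, ex V T ζ⟫_ℂ := fun T => by
    rw [adjoint_inner_left, ex_apply]
  refine ⟨?_, fun S hS T hT => ?_, fun T hT e => ?_⟩
  · rw [norm_smul, n1, Complex.norm_real, norm_inv, norm_norm, inv_mul_cancel₀ n0]
  · have := h2 _ (h.ex_mem he hS) _ (h.ex_mem he hT)
    simp only [← h.ex_mul, one_mul, mul_one] at this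
    simp only [map_smul, inner_smul_left, inner_smul_right, k, this]
  · rw [map_smul, smul_eq_zero] at e
    have e' : T ((V†) ζ) = 0 := e.resolve_left (by exact_mod_cast inv_ne_zero n0)
    have := h3 _ (h.ex_mem he hT) (by rw [h.one_ex, h.ex_one, ex_apply, e', map_zero])
    rw [h.one_ex, h.ex_one] at this
    rw [← h.cp_ex T, this, cp_zero]

/-- Transfer of a tracial paving theorem to a tracial corner. -/
theorem gen {r : ℕ} (k₀ : Fin r) {c : ℝ} (hc : 0 ≤ c)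
    (one : ∀ (K : Type u) [NormedAddCommGroup K] [InnerProductSpace ℂ K] [CompleteSpace K]
      (A M : VonNeumannAlgebra K) (ξ : K), IsMasa A M → TraceVec M ξ → ∀ x ∈ M, IsSelfAdjoint x →
      ‖x‖ ≤ 1 → ∀ θ : ℝ, 0 < θ → ∃ p : Fin r → K →L[ℂ] K, IsPartition A p ∧ ∃ a ∈ A,
        IsSelfAdjoint a ∧ ‖a‖ ≤ 1 ∧ ∃ q ∈ M, IsStarProjection q ∧ ‖(1 - q) ξ‖ ≤ θ ∧
          ‖q * (R.pin p x - a) * q‖ ≤ c)
    (hA : IsMasa A M) {f : H →L[ℂ] H} (fA : f ∈ A) (hf : IsStarProjection f) {ζ : H}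
    (h1 : f ζ = ζ)
    (h2 : ∀ x ∈ M, ∀ y ∈ M, ⟪ζ, (f * x * f * y * f) ζ⟫_ℂ = ⟪ζ, (f * y * f * x * f) ζ⟫_ℂ)
    (h3 : ∀ x ∈ M, (f * x * f) ζ = 0 → f * x * f = 0) {x : H →L[ℂ] H} (hx : x ∈ M)
    (hs : IsSelfAdjoint x) (hn : ‖x‖ ≤ 1) (v : H) {θ : ℝ} (hθ : 0 < θ) :
    ∃ p : Fin r → H →L[ℂ] H, IsPartition A p ∧ ∃ a ∈ A, IsSelfAdjoint a ∧
      ‖a‖ ≤ 1 ∧ f * a = a ∧ ∃ q ∈ M, IsStarProjection q ∧ f * q = q ∧ ‖(f - q) v‖ ≤ θ ∧
        ‖q * (R.pin p x - a) * q‖ ≤ c := by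
  classical
  by_cases h0 : ζ = 0
  · have f0 : f = 0 := by
      have := h3 1 (one_mem _) (by rw [h0, map_zero])
      rwa [mul_one, hf.1.eq] at this
    refine ⟨fun k => if k = k₀ then 1 else 0, ⟨fun i => ?_, fun i j hij => ?_, by simp⟩, 0,
      zero_mem _, .zero _, by simp, by simp, 0, zero_mem _, .zero _, by simp, ?_, by simpa using hc⟩
    · dsimp only
      split_ifs
      · exact ⟨one_mem _, .one _⟩
      · exact ⟨zero_mem _, .zero _⟩
    · dsimp only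
      split_ifs with a b
      · exact absurd (a.trans b.symm) hij
      all_goals simp
    · simpa [f0] using hθ.le
  obtain ⟨K, _, _, _, V, h, rfl⟩ := exists_range hf
  have fM := hA.1 _ fA
  have ht := tv h fM h0 h1 h2 h3
  obtain ⟨θ₀, t0, hθ₀⟩ := R.sep_fin ht {(V†) v} hθ
  obtain ⟨p, pp, a, aA, as, an, q, qM, q1, q2, q3⟩ := one K _ _ _ (masa h hA fA) ht (cp V x)
    (h.cp_mem fM hx) (by rw [IsSelfAdjoint, ← cp_star, hs.star_eq]) ((h.cp_le x).trans hn) θ₀ t0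
  have z1 : ∀ T, ex V T * (1 - ex V 1) = 0 := fun T => by rw [mul_sub, mul_one, h.ex_one, sub_self]
  have z2 : ∀ T, (1 - ex V 1) * ex V T = 0 := fun T => by rw [sub_mul, one_mul, h.one_ex, sub_self]
  let g : Fin r → H →L[ℂ] H := fun k => if k = k₀ then 1 - ex V 1 else 0
  have g1 : ∀ T k, ex V T * g k = 0 := fun T k => by
    simp only [g]
    split_ifs
    · exact z1 T
    · exact mul_zero _
  have g2 : ∀ T k, g k * ex V T = 0 := fun T k => by
    simp only [g]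
    split_ifs
    · exact z2 T
    · exact zero_mul _
  have g3 : ∀ k, g k ∈ A ∧ IsStarProjection (g k) := fun k => by
    simp only [g]
    split_ifs
    · exact ⟨sub_mem (one_mem _) fA, hf.one_sub⟩
    · exact ⟨zero_mem _, .zero _⟩
  refine ⟨fun k => ex V (p k) + g k, ⟨fun i => ⟨add_mem (h.ex_mem fA (pp.1 i).1) (g3 i).1,
      (h.proj (pp.1 i).2).add (g3 i).2 (g1 _ _)⟩, fun i j hij => ?_, ?_⟩, ex V a, h.ex_mem fA aA,
    by rw [IsSelfAdjoint, ← ex_star, as.star_eq], (h.ex_le a).trans an, h.one_ex a, ex V q,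
    h.ex_mem fM qM, h.proj q1, h.one_ex q, ?_, ?_⟩
  · have : g i * g j = 0 := by
      simp only [g]
      split_ifs with a b
      · exact absurd (a.trans b.symm) hij
      all_goals simp
    rw [add_mul, mul_add, mul_add, g1, g2, this, ← h.ex_mul, pp.2.1 i j hij, ex_zero]
    simp
  · rw [Finset.sum_add_distrib, ← ex_sum, pp.2.2]
    simp [g]
  · rw [← ex_sub, ex_apply, h.norm]
    exact (hθ₀ _ (sub_mem (one_mem _) qM) q1.one_sub.norm_le q2 _ (Finset.mem_singleton_self _)).le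
  · have e : ex V q * (R.pin (fun k => ex V (p k) + g k) x - ex V a) * ex V q =
        ex V (q * (R.pin p (cp V x) - a) * q) := by
      simp only [R.pin, mul_sub, sub_mul, Finset.mul_sum, Finset.sum_mul, ex_sub, ex_sum]
      congr 1
      · refine Finset.sum_congr rfl fun i _ => ?_
        calc ex V q * ((ex V (p i) + g i) * x * (ex V (p i) + g i)) * ex V q
            = ex V q * (ex V (p i) + g i) * x * ((ex V (p i) + g i) * ex V q) := by
              simp only [mul_assoc]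
          _ = _ := by
              rw [mul_add, add_mul (ex V (p i)), g1, g2, add_zero, add_zero, ← h.ex_mul,
                ← h.ex_mul, ex_mid]
              simp only [mul_assoc]
      · rw [h.ex_mul, h.ex_mul]
    rw [e]
    exact (h.ex_le _).trans q3

end Cor

theorem cor (hc : CoreStmt.{u}) (hW : WMStmt.{u}) (hE : EBStmt.{u}) (hG : WPaveStmt.{u}) :
    CorStmt.{u} := by
  intro H _ _ _ A M hA f fA hf ζ h1 h2 h3 m hm η hη x hx hs hn v θ hθ
  have : 0 < m ^ 2 * m ^ 2 * m ^ 2 := by positivity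
  exact Cor.gen ⟨0, this⟩ (by positivity) (fun K _ _ _ A M ξ hA ht x hx hs hn θ hθ =>
    F2.one hc hW hE hG hA ht hm hη hx hs hn hθ) hA fA hf h1 h2 h3 hx hs hn v hθ

end Vale.Agent.P078
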