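import Vale.Agent.P078.Stmts
import Vale.Agent.P096.GX0
import Vale.Agent.P132.Basic

/-! From one-sided paving to strong-operator paving. -/

namespace Vale.Agent.P078

open scoped InnerProductSpace ComplexConjugate ComplexOrder
open Vale.Agent.P104 Vale.Agent.P082 Finset ContinuousLinearMap

universe u

variable {H : Type u} [NormedAddCommGroup H] [InnerProductSpace ℂ H] [CompleteSpace H]
  {A M : VonNeumannAlgebra H} {ξ : H}

namespace R

/-- The algebra spanned by the normalizer. -/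
def nsp (A M : VonNeumannAlgebra H) : StarSubalgebra ℂ (H →L[ℂ] H) where
  carrier := Submodule.span ℂ {u | Normalizes A M u}
  mul_mem' := fun {a b} ha hb => by
    refine Submodule.span_induction₂ (p := fun a b _ _ =>
      a * b ∈ Submodule.span ℂ {u | Normalizes A M u}) ?_ ?_ ?_ ?_ ?_ ?_ ?_ ha hb
    · rintro u v ⟨u1, u2, u3, u4⟩ ⟨v1, v2, v3, v4⟩
      refine Submodule.subset_span ⟨mul_mem u1 v1, mul_mem u2 v2, fun a ha => ?_, fun a ha => ?_⟩
      · simpa only [star_mul, mul_assoc] using u3 _ (v3 a ha)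
      · simpa only [star_mul, mul_assoc] using v4 _ (u4 a ha)
    · intro y _
      rw [zero_mul]; exact zero_mem _
    · intro y _
      rw [mul_zero]; exact zero_mem _
    · intro x y z _ _ _ h1 h2
      rw [add_mul]; exact add_mem h1 h2
    · intro x y z _ _ _ h1 h2
      rw [mul_add]; exact add_mem h1 h2
    · intro c x y _ _ h
      rw [smul_mul_assoc]; exact Submodule.smul_mem _ c h
    · intro c x y _ _ h
      rw [mul_smul_comm]; exact Submodule.smul_mem _ c h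
  add_mem' := add_mem
  algebraMap_mem' := fun c => by
    rw [Algebra.algebraMap_eq_smul_one]
    exact Submodule.smul_mem _ c (Submodule.subset_span ⟨one_mem _, one_mem _, by simp, by simp⟩)
  star_mem' := fun {a} ha => by
    refine Submodule.span_induction (p := fun a _ =>
      star a ∈ Submodule.span ℂ {u | Normalizes A M u}) ?_ ?_ ?_ ?_ ha
    · rintro u ⟨u1, u2, u3, u4⟩
      exact Submodule.subset_span ⟨star_mem u1, Unitary.star_mem u2, by simpa using u4,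
        by simpa using u3⟩
    · rw [star_zero]; exact zero_mem _
    · intro x y _ _ h1 h2
      rw [star_add]; exact add_mem h1 h2
    · intro c x _ h
      rw [star_smul]; exact Submodule.smul_mem _ _ h

theorem nsp_le {x : H →L[ℂ] H} (hx : x ∈ nsp A M) : x ∈ M :=
  Submodule.span_induction (p := fun a _ => a ∈ M) (fun _ h => h.1) (zero_mem _)
    (fun _ _ _ _ => add_mem) (fun c _ _ => vn_smul_mem c) hx

theorem le_nsp (h : IsMasa A M) {a : H →L[ℂ] H} (ha : a ∈ A) : a ∈ nsp A M := by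
  have : (⟨a, ha⟩ : Alg A) ∈ Submodule.span ℂ (unitary (Alg A) : Set (Alg A)) := by
    rw [CStarAlgebra.span_unitary]; trivial
  refine Submodule.span_induction (p := fun a _ => a.1 ∈ nsp A M) ?_ (zero_mem _)
    (fun _ _ _ _ => add_mem) (fun c _ _ h => (nsp A M).smul_mem h c) this
  intro u hu
  exact Submodule.subset_span ⟨h.1 _ u.2, ⟨congrArg Subtype.val hu.1, congrArg Subtype.val hu.2⟩,
    fun a ha => mul_mem (mul_mem u.2 ha) (star_mem u.2),
    fun a ha => mul_mem (mul_mem (star_mem u.2) ha) u.2⟩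

theorem half_norm (x : H →L[ℂ] H) : ‖(2⁻¹ : ℂ) • (x + star x)‖ ≤ ‖x‖ := by
  rw [norm_smul, norm_inv, Complex.norm_ofNat]
  have := norm_add_le x (star x)
  rw [norm_star] at this
  linarith

theorem half_sa (x : H →L[ℂ] H) : IsSelfAdjoint ((2⁻¹ : ℂ) • (x + star x)) := by
  simp [IsSelfAdjoint, add_comm]

theorem kap (hr : Regular A M) (ht : TraceVec M ξ) {x : H →L[ℂ] H} (hx : x ∈ M)
    (hs : IsSelfAdjoint x) (h1 : ‖x‖ ≤ 1) {κ : ℝ} (hκ : 0 < κ) :
    ∃ y ∈ nsp A M, IsSelfAdjoint y ∧ ‖y‖ ≤ 1 ∧ ‖(x - y) ξ‖ ≤ 3 * κ := by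
  have cl := (nsp A M).isClosed_topologicalClosure
  obtain ⟨n, n1, n2⟩ := P096.kap_sa (ρ := (nsp A M).topologicalClosure.subtype) (ζ := ξ) (x := x)
    (VonNeumannAlgebra.mem_commutant_iff.2 fun T hT => hr T (fun u hu => (P096.mem_com.1 hT
      ⟨u, (nsp A M).le_topologicalClosure (Submodule.subset_span hu)⟩).symm) x hx) hs h1 hκ
  obtain ⟨b, hb, e⟩ := Metric.mem_closure_iff.1 n.2 κ hκ
  rw [dist_eq_norm] at e
  have b1 : ‖b‖ ≤ 1 + κ := by
    have := norm_sub_norm_le b n.1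
    rw [norm_sub_rev] at this
    change ‖n.1‖ ≤ 1 at n1
    linarith
  have b2 : ‖(x - b) ξ‖ ≤ 2 * κ := by
    have := (n.1 - b).le_opNorm ξ
    rw [ht.1, mul_one] at this
    rw [show (x - b) ξ = (x ξ - n.1 ξ) + (n.1 - b) ξ by simp]
    exact (norm_add_le _ _).trans (by change ‖x ξ - n.1 ξ‖ ≤ κ at n2; linarith)
  have b3 := P096.TV.star_eq (Q := M) ht.2.1 (sub_mem hx (nsp_le hb))
  rw [star_sub, hs.star_eq] at b3
  obtain ⟨y, hy⟩ : ∃ y, y = (2⁻¹ : ℂ) • (b + star b) := ⟨_, rfl⟩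
  have y1 : ‖y‖ ≤ 1 + κ := hy ▸ (half_norm b).trans b1
  have y2 : ‖(x - y) ξ‖ ≤ 2 * κ := by
    rw [show (x - y) ξ = (2⁻¹ : ℂ) • ((x - b) ξ + (x - star b) ξ) by
      simp only [hy, sub_apply, smul_apply, add_apply]; module, norm_smul, norm_inv,
      Complex.norm_ofNat]
    linarith [norm_add_le ((x - b) ξ) ((x - star b) ξ)]
  have p : 0 < 1 + κ := by linarith
  refine ⟨(((1 + κ)⁻¹ : ℝ) : ℂ) • y, (nsp A M).smul_mem
    (hy ▸ (nsp A M).smul_mem (add_mem hb (star_mem hb)) _) _,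
    (show IsSelfAdjoint (((1 + κ)⁻¹ : ℝ) : ℂ) from Complex.conj_ofReal _).smul (hy ▸ half_sa b),
    ?_, ?_⟩
  · rwa [norm_smul, Complex.norm_real, Real.norm_of_nonneg (by positivity), inv_mul_le_iff₀ p,
      mul_one]
  · have e1 : (x - (((1 + κ)⁻¹ : ℝ) : ℂ) • y) ξ = (x - y) ξ + ((κ * (1 + κ)⁻¹ : ℝ) : ℂ) • y ξ := by
      rw [show κ * (1 + κ)⁻¹ = 1 - (1 + κ)⁻¹ by field_simp; ring]
      simp only [sub_apply, smul_apply, Complex.ofReal_sub, Complex.ofReal_one, sub_smul, one_smul]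
      abel
    have e2 := y.le_opNorm ξ
    rw [ht.1, mul_one] at e2
    rw [e1]
    refine (norm_add_le _ _).trans ?_
    rw [norm_smul, Complex.norm_real, Real.norm_of_nonneg (by positivity), mul_assoc]
    have : (1 + κ)⁻¹ * ‖y ξ‖ ≤ 1 := by rw [inv_mul_le_iff₀ p]; linarith
    nlinarith

/-- The pinching. -/
noncomputable def pin {ι : Type*} [Fintype ι] (p : ι → H →L[ℂ] H) (z : H →L[ℂ] H) : H →L[ℂ] H :=
  ∑ i, p i * z * p i

variable {r : ℕ} {p : Fin r → H →L[ℂ] H} {y z : H →L[ℂ] H}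

theorem pin_add : pin p (y + z) = pin p y + pin p z := by
  simp only [pin, mul_add, add_mul, sum_add_distrib]

theorem pin_smul (c : ℂ) : pin p (c • z) = c • pin p z := by
  simp only [pin, mul_smul_comm, smul_mul_assoc, smul_sum]

theorem pin_neg : pin p (-z) = -pin p z := by
  simp only [pin, mul_neg, neg_mul, sum_neg_distrib]

theorem pin_mono (h : IsPartition A p) (e : y ≤ z) : pin p y ≤ pin p z :=
  sum_le_sum fun i _ => (h.1 i).2.isSelfAdjoint.conjugate_le_conjugate e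

theorem pin_fix (h : IsPartition A p) (e : ∀ i, p i * z = z * p i) : pin p z = z := by
  simp only [pin, e, mul_assoc, fun i => (h.1 i).2.isIdempotentElem.eq]
  rw [← mul_sum, h.2.2, mul_one]

theorem pin_nonneg (h : IsPartition A p) (e : 0 ≤ z) : 0 ≤ pin p z :=
  sum_nonneg fun i _ => (h.1 i).2.isSelfAdjoint.conjugate_nonneg e

theorem pin_mem (hA : IsMasa A M) (h : IsPartition A p) (e : z ∈ M) : pin p z ∈ M :=
  sum_mem fun i _ => mul_mem (mul_mem (hA.1 _ (h.1 i).1) e) (hA.1 _ (h.1 i).1)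

theorem pin_tr (hA : IsMasa A M) (ht : TraceVec M ξ) (h : IsPartition A p) (e : z ∈ M) :
    ⟪ξ, pin p z ξ⟫_ℂ = ⟪ξ, z ξ⟫_ℂ := by
  have k : ∀ i, ⟪ξ, (p i * z * p i) ξ⟫_ℂ = ⟪ξ, (p i * z) ξ⟫_ℂ := fun i => by
    rw [ht.2.1 _ (mul_mem (hA.1 _ (h.1 i).1) e) _ (hA.1 _ (h.1 i).1), ← mul_assoc,
      (h.1 i).2.isIdempotentElem.eq]
  rw [pin, _root_.sum_apply, inner_sum]
  simp only [k]
  rw [← inner_sum, ← _root_.sum_apply, ← sum_mul, h.2.2, one_mul]

theorem prod_part (hA : IsMasa A M) {s : ℕ} {p' : Fin s → H →L[ℂ] H} (h : IsPartition A p)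
    (h' : IsPartition A p') : ∃ P : Fin (r * s) → H →L[ℂ] H, IsPartition A P ∧
      (∀ z, pin P z = pin p' (pin p z)) ∧ ∀ z, pin P z = pin p (pin p' z) := by
  have c : ∀ i j, p i * p' j = p' j * p i := fun i j => hA.2.1 _ (h.1 i).1 _ (h'.1 j).1
  have k : ∀ F : Fin r → Fin s → H →L[ℂ] H, ∑ k : Fin (r * s),
      F (finProdFinEquiv.symm k).1 (finProdFinEquiv.symm k).2 = ∑ i, ∑ j, F i j := fun F => by
    rw [finProdFinEquiv.symm.sum_comp fun x => F x.1 x.2, Fintype.sum_prod_type]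
  refine ⟨fun k => p (finProdFinEquiv.symm k).1 * p' (finProdFinEquiv.symm k).2,
    ⟨fun k => ⟨mul_mem (h.1 _).1 (h'.1 _).1, (h.1 _).2.mul (h'.1 _).2 (c _ _)⟩, fun k l e => ?_,
      ?_⟩, fun z => ?_, fun z => ?_⟩
  · beta_reduce
    by_cases e1 : (finProdFinEquiv.symm k).1 = (finProdFinEquiv.symm l).1
    · have e2 : (finProdFinEquiv.symm k).2 ≠ (finProdFinEquiv.symm l).2 := fun e2 =>
        e (finProdFinEquiv.symm.injective (Prod.ext e1 e2))
      rw [c (finProdFinEquiv.symm l).1, mul_assoc, ← mul_assoc (p' _), h'.2.1 _ _ e2, zero_mul,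
        mul_zero]
    · rw [c (finProdFinEquiv.symm k).1, mul_assoc, ← mul_assoc (p _), h.2.1 _ _ e1, zero_mul,
        mul_zero]
  · rw [k fun i j => p i * p' j, ← sum_mul_sum, h.2.2, h'.2.2, one_mul]
  · rw [pin, k fun i j => p i * p' j * z * (p i * p' j), sum_comm]
    simp only [pin, mul_sum, sum_mul]
    refine sum_congr rfl fun j _ => sum_congr rfl fun i _ => ?_
    nth_rw 1 [c]
    simp only [mul_assoc]
  · rw [pin, k fun i j => p i * p' j * z * (p i * p' j)]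
    simp only [pin, mul_sum, sum_mul]
    refine sum_congr rfl fun j _ => sum_congr rfl fun i _ => ?_
    nth_rw 2 [c]
    simp only [mul_assoc]

theorem norm_le_of_le (hz : IsSelfAdjoint z) {c : ℝ} (hc : 0 ≤ c) (h1 : z ≤ (c : ℂ) • 1)
    (h2 : -z ≤ (c : ℂ) • 1) : ‖z‖ ≤ c := by
  have a := Commute.mul_nonneg (sub_nonneg.2 h1) (sub_nonneg.2 h2) (by
    simp only [Commute, SemiconjBy, sub_mul, mul_sub, smul_mul_assoc, mul_smul_comm, one_mul,
      mul_one, mul_neg, neg_mul]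
    module)
  have e : ((c : ℂ) • 1 - z) * ((c : ℂ) • 1 - -z) = algebraMap ℝ _ (c ^ 2) - star z * z := by
    rw [hz.star_eq, Algebra.algebraMap_eq_smul_one, ← Complex.coe_smul]
    simp only [sub_mul, mul_sub, smul_mul_assoc, mul_smul_comm, one_mul, mul_one, mul_neg]
    push_cast
    module
  rw [e, sub_nonneg] at a
  refine le_of_sq_le hc ?_
  rw [sq, ← CStarRing.norm_star_mul_self]
  exact (CStarAlgebra.norm_le_iff_le_algebraMap _ (by positivity) (star_mul_self_nonneg z)).2 a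

theorem re_nonneg (h : 0 ≤ z) : 0 ≤ (⟪ξ, z ξ⟫_ℂ).re := by
  obtain ⟨s, rfl⟩ := CStarAlgebra.nonneg_iff_eq_star_mul_self.1 h
  rw [← norm_sq_apply]
  positivity

theorem smul_nn {c : ℝ} (hc : 0 ≤ c) (h : 0 ≤ z) : 0 ≤ (c : ℂ) • z := by
  rw [Complex.coe_smul]
  exact smul_nonneg hc h

theorem sq_le (hz : IsSelfAdjoint z) {η : ℝ} (h : 0 < η) :
    z ≤ (η : ℂ) • 1 + ((η⁻¹ : ℝ) : ℂ) • (star z * z) := by
  have a := smul_nn (inv_nonneg.2 h.le) (add_nonneg (star_mul_self_nonneg (z - (η : ℂ) • 1))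
    (smul_nn h.le (star_mul_self_nonneg (0 : H →L[ℂ] H))))
  have b := add_nonneg a (add_nonneg (smul_nn h.le (zero_le_one (α := H →L[ℂ] H)))
    (smul_nn (inv_nonneg.2 h.le) (star_mul_self_nonneg z)))
  have c := smul_nn (show (0 : ℝ) ≤ 2⁻¹ by norm_num) b
  have η0 : (η : ℂ) ≠ 0 := Complex.ofReal_ne_zero.2 h.ne'
  rw [← sub_nonneg]
  convert c using 1
  simp only [star_sub, star_smul, star_one, hz.star_eq, Complex.star_def, Complex.conj_ofReal,
    mul_zero, smul_zero, add_zero, sub_mul, mul_sub, smul_mul_assoc, mul_smul_comm, one_mul,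
    mul_one, Complex.ofReal_inv, Complex.ofReal_ofNat]
  match_scalars <;> field_simp <;> ring

theorem sep_fin (ht : TraceVec M ξ) (F : Finset H) {δ : ℝ} (hδ : 0 < δ) :
    ∃ θ > 0, ∀ z ∈ M, ‖z‖ ≤ 1 → ‖z ξ‖ ≤ θ → ∀ v ∈ F, ‖z v‖ < δ := by
  classical
  induction F using Finset.induction_on with
  | empty => exact ⟨1, one_pos, by simp⟩
  | insert v F _ ih =>
    obtain ⟨θ, h0, h⟩ := ih
    obtain ⟨θ', h0', h'⟩ := P132.strong_of_sep ht.2.2 v 1 _ (half_pos hδ)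
    refine ⟨min θ θ', lt_min h0 h0', fun z hz z1 z2 => forall_mem_insert _ _ _ |>.2 ⟨?_, ?_⟩⟩
    · exact (h' z hz z1 (z2.trans (min_le_right _ _))).trans_lt (half_lt_self hδ)
    · exact h z hz z1 (z2.trans (min_le_left _ _))

end R

open R in
theorem fin_one (hc : CoreStmt.{u}) (h1 : CEStmt.{u}) (h2 : SpecStmt.{u}) (hA : IsMasa A M)
    (hr : Regular A M) (ht : TraceVec M ξ) {m : ℕ} (hm : 2 ≤ m) {η : ℝ} (hη : 0 < η)
    {x : H →L[ℂ] H} (hx : x ∈ M) (hs : IsSelfAdjoint x) (hn : ‖x‖ ≤ 1) {θ : ℝ} (hθ : 0 < θ) :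
    ∃ p : Fin (m ^ 2 * m ^ 2) → H →L[ℂ] H, IsPartition A p ∧ ∃ a ∈ A, IsSelfAdjoint a ∧ ‖a‖ ≤ 1 ∧
      ∃ q ∈ M, IsStarProjection q ∧ ‖(1 - q) ξ‖ ≤ θ ∧
        ‖q * (pin p x - a) * q‖ ≤ 10 / m + 2 * η := by
  obtain ⟨x0, x1, x2, x3, x4⟩ := kap hr ht hx hs hn (show 0 < η * θ / 6 by positivity)
  have xM := nsp_le x1
  obtain ⟨a0, a1, a2, a3⟩ := h1 H A M ξ hA ht x0 xM
  obtain ⟨a, ha⟩ : ∃ a, a = (2⁻¹ : ℂ) • (a0 + star a0) := ⟨_, rfl⟩
  have aA : a ∈ A := ha ▸ vn_smul_mem _ (add_mem a1 (star_mem a1))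
  have as : IsSelfAdjoint a := ha ▸ half_sa a0
  have an : ‖a‖ ≤ 1 := ha ▸ (half_norm a0).trans (a2.trans x3)
  have at' : ∀ b ∈ A, ⟪ξ, (b * a) ξ⟫_ℂ = ⟪ξ, (b * x0) ξ⟫_ℂ := fun b hb => by
    have e : ⟪ξ, (b * star a0) ξ⟫_ℂ = ⟪ξ, (b * x0) ξ⟫_ℂ := by
      have := congrArg conj (a3 _ (star_mem hb))
      rw [inner_conj_symm, inner_conj_symm, ← inner_star_right, ← inner_star_right, star_mul,
        star_mul, star_star, x2.star_eq] at this
      rw [hA.2.1 _ hb _ (star_mem a1), this, ht.2.1 _ xM _ (hA.1 _ hb)]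
    rw [ha, mul_smul_comm, mul_add, smul_apply, add_apply, inner_smul_right, inner_add_right, e,
      a3 b hb]
    ring
  obtain ⟨y, hy⟩ : ∃ y, y = (2⁻¹ : ℂ) • (x0 - a) := ⟨_, rfl⟩
  have y1 : y ∈ nsp A M := hy ▸ (nsp A M).smul_mem (sub_mem x1 (le_nsp hA aA)) _
  have y2 : IsSelfAdjoint y := by
    rw [hy]
    simp [IsSelfAdjoint, x2.star_eq, as.star_eq]
  have y3 : ‖y‖ ≤ 1 := by
    rw [hy, norm_smul, norm_inv, Complex.norm_ofNat]
    linarith [norm_sub_le x0 a]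
  have y4 : ∀ b ∈ A, ⟪ξ, (b * y) ξ⟫_ℂ = 0 := fun b hb => by
    rw [hy, mul_smul_comm, mul_sub, smul_apply, sub_apply, inner_smul_right, inner_sub_right,
      at' b hb, sub_self, mul_zero]
  have p0 : 0 < η * θ ^ 2 / 8 := by positivity
  obtain ⟨p, pp, w, wM, w0, w1, w2⟩ := hc H A M ξ hA ht m hm y y1 y2 y3 y4 _ p0
  obtain ⟨p', pp', w', wM', w0', w1', w2'⟩ := hc H A M ξ hA ht m hm (-y) (neg_mem y1) y2.neg
    (by rwa [norm_neg]) (fun b hb => by rw [mul_neg, neg_apply, inner_neg_right, y4 b hb, neg_zero])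
    _ p0
  obtain ⟨P, PP, P1, P2⟩ := prod_part hA pp pp'
  obtain ⟨d, hd⟩ : ∃ d, d = x - x0 := ⟨_, rfl⟩
  have dM : star d * d ∈ M := hd ▸ mul_mem (star_mem (sub_mem hx xM)) (sub_mem hx xM)
  have ds : IsSelfAdjoint d := hd ▸ hs.sub x2
  have one : ∀ {r : ℕ} {p : Fin r → H →L[ℂ] H}, IsPartition A p → ∀ c : ℂ,
      pin p (c • 1) = c • 1 := fun h c => pin_fix h fun i => by simp
  have e0 : pin P x - a = pin P y + pin P y + pin P d := by
    have : x = y + y + d + a := by rw [hy, hd]; module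
    rw [this, pin_add, pin_add, pin_add, pin_fix PP fun i => hA.2.1 _ (PP.1 i).1 _ aA,
      add_sub_cancel_right]
  obtain ⟨D, hD⟩ : ∃ D, D = ((η⁻¹ : ℝ) : ℂ) • pin P (star d * d) := ⟨_, rfl⟩
  have D0 : 0 ≤ D := hD ▸ smul_nn (inv_nonneg.2 hη.le) (pin_nonneg PP (star_mul_self_nonneg d))
  have b1 : pin P y ≤ ((5 / m : ℝ) : ℂ) • 1 + pin p' w := by
    rw [P1, ← one pp', ← pin_add]
    exact pin_mono pp' w2
  have b2 : -pin P y ≤ ((5 / m : ℝ) : ℂ) • 1 + pin p w' := by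
    rw [← pin_neg, P2, ← one pp, ← pin_add]
    exact pin_mono pp w2'
  have b3 : pin P d ≤ (η : ℂ) • 1 + D := by
    rw [hD, ← pin_smul, ← one PP, ← pin_add]
    exact pin_mono PP (sq_le ds hη)
  have b4 : -pin P d ≤ (η : ℂ) • 1 + D := by
    rw [hD, ← pin_smul, ← one PP, ← pin_add, ← pin_neg]
    simpa only [star_neg, neg_mul_neg] using pin_mono PP (sq_le ds.neg hη)
  have v1 := pin_nonneg pp' w0
  have v2 := pin_nonneg pp w0'
  obtain ⟨W, hW⟩ : ∃ W, W = pin p' w + pin p' w + (pin p w' + pin p w') + D := ⟨_, rfl⟩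
  have W0 : 0 ≤ W := hW ▸ add_nonneg (add_nonneg (add_nonneg v1 v1) (add_nonneg v2 v2)) D0
  have m1 := pin_mem hA pp' wM
  have m2 := pin_mem hA pp wM'
  have WM : W ∈ M := hW ▸ add_mem (add_mem (add_mem m1 m1) (add_mem m2 m2))
    (hD ▸ vn_smul_mem _ (pin_mem hA PP dM))
  have Wt : (⟪ξ, W ξ⟫_ℂ).re ≤ η * θ ^ 2 := by
    have : ‖d ξ‖ ^ 2 ≤ (η * θ / 2) ^ 2 := by
      rw [hd]
      exact pow_le_pow_left₀ (norm_nonneg _) (by linarith) 2
    have e : η⁻¹ * ‖d ξ‖ ^ 2 ≤ η * θ ^ 2 / 4 := by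
      rw [inv_mul_le_iff₀ hη]
      nlinarith
    simp only [hW, hD, add_apply, smul_apply, inner_add_right, inner_smul_right,
      pin_tr hA ht pp' wM, pin_tr hA ht pp wM', pin_tr hA ht PP dM, Complex.add_re,
      Complex.re_ofReal_mul, ← norm_sq_apply]
    linarith
  obtain ⟨e, eM, e1, -, e2, e3⟩ := h2 H M (W - (η : ℂ) • 1) (sub_mem WM (vn_smul_mem _ (one_mem _)))
    (W0.isSelfAdjoint.sub ((show IsSelfAdjoint (η : ℂ) from Complex.conj_ofReal _).smul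
      (.one _)))
  obtain ⟨q, hq⟩ : ∃ q, q = 1 - e := ⟨_, rfl⟩
  have qM : q ∈ M := hq ▸ sub_mem (one_mem _) eM
  have q1 : IsStarProjection q := hq ▸ e1.one_sub
  rw [← hq] at e3
  have c0 : 0 ≤ 10 / (m : ℝ) + 2 * η := by positivity
  have key : ∀ z, z ≤ ((5 / m : ℝ) : ℂ) • 1 + ((5 / m : ℝ) : ℂ) • 1 + (η : ℂ) • 1 + W →
      q * z * q ≤ ((10 / m + 2 * η : ℝ) : ℂ) • 1 := fun z hz => by
    refine (q1.isSelfAdjoint.conjugate_le_conjugate hz).trans ?_
    have : q * (((5 / m : ℝ) : ℂ) • 1 + ((5 / m : ℝ) : ℂ) • 1 + (η : ℂ) • 1 + W) * q =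
        ((10 / m + 2 * η : ℝ) : ℂ) • 1 - ((10 / m + 2 * η : ℝ) : ℂ) • (1 - q) +
          q * (W - (η : ℂ) • 1) * q := by
      simp only [mul_add, add_mul, mul_sub, sub_mul, mul_smul_comm, smul_mul_assoc, mul_one,
        q1.isIdempotentElem.eq]
      push_cast
      module
    rw [this]
    exact (add_le_of_nonpos_right e3).trans (sub_le_self _ (smul_nn c0 q1.one_sub.nonneg))
  refine ⟨P, PP, a, aA, as, an, q, qM, q1, ?_, norm_le_of_le ?_ c0 (key _ ?_) ?_⟩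
  · rw [hq, sub_sub_cancel]
    have t1 := re_nonneg (ξ := ξ) e2
    have t2 := re_nonneg (ξ := ξ) (q1.isSelfAdjoint.conjugate_nonneg W0)
    have t3 : ⟪ξ, (e * W * e) ξ⟫_ℂ + ⟪ξ, (q * W * q) ξ⟫_ℂ = ⟪ξ, W ξ⟫_ℂ := by
      rw [ht.2.1 _ (mul_mem eM WM) _ eM, ht.2.1 _ (mul_mem qM WM) _ qM, ← mul_assoc, ← mul_assoc,
        e1.isIdempotentElem.eq, q1.isIdempotentElem.eq, ← inner_add_right, ← add_apply, ← add_mul,
        hq, add_sub_cancel, one_mul]
    have t4 := congrArg Complex.re t3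
    have t5 := norm_sq_apply e ξ
    rw [e1.isSelfAdjoint.star_eq] at t5
    rw [mul_sub, sub_mul, mul_smul_comm, smul_mul_assoc, mul_one, sub_apply, inner_sub_right,
      smul_apply, inner_smul_right, Complex.sub_re, Complex.re_ofReal_mul, ← t5] at t1
    rw [Complex.add_re] at t4
    exact le_of_sq_le hθ.le (le_of_mul_le_mul_left (by linarith) hη)
  · have : IsSelfAdjoint (pin P x) := isSelfAdjoint_sum _ fun i _ =>
      hs.conjugate_self (PP.1 i).2.isSelfAdjoint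
    exact (this.sub as).conjugate_self q1.isSelfAdjoint
  · rw [e0, hW]
    refine (add_le_add (add_le_add b1 b1) b3).trans ((le_add_of_nonneg_right
      (add_nonneg v2 v2)).trans_eq (by abel))
  · rw [← neg_mul, ← mul_neg]
    refine key _ ?_
    rw [e0, hW, neg_add, neg_add]
    refine (add_le_add (add_le_add b2 b2) b4).trans ((le_add_of_nonneg_right
      (add_nonneg v1 v1)).trans_eq (by abel))

theorem fin (hc : CoreStmt.{u}) (h1 : CEStmt.{u}) (h2 : SpecStmt.{u}) : FinalStmt.{u} := by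
  refine ⟨12 ^ 4, fun H _ _ _ A M ξ hA hr ht ε e0 e1 => ?_⟩
  obtain ⟨m, hm⟩ : ∃ m, m = ⌈11 / ε⌉₊ := ⟨_, rfl⟩
  have m1 : 11 / ε ≤ m := hm ▸ Nat.le_ceil _
  have m2 : (m : ℝ) < 11 / ε + 1 := hm ▸ Nat.ceil_lt_add_one (by positivity)
  have m3 : 11 ≤ 11 / ε := by rw [le_div_iff₀ e0]; linarith
  have m4 : 2 ≤ m := by exact_mod_cast (show (2 : ℝ) ≤ m by linarith)
  have m5 : (m : ℝ) ≤ 12 / ε := by
    have : 1 ≤ 1 / ε := by rw [le_div_iff₀ e0]; linarith
    rw [show 12 / ε = 11 / ε + 1 / ε by ring]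
    linarith
  have m6 : 10 / (m : ℝ) + 2 * (ε / 22) ≤ ε := by
    have : 10 / (m : ℝ) ≤ 10 / 11 * ε := by
      rw [div_le_iff₀ (by linarith)]
      rw [div_le_iff₀ e0] at m1
      linarith
    linarith
  refine ⟨m ^ 2 * m ^ 2, Nat.one_le_iff_ne_zero.2 (by positivity), ?_, fun x hx hs F δ d0 => ?_⟩
  · rw [← div_pow]
    push_cast
    rw [← pow_add]
    exact pow_le_pow_left₀ (by positivity) m5 4
  obtain ⟨θ, t0, hθ⟩ := R.sep_fin ht F d0
  obtain ⟨p, pp, a, aA, as, an, q, qM, q1, q2, q3⟩ := fin_one hc h1 h2 hA hr ht m4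
    (show 0 < ε / 22 by positivity) (vn_smul_mem ((‖x‖⁻¹ : ℝ) : ℂ) hx)
    ((show IsSelfAdjoint ((‖x‖⁻¹ : ℝ) : ℂ) from Complex.conj_ofReal _).smul hs) (by
      rw [norm_smul, Complex.norm_real, norm_inv, norm_norm]
      exact inv_mul_le_one_of_le₀ le_rfl (norm_nonneg _)) t0
  refine ⟨p, pp, (‖x‖ : ℂ) • a, vn_smul_mem _ aA,
    (show IsSelfAdjoint (‖x‖ : ℂ) from Complex.conj_ofReal _).smul as, ?_, q, qM, q1,
    hθ _ (sub_mem (one_mem _) qM) q1.one_sub.norm_le q2, ?_⟩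
  · rw [norm_smul, Complex.norm_real, norm_norm]
    exact mul_le_of_le_one_right (norm_nonneg _) an
  · have e : x = (‖x‖ : ℂ) • ((‖x‖⁻¹ : ℝ) : ℂ) • x := by
      rcases eq_or_ne x 0 with rfl | x0
      · simp
      · rw [smul_smul, ← Complex.ofReal_mul, mul_inv_cancel₀ (norm_ne_zero_iff.2 x0)]
        simp
    change ‖q * (R.pin p x - _) * q‖ ≤ _
    nth_rw 1 [e]
    rw [R.pin_smul, ← smul_sub, mul_smul_comm, smul_mul_assoc, norm_smul, Complex.norm_real,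
      norm_norm, mul_comm]
    exact mul_le_mul_of_nonneg_right (q3.trans m6) (norm_nonneg _)

end Vale.Agent.P078
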