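import Vale.Agent.P078.Stmts

/-! The argument of a real rooted polynomial as a potential. -/

namespace Vale.Agent.P078

open Polynomial Filter Topology MeasureTheory

namespace QQ

/-- The argument of `x + i y - t`. -/
noncomputable def ar (x y t : ℝ) : ℝ := Real.pi / 2 + Real.arctan ((t - x) / y)

/-- The total argument. -/
noncomputable def Arg (s : Multiset ℝ) (x y : ℝ) : ℝ := (s.map (ar x y)).sum

/-- The real parts of the roots. -/
noncomputable def rs (p : ℂ[X]) : Multiset ℝ := p.roots.map Complex.re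

/-- The number of elements that are at least `t`. -/
noncomputable def cnt (s : Multiset ℝ) (t : ℝ) : ℝ := (s.map fun l => if t ≤ l then 1 else 0).sum

theorem polar1 (x t : ℝ) {y : ℝ} (hy : 0 < y) : ∃ ρ : ℝ, 0 < ρ ∧
    (x : ℂ) + y * Complex.I - t = ρ * Complex.exp (ar x y t * Complex.I) := by
  have hc := Real.cos_arctan_pos ((t - x) / y)
  have ht := Real.tan_arctan ((t - x) / y)
  rw [Real.tan_eq_sin_div_cos, div_eq_div_iff hc.ne' hy.ne'] at ht
  refine ⟨y / Real.cos (Real.arctan ((t - x) / y)), div_pos hy hc, ?_⟩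
  rw [Complex.exp_mul_I, ← Complex.ofReal_cos, ← Complex.ofReal_sin, ar, add_comm (Real.pi / 2),
    Real.cos_add_pi_div_two, Real.sin_add_pi_div_two]
  apply Complex.ext
  · simp only [Complex.sub_re, Complex.add_re, Complex.ofReal_re, Complex.mul_re, Complex.I_re,
      Complex.ofReal_im, Complex.I_im, Complex.add_im, Complex.mul_im]
    field_simp
    linarith
  · simp only [Complex.sub_im, Complex.add_re, Complex.ofReal_re, Complex.mul_re, Complex.I_re,
      Complex.ofReal_im, Complex.I_im, Complex.add_im, Complex.mul_im]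
    field_simp
    ring

theorem polar2 (x : ℝ) {y : ℝ} (hy : 0 < y) (s : Multiset ℂ) (hs : ∀ z ∈ s, z.im = 0) :
    ∃ ρ : ℝ, 0 < ρ ∧ (s.map fun z => (x : ℂ) + y * Complex.I - z).prod =
      ρ * Complex.exp (Arg (s.map Complex.re) x y * Complex.I) := by
  induction s using Multiset.induction_on with
  | empty => exact ⟨1, one_pos, by simp [Arg]⟩
  | cons a s ih =>
    obtain ⟨ρ, h1, h2⟩ := ih fun z hz => hs z (Multiset.mem_cons_of_mem hz)
    obtain ⟨ρ', h3, h4⟩ := polar1 x a.re hy
    have ha : ((a.re : ℝ) : ℂ) = a :=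
      Complex.ext (by simp) (by simp [hs a (Multiset.mem_cons_self _ _)])
    rw [ha] at h4
    refine ⟨ρ' * ρ, mul_pos h3 h1, ?_⟩
    rw [Multiset.map_cons, Multiset.prod_cons, h2, h4, Multiset.map_cons, Arg, Arg,
      Multiset.map_cons, Multiset.sum_cons]
    push_cast
    rw [add_mul, Complex.exp_add]
    ring

theorem polar {p : ℂ[X]} (hp : RR p) (x : ℝ) {y : ℝ} (hy : 0 < y) : ∃ ρ : ℝ, 0 < ρ ∧
    p.eval ((x : ℂ) + y * Complex.I) = ρ * Complex.exp (Arg (rs p) x y * Complex.I) := by
  obtain ⟨ρ, h1, h2⟩ := polar2 x hy p.roots fun z hz =>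
    (hp.2 z ((mem_roots hp.1.ne_zero).1 hz)).1
  refine ⟨ρ, h1, ?_⟩
  rw [rs, ← h2]
  conv_lhs => rw [← prod_multiset_X_sub_C_of_monic_of_roots_card_eq hp.1
    IsAlgClosed.card_roots_eq_natDegree, eval_multiset_prod]
  simp

theorem ratio {p q : ℂ[X]} (hp : RR p) (hq : RR q) (x : ℝ) {y : ℝ} (hy : 0 < y) : ∃ ρ : ℝ, 0 < ρ ∧
    q.eval ((x : ℂ) + y * Complex.I) / p.eval ((x : ℂ) + y * Complex.I) =
      ρ * Complex.exp ((Arg (rs q) x y - Arg (rs p) x y : ℝ) * Complex.I) := by
  obtain ⟨ρ, h1, h2⟩ := polar hp x hy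
  obtain ⟨ρ', h3, h4⟩ := polar hq x hy
  refine ⟨ρ' / ρ, div_pos h3 h1, ?_⟩
  have : (ρ : ℂ) ≠ 0 := by exact_mod_cast h1.ne'
  rw [h2, h4]
  push_cast
  rw [sub_mul, Complex.exp_sub]
  field_simp

theorem im_polar (ρ a : ℝ) : ((ρ : ℂ) * Complex.exp (a * Complex.I)).im = ρ * Real.sin a := by
  rw [Complex.im_ofReal_mul, Complex.exp_ofReal_mul_I_im]

theorem Arg_zero (x : ℝ) : Arg 0 x = fun _ => 0 := funext fun _ => by simp [Arg]

theorem cont_Arg (s : Multiset ℝ) (x : ℝ) : ContinuousOn (Arg s x) (Set.Ioi 0) := by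
  induction s using Multiset.induction_on with
  | empty => simpa [Arg_zero] using continuousOn_const
  | cons a s ih =>
    have : ContinuousOn (fun y => ar x y a) (Set.Ioi 0) :=
      continuousOn_const.add (Real.continuous_arctan.comp_continuousOn
        (continuousOn_const.div continuousOn_id fun y hy => ne_of_gt hy))
    refine (this.add ih).congr fun y _ => ?_
    simp [Arg]

theorem top_Arg (s : Multiset ℝ) (x : ℝ) :
    Tendsto (Arg s x) atTop (𝓝 (s.card * (Real.pi / 2))) := by
  induction s using Multiset.induction_on with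
  | empty => simp [Arg_zero]
  | cons a s ih =>
    have h1 : Tendsto (fun y => ar x y a) atTop (𝓝 (Real.pi / 2 + Real.arctan 0)) :=
      tendsto_const_nhds.add ((Real.continuous_arctan.tendsto _).comp
        (tendsto_const_nhds.div_atTop tendsto_id))
    have e : ((a ::ₘ s).card : ℝ) * (Real.pi / 2) =
        Real.pi / 2 + Real.arctan 0 + s.card * (Real.pi / 2) := by
      rw [Multiset.card_cons, Real.arctan_zero]
      push_cast
      ring
    rw [e]
    refine (h1.add ih).congr fun y => ?_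
    simp [Arg]

theorem bot_Arg (s : Multiset ℝ) {x : ℝ} (hx : x ∉ s) :
    Tendsto (Arg s x) (𝓝[>] 0) (𝓝 (Real.pi * cnt s x)) := by
  induction s using Multiset.induction_on with
  | empty => simp [Arg_zero, cnt]
  | cons a s ih =>
    have hne : x ≠ a := fun e => hx (e ▸ Multiset.mem_cons_self _ _)
    have h1 : Tendsto (fun y => ar x y a) (𝓝[>] 0) (𝓝 (Real.pi * if x ≤ a then 1 else 0)) := by
      rcases lt_or_gt_of_ne hne with h | h
      · have := (tendsto_nhds_of_tendsto_nhdsWithin Real.tendsto_arctan_atTop).comp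
          (tendsto_inv_nhdsGT_zero.const_mul_atTop (sub_pos.2 h))
        rw [if_pos h.le, mul_one, ← add_halves Real.pi]
        exact tendsto_const_nhds.add this
      · have := (tendsto_nhds_of_tendsto_nhdsWithin Real.tendsto_arctan_atBot).comp
          (tendsto_inv_nhdsGT_zero.const_mul_atTop_of_neg (sub_neg.2 h))
        have h2 := (tendsto_const_nhds (x := Real.pi / 2)).add this
        rw [add_neg_cancel] at h2
        rw [if_neg (not_le.2 h), mul_zero]
        exact h2
    have e : Real.pi * cnt (a ::ₘ s) x =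
        (Real.pi * if x ≤ a then 1 else 0) + Real.pi * cnt s x := by
      rw [cnt, Multiset.map_cons, Multiset.sum_cons, mul_add, cnt]
    rw [e]
    refine (h1.add (ih fun h => hx (Multiset.mem_cons_of_mem h))).congr fun y => ?_
    simp [Arg]

theorem diff_mem {p q : ℂ[X]} (hp : RR p) (hq : RR q) (hd : q.natDegree = p.natDegree + 1)
    (h : ∀ z : ℂ, 0 < z.im → 0 < (q.eval z / p.eval z).im) (x : ℝ) {y : ℝ} (hy : 0 < y) :
    0 < Arg (rs q) x y - Arg (rs p) x y ∧ Arg (rs q) x y - Arg (rs p) x y < Real.pi := by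
  have hs : ∀ y, 0 < y → 0 < Real.sin (Arg (rs q) x y - Arg (rs p) x y) := fun y hy => by
    obtain ⟨ρ, h1, h2⟩ := ratio hp hq x hy
    have := h ((x : ℂ) + y * Complex.I) (by simpa using hy)
    rw [h2, im_polar] at this
    exact (mul_pos_iff_of_pos_left h1).1 this
  have ht := (top_Arg (rs q) x).sub (top_Arg (rs p) x)
  have e : ((rs q).card : ℝ) * (Real.pi / 2) - (rs p).card * (Real.pi / 2) = Real.pi / 2 := by
    rw [rs, rs, Multiset.card_map, Multiset.card_map, IsAlgClosed.card_roots_eq_natDegree,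
      IsAlgClosed.card_roots_eq_natDegree, hd]
    push_cast
    ring
  rw [e] at ht
  have hπ := Real.pi_pos
  obtain ⟨y1, ⟨a1, a2⟩, a3⟩ := (((ht.eventually (lt_mem_nhds (half_pos hπ))).and
    (ht.eventually (gt_mem_nhds (half_lt_self hπ)))).and (eventually_gt_atTop 0)).exists
  have hsub : Set.uIcc y y1 ⊆ Set.Ioi 0 := fun u hu => lt_of_lt_of_le (lt_min hy a3) hu.1
  have iv := intermediate_value_uIcc (((cont_Arg (rs q) x).sub (cont_Arg (rs p) x)).mono hsub)
  constructor
  · by_contra hc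
    obtain ⟨u, hu, e⟩ := iv (Set.mem_uIcc.2 (Or.inl ⟨not_lt.1 hc, a1.le⟩))
    have := hs u (hsub hu)
    rw [show Arg (rs q) x u - Arg (rs p) x u = 0 from e, Real.sin_zero] at this
    exact lt_irrefl _ this
  · by_contra hc
    obtain ⟨u, hu, e⟩ := iv (Set.mem_uIcc.2 (Or.inr ⟨a2.le, not_lt.1 hc⟩))
    have := hs u (hsub hu)
    rw [show Arg (rs q) x u - Arg (rs p) x u = Real.pi from e, Real.sin_pi] at this
    exact lt_irrefl _ this

theorem sum_eq {g g' : ℝ → ℝ} (hg : ∀ t, HasDerivAt g (g' t) t) (hc : Continuous g')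
    (s : Multiset ℝ) (hs : ∀ l ∈ s, |l| ≤ 1) :
    IntervalIntegrable (fun t => g' t * cnt s t) volume (-1) 1 ∧
      (s.map g).sum = s.card * g (-1) + ∫ t in (-1 : ℝ)..1, g' t * cnt s t := by
  induction s using Multiset.induction_on with
  | empty => simp [cnt]
  | cons a s ih =>
    obtain ⟨h1, h2⟩ := ih fun l hl => hs l (Multiset.mem_cons_of_mem hl)
    have e : (fun t => g' t * cnt (a ::ₘ s) t) =
        fun t => Set.indicator {t | t ≤ a} g' t + g' t * cnt s t := by
      funext t
      rw [cnt, Multiset.map_cons, Multiset.sum_cons, mul_add, cnt, Set.indicator_apply]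
      simp
    have h3 : IntervalIntegrable (Set.indicator {t | t ≤ a} g') volume (-1) 1 :=
      ⟨(hc.intervalIntegrable (-1) 1).1.indicator measurableSet_Iic,
        (hc.intervalIntegrable (-1) 1).2.indicator measurableSet_Iic⟩
    rw [e]
    refine ⟨h3.add h1, ?_⟩
    rw [intervalIntegral.integral_add h3 h1, intervalIntegral.integral_indicator
      (abs_le.1 (hs a (Multiset.mem_cons_self _ _))), intervalIntegral.integral_eq_sub_of_hasDerivAt
      (fun t _ => hg t) (hc.intervalIntegrable _ _), Multiset.map_cons, Multiset.sum_cons, h2,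
      Multiset.card_cons]
    push_cast
    ring

theorem sum_close {g g' : ℝ → ℝ} (hg : ∀ t, HasDerivAt g (g' t) t) (hc : Continuous g') {c : ℝ}
    (hb : ∀ t ∈ Set.Icc (-1 : ℝ) 1, |g' t| ≤ c) {s s' : Multiset ℝ} (hs : ∀ l ∈ s, |l| ≤ 1)
    (hs' : ∀ l ∈ s', |l| ≤ 1) (hd : s.card = s'.card)
    (h : ∀ x y, 0 < y → |Arg s x y - Arg s' x y| ≤ Real.pi) :
    |(s.map g).sum - (s'.map g).sum| ≤ c * 2 := by
  obtain ⟨h1, h2⟩ := sum_eq hg hc s hs
  obtain ⟨h3, h4⟩ := sum_eq hg hc s' hs'
  rw [h2, h4, hd, add_sub_add_left_eq_sub, ← intervalIntegral.integral_sub h1 h3,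
    ← Real.norm_eq_abs, show (2 : ℝ) = |1 - -1| by norm_num]
  refine intervalIntegral.norm_integral_le_of_norm_le_const_ae ?_
  filter_upwards [(s + s').finite_toSet.countable.ae_notMem volume] with t ht hI
  have t1 : t ∉ s := fun h => ht (Multiset.mem_add.2 (Or.inl h))
  have t2 : t ∉ s' := fun h => ht (Multiset.mem_add.2 (Or.inr h))
  have l1 := le_of_tendsto ((bot_Arg s t1).sub (bot_Arg s' t2)).abs
    (eventually_mem_nhdsWithin.mono fun y hy => h t y hy)
  rw [← mul_sub, abs_mul, abs_of_pos Real.pi_pos] at l1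
  have l2 : |cnt s t - cnt s' t| ≤ 1 := by nlinarith [Real.pi_pos]
  rw [Set.uIoc_of_le (by norm_num)] at hI
  have l3 := hb t ⟨hI.1.le, hI.2⟩
  rw [← mul_sub, Real.norm_eq_abs, abs_mul]
  nlinarith [abs_nonneg (g' t), abs_nonneg (cnt s t - cnt s' t)]

theorem exists_prim (P : ℝ[X]) : ∃ Q : ℝ[X], derivative Q = P := by
  induction P using Polynomial.induction_on' with
  | add p q hp hq =>
    obtain ⟨a, rfl⟩ := hp
    obtain ⟨b, rfl⟩ := hq
    exact ⟨a + b, derivative_add⟩
  | monomial n a =>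
    refine ⟨monomial (n + 1) (a / ((n : ℝ) + 1)), ?_⟩
    rw [derivative_monomial, Nat.add_sub_cancel]
    congr 1
    push_cast
    field_simp

theorem mem_rs {p : ℂ[X]} (hp : RR p) : ∀ l ∈ rs p, |l| ≤ 1 := fun l hl => by
  obtain ⟨z, hz, rfl⟩ := Multiset.mem_map.1 hl
  exact (hp.2 z ((mem_roots hp.1.ne_zero).1 hz)).2

end QQ

open QQ in
theorem qq : QStmt := by
  intro b E θ hbE hθ hθ1
  have hπ := Real.pi_pos
  obtain ⟨u, hu1, hu2⟩ := (((tendsto_nhds_of_tendsto_nhdsWithin
    Real.tendsto_arctan_atBot).eventually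
    (gt_mem_nhds (show -(Real.pi / 2) < -(Real.pi / 2) + θ / 4 by linarith))).and
    (eventually_lt_atBot 0)).exists
  have hη : 0 < (b - E) / u := div_pos_of_neg_of_neg (sub_neg.2 hbE) hu2
  have hηu : (b - E) / ((b - E) / u) = u := by
    have := (sub_neg.2 hbE).ne
    field_simp
  generalize (b - E) / u = η at hη hηu
  let f' : ℝ → ℝ := fun t => 1 / (1 + ((t - E) / η) ^ 2) * (1 / η)
  have hf : ∀ t, HasDerivAt (ar E η) (f' t) t := fun t =>
    ((((hasDerivAt_id t).sub_const E).div_const η).arctan).const_add _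
  have hc : Continuous f' :=
    (continuous_const.div (by fun_prop) fun t => by positivity).mul continuous_const
  obtain ⟨P, hP⟩ := exists_polynomial_near_of_continuousOn (-1) 1 f' hc.continuousOn (θ / 8)
    (by positivity)
  obtain ⟨Q0, hQ0⟩ := exists_prim P
  set Q : ℝ[X] := Q0 + C (ar E η (-1) - Q0.eval (-1)) with hQ
  have hg : ∀ t, HasDerivAt (fun t => ar E η t - Q.eval t) (f' t - P.eval t) t := fun t => by
    have := Q.hasDerivAt t
    rw [hQ, derivative_add, derivative_C, add_zero, hQ0] at this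
    exact (hf t).sub this
  have hgc : Continuous fun t => f' t - P.eval t := hc.sub P.continuous
  have hb : ∀ t ∈ Set.Icc (-1 : ℝ) 1, |f' t - P.eval t| ≤ θ / 8 := fun t ht => by
    rw [abs_sub_comm]
    exact (hP t ht).le
  refine ⟨Q, fun t ht => ?_, fun r w p₀ p q hw h1 hp r0 r1 r2 d1 d2 him => ?_⟩
  · have ht' := abs_le.1 ht
    have e : ar E η t - Q.eval t = ∫ s in (-1 : ℝ)..t, (f' s - P.eval s) := by
      rw [intervalIntegral.integral_eq_sub_of_hasDerivAt (fun s _ => hg s)
        (hgc.intervalIntegrable _ _), hQ]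
      simp
    have n1 : ‖∫ s in (-1 : ℝ)..t, (f' s - P.eval s)‖ ≤ θ / 8 * |t - -1| :=
      intervalIntegral.norm_integral_le_of_norm_le_const fun s hs => by
        rw [Set.uIoc_of_le ht'.1] at hs
        exact hb s ⟨hs.1.le, hs.2.trans ht'.2⟩
    rw [← e, Real.norm_eq_abs, abs_of_nonneg (by linarith : 0 ≤ t - -1)] at n1
    have n2 : |ar E η t - Q.eval t| ≤ θ / 4 := by nlinarith
    have n3 := abs_le.1 n2
    have a1 := Real.neg_pi_div_two_lt_arctan ((t - E) / η)
    have a2 := Real.arctan_lt_pi_div_two ((t - E) / η)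
    have a3 := Real.pi_lt_d2
    have a4 := Real.pi_gt_three
    rw [ar] at n3
    refine ⟨by linarith, by linarith, fun h => ?_, fun h => ?_⟩
    · have := Real.arctan_mono (div_le_div_of_nonneg_right (sub_le_sub_right h E) hη.le)
      rw [hηu] at this
      linarith
    · have := Real.arctan_nonneg.2 (div_nonneg (sub_nonneg.2 h) hη.le)
      linarith
  · have hsum : ∀ z : ℂ, p.eval z / p₀.eval z = ∑ c, (w c : ℂ) * ((q c).eval z / p₀.eval z) :=
      fun z => by
      rw [hp, eval_finset_sum, Finset.sum_div]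
      simp only [eval_mul, eval_C, mul_div_assoc]
    obtain ⟨c0, hc0⟩ : ∃ c, 0 < w c := by
      by_contra hn
      push Not at hn
      have : ∑ c, w c ≤ 0 := Finset.sum_nonpos fun c _ => hn c
      linarith
    have himp : ∀ z : ℂ, 0 < z.im → 0 < (p.eval z / p₀.eval z).im := fun z hz => by
      rw [hsum, Complex.im_sum]
      simp only [Complex.im_ofReal_mul]
      exact Finset.sum_pos' (fun c _ => mul_nonneg (hw c) (him c z hz).le)
        ⟨c0, Finset.mem_univ _, mul_pos hc0 (him c0 z hz)⟩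
    have D1 := fun c => diff_mem r0 (r2 c) (d1 c) (him c)
    have D2 := diff_mem r0 r1 d2 himp
    obtain ⟨c, hc⟩ : ∃ c, Arg (rs (q c)) E η ≤ Arg (rs p) E η := by
      by_contra hn
      push Not at hn
      choose ρ hρ eρ using fun c => ratio r1 (r2 c) E hη
      obtain ⟨ρ0, a1, a2⟩ := polar r1 E hη
      have hne : p.eval ((E : ℂ) + η * Complex.I) ≠ 0 := by
        rw [a2]
        exact mul_ne_zero (by exact_mod_cast a1.ne') (Complex.exp_ne_zero _)
      have e1 : (1 : ℂ) = ∑ c, (w c : ℂ) * ((q c).eval ((E : ℂ) + η * Complex.I) /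
          p.eval ((E : ℂ) + η * Complex.I)) := by
        rw [← div_self hne]
        nth_rw 1 [hp]
        rw [eval_finset_sum, Finset.sum_div]
        simp only [eval_mul, eval_C, mul_div_assoc]
      have e2 := congrArg Complex.im e1
      rw [Complex.one_im, Complex.im_sum] at e2
      simp only [Complex.im_ofReal_mul, eρ, Complex.exp_ofReal_mul_I_im] at e2
      have hs : ∀ c, 0 < ρ c * Real.sin (Arg (rs (q c)) E η - Arg (rs p) E η) := fun c =>
        mul_pos (hρ c) (Real.sin_pos_of_pos_of_lt_pi (sub_pos.2 (hn c))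
          (by linarith [(D1 c E hη).2, (D2 E hη).1]))
      exact absurd e2 (Finset.sum_pos' (fun c _ => mul_nonneg (hw c) (hs c).le)
        ⟨c0, Finset.mem_univ _, mul_pos hc0 (hs c0)⟩).ne
    have cl := sum_close hg hgc hb (mem_rs (r2 c)) (mem_rs r1) (by
      rw [rs, rs, Multiset.card_map, Multiset.card_map, IsAlgClosed.card_roots_eq_natDegree,
        IsAlgClosed.card_roots_eq_natDegree, d1, d2]) fun x y hy => by
      rw [abs_le]
      constructor <;> linarith [(D1 c x hy).1, (D1 c x hy).2, (D2 x hy).1, (D2 x hy).2]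
    have tr : ∀ p : ℂ[X], ((rs p).map fun t => ar E η t - Q.eval t).sum =
        Arg (rs p) E η - trQ Q p := fun p => by
      rw [Multiset.sum_map_sub, trQ, rs, Multiset.map_map, Multiset.map_map, Arg,
        Multiset.map_map]
      rfl
    rw [tr, tr] at cl
    exact ⟨c, by linarith [(abs_le.1 cl).1]⟩

end Vale.Agent.P078
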