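import Vale.Agent.P078.Stmts
import Vale.Agent.P082.Base
import Vale.Agent.P104.Halv

/-! Work package V: conditional expectation, spectral projection, separated projections. -/

namespace Vale.Agent.P078

open scoped InnerProductSpace ComplexOrder
open Filter Topology Vale.Agent.P104

universe u

theorem spec : SpecStmt.{u} := by
  intro H _ _ _ M t ht hsa
  have hc : 0 < ‖t‖ + 1 := by positivity
  obtain ⟨h0, h1⟩ := sa_shift (IsStarProjection.one (H →L[ℂ] H)) hsa.star_eq (by simp) hc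
    (by linarith)
  obtain ⟨E, hEM, hE, -, h3, h4, -, h5⟩ := bis_mem (M := M)
    (vn_smul_mem _ (add_mem ht (vn_smul_mem _ (one_mem M)))) (IsStarProjection.one _) h0 h1
  have hct : Commute t E := by
    have : Commute t ((((2 * (‖t‖ + 1))⁻¹ : ℝ) : ℂ) • (t + ((‖t‖ + 1 : ℝ) : ℂ) • 1)) :=
      ((Commute.refl t).add_right ((Commute.one_right t).smul_right _)).smul_right _
    exact h5 t this (by rwa [hsa.star_eq])
  have hne : ((‖t‖ + 1 : ℝ) : ℂ) ≠ 0 := by exact_mod_cast hc.ne'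
  have e0 : (2 : ℂ) • ((((2 * (‖t‖ + 1))⁻¹ : ℝ) : ℂ) • (t + ((‖t‖ + 1 : ℝ) : ℂ) • 1)) =
      (((‖t‖ + 1 : ℝ) : ℂ))⁻¹ • t + 1 := by
    rw [smul_smul, smul_add, smul_smul]
    have a1 : (2 : ℂ) * (((2 * (‖t‖ + 1))⁻¹ : ℝ) : ℂ) = (((‖t‖ + 1 : ℝ) : ℂ))⁻¹ := by
      rw [Complex.ofReal_inv, Complex.ofReal_mul]; push_cast; field_simp
    rw [a1, inv_mul_cancel₀ hne, one_smul]
  rw [e0] at h3 h4
  have hEE := hE.isIdempotentElem.eq
  have hcc : (0 : ℂ) ≤ ((‖t‖ + 1 : ℝ) : ℂ) := by exact_mod_cast hc.le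
  refine ⟨E, hEM, hE, hct.eq.symm, ?_, ?_⟩
  · have a1 := smul_nonneg hcc (star_left_conjugate_nonneg h3 E)
    have e : ((‖t‖ + 1 : ℝ) : ℂ) • (star E * ((((‖t‖ + 1 : ℝ) : ℂ))⁻¹ • t + 1 - E) * E) =
        E * t * E := by
      rw [hE.isSelfAdjoint.star_eq]
      simp only [mul_sub, sub_mul, mul_add, add_mul, mul_one, hEE, mul_smul_comm, smul_mul_assoc,
        add_sub_cancel_right, smul_smul, mul_inv_cancel₀ hne, one_smul]
    rwa [e] at a1
  · have a1 := smul_nonneg hcc (star_left_conjugate_nonneg (sub_nonneg.2 h4) (1 - E))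
    have e : ((‖t‖ + 1 : ℝ) : ℂ) • (star (1 - E) *
        (1 - ((((‖t‖ + 1 : ℝ) : ℂ))⁻¹ • t + 1 - E)) * (1 - E)) = -((1 - E) * t * (1 - E)) := by
      have e1 : 1 - ((((‖t‖ + 1 : ℝ) : ℂ))⁻¹ • t + 1 - E) = E - (((‖t‖ + 1 : ℝ) : ℂ))⁻¹ • t := by
        abel
      have e2 : (1 - E) * E = 0 := by rw [sub_mul, one_mul, hEE, sub_self]
      rw [hE.one_sub.isSelfAdjoint.star_eq, e1, mul_sub (1 - E) E, e2, zero_sub, neg_mul, smul_neg,
        mul_smul_comm, smul_mul_assoc, smul_smul, mul_inv_cancel₀ hne, one_smul]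
    rw [e] at a1
    exact neg_nonneg.1 a1

section

variable {H : Type u} [NormedAddCommGroup H] [InnerProductSpace ℂ H] [CompleteSpace H]
  {A M : VonNeumannAlgebra H} {ξ : H}

theorem IsMasa.mem_of_proj (hA : IsMasa A M) {z : H →L[ℂ] H} (hz : z ∈ M)
    (h : ∀ E ∈ A, IsStarProjection E → E * z = z * E) : z ∈ A :=
  hA.2.2 z hz fun a ha => commute_of_proj (M := A) (one_mem A) (IsStarProjection.one _)
    (fun E hE hp _ => h E hE hp) a ha (by simp)

theorem IsMasa.proj_mul (hA : IsMasa A M) {a b : H →L[ℂ] H} (ha : a ∈ A) (hb : b ∈ A)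
    (pa : IsStarProjection a) (pb : IsStarProjection b) : IsStarProjection (a * b) :=
  pa.mul pb (hA.2.1 a ha b hb)

theorem proj_inner {p : H →L[ℂ] H} (hp : IsStarProjection p) (ξ : H) :
    (⟪ξ, p ξ⟫_ℂ).re = ‖p ξ‖ ^ 2 := by
  rw [norm_sq_apply, hp.isSelfAdjoint.star_eq, hp.isIdempotentElem.eq]

theorem IsMasa.inner_mul_le (hA : IsMasa A M) {a b : H →L[ℂ] H} (ha : a ∈ A) (hb : b ∈ A)
    (pa : IsStarProjection a) (pb : IsStarProjection b) (ξ : H) :
    (⟪ξ, (a * b) ξ⟫_ℂ).re ≤ (⟪ξ, a ξ⟫_ℂ).re := by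
  have h := proj_inner (hA.proj_mul ha (sub_mem (one_mem A) hb) pa pb.one_sub) ξ
  rw [mul_sub, mul_one, sub_apply, inner_sub_right, Complex.sub_re] at h
  nlinarith [sq_nonneg ‖a ξ - (a * b) ξ‖]

theorem loc_one (hA : IsMasa A M) (hξ : TraceVec M ξ) {g e : H →L[ℂ] H} (hg : Normalizes A M g)
    (he : e ∈ A) (pe : IsStarProjection e) (he0 : e ≠ 0) :
    ∃ f ∈ A, IsStarProjection f ∧ f ≠ 0 ∧ e * f = f ∧ f * g * f ∈ A := by
  obtain ⟨hgM, hgu, hg1, -⟩ := hg
  have u1 : star g * g = 1 := hgu.1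
  have pq : ∀ f, IsStarProjection f → IsStarProjection (g * f * star g) := fun f pf =>
    ⟨by
      rw [IsIdempotentElem]
      calc g * f * star g * (g * f * star g) = g * f * (star g * g) * f * star g := by
            simp only [mul_assoc]
        _ = _ := by rw [u1, mul_one, mul_assoc g f f, pf.isIdempotentElem.eq],
     pf.isSelfAdjoint.conjugate g⟩
  have hqg : ∀ f : H →L[ℂ] H, g * f * star g * g = g * f := fun f => by
    rw [mul_assoc, u1, mul_one]
  by_cases h : ∃ f ∈ A, IsStarProjection f ∧ e * f = f ∧ f * (1 - g * f * star g) ≠ 0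
  · obtain ⟨f, hf, pf, hef, h0⟩ := h
    have hq := sub_mem (one_mem A) (hg1 f hf)
    refine ⟨_, mul_mem hf hq, hA.proj_mul hf hq pf (pq f pf).one_sub, h0,
      by rw [← mul_assoc, hef], ?_⟩
    have e1 : (1 - g * f * star g) * g * f = 0 := by
      rw [sub_mul, one_mul, hqg, sub_mul, mul_assoc g f f, pf.isIdempotentElem.eq, sub_self]
    have e2 : f * (1 - g * f * star g) * g * (f * (1 - g * f * star g)) =
        f * ((1 - g * f * star g) * g * f) * (1 - g * f * star g) := by simp only [mul_assoc]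
    rw [e2, e1, mul_zero, zero_mul]
    exact zero_mem A
  push Not at h
  have hc : ∀ f ∈ A, IsStarProjection f → e * f = f → g * f = f * g := by
    intro f hf pf hef
    have h1 := h f hf pf hef
    rw [mul_sub, mul_one, sub_eq_zero] at h1
    have h2 : g * f * star g * (1 - f) = g * f * star g - f := by
      rw [mul_sub, mul_one, hA.2.1 _ (hg1 f hf) f hf, ← h1]
    have p3 := hA.proj_mul (hg1 f hf) (sub_mem (one_mem A) hf) (pq f pf) pf.one_sub
    rw [h2] at p3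
    have h4 := proj_inner p3 ξ
    rw [sub_apply, inner_sub_right, hξ.2.1 _ (mul_mem hgM (hA.1 f hf)) _ (star_mem hgM),
      ← mul_assoc, u1, one_mul, sub_self, Complex.zero_re] at h4
    have h5 : g * f * star g - f = 0 := hξ.2.2 _ (sub_mem (hA.1 _ (hg1 f hf)) (hA.1 f hf))
      (by rw [sub_apply]; simpa using h4.symm)
    rw [← hqg, sub_eq_zero.1 h5]
  refine ⟨e, he, pe, he0, pe.isIdempotentElem.eq, hA.mem_of_proj
    (mul_mem (mul_mem (hA.1 e he) hgM) (hA.1 e he)) fun E hE pE => ?_⟩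
  have hee := pe.isIdempotentElem.eq
  have c := hA.2.1 e he E hE
  have h1 := hc (e * E) (mul_mem he hE) (hA.proj_mul he hE pe pE) (by rw [← mul_assoc, hee])
  calc E * (e * g * e) = (e * E * g) * e := by rw [c]; simp only [mul_assoc]
    _ = g * (E * (e * e)) := by rw [← h1, c]; simp only [mul_assoc]
    _ = e * e * E * g := by rw [hee, ← c, h1]
    _ = e * g * e * E := by
      rw [mul_assoc e e E, mul_assoc e (e * E) g, ← h1]; simp only [mul_assoc]

theorem loc_all (hA : IsMasa A M) (hξ : TraceVec M ξ) (B : Finset (H →L[ℂ] H))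
    (hB : ∀ g ∈ B, Normalizes A M g) {e : H →L[ℂ] H} (he : e ∈ A) (pe : IsStarProjection e)
    (he0 : e ≠ 0) : ∃ f ∈ A, IsStarProjection f ∧ f ≠ 0 ∧ e * f = f ∧ ∀ g ∈ B, f * g * f ∈ A := by
  classical
  induction B using Finset.induction_on with
  | empty => exact ⟨e, he, pe, he0, pe.isIdempotentElem.eq, by simp⟩
  | insert g B _ ih =>
    obtain ⟨f, hf, pf, f0, hef, hfB⟩ := ih fun g hg => hB g (Finset.mem_insert_of_mem hg)
    obtain ⟨f', hf', pf', f0', hff, hg⟩ :=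
      loc_one hA hξ (hB g (Finset.mem_insert_self _ _)) hf pf f0
    refine ⟨f', hf', pf', f0', by rw [← hff, ← mul_assoc, hef], fun g' hg' => ?_⟩
    rcases Finset.mem_insert.1 hg' with rfl | hg'
    · exact hg
    · have e1 : f' * g' * f' = f' * (f * g' * f) * f' := by
        calc f' * g' * f' = (f * f') * g' * (f * f') := by rw [hff]
          _ = (f' * f) * g' * (f * f') := by rw [← hA.2.1 f hf f' hf']
          _ = _ := by simp only [mul_assoc]
      rw [e1]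
      exact mul_mem (mul_mem hf' (hfB g' hg')) hf'

theorem proj_sum {n : ℕ} {e : Fin n → H →L[ℂ] H} (hp : ∀ j, IsStarProjection (e j))
    (ho : ∀ i j, i ≠ j → e i * e j = 0) : IsStarProjection (∑ j, e j) := by
  refine ⟨?_, isSelfAdjoint_sum _ fun j _ => (hp j).isSelfAdjoint⟩
  rw [IsIdempotentElem, Finset.sum_mul_sum]
  refine Finset.sum_congr rfl fun i _ => ?_
  rw [Finset.sum_eq_single i (fun j _ hj => ho i j hj.symm) (by simp), (hp i).isIdempotentElem.eq]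

end

theorem sep : SepStmt.{u} := by
  intro H _ _ _ A M ξ hA hξ B hB η hη
  let P : Set (H →L[ℂ] H) := {f | f ∈ A ∧ IsStarProjection f ∧ ∀ η : ℝ, 0 < η →
    ∃ (n : ℕ) (e : Fin n → H →L[ℂ] H), (∀ j, e j ∈ A ∧ IsStarProjection (e j)) ∧
      (∀ i j, i ≠ j → e i * e j = 0) ∧ (⟪ξ, (f * (1 - ∑ j, e j)) ξ⟫_ℂ).re ≤ η ∧
      ∀ j, ∀ g ∈ B, e j * g * e j ∈ A}
  obtain ⟨w, ⟨hw, pw, hwP⟩, hmax⟩ := zorn_pi (M := A) P (fun w h => ⟨h.1, pi_of_proj h.2.1⟩)
    ⟨zero_mem A, IsStarProjection.zero _, fun η hη =>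
      ⟨0, Fin.elim0, fun j => j.elim0, fun j => j.elim0, by simpa using hη.le, fun j => j.elim0⟩⟩
    (by
      intro l _ w hl hw _ h1 h2
      have pw : IsStarProjection w := by
        constructor
        · ext z
          refine tendsto_nhds_unique (tendsto_apply_of_bdd (hl.mono fun v hv => hv.2.1.norm_le)
            h1 (h1 z)) ((h1 z).congr' (hl.mono fun v hv => ?_))
          exact (congrArg (fun T : H →L[ℂ] H => T z) hv.2.1.isIdempotentElem.eq).symm
        · ext z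
          refine tendsto_nhds_unique (h2 z) ((h1 z).congr' (hl.mono fun v hv => ?_))
          exact (congrArg (fun T : H →L[ℂ] H => T z) hv.2.1.isSelfAdjoint.star_eq).symm
      refine ⟨hw, pw, fun η hη => ?_⟩
      have h3 : Tendsto (fun v : H →L[ℂ] H => (⟪ξ, (w * (1 - v)) ξ⟫_ℂ).re) l
          (𝓝 (⟪ξ, (w * (1 - w)) ξ⟫_ℂ).re) :=
        (Complex.continuous_re.tendsto _).comp (tendsto_const_nhds.inner
          ((w.continuous.tendsto _).comp (tendsto_const_nhds.sub (h1 ξ))))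
      rw [mul_sub w 1 w, mul_one, pw.isIdempotentElem.eq, sub_self] at h3
      obtain ⟨v, ⟨hv, pv, hvP⟩, h4⟩ := (hl.and (h3.eventually
        (gt_mem_nhds (by simpa using half_pos hη : _ < η / 2)))).exists
      obtain ⟨n, e, he, ho, h5, h6⟩ := hvP _ (half_pos hη)
      refine ⟨n, e, he, ho, ?_, h6⟩
      have hs : 1 - ∑ j, e j ∈ A := sub_mem (one_mem A) (sum_mem fun j _ => (he j).1)
      have ps := (proj_sum (fun j => (he j).2) ho).one_sub
      have hv' := sub_mem (one_mem A) hv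
      have a1 := hA.inner_mul_le (mul_mem hw hv') hs (hA.proj_mul hw hv' pw pv.one_sub) ps ξ
      have a2 := hA.inner_mul_le (mul_mem hv hs) hw (hA.proj_mul hv hs pv ps) pw ξ
      have e1 : w * (1 - ∑ j, e j) = w * (1 - v) * (1 - ∑ j, e j) + v * (1 - ∑ j, e j) * w := by
        rw [hA.2.1 _ (mul_mem hv hs) w hw, ← mul_assoc, ← add_mul, ← mul_add, sub_add_cancel,
          mul_one]
      rw [e1, add_apply, inner_add_right, Complex.add_re]
      linarith)
  by_cases h1 : 1 - w = 0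
  · obtain ⟨n, e, he, ho, h5, h6⟩ := hwP η hη
    rw [← sub_eq_zero.1 h1, one_mul] at h5
    exact ⟨n, e, he, ho, h5, h6⟩
  obtain ⟨f, hf, pf, f0, hwf, hfB⟩ := loc_all hA hξ B hB (sub_mem (one_mem A) hw) pw.one_sub h1
  have h2 : w * f = 0 := by
    rw [sub_mul, one_mul, sub_eq_self] at hwf; exact hwf
  have hff := pf.isIdempotentElem.eq
  refine absurd (hmax f (pi_of_proj pf) (by rwa [pw.isSelfAdjoint.star_eq])
    (by rwa [pf.isSelfAdjoint.star_eq]) ⟨add_mem hw hf, pw.add pf h2, fun η hη => ?_⟩) f0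
  obtain ⟨n, e, he, ho, h5, h6⟩ := hwP η hη
  have hf' := sub_mem (one_mem A) hf
  have z1 : f * (1 - f) = 0 := by rw [mul_sub, mul_one, hff, sub_self]
  have z2 : (1 - f) * f = 0 := by rw [sub_mul, one_mul, hff, sub_self]
  refine ⟨n + 1, Fin.cons f fun j => e j * (1 - f), fun j => ?_, fun i j hij => ?_, ?_,
    fun j => ?_⟩
  · refine Fin.cases ⟨hf, pf⟩ (fun j => ?_) j
    exact ⟨mul_mem (he j).1 hf', hA.proj_mul (he j).1 hf' (he j).2 pf.one_sub⟩
  · revert hij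
    refine Fin.cases (Fin.cases (fun h => absurd rfl h) (fun j _ => ?_) j)
      (fun i => Fin.cases (fun _ => ?_) (fun j h => ?_) j) i
    · simp only [Fin.cons_zero, Fin.cons_succ]
      rw [hA.2.1 _ (he j).1 _ hf', ← mul_assoc, z1, zero_mul]
    · simp only [Fin.cons_zero, Fin.cons_succ]
      rw [mul_assoc, z2, mul_zero]
    · simp only [Fin.cons_succ]
      rw [hA.2.1 _ (he i).1 _ hf', mul_assoc, ← mul_assoc (e i), ho i j fun e => h (by rw [e]),
        zero_mul, mul_zero]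
  · have hs : ∑ j, e j ∈ A := sum_mem fun j _ => (he j).1
    have e1 : (w + f) * (1 - ∑ j : Fin (n + 1), (Fin.cons f fun j => e j * (1 - f) :
        Fin (n + 1) → H →L[ℂ] H) j) = w * (1 - ∑ j, e j) := by
      simp only [Fin.sum_univ_succ, Fin.cons_zero, Fin.cons_succ]
      rw [← Finset.sum_mul, hA.2.1 _ hs _ hf']
      have e2 : 1 - (f + (1 - f) * ∑ j, e j) = (1 - f) * (1 - ∑ j, e j) := by
        rw [mul_sub, mul_one]; abel
      rw [e2, ← mul_assoc, add_mul, z1, add_zero, mul_sub w 1 f, mul_one, h2, sub_zero]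
    rw [e1]; exact h5
  · refine Fin.cases hfB (fun j g hg => ?_) j
    simp only [Fin.cons_succ]
    have e1 : e j * (1 - f) * g * (e j * (1 - f)) = (1 - f) * (e j * g * e j) * (1 - f) := by
      rw [hA.2.1 _ (he j).1 _ hf']
      conv_lhs => enter [2]; rw [← hA.2.1 _ (he j).1 _ hf']
      simp only [mul_assoc]
    rw [e1]
    exact mul_mem (mul_mem hf' (h6 j g hg)) hf'

theorem ce : CEStmt.{u} := by
  intro H _ _ _ A M ξ hA hξ y hy
  let K : Set (H →L[ℂ] H) :=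
    {z | z ∈ M ∧ ‖z‖ ≤ ‖y‖ ∧ ∀ b ∈ A, ⟪ξ, (b * z) ξ⟫_ℂ = ⟪ξ, (b * y) ξ⟫_ℂ}
  have hyK : y ∈ K := ⟨hy, le_rfl, fun _ _ => rfl⟩
  have hbd : BddBelow ((fun z : H →L[ℂ] H => ‖z ξ‖) '' K) :=
    ⟨0, by rintro _ ⟨z, -, rfl⟩; exact norm_nonneg _⟩
  obtain ⟨r, -, hr, hrK⟩ := exists_seq_tendsto_sInf (Set.Nonempty.image _ ⟨y, hyK⟩) hbd
  set m := sInf ((fun z : H →L[ℂ] H => ‖z ξ‖) '' K)
  have hm : ∀ z ∈ K, m ≤ ‖z ξ‖ := fun z hz => csInf_le hbd ⟨z, hz, rfl⟩
  choose v hv hvr using hrK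
  let v' : ℕ → P082.Alg M := fun n => ⟨v n, (hv n).1⟩
  have hb : ∀ n, ‖v' n‖ ≤ ‖y‖ := fun n => (hv n).2.1
  obtain ⟨z, hzd⟩ : ∃ z, z = P082.wlim (hyperfilter ℕ) v' := ⟨_, rfl⟩
  have hs : ∀ η, Tendsto (fun n => ⟪η, v n ξ⟫_ℂ) (hyperfilter ℕ) (𝓝 ⟪η, z.1 ξ⟫_ℂ) := fun η =>
    hzd ▸ P082.wlim_spec hb ξ η
  have hzK : z.1 ∈ K := by
    refine ⟨z.2, hzd ▸ P082.wlim_norm_le hb, fun b hb => ?_⟩
    have h1 := hs (star b ξ)
    simp only [inner_star_left] at h1
    exact tendsto_nhds_unique h1 (tendsto_const_nhds.congr fun n => ((hv n).2.2 b hb).symm)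
  have hzm : ‖z.1 ξ‖ ≤ m := by
    have h1 := (hs (z.1 ξ)).norm
    have h2 : Tendsto (fun n => ‖z.1 ξ‖ * r n) (hyperfilter ℕ) (𝓝 (‖z.1 ξ‖ * m)) :=
      (hr.mono_left Nat.hyperfilter_le_atTop).const_mul _
    have h3 := le_of_tendsto_of_tendsto' h1 h2 fun n => by
      rw [← hvr n]; exact norm_inner_le_norm _ _
    rw [inner_self_eq_norm_sq_to_K, norm_pow, RCLike.norm_ofReal, abs_norm, sq] at h3
    rcases (norm_nonneg (z.1 ξ)).eq_or_lt with h | h
    · rw [← h]; exact le_csInf (Set.Nonempty.image _ ⟨y, hyK⟩) (by rintro _ ⟨z, -, rfl⟩; exact norm_nonneg _)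
    · exact le_of_mul_le_mul_left h3 h
  have huniq : ∀ z' ∈ K, ‖z' ξ‖ = ‖z.1 ξ‖ → z' = z.1 := by
    intro z' hz' he
    have hmid : (2⁻¹ : ℂ) • (z' + z.1) ∈ K := by
      refine ⟨vn_smul_mem _ (add_mem hz'.1 hzK.1), ?_, fun b hb => ?_⟩
      · rw [norm_smul]
        have := norm_add_le z' z.1
        have a1 := hz'.2.1
        have a2 := hzK.2.1
        simp only [norm_inv, Complex.norm_ofNat]
        linarith
      · rw [mul_smul_comm, mul_add, smul_apply, add_apply, inner_smul_right, inner_add_right,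
          hz'.2.2 b hb, hzK.2.2 b hb]
        ring
    have h1 := hm _ hmid
    rw [smul_apply, add_apply, norm_smul] at h1
    simp only [norm_inv, Complex.norm_ofNat] at h1
    have h2 := parallelogram_law_with_norm ℂ (z' ξ) (z.1 ξ)
    rw [he] at h2
    have h3 : ‖z' ξ - z.1 ξ‖ = 0 := by
      have a1 := norm_nonneg (z.1 ξ)
      have a2 : 2 * ‖z.1 ξ‖ ≤ ‖z' ξ + z.1 ξ‖ := by linarith
      have a3 := mul_self_le_mul_self (by positivity) a2
      exact mul_self_eq_zero.1 (le_antisymm (by nlinarith) (mul_self_nonneg _))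
    exact sub_eq_zero.1 (hξ.2.2 _ (sub_mem hz'.1 hzK.1) (norm_eq_zero.1 h3))
  refine ⟨z.1, hA.mem_of_proj hzK.1 fun E hE pE => ?_, hzK.2.1, hzK.2.2⟩
  obtain ⟨s, hsd⟩ : ∃ s : H →L[ℂ] H, s = 1 - (E + E) := ⟨_, rfl⟩
  have hsA : s ∈ A := hsd ▸ sub_mem (one_mem A) (add_mem hE hE)
  have hsM := hA.1 s hsA
  have s1 : star s = s := by rw [hsd, star_sub, star_add, star_one, pE.isSelfAdjoint.star_eq]
  have s2 : s * s = 1 := by
    rw [hsd]
    simp only [mul_sub, sub_mul, mul_add, add_mul, mul_one, one_mul, pE.isIdempotentElem.eq]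
    abel
  have hsu : s ∈ unitary (H →L[ℂ] H) := ⟨by rw [s1, s2], by rw [s1, s2]⟩
  have h1 : s * z.1 * s = z.1 := by
    refine huniq _ ⟨mul_mem (mul_mem hsM hzK.1) hsM, ?_, fun b hb => ?_⟩ ?_
    · rw [CStarRing.norm_mul_mem_unitary _ hsu, CStarRing.norm_mem_unitary_mul _ hsu]
      exact hzK.2.1
    · rw [← mul_assoc, hξ.2.1 _ (mul_mem (hA.1 b hb) (mul_mem hsM hzK.1)) _ hsM, ← mul_assoc,
        hA.2.1 s hsA b hb, mul_assoc, ← mul_assoc s, s2, one_mul, hzK.2.2 b hb]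
    · refine (sq_eq_sq₀ (norm_nonneg _) (norm_nonneg _)).1 ?_
      have e : star (s * z.1 * s) * (s * z.1 * s) = s * (star z.1 * z.1 * s) := by
        rw [star_mul, star_mul, s1]
        calc s * (star z.1 * s) * (s * z.1 * s) = s * (star z.1 * (s * s) * z.1 * s) := by
              simp only [mul_assoc]
          _ = _ := by rw [s2, mul_one]
      rw [norm_sq_apply, norm_sq_apply, e, hξ.2.1 _ hsM _
        (mul_mem (mul_mem (star_mem hzK.1) hzK.1) hsM), mul_assoc, s2, mul_one]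
  have h2 : s * z.1 = z.1 * s := by
    conv_lhs => rw [← h1]
    rw [← mul_assoc, ← mul_assoc, s2, one_mul]
  rw [hsd, sub_mul, mul_sub, one_mul, mul_one, sub_right_inj, add_mul, mul_add, ← two_smul ℂ,
    ← two_smul ℂ] at h2
  exact smul_right_injective _ (two_ne_zero) h2

end Vale.Agent.P078
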