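import Vale.Agent.P078.A4
import Vale.Agent.P078.Q
import Vale.Agent.P078.VN
import Vale.Agent.P078.Fin

/-! One-sided paving. -/

namespace Vale.Agent.P078

open Finset Polynomial Filter Topology WeakDual
open scoped ComplexConjugate Pointwise Classical InnerProductSpace

namespace Cart

variable {D R Γ : Type*} [CommCStarAlgebra D] [CStarAlgebra R] [Group Γ] (C : Cart D R Γ)
  [PartialOrder R] [StarOrderedRing R]

omit [PartialOrder R] [StarOrderedRing R] in
theorem sep_ne {e a : D} (he : IsStarProjection e) {g : Γ} (h : C.j a = C.j e * C.ρ g * C.j e)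
    {ω : characterSpace ℂ D} (h1 : ω e = 1) (h2 : ω (C.α g e) = 1) : C.φ ω (C.ρ g) ≠ 0 := by
  have k : star a * a = e * C.α g (e * e) * e := C.j_inj (by
    rw [map_mul, map_star, h, star_mul, star_mul, ← map_star, he.isSelfAdjoint.star_eq, C.ρs]
    simp only [map_mul C.j, j_α, mul_assoc])
  have k1 := congrArg ω k
  have k2 := C.φ_j ω a
  rw [h, φ_right, φ_left, h1, one_mul, mul_one] at k2
  rw [he.isIdempotentElem.eq, map_mul, map_mul, map_mul, h1, h2] at k1
  exact fun e => by simp [← k2, e] at k1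

theorem fin_le {y : R} (hy : IsSelfAdjoint y) (h1 : y ≤ 1) (h2 : -y ≤ 1) {Q : ℝ[X]} {θ E : ℝ}
    (hθ : 0 < θ) (hE : 0 < E) (hQ : ∀ t, |t| ≤ 1 → -θ ≤ Q.eval t ∧ (E ≤ t → 1 ≤ Q.eval t)) :
    ∃ w : R, 0 ≤ w ∧ (C.τ w).re ≤ (C.τ (aeval y Q)).re + θ ∧ y ≤ algebraMap ℝ R E + w := by
  refine ⟨cfc (fun t => Max.max (t - E) 0) y, cfc_nonneg fun _ _ => le_max_right _ _, ?_, ?_⟩
  · have : cfc (fun t => Max.max (t - E) 0) y ≤ aeval y Q + algebraMap ℝ R θ := by
      rw [← cfc_polynomial Q y, ← cfc_add_const θ _ y]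
      refine cfc_mono fun t ht => ?_
      have a := (le_algebraMap_iff_spectrum_le (r := (1 : ℝ)) hy).1 (by rwa [map_one]) t ht
      have b := (algebraMap_le_iff_le_spectrum (r := (-1 : ℝ)) hy).1 (by
        rwa [map_neg, map_one, neg_le]) t ht
      have := hQ t (abs_le.2 ⟨b, a⟩)
      rcases le_total E t with c | c
      · exact max_le (by linarith [this.2 c]) (by linarith [this.1])
      · exact max_le (by linarith [this.1]) (by linarith [this.1])
    refine (C.τ_mono this).trans_eq ?_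
    rw [map_add, Algebra.algebraMap_eq_smul_one, ← Complex.coe_smul, map_smul, C.one]
    simp
  · rw [← cfc_const_add E _ y]
    nth_rw 1 [← cfc_id' ℝ y]
    exact cfc_mono fun t _ => by linarith [le_max_left (t - E) 0]

theorem core [Countable Γ] {x : R} {n : ℕ} (f : Fin n → ℂ) (u : Fin n → Γ)
    (h1 : x = ∑ i, f i • C.ρ (u i)) (h2 : IsSelfAdjoint x) (h3 : ‖x‖ ≤ 1) (h4 : C.E x = 0)
    (sp : ∀ t : D, IsSelfAdjoint t → ∃ e, e * e = e ∧ 0 ≤ C.j (e * t * e) ∧
      C.j ((1 - e) * t * (1 - e)) ≤ 0)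
    (se : ∀ (T : Finset Γ) (η : ℝ), 0 < η → ∃ (n : ℕ) (e : Fin n → D),
      (∀ i, IsStarProjection (e i)) ∧ (∀ i k, i ≠ k → e i * e k = 0) ∧
      (C.τ (C.j (1 - ∑ i, e i))).re ≤ η ∧ ∀ i, ∀ g ∈ T, ∃ a, C.j a = C.j (e i) * C.ρ g * C.j (e i))
    {m : ℕ} (hm : 2 ≤ m) {η : ℝ} (hη : 0 < η) : ∃ p : Fin (m ^ 2) → D,
      (∀ c, IsStarProjection (p c)) ∧ (∀ c d, c ≠ d → p c * p d = 0) ∧ ∑ c, p c = 1 ∧
      ∃ w : R, 0 ≤ w ∧ (C.τ w).re ≤ η ∧
        ∑ c, C.j (p c) * x * C.j (p c) ≤ algebraMap ℝ R (5 / m) + w := by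
  letI := C.act
  have := C.tot sp
  have m0 : (0 : ℝ) < m := by exact_mod_cast (by omega : 0 < m)
  have t0 : 0 < min (η / 5) (1 / 2) := by positivity
  obtain ⟨Q, q1, q2⟩ := qq (4 / m) (5 / m) _ (by gcongr; norm_num) t0 (min_le_right _ _)
  set B0 := insert 1 (univ.image u)
  let F := C.fib x (B0 ∪ B0⁻¹) (fun s => ∑ i, if u i = s then f i else 0) (by
    simp only [sum_smul, ite_smul, zero_smul]
    rw [sum_comm, h1]
    exact sum_congr rfl fun i _ => by rw [sum_ite_eq, if_pos (by simp [B0])]) h2 h3 h4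
    (by simp [B0]) (by
      ext
      simp only [mem_inv', mem_union, inv_inv, or_comm])
  obtain ⟨col, c1, c2⟩ := F.main hm t0 ((min_le_right _ _).trans (by norm_num)) q2
    (fun t ht => ⟨(q1 t ht).1, (q1 t ht).2.1, (q1 t ht).2.2.1⟩) fun η hη => by
      obtain ⟨n, e, e1, e2, e3, e4⟩ := se (F.B ^ Q.natDegree * F.B ^ Q.natDegree) η hη
      refine ⟨n, fun i => {ω | ω (e i) = 1}, fun i => ⟨idem_clopen (e1 i).isIdempotentElem.eq,
        fun b hb b' hb' ω h h' => ?_⟩, fun i k h ω (a : ω _ = 1) (a' : ω _ = 1) => ?_, ?_⟩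
      · obtain ⟨a, ha⟩ := e4 i _ (Finset.mul_mem_mul hb hb')
        rw [Fib.rel, inv_one, one_mul]
        exact C.sep_ne (e1 i) ha h h'
      · simpa [a, a'] using congrArg ω (e2 i k h)
      · rw [map_sub, map_sub, map_one, C.one, map_sum, map_sum, Complex.sub_re, Complex.re_sum,
          Complex.one_re, sub_le_comm] at e3
        refine e3.trans_eq (sum_congr rfl fun i _ => (C.I_eq _ fun ω => ?_).symm)
        rcases idem_val (e1 i).isIdempotentElem.eq ω with a | a <;> simp [ind, a]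
  have p1 : ∀ c (ω : characterSpace ℂ D), ω (lift (ind {ω | col ω = c})) =
      if col ω = c then 1 else 0 := fun c ω => by
    rw [lift_spec (ind_cont (c1.isClopen_fiber c)), ind]
    split_ifs with a b b
    exacts [rfl, absurd a b, absurd b a, rfl]
  have p2 : ∀ c, IsStarProjection (lift (ind {ω | col ω = c})) := fun c =>
    ⟨gel_ext fun ω => by rw [map_mul, p1]; split_ifs <;> simp,
      gel_ext fun ω => by rw [map_star, p1]; split_ifs <;> simp⟩
  have p3 : ∑ c, lift (ind {ω | col ω = c}) = 1 := gel_ext fun ω => by simp [p1]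
  refine ⟨_, p2, fun c d h => gel_ext fun ω => ?_, p3, ?_⟩
  · rw [map_mul, p1, p1, map_zero]
    split_ifs with a b
    exacts [absurd (a.symm.trans b) h, mul_zero _, zero_mul _, zero_mul _]
  have p4 : ∀ c, IsSelfAdjoint (C.j (lift (ind {ω | col ω = c}))) := fun c =>
    (p2 c).isSelfAdjoint.map C.j
  have k : ∀ z : R, z ≤ 1 → ∑ c, C.j (lift (ind {ω | col ω = c})) * z *
      C.j (lift (ind {ω | col ω = c})) ≤ 1 := fun z hz => by
    refine (sum_le_sum fun c _ => (p4 c).conjugate_le_conjugate hz).trans_eq ?_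
    simp only [mul_one, ← map_mul, fun c => (p2 c).isIdempotentElem.eq]
    rw [← map_sum, p3, map_one]
  obtain ⟨w, w1, w2, w3⟩ := C.fin_le (Q := Q) (E := 5 / m)
    (isSelfAdjoint_sum _ fun c _ => h2.conjugate_self (p4 c)) (k x (le_one h2 h3))
    (by simpa using k (-x) (le_one h2.neg (by rwa [norm_neg]))) t0 (by positivity)
    fun t ht => ⟨(q1 t ht).1, (q1 t ht).2.2.2⟩
  refine ⟨w, w1, w2.trans ?_, w3⟩
  have c3 := c2 (fun c => C.j (lift (ind {ω | col ω = c}))) fun c ω w => by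
    refine (C.φ_right ω _ w).trans ?_
    rw [p1]
    split_ifs
    exacts [mul_one _, mul_zero _]
  have c4 := (C.I_eq (C.E (aeval (∑ c, C.j (lift (ind {ω | col ω = c})) * x *
    C.j (lift (ind {ω | col ω = c}))) Q)) fun ω => ?_).symm.trans_le c3
  · rw [C.τ_E] at c4
    linarith [min_le_left (η / 5) (1 / 2)]
  · change (C.φ ω _).re = _
    rw [aeval_eq_sum_range, map_sum, Complex.re_sum]
    exact sum_congr rfl fun k _ => by
      rw [← Complex.coe_smul, map_smul, smul_eq_mul, Complex.re_ofReal_mul]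
      rfl

end Cart

universe u

open P082 P104 in
theorem core : CoreStmt.{u} := by
  intro H _ _ _ A M ξ hA ht m hm x hx xs xn x0 η hη
  obtain ⟨n, f, g, rfl⟩ := Submodule.mem_span_set'.1 hx
  letI : CommCStarAlgebra (Alg A) :=
    { algCStar with mul_comm := fun a b => Subtype.ext (hA.2.1 _ a.2 _ b.2) }
  choose E E1 E2 E3 using fun y : Alg M => ce H A M ξ hA ht y.1 y.2
  let v : FreeGroup (Fin n) →* unitary (Alg M) := FreeGroup.lift fun i =>
    ⟨⟨g i, (g i).2.1⟩, Subtype.ext (g i).2.2.1.1, Subtype.ext (g i).2.2.1.2⟩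
  have hi : ∀ s, (v s⁻¹).1.1 = star (v s).1.1 := fun s => by
    rw [map_inv]
    rfl
  have hv : ∀ s, Normalizes A M (v s).1.1 := fun s => by
    refine ⟨(v s).1.2, ⟨congrArg Subtype.val (v s).2.1, congrArg Subtype.val (v s).2.2⟩, ?_⟩
    induction s using FreeGroup.induction_on with
    | C1 => simp
    | of i => simpa [v] using (g i).2.2.2
    | inv_of i h =>
      rw [hi]
      exact ⟨fun a ha => by simpa using h.2 a ha, fun a ha => by simpa using h.1 a ha⟩
    | mul s t h1 h2 =>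
      rw [map_mul]
      exact ⟨fun a ha => by simpa [mul_assoc] using h1.1 _ (h2.1 a ha),
        fun a ha => by simpa [mul_assoc] using h2.2 _ (h1.2 a ha)⟩
  let C : Cart (Alg A) (Alg M) (FreeGroup (Fin n)) :=
    { j := StarSubalgebra.inclusion hA.1
      τ := ⟨⟨fun y => ⟪ξ, y.1 ξ⟫_ℂ, fun _ _ => inner_add_right _ _ _⟩,
        fun _ _ => inner_smul_right _ _ _⟩
      E := fun y => ⟨E y, E1 y⟩
      ρ := (unitary (Alg M)).subtype.comp v
      tr := fun y z => ht.2.1 _ y.2 _ z.2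
      st := fun y => (ContinuousLinearMap.adjoint_inner_right y.1 ξ ξ).trans
        (inner_conj_symm _ _).symm
      pos := fun y => R.re_nonneg (star_mul_self_nonneg y.1)
      faith := fun a h => Subtype.ext (ht.2.2 _ (hA.1 _ a.2) (by
        have := norm_sq_apply a.1 ξ
        rw [show ⟪ξ, (star a.1 * a.1) ξ⟫_ℂ = 0 from h] at this
        simpa using this))
      one := (inner_self_eq_norm_sq_to_K ξ).trans (by simp [ht.1])
      hE := fun y b => E3 y b.1 b.2
      nE := E2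
      ρs := fun s => Subtype.ext (hi s).symm
      nor := fun s a => ⟨⟨_, (hv s).2.2.2 a.1 a.2⟩, 
        Subtype.ext (congrArg (· * a.1 * (v s).1.1) (hi s).symm)⟩
      max := fun y h => ⟨⟨y.1, hA.2.2 _ y.2 fun a ha => congrArg Subtype.val (h ⟨a, ha⟩)⟩, rfl⟩ }
  obtain ⟨p, p1, p2, p3, w, w1, w2, w3⟩ := C.core (x := ⟨_, R.nsp_le hx⟩) f FreeGroup.of
    (Subtype.ext (by simp [C, v])) (Subtype.ext xs) xn
    (C.E_eq fun b => by rw [map_zero, mul_zero, map_zero]; exact (x0 b.1 b.2).symm)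
    (fun t h => by
      obtain ⟨e, e1, e2, -, e3, e4⟩ := spec H A t.1 t.2 (congrArg Subtype.val h)
      exact ⟨⟨e, e1⟩, Subtype.ext e2.isIdempotentElem.eq, e3, e4⟩)
    (fun T η hη => by
      obtain ⟨k, e, e1, e2, e3, e4⟩ := sep H A M ξ hA ht (T.image fun s => (v s).1.1)
        (forall_mem_image.2 fun s _ => hv s) η hη
      refine ⟨k, fun i => ⟨e i, (e1 i).1⟩, fun i => ⟨Subtype.ext (e1 i).2.1,
        Subtype.ext (e1 i).2.2⟩, fun i l h => Subtype.ext (e2 i l h), le_of_eq_of_le ?_ e3,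
        fun i s hs => ⟨⟨_, e4 i _ (mem_image_of_mem _ hs)⟩, rfl⟩⟩
      simp [C]) hm hη
  refine ⟨fun c => (p c).1, ⟨fun c => ⟨(p c).2, congrArg Subtype.val (p1 c).1,
    congrArg Subtype.val (p1 c).2⟩, fun c d h => congrArg Subtype.val (p2 c d h), ?_⟩,
    w.1, w.2, w1, w2, ?_⟩
  · simpa using congrArg Subtype.val p3
  · have : (_ : H →L[ℂ] H) ≤ _ := w3
    rw [Algebra.algebraMap_eq_smul_one, ← Complex.coe_smul] at this
    simpa [C] using this

theorem final : FinalStmt.{u} := fin core ce spec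

end Vale.Agent.P078
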