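import Vale.Agent.P078.B2
import Vale.Agent.P078.Core

/-! Two-sided paving. -/

namespace Vale.Agent.P078

open Finset Polynomial Filter Topology WeakDual
open scoped ComplexConjugate Pointwise Classical InnerProductSpace

namespace Cart

variable {D R Γ : Type*} [CommCStarAlgebra D] [CStarAlgebra R] [Group Γ] (C : Cart D R Γ)
  [PartialOrder R] [StarOrderedRing R]

theorem core2 [Countable Γ] {x : R} {n : ℕ} (f : Fin n → ℂ) (u : Fin n → Γ)
    (h1 : x = ∑ i, f i • C.ρ (u i)) (h2 : IsSelfAdjoint x) (h3 : ‖x‖ ≤ 1) (h4 : C.E x = 0)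
    (sp : ∀ t : D, IsSelfAdjoint t → ∃ e, e * e = e ∧ 0 ≤ C.j (e * t * e) ∧
      C.j ((1 - e) * t * (1 - e)) ≤ 0)
    (se : ∀ (T : Finset Γ) (η : ℝ), 0 < η → ∃ (n : ℕ) (e : Fin n → D),
      (∀ i, IsStarProjection (e i)) ∧ (∀ i k, i ≠ k → e i * e k = 0) ∧
      (C.τ (C.j (1 - ∑ i, e i))).re ≤ η ∧ ∀ i, ∀ g ∈ T, ∃ a, C.j a = C.j (e i) * C.ρ g * C.j (e i))
    {k : ℕ} (hk : 1 ≤ k) {η : ℝ} (hη : 0 < η) : ∃ p : Fin (3 * k ^ 2) → D,
      (∀ c, IsStarProjection (p c)) ∧ (∀ c d, c ≠ d → p c * p d = 0) ∧ ∑ c, p c = 1 ∧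
      ∃ w : R, 0 ≤ w ∧ (C.τ w).re ≤ η ∧
        ∑ c, C.j (p c) * x * C.j (p c) ≤ algebraMap ℝ R (6 / k) + w ∧
        -∑ c, C.j (p c) * x * C.j (p c) ≤ algebraMap ℝ R (6 / k) + w := by
  letI := C.act
  have := C.tot sp
  have k0 : (0 : ℝ) < k := by exact_mod_cast hk
  have a0 : (0 : ℝ) < 1 + 2 / k := by positivity
  obtain ⟨N, hN⟩ := exists_pow_lt_of_lt_one (y := (1 + 5 / (3 * k)) / (1 + 2 / k : ℝ))
    (show 0 < η / 12 by positivity) (by
      rw [div_lt_one a0, add_lt_add_iff_left, div_lt_div_iff₀ (by positivity) k0]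
      linarith)
  obtain ⟨κ, hκ⟩ : ∃ κ : ℝ, κ = ((1 + 2 / k : ℝ) ^ N)⁻¹ := ⟨_, rfl⟩
  have κ0 : 0 < κ := by rw [hκ]; positivity
  obtain ⟨L, hL⟩ : ∃ L : ℝ, L = κ * (2 ^ N * 5 + 1) + 1 := ⟨_, rfl⟩
  have L0 : 0 < L := by rw [hL]; positivity
  obtain ⟨θ, hθ⟩ : ∃ θ : ℝ, θ = min (η / 12 / L) (1 / 2) := ⟨_, rfl⟩
  have t0 : 0 < θ := by rw [hθ]; positivity
  have t1 : θ * L ≤ η / 12 := by rw [← le_div_iff₀ L0, hθ]; exact min_le_left _ _
  set B0 := insert 1 (univ.image u)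
  let F := C.fib x (B0 ∪ B0⁻¹) (fun s => ∑ i, if u i = s then f i else 0) (by
    simp only [sum_smul, ite_smul, zero_smul]
    rw [sum_comm, h1]
    exact sum_congr rfl fun i _ => by rw [sum_ite_eq, if_pos (by simp [B0])]) h2 h3 h4
    (by simp [B0]) (by
      ext
      simp only [mem_inv', mem_union, inv_inv, or_comm])
  obtain ⟨col, c1, c2⟩ := F.main2 hk (fun K η hη => by
      obtain ⟨n, e, e1, e2, e3, e4⟩ := se (F.B ^ K * F.B ^ K) η hη
      refine ⟨n, fun i => {ω | ω (e i) = 1}, fun i => ⟨idem_clopen (e1 i).isIdempotentElem.eq,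
        fun b hb b' hb' ω h h' => ?_⟩, fun i k h ω (a : ω _ = 1) (a' : ω _ = 1) => ?_, ?_⟩
      · obtain ⟨a, ha⟩ := e4 i _ (Finset.mul_mem_mul hb hb')
        rw [Fib.rel, inv_one, one_mul]
        exact C.sep_ne (e1 i) ha h h'
      · simpa [a, a'] using congrArg ω (e2 i k h)
      · rw [map_sub, map_sub, map_one, C.one, map_sum, map_sum, Complex.sub_re, Complex.re_sum,
          Complex.one_re, sub_le_comm] at e3
        refine e3.trans_eq (sum_congr rfl fun i _ => (C.I_eq _ fun ω => ?_).symm)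
        rcases idem_val (e1 i).isIdempotentElem.eq ω with a | a <;> simp [ind, a])
    N t0 (hθ ▸ min_le_right _ _) qq
  have p1 : ∀ c (ω : characterSpace ℂ D), ω (lift (ind {ω | col ω = c})) =
      if col ω = c then 1 else 0 := fun c ω => by
    rw [lift_spec (ind_cont (c1.isClopen_fiber c)), ind]
    split_ifs with a b b
    exacts [rfl, absurd a b, absurd b a, rfl]
  have p2 : ∀ c, IsStarProjection (lift (ind {ω | col ω = c})) := fun c =>
    ⟨gel_ext fun ω => by rw [map_mul, p1]; split_ifs <;> simp,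
      gel_ext fun ω => by rw [map_star, p1]; split_ifs <;> simp⟩
  have p3 : ∑ c, lift (ind {ω | col ω = c}) = 1 := gel_ext fun ω => by simp [p1]
  refine ⟨_, p2, fun c d h => gel_ext fun ω => ?_, p3, ?_⟩
  · rw [map_mul, p1, p1, map_zero]
    split_ifs with a b
    exacts [absurd (a.symm.trans b) h, mul_zero _, zero_mul _, zero_mul _]
  have p4 : ∀ c, IsSelfAdjoint (C.j (lift (ind {ω | col ω = c}))) := fun c =>
    (p2 c).isSelfAdjoint.map C.j
  have k' : ∀ z : R, z ≤ 1 → ∑ c, C.j (lift (ind {ω | col ω = c})) * z *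
      C.j (lift (ind {ω | col ω = c})) ≤ 1 := fun z hz => by
    refine (sum_le_sum fun c _ => (p4 c).conjugate_le_conjugate hz).trans_eq ?_
    simp only [mul_one, ← map_mul, fun c => (p2 c).isIdempotentElem.eq]
    rw [← map_sum, p3, map_one]
  have c3 := c2 (fun c => C.j (lift (ind {ω | col ω = c}))) fun c ω w => by
    refine (C.φ_right ω _ w).trans ?_
    rw [p1]
    split_ifs
    exacts [mul_one _, mul_zero _]
  have y1 := k' x (le_one h2 h3)
  have y2 := k' (-x) (le_one h2.neg (by rwa [norm_neg]))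
  simp only [mul_neg, neg_mul, sum_neg_distrib] at y2
  have y0 := isSelfAdjoint_sum univ fun c _ => h2.conjugate_self (p4 c)
  change ∀ s : ℝ, _ → C.I (fun ω => ∑ i ∈ _, _ * (_ * C.φ ω ((∑ c, _ * x * _) ^ i)).re) ≤ _ at c3
  generalize ∑ c, C.j (lift (ind {ω | col ω = c})) * x * C.j (lift (ind {ω | col ω = c})) = y
    at c3 y0 y1 y2 ⊢
  have key : ∀ (s : ℝ), s = 1 ∨ s = -1 → s • y ≤ 1 → -(s • y) ≤ 1 → ∃ w : R, 0 ≤ w ∧
      (C.τ w).re ≤ η / 2 ∧ s • y ≤ algebraMap ℝ R (6 / k) + w := fun s hs z1 z2 => by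
    have z3 : ∀ z : R, z ≤ 1 → (3⁻¹ : ℝ) • z ≤ 1 := fun z hz =>
      (smul_le_smul_of_nonneg_left hz (by norm_num)).trans (by
        simpa using smul_le_smul_of_nonneg_right (show (3⁻¹ : ℝ) ≤ 1 by norm_num)
          (zero_le_one (α := R)))
    obtain ⟨w, w1, w2, w3⟩ := C.fin_le (y := (3⁻¹ : ℝ) • s • y) (Q := Polynomial.C κ * PN N)
      (E := 2 / k) ((IsSelfAdjoint.all _).smul ((IsSelfAdjoint.all _).smul y0)) (z3 _ z1)
      (by rw [← smul_neg]; exact z3 _ z2) t0 (by positivity) fun t ht => by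
        obtain ⟨a, b⟩ := abs_le.1 ht
        rw [eval_mul, eval_C, PN, eval_pow, eval_add, eval_X, eval_C]
        refine ⟨(neg_nonpos.2 t0.le).trans (mul_nonneg κ0.le (pow_nonneg (by linarith) _)),
          fun h => ?_⟩
        rw [hκ, one_le_inv_mul₀ (by positivity)]
        exact pow_le_pow_left₀ a0.le (by linarith) _
    have c4 := (C.I_eq (C.E (aeval ((3⁻¹ : ℝ) • s • y) (PN N))) fun ω => ?_).symm.trans_le (c3 s hs)
    · refine ⟨(3 : ℝ) • w, smul_nonneg (by norm_num) w1, ?_, ?_⟩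
      · rw [C.τ_E] at c4
        rw [map_mul, aeval_C, Algebra.algebraMap_eq_smul_one, smul_mul_assoc, one_mul,
          ← Complex.coe_smul κ, map_smul, smul_eq_mul, Complex.re_ofReal_mul] at w2
        rw [← Complex.coe_smul, map_smul, smul_eq_mul, Complex.re_ofReal_mul]
        rw [div_pow, div_eq_inv_mul, ← hκ] at hN
        have := mul_le_mul_of_nonneg_left c4 κ0.le
        rw [hL] at t1
        linarith
      · have := smul_le_smul_of_nonneg_left w3 (show (0 : ℝ) ≤ 3 by norm_num)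
        rwa [smul_smul, mul_inv_cancel₀ (by norm_num), one_smul, smul_add,
          Algebra.algebraMap_eq_smul_one, smul_smul, ← Algebra.algebraMap_eq_smul_one,
          show 3 * (2 / (k : ℝ)) = 6 / k by ring] at this
    · change (C.φ ω _).re = _
      rw [aeval_eq_sum_range, map_sum, Complex.re_sum]
      exact sum_congr rfl fun i _ => by
        rw [← Complex.coe_smul, map_smul, smul_eq_mul, Complex.re_ofReal_mul, smul_smul,
          _root_.smul_pow, ← Complex.coe_smul, map_smul, smul_eq_mul]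
        simp
  obtain ⟨w, w1, w2, w3⟩ := key 1 (.inl rfl) (by simpa) (by simpa)
  obtain ⟨w', v1, v2, v3⟩ := key (-1) (.inr rfl) (by simpa) (by simpa)
  refine ⟨w + w', add_nonneg w1 v1, by rw [map_add, Complex.add_re]; linarith, ?_, ?_⟩
  · rw [one_smul] at w3
    exact w3.trans (add_le_add_right (le_add_of_nonneg_right v1) _)
  · rw [neg_smul, one_smul] at v3
    exact v3.trans (add_le_add_right (le_add_of_nonneg_left w1) _)

end Cart

universe u

/-- Two-sided paving of finite combinations of normalizing unitaries. -/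
def Core2 (r : ℕ) (c : ℝ) : Prop := ∀ (H : Type u) [NormedAddCommGroup H] [InnerProductSpace ℂ H]
  [CompleteSpace H] (A M : VonNeumannAlgebra H) (ξ : H), IsMasa A M → TraceVec M ξ →
  ∀ x ∈ Submodule.span ℂ {u | Normalizes A M u}, IsSelfAdjoint x → ‖x‖ ≤ 1 →
  (∀ a ∈ A, ⟪ξ, (a * x) ξ⟫_ℂ = 0) → ∀ η : ℝ, 0 < η →
  ∃ p : Fin r → H →L[ℂ] H, IsPartition A p ∧ ∃ w ∈ M, 0 ≤ w ∧ (⟪ξ, w ξ⟫_ℂ).re ≤ η ∧
    R.pin p x ≤ (c : ℂ) • 1 + w ∧ -R.pin p x ≤ (c : ℂ) • 1 + w

open P082 P104 in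
theorem core2 {m : ℕ} (hm : 1 ≤ m) : Core2.{u} (3 * m ^ 2) (6 / m) := by
  intro H _ _ _ A M ξ hA ht x hx xs xn x0 η hη
  obtain ⟨n, f, g, rfl⟩ := Submodule.mem_span_set'.1 hx
  letI : CommCStarAlgebra (Alg A) :=
    { algCStar with mul_comm := fun a b => Subtype.ext (hA.2.1 _ a.2 _ b.2) }
  choose E E1 E2 E3 using fun y : Alg M => ce H A M ξ hA ht y.1 y.2
  let v : FreeGroup (Fin n) →* unitary (Alg M) := FreeGroup.lift fun i =>
    ⟨⟨g i, (g i).2.1⟩, Subtype.ext (g i).2.2.1.1, Subtype.ext (g i).2.2.1.2⟩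
  have hi : ∀ s, (v s⁻¹).1.1 = star (v s).1.1 := fun s => by
    rw [map_inv]
    rfl
  have hv : ∀ s, Normalizes A M (v s).1.1 := fun s => by
    refine ⟨(v s).1.2, ⟨congrArg Subtype.val (v s).2.1, congrArg Subtype.val (v s).2.2⟩, ?_⟩
    induction s using FreeGroup.induction_on with
    | C1 => simp
    | of i => simpa [v] using (g i).2.2.2
    | inv_of i h =>
      rw [hi]
      exact ⟨fun a ha => by simpa using h.2 a ha, fun a ha => by simpa using h.1 a ha⟩
    | mul s t h1 h2 =>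
      rw [map_mul]
      exact ⟨fun a ha => by simpa [mul_assoc] using h1.1 _ (h2.1 a ha),
        fun a ha => by simpa [mul_assoc] using h2.2 _ (h1.2 a ha)⟩
  let C : Cart (Alg A) (Alg M) (FreeGroup (Fin n)) :=
    { j := StarSubalgebra.inclusion hA.1
      τ := ⟨⟨fun y => ⟪ξ, y.1 ξ⟫_ℂ, fun _ _ => inner_add_right _ _ _⟩,
        fun _ _ => inner_smul_right _ _ _⟩
      E := fun y => ⟨E y, E1 y⟩
      ρ := (unitary (Alg M)).subtype.comp v
      tr := fun y z => ht.2.1 _ y.2 _ z.2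
      st := fun y => (ContinuousLinearMap.adjoint_inner_right y.1 ξ ξ).trans
        (inner_conj_symm _ _).symm
      pos := fun y => R.re_nonneg (star_mul_self_nonneg y.1)
      faith := fun a h => Subtype.ext (ht.2.2 _ (hA.1 _ a.2) (by
        have := norm_sq_apply a.1 ξ
        rw [show ⟪ξ, (star a.1 * a.1) ξ⟫_ℂ = 0 from h] at this
        simpa using this))
      one := (inner_self_eq_norm_sq_to_K ξ).trans (by simp [ht.1])
      hE := fun y b => E3 y b.1 b.2
      nE := E2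
      ρs := fun s => Subtype.ext (hi s).symm
      nor := fun s a => ⟨⟨_, (hv s).2.2.2 a.1 a.2⟩, 
        Subtype.ext (congrArg (· * a.1 * (v s).1.1) (hi s).symm)⟩
      max := fun y h => ⟨⟨y.1, hA.2.2 _ y.2 fun a ha => congrArg Subtype.val (h ⟨a, ha⟩)⟩, rfl⟩ }
  obtain ⟨p, p1, p2, p3, w, w1, w2, w3, w4⟩ := C.core2 (x := ⟨_, R.nsp_le hx⟩) f FreeGroup.of
    (Subtype.ext (by simp [C, v])) (Subtype.ext xs) xn
    (C.E_eq fun b => by rw [map_zero, mul_zero, map_zero]; exact (x0 b.1 b.2).symm)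
    (fun t h => by
      obtain ⟨e, e1, e2, -, e3, e4⟩ := spec H A t.1 t.2 (congrArg Subtype.val h)
      exact ⟨⟨e, e1⟩, Subtype.ext e2.isIdempotentElem.eq, e3, e4⟩)
    (fun T η hη => by
      obtain ⟨k, e, e1, e2, e3, e4⟩ := sep H A M ξ hA ht (T.image fun s => (v s).1.1)
        (forall_mem_image.2 fun s _ => hv s) η hη
      refine ⟨k, fun i => ⟨e i, (e1 i).1⟩, fun i => ⟨Subtype.ext (e1 i).2.1,
        Subtype.ext (e1 i).2.2⟩, fun i l h => Subtype.ext (e2 i l h), le_of_eq_of_le ?_ e3,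
        fun i s hs => ⟨⟨_, e4 i _ (mem_image_of_mem _ hs)⟩, rfl⟩⟩
      simp [C]) hm hη
  refine ⟨fun c => (p c).1, ⟨fun c => ⟨(p c).2, congrArg Subtype.val (p1 c).1,
    congrArg Subtype.val (p1 c).2⟩, fun c d h => congrArg Subtype.val (p2 c d h), ?_⟩,
    w.1, w.2, w1, w2, ?_, ?_⟩
  · simpa using congrArg Subtype.val p3
  · have : (_ : H →L[ℂ] H) ≤ _ := w3
    rw [Algebra.algebraMap_eq_smul_one, ← Complex.coe_smul] at this
    simpa [C, R.pin] using this
  · have : (_ : H →L[ℂ] H) ≤ _ := w4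
    rw [Algebra.algebraMap_eq_smul_one, ← Complex.coe_smul] at this
    simpa [C, R.pin] using this

end Vale.Agent.P078
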