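import Vale.Agent.P078.A2

/-! The label extension of a field of fibres. -/

namespace Vale.Agent.P078

open Finset Polynomial Filter Topology
open scoped ComplexConjugate Pointwise Classical

theorem ex_sym {Ω : Type*} [TopologicalSpace Ω] [CompactSpace Ω] [T2Space Ω]
    [TotallyDisconnectedSpace Ω] {m : ℕ} [NeZero m] (τ : Fin m → Ω → Ω) (l : Ω → Fin m)
    (hc : ∀ t, Continuous (τ t)) (h0 : ∀ s t ω, τ s (τ t ω) = τ (s + t) ω)
    (hl : IsLocallyConstant l) (h1 : ∀ t ω, l (τ t ω) = l ω + t) {f : Fin m → Ω → ℝ}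
    (hf : ∀ c, Continuous (f c)) (h2 : ∀ t c ω, f (c + t) (τ t ω) = f c ω) {θ : ℝ} (hθ : 0 < θ) :
    ∃ col : Ω → Fin m, IsLocallyConstant col ∧ (∀ t ω, col (τ t ω) = col ω + t) ∧
      ∀ ω c, f (col ω) ω ≤ f c ω + θ := by
  obtain ⟨col, c1, c2⟩ := ex_col hf hθ
  refine ⟨fun ω => col (τ (-l ω) ω) + l ω, (IsLocallyConstant.iff_eventually_eq _).2 fun ω => ?_,
    fun t ω => ?_, fun ω c => ?_⟩
  · filter_upwards [hl.eventually_eq ω, (c1.comp_continuous (hc (-l ω))).eventually_eq ω]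
      with ω' e1 e2
    rw [e1]
    exact congrArg (· + l ω) e2
  · beta_reduce
    rw [h1, h0, neg_add_rev, add_right_comm, neg_add_cancel, zero_add, add_assoc]
  · have := c2 (τ (-l ω) ω) (c + -l ω)
    rwa [h2, ← add_neg_cancel_right (col _) (l ω), h2] at this

namespace Fib

variable {Ω Γ R : Type*} [TopologicalSpace Ω] [Group Γ] [MulAction Γ Ω] [Ring R]
  [StarRing R] [Algebra ℂ R] (F : Fib Ω Γ R) (m : ℕ)

/-- Points with labels on their orbit. -/
def Lab : Type _ := {p : Ω × (Γ → Fin m) // ∀ g h, F.rel p.1 g h → p.2 g = p.2 h}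

instance : TopologicalSpace (F.Lab m) := instTopologicalSpaceSubtype

instance : MulAction Γ (F.Lab m) where
  smul g p := ⟨(g • p.1.1, fun h => p.1.2 (h * g)), fun _ _ e => p.2 _ _ (rel_act.1 e)⟩
  one_smul p := Subtype.ext (Prod.ext (one_smul Γ p.1.1) (funext fun h => congrArg p.1.2 (mul_one h)))
  mul_smul g h p := Subtype.ext (Prod.ext (mul_smul g h p.1.1)
    (funext fun k => congrArg p.1.2 (mul_assoc k g h).symm))

instance [T2Space Ω] : T2Space (F.Lab m) := inferInstanceAs (T2Space (Subtype _))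

instance [TotallyDisconnectedSpace Ω] : TotallyDisconnectedSpace (F.Lab m) :=
  inferInstanceAs (TotallyDisconnectedSpace (Subtype _))

instance [CompactSpace Ω] : CompactSpace (F.Lab m) := by
  refine isCompact_iff_compactSpace.1 (IsClosed.isCompact (s := {p : Ω × (Γ → Fin m) |
    ∀ g h, F.rel p.1 g h → p.2 g = p.2 h}) (isOpen_compl_iff.1 (isOpen_iff_mem_nhds.2 ?_)))
  intro p hp
  simp only [Set.mem_compl_iff, Set.mem_setOf_eq, not_forall] at hp
  obtain ⟨g, h, e, hp⟩ := hp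
  have c : ∀ g, ∀ᶠ q in 𝓝 p, q.2 g = p.2 g := fun g =>
    ((IsLocallyConstant.iff_continuous _).2 ((continuous_apply g).comp continuous_snd)).eventually_eq p
  filter_upwards [continuous_fst.continuousAt.eventually (rel_ev (F := F) p.1 g h), c g, c h]
    with q e1 e2 e3 hq
  exact hp (by rw [← e2, ← e3]; exact hq g h (e1.2 e))

variable {F m}

theorem lab_fst : Continuous fun p : F.Lab m => p.1.1 := continuous_fst.comp continuous_subtype_val

theorem lab_snd (g : Γ) : Continuous fun p : F.Lab m => p.1.2 g :=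
  (continuous_apply g).comp (continuous_snd.comp continuous_subtype_val)

variable (F) in
/-- The section defined by a labelling. -/
def emb (l : Ω → Fin m) (ω : Ω) : F.Lab m :=
  ⟨(ω, fun g => l (g • ω)), fun _ _ e => congrArg l e.smul⟩

theorem emb_smul (l : Ω → Fin m) (g : Γ) (ω : Ω) : g • F.emb l ω = F.emb l (g • ω) :=
  Subtype.ext (Prod.ext rfl (funext fun h => congrArg l (mul_smul h g ω)))

theorem emb_cont {l : Ω → Fin m} (hl : IsLocallyConstant l) : Continuous (F.emb l) :=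
  (continuous_id.prodMk (continuous_pi fun g => hl.continuous.comp (F.cact g))).subtype_mk _

/-- The shift of all labels. -/
def sh [NeZero m] (t : Fin m) (p : F.Lab m) : F.Lab m :=
  ⟨(p.1.1, fun g => p.1.2 g + t), fun g h e => congrArg (· + t) (p.2 g h e)⟩

theorem sh_cont [NeZero m] (t : Fin m) : Continuous (sh (F := F) t) :=
  (lab_fst.prodMk (continuous_pi fun g =>
    (continuous_of_discreteTopology (f := (· + t))).comp (lab_snd g))).subtype_mk _

theorem sh_sh [NeZero m] (s t : Fin m) (p : F.Lab m) : sh s (sh t p) = sh (s + t) p :=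
  Subtype.ext (Prod.ext rfl (funext fun g => add_assoc (p.1.2 g) t s |>.trans
    (congrArg (p.1.2 g + ·) (add_comm t s))))

theorem sh_smul [NeZero m] (t : Fin m) (g : Γ) (p : F.Lab m) : g • sh t p = sh t (g • p) := rfl

theorem sh_emb [NeZero m] (t : Fin m) (l : Ω → Fin m) (ω : Ω) :
    F.emb (fun ω => l ω + t) ω = sh t (F.emb l ω) := rfl

variable (F m) in
/-- The field of fibres over the labelled points. -/
noncomputable def ext [NeZero m] : Fib (F.Lab m) Γ R where
  ρ := F.ρ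
  φ p := F.φ p.1.1
  I f := F.I fun ω => f (F.emb (fun _ => 0) ω)
  x := F.x
  B := F.B
  cf := F.cf
  enc := F.enc
  enc_inj := F.enc_inj
  ρs := F.ρs
  cact g := (((F.cact g).comp lab_fst).prodMk (continuous_pi fun h => lab_snd (h * g))).subtype_mk _
  cont y := (F.cont y).comp lab_fst
  one p := F.one _
  st p := F.st _
  act g p := F.act g _
  mul p g h := ⟨Subtype.ext (Prod.ext (F.mul _ g h).1 (funext fun k => (p.2 k (k * g) (by
    rwa [rel, inv_mul_cancel_left])).symm)), (F.mul _ g h).2⟩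
  I_add hf hg := F.I_add (hf.comp (emb_cont (.const _))) (hg.comp (emb_cont (.const _)))
  I_mono hf hg h := F.I_mono (hf.comp (emb_cont (.const _))) (hg.comp (emb_cont (.const _)))
    fun _ => h _
  I_smul c _ hf := F.I_smul c (hf.comp (emb_cont (.const _)))
  I_one := F.I_one
  I_act g f hf := by
    simp only [emb_smul]
    exact F.I_act g (hf.comp (emb_cont (.const _)))
  x_eq := F.x_eq
  x_sa := F.x_sa
  x_zero p := F.x_zero _
  x_bd p := F.x_bd _
  B_one := F.B_one
  B_inv := F.B_inv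

theorem ext_r [NeZero m] (p : F.Lab m) : (F.ext m).r p = F.r p.1.1 := rfl

theorem ext_X [NeZero m] (p : F.Lab m) : (F.ext m).X p = F.X p.1.1 := rfl

theorem ext_V [NeZero m] (p : F.Lab m) : (F.ext m).V p = F.V p.1.1 := rfl

theorem ext_sep [NeZero m] {K : ℕ} {e : Set Ω} (h : F.Sep K e) :
    (F.ext m).Sep K {p | p.1.1 ∈ e} := fun b hb b' hb' p h1 h2 => h b hb b' hb' p.1.1 h1 h2

theorem fin_dep [CompactSpace Ω] {α : Type*} {c : F.Lab m → α} (hc : IsLocallyConstant c) :
    ∃ T : Finset Γ, ∀ p q : F.Lab m, p.1.1 = q.1.1 → (∀ g ∈ T, p.1.2 g = q.1.2 g) → c p = c q := by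
  have k : ∀ x : F.Lab m, ∃ (U : Set Ω) (T : Set Γ) (t : Γ → Set (Fin m)), T.Finite ∧
      {p : F.Lab m | p.1.1 ∈ U ∧ p.1.2 ∈ T.pi t} ∈ 𝓝 x ∧
      ∀ p : F.Lab m, p.1.1 ∈ U → p.1.2 ∈ T.pi t → c p = c x := fun x => by
    obtain ⟨s, hs, h⟩ := (mem_nhds_subtype _ _ _).1 (hc.eventually_eq x)
    obtain ⟨U, hU, W, hW, h2⟩ := mem_nhds_prod_iff.1 hs
    rw [nhds_pi] at hW
    obtain ⟨T, hT, t, ht, h3⟩ := Filter.mem_pi.1 hW
    refine ⟨U, T, t, hT, inter_mem (lab_fst.continuousAt.preimage_mem_nhds hU)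
      ((continuous_snd.comp continuous_subtype_val).continuousAt.preimage_mem_nhds
        (set_pi_mem_nhds hT fun g _ => ht g)), fun p h4 h5 => h (h2 ⟨h4, h3 h5⟩)⟩
  choose U T t k1 k2 k3 using k
  obtain ⟨s, -, hs⟩ := isCompact_univ.elim_nhds_subcover _ fun x _ => k2 x
  refine ⟨s.biUnion fun x => (k1 x).toFinset, fun p q e1 e2 => ?_⟩
  obtain ⟨x, hx, h1, h2⟩ := Set.mem_iUnion₂.1 (hs (Set.mem_univ p))
  rw [k3 x p h1 h2, k3 x q (e1 ▸ h1) fun g hg => by
    rw [← e2 g (mem_biUnion.2 ⟨x, hx, (k1 x).mem_toFinset.2 hg⟩)]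
    exact h2 g hg]

end Fib

end Vale.Agent.P078
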