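import Vale.Agent.P078.Stm4
import Vale.Agent.P078.Cut
import Vale.Agent.P078.EB
import Vale.Agent.P078.WM

/-! A partition all of whose translates have small blocks. -/

namespace Vale.Agent.P078

open scoped InnerProductSpace ComplexConjugate ComplexOrder
open Vale.Agent.P104 Finset R

universe u

namespace Cut2

variable {H : Type u} [NormedAddCommGroup H] [InnerProductSpace ℂ H] [CompleteSpace H]
  {A M : VonNeumannAlgebra H} {ξ : H}

theorem conj_norm (ht : TraceVec M ξ) {u X : H →L[ℂ] H} (uM : u ∈ M)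
    (hu : u ∈ unitary (H →L[ℂ] H)) (hX : X ∈ M) :
    ‖(star u * X * u) ξ‖ ^ 2 = ‖X ξ‖ ^ 2 := by
  have e := Unitary.mul_star_self_of_mem hu
  rw [norm_sq_apply, norm_sq_apply]
  have : star (star u * X * u) * (star u * X * u) = star u * (star X * X * u) := by
    rw [star_mul, star_mul, star_star]
    calc star u * (star X * u) * (star u * X * u)
        = star u * (star X * (u * star u) * X * u) := by simp only [mul_assoc]
      _ = _ := by rw [e, mul_one]
  rw [this, ht.2.1 _ (star_mem uM) _ (mul_mem (mul_mem (star_mem hX) hX) uM), mul_assoc, e, mul_one]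

theorem superadd (ht : TraceVec M ξ) {ι : Type*} (S : Finset ι) (X : ι → H →L[ℂ] H)
    (hX : ∀ i, X i ∈ M) (h0 : ∀ i, 0 ≤ X i) :
    ∑ i ∈ S, ‖X i ξ‖ ^ 2 ≤ ‖(∑ i ∈ S, X i) ξ‖ ^ 2 := by
  classical
  induction S using Finset.induction_on with
  | empty => simp
  | insert i S hi ih =>
    rw [sum_insert hi, sum_insert hi, ContinuousLinearMap.add_apply, @norm_add_sq ℂ]
    have := EB.tr_nn ht (hX i) (sum_mem fun j (_ : j ∈ S) => hX j) (h0 i)
      (sum_nonneg fun j _ => h0 j)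
    have e : ⟪X i ξ, (∑ j ∈ S, X j) ξ⟫_ℂ = ⟪ξ, (X i * ∑ j ∈ S, X j) ξ⟫_ℂ := by
      conv_lhs => rw [← (h0 i).isSelfAdjoint.star_eq]
      rw [inner_star_left]
      rfl
    rw [e, RCLike.re_to_complex]
    linarith

theorem blocks (hA : IsMasa A M) (ht : TraceVec M ξ) {n N : ℕ} {g : Fin n → H →L[ℂ] H}
    {e : Fin N → H →L[ℂ] H} (hg : IsPartition A g) (he : IsPartition A e) (hr : CutA.Rf e g)
    {z : H →L[ℂ] H} (hz : z ∈ M) :
    ∑ i, ∑ j, ‖(e j * (star z * e i * z) * e j) ξ‖ ^ 2 ≤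
      ∑ l, ‖pin e (star z * g l * z) ξ‖ ^ 2 := by
  classical
  choose c hc using hr
  have eM : ∀ i, e i ∈ M := fun i => hA.1 _ (he.1 i).1
  have gM : ∀ l, g l ∈ M := fun l => hA.1 _ (hg.1 l).1
  have k : ∀ l, g l = ∑ i with c i = l, e i := fun l => by
    rw [← one_mul (g l), ← he.2.2, sum_mul, sum_filter]
    refine sum_congr rfl fun i _ => ?_
    split_ifs with h
    · rw [← h, hc]
    · rw [← hc i, mul_assoc, hg.2.1 _ _ h, mul_zero]
  have m : ∀ j, ∀ p ∈ M, e j * (star z * p * z) * e j ∈ M := fun j p hp =>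
    mul_mem (mul_mem (eM j) (mul_mem (mul_mem (star_mem hz) hp) hz)) (eM j)
  have n0 : ∀ j p, IsStarProjection p → 0 ≤ e j * (star z * p * z) * e j := fun j p hp =>
    (he.1 j).2.isSelfAdjoint.conjugate_nonneg (star_left_conjugate_nonneg hp.nonneg z)
  rw [sum_comm]
  calc ∑ j, ∑ i, ‖(e j * (star z * e i * z) * e j) ξ‖ ^ 2
      ≤ ∑ j, ∑ l, ‖(e j * (star z * g l * z) * e j) ξ‖ ^ 2 := by
        refine sum_le_sum fun j _ => ?_
        rw [← sum_fiberwise univ c]
        refine sum_le_sum fun l _ => ?_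
        refine (superadd ht _ _ (fun i => m j _ (eM i)) fun i => n0 j _ (he.1 i).2).trans_eq ?_
        rw [k l]
        simp only [mul_sum, sum_mul]
    _ ≤ _ := by
        rw [sum_comm]
        exact sum_le_sum fun l _ =>
          superadd ht _ _ (fun j => m j _ (gM l)) fun j => n0 j _ (hg.1 l).2

end Cut2

open Cut2 in
theorem cut2 : Cut2Stmt.{u} := by
  intro H _ _ _ A M ξ hA ht y hy hs ho d v hv ε hε
  have η0 : 0 < ε / ((d : ℝ) ^ 2 + 1) := by positivity
  have vn : ∀ s, v s ∈ nsp A M := fun s => Submodule.subset_span (hv s)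
  obtain ⟨z, hz⟩ : ∃ z : Fin d × Fin d → H →L[ℂ] H, z = fun t => v t.1 * y * star (v t.2) :=
    ⟨_, rfl⟩
  have zM : ∀ t, z t ∈ M := fun t => hz ▸ mul_mem (mul_mem (hv _).1 hy) (star_mem (hv _).1)
  have zn : ∀ t, NoAtom A ξ (z t) := fun t => wm H A M ξ hA ht _ (zM t) fun b hb => by
    have := ho _ (mul_mem (mul_mem (star_mem (vn t.1)) hb) (vn t.2))
    rw [← inner_star_right, ← ContinuousLinearMap.mul_apply] at this ⊢
    rw [← this, hz]
    have bM := nsp_le hb
    rw [← mul_assoc, ht.2.1 _ (mul_mem (star_mem bM) (mul_mem (hv _).1 hy)) _ (star_mem (hv _).1)]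
    simp only [star_mul, star_star, mul_assoc]
  choose n g hg N0 e0 he0 hr0 hs0 using fun t => CutA.one hA ht (zM t) (zn t) η0
  have gM : ∀ t l, star (z t) * g t l * z t ∈ M := fun t l =>
    mul_mem (mul_mem (star_mem (zM t)) (hA.1 _ ((hg t).1 l).1)) (zM t)
  obtain ⟨N, e, he, h⟩ := CutA.all hA (fun t _ e => CutA.Rf e (g t) ∧
      ∑ l, ‖pin e (star (z t) * g t l * z t) ξ‖ ^ 2 ≤ ε / ((d : ℝ) ^ 2 + 1))
    (fun t => ⟨_, _, he0 t, hr0 t, hs0 t⟩)
    (fun t _ e _ e' he he' hr h => ⟨hr.trans h.1, (sum_le_sum fun l _ => by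
      rw [← CutA.pin_rf hA he' he hr]
      exact pow_le_pow_left₀ (norm_nonneg _)
        (CutA.pin_le hA ht he' (pin_mem hA he (gM t l))) 2).trans h.2⟩)
  refine ⟨N, e, ⟨fun i => (he.1 i).1, fun i => (he.1 i).2, he.2.1, he.2.2⟩, ?_⟩
  have k : ∀ s s', ∑ i, ∑ j, Psi ξ y (star (v s) * e i * v s) (star (v s') * e j * v s') ≤
      ε / ((d : ℝ) ^ 2 + 1) := fun s s' => by
    refine le_trans (le_of_eq ?_) ((blocks hA ht (hg (s, s')) he (h (s, s')).1 (zM _)).trans
      (h (s, s')).2)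
    refine sum_congr rfl fun i _ => sum_congr rfl fun j _ => ?_
    have eM : ∀ i, e i ∈ M := fun i => hA.1 _ (he.1 i).1
    rw [← conj_norm ht (hv s').1 (hv s').2.1 (mul_mem (mul_mem (eM j)
      (mul_mem (mul_mem (star_mem (zM _)) (eM i)) (zM _))) (eM j)), Psi, hz]
    simp only [star_mul, star_star, hs.star_eq, mul_assoc]
  calc _ ≤ ∑ _s : Fin d, ∑ _s' : Fin d, ε / ((d : ℝ) ^ 2 + 1) :=
        sum_le_sum fun s _ => sum_le_sum fun s' _ => k s s'
    _ ≤ ε := by
        simp only [sum_const, card_univ, Fintype.card_fin, nsmul_eq_mul]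
        rw [← mul_assoc, ← mul_div_assoc, div_le_iff₀ (by positivity)]
        nlinarith

end Vale.Agent.P078
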