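import Vale.Agent.P078.Defs

/-! Definitions for the non-tracial paving theorems. -/

namespace Vale.Agent.P078

open scoped InnerProductSpace

variable {H : Type*} [NormedAddCommGroup H] [InnerProductSpace ℂ H] [CompleteSpace H]

/-- `ξ` is cyclic and separating for `M`. -/
def StdVec (M : VonNeumannAlgebra H) (ξ : H) : Prop :=
  Dense {η | ∃ x ∈ M, x ξ = η} ∧ ∀ x ∈ M, x ξ = 0 → x = 0

/-- No nonzero vector functional of `M` has `A` in its centralizer. -/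
def NoExp (A M : VonNeumannAlgebra H) : Prop :=
  ∀ ζ : H, (∀ a ∈ A, ∀ x ∈ M, ⟪ζ, (a * x) ζ⟫_ℂ = ⟪ζ, (x * a) ζ⟫_ℂ) → ζ = 0

/-- `M` is standard and semifinite: there are projections `g` strongly close to `1` whose corner
`g M g` lies in the centralizer of a faithful normal vector functional. -/
def StdSemifinite (M : VonNeumannAlgebra H) : Prop :=
  ∀ (F : Finset H) (δ : ℝ), 0 < δ → ∃ ξ, StdVec M ξ ∧ ∃ g ∈ M, IsStarProjection g ∧
    (∀ η ∈ F, ‖(1 - g) η‖ < δ) ∧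
    ∀ x ∈ M, ∀ y ∈ M, ⟪ξ, (g * x * g * y) ξ⟫_ℂ = ⟪ξ, (y * (g * x * g)) ξ⟫_ℂ

end Vale.Agent.P078
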