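import Vale.Agent.P078.Defs

/-! Normalizers preserving a normal state, in an arbitrary representation. -/

namespace Vale.Agent.P078

open scoped InnerProductSpace

variable {H : Type*} [NormedAddCommGroup H] [InnerProductSpace ℂ H] [CompleteSpace H]

/-- There is a faithful normal positive functional `x ↦ ∑ₙ ⟪tₙ, x tₙ⟫` of `M` whose restriction to
`A` is invariant under the normalizer of `A`. -/
def InvNormal (A M : VonNeumannAlgebra H) : Prop :=
  ∃ t : ℕ → H, (Summable fun n => ‖t n‖ ^ 2) ∧ (∀ x ∈ M, (∀ n, x (t n) = 0) → x = 0) ∧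
    ∀ u, Normalizes A M u → ∀ a ∈ A,
      ∑' n, ⟪t n, (star u * a * u) (t n)⟫_ℂ = ∑' n, ⟪t n, a (t n)⟫_ℂ

end Vale.Agent.P078
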