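import Vale.Agent.P078.Defs

/-! Normalizers preserving a faithful normal state. -/

namespace Vale.Agent.P078

open scoped InnerProductSpace

variable {H : Type*} [NormedAddCommGroup H] [InnerProductSpace ℂ H] [CompleteSpace H]

/-- The normalizer of `A` in `M` preserves a faithful vector functional of `A`. -/
def InvState (A M : VonNeumannAlgebra H) : Prop :=
  ∃ η : H, (∀ a ∈ A, a η = 0 → a = 0) ∧
    ∀ u, Normalizes A M u → ∀ a ∈ A, ⟪η, (star u * a * u) η⟫_ℂ = ⟪η, a η⟫_ℂ

end Vale.Agent.P078
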