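import Vale.Agent.P078.Defs

/-! Representation independent hypotheses for the paving theorem. -/

namespace Vale.Agent.P078

open scoped InnerProductSpace

variable {H : Type*} [NormedAddCommGroup H] [InnerProductSpace ℂ H] [CompleteSpace H]

/-- `M` has a countable separating family of vectors (`M` is σ-finite). -/
def SigmaFinite (M : VonNeumannAlgebra H) : Prop :=
  ∃ s : ℕ → H, ∀ x ∈ M, (∀ n, x (s n) = 0) → x = 0

/-- `Tr x = ∑ₙ ⟪ζₙ, x ζₙ⟫` is a faithful semifinite trace on `M`. -/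
def IsTraceFamily (M : VonNeumannAlgebra H) (ζ : ℕ → H) : Prop :=
  (∀ x ∈ M, ∀ c : ℝ, HasSum (fun n => ‖x (ζ n)‖ ^ 2) c →
    HasSum (fun n => ‖star x (ζ n)‖ ^ 2) c) ∧
  (∀ x ∈ M, (∀ n, x (ζ n) = 0) → x = 0) ∧
  ∀ p ∈ M, IsStarProjection p → p ≠ 0 → ∃ q ∈ M, IsStarProjection q ∧ q ≠ 0 ∧ p * q = q ∧
    Summable fun n => ‖q (ζ n)‖ ^ 2

/-- No nonzero positive normal functional `x ↦ ∑ₙ ⟪tₙ, x tₙ⟫` has `A` in its centralizer. -/
def NoCentralState (A M : VonNeumannAlgebra H) : Prop :=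
  ∀ t : ℕ → H, (Summable fun n => ‖t n‖ ^ 2) →
    (∀ a ∈ A, ∀ x ∈ M, ∑' n, ⟪t n, (a * x) (t n)⟫_ℂ = ∑' n, ⟪t n, (x * a) (t n)⟫_ℂ) →
    ∀ n, t n = 0

end Vale.Agent.P078
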