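import Vale.Agent.P078.Stm2

/-! Strong-operator paving for all maximal abelian subalgebras of tracial algebras. -/

namespace Vale.Agent.P078

open scoped InnerProductSpace ComplexConjugate ComplexOrder
open Vale.Agent.P104 Vale.Agent.P082 Finset ContinuousLinearMap

universe u

variable {H : Type u} [NormedAddCommGroup H] [InnerProductSpace ℂ H] [CompleteSpace H]
  {A M : VonNeumannAlgebra H} {ξ : H}

namespace F2

open R

/-- A two-sided bound up to a positive element of small trace. -/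
def Tb (M : VonNeumannAlgebra H) (ξ : H) (T : H →L[ℂ] H) (c η : ℝ) : Prop :=
  ∃ W ∈ M, 0 ≤ W ∧ (⟪ξ, W ξ⟫_ℂ).re ≤ η ∧ T ≤ (c : ℂ) • 1 + W ∧ -T ≤ (c : ℂ) • 1 + W

variable {T T' : H →L[ℂ] H} {c c' η η' : ℝ} {r : ℕ} {p : Fin r → H →L[ℂ] H}

theorem Tb.add (h : Tb M ξ T c η) (h' : Tb M ξ T' c' η') :
    Tb M ξ (T + T') (c + c') (η + η') := by
  obtain ⟨W, a1, a2, a3, a4, a5⟩ := h
  obtain ⟨W', b1, b2, b3, b4, b5⟩ := h'
  have e : ((c : ℂ) • (1 : H →L[ℂ] H) + W) + ((c' : ℂ) • 1 + W') =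
      ((c + c' : ℝ) : ℂ) • 1 + (W + W') := by
    push_cast
    module
  refine ⟨W + W', add_mem a1 b1, add_nonneg a2 b2, ?_, e ▸ add_le_add a4 b4, ?_⟩
  · rw [add_apply, inner_add_right, Complex.add_re]
    linarith
  · rw [neg_add, ← e]
    exact add_le_add a5 b5

theorem pin_one (h : IsPartition A p) (t : ℂ) : pin p (t • 1) = t • 1 :=
  pin_fix h fun i => by simp

theorem Tb.pin (hA : IsMasa A M) (ht : TraceVec M ξ) (pp : IsPartition A p) (h : Tb M ξ T c η) :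
    Tb M ξ (pin p T) c η := by
  obtain ⟨W, a1, a2, a3, a4, a5⟩ := h
  refine ⟨R.pin p W, pin_mem hA pp a1, pin_nonneg pp a2, by rwa [pin_tr hA ht pp a1], ?_, ?_⟩
  · rw [← pin_one pp, ← pin_add]
    exact pin_mono pp a4
  · rw [← pin_one pp, ← pin_add, ← pin_neg]
    exact pin_mono pp a5

theorem Tb.sq {d : H →L[ℂ] H} (hd : d ∈ M) (ds : IsSelfAdjoint d) (hc : 0 < c)
    (h : c⁻¹ * ‖d ξ‖ ^ 2 ≤ η) : Tb M ξ d c η := by
  refine ⟨((c⁻¹ : ℝ) : ℂ) • (star d * d), vn_smul_mem _ (mul_mem (star_mem hd) hd),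
    smul_nn (inv_nonneg.2 hc.le) (star_mul_self_nonneg d), ?_, sq_le ds hc, ?_⟩
  · rwa [smul_apply, inner_smul_right, Complex.re_ofReal_mul, ← norm_sq_apply]
  · simpa only [star_neg, neg_mul_neg] using sq_le ds.neg hc

theorem Tb.cut (ht : TraceVec M ξ) (hs : IsSelfAdjoint T) (c0 : 0 ≤ c) (hη : 0 < η) {θ : ℝ}
    (hθ : 0 < θ) (h : Tb M ξ T c (η * θ ^ 2)) :
    ∃ q ∈ M, IsStarProjection q ∧ ‖(1 - q) ξ‖ ≤ θ ∧ ‖q * T * q‖ ≤ c + η := by
  obtain ⟨W, WM, W0, Wt, a4, a5⟩ := h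
  obtain ⟨e, eM, e1, -, e2, e3⟩ := spec H M (W - (η : ℂ) • 1)
    (sub_mem WM (vn_smul_mem _ (one_mem _)))
    (W0.isSelfAdjoint.sub ((show IsSelfAdjoint (η : ℂ) from Complex.conj_ofReal _).smul
      (.one _)))
  obtain ⟨q, hq⟩ : ∃ q, q = 1 - e := ⟨_, rfl⟩
  have qM : q ∈ M := hq ▸ sub_mem (one_mem _) eM
  have q1 : IsStarProjection q := hq ▸ e1.one_sub
  rw [← hq] at e3
  have c1 : 0 ≤ c + η := by positivity
  have key : ∀ z, z ≤ (c : ℂ) • 1 + W → q * z * q ≤ ((c + η : ℝ) : ℂ) • 1 := fun z hz => by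
    refine (q1.isSelfAdjoint.conjugate_le_conjugate hz).trans ?_
    have : q * ((c : ℂ) • 1 + W) * q = ((c + η : ℝ) : ℂ) • 1 - ((c + η : ℝ) : ℂ) • (1 - q) +
          q * (W - (η : ℂ) • 1) * q := by
      simp only [mul_add, add_mul, mul_sub, sub_mul, mul_smul_comm, smul_mul_assoc, mul_one,
        q1.isIdempotentElem.eq]
      push_cast
      module
    rw [this]
    exact (add_le_of_nonpos_right e3).trans (sub_le_self _ (smul_nn c1 q1.one_sub.nonneg))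
  refine ⟨q, qM, q1, ?_, norm_le_of_le (hs.conjugate_self q1.isSelfAdjoint) c1 (key _ a4) ?_⟩
  · rw [hq, sub_sub_cancel]
    have t1 := re_nonneg (ξ := ξ) e2
    have t2 := re_nonneg (ξ := ξ) (q1.isSelfAdjoint.conjugate_nonneg W0)
    have t3 : ⟪ξ, (e * W * e) ξ⟫_ℂ + ⟪ξ, (q * W * q) ξ⟫_ℂ = ⟪ξ, W ξ⟫_ℂ := by
      rw [ht.2.1 _ (mul_mem eM WM) _ eM, ht.2.1 _ (mul_mem qM WM) _ qM, ← mul_assoc, ← mul_assoc,
        e1.isIdempotentElem.eq, q1.isIdempotentElem.eq, ← inner_add_right, ← add_apply, ← add_mul,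
        hq, add_sub_cancel, one_mul]
    have t4 := congrArg Complex.re t3
    have t5 := norm_sq_apply e ξ
    rw [e1.isSelfAdjoint.star_eq] at t5
    rw [mul_sub, sub_mul, mul_smul_comm, smul_mul_assoc, mul_one, sub_apply, inner_sub_right,
      smul_apply, inner_smul_right, Complex.sub_re, Complex.re_ofReal_mul, ← t5] at t1
    rw [Complex.add_re] at t4
    exact le_of_sq_le hθ.le (le_of_mul_le_mul_left (by linarith) hη)
  · rw [← neg_mul, ← mul_neg]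
    exact key _ a5

theorem two (hc : CoreStmt.{u}) (hA : IsMasa A M) (ht : TraceVec M ξ) {m : ℕ} (hm : 2 ≤ m)
    {y : H →L[ℂ] H} (y1 : y ∈ nsp A M) (y2 : IsSelfAdjoint y) (y3 : ‖y‖ ≤ 1)
    (y4 : ∀ b ∈ A, ⟪ξ, (b * y) ξ⟫_ℂ = 0) (p0 : 0 < η) :
    ∃ P : Fin (m ^ 2 * m ^ 2) → H →L[ℂ] H, IsPartition A P ∧
      Tb M ξ (pin P y) (5 / m) (η + η) := by
  obtain ⟨p, pp, w, wM, w0, w1, w2⟩ := hc H A M ξ hA ht m hm y y1 y2 y3 y4 _ p0
  obtain ⟨p', pp', w', wM', w0', w1', w2'⟩ := hc H A M ξ hA ht m hm (-y) (neg_mem y1) y2.neg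
    (by rwa [norm_neg]) (fun b hb => by rw [mul_neg, neg_apply, inner_neg_right, y4 b hb, neg_zero])
    _ p0
  obtain ⟨P, PP, P1, P2⟩ := prod_part hA pp pp'
  have b1 : pin P y ≤ ((5 / m : ℝ) : ℂ) • 1 + pin p' w := by
    rw [P1, ← pin_one pp', ← pin_add]
    exact pin_mono pp' w2
  have b2 : -pin P y ≤ ((5 / m : ℝ) : ℂ) • 1 + pin p w' := by
    rw [← pin_neg, P2, ← pin_one pp, ← pin_add]
    exact pin_mono pp w2'
  have v1 := pin_nonneg pp' w0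
  have v2 := pin_nonneg pp w0'
  refine ⟨P, PP, pin p' w + pin p w', add_mem (pin_mem hA pp' wM) (pin_mem hA pp wM'),
    add_nonneg v1 v2, ?_, b1.trans ?_, b2.trans ?_⟩
  · rw [add_apply, inner_add_right, pin_tr hA ht pp' wM, pin_tr hA ht pp wM', Complex.add_re]
    linarith
  · rw [← add_assoc]
    exact le_add_of_nonneg_right v2
  · rw [add_comm (pin p' w), ← add_assoc]
    exact le_add_of_nonneg_right v1

theorem one (hc : CoreStmt.{u}) (hW : WMStmt.{u}) (hE : EBStmt.{u}) (hG : WPaveStmt.{u})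
    (hA : IsMasa A M) (ht : TraceVec M ξ) {m : ℕ} (hm : 2 ≤ m) (hη : 0 < η)
    {x : H →L[ℂ] H} (hx : x ∈ M) (hs : IsSelfAdjoint x) (hn : ‖x‖ ≤ 1) {θ : ℝ} (hθ : 0 < θ) :
    ∃ p : Fin (m ^ 2 * m ^ 2 * m ^ 2) → H →L[ℂ] H, IsPartition A p ∧ ∃ a ∈ A, IsSelfAdjoint a ∧
      ‖a‖ ≤ 1 ∧ ∃ q ∈ M, IsStarProjection q ∧ ‖(1 - q) ξ‖ ≤ θ ∧
        ‖q * (pin p x - a) * q‖ ≤ 20 / m + 2 * η := by
  obtain ⟨x0, x1, Y, YM, x2, Y2, x3, Y3, Y4, x4⟩ := hE H A M ξ hA ht x hx hs hn _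
    (show 0 < η * θ / 2 by positivity)
  have xM := nsp_le x1
  obtain ⟨a0, a1, a2, a3⟩ := ce H A M ξ hA ht x0 xM
  obtain ⟨a, ha⟩ : ∃ a, a = (2⁻¹ : ℂ) • (a0 + star a0) := ⟨_, rfl⟩
  have aA : a ∈ A := ha ▸ vn_smul_mem _ (add_mem a1 (star_mem a1))
  have as : IsSelfAdjoint a := ha ▸ half_sa a0
  have an : ‖a‖ ≤ 1 := ha ▸ (half_norm a0).trans (a2.trans x3)
  have at' : ∀ b ∈ A, ⟪ξ, (b * a) ξ⟫_ℂ = ⟪ξ, (b * x0) ξ⟫_ℂ := fun b hb => by
    have e : ⟪ξ, (b * star a0) ξ⟫_ℂ = ⟪ξ, (b * x0) ξ⟫_ℂ := by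
      have := congrArg conj (a3 _ (star_mem hb))
      rw [inner_conj_symm, inner_conj_symm, ← inner_star_right, ← inner_star_right, star_mul,
        star_mul, star_star, x2.star_eq] at this
      rw [hA.2.1 _ hb _ (star_mem a1), this, ht.2.1 _ xM _ (hA.1 _ hb)]
    rw [ha, mul_smul_comm, mul_add, smul_apply, add_apply, inner_smul_right, inner_add_right, e,
      a3 b hb]
    ring
  obtain ⟨y, hy⟩ : ∃ y, y = (2⁻¹ : ℂ) • (x0 - a) := ⟨_, rfl⟩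
  have y1 : y ∈ nsp A M := hy ▸ (nsp A M).smul_mem (sub_mem x1 (le_nsp hA aA)) _
  have y2 : IsSelfAdjoint y := by
    rw [hy]
    simp [IsSelfAdjoint, x2.star_eq, as.star_eq]
  have y3 : ‖y‖ ≤ 1 := by
    rw [hy, norm_smul, norm_inv, Complex.norm_ofNat]
    linarith [norm_sub_le x0 a]
  have y4 : ∀ b ∈ A, ⟪ξ, (b * y) ξ⟫_ℂ = 0 := fun b hb => by
    rw [hy, mul_smul_comm, mul_sub, smul_apply, sub_apply, inner_smul_right, inner_sub_right,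
      at' b hb, sub_self, mul_zero]
  obtain ⟨z, hz⟩ : ∃ z, z = (2⁻¹ : ℂ) • Y := ⟨_, rfl⟩
  have z1 : z ∈ M := hz ▸ vn_smul_mem _ YM
  have z2 : IsSelfAdjoint z := by
    rw [hz]
    simp [IsSelfAdjoint, Y2.star_eq]
  have z3 : ‖z‖ ≤ 1 := by
    rw [hz, norm_smul, norm_inv, Complex.norm_ofNat]
    linarith
  have p0 : 0 < η * θ ^ 2 / 8 := by positivity
  obtain ⟨p, pp, b1⟩ := two hc hA ht hm y1 y2 y3 y4 p0
  obtain ⟨p', pp', b2⟩ := hG H A M ξ hA ht m hm z z1 z2 z3 (hW H A M ξ hA ht z z1 fun b hb => by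
    rw [hz, smul_apply, inner_smul_right, Y4 b hb, mul_zero]) _ p0
  obtain ⟨P, PP, P1, P2⟩ := prod_part hA pp pp'
  obtain ⟨d, hd⟩ : ∃ d, d = x - x0 - Y := ⟨_, rfl⟩
  have dM : d ∈ M := hd ▸ sub_mem (sub_mem hx xM) YM
  have ds : IsSelfAdjoint d := hd ▸ (hs.sub x2).sub Y2
  have e0 : pin P x - a = pin P y + pin P y + (pin P z + pin P z) + pin P d := by
    have : x = y + y + (z + z) + d + a := by rw [hy, hz, hd]; module
    rw [this, pin_add, pin_add, pin_add, pin_add, pin_add,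
      pin_fix PP fun i => hA.2.1 _ (PP.1 i).1 _ aA, add_sub_cancel_right]
  have c1 : Tb M ξ (pin P y) _ _ := P1 y ▸ b1.pin hA ht pp'
  have c2 : Tb M ξ (pin P z) _ _ := P2 z ▸ Tb.pin hA ht pp b2
  have c3 : Tb M ξ (pin P d) η (η * θ ^ 2 / 4) := (Tb.sq dM ds hη (by
    have : ‖d ξ‖ ^ 2 ≤ (η * θ / 2) ^ 2 := by
      rw [hd]
      exact pow_le_pow_left₀ (norm_nonneg _) x4 2
    rw [inv_mul_le_iff₀ hη]
    nlinarith)).pin hA ht PP
  have c4 := ((c1.add c1).add (c2.add c2)).add c3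
  rw [← e0, show ∀ t : ℝ, t / 8 + t / 8 + (t / 8 + t / 8) + (t / 8 + t / 8) + t / 4 = t from
    fun t => by ring] at c4
  have s1 : IsSelfAdjoint (pin P x) := isSelfAdjoint_sum _ fun i _ =>
    hs.conjugate_self (PP.1 i).2.isSelfAdjoint
  obtain ⟨q, qM, q1, q2, q3⟩ := c4.cut ht (s1.sub as) (by positivity) hη hθ
  exact ⟨P, PP, a, aA, as, an, q, qM, q1, q2, q3.trans (le_of_eq (by ring))⟩

end F2

theorem fin2 (hc : CoreStmt.{u}) (hW : WMStmt.{u}) (hE : EBStmt.{u}) (hG : WPaveStmt.{u}) :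
    Final2Stmt.{u} := by
  refine ⟨22 ^ 6, fun H _ _ _ A M ξ hA ht ε e0 e1 => ?_⟩
  obtain ⟨m, hm⟩ : ∃ m, m = ⌈21 / ε⌉₊ := ⟨_, rfl⟩
  have m1 : 21 / ε ≤ m := hm ▸ Nat.le_ceil _
  have m2 : (m : ℝ) < 21 / ε + 1 := hm ▸ Nat.ceil_lt_add_one (by positivity)
  have m3 : 21 ≤ 21 / ε := by rw [le_div_iff₀ e0]; linarith
  have m4 : 2 ≤ m := by exact_mod_cast (show (2 : ℝ) ≤ m by linarith)
  have m5 : (m : ℝ) ≤ 22 / ε := by
    have : 1 ≤ 1 / ε := by rw [le_div_iff₀ e0]; linarith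
    rw [show 22 / ε = 21 / ε + 1 / ε by ring]
    linarith
  have m6 : 20 / (m : ℝ) + 2 * (ε / 42) ≤ ε := by
    have : 20 / (m : ℝ) ≤ 20 / 21 * ε := by
      rw [div_le_iff₀ (by linarith)]
      rw [div_le_iff₀ e0] at m1
      linarith
    linarith
  refine ⟨m ^ 2 * m ^ 2 * m ^ 2, Nat.one_le_iff_ne_zero.2 (by positivity), ?_,
    fun x hx hs F δ d0 => ?_⟩
  · rw [← div_pow]
    push_cast
    rw [← pow_add, ← pow_add]
    exact pow_le_pow_left₀ (by positivity) m5 6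
  obtain ⟨θ, t0, hθ⟩ := R.sep_fin ht F d0
  obtain ⟨p, pp, a, aA, as, an, q, qM, q1, q2, q3⟩ := F2.one hc hW hE hG hA ht m4
    (show 0 < ε / 42 by positivity) (vn_smul_mem ((‖x‖⁻¹ : ℝ) : ℂ) hx)
    ((show IsSelfAdjoint ((‖x‖⁻¹ : ℝ) : ℂ) from Complex.conj_ofReal _).smul hs) (by
      rw [norm_smul, Complex.norm_real, norm_inv, norm_norm]
      exact inv_mul_le_one_of_le₀ le_rfl (norm_nonneg _)) t0
  refine ⟨p, pp, (‖x‖ : ℂ) • a, vn_smul_mem _ aA,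
    (show IsSelfAdjoint (‖x‖ : ℂ) from Complex.conj_ofReal _).smul as, ?_, q, qM, q1,
    hθ _ (sub_mem (one_mem _) qM) q1.one_sub.norm_le q2, ?_⟩
  · rw [norm_smul, Complex.norm_real, norm_norm]
    exact mul_le_of_le_one_right (norm_nonneg _) an
  · have e : x = (‖x‖ : ℂ) • ((‖x‖⁻¹ : ℝ) : ℂ) • x := by
      rcases eq_or_ne x 0 with rfl | x0
      · simp
      · rw [smul_smul, ← Complex.ofReal_mul, mul_inv_cancel₀ (norm_ne_zero_iff.2 x0)]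
        simp
    change ‖q * (R.pin p x - _) * q‖ ≤ _
    nth_rw 1 [e]
    rw [R.pin_smul, ← smul_sub, mul_smul_comm, smul_mul_assoc, norm_smul, Complex.norm_real,
      norm_norm, mul_comm]
    exact mul_le_mul_of_nonneg_right (q3.trans m6) (norm_nonneg _)

end Vale.Agent.P078
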