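import Vale.Agent.P078.Stm2

/-! Two-sided paving of elements without atoms. -/

namespace Vale.Agent.P078

open scoped InnerProductSpace ComplexConjugate ComplexOrder
open Vale.Agent.P104 Vale.Agent.P082 ContinuousLinearMap Filter Topology Finset R

universe u

namespace WP

variable {H : Type u} [NormedAddCommGroup H] [InnerProductSpace ℂ H] [CompleteSpace H]
  {A M : VonNeumannAlgebra H} {ξ : H}

theorem le_pow {T : H →L[ℂ] H} (hT : IsSelfAdjoint T) (k : ℕ) : T ≤ 1 + T ^ (2 * (k + 1)) := by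
  have h := cfc_mono (a := T) (f := fun t : ℝ => t) (g := fun t : ℝ => 1 + t ^ (2 * (k + 1)))
    (fun t _ => by
      rcases le_total t 1 with h | h
      · exact h.trans (le_add_of_nonneg_right (Even.pow_nonneg (even_two_mul _) t))
      · linarith [le_self_pow₀ h (show 2 * (k + 1) ≠ 0 by omega)])
  rwa [cfc_id' ℝ T, cfc_const_add _ _ _, cfc_pow_id T, map_one] at h

theorem part {N r : ℕ} {e : Fin N → H →L[ℂ] H} (he : IsPartition A e) (ω : Fin N → Fin r) :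
    IsPartition A fun k => ∑ a with ω a = k, e a := by
  refine ⟨fun k => ⟨sum_mem fun a _ => (he.1 a).1, ?_,
    isSelfAdjoint_sum _ fun a _ => (he.1 a).2.isSelfAdjoint⟩, fun k l h => ?_,
    by rw [sum_fiberwise, he.2.2]⟩
  · rw [IsIdempotentElem, sum_mul_sum]
    refine sum_congr rfl fun a ha => ?_
    rw [sum_eq_single_of_mem a ha fun b _ hb => he.2.1 a b hb.symm]
    exact (he.1 a).2.isIdempotentElem.eq
  · rw [sum_mul_sum]
    refine sum_eq_zero fun a ha => sum_eq_zero fun b hb => he.2.1 a b fun e => h ?_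
    rw [← (mem_filter.1 ha).2, ← (mem_filter.1 hb).2, e]

end WP

theorem wpave (hB : BlockStmt.{u}) (hL : CutStmt.{u}) : WPaveStmt.{u} := by
  intro H _ _ _ A M ξ hA ht m hm y hy ys y1 hat η hη
  have m0 : (2 : ℝ) ≤ m := by exact_mod_cast hm
  obtain ⟨c, hc⟩ : ∃ c : ℝ, c = 4 / m := ⟨_, rfl⟩
  have c0 : 0 < c := by rw [hc]; positivity
  obtain ⟨k, hk⟩ := exists_pow_lt_of_lt_one (show 0 < η / 2 / c by positivity)
    (show (1 / 2 : ℝ) < 1 by norm_num)
  obtain ⟨C, hC⟩ := hB (m ^ 2) (2 * (k + 1)) (by nlinarith)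
  obtain ⟨ε, h1, ε0⟩ := (Eventually.and (Eventually.filter_mono (nhdsWithin_le_nhds (s := Set.Ioi 0))
    (((show Continuous fun ε : ℝ => c * (c⁻¹ ^ (2 * (k + 1)) * (C * ε)) + m * (2 * ε) ^ 2 by
      fun_prop).continuousAt (x := 0)).eventually (gt_mem_nhds (a := η / 2) (by simpa using hη))))
    self_mem_nhdsWithin).exists
  obtain ⟨N, e, he, q, qM, q1, q2, q3⟩ := hL H A M ξ hA ht y hy hat ε ε0
  have qs := q1.isSelfAdjoint
  have qn := q1.norm_le
  have zs : IsSelfAdjoint (q * y * q) := ys.conjugate_self qs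
  have zM : q * y * q ∈ M := mul_mem (mul_mem qM hy) qM
  have n1 : ‖q * y‖ ≤ 1 := (norm_mul_le _ _).trans (mul_le_one₀ qn (norm_nonneg _) y1)
  obtain ⟨ω, hω⟩ := hC H N e (fun a => (he.1 a).2) he.2.1 he.2.2 (q * y * q) zs
    ((norm_mul_le _ _).trans (mul_le_one₀ n1 (norm_nonneg _) qn)) ε q3 ξ ht.1
  have PP := WP.part he ω
  set p := fun k => ∑ a with ω a = k, e a
  obtain ⟨d, hd⟩ : ∃ d, d = y - q * y * q := ⟨_, rfl⟩
  have dM : star d * d ∈ M := hd ▸ mul_mem (star_mem (sub_mem hy zM)) (sub_mem hy zM)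
  have ds : IsSelfAdjoint d := hd ▸ ys.sub zs
  have dn : ‖d ξ‖ ≤ 2 * ε := by
    have e1 : d = star (y * (1 - q)) + q * y * (1 - q) := by
      rw [hd, star_mul, ys.star_eq, q1.one_sub.isSelfAdjoint.star_eq]
      noncomm_ring
    have e2 := P096.TV.star_eq (Q := M) ht.2.1 (mul_mem hy (sub_mem (one_mem _) qM))
    have e3 := le_of_opNorm_le _ y1 ((1 - q) ξ)
    have e4 := le_of_opNorm_le _ n1 ((1 - q) ξ)
    rw [e1, add_apply]
    refine (norm_add_le _ _).trans ?_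
    rw [e2, mul_apply_eq_comp, mul_apply_eq_comp]
    linarith
  have one : ∀ c : ℂ, pin p (c • 1) = c • 1 := fun c => pin_fix PP fun i => by simp
  have γ0 : (0 : ℝ) < 1 / m := by positivity
  obtain ⟨D, hD⟩ : ∃ D, D = (((1 / m : ℝ)⁻¹ : ℝ) : ℂ) • pin p (star d * d) := ⟨_, rfl⟩
  have D0 : 0 ≤ D := hD ▸ smul_nn (inv_nonneg.2 γ0.le) (pin_nonneg PP (star_mul_self_nonneg d))
  have b3 : pin p d ≤ ((1 / m : ℝ) : ℂ) • 1 + D := by
    rw [hD, ← pin_smul, ← one, ← pin_add]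
    exact pin_mono PP (sq_le ds γ0)
  have b4 : -pin p d ≤ ((1 / m : ℝ) : ℂ) • 1 + D := by
    rw [hD, ← pin_smul, ← one, ← pin_add, ← pin_neg]
    simpa only [star_neg, neg_mul_neg] using pin_mono PP (sq_le ds.neg γ0)
  obtain ⟨S, hS⟩ : ∃ S, S = pin p (q * y * q) := ⟨_, rfl⟩
  rw [← hS] at hω
  have Ss : IsSelfAdjoint S := hS ▸ isSelfAdjoint_sum _ fun i _ =>
    zs.conjugate_self (PP.1 i).2.isSelfAdjoint
  have SM : S ∈ M := hS ▸ pin_mem hA PP zM
  obtain ⟨T, hT⟩ : ∃ T, T = ((c⁻¹ : ℝ) : ℂ) • S := ⟨_, rfl⟩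
  have Ts : IsSelfAdjoint T :=
    hT ▸ (show IsSelfAdjoint ((c⁻¹ : ℝ) : ℂ) from Complex.conj_ofReal _).smul Ss
  have eT : S = (c : ℂ) • T := by
    rw [hT, smul_smul, ← Complex.ofReal_mul, mul_inv_cancel₀ c0.ne', Complex.ofReal_one, one_smul]
  have b1 : S ≤ (c : ℂ) • 1 + (c : ℂ) • T ^ (2 * (k + 1)) := by
    rw [eT, ← smul_add, ← sub_nonneg, ← smul_sub]
    exact smul_nn c0.le (sub_nonneg.2 (WP.le_pow Ts k))
  have b2 : -S ≤ (c : ℂ) • 1 + (c : ℂ) • T ^ (2 * (k + 1)) := by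
    rw [eT, ← smul_add, ← smul_neg, ← sub_nonneg, ← smul_sub, ← (even_two_mul (k + 1)).neg_pow]
    exact smul_nn c0.le (sub_nonneg.2 (WP.le_pow Ts.neg k))
  have e0 : pin p y = S + pin p d := by rw [hS, hd, ← pin_add, add_sub_cancel]
  have e5 : (((5 / m : ℝ) : ℂ) • 1 : H →L[ℂ] H) = (c : ℂ) • 1 + ((1 / m : ℝ) : ℂ) • 1 := by
    rw [← add_smul, ← Complex.ofReal_add, hc]
    congr 2
    ring
  refine ⟨p, PP, (c : ℂ) • T ^ (2 * (k + 1)) + D, add_mem (vn_smul_mem _ (pow_mem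
    (hT ▸ vn_smul_mem _ SM) _)) (hD ▸ vn_smul_mem _ (pin_mem hA PP dM)), add_nonneg
    (smul_nn c0.le ?_) D0, ?_, ?_, ?_⟩
  · rw [two_mul, pow_add]
    nth_rw 1 [← (Ts.pow (k + 1)).star_eq]
    exact star_mul_self_nonneg _
  · rw [Nat.cast_pow, Real.sqrt_sq (by linarith)] at hω
    have e6 : c⁻¹ ^ (2 * (k + 1)) * (2 / (m : ℝ)) ^ (2 * (k + 1)) ≤ (1 / 2) ^ k := by
      rw [← mul_pow, show c⁻¹ * (2 / (m : ℝ)) = 1 / 2 by rw [hc]; field_simp; norm_num]
      exact pow_le_pow_of_le_one (by norm_num) (by norm_num) (by omega)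
    have e7 := mul_le_mul_of_nonneg_left hω (show 0 ≤ c⁻¹ ^ (2 * (k + 1)) by positivity)
    have e8 := pow_le_pow_left₀ (norm_nonneg _) dn 2
    rw [lt_div_iff₀' c0] at hk
    simp only [hD, hT, smul_pow, add_apply, smul_apply, inner_add_right, inner_smul_right,
      pin_tr hA ht PP dM, Complex.add_re, ← Complex.ofReal_pow, Complex.re_ofReal_mul,
      ← norm_sq_apply, one_div, inv_inv]
    rw [mul_add (c⁻¹ ^ _)] at e7
    have e9 := mul_le_mul_of_nonneg_left (e7.trans (add_le_add e6 le_rfl)) c0.le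
    have e10 := mul_le_mul_of_nonneg_left e8 (show (0 : ℝ) ≤ m by linarith)
    rw [mul_add c] at e9
    linarith
  · rw [e0, e5]
    exact (add_le_add b1 b3).trans_eq (by abel)
  · rw [e0, e5, neg_add]
    exact (add_le_add b2 b4).trans_eq (by abel)

end Vale.Agent.P078
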