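import Vale.Agent.P078.Stm4
import Vale.Agent.P078.Fin2
import Vale.Agent.P078.WPave
import Vale.Agent.P078.EB

/-! The optimal number of pieces for all maximal abelian subalgebras of tracial algebras. -/

namespace Vale.Agent.P078

open scoped InnerProductSpace ComplexConjugate ComplexOrder
open Vale.Agent.P104 Vale.Agent.P082 Finset ContinuousLinearMap

universe u

variable {H : Type u} [NormedAddCommGroup H] [InnerProductSpace ℂ H] [CompleteSpace H]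
  {A M : VonNeumannAlgebra H} {ξ : H}

namespace F4

open R F2

theorem half (hA : IsMasa A M) (ht : TraceVec M ξ) {x0 : H →L[ℂ] H} (x1 : x0 ∈ nsp A M)
    (x2 : IsSelfAdjoint x0) (x3 : ‖x0‖ ≤ 1) : ∃ a ∈ A, IsSelfAdjoint a ∧ ‖a‖ ≤ 1 ∧
    ∃ y ∈ nsp A M, IsSelfAdjoint y ∧ ‖y‖ ≤ 1 ∧ (∀ b ∈ A, ⟪ξ, (b * y) ξ⟫_ℂ = 0) ∧
      x0 = y + y + a := by
  have xM := nsp_le x1
  obtain ⟨a0, a1, a2, a3⟩ := ce H A M ξ hA ht x0 xM
  obtain ⟨a, ha⟩ : ∃ a, a = (2⁻¹ : ℂ) • (a0 + star a0) := ⟨_, rfl⟩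
  have aA : a ∈ A := ha ▸ vn_smul_mem _ (add_mem a1 (star_mem a1))
  have as : IsSelfAdjoint a := ha ▸ half_sa a0
  have an : ‖a‖ ≤ 1 := ha ▸ (half_norm a0).trans (a2.trans x3)
  have at' : ∀ b ∈ A, ⟪ξ, (b * a) ξ⟫_ℂ = ⟪ξ, (b * x0) ξ⟫_ℂ := fun b hb => by
    have e : ⟪ξ, (b * star a0) ξ⟫_ℂ = ⟪ξ, (b * x0) ξ⟫_ℂ := by
      have := congrArg conj (a3 _ (star_mem hb))
      rw [inner_conj_symm, inner_conj_symm, ← inner_star_right, ← inner_star_right, star_mul,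
        star_mul, star_star, x2.star_eq] at this
      rw [hA.2.1 _ hb _ (star_mem a1), this, ht.2.1 _ xM _ (hA.1 _ hb)]
    rw [ha, mul_smul_comm, mul_add, smul_apply, add_apply, inner_smul_right, inner_add_right, e,
      a3 b hb]
    ring
  refine ⟨a, aA, as, an, (2⁻¹ : ℂ) • (x0 - a), (nsp A M).smul_mem (sub_mem x1 (le_nsp hA aA)) _,
    by simp [IsSelfAdjoint, x2.star_eq, as.star_eq], ?_, fun b hb => ?_, by module⟩
  · rw [norm_smul, norm_inv, Complex.norm_ofNat]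
    linarith [norm_sub_le x0 a]
  · rw [mul_smul_comm, mul_sub, smul_apply, sub_apply, inner_smul_right, inner_sub_right,
      at' b hb, sub_self, mul_zero]

theorem err (ht : TraceVec M ξ) (hA : IsMasa A M) {r : ℕ} {P : Fin r → H →L[ℂ] H}
    (PP : IsPartition A P) {d : H →L[ℂ] H} (dM : d ∈ M) (ds : IsSelfAdjoint d) {η θ : ℝ}
    (hη : 0 < η) (h : ‖d ξ‖ ≤ η * θ / 2) : Tb M ξ (pin P d) η (η * θ ^ 2 / 4) :=
  (Tb.sq dM ds hη (by
    have : ‖d ξ‖ ^ 2 ≤ (η * θ / 2) ^ 2 := pow_le_pow_left₀ (norm_nonneg _) h 2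
    rw [inv_mul_le_iff₀ hη]
    nlinarith)).pin hA ht PP

theorem mom {S : H →L[ℂ] H} (SM : S ∈ M) (Ss : IsSelfAdjoint S) {c η : ℝ} (c0 : 0 < c) (k : ℕ)
    (h : c * (c⁻¹ ^ (2 * (k + 1)) * (⟪ξ, (S ^ (2 * (k + 1))) ξ⟫_ℂ).re) ≤ η) : Tb M ξ S c η := by
  obtain ⟨T, hT⟩ : ∃ T, T = ((c⁻¹ : ℝ) : ℂ) • S := ⟨_, rfl⟩
  have Ts : IsSelfAdjoint T :=
    hT ▸ (show IsSelfAdjoint ((c⁻¹ : ℝ) : ℂ) from Complex.conj_ofReal _).smul Ss
  have eT : S = (c : ℂ) • T := by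
    rw [hT, smul_smul, ← Complex.ofReal_mul, mul_inv_cancel₀ c0.ne', Complex.ofReal_one, one_smul]
  refine ⟨(c : ℂ) • T ^ (2 * (k + 1)), vn_smul_mem _ (pow_mem (hT ▸ vn_smul_mem _ SM) _),
    smul_nn c0.le ?_, ?_, ?_, ?_⟩
  · rw [two_mul, pow_add]
    nth_rw 1 [← (Ts.pow (k + 1)).star_eq]
    exact star_mul_self_nonneg _
  · simpa only [hT, smul_pow, smul_apply, inner_smul_right, ← Complex.ofReal_pow,
      Complex.re_ofReal_mul] using h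
  · rw [eT, ← smul_add, ← sub_nonneg, ← smul_sub]
    exact smul_nn c0.le (sub_nonneg.2 (WP.le_pow Ts k))
  · rw [eT, ← smul_add, ← smul_neg, ← sub_nonneg, ← smul_sub, ← (even_two_mul (k + 1)).neg_pow]
    exact smul_nn c0.le (sub_nonneg.2 (WP.le_pow Ts.neg k))

theorem conj_part {ι : Type} [Fintype ι] {f : ι → H →L[ℂ] H} (hf : W.Part A f) {v : H →L[ℂ] H}
    (hv : Normalizes A M v) : W.Part A fun i => star v * f i * v := by
  have k : ∀ a b : H →L[ℂ] H, star v * a * v * (star v * b * v) = star v * (a * b) * v :=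
    fun a b => by
      rw [mul_assoc (star v) b, ← mul_assoc, mul_assoc _ v, hv.2.1.2, mul_one, mul_assoc,
        mul_assoc, mul_assoc]
  refine ⟨fun i => hv.2.2.2 _ (hf.mem i), fun i => ⟨?_, (hf.proj i).isSelfAdjoint.conjugate' v⟩,
    fun i j h => by rw [k, hf.orth i j h, mul_zero, zero_mul], ?_⟩
  · rw [IsIdempotentElem, k, (hf.proj i).isIdempotentElem.eq]
  · rw [← sum_mul, ← mul_sum, hf.sum, mul_one, hv.2.1.1]

omit [CompleteSpace H] in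
theorem mean {r n : ℕ} [NeZero r] {p : (Fin n → Fin r) → Fin r → H →L[ℂ] H}
    (h1 : ∀ π, ∑ k, p π k = 1) (h2 : ∀ π k t, p (fun i => π i + t) (k + t) = p π k) (k : Fin r) :
    ∑ π, p π k = ((Fintype.card (Fin n → Fin r) : ℂ) / r) • 1 := by
  have e : ∀ l, ∑ π, p π l = ∑ π, p π k := fun l => by
    rw [← Equiv.sum_comp (Equiv.addRight fun _ => l - k)]
    refine sum_congr rfl fun π _ => ?_
    rw [← h2 π k (l - k), add_sub_cancel]
    rfl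
  have t : (r : ℂ) • ∑ π, p π k = (Fintype.card (Fin n → Fin r) : ℂ) • 1 := by
    have := sum_comm (s := univ) (t := univ) (f := p)
    simp only [h1, e, sum_const, card_univ, Fintype.card_fin] at this
    rw [Nat.cast_smul_eq_nsmul, Nat.cast_smul_eq_nsmul, this]
  have r0 : (r : ℂ) ≠ 0 := Nat.cast_ne_zero.2 (NeZero.ne r)
  rw [div_eq_inv_mul, mul_smul, ← t, smul_smul, inv_mul_cancel₀ r0, one_smul]

theorem gen (h3 : Core3Stmt.{u}) (hB : Block2Stmt.{u}) (hT : AtomStmt.{u}) (hL : Cut2Stmt.{u})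
    (hA : IsMasa A M) (ht : TraceVec M ξ) {m : ℕ} (hm : 2 ≤ m) {η : ℝ} (hη : 0 < η)
    {x : H →L[ℂ] H} (hx : x ∈ M) (hs : IsSelfAdjoint x) (hn : ‖x‖ ≤ 1) {θ : ℝ} (hθ : 0 < θ) :
    ∃ p : Fin (m ^ 2) → H →L[ℂ] H, IsPartition A p ∧ ∃ a ∈ A, IsSelfAdjoint a ∧ ‖a‖ ≤ 1 ∧
      ∃ q ∈ M, IsStarProjection q ∧ ‖(1 - q) ξ‖ ≤ θ ∧
        ‖q * (pin p x - a) * q‖ ≤ 32 / m + 2 * η := by
  have : NeZero (m ^ 2) := ⟨by positivity⟩
  have m0 : (2 : ℝ) ≤ m := by exact_mod_cast hm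
  obtain ⟨x0, x1, Y, YM, x2, Y2, x3, Y3, Y4, x4⟩ := eb H A M ξ hA ht x hx hs hn _
    (show 0 < η * θ / 2 by positivity)
  obtain ⟨a, aA, as, an, y, y1, y2, y3, y4, e⟩ := half hA ht x1 x2 x3
  obtain ⟨z, hz⟩ : ∃ z, z = (2⁻¹ : ℂ) • Y := ⟨_, rfl⟩
  have z1 : z ∈ M := hz ▸ vn_smul_mem _ YM
  have z2 : IsSelfAdjoint z := by
    rw [hz]
    simp [IsSelfAdjoint, Y2.star_eq]
  have z3 : ‖z‖ ≤ 1 := by
    rw [hz, norm_smul, norm_inv, Complex.norm_ofNat]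
    linarith
  obtain ⟨κ, hκ⟩ : ∃ κ, κ = η * θ ^ 2 * (3 / 16) := ⟨_, rfl⟩
  have p0 : 0 < κ := by rw [hκ]; positivity
  obtain ⟨d, v, hv, hp⟩ := h3 H A M ξ hA ht m hm y y1 y2 y3 y4 _ p0
  obtain ⟨c, hc⟩ : ∃ c : ℝ, c = 4 / m := ⟨_, rfl⟩
  have c0 : 0 < c := by rw [hc]; positivity
  obtain ⟨k, hk⟩ := exists_pow_lt_of_lt_one (show 0 < κ / 2 / c by positivity)
    (show (1 / 2 : ℝ) < 1 by norm_num)
  obtain ⟨ε, ε0, hε⟩ := hB (m ^ 2) (2 * (k + 1)) d (by nlinarith)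
    (κ / 2 / c * c ^ (2 * (k + 1))) (by positivity)
  obtain ⟨C, C0, hC⟩ := hT d
  obtain ⟨n, f, hf, hf'⟩ := hL H A M ξ hA ht z z1 z2 (fun b hb => by
    rw [hz, smul_apply, inner_smul_right, Y4 b hb, mul_zero]) d v hv (ε / C) (by positivity)
  obtain ⟨p, pp, p1, p2, p3⟩ := hp n f hf
  obtain ⟨α, _, E, I, hE, hI, hS⟩ := hC H A M ξ hA ht (Fin n) (fun s i => star (v s) * f i * v s)
    fun s => conj_part hf (hv s)
  have up : ∀ {ι : Type} [Fintype ι] {g : ι → H →L[ℂ] H}, W.Part A g → W.Part M g :=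
    fun h => ⟨fun i => hA.1 _ (h.mem i), h.proj, h.orth, h.sum⟩
  obtain ⟨π, hπ⟩ := hε H M ξ ht (Fin n) α E (fun a => univ.image (I a)) p z (up hE)
    (fun a => card_image_le.trans (by simp)) (fun π => up (pp π))
    (fun π k a => hA.2.1 _ ((pp π).mem k) _ (hE.mem a))
    (fun π π' k a h => p2 π π' k _ (hE.mem a) (I a) (hI a) fun s =>
      h _ (mem_image_of_mem _ (mem_univ s))) (mean (fun π => (pp π).sum) p1) z1 z2 z3
    ((hS z z1 z2).trans ((mul_le_mul_of_nonneg_left hf' C0.le).trans_eq (by field_simp)))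
  have PP : IsPartition A (p π) :=
    ⟨fun i => ⟨(pp π).mem i, (pp π).proj i⟩, (pp π).orth, (pp π).sum⟩
  have sa : ∀ {w : H →L[ℂ] H}, IsSelfAdjoint w → IsSelfAdjoint (pin (p π) w) := fun h =>
    isSelfAdjoint_sum _ fun i _ => h.conjugate_self (PP.1 i).2.isSelfAdjoint
  have c1 : Tb M ξ (pin (p π) y) (12 / m) κ := p3 π
  have c2 : Tb M ξ (pin (p π) z) c κ := mom (pin_mem hA PP z1) (sa z2) c0 k (by
    rw [Nat.cast_pow, Real.sqrt_sq (by linarith)] at hπ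
    have e6 : c⁻¹ ^ (2 * (k + 1)) * (2 / (m : ℝ)) ^ (2 * (k + 1)) ≤ (1 / 2) ^ k := by
      rw [← mul_pow, show c⁻¹ * (2 / (m : ℝ)) = 1 / 2 by rw [hc]; field_simp; norm_num]
      exact pow_le_pow_of_le_one (by norm_num) (by norm_num) (by omega)
    have e7 := mul_le_mul_of_nonneg_left hπ (show 0 ≤ c⁻¹ ^ (2 * (k + 1)) by positivity)
    have e8 : c⁻¹ ^ (2 * (k + 1)) * (κ / 2 / c * c ^ (2 * (k + 1))) = κ / 2 / c := by
      rw [inv_pow]
      field_simp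
    rw [mul_add (c⁻¹ ^ _), e8] at e7
    refine (mul_le_mul_of_nonneg_left (e7.trans (add_le_add (e6.trans hk.le) le_rfl)) c0.le).trans_eq
      ?_
    field_simp
    norm_num)
  have e0 : pin (p π) x - a = pin (p π) y + pin (p π) y + (pin (p π) z + pin (p π) z) +
      pin (p π) (x - x0 - Y) := by
    have : x = y + y + (z + z) + (x - x0 - Y) + a := by rw [e, hz]; module
    nth_rw 1 [this]
    rw [pin_add, pin_add, pin_add, pin_add, pin_add,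
      pin_fix PP fun i => hA.2.1 _ (PP.1 i).1 _ aA, add_sub_cancel_right]
  have c4 := ((c1.add c1).add (c2.add c2)).add (err ht hA PP
    (sub_mem (sub_mem hx (nsp_le x1)) YM) ((hs.sub x2).sub Y2) hη x4)
  rw [← e0, hκ, show ∀ t : ℝ, t * (3 / 16) + t * (3 / 16) + (t * (3 / 16) + t * (3 / 16)) + t / 4 = t
    from fun t => by ring] at c4
  obtain ⟨q, qM, q1, q2, q3⟩ := c4.cut ht ((sa hs).sub as) (by positivity) hη hθ
  exact ⟨p π, PP, a, aA, as, an, q, qM, q1, q2, q3.trans (le_of_eq (by rw [hc]; ring))⟩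

end F4

theorem fin4 (h3 : Core3Stmt.{u}) (hB : Block2Stmt.{u}) (hT : AtomStmt.{u}) (hL : Cut2Stmt.{u}) :
    Final4Stmt.{u} := by
  refine ⟨34 ^ 2, fun H _ _ _ A M ξ hA ht ε e0 e1 => ?_⟩
  obtain ⟨m, hm⟩ : ∃ m, m = ⌈33 / ε⌉₊ := ⟨_, rfl⟩
  have m1 : 33 / ε ≤ m := hm ▸ Nat.le_ceil _
  have m2 : (m : ℝ) < 33 / ε + 1 := hm ▸ Nat.ceil_lt_add_one (by positivity)
  have m3 : 33 ≤ 33 / ε := by rw [le_div_iff₀ e0]; linarith
  have m4 : 2 ≤ m := by exact_mod_cast (show (2 : ℝ) ≤ m by linarith)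
  have m5 : (m : ℝ) ≤ 34 / ε := by
    have : 1 ≤ 1 / ε := by rw [le_div_iff₀ e0]; linarith
    rw [show 34 / ε = 33 / ε + 1 / ε by ring]
    linarith
  have m6 : 32 / (m : ℝ) + 2 * (ε / 66) ≤ ε := by
    have : 32 / (m : ℝ) ≤ 32 / 33 * ε := by
      rw [div_le_iff₀ (by linarith)]
      rw [div_le_iff₀ e0] at m1
      linarith
    linarith
  refine ⟨m ^ 2, Nat.one_le_iff_ne_zero.2 (by positivity), ?_, fun x hx hs F δ d0 => ?_⟩
  · rw [← div_pow]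
    push_cast
    exact pow_le_pow_left₀ (by positivity) m5 2
  obtain ⟨θ, t0, hθ⟩ := R.sep_fin ht F d0
  obtain ⟨p, pp, a, aA, as, an, q, qM, q1, q2, q3⟩ := F4.gen h3 hB hT hL hA ht m4
    (show 0 < ε / 66 by positivity) (vn_smul_mem ((‖x‖⁻¹ : ℝ) : ℂ) hx)
    ((show IsSelfAdjoint ((‖x‖⁻¹ : ℝ) : ℂ) from Complex.conj_ofReal _).smul hs) (by
      rw [norm_smul, Complex.norm_real, norm_inv, norm_norm]
      exact inv_mul_le_one_of_le₀ le_rfl (norm_nonneg _)) t0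
  refine ⟨p, pp, (‖x‖ : ℂ) • a, vn_smul_mem _ aA,
    (show IsSelfAdjoint (‖x‖ : ℂ) from Complex.conj_ofReal _).smul as, ?_, q, qM, q1,
    hθ _ (sub_mem (one_mem _) qM) q1.one_sub.norm_le q2, ?_⟩
  · rw [norm_smul, Complex.norm_real, norm_norm]
    exact mul_le_of_le_one_right (norm_nonneg _) an
  · have e : x = (‖x‖ : ℂ) • ((‖x‖⁻¹ : ℝ) : ℂ) • x := by
      rcases eq_or_ne x 0 with rfl | x0
      · simp
      · rw [smul_smul, ← Complex.ofReal_mul, mul_inv_cancel₀ (norm_ne_zero_iff.2 x0)]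
        simp
    change ‖q * (R.pin p x - _) * q‖ ≤ _
    nth_rw 1 [e]
    rw [R.pin_smul, ← smul_sub, mul_smul_comm, smul_mul_assoc, norm_smul, Complex.norm_real,
      norm_norm, mul_comm]
    exact mul_le_mul_of_nonneg_right (q3.trans m6) (norm_nonneg _)

end Vale.Agent.P078
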