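import Vale.Agent.P078.StmN
import Vale.Agent.P078.Cut
import Vale.Agent.P132.T1
import Vale.Agent.P132.T2
import Vale.Agent.P132.Filt

/-! Gluing the tracial and the singular parts. -/

namespace Vale.Agent.P078

open scoped InnerProductSpace ComplexConjugate ComplexOrder BoundedContinuousFunction
open Vale.Agent.P104 Vale.Agent.P082 Finset ContinuousLinearMap

universe u

variable {H : Type u} [NormedAddCommGroup H] [InnerProductSpace ℂ H] [CompleteSpace H]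
  {A M : VonNeumannAlgebra H} {ξ : H}

namespace FN

open R F2

theorem cent (m : P132.Mod M ξ) {x : H →L[ℂ] H} (hx : x ∈ M)
    (h : ∀ a ∈ M, ⟪ξ, (star x * a) ξ⟫_ℂ = ⟪ξ, (a * star x) ξ⟫_ℂ) : m.R x ξ = x ξ := by
  have adj : ∀ p ∈ P132.graphS M ξ, ⟪p.2, star x ξ⟫_ℂ = ⟪x ξ, p.1⟫_ℂ := fun p hp => by
    refine (isClosed_eq (f := fun p : H × H => ⟪p.2, star x ξ⟫_ℂ) (g := fun p => ⟪x ξ, p.1⟫_ℂ)
      (by fun_prop) (by fun_prop)).closure_subset_iff.2 ?_ hp
    rintro _ ⟨a, ha, rfl⟩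
    change ⟪star a ξ, star x ξ⟫_ℂ = ⟪x ξ, a ξ⟫_ℂ
    rw [← inner_star_right, ← inner_star_right x, star_star, ← mul_apply_eq_comp,
      ← mul_apply_eq_comp, h a ha]
  have hp := P132.mem_graphS (ξ := ξ) hx
  have key : ∀ f0 f1 f2 : ℝ →ᵇ ℂ, (∀ s, f1 s = f0 s * (Real.exp (s / 2) : ℝ)) →
      (∀ s, f2 s = f1 s * (Real.exp (s / 2) : ℝ)) → m.Φ f2 (x ξ) = m.Φ f0 (x ξ) :=
    fun f0 f1 f2 r1 r2 => by
      rw [← m.graph _ hp f1 f2 r2]
      refine ext_inner_left ℂ fun v => ?_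
      have hs : ∀ s, (star f1) s = (star f0) s * (Real.exp (s / 2) : ℝ) := fun s => by
        rw [BoundedContinuousFunction.star_apply, BoundedContinuousFunction.star_apply, r1,
          star_mul', RCLike.star_def, Complex.conj_ofReal]
      have := adj _ (m.core _ _ hs v)
      have e : ∀ (f : ℝ →ᵇ ℂ) a, ⟪v, m.Φ f a⟫_ℂ = ⟪m.Φ (star f) v, a⟫_ℂ := fun f a => by
        rw [m.inner_Φ, star_star]
      rw [e, e, ← inner_conj_symm, ← m.inner_J_left, this, inner_conj_symm]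
  have nz : ∀ s : ℝ, ((Real.exp (s / 2) : ℝ) : ℂ) + 1 ≠ 0 := fun s => by
    have : (0 : ℝ) < Real.exp (s / 2) + 1 := by positivity
    exact_mod_cast this.ne'
  refine m.ext_cut fun n => ?_
  obtain ⟨g, -, hg⟩ := P132.exists_exp (P132.chi_supp0 n)
  obtain ⟨f0, s0, e0⟩ := P132.exists_bmul (P132.chi_supp0 n)
    (g := fun s => (((Real.exp (s / 2) : ℝ) : ℂ) + 1)⁻¹) (Continuous.inv₀ (by fun_prop) nz)
  obtain ⟨f1, s1, e1⟩ := P132.exists_exp s0
  obtain ⟨f2, -, e2⟩ := P132.exists_exp s1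
  have e3 : g - P132.chi n = f2 - f0 := by
    ext s
    have := nz s
    simp only [BoundedContinuousFunction.sub_apply, e0, e1, e2, hg]
    field_simp
    ring
  rw [m.Φ_R_ξ hx _ g hg, ← sub_eq_zero, ← ContinuousLinearMap.sub_apply, ← map_sub, e3, map_sub,
    ContinuousLinearMap.sub_apply, key f0 f1 f2 e1 e2, sub_self]

variable {T g y : H →L[ℂ] H} {c c' η η' θ : ℝ}

theorem mono (h : Tb M ξ T c η) (h1 : c ≤ c') (h2 : η ≤ η') : Tb M ξ T c' η' := by
  obtain ⟨W, a1, a2, a3, a4, a5⟩ := h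
  have : (c : ℂ) • (1 : H →L[ℂ] H) + W ≤ (c' : ℂ) • 1 + W := by
    rw [add_le_add_iff_right, ← sub_nonneg, ← sub_smul, ← Complex.ofReal_sub]
    exact smul_nn (sub_nonneg.2 h1) zero_le_one
  exact ⟨W, a1, a2, a3.trans h2, a4.trans this, a5.trans this⟩

theorem cj_le (pg : IsStarProjection g) (c0 : 0 ≤ c) {z W : H →L[ℂ] H}
    (h : z ≤ (c : ℂ) • 1 + W) : g * z * g ≤ (c : ℂ) • 1 + g * W * g := by
  refine (pg.isSelfAdjoint.conjugate_le_conjugate h).trans ?_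
  rw [mul_add, add_mul, add_le_add_iff_right, mul_smul_comm, smul_mul_assoc, mul_one,
    pg.isIdempotentElem.eq, ← sub_nonneg, ← smul_sub]
  exact smul_nn c0 pg.one_sub.nonneg

theorem le_nrm (hs : IsSelfAdjoint T) (h : ‖T‖ ≤ c) : T ≤ (c : ℂ) • 1 := by
  have := hs.le_algebraMap_norm_self
  rw [Algebra.algebraMap_eq_smul_one, ← Complex.coe_smul] at this
  refine this.trans ?_
  rw [← sub_nonneg, ← sub_smul, ← Complex.ofReal_sub]
  exact smul_nn (sub_nonneg.2 h) zero_le_one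

theorem ofNorm (pg : IsStarProjection g) (hs : IsSelfAdjoint T) (h : ‖T‖ ≤ c) :
    Tb M ξ (g * T * g) c 0 := by
  have c0 := (norm_nonneg _).trans h
  refine ⟨g * 0 * g, by simp, by simp, by simp, cj_le pg c0 (by simpa using le_nrm hs h), ?_⟩
  rw [← neg_mul, ← mul_neg]
  exact cj_le pg c0 (by simpa using le_nrm hs.neg (by rwa [norm_neg]))

theorem crs (y : H →L[ℂ] H) (hη : 0 < η) :
    y + star y ≤ (η : ℂ) • 1 + ((η⁻¹ : ℝ) : ℂ) • (y * star y) := by
  have a := smul_nn (inv_nonneg.2 hη.le) (mul_star_self_nonneg (y - (η : ℂ) • 1))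
  have η0 : (η : ℂ) ≠ 0 := Complex.ofReal_ne_zero.2 hη.ne'
  rw [← sub_nonneg]
  convert a using 1
  simp only [star_sub, star_smul, star_one, Complex.star_def, Complex.conj_ofReal, sub_mul,
    mul_sub, smul_mul_assoc, mul_smul_comm, one_mul, mul_one, Complex.ofReal_inv]
  match_scalars <;> field_simp

theorem cross (hg : g ∈ M) (pg : IsStarProjection g) (hy : y ∈ M) (hη : 0 < η)
    (h : η⁻¹ * ‖star y (g ξ)‖ ^ 2 ≤ η') : Tb M ξ (g * (y + star y) * g) η η' := by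
  refine ⟨g * (((η⁻¹ : ℝ) : ℂ) • (y * star y)) * g,
    mul_mem (mul_mem hg (vn_smul_mem _ (mul_mem hy (star_mem hy)))) hg,
    pg.isSelfAdjoint.conjugate_nonneg (smul_nn (inv_nonneg.2 hη.le) (mul_star_self_nonneg y)), ?_,
    cj_le pg hη.le (crs y hη), ?_⟩
  · have := norm_sq_apply (star y * g) ξ
    rw [star_mul, star_star, pg.isSelfAdjoint.star_eq] at this
    rw [mul_smul_comm, smul_mul_assoc, smul_apply, inner_smul_right, Complex.re_ofReal_mul,
      show g * (y * star y) * g = g * y * (star y * g) by simp only [mul_assoc], ← this]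
    exact h
  · rw [← neg_mul, ← mul_neg]
    refine cj_le pg hη.le ?_
    simpa only [star_neg, neg_mul_neg, neg_add] using crs (-y) hη

theorem cutg (hg : g ∈ M) (pg : IsStarProjection g)
    (hc : ∀ y ∈ M, ⟪ξ, (g * y) ξ⟫_ℂ = ⟪ξ, (y * g) ξ⟫_ℂ) (hs : IsSelfAdjoint T) (c0 : 0 ≤ c)
    (hη : 0 < η) (hθ : 0 < θ) (h : Tb M ξ (g * T * g) c (η * θ ^ 2)) :
    ∃ q ∈ M, IsStarProjection q ∧ ‖g - q‖ ≤ 1 ∧ ‖(g - q) ξ‖ ≤ θ ∧ ‖q * T * q‖ ≤ c + η := by
  obtain ⟨V, VM, V0, Vt, a4, a5⟩ := h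
  have gg := pg.isIdempotentElem.eq
  have gg' : ∀ z, g * (g * z) = g * z := fun z => by rw [← mul_assoc, gg]
  obtain ⟨W, hW⟩ : ∃ W, W = g * V * g := ⟨_, rfl⟩
  have WM : W ∈ M := hW ▸ mul_mem (mul_mem hg VM) hg
  have W0 : 0 ≤ W := hW ▸ pg.isSelfAdjoint.conjugate_nonneg V0
  have Wt : (⟪ξ, W ξ⟫_ℂ).re ≤ η * θ ^ 2 := by
    have t1 := re_nonneg (ξ := ξ) (pg.one_sub.isSelfAdjoint.conjugate_nonneg V0)
    have t2 : ⟪ξ, W ξ⟫_ℂ = ⟪ξ, (V * g) ξ⟫_ℂ := by
      rw [hW, mul_assoc, hc _ (mul_mem VM hg), mul_assoc, gg]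
    rw [show (1 - g) * V * (1 - g) = V - g * V - V * g + W by rw [hW]; noncomm_ring, add_apply,
      sub_apply, sub_apply, inner_add_right, inner_sub_right, inner_sub_right, hc V VM, ← t2,
      sub_add_cancel, Complex.sub_re] at t1
    linarith
  have b4 := cj_le pg c0 a4
  have b5 := cj_le pg c0 a5
  rw [← hW] at b4 b5
  simp only [mul_neg, neg_mul, mul_assoc, gg, gg'] at b4 b5
  obtain ⟨e, eM, e1, ec, e2, e3⟩ := CutA.spec' M (t := W - (η : ℂ) • 1)
    (sub_mem WM (vn_smul_mem _ (one_mem _)))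
    (W0.isSelfAdjoint.sub ((show IsSelfAdjoint (η : ℂ) from Complex.conj_ofReal _).smul
      (.one _)))
  have cg : Commute g e := ec g pg.isSelfAdjoint (Commute.sub_right (by
    simp only [Commute, SemiconjBy, hW, mul_assoc, gg, gg']) ((Commute.one_right _).smul_right _))
  have cW : Commute W e := ec W W0.isSelfAdjoint
    ((Commute.refl _).sub_right ((Commute.one_right _).smul_right _))
  have ee := e1.isIdempotentElem.eq
  obtain ⟨q, hq⟩ : ∃ q, q = 1 - e := ⟨_, rfl⟩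
  have qM : q ∈ M := hq ▸ sub_mem (one_mem _) eM
  have q1 : IsStarProjection q := hq ▸ e1.one_sub
  have cq : Commute g q := hq ▸ (Commute.one_right _).sub_right cg
  rw [← hq] at e3
  have c1 : 0 ≤ c + η := by positivity
  have key : ∀ z, z ≤ (c : ℂ) • 1 + W → q * z * q ≤ ((c + η : ℝ) : ℂ) • 1 := fun z hz => by
    refine (q1.isSelfAdjoint.conjugate_le_conjugate hz).trans ?_
    have : q * ((c : ℂ) • 1 + W) * q = ((c + η : ℝ) : ℂ) • 1 - ((c + η : ℝ) : ℂ) • (1 - q) +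
          q * (W - (η : ℂ) • 1) * q := by
      simp only [mul_add, add_mul, mul_sub, sub_mul, mul_smul_comm, smul_mul_assoc, mul_one,
        q1.isIdempotentElem.eq]
      push_cast
      module
    rw [this]
    exact (add_le_of_nonpos_right e3).trans (sub_le_self _ (smul_nn c1 q1.one_sub.nonneg))
  have ge : g - g * q = g * e := by rw [hq, mul_sub, mul_one, sub_sub_cancel]
  have eq : g * q * T * (g * q) = q * (g * (T * g)) * q := by
    nth_rw 1 [cq.eq]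
    simp only [mul_assoc]
  have pq := pg.mul q1 cq
  refine ⟨g * q, mul_mem hg qM, pq, ge ▸ (pg.mul e1 cg).norm_le, ?_,
    norm_le_of_le (hs.conjugate_self pq.isSelfAdjoint) c1 (eq ▸ key _ b4) ?_⟩
  · rw [ge, mul_apply_eq_comp]
    refine ((g.le_opNorm _).trans (mul_le_of_le_one_left (norm_nonneg _) pg.norm_le)).trans ?_
    have t1 := re_nonneg (ξ := ξ) e2
    have t2 := re_nonneg (ξ := ξ) (q1.isSelfAdjoint.conjugate_nonneg W0)
    have t3 : ⟪ξ, (e * W * e) ξ⟫_ℂ + ⟪ξ, (q * W * q) ξ⟫_ℂ = ⟪ξ, W ξ⟫_ℂ := by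
      have : e * W * e + q * W * q = W := by
        have k : e * W * e = W * e := by rw [← cW.eq, mul_assoc, ee]
        rw [hq, show (1 - e) * W * (1 - e) = W - e * W - W * e + e * W * e by noncomm_ring, k,
          ← cW.eq]
        abel
      rw [← inner_add_right, ← add_apply, this]
    have t4 := congrArg Complex.re t3
    have t5 := norm_sq_apply e ξ
    rw [e1.isSelfAdjoint.star_eq] at t5
    rw [mul_sub, sub_mul, mul_smul_comm, smul_mul_assoc, mul_one, sub_apply, inner_sub_right,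
      smul_apply, inner_smul_right, Complex.sub_re, Complex.re_ofReal_mul, ← t5] at t1
    rw [Complex.add_re] at t4
    exact le_of_sq_le hθ.le (le_of_mul_le_mul_left (by linarith) hη)
  · rw [eq, ← neg_mul, ← mul_neg]
    exact key _ b5

theorem sepF (hs : ∀ x ∈ M, x ξ = 0 → x = 0) (F : Finset H) {δ : ℝ} (hδ : 0 < δ) :
    ∃ θ > 0, ∀ z ∈ M, ‖z‖ ≤ 1 → ‖z ξ‖ ≤ θ → ∀ v ∈ F, ‖z v‖ < δ := by
  classical
  induction F using Finset.induction_on with
  | empty => exact ⟨1, one_pos, by simp⟩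
  | insert v F _ ih =>
    obtain ⟨θ, h0, h⟩ := ih
    obtain ⟨θ', h0', h'⟩ := P132.strong_of_sep hs v 1 _ (half_pos hδ)
    refine ⟨min θ θ', lt_min h0 h0', fun z hz z1 z2 => forall_mem_insert _ _ _ |>.2 ⟨?_, ?_⟩⟩
    · exact (h' z hz z1 (z2.trans (min_le_right _ _))).trans_lt (half_lt_self hδ)
    · exact h z hz z1 (z2.trans (min_le_left _ _))

theorem tail {r : ℕ} {ε : ℝ} (h : ∀ x ∈ M, IsSelfAdjoint x → ‖x‖ ≤ 1 → ∀ (F : Finset H) (δ : ℝ),
    0 < δ → ∃ p : Fin r → H →L[ℂ] H, IsPartition A p ∧ ∃ a ∈ A, IsSelfAdjoint a ∧ ‖a‖ ≤ 1 ∧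
      ∃ q ∈ M, IsStarProjection q ∧ (∀ v ∈ F, ‖(1 - q) v‖ < δ) ∧ ‖q * (pin p x - a) * q‖ ≤ ε) :
    ∀ x ∈ M, IsSelfAdjoint x → SoPavable A M x ε r := by
  intro x hx hs F δ d0
  obtain ⟨p, pp, a, aA, as, an, q, qM, q1, q2, q3⟩ := h _ (vn_smul_mem ((‖x‖⁻¹ : ℝ) : ℂ) hx)
    ((show IsSelfAdjoint ((‖x‖⁻¹ : ℝ) : ℂ) from Complex.conj_ofReal _).smul hs) (by
      rw [norm_smul, Complex.norm_real, norm_inv, norm_norm]
      exact inv_mul_le_one_of_le₀ le_rfl (norm_nonneg _)) F δ d0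
  refine ⟨p, pp, (‖x‖ : ℂ) • a, vn_smul_mem _ aA,
    (show IsSelfAdjoint (‖x‖ : ℂ) from Complex.conj_ofReal _).smul as, ?_, q, qM, q1, q2, ?_⟩
  · rw [norm_smul, Complex.norm_real, norm_norm]
    exact mul_le_of_le_one_right (norm_nonneg _) an
  · have e : x = (‖x‖ : ℂ) • ((‖x‖⁻¹ : ℝ) : ℂ) • x := by
      rcases eq_or_ne x 0 with rfl | x0
      · simp
      · rw [smul_smul, ← Complex.ofReal_mul, mul_inv_cancel₀ (norm_ne_zero_iff.2 x0)]
        simp
    change ‖q * (R.pin p x - _) * q‖ ≤ _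
    nth_rw 1 [e]
    rw [R.pin_smul, ← smul_sub, mul_smul_comm, smul_mul_assoc, norm_smul, Complex.norm_real,
      norm_norm, mul_comm]
    exact mul_le_mul_of_nonneg_right q3 (norm_nonneg _)

theorem app (hA : IsMasa A M) {f : H →L[ℂ] H} (hf : f ∈ A) (pf : IsStarProjection f) {r s : ℕ}
    {p : Fin r → H →L[ℂ] H} {p' : Fin s → H →L[ℂ] H} (h : IsPartition A p)
    (h' : IsPartition A p') : ∃ P : Fin (r + s) → H →L[ℂ] H, IsPartition A P ∧
      ∀ z, pin P z = f * pin p z * f + pin p' ((1 - f) * z * (1 - f)) := by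
  have kA : 1 - f ∈ A := sub_mem (one_mem _) hf
  have c1 : ∀ i, f * p i = p i * f := fun i => hA.2.1 _ hf _ (h.1 i).1
  have c2 : ∀ i, (1 - f) * p' i = p' i * (1 - f) := fun i => hA.2.1 _ kA _ (h'.1 i).1
  have o1 : f * (1 - f) = 0 := by rw [mul_sub, mul_one, pf.isIdempotentElem.eq, sub_self]
  have o2 : (1 - f) * f = 0 := by rw [sub_mul, one_mul, pf.isIdempotentElem.eq, sub_self]
  refine ⟨Fin.append (fun i => f * p i) fun j => (1 - f) * p' j, ⟨fun k => ?_, fun k l => ?_, ?_⟩,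
    fun z => ?_⟩
  · induction k using Fin.addCases with
    | left i => simpa using ⟨mul_mem hf (h.1 i).1, pf.mul (h.1 i).2 (c1 i)⟩
    | right i =>
      rw [Fin.append_right]
      exact ⟨mul_mem kA (h'.1 i).1, pf.one_sub.mul (h'.1 i).2 (c2 i)⟩
  · induction k using Fin.addCases with
    | left i =>
      induction l using Fin.addCases with
      | left j =>
        intro e
        rw [Fin.append_left, Fin.append_left, c1 j, mul_assoc, ← mul_assoc (p i),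
          h.2.1 i j fun k => e (by rw [k]), zero_mul, mul_zero]
      | right j =>
        intro _
        rw [Fin.append_left, Fin.append_right, c1 i, mul_assoc, ← mul_assoc f, o1, zero_mul,
          mul_zero]
    | right i =>
      induction l using Fin.addCases with
      | left j =>
        intro _
        rw [Fin.append_left, Fin.append_right, c2 i, mul_assoc, ← mul_assoc (1 - f), o2, zero_mul,
          mul_zero]
      | right j =>
        intro e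
        rw [Fin.append_right, Fin.append_right, c2 j, mul_assoc, ← mul_assoc (p' i),
          h'.2.1 i j fun k => e (by rw [k]), zero_mul, mul_zero]
  · rw [Fin.sum_univ_add]
    simp only [Fin.append_left, Fin.append_right]
    rw [← mul_sum, ← mul_sum, h.2.2, h'.2.2, mul_one, mul_one, add_sub_cancel]
  · rw [pin, Fin.sum_univ_add]
    simp only [Fin.append_left, Fin.append_right, pin, mul_sum, sum_mul]
    congr 1 <;> refine sum_congr rfl fun i _ => ?_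
    · nth_rw 2 [c1]
      simp only [mul_assoc]
    · nth_rw 1 [c2]
      simp only [mul_assoc]

/-- Paving in the tracial corners. -/
def CP (A M : VonNeumannAlgebra H) (r : ℕ) (c : ℝ) : Prop := ∀ f ∈ A, IsStarProjection f →
  ∀ ζ : H, f ζ = ζ →
  (∀ x ∈ M, ∀ y ∈ M, ⟪ζ, (f * x * f * y * f) ζ⟫_ℂ = ⟪ζ, (f * y * f * x * f) ζ⟫_ℂ) →
  (∀ x ∈ M, (f * x * f) ζ = 0 → f * x * f = 0) →
  ∀ x ∈ M, IsSelfAdjoint x → ‖x‖ ≤ 1 → ∀ (v : H) (θ : ℝ), 0 < θ →
  ∃ p : Fin r → H →L[ℂ] H, IsPartition A p ∧ ∃ a ∈ A, IsSelfAdjoint a ∧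
    ‖a‖ ≤ 1 ∧ f * a = a ∧ ∃ q ∈ M, IsStarProjection q ∧ f * q = q ∧ ‖(f - q) v‖ ≤ θ ∧
      ‖q * (R.pin p x - a) * q‖ ≤ c

theorem pin_sa {r : ℕ} {p : Fin r → H →L[ℂ] H} (pp : IsPartition A p) (hs : IsSelfAdjoint T) :
    IsSelfAdjoint (pin p T) :=
  isSelfAdjoint_sum _ fun i _ => hs.conjugate_self (pp.1 i).2.isSelfAdjoint

theorem semi (hS : SingStmt.{u}) (hV : AvgStmt.{u}) (hA : IsMasa A M) (hM : StdSemifinite M)
    {r : ℕ} (hC : CP A M r c) (s : ℕ) (hη : 0 < η) : ∀ x ∈ M, IsSelfAdjoint x →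
      SoPavable A M x (c + (1 / 2) ^ s + 3 * η) (r + 2 ^ s) := by
  refine tail fun x hx hs hn F δ d0 => ?_
  obtain ⟨ξ, hξ, g, hg, pg, gF, gc⟩ := hM F _ (half_pos d0)
  obtain ⟨m⟩ := P132.tt P132.t1 P132.bi P132.filt H M ξ hξ
  obtain ⟨θ, t0, hθ⟩ := sepF hξ.2 F (half_pos d0)
  have gg := pg.isIdempotentElem.eq
  have r1 : ∀ x ∈ M, m.R (g * x * g) ξ = (g * x * g) ξ := fun x hx =>
    cent m (mul_mem (mul_mem hg hx) hg) fun a ha => by
      rw [star_mul, star_mul, pg.isSelfAdjoint.star_eq, ← mul_assoc]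
      exact gc _ (star_mem hx) a ha
  obtain ⟨κ, k0, hκ⟩ := hS H A M ξ m hA hξ g hg pg (by simpa [gg] using r1 1 (one_mem _)) s
    (min η (η * θ ^ 2 / 2)) (lt_min hη (by positivity))
  obtain ⟨f, hf, pf, ζ, z1, z2, z3, n, e, pe, he⟩ := hV H A M ξ m hA hξ g hg pg r1 κ k0
  have fM := hA.1 f hf
  have kA : 1 - f ∈ A := sub_mem (one_mem _) hf
  have kM := hA.1 _ kA
  have ff := pf.isIdempotentElem.eq
  have kk := pf.one_sub.isIdempotentElem.eq
  obtain ⟨p', pp', a', aA', as', an', fa', b2⟩ := hκ _ kA pf.one_sub n e pe he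
    ((1 - f) * x * (1 - f)) (mul_mem (mul_mem kM hx) kM)
    (hs.conjugate_self pf.one_sub.isSelfAdjoint)
    ((norm_mul₃_le.trans (mul_le_one₀ (mul_le_one₀ pf.one_sub.norm_le (norm_nonneg _) hn)
      (norm_nonneg _) pf.one_sub.norm_le)))
    (by rw [← mul_assoc, ← mul_assoc, kk, mul_assoc, kk])
  obtain ⟨p, pp, a, aA, as, an, fa, q, qM, q1, fq, q2, q3⟩ := hC f hf pf ζ z1 z2 z3 x hx hs hn
    (g ξ) (η * θ / 6) (by positivity)
  obtain ⟨P, PP, hP⟩ := app hA hf pf pp pp'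
  have af : f * a * f = a := by rw [fa, ← hA.2.1 _ hf _ aA, fa]
  have af' : (1 - f) * a' * (1 - f) = a' := by rw [fa', ← hA.2.1 _ kA _ aA', fa']
  have qf : q * f = q := by
    simpa only [star_mul, q1.isSelfAdjoint.star_eq, pf.isSelfAdjoint.star_eq] using
      congrArg star fq
  obtain ⟨S, hSd⟩ : ∃ S, S = pin p x - a := ⟨_, rfl⟩
  have SM : S ∈ M := hSd ▸ sub_mem (pin_mem hA pp hx) (hA.1 _ aA)
  have Ss : IsSelfAdjoint S := hSd ▸ (pin_sa pp hs).sub as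
  have Sn : ‖S‖ ≤ 2 := by
    rw [hSd]
    linarith [norm_sub_le (pin p x) a, CutA.pin_norm pp hs]
  rw [← hSd] at q3
  obtain ⟨y, hy⟩ : ∃ y, y = (f - q) * (S * ((2⁻¹ : ℂ) • (f + q))) := ⟨_, rfl⟩
  have sy : star y = (2⁻¹ : ℂ) • (f + q) * (S * (f - q)) := by
    simp [hy, Ss.star_eq, pf.isSelfAdjoint.star_eq, q1.isSelfAdjoint.star_eq, mul_assoc]
  have b1 := cross (ξ := ξ) (η' := η * θ ^ 2 / 2) hg pg (y := y)
    (hy ▸ mul_mem (sub_mem fM qM) (mul_mem SM (vn_smul_mem _ (add_mem fM qM)))) hη (by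
      have n1 : ‖(2⁻¹ : ℂ) • (f + q)‖ ≤ 1 := by
        rw [norm_smul, norm_inv, Complex.norm_ofNat]
        linarith [norm_add_le f q, pf.norm_le, q1.norm_le]
      have n2 : ‖star y (g ξ)‖ ≤ 2 * (η * θ / 6) := by
        rw [sy, mul_apply_eq_comp, mul_apply_eq_comp]
        exact ((le_opNorm _ _).trans (mul_le_of_le_one_left (norm_nonneg _) n1)).trans
          ((le_opNorm _ _).trans (mul_le_mul Sn q2 (norm_nonneg _) zero_le_two))
      have := pow_le_pow_left₀ (norm_nonneg _) n2 2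
      rw [inv_mul_le_iff₀ hη]
      nlinarith [sq_nonneg (η * θ)])
  have b0 := ofNorm (M := M) (ξ := ξ) pg (Ss.conjugate_self q1.isSelfAdjoint) q3
  have e0 : g * (pin P x - (a + a')) * g = g * (q * S * q) * g + g * (y + star y) * g +
      g * (pin p' ((1 - f) * x * (1 - f)) - a') * g := by
    have : f * S * f = q * S * q + (y + star y) := by
      rw [sy, hy]
      simp only [mul_smul_comm, smul_mul_assoc, mul_add, add_mul, mul_sub, sub_mul, mul_assoc]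
      module
    rw [← add_mul, ← add_mul, ← mul_add, ← mul_add, ← this, hP, hSd, mul_sub f, sub_mul (f * _),
      af]
    congr 2
    abel
  have b3 := (b0.add b1).add b2
  rw [← e0] at b3
  have c0 : 0 ≤ c := (norm_nonneg _).trans q3
  obtain ⟨Q, QM, Q1, Q0, Q2, Q3⟩ := cutg (c := c + (1 / 2) ^ s + 2 * η) hg pg
    (fun y hy => by simpa [gg] using gc 1 (one_mem _) y hy) ((pin_sa PP hs).sub (as.add as'))
    (by positivity) hη t0 (mono b3 (by linarith [min_le_left η (η * θ ^ 2 / 2)])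
      (by linarith [min_le_right η (η * θ ^ 2 / 2)]))
  have k : ∀ {a f : H →L[ℂ] H}, IsStarProjection f → IsSelfAdjoint a → ‖a‖ ≤ 1 →
      f * a * f = a → a ≤ f := fun {a f} pf as an h => by
    have := pf.isSelfAdjoint.conjugate_le_conjugate (le_nrm as an)
    simpa [h, pf.isIdempotentElem.eq] using this
  refine ⟨P, PP, a + a', add_mem aA aA', as.add as', norm_le_of_le (as.add as') zero_le_one ?_ ?_,
    Q, QM, Q1, fun v hv => ?_, Q3.trans (le_of_eq (by ring))⟩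
  · simpa using add_le_add (k pf as an af) (k pf.one_sub as' an' af')
  · simpa [add_comm] using add_le_add (k pf as.neg (by rwa [norm_neg]) (by simp [af]))
      (k pf.one_sub as'.neg (by rwa [norm_neg]) (by rw [mul_neg, neg_mul, af']))
  · rw [show (1 - Q) v = (1 - g) v + (g - Q) v by simp]
    linarith [norm_add_le ((1 - g) v) ((g - Q) v), gF v hv, hθ _ (sub_mem hg QM) Q0 Q2 v hv]

theorem noexp (hS : SingStmt.{u}) (hP : ProjStmt.{u}) (hA : IsMasa A M) (hξ : StdVec M ξ)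
    (hN : NoExp A M) (s : ℕ) (hη : 0 < η) : ∀ x ∈ M, IsSelfAdjoint x →
      SoPavable A M x ((1 / 2) ^ s + 2 * η) (2 ^ s) := by
  refine tail fun x hx hs hn F δ d0 => ?_
  obtain ⟨m⟩ := P132.tt P132.t1 P132.bi P132.filt H M ξ hξ
  obtain ⟨θ, t0, hθ⟩ := sepF hξ.2 F d0
  have p1 := IsStarProjection.one (H →L[ℂ] H)
  obtain ⟨κ, k0, hκ⟩ := hS H A M ξ m hA hξ 1 (one_mem _) p1 (by rw [m.R_one]) s
    (min η (η * θ ^ 2)) (lt_min hη (by positivity))
  obtain ⟨ζ, z1, z2⟩ := hP H A M ξ m hA ξ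
  obtain rfl : ζ = 0 := hN ζ fun a ha y hy => by
    rw [mul_apply_eq_comp, mul_apply_eq_comp, ← star_star a, inner_star_right,
      z1 _ (star_mem ha), m.R_star, ← inner_star_right, star_star, star_star, z1 a ha,
      m.comm_R hy (hA.1 a ha)]
  obtain ⟨n, e, pe, he⟩ := z2 κ k0
  obtain ⟨p, pp, a, aA, as, an, -, b⟩ := hκ 1 (one_mem _) p1 n e pe
    (by simpa using he n e pe fun j => ⟨j, (pe.1 j).2.isIdempotentElem.eq⟩) x hx hs hn (by simp)
  obtain ⟨Q, QM, Q1, Q0, Q2, Q3⟩ := cutg (c := (1 / 2) ^ s + η) (one_mem M) p1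
    (fun y hy => by simp) ((pin_sa pp hs).sub as) (by positivity) hη t0
    (mono b (by linarith [min_le_left η (η * θ ^ 2)]) (min_le_right _ _))
  exact ⟨p, pp, a, aA, as, an, Q, QM, Q1, hθ _ (sub_mem (one_mem _) QM) Q0 Q2,
    Q3.trans (le_of_eq (by ring))⟩

theorem ex_s {t : ℝ} (h0 : 0 < t) (h1 : t ≤ 1) : ∃ s : ℕ, (1 / 2 : ℝ) ^ s ≤ t ∧ 2 ^ s ≤ 2 / t := by
  obtain ⟨n, n1, n2⟩ := exists_nat_pow_near (x := 1 / t) (y := 2) (by rwa [le_div_iff₀ h0, one_mul])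
    one_lt_two
  refine ⟨n + 1, ?_, ?_⟩
  · rw [one_div_pow, div_le_iff₀ (by positivity)]
    rw [div_lt_iff₀ h0] at n2
    linarith
  · rw [pow_succ, show 2 / t = 1 / t * 2 by ring]
    linarith

theorem So.mono {x : H →L[ℂ] H} {ε ε' : ℝ} {r : ℕ} (h : SoPavable A M x ε r) (e : ε ≤ ε') :
    SoPavable A M x ε' r := fun F δ d => by
  obtain ⟨p, pp, a, aA, as, an, q, qM, q1, q2, q3⟩ := h F δ d
  exact ⟨p, pp, a, aA, as, an, q, qM, q1, q2,
    q3.trans (mul_le_mul_of_nonneg_right e (norm_nonneg _))⟩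

theorem noexp' (hS : SingStmt.{u}) (hP : ProjStmt.{u}) (hA : IsMasa A M) {ε : ℝ} (e0 : 0 < ε)
    (e1 : ε < 1) (hξ : StdVec M ξ) (hN : NoExp A M) : ∃ r : ℕ, 1 ≤ r ∧ (r : ℝ) ≤ 4 / ε ∧
      ∀ x ∈ M, IsSelfAdjoint x → SoPavable A M x ε r := by
  obtain ⟨s, s1, s2⟩ := ex_s (half_pos e0) (by linarith)
  refine ⟨2 ^ s, Nat.one_le_two_pow, ?_, fun x hx hs =>
    So.mono (noexp hS hP hA hξ hN s (show 0 < ε / 4 by positivity) x hx hs) (by linarith)⟩
  push_cast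
  exact s2.trans (le_of_eq (by field_simp; norm_num))

end FN

open FN in
theorem finN (h2 : Final2Stmt.{u}) (hS : SingStmt.{u}) (hP : ProjStmt.{u}) (hV : AvgStmt.{u})
    (hC : CorStmt.{u}) : FinalNStmt.{u} := by
  obtain ⟨C, h2⟩ := h2
  refine ⟨|C| + (41 ^ 6 + 8), fun H _ _ _ A M hA ε e0 e1 => ⟨?_, ?_⟩⟩
  · rintro (⟨ξ, ht⟩ | hM)
    · obtain ⟨r, r1, r2, h⟩ := h2 H A M ξ hA ht ε e0 e1
      refine ⟨r, r1, r2.trans (div_le_div_of_nonneg_right ?_ (by positivity)), h⟩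
      linarith [le_abs_self C]
    · obtain ⟨s, s1, s2⟩ := ex_s (show 0 < ε / 4 by positivity) (by linarith)
      obtain ⟨m, hm⟩ : ∃ m, m = ⌈40 / ε⌉₊ := ⟨_, rfl⟩
      have m1 : 40 / ε ≤ m := hm ▸ Nat.le_ceil _
      have m2 : (m : ℝ) < 40 / ε + 1 := hm ▸ Nat.ceil_lt_add_one (by positivity)
      have m3 : 40 ≤ 40 / ε := by rw [le_div_iff₀ e0]; linarith
      have m4 : 2 ≤ m := by exact_mod_cast (show (2 : ℝ) ≤ m by linarith)
      have m0 : 1 ≤ 1 / ε := by rw [le_div_iff₀ e0]; linarith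
      have m5 : (m : ℝ) ≤ 41 / ε := by
        rw [show 41 / ε = 40 / ε + 1 / ε by ring]
        linarith
      have m6 : 20 / (m : ℝ) ≤ ε / 2 := by
        rw [div_le_iff₀ (by linarith)]
        rw [div_le_iff₀ e0] at m1
        linarith
      have η0 : 0 < ε / 20 := by positivity
      refine ⟨m ^ 2 * m ^ 2 * m ^ 2 + 2 ^ s, le_add_left Nat.one_le_two_pow, ?_, fun x hx hs =>
        So.mono (semi hS hV hA hM (fun f hf pf ζ z1 z2 z3 =>
          hC H A M hA f hf pf ζ z1 z2 z3 m m4 _ η0) s η0 x hx hs) (by linarith)⟩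
      have a1 := pow_le_pow_left₀ (by positivity) m5 6
      have a2 : 1 / ε ≤ (1 / ε) ^ 6 := le_self_pow₀ m0 (by norm_num)
      have a3 : 0 ≤ |C| / ε ^ 6 := by positivity
      rw [show 2 / (ε / 4) = 8 * (1 / ε) by field_simp; norm_num] at s2
      rw [div_pow] at a1 a2
      push_cast
      rw [← pow_add, ← pow_add, show (|C| + (41 ^ 6 + 8)) / ε ^ 6 =
        |C| / ε ^ 6 + 41 ^ 6 / ε ^ 6 + 8 * (1 ^ 6 / ε ^ 6) by ring]
      linarith
  · rintro ⟨ξ, hξ⟩ hN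
    obtain ⟨r, r1, r2, h⟩ := noexp' hS hP hA e0 e1 hξ hN
    refine ⟨r, r1, r2.trans (div_le_div_of_nonneg_right ?_ e0.le), h⟩
    linarith [abs_nonneg C]

end Vale.Agent.P078
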