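import Vale.Agent.P078.Fin4
import Vale.Agent.P078.FinN
import Vale.Agent.P078.Cor

/-! The optimal number of pieces in the semifinite case and in the absence of expectations. -/

namespace Vale.Agent.P078

universe u

/-- The merged final statement. -/
def Final5Stmt : Prop := ∃ C : ℝ, ∀ (H : Type u) [NormedAddCommGroup H] [InnerProductSpace ℂ H]
  [CompleteSpace H] (A M : VonNeumannAlgebra H), IsMasa A M →
  ((∃ ξ, TraceVec M ξ) ∨ StdSemifinite M ∨ ((∃ ξ, StdVec M ξ) ∧ NoExp A M)) →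
  ∀ ε : ℝ, 0 < ε → ε < 1 → ∃ r : ℕ, 1 ≤ r ∧ (r : ℝ) ≤ C / ε ^ 2 ∧
    ∀ x ∈ M, IsSelfAdjoint x → SoPavable A M x ε r

open FN in
theorem fin5 (h3 : Core3Stmt.{u}) (hB : Block2Stmt.{u}) (hT : AtomStmt.{u}) (hL : Cut2Stmt.{u})
    (hS : SingStmt.{u}) (hP : ProjStmt.{u}) (hV : AvgStmt.{u}) : Final5Stmt.{u} := by
  obtain ⟨C, h2⟩ := fin4 h3 hB hT hL
  refine ⟨|C| + (65 ^ 2 + 8), fun H _ _ _ A M hA h ε e0 e1 => ?_⟩
  have m0 : 1 ≤ 1 / ε := by rw [le_div_iff₀ e0]; linarith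
  have a2 : 1 / ε ≤ (1 / ε) ^ 2 := le_self_pow₀ m0 (by norm_num)
  have a3 : 0 ≤ |C| / ε ^ 2 := by positivity
  have a4 : 0 ≤ 1 ^ 2 / ε ^ 2 := by positivity
  have a5 : 0 ≤ 65 ^ 2 / ε ^ 2 := by positivity
  have e : (|C| + (65 ^ 2 + 8)) / ε ^ 2 =
      |C| / ε ^ 2 + 65 ^ 2 / ε ^ 2 + 8 * (1 ^ 2 / ε ^ 2) := by ring
  rw [div_pow] at a2
  rcases h with ⟨ξ, ht⟩ | hM | ⟨⟨ξ, hξ⟩, hN⟩
  · obtain ⟨r, r1, r2, h⟩ := h2 H A M ξ hA ht ε e0 e1
    refine ⟨r, r1, r2.trans (div_le_div_of_nonneg_right ?_ (by positivity)), h⟩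
    linarith [le_abs_self C]
  · obtain ⟨s, s1, s2⟩ := ex_s (show 0 < ε / 4 by positivity) (by linarith)
    obtain ⟨m, hm⟩ : ∃ m, m = ⌈64 / ε⌉₊ := ⟨_, rfl⟩
    have m1 : 64 / ε ≤ m := hm ▸ Nat.le_ceil _
    have m2 : (m : ℝ) < 64 / ε + 1 := hm ▸ Nat.ceil_lt_add_one (by positivity)
    have m3 : 64 ≤ 64 / ε := by rw [le_div_iff₀ e0]; linarith
    have m4 : 2 ≤ m := by exact_mod_cast (show (2 : ℝ) ≤ m by linarith)
    have m5 : (m : ℝ) ≤ 65 / ε := by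
      rw [show 65 / ε = 64 / ε + 1 / ε by ring]
      linarith
    have m6 : 32 / (m : ℝ) ≤ ε / 2 := by
      rw [div_le_iff₀ (by linarith)]
      rw [div_le_iff₀ e0] at m1
      linarith
    have η0 : 0 < ε / 20 := by positivity
    have r0 : 0 < m ^ 2 := by positivity
    refine ⟨m ^ 2 + 2 ^ s, le_add_left Nat.one_le_two_pow, ?_, fun x hx hs =>
      So.mono (semi hS hV hA hM (c := 32 / m + 2 * (ε / 20))
        (fun f hf pf ζ z1 z2 z3 x hx hs hn v θ hθ => Cor.gen ⟨0, r0⟩ (by positivity)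
          (fun K _ _ _ A M ξ hA ht x hx hs hn θ hθ =>
            F4.gen h3 hB hT hL hA ht m4 η0 hx hs hn hθ) hA hf pf z1 z2 z3 hx hs hn v hθ)
        s η0 x hx hs) (by linarith)⟩
    have a1 := pow_le_pow_left₀ (by positivity) m5 2
    rw [show 2 / (ε / 4) = 8 * (1 / ε) by field_simp; norm_num] at s2
    rw [div_pow] at a1
    push_cast
    linarith
  · obtain ⟨r, r1, r2, h⟩ := noexp' hS hP hA e0 e1 hξ hN
    refine ⟨r, r1, r2.trans ?_, h⟩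
    rw [show 4 / ε = 4 * (1 / ε) by ring]
    linarith

end Vale.Agent.P078
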