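import Vale.Agent.P078.N2
import Vale.Agent.P078.FinN
import Vale.Agent.P078.WPave
import Vale.Agent.P078.Block
import Vale.Agent.P078.Cor

/-! Paving when the abelian algebra lies in the centralizer of a faithful state. -/

namespace Vale.Agent.P078

open scoped InnerProductSpace InnerProduct ComplexConjugate ComplexOrder
open Vale.Agent.P104 Vale.Agent.P082 ContinuousLinearMap Finset Filter Topology

universe u

variable {H : Type u} [NormedAddCommGroup H] [InnerProductSpace ℂ H] [CompleteSpace H]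
  {A M : VonNeumannAlgebra H} {ξ : H}

namespace NT

open R F2 FN

theorem cut (hA : IsMasa A M) (ht : CV A M ξ) {y : H →L[ℂ] H} (hy : y ∈ M) (hn : NoAtom A ξ y)
    {ε : ℝ} (hε : 0 < ε) : ∃ (N : ℕ) (e : Fin N → H →L[ℂ] H), IsPartition A e ∧
      ∃ q ∈ M, IsStarProjection q ∧ ‖(1 - q) ξ‖ ≤ ε ∧ ∀ a b, ‖e a * (q * y * q) * e b‖ ≤ ε := by
  obtain ⟨N, e, he, q, qM, q1, qc, q2, h⟩ := cutF hA ht (ι := Unit) (fun _ => y)
    (fun _ => hy) (fun _ => hn) hε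
  refine ⟨N, e, he, q, qM, q1, q2, fun a b => ?_⟩
  have : e a * (q * y * q) * e b = q * (e a * y * e b * q) := by
    rw [mul_assoc (e a * y), qc b, ← mul_assoc, ← mul_assoc, ← mul_assoc, ← mul_assoc, qc a]
    simp only [mul_assoc]
  rw [this]
  exact (norm_mul_le _ _).trans
    ((mul_le_of_le_one_left (norm_nonneg _) q1.norm_le).trans (h () a b))

theorem wpave (hA : IsMasa A M) (ht : CV A M ξ) {m : ℕ} (hm : 2 ≤ m) {y : H →L[ℂ] H}
    (hy : y ∈ M) (ys : IsSelfAdjoint y) (y1 : ‖y‖ ≤ 1) (hat : NoAtom A ξ y) {η : ℝ} (hη : 0 < η) :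
    ∃ p : Fin (m ^ 2) → H →L[ℂ] H, IsPartition A p ∧ Tb M ξ (pin p y) (5 / m) η := by
  have m0 : (2 : ℝ) ≤ m := by exact_mod_cast hm
  obtain ⟨c, hc⟩ : ∃ c : ℝ, c = 4 / m := ⟨_, rfl⟩
  have c0 : 0 < c := by rw [hc]; positivity
  obtain ⟨k, hk⟩ := exists_pow_lt_of_lt_one (show 0 < η / 2 / c by positivity)
    (show (1 / 2 : ℝ) < 1 by norm_num)
  obtain ⟨C, hC⟩ := block (m ^ 2) (2 * (k + 1)) (by nlinarith)
  obtain ⟨ε, h1, ε0⟩ := (Eventually.and (Eventually.filter_mono (nhdsWithin_le_nhds (s := Set.Ioi 0))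
    (((show Continuous fun ε : ℝ => c * (c⁻¹ ^ (2 * (k + 1)) * (C * ε)) + m * (2 * ε) ^ 2 by
      fun_prop).continuousAt (x := 0)).eventually (gt_mem_nhds (a := η / 2) (by simpa using hη))))
    self_mem_nhdsWithin).exists
  obtain ⟨ε', ε1, hε'⟩ := P132.strong_of_sep ht.2.2 (y ξ) 1 ε ε0
  obtain ⟨N, e, he, q, qM, q1, q2', q3'⟩ := cut hA ht hy hat (lt_min ε0 ε1)
  have q2 := q2'.trans (min_le_left _ _)
  have q3 := fun a b => (q3' a b).trans (min_le_left _ _)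
  have qs := q1.isSelfAdjoint
  have qn := q1.norm_le
  have zs : IsSelfAdjoint (q * y * q) := ys.conjugate_self qs
  have zM : q * y * q ∈ M := mul_mem (mul_mem qM hy) qM
  have n1 : ‖q * y‖ ≤ 1 := (norm_mul_le _ _).trans (mul_le_one₀ qn (norm_nonneg _) y1)
  obtain ⟨ω, hω⟩ := hC H N e (fun a => (he.1 a).2) he.2.1 he.2.2 (q * y * q) zs
    ((norm_mul_le _ _).trans (mul_le_one₀ n1 (norm_nonneg _) qn)) ε q3 ξ ht.1
  have PP := WP.part he ω
  set p := fun k => ∑ a with ω a = k, e a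
  obtain ⟨d, hd⟩ : ∃ d, d = y - q * y * q := ⟨_, rfl⟩
  have dM : star d * d ∈ M := hd ▸ mul_mem (star_mem (sub_mem hy zM)) (sub_mem hy zM)
  have ds : IsSelfAdjoint d := hd ▸ ys.sub zs
  have dn : ‖d ξ‖ ≤ 2 * ε := by
    have e1 : d = (1 - q) * y + q * y * (1 - q) := by
      rw [hd]
      noncomm_ring
    have e3 := hε' _ (sub_mem (one_mem _) qM) q1.one_sub.norm_le (q2'.trans (min_le_right _ _))
    have e4 := le_of_opNorm_le _ n1 ((1 - q) ξ)
    rw [e1, add_apply]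
    refine (norm_add_le _ _).trans ?_
    rw [mul_apply_eq_comp, mul_apply_eq_comp]
    linarith
  have one : ∀ c : ℂ, pin p (c • 1) = c • 1 := fun c => pin_fix PP fun i => by simp
  have γ0 : (0 : ℝ) < 1 / m := by positivity
  obtain ⟨D, hD⟩ : ∃ D, D = (((1 / m : ℝ)⁻¹ : ℝ) : ℂ) • pin p (star d * d) := ⟨_, rfl⟩
  have D0 : 0 ≤ D := hD ▸ smul_nn (inv_nonneg.2 γ0.le) (pin_nonneg PP (star_mul_self_nonneg d))
  have b3 : pin p d ≤ ((1 / m : ℝ) : ℂ) • 1 + D := by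
    rw [hD, ← pin_smul, ← one, ← pin_add]
    exact pin_mono PP (sq_le ds γ0)
  have b4 : -pin p d ≤ ((1 / m : ℝ) : ℂ) • 1 + D := by
    rw [hD, ← pin_smul, ← one, ← pin_add, ← pin_neg]
    simpa only [star_neg, neg_mul_neg] using pin_mono PP (sq_le ds.neg γ0)
  obtain ⟨S, hS⟩ : ∃ S, S = pin p (q * y * q) := ⟨_, rfl⟩
  rw [← hS] at hω
  have Ss : IsSelfAdjoint S := hS ▸ isSelfAdjoint_sum _ fun i _ =>
    zs.conjugate_self (PP.1 i).2.isSelfAdjoint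
  have SM : S ∈ M := hS ▸ pin_mem hA PP zM
  obtain ⟨T, hT⟩ : ∃ T, T = ((c⁻¹ : ℝ) : ℂ) • S := ⟨_, rfl⟩
  have Ts : IsSelfAdjoint T :=
    hT ▸ (show IsSelfAdjoint ((c⁻¹ : ℝ) : ℂ) from Complex.conj_ofReal _).smul Ss
  have eT : S = (c : ℂ) • T := by
    rw [hT, smul_smul, ← Complex.ofReal_mul, mul_inv_cancel₀ c0.ne', Complex.ofReal_one, one_smul]
  have b1 : S ≤ (c : ℂ) • 1 + (c : ℂ) • T ^ (2 * (k + 1)) := by
    rw [eT, ← smul_add, ← sub_nonneg, ← smul_sub]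
    exact smul_nn c0.le (sub_nonneg.2 (WP.le_pow Ts k))
  have b2 : -S ≤ (c : ℂ) • 1 + (c : ℂ) • T ^ (2 * (k + 1)) := by
    rw [eT, ← smul_add, ← smul_neg, ← sub_nonneg, ← smul_sub, ← (even_two_mul (k + 1)).neg_pow]
    exact smul_nn c0.le (sub_nonneg.2 (WP.le_pow Ts.neg k))
  have e0 : pin p y = S + pin p d := by rw [hS, hd, ← pin_add, add_sub_cancel]
  have e5 : (((5 / m : ℝ) : ℂ) • 1 : H →L[ℂ] H) = (c : ℂ) • 1 + ((1 / m : ℝ) : ℂ) • 1 := by
    rw [← add_smul, ← Complex.ofReal_add, hc]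
    congr 2
    ring
  refine ⟨p, PP, (c : ℂ) • T ^ (2 * (k + 1)) + D, add_mem (vn_smul_mem _ (pow_mem
    (hT ▸ vn_smul_mem _ SM) _)) (hD ▸ vn_smul_mem _ (pin_mem hA PP dM)), add_nonneg
    (smul_nn c0.le ?_) D0, ?_, ?_, ?_⟩
  · rw [two_mul, pow_add]
    nth_rw 1 [← (Ts.pow (k + 1)).star_eq]
    exact star_mul_self_nonneg _
  · rw [Nat.cast_pow, Real.sqrt_sq (by linarith)] at hω
    have e6 : c⁻¹ ^ (2 * (k + 1)) * (2 / (m : ℝ)) ^ (2 * (k + 1)) ≤ (1 / 2) ^ k := by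
      rw [← mul_pow, show c⁻¹ * (2 / (m : ℝ)) = 1 / 2 by rw [hc]; field_simp; norm_num]
      exact pow_le_pow_of_le_one (by norm_num) (by norm_num) (by omega)
    have e7 := mul_le_mul_of_nonneg_left hω (show 0 ≤ c⁻¹ ^ (2 * (k + 1)) by positivity)
    have e8 := pow_le_pow_left₀ (norm_nonneg _) dn 2
    rw [lt_div_iff₀' c0] at hk
    simp only [hD, hT, smul_pow, add_apply, smul_apply, inner_add_right, inner_smul_right,
      pin_tr hA ht PP dM, Complex.add_re, ← Complex.ofReal_pow, Complex.re_ofReal_mul,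
      ← norm_sq_apply, one_div, inv_inv]
    rw [mul_add (c⁻¹ ^ _)] at e7
    have e9 := mul_le_mul_of_nonneg_left (e7.trans (add_le_add e6 le_rfl)) c0.le
    have e10 := mul_le_mul_of_nonneg_left e8 (show (0 : ℝ) ≤ m by linarith)
    rw [mul_add c] at e9
    linarith
  · rw [e0, e5]
    exact (add_le_add b1 b3).trans_eq (by abel)
  · rw [e0, e5, neg_add]
    exact (add_le_add b2 b4).trans_eq (by abel)

theorem half (hA : IsMasa A M) (ht : CV A M ξ) {x0 : H →L[ℂ] H} (xM : x0 ∈ M)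
    (x2 : IsSelfAdjoint x0) (x3 : ‖x0‖ ≤ 1) : ∃ a ∈ A, IsSelfAdjoint a ∧ ‖a‖ ≤ 1 ∧
    ∃ y ∈ M, IsSelfAdjoint y ∧ ‖y‖ ≤ 1 ∧ (∀ b ∈ A, ⟪ξ, (b * y) ξ⟫_ℂ = 0) ∧
      x0 = y + y + a := by
  obtain ⟨a0, a1, a2, a3⟩ := ce hA ht x0 xM
  obtain ⟨a, ha⟩ : ∃ a, a = (2⁻¹ : ℂ) • (a0 + star a0) := ⟨_, rfl⟩
  have aA : a ∈ A := ha ▸ vn_smul_mem _ (add_mem a1 (star_mem a1))
  have as : IsSelfAdjoint a := ha ▸ half_sa a0
  have an : ‖a‖ ≤ 1 := ha ▸ (half_norm a0).trans (a2.trans x3)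
  have at' : ∀ b ∈ A, ⟪ξ, (b * a) ξ⟫_ℂ = ⟪ξ, (b * x0) ξ⟫_ℂ := fun b hb => by
    have e : ⟪ξ, (b * star a0) ξ⟫_ℂ = ⟪ξ, (b * x0) ξ⟫_ℂ := by
      have := congrArg conj (a3 _ (star_mem hb))
      rw [inner_conj_symm, inner_conj_symm, ← inner_star_right, ← inner_star_right, star_mul,
        star_mul, star_star, x2.star_eq] at this
      rw [hA.2.1 _ hb _ (star_mem a1), this, ht.r xM hb]
    rw [ha, mul_smul_comm, mul_add, smul_apply, add_apply, inner_smul_right, inner_add_right, e,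
      a3 b hb]
    ring
  refine ⟨a, aA, as, an, (2⁻¹ : ℂ) • (x0 - a), vn_smul_mem _ (sub_mem xM (hA.1 _ aA)),
    by simp [IsSelfAdjoint, x2.star_eq, as.star_eq], ?_, fun b hb => ?_, by module⟩
  · rw [norm_smul, norm_inv, Complex.norm_ofNat]
    linarith [norm_sub_le x0 a]
  · rw [mul_smul_comm, mul_sub, smul_apply, sub_apply, inner_smul_right, inner_sub_right,
      at' b hb, sub_self, mul_zero]

/-- Every unitary of `M` normalizing `A` lies in `A`. -/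
def Sg (A M : VonNeumannAlgebra H) : Prop := ∀ u, Normalizes A M u → u ∈ A

theorem Sg.nsp (h : Sg A M) {b : H →L[ℂ] H} (hb : b ∈ nsp A M) : b ∈ A :=
  Submodule.span_induction (p := fun a _ => a ∈ A) h (zero_mem _)
    (fun _ _ _ _ => add_mem) (fun c _ _ => vn_smul_mem c) hb

theorem oneS (hA : IsMasa A M) (ht : CV A M ξ) (hS : Sg A M) {m : ℕ} (hm : 2 ≤ m) {η : ℝ}
    (hη : 0 < η) {x : H →L[ℂ] H} (hx : x ∈ M) (hs : IsSelfAdjoint x) (hn : ‖x‖ ≤ 1) {θ : ℝ}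
    (hθ : 0 < θ) : ∃ p : Fin (m ^ 2) → H →L[ℂ] H, IsPartition A p ∧ ∃ a ∈ A, IsSelfAdjoint a ∧
      ‖a‖ ≤ 1 ∧ ∃ q ∈ M, IsStarProjection q ∧ ‖(1 - q) ξ‖ ≤ θ ∧
        ‖q * (pin p x - a) * q‖ ≤ 10 / m + η := by
  obtain ⟨a, aA, as, an, y, yM, ys, yn, y4, e⟩ := half hA ht hx hs hn
  have hat : NoAtom A ξ y := wm hA ht (fun b hb x hx => ht.r hx (hS.nsp hb)) yM fun b hb => by
    rw [← inner_star_right, ← mul_apply_eq_comp]
    exact y4 _ (star_mem (hS.nsp hb))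
  obtain ⟨p, pp, b⟩ := wpave hA ht hm yM ys yn hat (show 0 < η * θ ^ 2 / 2 by positivity)
  have e0 : 1 * (pin p x - a) * 1 = pin p y + pin p y := by
    rw [e, pin_add, pin_add, pin_fix pp fun i => hA.2.1 _ (pp.1 i).1 _ aA, add_sub_cancel_right,
      one_mul, mul_one]
  have b2 := b.add b
  rw [← e0, add_halves] at b2
  obtain ⟨q, qM, q1, -, q2, q3⟩ := cutg (one_mem M) (.one _) (fun y hy => by simp)
    ((pin_sa pp hs).sub as) (by positivity) hη hθ b2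
  exact ⟨p, pp, a, aA, as, an, q, qM, q1, q2, q3.trans (le_of_eq (by ring))⟩

section corner

open Cor

variable {K : Type u} [NormedAddCommGroup K] [InnerProductSpace ℂ K] [CompleteSpace K]
  {V : K →L[ℂ] H}

theorem cv (h : Iso V) (hA : IsMasa A M) (he : ex V 1 ∈ A) {ζ : H} (h0 : ζ ≠ 0)
    (h1 : ex V 1 ζ = ζ) (h2 : ∀ a ∈ A, ∀ x ∈ M, ⟪ζ, (a * x) ζ⟫_ℂ = ⟪ζ, (x * a) ζ⟫_ℂ)
    (h3 : ∀ x ∈ M, (ex V 1 * x * ex V 1) ζ = 0 → ex V 1 * x * ex V 1 = 0) :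
    CV (corner A V) (corner M V) (((‖ζ‖⁻¹ : ℝ) : ℂ) • (V†) ζ) := by
  have heM := hA.1 _ he
  have n0 : ‖ζ‖ ≠ 0 := norm_ne_zero_iff.2 h0
  have n1 : ‖(V†) ζ‖ = ‖ζ‖ := by
    rw [← h.norm]
    exact congrArg norm h1
  have k : ∀ T : K →L[ℂ] K, ⟪(V†) ζ, T ((V†) ζ)⟫_ℂ = ⟪ζ, ex V T ζ⟫_ℂ := fun T => by
    rw [adjoint_inner_left, ex_apply]
  refine ⟨?_, fun S hS T hT => ?_, fun T hT e => ?_⟩
  · rw [norm_smul, n1, Complex.norm_real, norm_inv, norm_norm, inv_mul_cancel₀ n0]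
  · have := h2 _ (h.ex_mem he hS) _ (h.ex_mem heM hT)
    simp only [← h.ex_mul] at this
    simp only [map_smul, inner_smul_left, inner_smul_right, k, this]
  · rw [map_smul, smul_eq_zero] at e
    have e' : T ((V†) ζ) = 0 := e.resolve_left (by exact_mod_cast inv_ne_zero n0)
    have := h3 _ (h.ex_mem heM hT) (by rw [h.one_ex, h.ex_one, ex_apply, e', map_zero])
    rw [h.one_ex, h.ex_one] at this
    rw [← h.cp_ex T, this, cp_zero]

theorem nrm_ext (h : Iso V) (hA : IsMasa A M) (he : ex V 1 ∈ A) {u : K →L[ℂ] K}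
    (hu : Normalizes (corner A V) (corner M V) u) : Normalizes A M (ex V u + (1 - ex V 1)) := by
  have heM := hA.1 _ he
  have pe := h.proj (.one _)
  have kA := sub_mem (one_mem A) he
  have z1 : ∀ T, ex V T * (1 - ex V 1) = 0 := fun T => by rw [mul_sub, mul_one, h.ex_one, sub_self]
  have z2 : ∀ T, (1 - ex V 1) * ex V T = 0 := fun T => by rw [sub_mul, one_mul, h.one_ex, sub_self]
  have st : star (ex V u + (1 - ex V 1)) = ex V (star u) + (1 - ex V 1) := by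
    rw [star_add, ex_star, pe.one_sub.isSelfAdjoint.star_eq]
  have k : ∀ S T : K →L[ℂ] K, ∀ a ∈ A, (ex V S + (1 - ex V 1)) * a * (ex V T + (1 - ex V 1)) =
      ex V (S * cp V a * T) + (1 - ex V 1) * a * (1 - ex V 1) := fun S T a ha => by
    have c := hA.2.1 _ kA _ ha
    rw [add_mul, add_mul, mul_add, mul_add, ex_mid, mul_assoc (ex V S) a, ← c, ← mul_assoc, z1,
      zero_mul, add_zero, c, mul_assoc a _ (ex V T), z2, mul_zero, zero_add]
  have k1 : ∀ S T : K →L[ℂ] K, S * T = 1 →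
      (ex V S + (1 - ex V 1)) * (ex V T + (1 - ex V 1)) = 1 := fun S T e => by
    rw [add_mul, mul_add, mul_add, z1, z2, ← h.ex_mul, e, pe.one_sub.isIdempotentElem.eq]
    abel
  refine ⟨add_mem (h.ex_mem heM hu.1) (hA.1 _ kA), ⟨by rw [st, k1 _ _ hu.2.1.1],
    by rw [st, k1 _ _ hu.2.1.2]⟩, fun a ha => ?_, fun a ha => ?_⟩
  · rw [st, k _ _ a ha]
    exact add_mem (h.ex_mem he (hu.2.2.1 _ (h.cp_mem he ha))) (mul_mem (mul_mem kA ha) kA)
  · rw [st, k _ _ a ha]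
    exact add_mem (h.ex_mem he (hu.2.2.2 _ (h.cp_mem he ha))) (mul_mem (mul_mem kA ha) kA)

theorem Sg.corner (h : Iso V) (hA : IsMasa A M) (he : ex V 1 ∈ A) (hS : Sg A M) :
    Sg (corner A V) (corner M V) := fun u hu => by
  have := sub_mem (hS _ (nrm_ext h hA he hu)) (sub_mem (one_mem A) he)
  rw [add_sub_cancel_right] at this
  rw [← h.cp_ex u]
  exact h.cp_mem he this

theorem genC {r : ℕ} (k₀ : Fin r) {c : ℝ} (hc : 0 ≤ c)
    (one : ∀ (K : Type u) [NormedAddCommGroup K] [InnerProductSpace ℂ K] [CompleteSpace K]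
      (V : K →L[ℂ] H) (ξ : K), Iso V → ex V 1 ∈ A → CV (corner A V) (corner M V) ξ →
      ∀ x ∈ corner M V, IsSelfAdjoint x →
      ‖x‖ ≤ 1 → ∀ θ : ℝ, 0 < θ → ∃ p : Fin r → K →L[ℂ] K, IsPartition (corner A V) p ∧
        ∃ a ∈ corner A V, IsSelfAdjoint a ∧ ‖a‖ ≤ 1 ∧ ∃ q ∈ corner M V, IsStarProjection q ∧
          ‖(1 - q) ξ‖ ≤ θ ∧ ‖q * (R.pin p x - a) * q‖ ≤ c)
    (hA : IsMasa A M) {f : H →L[ℂ] H} (fA : f ∈ A) (hf : IsStarProjection f) {ζ : H}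
    (h1 : f ζ = ζ)
    (h2 : ∀ a ∈ A, ∀ x ∈ M, ⟪ζ, (a * x) ζ⟫_ℂ = ⟪ζ, (x * a) ζ⟫_ℂ)
    (h3 : ∀ x ∈ M, (f * x * f) ζ = 0 → f * x * f = 0) {x : H →L[ℂ] H} (hx : x ∈ M)
    (hs : IsSelfAdjoint x) (hn : ‖x‖ ≤ 1) (v : H) {θ : ℝ} (hθ : 0 < θ) :
    ∃ p : Fin r → H →L[ℂ] H, IsPartition A p ∧ ∃ a ∈ A, IsSelfAdjoint a ∧
      ‖a‖ ≤ 1 ∧ f * a = a ∧ ∃ q ∈ M, IsStarProjection q ∧ f * q = q ∧ ‖(f - q) v‖ ≤ θ ∧
        ‖q * (R.pin p x - a) * q‖ ≤ c := by
  classical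
  by_cases h0 : ζ = 0
  · have f0 : f = 0 := by
      have := h3 1 (one_mem _) (by rw [h0, map_zero])
      rwa [mul_one, hf.1.eq] at this
    refine ⟨fun k => if k = k₀ then 1 else 0, ⟨fun i => ?_, fun i j hij => ?_, by simp⟩, 0,
      zero_mem _, .zero _, by simp, by simp, 0, zero_mem _, .zero _, by simp, ?_, by simpa using hc⟩
    · dsimp only
      split_ifs
      · exact ⟨one_mem _, .one _⟩
      · exact ⟨zero_mem _, .zero _⟩
    · dsimp only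
      split_ifs with a b
      · exact absurd (a.trans b.symm) hij
      all_goals simp
    · simpa [f0] using hθ.le
  obtain ⟨K, _, _, _, V, h, rfl⟩ := exists_range hf
  have fM := hA.1 _ fA
  have ht := cv h hA fA h0 h1 h2 h3
  obtain ⟨θ₀, t0, hθ₀⟩ := sepF ht.2.2 {(V†) v} hθ
  obtain ⟨p, pp, a, aA, as, an, q, qM, q1, q2, q3⟩ := one K V _ h fA ht (cp V x)
    (h.cp_mem fM hx) (by rw [IsSelfAdjoint, ← cp_star, hs.star_eq]) ((h.cp_le x).trans hn) θ₀ t0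
  have z1 : ∀ T, ex V T * (1 - ex V 1) = 0 := fun T => by rw [mul_sub, mul_one, h.ex_one, sub_self]
  have z2 : ∀ T, (1 - ex V 1) * ex V T = 0 := fun T => by rw [sub_mul, one_mul, h.one_ex, sub_self]
  let g : Fin r → H →L[ℂ] H := fun k => if k = k₀ then 1 - ex V 1 else 0
  have g1 : ∀ T k, ex V T * g k = 0 := fun T k => by
    simp only [g]
    split_ifs
    · exact z1 T
    · exact mul_zero _
  have g2 : ∀ T k, g k * ex V T = 0 := fun T k => by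
    simp only [g]
    split_ifs
    · exact z2 T
    · exact zero_mul _
  have g3 : ∀ k, g k ∈ A ∧ IsStarProjection (g k) := fun k => by
    simp only [g]
    split_ifs
    · exact ⟨sub_mem (one_mem _) fA, hf.one_sub⟩
    · exact ⟨zero_mem _, .zero _⟩
  refine ⟨fun k => ex V (p k) + g k, ⟨fun i => ⟨add_mem (h.ex_mem fA (pp.1 i).1) (g3 i).1,
      (h.proj (pp.1 i).2).add (g3 i).2 (g1 _ _)⟩, fun i j hij => ?_, ?_⟩, ex V a, h.ex_mem fA aA,
    by rw [IsSelfAdjoint, ← ex_star, as.star_eq], (h.ex_le a).trans an, h.one_ex a, ex V q,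
    h.ex_mem fM qM, h.proj q1, h.one_ex q, ?_, ?_⟩
  · have : g i * g j = 0 := by
      simp only [g]
      split_ifs with a b
      · exact absurd (a.trans b.symm) hij
      all_goals simp
    rw [add_mul, mul_add, mul_add, g1, g2, this, ← h.ex_mul, pp.2.1 i j hij, ex_zero]
    simp
  · rw [Finset.sum_add_distrib, ← ex_sum, pp.2.2]
    simp [g]
  · rw [← ex_sub, ex_apply, h.norm]
    exact (hθ₀ _ (sub_mem (one_mem _) qM) q1.one_sub.norm_le q2 _ (Finset.mem_singleton_self _)).le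
  · have e : ex V q * (R.pin (fun k => ex V (p k) + g k) x - ex V a) * ex V q =
        ex V (q * (R.pin p (cp V x) - a) * q) := by
      simp only [R.pin, mul_sub, sub_mul, Finset.mul_sum, Finset.sum_mul, ex_sub, ex_sum]
      congr 1
      · refine Finset.sum_congr rfl fun i _ => ?_
        calc ex V q * ((ex V (p i) + g i) * x * (ex V (p i) + g i)) * ex V q
            = ex V q * (ex V (p i) + g i) * x * ((ex V (p i) + g i) * ex V q) := by
              simp only [mul_assoc]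
          _ = _ := by
              rw [mul_add, add_mul (ex V (p i)), g1, g2, add_zero, add_zero, ← h.ex_mul,
                ← h.ex_mul, ex_mid]
              simp only [mul_assoc]
      · rw [h.ex_mul, h.ex_mul]
    rw [e]
    exact (h.ex_le _).trans q3

end corner

theorem supp (hA : IsMasa A M) (m : P132.Mod M ξ) {ζ : H} (hζ : ∀ a ∈ A, a ζ = m.R a ζ) :
    ∃ f ∈ A, IsStarProjection f ∧ f ζ = ζ ∧ ∀ x ∈ M, (f * x * f) ζ = 0 → f * x * f = 0 := by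
  let U : Submodule ℂ H := ⨅ x : {x : H →L[ℂ] H // x ∈ M ∧ x ζ = 0}, x.1.ker
  have hU : ∀ η, η ∈ U ↔ ∀ x ∈ M, x ζ = 0 → x η = 0 := fun η => by
    rw [Submodule.mem_iInf]
    exact ⟨fun h x hx h0 => h ⟨x, hx, h0⟩, fun h x => h x.1 x.2.1 x.2.2⟩
  have cl : IsClosed (U : Set H) := by
    rw [Submodule.coe_iInf]
    exact isClosed_iInter fun x => isClosed_ker x.1
  have : CompleteSpace U := cl.completeSpace_coe
  have pf : IsStarProjection U.starProjection := isStarProjection_starProjection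
  have i1 : ∀ y ∈ M.commutant, ∀ z ∈ U, y z ∈ U := fun y hy z hz => (hU _).2 fun x hx h0 => by
    rw [← mul_apply_eq_comp, commute_of_mem hx hy, mul_apply_eq_comp, (hU z).1 hz x hx h0, map_zero]
  have i2 : ∀ a ∈ A, ∀ z ∈ U, a z ∈ U := fun a ha z hz => (hU _).2 fun x hx h0 =>
    (hU z).1 hz (x * a) (mul_mem hx (hA.1 a ha)) (by
      rw [mul_apply_eq_comp, hζ a ha, m.comm_R hx (hA.1 a ha), h0, map_zero])
  have fM : U.starProjection ∈ M := mem_of_commute fun y hy =>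
    commute_starProjection U y (i1 y hy) (i1 _ (star_mem hy))
  refine ⟨U.starProjection, hA.2.2 _ fM fun a ha =>
    commute_starProjection U a (i2 a ha) (i2 _ (star_mem ha)), pf,
    Submodule.starProjection_eq_self_iff.2 ((hU ζ).2 fun _ _ h => h), fun x hx h0 => ?_⟩
  ext η
  have := (hU _).1 (U.starProjection_apply_mem η) _ (mul_mem (mul_mem fM hx) fM) h0
  rwa [← mul_apply_eq_comp, mul_assoc, pf.isIdempotentElem.eq] at this

/-- Paving in the corners with an expectation. -/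
def CPC (A M : VonNeumannAlgebra H) (r : ℕ) (c : ℝ) : Prop := ∀ f ∈ A, IsStarProjection f →
  ∀ ζ : H, f ζ = ζ → (∀ a ∈ A, ∀ x ∈ M, ⟪ζ, (a * x) ζ⟫_ℂ = ⟪ζ, (x * a) ζ⟫_ℂ) →
  (∀ x ∈ M, (f * x * f) ζ = 0 → f * x * f = 0) →
  ∀ x ∈ M, IsSelfAdjoint x → ‖x‖ ≤ 1 → ∀ (v : H) (θ : ℝ), 0 < θ →
  ∃ p : Fin r → H →L[ℂ] H, IsPartition A p ∧ ∃ a ∈ A, IsSelfAdjoint a ∧
    ‖a‖ ≤ 1 ∧ f * a = a ∧ ∃ q ∈ M, IsStarProjection q ∧ f * q = q ∧ ‖(f - q) v‖ ≤ θ ∧
      ‖q * (R.pin p x - a) * q‖ ≤ c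

theorem mixed (hS : SingStmt.{u}) (hP : ProjStmt.{u}) (hA : IsMasa A M) (hξ : StdVec M ξ)
    {r : ℕ} {c η : ℝ} (hC : CPC A M r c) (s : ℕ) (hη : 0 < η) : ∀ x ∈ M, IsSelfAdjoint x →
      SoPavable A M x (c + (1 / 2) ^ s + 3 * η) (r + 2 ^ s) := by
  refine tail fun x hx hs hn F δ d0 => ?_
  obtain ⟨g, hg1⟩ : ∃ g : H →L[ℂ] H, g = 1 := ⟨_, rfl⟩
  have hg : g ∈ M := hg1 ▸ one_mem M
  have pg : IsStarProjection g := hg1 ▸ .one _
  have gF : ∀ v ∈ F, ‖(1 - g) v‖ < δ / 2 := fun v _ => by simpa [hg1] using d0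
  obtain ⟨m⟩ := P132.tt P132.t1 P132.bi P132.filt H M ξ hξ
  obtain ⟨θ, t0, hθ⟩ := sepF hξ.2 F (half_pos d0)
  have gg := pg.isIdempotentElem.eq
  obtain ⟨κ, k0, hκ⟩ := hS H A M ξ m hA hξ g hg pg (by rw [hg1, m.R_one]) s
    (min η (η * θ ^ 2 / 2)) (lt_min hη (by positivity))
  obtain ⟨ζ, z0, z4⟩ := hP H A M ξ m hA ξ
  obtain ⟨f, hf, pf, z1, z3⟩ := supp hA m z0
  have z2 : ∀ a ∈ A, ∀ y ∈ M, ⟪ζ, (a * y) ζ⟫_ℂ = ⟪ζ, (y * a) ζ⟫_ℂ := fun a ha y hy => by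
    rw [mul_apply_eq_comp, mul_apply_eq_comp, ← star_star a, inner_star_right,
      z0 _ (star_mem ha), m.R_star, ← inner_star_right, star_star, star_star, z0 a ha,
      m.comm_R hy (hA.1 a ha)]
  obtain ⟨n, e, pe, he'⟩ := z4 κ k0
  have he : ‖∑ i, (1 - f) (e i (m.R (e i) (g ξ)))‖ ≤ κ := by
    have a1 := he' n e pe fun j => ⟨j, (pe.1 j).2.isIdempotentElem.eq⟩
    have a2 : (1 - f) ζ = 0 := by rw [sub_apply, z1, one_apply_eq_self, sub_self]
    rw [← map_sum, hg1, one_apply_eq_self, ← sub_zero ((1 - f) _), ← a2, ← map_sub]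
    exact ((1 - f).le_opNorm _).trans
      ((mul_le_of_le_one_left (norm_nonneg _) pf.one_sub.norm_le).trans a1)
  have fM := hA.1 f hf
  have kA : 1 - f ∈ A := sub_mem (one_mem _) hf
  have kM := hA.1 _ kA
  have ff := pf.isIdempotentElem.eq
  have kk := pf.one_sub.isIdempotentElem.eq
  obtain ⟨p', pp', a', aA', as', an', fa', b2⟩ := hκ _ kA pf.one_sub n e pe he
    ((1 - f) * x * (1 - f)) (mul_mem (mul_mem kM hx) kM)
    (hs.conjugate_self pf.one_sub.isSelfAdjoint)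
    ((norm_mul₃_le.trans (mul_le_one₀ (mul_le_one₀ pf.one_sub.norm_le (norm_nonneg _) hn)
      (norm_nonneg _) pf.one_sub.norm_le)))
    (by rw [← mul_assoc, ← mul_assoc, kk, mul_assoc, kk])
  obtain ⟨p, pp, a, aA, as, an, fa, q, qM, q1, fq, q2, q3⟩ := hC f hf pf ζ z1 z2 z3 x hx hs hn
    (g ξ) (η * θ / 6) (by positivity)
  obtain ⟨P, PP, hP⟩ := app hA hf pf pp pp'
  have af : f * a * f = a := by rw [fa, ← hA.2.1 _ hf _ aA, fa]
  have af' : (1 - f) * a' * (1 - f) = a' := by rw [fa', ← hA.2.1 _ kA _ aA', fa']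
  have qf : q * f = q := by
    simpa only [star_mul, q1.isSelfAdjoint.star_eq, pf.isSelfAdjoint.star_eq] using
      congrArg star fq
  obtain ⟨S, hSd⟩ : ∃ S, S = pin p x - a := ⟨_, rfl⟩
  have SM : S ∈ M := hSd ▸ sub_mem (pin_mem hA pp hx) (hA.1 _ aA)
  have Ss : IsSelfAdjoint S := hSd ▸ (pin_sa pp hs).sub as
  have Sn : ‖S‖ ≤ 2 := by
    rw [hSd]
    linarith [norm_sub_le (pin p x) a, CutA.pin_norm pp hs]
  rw [← hSd] at q3
  obtain ⟨y, hy⟩ : ∃ y, y = (f - q) * (S * ((2⁻¹ : ℂ) • (f + q))) := ⟨_, rfl⟩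
  have sy : star y = (2⁻¹ : ℂ) • (f + q) * (S * (f - q)) := by
    simp [hy, Ss.star_eq, pf.isSelfAdjoint.star_eq, q1.isSelfAdjoint.star_eq, mul_assoc]
  have b1 := cross (ξ := ξ) (η' := η * θ ^ 2 / 2) hg pg (y := y)
    (hy ▸ mul_mem (sub_mem fM qM) (mul_mem SM (vn_smul_mem _ (add_mem fM qM)))) hη (by
      have n1 : ‖(2⁻¹ : ℂ) • (f + q)‖ ≤ 1 := by
        rw [norm_smul, norm_inv, Complex.norm_ofNat]
        linarith [norm_add_le f q, pf.norm_le, q1.norm_le]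
      have n2 : ‖star y (g ξ)‖ ≤ 2 * (η * θ / 6) := by
        rw [sy, mul_apply_eq_comp, mul_apply_eq_comp]
        exact ((le_opNorm _ _).trans (mul_le_of_le_one_left (norm_nonneg _) n1)).trans
          ((le_opNorm _ _).trans (mul_le_mul Sn q2 (norm_nonneg _) zero_le_two))
      have := pow_le_pow_left₀ (norm_nonneg _) n2 2
      rw [inv_mul_le_iff₀ hη]
      nlinarith [sq_nonneg (η * θ)])
  have b0 := ofNorm (M := M) (ξ := ξ) pg (Ss.conjugate_self q1.isSelfAdjoint) q3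
  have e0 : g * (pin P x - (a + a')) * g = g * (q * S * q) * g + g * (y + star y) * g +
      g * (pin p' ((1 - f) * x * (1 - f)) - a') * g := by
    have : f * S * f = q * S * q + (y + star y) := by
      rw [sy, hy]
      simp only [mul_smul_comm, smul_mul_assoc, mul_add, add_mul, mul_sub, sub_mul, mul_assoc]
      module
    rw [← add_mul, ← add_mul, ← mul_add, ← mul_add, ← this, hP, hSd, mul_sub f, sub_mul (f * _),
      af]
    congr 2
    abel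
  have b3 := (b0.add b1).add b2
  rw [← e0] at b3
  have c0 : 0 ≤ c := (norm_nonneg _).trans q3
  obtain ⟨Q, QM, Q1, Q0, Q2, Q3⟩ := cutg (c := c + (1 / 2) ^ s + 2 * η) hg pg
    (fun y hy => by simp [hg1]) ((pin_sa PP hs).sub (as.add as'))
    (by positivity) hη t0 (mono b3 (by linarith [min_le_left η (η * θ ^ 2 / 2)])
      (by linarith [min_le_right η (η * θ ^ 2 / 2)]))
  have k : ∀ {a f : H →L[ℂ] H}, IsStarProjection f → IsSelfAdjoint a → ‖a‖ ≤ 1 →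
      f * a * f = a → a ≤ f := fun {a f} pf as an h => by
    have := pf.isSelfAdjoint.conjugate_le_conjugate (le_nrm as an)
    simpa [h, pf.isIdempotentElem.eq] using this
  refine ⟨P, PP, a + a', add_mem aA aA', as.add as', norm_le_of_le (as.add as') zero_le_one ?_ ?_,
    Q, QM, Q1, fun v hv => ?_, Q3.trans (le_of_eq (by ring))⟩
  · simpa using add_le_add (k pf as an af) (k pf.one_sub as' an' af')
  · simpa [add_comm] using add_le_add (k pf as.neg (by rwa [norm_neg]) (by simp [af]))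
      (k pf.one_sub as'.neg (by rwa [norm_neg]) (by rw [mul_neg, neg_mul, af']))
  · rw [show (1 - Q) v = (1 - g) v + (g - Q) v by simp]
    linarith [norm_add_le ((1 - g) v) ((g - Q) v), gF v hv, hθ _ (sub_mem hg QM) Q0 Q2 v hv]

theorem singular (hS : SingStmt.{u}) (hP : ProjStmt.{u}) (hA : IsMasa A M) (hξ : StdVec M ξ)
    (hs : Sg A M) {ε : ℝ} (e0 : 0 < ε) (e1 : ε < 1) : ∃ r : ℕ, 1 ≤ r ∧ (r : ℝ) ≤ 449 / ε ^ 2 ∧
      ∀ x ∈ M, IsSelfAdjoint x → SoPavable A M x ε r := by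
  have m0 : 1 ≤ 1 / ε := by rw [le_div_iff₀ e0]; linarith
  have a2 : 1 / ε ≤ (1 / ε) ^ 2 := le_self_pow₀ m0 (by norm_num)
  rw [div_pow] at a2
  obtain ⟨s, s1, s2⟩ := ex_s (show 0 < ε / 4 by positivity) (by linarith)
  obtain ⟨m, hm⟩ : ∃ m, m = ⌈20 / ε⌉₊ := ⟨_, rfl⟩
  have m1 : 20 / ε ≤ m := hm ▸ Nat.le_ceil _
  have m2 : (m : ℝ) < 20 / ε + 1 := hm ▸ Nat.ceil_lt_add_one (by positivity)
  have m3 : 20 ≤ 20 / ε := by rw [le_div_iff₀ e0]; linarith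
  have m4 : 2 ≤ m := by exact_mod_cast (show (2 : ℝ) ≤ m by linarith)
  have m5 : (m : ℝ) ≤ 21 / ε := by
    rw [show 21 / ε = 20 / ε + 1 / ε by ring]
    linarith
  have m6 : 10 / (m : ℝ) ≤ ε / 2 := by
    rw [div_le_iff₀ (by linarith)]
    rw [div_le_iff₀ e0] at m1
    linarith
  have η0 : 0 < ε / 20 := by positivity
  have r0 : 0 < m ^ 2 := by positivity
  refine ⟨m ^ 2 + 2 ^ s, le_add_left Nat.one_le_two_pow, ?_, fun x hx hx' =>
    So.mono (mixed hS hP hA hξ (c := 10 / m + ε / 20)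
      (fun f hf pf ζ z1 z2 z3 x hx hx' hn v θ hθ => genC ⟨0, r0⟩ (by positivity)
        (fun K _ _ _ V ξ h fA ht x hx hx' hn θ hθ =>
          oneS (Cor.masa h hA fA) ht (hs.corner h hA fA) m4 η0 hx hx' hn hθ)
        hA hf pf z1 z2 z3 hx hx' hn v hθ) s η0 x hx hx') (by linarith)⟩
  have a1 := pow_le_pow_left₀ (by positivity) m5 2
  rw [show 2 / (ε / 4) = 8 * (1 / ε) by field_simp; norm_num] at s2
  rw [div_pow] at a1
  rw [show 449 / ε ^ 2 = 21 ^ 2 / ε ^ 2 + 8 * (1 ^ 2 / ε ^ 2) by ring]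
  push_cast
  linarith

end NT

end Vale.Agent.P078
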