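import Vale.Agent.P078.StmN
import Vale.Agent.P078.Cut

/-! Pinchings of a vector converge to a central vector. -/

namespace Vale.Agent.P078.ProjA

open scoped InnerProductSpace ComplexOrder
open Vale.Agent.P104 Finset Filter Topology

universe u

variable {H : Type u} [NormedAddCommGroup H] [InnerProductSpace ℂ H] [CompleteSpace H]
  {A M : VonNeumannAlgebra H} {ξ : H} (m : P132.Mod M ξ) {n n' : ℕ} {e : Fin n → H →L[ℂ] H}
  {e' : Fin n' → H →L[ℂ] H}

/-- The pinching operator on vectors. -/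
noncomputable def ps (e : Fin n → H →L[ℂ] H) : H →L[ℂ] H := ∑ i, e i * m.R (e i)

theorem ps_ref (hA : IsMasa A M) (he : IsPartition A e) (he' : IsPartition A e')
    (h : ∀ j, ∃ i, e i * e' j = e' j) : ps m e * ps m e' = ps m e' := by
  rw [ps, ps, mul_sum]
  refine sum_congr rfl fun j _ => ?_
  obtain ⟨i, hi⟩ := h j
  have k : ∀ l, e l * m.R (e l) * (e' j * m.R (e' j)) = e l * e' j * m.R (e' j * e l) := fun l => by
    rw [m.R_mul, mul_assoc, ← mul_assoc (m.R (e l)),
      ← commute_of_mem (hA.1 _ (he'.1 j).1) (m.R_mem (hA.1 _ (he.1 l).1))]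
    simp only [mul_assoc]
  rw [sum_mul, sum_eq_single i (fun l _ hl => by
    rw [k, ← hi, ← mul_assoc, he.2.1 l i hl, zero_mul, zero_mul]) (by simp), k,
    hA.2.1 _ (he'.1 j).1 _ (he.1 i).1, hi]

theorem ps_proj (hA : IsMasa A M) (he : IsPartition A e) : IsStarProjection (ps m e) := by
  refine ⟨ps_ref m hA he he fun j => ⟨j, (he.1 j).2.isIdempotentElem.eq⟩,
    isSelfAdjoint_sum _ fun i _ => ?_⟩
  rw [IsSelfAdjoint, star_mul, ← m.R_star, (he.1 i).2.isSelfAdjoint.star_eq,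
    commute_of_mem (hA.1 _ (he.1 i).1) (m.R_mem (hA.1 _ (he.1 i).1))]

theorem ps_sq (hA : IsMasa A M) (he : IsPartition A e) (he' : IsPartition A e')
    (h : ∀ j, ∃ i, e i * e' j = e' j) (v : H) :
    ‖ps m e v - ps m e' v‖ ^ 2 = ‖ps m e v‖ ^ 2 - ‖ps m e' v‖ ^ 2 := by
  have p := (ps_proj m hA he').sub_of_mul_eq_right (ps_proj m hA he) (ps_ref m hA he he' h)
  rw [← proj_inner (ps_proj m hA he), ← proj_inner (ps_proj m hA he'), ← sub_apply,
    ← proj_inner p, sub_apply, inner_sub_right, Complex.sub_re]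

theorem prod (hA : IsMasa A M) (he : IsPartition A e) (he' : IsPartition A e') :
    ∃ P : Fin (n * n') → H →L[ℂ] H, IsPartition A P ∧ (∀ j, ∃ i, e i * P j = P j) ∧
      ∀ j, ∃ i, e' i * P j = P j := by
  obtain ⟨P, hP, r1, r2⟩ := CutA.prod_rf hA he he'
  refine ⟨P, hP, fun j => ?_, fun j => ?_⟩
  · obtain ⟨i, hi⟩ := r1 j
    exact ⟨i, by rw [hA.2.1 _ (he.1 i).1 _ (hP.1 j).1, hi]⟩
  · obtain ⟨i, hi⟩ := r2 j
    exact ⟨i, by rw [hA.2.1 _ (he'.1 i).1 _ (hP.1 j).1, hi]⟩

theorem cen {w : H} (h : ∀ E ∈ A, IsStarProjection E → E w = m.R E w) :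
    ∀ a ∈ A, a w = m.R a w := by
  have key := bis_principle (M := A) (IsStarProjection.one (H →L[ℂ] H))
    (fun h => ‖h w - m.R h w‖) (2 * ‖w‖) 0 ?_ ?_ ?_
  · intro z hz
    let S : Submodule ℂ (H →L[ℂ] H) :=
      { carrier := {h | h w = m.R h w}
        add_mem' := fun {a b} (ha : a w = m.R a w) (hb : b w = m.R b w) =>
          show (a + b) w = m.R (a + b) w by rw [m.R_add, add_apply, add_apply, ha, hb]
        zero_mem' := show (0 : H →L[ℂ] H) w = m.R 0 w by rw [m.R_zero]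
        smul_mem' := fun c a (ha : a w = m.R a w) =>
          show (c • a) w = m.R (c • a) w by rw [m.R_smul, smul_apply, smul_apply, ha] }
    refine corner_span (one_mem A) (IsStarProjection.one _) S (fun h hM h0 h1 => ?_) z hz (by simp)
    exact sub_eq_zero.1 (norm_le_zero_iff.1 (key h hM h0 h1))
  · intro h _ h0 h1
    have hn := norm_le_one_of_le_proj (IsStarProjection.one _) h0 h1
    have a1 : ‖h w‖ ≤ ‖w‖ := (h.le_opNorm w).trans (mul_le_of_le_one_left (norm_nonneg _) hn)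
    have a2 : ‖m.R h w‖ ≤ ‖w‖ := ((m.R h).le_opNorm w).trans
      (mul_le_of_le_one_left (norm_nonneg _) (by rwa [m.norm_R]))
    have := norm_sub_le (h w) (m.R h w)
    linarith
  · intro h _ _ _ E _ _ _
    have e : (2 : ℂ) • (h w - m.R h w) = (E w - m.R E w) +
        (((2 : ℂ) • h - E) w - m.R ((2 : ℂ) • h - E) w) := by
      rw [m.R_sub, m.R_smul, sub_apply, sub_apply, smul_apply, smul_apply, smul_sub]
      abel
    have := norm_add_le (E w - m.R E w) (((2 : ℂ) • h - E) w - m.R ((2 : ℂ) • h - E) w)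
    rw [← e, norm_smul] at this
    simpa using this
  · intro E hEM hE _
    simp [h E hEM hE]

theorem small (hA : IsMasa A M) {v : H}
    (hv : ∀ w : H, (∀ a ∈ A, a w = m.R a w) → ⟪w, v⟫_ℂ = 0) {κ : ℝ} (hκ : 0 < κ) :
    ∃ (n : ℕ) (e : Fin n → H →L[ℂ] H), IsPartition A e ∧ ‖ps m e v‖ ≤ κ := by
  by_contra hh
  push Not at hh
  let S : Set ℝ := {x | ∃ (n : ℕ) (e : Fin n → H →L[ℂ] H), IsPartition A e ∧ ‖ps m e v‖ = x}
  have hne : S.Nonempty := ⟨_, 1, fun _ => 1, ⟨fun _ => ⟨one_mem A, .one _⟩,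
    fun i j h => absurd (Subsingleton.elim i j) h, by simp⟩, rfl⟩
  have hlo : ∀ x ∈ S, κ ≤ x := by
    rintro _ ⟨n, e, he, rfl⟩
    exact (hh n e he).le
  have hbd : BddBelow S := ⟨κ, hlo⟩
  obtain ⟨ρ, ha, hr, hrK⟩ := exists_seq_tendsto_sInf hne hbd
  have c0 : κ ≤ sInf S := le_csInf hne hlo
  have hm : ∀ (n : ℕ) (e : Fin n → H →L[ℂ] H), IsPartition A e → sInf S ≤ ‖ps m e v‖ :=
    fun n e he => csInf_le hbd ⟨n, e, he, rfl⟩
  generalize sInf S = c at hr c0 hm
  choose N P hP hPr using hrK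
  have k3 : Tendsto (fun n => 2 * √(ρ n ^ 2 - c ^ 2)) atTop (𝓝 0) := by
    have := ((hr.pow 2).sub_const (c ^ 2)).sqrt.const_mul 2
    rwa [sub_self, Real.sqrt_zero, mul_zero] at this
  have close : ∀ k j, k ≤ j → ∀ {s : ℕ} {Q : Fin s → H →L[ℂ] H}, IsPartition A Q →
      (∀ l, ∃ i, P j i * Q l = Q l) → ‖ps m (P j) v - ps m Q v‖ ≤ √(ρ k ^ 2 - c ^ 2) := by
    intro k j hkj s Q hQ hr
    refine Real.le_sqrt_of_sq_le ?_
    rw [ps_sq m hA (hP j) hQ hr, hPr j]
    have a1 := pow_le_pow_left₀ (hκ.le.trans c0) (hm _ Q hQ) 2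
    have a2 := pow_le_pow_left₀ (hPr j ▸ norm_nonneg _) (ha hkj) 2
    linarith
  have hc : CauchySeq fun n => ps m (P n) v := by
    refine cauchySeq_of_le_tendsto_0 _ (fun i j k hi hj => ?_) k3
    obtain ⟨Q, hQ, r1, r2⟩ := prod hA (hP i) (hP j)
    have := dist_triangle_right (ps m (P i) v) (ps m (P j) v) (ps m Q v)
    rw [dist_eq_norm _ (ps m Q v), dist_eq_norm _ (ps m Q v)] at this
    linarith [close k i hi hQ r1, close k j hj hQ r2]
  obtain ⟨w, hw⟩ := cauchySeq_tendsto_of_complete hc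
  have wK : ∀ a ∈ A, a w = m.R a w := by
    refine cen m fun E hEA pE => ?_
    have hR : IsPartition A ![E, 1 - E] := by
      refine ⟨fun i => ?_, fun i j hij => ?_, by simp⟩
      · fin_cases i
        · exact ⟨hEA, pE⟩
        · exact ⟨sub_mem (one_mem A) hEA, pE.one_sub⟩
      · fin_cases i <;> fin_cases j <;> simp_all [mul_sub, sub_mul, pE.isIdempotentElem.eq]
    have p := (ps_proj m hA hR).one_sub
    have k1 : Tendsto (fun n => (1 - ps m ![E, 1 - E]) (ps m (P n) v)) atTop (𝓝 0) := by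
      rw [tendsto_zero_iff_norm_tendsto_zero]
      refine squeeze_zero (fun _ => norm_nonneg _) (fun n => ?_) k3
      obtain ⟨Q, hQ, r1, r2⟩ := prod hA (hP n) hR
      have a1 : (1 - ps m ![E, 1 - E]) (ps m Q v) = 0 := by
        rw [← mul_apply_eq_comp, sub_mul, one_mul, ps_ref m hA hR hQ r2, sub_self]
        rfl
      have a2 := (1 - ps m ![E, 1 - E]).le_opNorm (ps m (P n) v - ps m Q v)
      rw [map_sub, a1, sub_zero] at a2
      have a3 := mul_le_of_le_one_left (norm_nonneg (ps m (P n) v - ps m Q v)) p.norm_le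
      linarith [close n n le_rfl hQ r1, Real.sqrt_nonneg (ρ n ^ 2 - c ^ 2)]
    have k2 := tendsto_nhds_unique (((1 - ps m ![E, 1 - E]).continuous.tendsto w).comp hw) k1
    have k4 : w = ps m ![E, 1 - E] w := sub_eq_zero.1 k2
    have cE := commute_of_mem (hA.1 _ hEA) (m.R_mem (hA.1 _ hEA))
    have eE := pE.isIdempotentElem.eq
    have rE : m.R E * m.R E = m.R E := by rw [← m.R_mul, eE]
    have k5 : E * ps m ![E, 1 - E] = m.R E * ps m ![E, 1 - E] := by
      have : ps m ![E, 1 - E] = E * m.R E + (1 - E) * (1 - m.R E) := by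
        have : 1 - m.R E = m.R (1 - E) := by rw [m.R_sub, m.R_one]
        rw [ps, Fin.sum_univ_two, this]
        rfl
      have b1 : E * ((1 - E) * (1 - m.R E)) = 0 := by
        rw [← mul_assoc, mul_sub E, mul_one, eE, sub_self, zero_mul]
      have b2 : m.R E * ((1 - E) * (1 - m.R E)) = 0 := by
        have : m.R E * (1 - E) = (1 - E) * m.R E := by
          rw [mul_sub, sub_mul, mul_one, one_mul, cE]
        rw [← mul_assoc, this, mul_assoc, mul_sub (m.R E), mul_one, rE, sub_self, mul_zero]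
      rw [this, mul_add, mul_add, b1, b2, ← mul_assoc, eE, ← mul_assoc, ← cE, mul_assoc, rE]
    rw [k4, ← mul_apply_eq_comp, k5, mul_apply_eq_comp]
  have k1 : Tendsto (fun n => (⟪v, ps m (P n) v⟫_ℂ).re) atTop (𝓝 (⟪v, w⟫_ℂ).re) :=
    (Complex.continuous_re.tendsto _).comp (tendsto_const_nhds.inner hw)
  rw [← inner_conj_symm, hv w wK, map_zero, Complex.zero_re] at k1
  have k2 : c ^ 2 ≤ 0 := ge_of_tendsto' k1 fun n => by
    rw [proj_inner (ps_proj m hA (hP n))]
    exact pow_le_pow_left₀ (hκ.le.trans c0) (hm _ _ (hP n)) 2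
  have := pow_pos (hκ.trans_le c0) 2
  linarith

end Vale.Agent.P078.ProjA

namespace Vale.Agent.P078

open scoped InnerProductSpace
open ProjA Finset

universe u

theorem proj : ProjStmt.{u} := by
  intro H _ _ _ A M ξ m hA v
  let K : Submodule ℂ H := ⨅ a : A, (((a : H →L[ℂ] H) - m.R a).ker)
  have mK : ∀ w, w ∈ K ↔ ∀ a ∈ A, a w = m.R a w := fun w => by
    simp only [K, Submodule.mem_iInf, LinearMap.mem_ker, Subtype.forall]
    exact forall₂_congr fun a _ => sub_eq_zero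
  have hc : IsClosed (K : Set H) := by
    have : (K : Set H) = ⋂ a ∈ A, {w | a w = m.R a w} := by
      ext w
      simp [mK]
    rw [this]
    exact isClosed_biInter fun a _ => isClosed_eq a.continuous (m.R a).continuous
  have := hc.completeSpace_coe
  obtain ⟨ζ, hζ, w, hw, rfl⟩ := K.exists_add_mem_mem_orthogonal v
  refine ⟨ζ, (mK ζ).1 hζ, fun κ hκ => ?_⟩
  obtain ⟨n, e, he, h⟩ := small m hA (v := w)
    (fun y hy => Submodule.inner_right_of_mem_orthogonal ((mK y).2 hy) hw) hκ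
  refine ⟨n, e, he, fun n' e' he' hr => ?_⟩
  have a1 : ∑ j, e' j (m.R (e' j) (ζ + w)) - ζ = ps m e' w := by
    have b : ∑ j, e' j (m.R (e' j) ζ) = ζ := by
      have : ∀ j, e' j (m.R (e' j) ζ) = e' j ζ := fun j => by
        rw [← (mK ζ).1 hζ _ (he'.1 j).1, ← mul_apply_eq_comp, (he'.1 j).2.isIdempotentElem.eq]
      simp only [this]
      rw [← _root_.sum_apply, he'.2.2]
      rfl
    simp only [map_add, sum_add_distrib, b, add_sub_cancel_left, ps, _root_.sum_apply]
    rfl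
  rw [a1]
  have a2 := ps_sq m hA he he' hr w
  refine le_trans (P104.le_of_sq_le (norm_nonneg _) ?_) h
  linarith [sq_nonneg ‖ps m e w - ps m e' w‖]

end Vale.Agent.P078
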