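import Vale.Agent.P078.Sing1

/-! WP Sing: random signs on two levels. -/

namespace Vale.Agent.P078

open scoped InnerProductSpace ComplexConjugate ComplexOrder
open Vale.Agent.P104 Vale.Agent.P082 Finset Filter Topology
open Vale.Agent.P096 (av av_map av_sub av_const₂ nm_le)

universe u

namespace Sg

open R F2

variable {H : Type u} [NormedAddCommGroup H] [InnerProductSpace ℂ H] [CompleteSpace H]
  {A M : VonNeumannAlgebra H} {ξ : H} {n : ℕ} {e : Fin n → H →L[ℂ] H}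

theorem pyth (he : IsPartition A e) (v : H) : ∑ i, ‖e i v‖ ^ 2 = ‖v‖ ^ 2 := by
  simp only [fun i => (proj_inner (he.1 i).2 v).symm]
  rw [← Complex.re_sum, ← inner_sum, ← ContinuousLinearMap.sum_apply, he.2.2, one_apply_eq_self,
    ← RCLike.re_to_complex, inner_self_eq_norm_sq]

theorem pick (he : IsPartition A e) (B : Fin n) (w : Fin n → H →L[ℂ] H) :
    e B * ∑ i, e i * w i = e B * w B := by
  rw [mul_sum, sum_eq_single B (fun i _ hi => by rw [← mul_assoc, he.2.1 _ _ hi.symm, zero_mul])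
    (by simp), ← mul_assoc, (he.1 B).2.isIdempotentElem.eq]

theorem glue (hA : IsMasa A M) (he : IsPartition A e) {w : Fin n → H →L[ℂ] H}
    (hw : ∀ i, Sy A (w i)) : Sy A (∑ i, e i * w i) := by
  have c : ∀ i, e i * w i = w i * e i := fun i => hA.2.1 _ (he.1 i).1 _ (hw i).1
  refine ⟨sum_mem fun i _ => mul_mem (he.1 i).1 (hw i).1, ?_, ?_⟩
  · rw [star_sum]
    refine sum_congr rfl fun i _ => ?_
    rw [star_mul, (hw i).2.1, (he.1 i).2.isSelfAdjoint.star_eq, c]
  · rw [sum_mul, ← he.2.2]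
    refine sum_congr rfl fun i _ => ?_
    rw [c, mul_assoc, pick he, ← mul_assoc, ← c, mul_assoc, (hw i).2.2, mul_one]

theorem mean (hA : IsMasa A M) (he : IsPartition A e) {ι : Type} [Fintype ι] [Nonempty ι]
    {u : ι → H →L[ℂ] H} (hu : ∀ i, Sy A (u i)) (x : H →L[ℂ] H) {w : Bool × ι → H →L[ℂ] H}
    (hw : ∀ l, w l = if l.1 then u l.2 else -u l.2) :
    av univ (fun ω : Fin n → Bool × ι => (∑ i, e i * w (ω i)) * x * ∑ i, e i * w (ω i)) =
      av univ fun i => u i * pin e x * u i := by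
  have c : ∀ i j, e i * u j = u j * e i := fun i j => hA.2.1 _ (he.1 i).1 _ (hu j).1
  have k : ∀ B B', av univ (fun ω : Fin n → Bool × ι => e B * w (ω B) * x * (e B' * w (ω B'))) =
      if B = B' then av univ fun i => u i * (e B * x * e B) * u i else 0 := fun B B' => by
    split_ifs with h
    · subst h
      rw [av_coord B fun l => e B * w l * x * (e B * w l), av, av, Fintype.sum_prod_type]
      simp only [Fintype.sum_bool, hw, if_true, Bool.false_eq_true, if_false, mul_neg, neg_mul,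
        neg_neg, card_univ, Fintype.card_prod, Fintype.card_bool, ← two_smul ℂ, smul_smul]
      congr 1
      · have : (Fintype.card ι : ℂ) ≠ 0 := by simp
        push_cast
        field_simp
      · refine sum_congr rfl fun i _ => ?_
        nth_rw 1 [c]
        simp only [mul_assoc]
    · let σ : (Fin n → Bool × ι) → Fin n → Bool × ι :=
        fun ω => Function.update ω B (!(ω B).1, (ω B).2)
      have hσ : Function.Involutive σ := fun ω => by simp [σ]
      have s1 := Equiv.sum_comp (hσ.toPerm σ) fun ω : Fin n → Bool × ι => e B * w (ω B) * x * (e B' * w (ω B'))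
      have s2 : ∀ ω, e B * w (hσ.toPerm σ ω B) * x * (e B' * w (hσ.toPerm σ ω B')) =
          -(e B * w (ω B) * x * (e B' * w (ω B'))) := fun ω => by
        simp only [Function.Involutive.coe_toPerm, σ, Function.update_self,
          Function.update_of_ne (Ne.symm h)]
        rw [hw (_, _), hw (ω B)]
        cases (ω B).1 <;> simp
      simp only [s2, sum_neg_distrib] at s1
      rw [neg_eq_iff_add_eq_zero, ← two_smul ℂ, smul_eq_zero] at s1
      rw [av, s1.resolve_left two_ne_zero, smul_zero]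
  have sw : ∀ {κ : Type} [Fintype κ] (f : κ → Fin n → H →L[ℂ] H),
      av univ (fun l => ∑ B, f l B) = ∑ B, av univ fun l => f l B := fun f => by
    simp only [av]
    rw [sum_comm, smul_sum]
  simp only [pin, sum_mul, mul_sum, sw, k, sum_ite_eq', mem_univ, if_true]

theorem step (m : P132.Mod M ξ) (hA : IsMasa A M) {g h : H →L[ℂ] H} (gM : g ∈ M)
    (gp : IsStarProjection g) (gR : m.R g ξ = g ξ) (hh : h ∈ A) (hp : IsStarProjection h)
    (he : IsPartition A e) {τ : ℝ} (hτ : 0 < τ) {κ : ℝ} (k0 : 0 < κ)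
    (k1 : 16 * κ * (1 + ‖g ξ‖ ^ 2) ≤ τ ^ 2) (hκ : ‖∑ i, h (e i (m.R (e i) (g ξ)))‖ ≤ κ)
    {x : H →L[ℂ] H} (hx : x ∈ M) (hs : IsSelfAdjoint x) (hn : ‖x‖ ≤ 1) (hxh : h * x = x)
    {c : ℝ} (hc : 0 < c) : ∃ U, Sy A U ∧ ∃ a ∈ A, IsSelfAdjoint a ∧ ‖a‖ ≤ 1 ∧ h * a = a ∧
      Tb M ξ (g * (U * x * U - a) * g) (c + c) (c⁻¹ * (2 * (2 * τ)) ^ 2 + c⁻¹ * (2 * (2 * τ)) ^ 2) := by
  obtain ⟨L, nL, l1, l2⟩ := exG m
  set ζ := g ξ with hζ
  have eM : ∀ i, e i ∈ M := fun i => hA.1 _ (he.1 i).1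
  have es : ∀ i, star (e i) = e i := fun i => (he.1 i).2.isSelfAdjoint.star_eq
  have ee : ∀ i, e i * e i = e i := fun i => (he.1 i).2.isIdempotentElem.eq
  have gs := gp.isSelfAdjoint.star_eq
  have ng : ‖g‖ ≤ 1 := gp.norm_le
  have Jζ : m.J ζ = ζ := by rw [hζ, m.J_apply, gs, m.Jξ, gR]
  have Rζ : m.R g ζ = ζ := by
    rw [← gR, ← m.R_mul_apply, gp.isIdempotentElem.eq]
  have gζ : g ζ = ζ := by rw [hζ, ← mul_apply_eq_comp, gp.isIdempotentElem.eq]
  have he' : ∀ i, h * e i = e i * h := fun i => hA.2.1 _ hh _ (he.1 i).1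
  have f1 : ∀ z ∈ M, ‖L (g (z ζ))‖ ^ 2 ≤ (⟪z ζ, m.R z ζ⟫_ℂ).re := fun z hz => by
    have := l1 _ (mul_mem (mul_mem gM hz) gM)
    rw [m.R_mul_apply, m.R_mul_apply, gR, mul_apply_eq_comp, mul_apply_eq_comp, ← hζ,
      ← inner_star_left, ← m.R_star, gs, ← m.comm_R gM gM, ← m.comm_R hz gM, Rζ,
      ← inner_star_right, gs, m.comm_R gM hz, gζ] at this
    exact this
  have f2 : ∀ z : H →L[ℂ] H, ⟪star z ζ, m.R (star z) ζ⟫_ℂ = ⟪z ζ, m.R z ζ⟫_ℂ := fun z => by
    rw [← m.inner_J, m.J_R, m.J_apply (star z), star_star, Jζ]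
  let v : Fin n → H := fun i => h (e i (m.R (e i) ζ))
  have f3 : ∀ B, ∀ z ∈ M, e B * z = z → h * z = z →
      (⟪z ζ, m.R z ζ⟫_ℂ).re ≤ ‖z ζ‖ * (‖z‖ * ‖v B‖) := fun B z hz a1 a2 => by
    have : ⟪z ζ, m.R z ζ⟫_ℂ = ⟪z ζ, m.R z (v B)⟫_ℂ := by
      simp only [v]
      rw [← m.comm_R (hA.1 _ hh) hz, ← m.comm_R (eM B) hz, ← m.R_mul_apply, a1,
        ← inner_star_left h, hp.isSelfAdjoint.star_eq, ← inner_star_left (e B), es,
        ← mul_apply_eq_comp h,
        a2, ← mul_apply_eq_comp (e B), a1]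
    rw [this]
    refine (Complex.re_le_norm _).trans ((norm_inner_le_norm _ _).trans ?_)
    gcongr
    exact (m.R z).le_of_opNorm_le (m.norm_R z).le _
  have f4 : ∑ B, ‖v B‖ ^ 2 ≤ κ ^ 2 := by
    refine le_trans (le_of_eq ?_) (pow_le_pow_left₀ (norm_nonneg _) hκ 2)
    rw [← pyth he]
    refine sum_congr rfl fun B _ => ?_
    congr 2
    have := DFunLike.congr_fun (pick he B fun i => h * m.R (e i)) ζ
    simp only [← mul_assoc, ← he', mul_apply_eq_comp, ContinuousLinearMap.sum_apply] at this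
    exact this.symm
  have x0 : pin e x ∈ M := pin_mem hA he hx
  have x1 : IsSelfAdjoint (pin e x) := isSelfAdjoint_sum _ fun i _ =>
    hs.conjugate_self (he.1 i).2.isSelfAdjoint
  have le1 : ∀ y : H →L[ℂ] H, IsSelfAdjoint y → ‖y‖ ≤ 1 → pin e y ≤ ((1 : ℝ) : ℂ) • 1 :=
    fun y hy h1 => by
      rw [← pin_one he]
      refine pin_mono he ?_
      refine hy.le_algebraMap_norm_self.trans ?_
      rw [Algebra.algebraMap_eq_smul_one, Complex.coe_smul]
      exact smul_le_smul_of_nonneg_right h1 zero_le_one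
  have x2 : ‖pin e x‖ ≤ 1 := norm_le_of_le x1 zero_le_one (le1 x hs hn)
    (by rw [← pin_neg]; exact le1 _ hs.neg (by rwa [norm_neg]))
  have x3 : h * pin e x = pin e x := by
    simp only [pin, mul_sum, ← mul_assoc, he']
    simp only [mul_assoc _ h, hxh]
  obtain ⟨a, aA, a1, a2, a3, ι, _, _, u, hu, a4⟩ := avgA hA x0 x1.star_eq x2 hh x3 ζ hτ
  obtain ⟨w, hw⟩ : ∃ w : Bool × ι → H →L[ℂ] H, ∀ l, w l = if l.1 then u l.2 else -u l.2 :=
    ⟨_, fun _ => rfl⟩
  have sw : ∀ l, Sy A (w l) := fun l => by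
    rw [hw]
    split_ifs
    · exact hu _
    · exact ⟨neg_mem (hu _).1, by rw [star_neg, (hu _).2.1], by rw [neg_mul_neg, (hu _).2.2]⟩
  let U : (Fin n → Bool × ι) → H →L[ℂ] H := fun ω => ∑ i, e i * w (ω i)
  have sU : ∀ ω, Sy A (U ω) := fun ω => glue hA he fun i => sw _
  have UM : ∀ ω, U ω ∈ M := fun ω => hA.1 _ (sU ω).1
  obtain ⟨ω, hω⟩ := es_ex (fun ω => L (g ((U ω * x * U ω) ζ)))
    (fun B ω => 16 * (‖v B‖ * (‖e B (x (U ω ζ))‖ + ‖e B ζ‖))) (c := τ ^ 2) (fun B ω l => by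
      obtain ⟨d, hd⟩ : ∃ d, d = e B * (w (ω B) - w l) := ⟨_, rfl⟩
      have dA : d ∈ A := hd ▸ mul_mem (he.1 B).1 (sub_mem (sw _).1 (sw _).1)
      have d1 : U (Function.update ω B l) = U ω - d := by
        simp only [U, hd]
        rw [← add_sum_erase _ _ (mem_univ B), ← add_sum_erase _ (fun i => e i * w (ω i))
          (mem_univ B), Function.update_self, mul_sub,
          sum_congr rfl fun i hi => by rw [Function.update_of_ne (ne_of_mem_erase hi)]]
        abel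
      have d2 : e B * d = d := by rw [hd, ← mul_assoc, ee]
      have d3 : d * e B = d := by rw [hA.2.1 _ dA _ (he.1 B).1, d2]
      have d4 : ‖d‖ ≤ 2 := by
        have := nm_le (he.1 B).2.norm_le (norm_sub_le_of_le (sw (ω B)).norm (sw l).norm)
        rw [hd]
        linarith
      have d5 : star d = d := by
        rw [hd, star_mul, star_sub, (sw _).2.1, (sw _).2.1, es,
          hA.2.1 _ (sub_mem (sw _).1 (sw _).1) _ (he.1 B).1]
      have d6 : ∀ η, ‖d η‖ ≤ 2 * ‖e B η‖ := fun η => by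
        conv_lhs => rw [← d3, mul_apply_eq_comp]
        exact d.le_of_opNorm_le d4 _
      have key : ∀ V, Sy A V → (⟪(d * x * V) ζ, m.R (d * x * V) ζ⟫_ℂ).re ≤
          2 * ‖e B (x (V ζ))‖ * (2 * ‖v B‖) := fun V hV => by
        refine (f3 B _ (mul_mem (mul_mem (hA.1 _ dA) hx) (hA.1 _ hV.1))
          (by rw [← mul_assoc, ← mul_assoc, d2])
          (by rw [← mul_assoc, ← mul_assoc, hA.2.1 _ hh _ dA, mul_assoc d, hxh])).trans ?_
        have := nm_le (nm_le d4 hn) hV.norm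
        gcongr
        · exact d6 _
        · linarith
      set V := U (Function.update ω B l) with hV
      have sV : Sy A V := sU _
      have VM : V ∈ M := UM _
      have z1 := (f1 _ (mul_mem (mul_mem (hA.1 _ dA) hx) (UM ω))).trans (key _ (sU ω))
      have z2 := f1 _ (star_mem (mul_mem (mul_mem (hA.1 _ dA) hx) VM))
      rw [f2] at z2
      have z3 := z2.trans (key _ sV)
      have z4 : ‖e B (x (V ζ))‖ ≤ ‖e B (x (U ω ζ))‖ + 2 * ‖e B ζ‖ := by
        rw [d1, ContinuousLinearMap.sub_apply, map_sub, map_sub]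
        refine (norm_sub_le _ _).trans (add_le_add le_rfl ?_)
        have := (e B * x).le_of_opNorm_le (nm_le (he.1 B).2.norm_le hn) (d ζ)
        rw [mul_apply_eq_comp] at this
        linarith [d6 ζ]
      have z5 : L (g ((U ω * x * U ω) ζ)) - L (g ((V * x * V) ζ)) =
          L (g ((d * x * U ω) ζ)) + L (g (star (d * x * V) ζ)) := by
        rw [← map_sub, ← map_sub, ← map_add, ← map_add, ← ContinuousLinearMap.sub_apply,
          ← ContinuousLinearMap.add_apply, star_mul, star_mul, d5, hs.star_eq, sV.2.1,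
          show U ω = V + d by rw [d1, sub_add_cancel]]
        congr 3
        noncomm_ring
      rw [z5]
      have z6 := norm_add_le (L (g ((d * x * U ω) ζ))) (L (g (star (d * x * V) ζ)))
      have z7 := mul_le_mul_of_nonneg_right z4 (norm_nonneg (v B))
      refine (pow_le_pow_left₀ (norm_nonneg _) z6 2).trans ?_
      nlinarith [sq_nonneg (‖L (g ((d * x * U ω) ζ))‖ - ‖L (g (star (d * x * V) ζ))‖)])
    (fun ω => by
      have b1 : ∀ B, 16 * (‖v B‖ * (‖e B (x (U ω ζ))‖ + ‖e B ζ‖)) ≤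
          16 * (κ⁻¹ * ‖v B‖ ^ 2) + 8 * κ * ‖e B (x (U ω ζ))‖ ^ 2 + 8 * κ * ‖e B ζ‖ ^ 2 :=
        fun B => by
          obtain ⟨t, ht⟩ : ∃ t, ‖v B‖ = κ * t := ⟨‖v B‖ / κ, by field_simp⟩
          have : κ⁻¹ * (κ * t) ^ 2 = κ * t ^ 2 := by field_simp
          rw [ht, this]
          nlinarith [mul_nonneg k0.le (sq_nonneg (t - ‖e B (x (U ω ζ))‖)),
            mul_nonneg k0.le (sq_nonneg (t - ‖e B ζ‖))]
      refine (sum_le_sum fun B _ => b1 B).trans ?_
      simp only [sum_add_distrib, ← mul_sum, pyth he]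
      have b2 : κ⁻¹ * ∑ B, ‖v B‖ ^ 2 ≤ κ := by
        rw [inv_mul_le_iff₀ k0]
        linarith
      have b3 : ‖x (U ω ζ)‖ ≤ ‖ζ‖ := by
        simpa using (x * U ω).le_of_opNorm_le (nm_le hn (sU ω).norm) ζ
      have b4 := mul_le_mul_of_nonneg_left (pow_le_pow_left₀ (norm_nonneg _) b3 2) k0.le
      linarith)
  let ev : (H →L[ℂ] H) →ₗ[ℂ] H :=
    { toFun := fun y => y ζ, map_add' := fun _ _ => rfl, map_smul' := fun _ _ => rfl }
  have m1 : av univ (fun ω => L (g ((U ω * x * U ω) ζ))) =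
      (L * g) (av univ fun i => (u i * pin e x * u i) ζ) := by
    have := congrArg ev (mean hA he hu x hw)
    rw [av_map, av_map] at this
    exact (av_map (L * g).toLinearMap _).symm.trans (congrArg (L * g) this)
  have TM : U ω * x * U ω - a ∈ M := sub_mem (mul_mem (mul_mem (UM ω) hx) (UM ω)) (hA.1 _ aA)
  have Ts : IsSelfAdjoint (U ω * x * U ω - a) := (hs.conjugate_self (sU ω).2.1).sub a1
  have G1 := mul_mem (mul_mem gM TM) gM
  have G2 := Ts.conjugate_self gp.isSelfAdjoint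
  refine ⟨U ω, sU ω, a, aA, a1, a2, a3, tb_of G1 G2 (l2 _ G1 G2) hc (by positivity) ?_⟩
  have b1 := le_of_sq_le hτ.le hω
  have b2 := (L * g).le_of_opNorm_le (nm_le nL ng) (av univ (fun i => (u i * pin e x * u i) ζ) - a ζ)
  rw [m1] at b1
  rw [map_sub] at b2
  have b3 := norm_sub_le_norm_sub_add_norm_sub (L (g ((U ω * x * U ω) ζ)))
    ((L * g) (av univ fun i => (u i * pin e x * u i) ζ)) ((L * g) (a ζ))
  rw [show L ((g * (U ω * x * U ω - a) * g) ξ) = L (g ((U ω * x * U ω) ζ)) - (L * g) (a ζ) by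
    simp [hζ]]
  linarith

theorem half_tb {T : H →L[ℂ] H} {c η : ℝ} (hc : 0 ≤ c) (h : Tb M ξ T c η) :
    Tb M ξ ((2⁻¹ : ℂ) • T) c η := by
  obtain ⟨W, a1, a2, a3, a4, a5⟩ := h
  have k : ∀ y : H →L[ℂ] H, y ≤ (c : ℂ) • 1 + W → (2⁻¹ : ℂ) • y ≤ (c : ℂ) • 1 + W := fun y hy => by
    have := smul_nn (show (0 : ℝ) ≤ 2⁻¹ by norm_num) (add_nonneg (sub_nonneg.2 hy)
      (add_nonneg (smul_nn hc zero_le_one) a2))
    rw [← sub_nonneg]
    convert this using 1
    push_cast
    module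
  exact ⟨W, a1, a2, a3, k _ a4, by rw [← smul_neg]; exact k _ a5⟩

theorem two_part {U : H →L[ℂ] H} (hU : Sy A U) : ∃ p : Fin 2 → H →L[ℂ] H, IsPartition A p ∧
    ∀ y, pin p y = (2⁻¹ : ℂ) • (y + U * y * U) := by
  have k : ∀ V : H →L[ℂ] H, Sy A V → (2⁻¹ : ℂ) • (1 + V) ∈ A ∧
      IsStarProjection ((2⁻¹ : ℂ) • (1 + V)) := fun V hV => by
    refine ⟨vn_smul_mem _ (add_mem (one_mem _) hV.1), ?_, by simp [IsSelfAdjoint, hV.2.1]⟩
    simp only [IsIdempotentElem, smul_mul_assoc, mul_smul_comm, mul_add, add_mul, one_mul, mul_one,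
      hV.2.2]
    module
  have hV : Sy A (-U) := ⟨neg_mem hU.1, by rw [star_neg, hU.2.1], by rw [neg_mul_neg, hU.2.2]⟩
  refine ⟨![(2⁻¹ : ℂ) • (1 + U), (2⁻¹ : ℂ) • (1 + -U)], ⟨Fin.forall_fin_two.2 ⟨k _ hU, k _ hV⟩,
    fun i j hij => ?_, ?_⟩, fun y => ?_⟩
  · fin_cases i <;> fin_cases j <;>
      first | exact absurd rfl hij | simp [mul_add, add_mul, hU.2.2, ← smul_add, ← neg_add, add_comm U 1]
  · rw [Fin.sum_univ_two]
    simp only [Matrix.cons_val_zero, Matrix.cons_val_one]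
    module
  · rw [pin, Fin.sum_univ_two]
    simp only [Matrix.cons_val_zero, Matrix.cons_val_one, smul_mul_assoc, mul_smul_comm, mul_add,
      add_mul, one_mul, mul_one, mul_neg, neg_mul]
    module

end Sg

open Sg R F2 in
theorem sing : SingStmt.{u} := by
  intro H _ _ _ A M ξ m hA _ g gM gp gR s η hη
  obtain ⟨c, hc⟩ : ∃ c : ℝ, c = η / (2 * (s + 1)) := ⟨_, rfl⟩
  have c0 : 0 < c := by rw [hc]; positivity
  have c1 : 2 * (s + 1) * c = η := by rw [hc]; field_simp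
  have t0 : 0 < c / 4 := by positivity
  refine ⟨(c / 4) ^ 2 / (16 * (1 + ‖g ξ‖ ^ 2)), by positivity,
    fun h hh hp n e he hκ x hx hs hn hxh => ?_⟩
  have hx1 : h * x = x := by
    rw [← hxh, ← mul_assoc, ← mul_assoc, hp.isIdempotentElem.eq]
  have main : ∀ j : ℕ, ∃ p : Fin (2 ^ j) → H →L[ℂ] H, IsPartition A p ∧ IsSelfAdjoint (pin p x) ∧
      ‖pin p x‖ ≤ 1 ∧ h * pin p x = pin p x ∧ ∃ a ∈ A, IsSelfAdjoint a ∧ ‖a‖ ≤ 1 ∧ h * a = a ∧
        Tb M ξ (g * (pin p x - (2⁻¹ : ℂ) ^ j • x - a) * g) (j * (c + c)) (j * (c + c)) := fun j => by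
    induction j with
    | zero =>
      have e0 : pin (fun _ : Fin (2 ^ 0) => (1 : H →L[ℂ] H)) x = x := by simp [pin]
      refine ⟨fun _ => 1, ⟨fun _ => ⟨one_mem _, .one _⟩, fun i j hij =>
        absurd (Subsingleton.elim (α := Fin 1) i j) hij, by simp⟩, by rwa [e0], by rwa [e0],
        by rwa [e0], 0, zero_mem _, .zero _, by simp, by simp, 0, zero_mem _, le_rfl, by simp, ?_, ?_⟩
      all_goals
        rw [e0]
        simp
    | succ j ih =>
      obtain ⟨p, pp, y1, y2, y3, a, aA, a1, a2, a3, tb⟩ := ih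
      obtain ⟨U, sU, b, bA, b1, b2, b3, tb'⟩ := step m hA gM gp gR hh hp he t0 (by positivity)
        (le_of_eq (by field_simp)) hκ (pin_mem hA pp hx) y1 y2 y3 c0
      obtain ⟨p', pp', e'⟩ := two_part sU
      obtain ⟨P, PP, P1, -⟩ := prod_part hA pp pp'
      have E : pin P x = (2⁻¹ : ℂ) • (pin p x + U * pin p x * U) := by rw [P1, e']
      refine ⟨P, PP, ?_, ?_, ?_, (2⁻¹ : ℂ) • (a + b), vn_smul_mem _ (add_mem aA bA),
        by simp [IsSelfAdjoint, a1.star_eq, b1.star_eq], half_le a2 b2,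
        by rw [mul_smul_comm, mul_add, a3, b3], ?_⟩
      · exact isSelfAdjoint_sum _ fun i _ => hs.conjugate_self (PP.1 i).2.isSelfAdjoint
      · change ‖pin P x‖ ≤ 1
        exact E ▸ half_le y2 (sU.conj_le y2)
      · change h * pin P x = pin P x
        rw [E, mul_smul_comm, mul_add, y3, ← mul_assoc, ← mul_assoc, hA.2.1 _ hh _ sU.1,
          mul_assoc U, y3]
      · have q3 := (half_tb (by positivity) tb).add (half_tb (by positivity) tb')
        change Tb M ξ (g * (pin P x - _ - _) * g) _ _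
        convert q3 using 1
        · rw [E, ← smul_add, ← add_mul, ← mul_add, ← smul_mul_assoc, ← mul_smul_comm]
          congr 2
          module
        · push_cast
          ring
        · push_cast
          field_simp
          ring
  obtain ⟨p, pp, -, -, -, a, aA, a1, a2, a3, W, w1, w2, w3, w4, w5⟩ := main s
  have c2 : s * (c + c) ≤ η := by linarith
  have k : ∀ y : H →L[ℂ] H, IsSelfAdjoint y → ‖y‖ ≤ 1 →
      (2⁻¹ : ℂ) ^ s • (g * y * g) ≤ (((1 / 2) ^ s : ℝ) : ℂ) • 1 := fun y hy h1 => by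
    have h2 : g * y * g ≤ 1 := by
      refine (hy.conjugate_self gp.isSelfAdjoint).le_algebraMap_norm_self.trans ?_
      rw [Algebra.algebraMap_eq_smul_one, ← one_smul ℝ (1 : H →L[ℂ] H), smul_smul, mul_one]
      exact smul_le_smul_of_nonneg_right
        (by simpa using nm_le (nm_le gp.norm_le h1) gp.norm_le) zero_le_one
    have := smul_nn (show (0 : ℝ) ≤ (1 / 2) ^ s by positivity) (sub_nonneg.2 h2)
    rw [← sub_nonneg]
    convert this using 1
    push_cast
    module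
  have k2 : (((1 / 2) ^ s : ℝ) : ℂ) • (1 : H →L[ℂ] H) + (((s * (c + c) : ℝ) : ℂ) • 1 + W) ≤
      (((1 / 2) ^ s + η : ℝ) : ℂ) • 1 + W := by
    have := smul_nn (sub_nonneg.2 c2) (zero_le_one (α := H →L[ℂ] H))
    rw [← sub_nonneg]
    convert this using 1
    push_cast
    module
  have e1 : g * (pin p x - a) * g =
      (2⁻¹ : ℂ) ^ s • (g * x * g) + g * (pin p x - (2⁻¹ : ℂ) ^ s • x - a) * g := by
    simp only [mul_sub, sub_mul, mul_smul_comm, smul_mul_assoc]
    abel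
  refine ⟨p, pp, a, aA, a1, a2, a3, W, w1, w2, w3.trans c2, ?_, ?_⟩
  · rw [e1]
    exact (add_le_add (k x hs hn) w4).trans k2
  · have := k _ hs.neg (by rwa [norm_neg])
    rw [mul_neg, neg_mul, smul_neg] at this
    rw [e1, neg_add]
    exact (add_le_add this w5).trans k2

end Vale.Agent.P078
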