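import Vale.Agent.P078.Fin6
import Vale.Agent.P078.Apx

/-! The merged statement including approximately finite inclusions. -/

namespace Vale.Agent.P078

universe u

theorem fin7 : ∃ C : ℝ, ∀ (H : Type u) [NormedAddCommGroup H] [InnerProductSpace ℂ H]
    [CompleteSpace H] (A M : VonNeumannAlgebra H), IsMasa A M →
    ((∃ ξ, TraceVec M ξ) ∨ StdSemifinite M ∨
      ((∃ ξ, StdVec M ξ) ∧ (NoExp A M ∨ ∀ v, Normalizes A M v → v ∈ A)) ∨ ApproxFinite A M) →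
    ∀ ε : ℝ, 0 < ε → ε < 1 → ∃ r : ℕ, 1 ≤ r ∧ (r : ℝ) ≤ C / ε ^ 2 ∧
      ∀ x ∈ M, IsSelfAdjoint x → SoPavable A M x ε r := by
  obtain ⟨C, h⟩ := fin6.{u}
  obtain ⟨C', h'⟩ := apx4.{u} (fin4 core3 block2 atoms cut2)
  refine ⟨max C C', fun H _ _ _ A M hA hh ε e0 e1 => ?_⟩
  have k : ∀ D : ℝ, D ≤ max C C' → (∃ r : ℕ, 1 ≤ r ∧ (r : ℝ) ≤ D / ε ^ 2 ∧
      ∀ x ∈ M, IsSelfAdjoint x → SoPavable A M x ε r) → ∃ r : ℕ, 1 ≤ r ∧
      (r : ℝ) ≤ max C C' / ε ^ 2 ∧ ∀ x ∈ M, IsSelfAdjoint x → SoPavable A M x ε r :=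
    fun D hD ⟨r, r1, r2, r3⟩ =>
      ⟨r, r1, r2.trans (div_le_div_of_nonneg_right hD (by positivity)), r3⟩
  rcases hh with a | a | a | a
  · exact k C (le_max_left _ _) (h H A M hA (.inl a) ε e0 e1)
  · exact k C (le_max_left _ _) (h H A M hA (.inr (.inl a)) ε e0 e1)
  · exact k C (le_max_left _ _) (h H A M hA (.inr (.inr a)) ε e0 e1)
  · exact k C' (le_max_right _ _) (h' H A M hA a ε e0 e1)

end Vale.Agent.P078
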