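import Vale.Agent.P078.Rep1
import Vale.Agent.P078.DefsR

/-! Paving in an arbitrary representation. -/

namespace Vale.Agent.P078.RP

open scoped InnerProductSpace ComplexConjugate ComplexOrder
open Vale.Agent.P104 Vale.Agent.P082 Finset ContinuousLinearMap R F2 FN Filter

universe u

variable {H : Type u} [NormedAddCommGroup H] [InnerProductSpace ℂ H] [CompleteSpace H]
  {A M : VonNeumannAlgebra H} {ξ : H}

theorem semi1 (hS : SingStmt.{u}) (hV : AvgStmt.{u}) (hA : IsMasa A M) {c η θ : ℝ} {r : ℕ}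
    (hC : CP A M r c) (s : ℕ) (hη : 0 < η) (hξ : StdVec M ξ) {g : H →L[ℂ] H} (hg : g ∈ M)
    (pg : IsStarProjection g)
    (gc : ∀ x ∈ M, ∀ y ∈ M, ⟪ξ, (g * x * g * y) ξ⟫_ℂ = ⟪ξ, (y * (g * x * g)) ξ⟫_ℂ)
    {x : H →L[ℂ] H} (hx : x ∈ M) (hs : IsSelfAdjoint x) (hn : ‖x‖ ≤ 1) (t0 : 0 < θ) :
    ∃ P : Fin (r + 2 ^ s) → H →L[ℂ] H, IsPartition A P ∧ ∃ a ∈ A, IsSelfAdjoint a ∧ ‖a‖ ≤ 1 ∧
      ∃ Q ∈ M, IsStarProjection Q ∧ ‖g - Q‖ ≤ 1 ∧ ‖(g - Q) ξ‖ ≤ θ ∧
        ‖Q * (pin P x - a) * Q‖ ≤ c + (1 / 2) ^ s + 3 * η := by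
  obtain ⟨m⟩ := P132.tt P132.t1 P132.bi P132.filt H M ξ hξ
  have gg := pg.isIdempotentElem.eq
  have r1 : ∀ x ∈ M, m.R (g * x * g) ξ = (g * x * g) ξ := fun x hx =>
    cent m (mul_mem (mul_mem hg hx) hg) fun a ha => by
      rw [star_mul, star_mul, pg.isSelfAdjoint.star_eq, ← mul_assoc]
      exact gc _ (star_mem hx) a ha
  obtain ⟨κ, k0, hκ⟩ := hS H A M ξ m hA hξ g hg pg (by simpa [gg] using r1 1 (one_mem _)) s
    (min η (η * θ ^ 2 / 2)) (lt_min hη (by positivity))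
  obtain ⟨f, hf, pf, ζ, z1, z2, z3, n, e, pe, he⟩ := hV H A M ξ m hA hξ g hg pg r1 κ k0
  have fM := hA.1 f hf
  have kA : 1 - f ∈ A := sub_mem (one_mem _) hf
  have kM := hA.1 _ kA
  have ff := pf.isIdempotentElem.eq
  have kk := pf.one_sub.isIdempotentElem.eq
  obtain ⟨p', pp', a', aA', as', an', fa', b2⟩ := hκ _ kA pf.one_sub n e pe he
    ((1 - f) * x * (1 - f)) (mul_mem (mul_mem kM hx) kM)
    (hs.conjugate_self pf.one_sub.isSelfAdjoint)
    ((norm_mul₃_le.trans (mul_le_one₀ (mul_le_one₀ pf.one_sub.norm_le (norm_nonneg _) hn)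
      (norm_nonneg _) pf.one_sub.norm_le)))
    (by rw [← mul_assoc, ← mul_assoc, kk, mul_assoc, kk])
  obtain ⟨p, pp, a, aA, as, an, fa, q, qM, q1, fq, q2, q3⟩ := hC f hf pf ζ z1 z2 z3 x hx hs hn
    (g ξ) (η * θ / 6) (by positivity)
  obtain ⟨P, PP, hP⟩ := app hA hf pf pp pp'
  have af : f * a * f = a := by rw [fa, ← hA.2.1 _ hf _ aA, fa]
  have af' : (1 - f) * a' * (1 - f) = a' := by rw [fa', ← hA.2.1 _ kA _ aA', fa']
  have qf : q * f = q := by
    simpa only [star_mul, q1.isSelfAdjoint.star_eq, pf.isSelfAdjoint.star_eq] using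
      congrArg star fq
  obtain ⟨S, hSd⟩ : ∃ S, S = pin p x - a := ⟨_, rfl⟩
  have SM : S ∈ M := hSd ▸ sub_mem (pin_mem hA pp hx) (hA.1 _ aA)
  have Ss : IsSelfAdjoint S := hSd ▸ (pin_sa pp hs).sub as
  have Sn : ‖S‖ ≤ 2 := by
    rw [hSd]
    linarith [norm_sub_le (pin p x) a, CutA.pin_norm pp hs]
  rw [← hSd] at q3
  obtain ⟨y, hy⟩ : ∃ y, y = (f - q) * (S * ((2⁻¹ : ℂ) • (f + q))) := ⟨_, rfl⟩
  have sy : star y = (2⁻¹ : ℂ) • (f + q) * (S * (f - q)) := by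
    simp [hy, Ss.star_eq, pf.isSelfAdjoint.star_eq, q1.isSelfAdjoint.star_eq, mul_assoc]
  have b1 := cross (ξ := ξ) (η' := η * θ ^ 2 / 2) hg pg (y := y)
    (hy ▸ mul_mem (sub_mem fM qM) (mul_mem SM (vn_smul_mem _ (add_mem fM qM)))) hη (by
      have n1 : ‖(2⁻¹ : ℂ) • (f + q)‖ ≤ 1 := by
        rw [norm_smul, norm_inv, Complex.norm_ofNat]
        linarith [norm_add_le f q, pf.norm_le, q1.norm_le]
      have n2 : ‖star y (g ξ)‖ ≤ 2 * (η * θ / 6) := by
        rw [sy, mul_apply_eq_comp, mul_apply_eq_comp]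
        exact ((le_opNorm _ _).trans (mul_le_of_le_one_left (norm_nonneg _) n1)).trans
          ((le_opNorm _ _).trans (mul_le_mul Sn q2 (norm_nonneg _) zero_le_two))
      have := pow_le_pow_left₀ (norm_nonneg _) n2 2
      rw [inv_mul_le_iff₀ hη]
      nlinarith [sq_nonneg (η * θ)])
  have b0 := ofNorm (M := M) (ξ := ξ) pg (Ss.conjugate_self q1.isSelfAdjoint) q3
  have e0 : g * (pin P x - (a + a')) * g = g * (q * S * q) * g + g * (y + star y) * g +
      g * (pin p' ((1 - f) * x * (1 - f)) - a') * g := by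
    have : f * S * f = q * S * q + (y + star y) := by
      rw [sy, hy]
      simp only [mul_smul_comm, smul_mul_assoc, mul_add, add_mul, mul_sub, sub_mul, mul_assoc]
      module
    rw [← add_mul, ← add_mul, ← mul_add, ← mul_add, ← this, hP, hSd, mul_sub f, sub_mul (f * _),
      af]
    congr 2
    abel
  have b3 := (b0.add b1).add b2
  rw [← e0] at b3
  have c0 : 0 ≤ c := (norm_nonneg _).trans q3
  obtain ⟨Q, QM, Q1, Q0, Q2, Q3⟩ := cutg (c := c + (1 / 2) ^ s + 2 * η) hg pg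
    (fun y hy => by simpa [gg] using gc 1 (one_mem _) y hy) ((pin_sa PP hs).sub (as.add as'))
    (by positivity) hη t0 (mono b3 (by linarith [min_le_left η (η * θ ^ 2 / 2)])
      (by linarith [min_le_right η (η * θ ^ 2 / 2)]))
  have k : ∀ {a f : H →L[ℂ] H}, IsStarProjection f → IsSelfAdjoint a → ‖a‖ ≤ 1 →
      f * a * f = a → a ≤ f := fun {a f} pf as an h => by
    have := pf.isSelfAdjoint.conjugate_le_conjugate (le_nrm as an)
    simpa [h, pf.isIdempotentElem.eq] using this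
  refine ⟨P, PP, a + a', add_mem aA aA', as.add as', norm_le_of_le (as.add as') zero_le_one ?_ ?_,
    Q, QM, Q1, Q0, Q2, Q3.trans (le_of_eq (by ring))⟩
  · simpa using add_le_add (k pf as an af) (k pf.one_sub as' an' af')
  · simpa [add_comm] using add_le_add (k pf as.neg (by rwa [norm_neg]) (by simp [af]))
      (k pf.one_sub as'.neg (by rwa [norm_neg]) (by rw [mul_neg, neg_mul, af']))

theorem polar (φ : (H →L[ℂ] H) →ₗ[ℂ] ℂ) (S : Submodule ℂ (H →L[ℂ] H))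
    (h : ∀ a ∈ S, φ (star a * a) = φ (a * star a)) {a b : H →L[ℂ] H} (ha : a ∈ S) (hb : b ∈ S) :
    φ (star a * b) = φ (b * star a) := by
  have h1 := h _ (add_mem ha hb)
  have h2 := h _ (add_mem ha (S.smul_mem Complex.I hb))
  have h3 := h a ha
  have h4 := h b hb
  simp only [star_add, star_smul, add_mul, mul_add, map_add, smul_mul_assoc, mul_smul_comm,
    map_smul, smul_eq_mul, Complex.star_def, Complex.conj_I] at h1 h2
  have hI := Complex.I_mul_I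
  linear_combination (2⁻¹ : ℂ) * h1 - (2⁻¹ * Complex.I) * h2 - (2⁻¹ - 2⁻¹ * Complex.I) * h3 -
    (2⁻¹ - 2⁻¹ * Complex.I) * h4 + (2⁻¹ * (φ (star a * b) - φ (b * star a) - φ (star b * a) +
      φ (a * star b)) - 2⁻¹ * Complex.I * (φ (star b * b) - φ (b * star b))) * hI

omit [CompleteSpace H] in
theorem mem2 {I : Type} {f : I → H} : Memℓp f 2 ↔ Summable fun i => ‖f i‖ ^ 2 := by
  rw [memℓp_gen_iff (by norm_num)]
  simp

omit [CompleteSpace H] in
theorem ex_c (s : ℕ → H) : ∃ c : ℕ → ℂ, (∀ n, c n ≠ 0) ∧ Summable fun n => ‖c n • s n‖ ^ 2 := by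
  refine ⟨fun n => (((1 / 2) ^ n / (‖s n‖ + 1) : ℝ) : ℂ), fun n =>
    Complex.ofReal_ne_zero.2 (by positivity), Summable.of_nonneg_of_le (fun _ => sq_nonneg _)
      (fun n => ?_) summable_geometric_two⟩
  have h1 : (1 / 2 : ℝ) ^ n ≤ 1 := pow_le_one₀ (by norm_num) (by norm_num)
  have h0 : (0 : ℝ) < (1 / 2) ^ n := by positivity
  have : ‖(((1 / 2) ^ n / (‖s n‖ + 1) : ℝ) : ℂ) • s n‖ ≤ (1 / 2) ^ n := by
    rw [norm_smul, Complex.norm_real, Real.norm_of_nonneg (by positivity), div_mul_eq_mul_div,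
      div_le_iff₀ (by positivity)]
    nlinarith
  nlinarith [pow_le_pow_left₀ (norm_nonneg _) this 2]

theorem ex_g {ζ : ℕ → H} (h : IsTraceFamily M ζ) (F : Finset H) {δ : ℝ} (d0 : 0 < δ) :
    ∃ g ∈ M, IsStarProjection g ∧ (Summable fun n => ‖g (ζ n)‖ ^ 2) ∧
      ∀ v ∈ F, ‖(1 - g) v‖ < δ := by
  classical
  obtain ⟨S, z, -, S1, S2, z1, z2, z3⟩ := max_fam (M := M)
    (fun w => IsStarProjection w ∧ Summable fun n => ‖w.1 (ζ n)‖ ^ 2)
    (fun w h => by rw [h.1.2.star_eq, h.1.1.eq, h.1.1.eq]) ∅ (by simp) (by simp)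
  obtain rfl : z = 1 := by
    by_contra c
    obtain ⟨q, qM, q1, q0, q2, q3⟩ := h.2.2 _ (1 - z).2 (proj_coe.1 z1.one_sub) fun e =>
      c (sub_eq_zero.1 (Subtype.ext e : 1 - z = 0)).symm
    refine q0 (congrArg Subtype.val (z3 ⟨q, qM⟩ ⟨proj_coe.2 q1, q3⟩ ?_))
    have : (1 - z) * ⟨q, qM⟩ = ⟨q, qM⟩ := Subtype.ext q2
    rw [← this, ← mul_assoc, mul_sub, mul_one, z1.1.eq, sub_self, zero_mul]
  have pw : ∀ w : S, IsStarProjection w.1.1 := fun w => proj_coe.1 (S1 _ w.2).1.1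
  have e : ∀ w : S, (w.1 * star w.1).1 = w.1.1 := fun w => by
    rw [(S1 _ w.2).1.1.2.star_eq, (S1 _ w.2).1.1.1.eq]
  obtain ⟨t, ht⟩ := ((eventually_all_finset F).2 fun v _ =>
    Metric.tendsto_nhds.1 (z2 v) δ d0).exists
  refine ⟨∑ w ∈ t, w.1.1, sum_mem fun w _ => w.1.2, ⟨?_, isSelfAdjoint_sum _ fun w _ => (pw w).2⟩,
    ?_, fun v hv => ?_⟩
  · rw [IsIdempotentElem, sum_mul_sum]
    refine sum_congr rfl fun w hw => (sum_eq_single_of_mem w hw fun w' _ c => ?_).trans (pw w).1.eq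
    have := congrArg Subtype.val (S2 w.2 w'.2 fun e => c (Subtype.ext e).symm)
    rwa [(S1 _ w.2).1.1.2.star_eq] at this
  · simpa only [_root_.sum_apply] using
      mem2.1 (Memℓp.finsetSum t fun w _ => mem2.2 (S1 _ w.2).1.2)
  · have := ht v hv
    simp only [e, dist_eq_norm] at this
    rwa [sub_apply, _root_.sum_apply, norm_sub_rev]

theorem semi2 (hS : SingStmt.{u}) (hV : AvgStmt.{u}) (hA : IsMasa A M) {ζ : ℕ → H}
    (h : IsTraceFamily M ζ) {c η : ℝ} {r : ℕ}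
    (hC : ∀ (K : Type u) [NormedAddCommGroup K] [InnerProductSpace ℂ K] [CompleteSpace K]
      (A M : VonNeumannAlgebra K), IsMasa A M → CP A M r c) (s : ℕ) (hη : 0 < η) :
    ∀ x ∈ M, IsSelfAdjoint x → SoPavable A M x (c + (1 / 2) ^ s + 3 * η) (r + 2 ^ s) := by
  refine tail fun x hx hs hn F δ d0 => ?_
  obtain ⟨g, hg, pg, g1, gF⟩ := ex_g h F (half_pos d0)
  obtain ⟨k, k0, k1⟩ := ex_c fun n => (1 - g) (ζ n)
  have gg := pg.1.eq
  have g2 : ∀ v, g (g v) = g v := fun v => by rw [← mul_apply_eq_comp, gg]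
  have g3 : ∀ v, g ((1 - g) v) = 0 := fun v => by rw [sub_apply, map_sub, g2]; simp
  have g4 : ∀ v w, ⟪v, g w⟫_ℂ = ⟪g v, w⟫_ℂ := fun v w => by
    rw [← inner_star_right, pg.2.star_eq]
  let u : lp (fun _ : ℕ ⊕ ℕ => H) 2 := ⟨Sum.elim (fun n => g (ζ n)) fun n => k n • (1 - g) (ζ n),
    mem2.2 (Summable.sum _ g1 k1)⟩
  have u1 : ∀ n, u (.inl n) = g (ζ n) := fun _ => rfl
  have u2 : ∀ n, u (.inr n) = k n • (1 - g) (ζ n) := fun _ => rfl
  obtain ⟨K, _, _, _, A', M', π, ξ, V, hR, hξ, V1, -, V3, V4⟩ := ex_rep hA.1 (Sum.inl 0) u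
    fun x hx e => by
      have a : x * g = 0 := h.2.1 _ (mul_mem hx hg) fun n => e (.inl n)
      have b : x * (1 - g) = 0 := h.2.1 _ (mul_mem hx (sub_mem (one_mem _) hg)) fun n => by
        have := e (.inr n)
        rw [u2, map_smul, smul_eq_zero] at this
        exact this.resolve_left (k0 n)
      rw [mul_sub, a, sub_zero, mul_one] at b
      exact b
  obtain ⟨θ, t0, hθ⟩ := V4 F _ (half_pos d0)
  let φ : (H →L[ℂ] H) →ₗ[ℂ] ℂ :=
    { toFun := fun x => ⟪ξ, π x ξ⟫_ℂ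
      map_add' := fun x y => by rw [map_add, add_apply, inner_add_right]
      map_smul' := fun c x => by rw [map_smul, smul_apply, inner_smul_right]; rfl }
  have f0 : ∀ x, HasSum (fun i => ⟪u i, x (u i)⟫_ℂ) (φ x) := fun x => V1 ▸ V3 x ξ
  have f1 : ∀ x y, (∀ i, ⟪u i, x (u i)⟫_ℂ = ⟪u i, y (u i)⟫_ℂ) → φ x = φ y := fun x y e =>
    (f0 x).unique (by simpa only [e] using f0 y)
  have f2 : ∀ z, φ (g * z) = φ (g * z * g) := fun z => f1 _ _ fun i => by
    rcases i with n | n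
    · simp only [u1, mul_apply_eq_comp, g2]
    · rw [mul_apply_eq_comp, mul_apply_eq_comp, mul_apply_eq_comp, g4, g4 (u _), u2, map_smul, g3,
        smul_zero, inner_zero_left, inner_zero_left]
  have f3 : ∀ z, φ (z * g) = φ (g * z * g) := fun z => f1 _ _ fun i => by
    rcases i with n | n
    · simp only [u1, mul_apply_eq_comp, g2, g4 (g _)]
    · simp only [u2, mul_apply_eq_comp, map_smul, g3, smul_zero, map_zero, inner_zero_right]
  have f4 : ∀ a, a * g = a → ∀ c : ℝ, HasSum (fun n => ‖a (ζ n)‖ ^ 2) c →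
      φ (star a * a) = c := fun a e c hc => by
    have e' : ∀ v, a (g v) = a v := fun v => by rw [← mul_apply_eq_comp, e]
    refine (f0 _).unique ((Sum.inl_injective.hasSum_iff ?_).1 ?_)
    · rintro (n | n) hn
      · exact (hn ⟨n, rfl⟩).elim
      · rw [u2, mul_apply_eq_comp, map_smul, ← e', g3]
        simp
    · convert Complex.hasSum_ofReal.2 hc using 2 with n
      rw [Function.comp_apply, u1, mul_apply_eq_comp, inner_star_right, e',
        inner_self_eq_norm_sq_to_K]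
      simp
  let S : Submodule ℂ (H →L[ℂ] H) :=
    { carrier := {a | a ∈ M ∧ a * g = a ∧ g * a = a}
      add_mem' := fun a b => ⟨add_mem a.1 b.1, by rw [add_mul, a.2.1, b.2.1],
        by rw [mul_add, a.2.2, b.2.2]⟩
      zero_mem' := ⟨zero_mem _, zero_mul _, mul_zero _⟩
      smul_mem' := fun c _ a => ⟨vn_smul_mem c a.1, by rw [smul_mul_assoc, a.2.1],
        by rw [mul_smul_comm, a.2.2]⟩ }
  have S1 : ∀ x ∈ M, g * x * g ∈ S := fun x hx => ⟨mul_mem (mul_mem hg hx) hg,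
    by rw [mul_assoc, gg], by rw [← mul_assoc, ← mul_assoc, gg]⟩
  have f5 : ∀ a ∈ S, φ (star a * a) = φ (a * star a) := fun a ha => by
    have sm : Summable fun n => ‖a (ζ n)‖ ^ 2 :=
      Summable.of_nonneg_of_le (fun _ => sq_nonneg _) (fun n => by
        rw [← mul_pow]
        nth_rw 1 [← ha.2.1]
        exact pow_le_pow_left₀ (norm_nonneg _) (a.le_opNorm _) 2) (g1.mul_left (‖a‖ ^ 2))
    have := f4 (star a) (by simpa only [star_mul, pg.2.star_eq] using congrArg star ha.2.2) _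
      (h.1 a ha.1 _ sm.hasSum)
    rw [star_star] at this
    rw [this, f4 a ha.2.1 _ sm.hasSum]
  obtain ⟨P, PP, a, aA, as, an, Q, QM, Q1, Q0, Q2, Q3⟩ := semi1 hS hV (hR.masa hA)
    (hC K A' M' (hR.masa hA)) s hη hξ (hR.mem hg) ((hR.proj hg).2 pg) (fun X hX Y hY => by
      obtain ⟨x, hx, rfl⟩ := (hR.memM X).1 hX
      obtain ⟨y, hy, rfl⟩ := (hR.memM Y).1 hY
      have m1 := mul_mem hg hx
      have m2 := mul_mem m1 hg
      rw [← hR.mul _ hg, ← hR.mul _ m1, ← hR.mul _ m2, ← hR.mul _ hy]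
      change φ _ = φ _
      have := polar φ S f5 (S1 _ (star_mem hx)) (S1 _ hy)
      have a := f2 (x * g * y)
      have b := f3 (y * (g * x))
      have gg' : ∀ z, g * (g * z) = g * z := fun z => by rw [← mul_assoc, gg]
      simp only [star_mul, star_star, pg.2.star_eq, mul_assoc, gg'] at this a b ⊢
      rw [a, b, this]) (hR.mem hx) ((hR.sa hx).2 hs) ((hR.nm x hx).trans_le hn) t0
  obtain ⟨p, pp, b, bA, bs, bn, q, qM, q1, rfl, q3⟩ := hR.pull hA hx PP aA as QM Q1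
  have dM := sub_mem hg qM
  rw [← map_sub] at Q0 Q2
  refine ⟨p, pp, b, bA, bs, bn.trans_le an, q, qM, q1, fun v hv => ?_, q3.trans_le Q3⟩
  rw [show (1 - q) v = (1 - g) v + (g - q) v by simp]
  linarith [norm_add_le ((1 - g) v) ((g - q) v), gF v hv,
    hθ _ dM ((hR.nm _ dM).symm.trans_le Q0) Q2 v hv]

/-- Transfer of paving from the standard representation. -/
theorem std (hA : IsMasa A M) (hσ : SigmaFinite M) : ∃ (K : Type u) (_ : NormedAddCommGroup K)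
    (_ : InnerProductSpace ℂ K) (_ : CompleteSpace K) (A' M' : VonNeumannAlgebra K)
    (π : (H →L[ℂ] H) →ₗ[ℂ] (K →L[ℂ] K)) (ξ : K), Rp A M A' M' π ∧ StdVec M' ξ ∧
      (NoCentralState A M → NoExp A' M') ∧ ∀ (ε : ℝ) (r : ℕ),
        (∀ x ∈ M', IsSelfAdjoint x → SoPavable A' M' x ε r) →
          ∀ x ∈ M, IsSelfAdjoint x → SoPavable A M x ε r := by
  obtain ⟨s, hs⟩ := hσ
  obtain ⟨k, k0, k1⟩ := ex_c s
  obtain ⟨K, _, _, _, A', M', π, ξ, V, hR, hξ, -, V2, V3, V4⟩ := ex_rep hA.1 0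
    (⟨fun n => k n • s n, mem2.2 k1⟩ : lp (fun _ : ℕ => H) 2) fun x hx e => hs x hx fun n => by
      have := e n
      change x (k n • s n) = 0 at this
      rw [map_smul, smul_eq_zero] at this
      exact this.resolve_left (k0 n)
  refine ⟨K, _, _, _, A', M', π, ξ, hR, hξ, fun hN ζ e => ?_, fun ε r h x hx hs F δ d0 => ?_⟩
  · have := hN (V ζ) (mem2.1 (V ζ).2) fun a ha x hx => by
      rw [(V3 _ ζ).tsum_eq, (V3 _ ζ).tsum_eq, hR.mul _ (hA.1 a ha), hR.mul _ hx]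
      exact e _ ((hR.memA _).2 ⟨a, ha, rfl⟩) _ (hR.mem hx)
    rw [← norm_eq_zero, ← V2, norm_eq_zero]
    ext n
    exact this n
  · classical
    obtain ⟨θ, t0, hθ⟩ := V4 F δ d0
    obtain ⟨P, PP, a, aA, as, an, Q, QM, Q1, Q2, Q3⟩ := h _ (hR.mem hx) ((hR.sa hx).2 hs) {ξ} θ t0
    obtain ⟨p, pp, b, bA, bs, bn, q, qM, q1, rfl, q3⟩ := hR.pull hA hx PP aA as QM Q1
    rw [hR.nm x hx] at an Q3
    refine ⟨p, pp, b, bA, bs, bn.trans_le an, q, qM, q1,
      hθ _ (sub_mem (one_mem _) qM) q1.one_sub.norm_le ?_, q3.trans_le Q3⟩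
    rw [map_sub, hR.one]
    exact (Q2 ξ (mem_singleton_self _)).le

end Vale.Agent.P078.RP
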