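import Vale.Agent.P078.Fin7
import Vale.Agent.P078.Rep2

/-! The paving theorem in an arbitrary representation. -/

namespace Vale.Agent.P078

universe u

open FN RP in
theorem fin8 : ∃ C : ℝ, ∀ (H : Type u) [NormedAddCommGroup H] [InnerProductSpace ℂ H]
    [CompleteSpace H] (A M : VonNeumannAlgebra H), IsMasa A M →
    ((∃ ζ, IsTraceFamily M ζ) ∨
      (SigmaFinite M ∧ (NoCentralState A M ∨ ∀ v, Normalizes A M v → v ∈ A)) ∨ ApproxFinite A M) →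
    ∀ ε : ℝ, 0 < ε → ε < 1 → ∃ r : ℕ, 1 ≤ r ∧ (r : ℝ) ≤ C / ε ^ 2 ∧
      ∀ x ∈ M, IsSelfAdjoint x → SoPavable A M x ε r := by
  obtain ⟨C, h7⟩ := fin7.{u}
  refine ⟨|C| + (65 ^ 2 + 8), fun H _ _ _ A M hA h ε e0 e1 => ?_⟩
  have m0 : 1 ≤ 1 / ε := by rw [le_div_iff₀ e0]; linarith
  have a2 : 1 / ε ≤ (1 / ε) ^ 2 := le_self_pow₀ m0 (by norm_num)
  have a3 : 0 ≤ |C| / ε ^ 2 := by positivity
  have e : (|C| + (65 ^ 2 + 8)) / ε ^ 2 =
      |C| / ε ^ 2 + 65 ^ 2 / ε ^ 2 + 8 * (1 ^ 2 / ε ^ 2) := by ring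
  have a6 : C / ε ^ 2 ≤ (|C| + (65 ^ 2 + 8)) / ε ^ 2 :=
    div_le_div_of_nonneg_right (by linarith [le_abs_self C]) (by positivity)
  rw [div_pow] at a2
  rcases h with ⟨ζ, hζ⟩ | ⟨hσ, h⟩ | h
  · obtain ⟨s, s1, s2⟩ := ex_s (show 0 < ε / 4 by positivity) (by linarith)
    obtain ⟨m, hm⟩ : ∃ m, m = ⌈64 / ε⌉₊ := ⟨_, rfl⟩
    have m1 : 64 / ε ≤ m := hm ▸ Nat.le_ceil _
    have m2 : (m : ℝ) < 64 / ε + 1 := hm ▸ Nat.ceil_lt_add_one (by positivity)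
    have m3 : 64 ≤ 64 / ε := by rw [le_div_iff₀ e0]; linarith
    have m4 : 2 ≤ m := by exact_mod_cast (show (2 : ℝ) ≤ m by linarith)
    have m5 : (m : ℝ) ≤ 65 / ε := by
      rw [show 65 / ε = 64 / ε + 1 / ε by ring]
      linarith
    have m6 : 32 / (m : ℝ) ≤ ε / 2 := by
      rw [div_le_iff₀ (by linarith)]
      rw [div_le_iff₀ e0] at m1
      linarith
    have η0 : 0 < ε / 20 := by positivity
    have r0 : 0 < m ^ 2 := by positivity
    refine ⟨m ^ 2 + 2 ^ s, le_add_left Nat.one_le_two_pow, ?_, fun x hx hs =>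
      So.mono (semi2 sing (avgS proj) hA hζ (c := 32 / m + 2 * (ε / 20))
        (fun K _ _ _ A M hA f hf pf ζ z1 z2 z3 x hx hs hn v θ hθ => Cor.gen ⟨0, r0⟩ (by positivity)
          (fun K _ _ _ A M ξ hA ht x hx hs hn θ hθ =>
            F4.gen core3 block2 atoms cut2 hA ht m4 η0 hx hs hn hθ) hA hf pf z1 z2 z3 hx hs hn v hθ)
        s η0 x hx hs) (by linarith)⟩
    have a1 := pow_le_pow_left₀ (by positivity) m5 2
    rw [show 2 / (ε / 4) = 8 * (1 / ε) by field_simp; norm_num] at s2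
    rw [div_pow] at a1
    push_cast
    linarith
  · obtain ⟨K, _, _, _, A', M', π, ξ, hR, hξ, hN, hT⟩ := std hA hσ
    obtain ⟨r, r1, r2, r3⟩ := h7 K A' M' (hR.masa hA) (.inr (.inr (.inl ⟨⟨ξ, hξ⟩,
      h.imp hN fun h v hv => by
        obtain ⟨w, hw, rfl⟩ := (hR.memM v).1 hv.1
        have sw := star_mem hw
        have k : ∀ a ∈ A, ∀ y ∈ M, ∀ z, π y * π a * π z ∈ A' → z ∈ M → y * a * z ∈ A :=
          fun a ha y hy z e hz => by
            have m := mul_mem hy (hA.1 a ha)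
            rw [← hR.mul _ hy, ← hR.mul _ m] at e
            obtain ⟨b, hb, e'⟩ := (hR.memA _).1 e
            exact hR.inj (hA.1 b hb) (mul_mem m hz) e' ▸ hb
        refine (hR.memA _).2 ⟨w, h w ⟨hw, ⟨hR.inj (mul_mem sw hw) (one_mem _) ?_,
          hR.inj (mul_mem hw sw) (one_mem _) ?_⟩, fun a ha => k a ha w hw _ ?_ sw,
          fun a ha => k a ha _ sw w ?_ hw⟩, rfl⟩
        · rw [hR.mul _ sw, hR.st, hR.one]
          exact hv.2.1.1
        · rw [hR.mul _ hw, hR.st, hR.one]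
          exact hv.2.1.2
        · rw [hR.st]
          exact hv.2.2.1 _ ((hR.memA _).2 ⟨a, ha, rfl⟩)
        · rw [hR.st]
          exact hv.2.2.2 _ ((hR.memA _).2 ⟨a, ha, rfl⟩)⟩))) ε e0 e1
    exact ⟨r, r1, r2.trans a6, hT ε r r3⟩
  · obtain ⟨r, r1, r2, r3⟩ := h7 H A M hA (.inr (.inr (.inr h))) ε e0 e1
    exact ⟨r, r1, r2.trans a6, r3⟩

end Vale.Agent.P078
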