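import Vale.Agent.P078.Core2

/-! From two-sided paving to strong-operator paving. -/

namespace Vale.Agent.P078

open scoped InnerProductSpace ComplexConjugate ComplexOrder
open Vale.Agent.P104 Vale.Agent.P082 Finset ContinuousLinearMap

universe u

variable {H : Type u} [NormedAddCommGroup H] [InnerProductSpace ℂ H] [CompleteSpace H]
  {A M : VonNeumannAlgebra H} {ξ : H}

open R in
theorem fin_two {r : ℕ} {c : ℝ} (c1 : 0 ≤ c) (hc : Core2.{u} r c)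
    (h1 : CEStmt.{u}) (h2 : SpecStmt.{u}) (hA : IsMasa A M)
    (hr : Regular A M) (ht : TraceVec M ξ) {η : ℝ} (hη : 0 < η)
    {x : H →L[ℂ] H} (hx : x ∈ M) (hs : IsSelfAdjoint x) (hn : ‖x‖ ≤ 1) {θ : ℝ} (hθ : 0 < θ) :
    ∃ p : Fin r → H →L[ℂ] H, IsPartition A p ∧ ∃ a ∈ A, IsSelfAdjoint a ∧ ‖a‖ ≤ 1 ∧
      ∃ q ∈ M, IsStarProjection q ∧ ‖(1 - q) ξ‖ ≤ θ ∧
        ‖q * (pin p x - a) * q‖ ≤ 2 * c + 2 * η := by
  obtain ⟨x0, x1, x2, x3, x4⟩ := kap hr ht hx hs hn (show 0 < η * θ / 6 by positivity)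
  have xM := nsp_le x1
  obtain ⟨a0, a1, a2, a3⟩ := h1 H A M ξ hA ht x0 xM
  obtain ⟨a, ha⟩ : ∃ a, a = (2⁻¹ : ℂ) • (a0 + star a0) := ⟨_, rfl⟩
  have aA : a ∈ A := ha ▸ vn_smul_mem _ (add_mem a1 (star_mem a1))
  have as : IsSelfAdjoint a := ha ▸ half_sa a0
  have an : ‖a‖ ≤ 1 := ha ▸ (half_norm a0).trans (a2.trans x3)
  have at' : ∀ b ∈ A, ⟪ξ, (b * a) ξ⟫_ℂ = ⟪ξ, (b * x0) ξ⟫_ℂ := fun b hb => by
    have e : ⟪ξ, (b * star a0) ξ⟫_ℂ = ⟪ξ, (b * x0) ξ⟫_ℂ := by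
      have := congrArg conj (a3 _ (star_mem hb))
      rw [inner_conj_symm, inner_conj_symm, ← inner_star_right, ← inner_star_right, star_mul,
        star_mul, star_star, x2.star_eq] at this
      rw [hA.2.1 _ hb _ (star_mem a1), this, ht.2.1 _ xM _ (hA.1 _ hb)]
    rw [ha, mul_smul_comm, mul_add, smul_apply, add_apply, inner_smul_right, inner_add_right, e,
      a3 b hb]
    ring
  obtain ⟨y, hy⟩ : ∃ y, y = (2⁻¹ : ℂ) • (x0 - a) := ⟨_, rfl⟩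
  have y1 : y ∈ nsp A M := hy ▸ (nsp A M).smul_mem (sub_mem x1 (le_nsp hA aA)) _
  have y2 : IsSelfAdjoint y := by
    rw [hy]
    simp [IsSelfAdjoint, x2.star_eq, as.star_eq]
  have y3 : ‖y‖ ≤ 1 := by
    rw [hy, norm_smul, norm_inv, Complex.norm_ofNat]
    linarith [norm_sub_le x0 a]
  have y4 : ∀ b ∈ A, ⟪ξ, (b * y) ξ⟫_ℂ = 0 := fun b hb => by
    rw [hy, mul_smul_comm, mul_sub, smul_apply, sub_apply, inner_smul_right, inner_sub_right,
      at' b hb, sub_self, mul_zero]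
  have p0 : 0 < η * θ ^ 2 / 8 := by positivity
  obtain ⟨P, PP, w, wM, w0, w1, b1, b2⟩ := hc H A M ξ hA ht y y1 y2 y3 y4 _ p0
  obtain ⟨d, hd⟩ : ∃ d, d = x - x0 := ⟨_, rfl⟩
  have dM : star d * d ∈ M := hd ▸ mul_mem (star_mem (sub_mem hx xM)) (sub_mem hx xM)
  have ds : IsSelfAdjoint d := hd ▸ hs.sub x2
  have one : ∀ {r : ℕ} {p : Fin r → H →L[ℂ] H}, IsPartition A p → ∀ c : ℂ,
      pin p (c • 1) = c • 1 := fun h c => pin_fix h fun i => by simp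
  have e0 : pin P x - a = pin P y + pin P y + pin P d := by
    have : x = y + y + d + a := by rw [hy, hd]; module
    rw [this, pin_add, pin_add, pin_add, pin_fix PP fun i => hA.2.1 _ (PP.1 i).1 _ aA,
      add_sub_cancel_right]
  obtain ⟨D, hD⟩ : ∃ D, D = ((η⁻¹ : ℝ) : ℂ) • pin P (star d * d) := ⟨_, rfl⟩
  have D0 : 0 ≤ D := hD ▸ smul_nn (inv_nonneg.2 hη.le) (pin_nonneg PP (star_mul_self_nonneg d))
  have b3 : pin P d ≤ (η : ℂ) • 1 + D := by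
    rw [hD, ← pin_smul, ← one PP, ← pin_add]
    exact pin_mono PP (sq_le ds hη)
  have b4 : -pin P d ≤ (η : ℂ) • 1 + D := by
    rw [hD, ← pin_smul, ← one PP, ← pin_add, ← pin_neg]
    simpa only [star_neg, neg_mul_neg] using pin_mono PP (sq_le ds.neg hη)
  obtain ⟨W, hW⟩ : ∃ W, W = w + w + D := ⟨_, rfl⟩
  have W0 : 0 ≤ W := hW ▸ add_nonneg (add_nonneg w0 w0) D0
  have WM : W ∈ M := hW ▸ add_mem (add_mem wM wM) (hD ▸ vn_smul_mem _ (pin_mem hA PP dM))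
  have Wt : (⟪ξ, W ξ⟫_ℂ).re ≤ η * θ ^ 2 := by
    have : ‖d ξ‖ ^ 2 ≤ (η * θ / 2) ^ 2 := by
      rw [hd]
      exact pow_le_pow_left₀ (norm_nonneg _) (by linarith) 2
    have e : η⁻¹ * ‖d ξ‖ ^ 2 ≤ η * θ ^ 2 / 4 := by
      rw [inv_mul_le_iff₀ hη]
      nlinarith
    simp only [hW, hD, add_apply, smul_apply, inner_add_right, inner_smul_right,
      pin_tr hA ht PP dM, Complex.add_re,
      Complex.re_ofReal_mul, ← norm_sq_apply]
    nlinarith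
  obtain ⟨e, eM, e1, -, e2, e3⟩ := h2 H M (W - (η : ℂ) • 1) (sub_mem WM (vn_smul_mem _ (one_mem _)))
    (W0.isSelfAdjoint.sub ((show IsSelfAdjoint (η : ℂ) from Complex.conj_ofReal _).smul
      (.one _)))
  obtain ⟨q, hq⟩ : ∃ q, q = 1 - e := ⟨_, rfl⟩
  have qM : q ∈ M := hq ▸ sub_mem (one_mem _) eM
  have q1 : IsStarProjection q := hq ▸ e1.one_sub
  rw [← hq] at e3
  have c0 : 0 ≤ 2 * c + 2 * η := by positivity
  have key : ∀ z, z ≤ (c : ℂ) • 1 + (c : ℂ) • 1 + (η : ℂ) • 1 + W →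
      q * z * q ≤ ((2 * c + 2 * η : ℝ) : ℂ) • 1 := fun z hz => by
    refine (q1.isSelfAdjoint.conjugate_le_conjugate hz).trans ?_
    have : q * ((c : ℂ) • 1 + (c : ℂ) • 1 + (η : ℂ) • 1 + W) * q =
        ((2 * c + 2 * η : ℝ) : ℂ) • 1 - ((2 * c + 2 * η : ℝ) : ℂ) • (1 - q) +
          q * (W - (η : ℂ) • 1) * q := by
      simp only [mul_add, add_mul, mul_sub, sub_mul, mul_smul_comm, smul_mul_assoc, mul_one,
        q1.isIdempotentElem.eq]
      push_cast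
      module
    rw [this]
    exact (add_le_of_nonpos_right e3).trans (sub_le_self _ (smul_nn c0 q1.one_sub.nonneg))
  refine ⟨P, PP, a, aA, as, an, q, qM, q1, ?_, norm_le_of_le ?_ c0 (key _ ?_) ?_⟩
  · rw [hq, sub_sub_cancel]
    have t1 := re_nonneg (ξ := ξ) e2
    have t2 := re_nonneg (ξ := ξ) (q1.isSelfAdjoint.conjugate_nonneg W0)
    have t3 : ⟪ξ, (e * W * e) ξ⟫_ℂ + ⟪ξ, (q * W * q) ξ⟫_ℂ = ⟪ξ, W ξ⟫_ℂ := by
      rw [ht.2.1 _ (mul_mem eM WM) _ eM, ht.2.1 _ (mul_mem qM WM) _ qM, ← mul_assoc, ← mul_assoc,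
        e1.isIdempotentElem.eq, q1.isIdempotentElem.eq, ← inner_add_right, ← add_apply, ← add_mul,
        hq, add_sub_cancel, one_mul]
    have t4 := congrArg Complex.re t3
    have t5 := norm_sq_apply e ξ
    rw [e1.isSelfAdjoint.star_eq] at t5
    rw [mul_sub, sub_mul, mul_smul_comm, smul_mul_assoc, mul_one, sub_apply, inner_sub_right,
      smul_apply, inner_smul_right, Complex.sub_re, Complex.re_ofReal_mul, ← t5] at t1
    rw [Complex.add_re] at t4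
    exact le_of_sq_le hθ.le (le_of_mul_le_mul_left (by linarith) hη)
  · have : IsSelfAdjoint (pin P x) := isSelfAdjoint_sum _ fun i _ =>
      hs.conjugate_self (PP.1 i).2.isSelfAdjoint
    exact (this.sub as).conjugate_self q1.isSelfAdjoint
  · rw [e0, hW]
    exact (add_le_add (add_le_add b1 b1) b3).trans_eq (by abel)
  · rw [← neg_mul, ← mul_neg]
    refine key _ ?_
    rw [e0, hW, neg_add, neg_add]
    exact (add_le_add (add_le_add b2 b2) b4).trans_eq (by abel)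

theorem final2 : ∃ C : ℝ, ∀ (H : Type u) [NormedAddCommGroup H] [InnerProductSpace ℂ H]
    [CompleteSpace H] (A M : VonNeumannAlgebra H) (ξ : H), IsMasa A M → Regular A M →
    TraceVec M ξ → ∀ ε : ℝ, 0 < ε → ε < 1 → ∃ r : ℕ, 1 ≤ r ∧ (r : ℝ) ≤ C / ε ^ 2 ∧
      ∀ x ∈ M, IsSelfAdjoint x → SoPavable A M x ε r := by
  refine ⟨3 * 14 ^ 2, fun H _ _ _ A M ξ hA hr ht ε e0 e1 => ?_⟩
  obtain ⟨m, hm⟩ : ∃ m, m = ⌈13 / ε⌉₊ := ⟨_, rfl⟩
  have m1 : 13 / ε ≤ m := hm ▸ Nat.le_ceil _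
  have m2 : (m : ℝ) < 13 / ε + 1 := hm ▸ Nat.ceil_lt_add_one (by positivity)
  have m3 : 13 ≤ 13 / ε := by rw [le_div_iff₀ e0]; linarith
  have m4 : 1 ≤ m := by exact_mod_cast (show (1 : ℝ) ≤ m by linarith)
  have m5 : (m : ℝ) ≤ 14 / ε := by
    have : 1 ≤ 1 / ε := by rw [le_div_iff₀ e0]; linarith
    rw [show 14 / ε = 13 / ε + 1 / ε by ring]
    linarith
  have m6 : 2 * (6 / (m : ℝ)) + 2 * (ε / 26) ≤ ε := by
    have : 6 / (m : ℝ) ≤ 6 / 13 * ε := by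
      rw [div_le_iff₀ (by linarith)]
      rw [div_le_iff₀ e0] at m1
      linarith
    linarith
  refine ⟨3 * m ^ 2, Nat.one_le_iff_ne_zero.2 (by positivity), ?_, fun x hx hs F δ d0 => ?_⟩
  · rw [mul_div_assoc, ← div_pow]
    push_cast
    gcongr
  obtain ⟨θ, t0, hθ⟩ := R.sep_fin ht F d0
  obtain ⟨p, pp, a, aA, as, an, q, qM, q1, q2, q3⟩ := fin_two (by positivity) (core2 m4) ce spec hA hr ht
    (show 0 < ε / 26 by positivity) (vn_smul_mem ((‖x‖⁻¹ : ℝ) : ℂ) hx)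
    ((show IsSelfAdjoint ((‖x‖⁻¹ : ℝ) : ℂ) from Complex.conj_ofReal _).smul hs) (by
      rw [norm_smul, Complex.norm_real, norm_inv, norm_norm]
      exact inv_mul_le_one_of_le₀ le_rfl (norm_nonneg _)) t0
  refine ⟨p, pp, (‖x‖ : ℂ) • a, vn_smul_mem _ aA,
    (show IsSelfAdjoint (‖x‖ : ℂ) from Complex.conj_ofReal _).smul as, ?_, q, qM, q1,
    hθ _ (sub_mem (one_mem _) qM) q1.one_sub.norm_le q2, ?_⟩
  · rw [norm_smul, Complex.norm_real, norm_norm]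
    exact mul_le_of_le_one_right (norm_nonneg _) an
  · have e : x = (‖x‖ : ℂ) • ((‖x‖⁻¹ : ℝ) : ℂ) • x := by
      rcases eq_or_ne x 0 with rfl | x0
      · simp
      · rw [smul_smul, ← Complex.ofReal_mul, mul_inv_cancel₀ (norm_ne_zero_iff.2 x0)]
        simp
    change ‖q * (R.pin p x - _) * q‖ ≤ _
    nth_rw 1 [e]
    rw [R.pin_smul, ← smul_sub, mul_smul_comm, smul_mul_assoc, norm_smul, Complex.norm_real,
      norm_norm, mul_comm]
    exact mul_le_mul_of_nonneg_right (q3.trans m6) (norm_nonneg _)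

end Vale.Agent.P078
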