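import Vale.Agent.P078.Stmts

/-! Averages of products of principal minors. -/

namespace Vale.Agent.P078

open Finset

variable {ι κ : Type*} [DecidableEq ι] [DecidableEq κ] {r : ℕ} {R R' : Type*} [CommRing R]
  [CommRing R']

/-- One averaging step. -/
def Tp (π : ι → Fin r → R) (v : ι) (f : Finset (ι × Fin r) → R) : Finset (ι × Fin r) → R :=
  fun F => ∑ c, π v c * f (insert (v, c) F)

instance (π : ι → Fin r → R) : LeftCommutative (Tp π) := ⟨fun v w f => by
  funext F
  simp only [Tp, mul_sum]
  rw [sum_comm]
  refine sum_congr rfl fun c _ => sum_congr rfl fun c' _ => ?_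
  rw [Finset.insert_comm, mul_left_comm]⟩

/-- The average over all colourings of `V`. -/
def G (π : ι → Fin r → R) (g : Finset (ι × Fin r) → R) (V : Finset ι) :
    Finset (ι × Fin r) → R := V.1.foldr (Tp π) g

variable {π π' : ι → Fin r → R} {g g' : Finset (ι × Fin r) → R}

@[simp] theorem G_empty : G π g ∅ = g := rfl

theorem G_insert {v : ι} {V : Finset ι} (h : v ∉ V) (F : Finset (ι × Fin r)) :
    G π g (insert v V) F = ∑ c, π v c * G π g V (insert (v, c) F) := by
  rw [G, insert_val_of_notMem h, Multiset.foldr_cons]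
  rfl

theorem G_map (φ : R →+* R') (V : Finset ι) (F : Finset (ι × Fin r)) :
    φ (G π g V F) = G (fun v c => φ (π v c)) (fun F => φ (g F)) V F := by
  induction V using Finset.induction_on generalizing F with
  | empty => rfl
  | insert v V h ih => simp only [G_insert h, map_sum, map_mul, ih]

theorem G_emb {π' : κ → Fin r → R} {g' : Finset (κ × Fin r) → R} (e : κ → ι) (S : Set κ)
    (he : Set.InjOn e S) (hπ : ∀ v ∈ S, π (e v) = π' v)
    (hg : ∀ F : Finset (κ × Fin r), (∀ p ∈ F, p.1 ∈ S) → g (F.image (Prod.map e id)) = g' F)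
    (V : Finset κ) (hV : ∀ v ∈ V, v ∈ S) (F : Finset (κ × Fin r)) (hF : ∀ p ∈ F, p.1 ∈ S) :
    G π g (V.image e) (F.image (Prod.map e id)) = G π' g' V F := by
  induction V using Finset.induction_on generalizing F with
  | empty => exact hg F hF
  | insert v V h ih =>
    have hv := hV v (mem_insert_self _ _)
    have hV' : ∀ w ∈ V, w ∈ S := fun w hw => hV w (mem_insert_of_mem hw)
    have : e v ∉ V.image e := fun c => by
      obtain ⟨w, hw, e1⟩ := mem_image.1 c
      exact h (he (hV' w hw) hv e1 ▸ hw)
    rw [image_insert, G_insert this, G_insert h, hπ v hv]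
    refine sum_congr rfl fun c _ => ?_
    rw [← ih hV' _ (by simpa [hv] using hF), image_insert]
    rfl

theorem G_congr (S : Set ι) (hπ : ∀ v ∈ S, π v = π' v) (V : Finset ι) (hV : ∀ v ∈ V, v ∈ S)
    (F : Finset (ι × Fin r)) : G π g V F = G π' g V F := by
  induction V using Finset.induction_on generalizing F with
  | empty => rfl
  | insert v V h ih =>
    simp only [G_insert h, hπ v (hV v (mem_insert_self _ _)),
      ih fun w hw => hV w (mem_insert_of_mem hw)]

theorem G_congr' (V : Finset ι) (F : Finset (ι × Fin r))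
    (hg : ∀ F' : Finset (ι × Fin r), (∀ p ∈ F', p ∈ F ∨ p.1 ∈ V) → g F' = g' F') :
    G π g V F = G π g' V F := by
  induction V using Finset.induction_on generalizing F with
  | empty => exact hg F fun p hp => .inl hp
  | insert v V h ih =>
    rw [G_insert h, G_insert h]
    refine sum_congr rfl fun c _ => congrArg _ (ih _ fun F' h' => hg F' fun p hp => ?_)
    rcases h' p hp with h1 | h1
    · rcases mem_insert.1 h1 with rfl | h1
      · exact .inr (mem_insert_self _ _)
      · exact .inl h1
    · exact .inr (mem_insert_of_mem h1)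

theorem G_aff {j : ι × Fin r} {h : R} (hg : ∀ F, j ∈ F → g' F = g F + h * g (F.erase j))
    (V : Finset ι) (hV : j.1 ∉ V) (F : Finset (ι × Fin r)) (hF : j ∈ F) :
    G π g' V F = G π g V F + h * G π g V (F.erase j) := by
  induction V using Finset.induction_on generalizing F with
  | empty => exact hg F hF
  | insert v V hv ih =>
    simp only [G_insert hv, mul_sum, ← sum_add_distrib]
    refine sum_congr rfl fun c _ => ?_
    have : (v, c) ≠ j := fun e => hV (by rw [← e]; exact mem_insert_self _ _)
    rw [ih (fun c => hV (mem_insert_of_mem c)) _ (mem_insert_of_mem hF), erase_insert_of_ne this]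
    ring

theorem G_fac (p : ι → Prop) [DecidablePred p]
    (hg : ∀ F, g F = g (F.filter fun j => p j.1) * g (F.filter fun j => ¬p j.1))
    (V : Finset ι) (F : Finset (ι × Fin r)) : G π g V F =
      G π g (V.filter p) (F.filter fun j => p j.1) *
        G π g (V.filter fun v => ¬p v) (F.filter fun j => ¬p j.1) := by
  induction V using Finset.induction_on generalizing F with
  | empty => exact hg F
  | insert v V h ih =>
    by_cases hv : p v
    · rw [filter_insert, if_pos hv, filter_insert, if_neg (not_not.2 hv), G_insert h,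
        G_insert (fun c => h (mem_filter.1 c).1), sum_mul]
      refine sum_congr rfl fun c _ => ?_
      rw [ih, filter_insert, if_pos hv, filter_insert, if_neg (not_not.2 hv), mul_assoc]
    · rw [filter_insert, if_neg hv, filter_insert, if_pos hv, G_insert h,
        G_insert (fun c => h (mem_filter.1 c).1), mul_sum]
      refine sum_congr rfl fun c _ => ?_
      rw [ih, filter_insert, if_neg hv, filter_insert, if_pos hv, mul_left_comm]

theorem G_one (V : Finset ι) (hπ : ∀ v ∈ V, ∑ c, π v c = 1) (F : Finset (ι × Fin r)) :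
    G π (fun _ => 1) V F = 1 := by
  induction V using Finset.induction_on generalizing F with
  | empty => rfl
  | insert v V h ih =>
    simp only [G_insert h, ih fun w hw => hπ w (mem_insert_of_mem hw), mul_one]
    exact hπ v (mem_insert_self _ _)

theorem G_det (col : ι → Fin r) (V : Finset ι)
    (hπ : ∀ v ∈ V, ∀ c, π v c = if col v = c then 1 else 0) (F : Finset (ι × Fin r)) :
    G π g V F = g (V.image (fun v => (v, col v)) ∪ F) := by
  induction V using Finset.induction_on generalizing F with
  | empty => simp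
  | insert v V h ih =>
    simp only [G_insert h, ih fun w hw => hπ w (mem_insert_of_mem hw),
      hπ v (mem_insert_self _ _), ite_mul, one_mul, zero_mul, sum_ite_eq, mem_univ, if_true,
      image_insert, union_insert, insert_union]

theorem G_cont {T : Type*} [TopologicalSpace T] {π : ι → Fin r → ℂ}
    {g : T → Finset (ι × Fin r) → ℂ} (hg : ∀ F, Continuous fun t => g t F) (V : Finset ι)
    (F : Finset (ι × Fin r)) : Continuous fun t => G π (g t) V F := by
  induction V using Finset.induction_on generalizing F with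
  | empty => exact hg F
  | insert v V h ih =>
    simp only [G_insert h]
    exact continuous_finsetSum _ fun c _ => continuous_const.mul (ih _)

theorem expand {σ : Type*} [DecidableEq σ] (Φ : Finset σ → Finset σ → R) (h : R) (U : Finset σ)
    (hΦ : ∀ S T, ∀ a ∈ U, a ∉ S → a ∉ T → Φ (insert a S) T = Φ S T + h * Φ S (insert a T))
    (S : Finset σ) (hS : S ⊆ U) (T : Finset σ) (hT : Disjoint S T) :
    Φ S T = ∑ T' ∈ S.powerset, h ^ T'.card * Φ ∅ (T' ∪ T) := by
  induction S using Finset.induction_on generalizing T with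
  | empty => simp
  | insert a S ha ih =>
    rw [disjoint_insert_left] at hT
    have h1 := (subset_insert a S).trans hS
    rw [hΦ S T a (hS (mem_insert_self _ _)) ha hT.1, ih h1 T hT.2,
      ih h1 _ (disjoint_insert_right.2 ⟨ha, hT.2⟩), sum_powerset_insert ha, mul_sum]
    congr 1
    refine sum_congr rfl fun T' hT' => ?_
    rw [card_insert_of_notMem (fun c => ha (mem_powerset.1 hT' c)), union_insert, insert_union]
    ring

/-- A principal minor. -/
def dS (N : ι → ι → R) (S : Finset ι) : R := Matrix.det (Matrix.of fun i j : S => N i j)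

theorem dS_congr {N N' : ι → ι → R} {S : Finset ι} (h : ∀ i ∈ S, ∀ j ∈ S, N i j = N' i j) :
    dS N S = dS N' S := by
  rw [dS, dS]
  congr 1
  ext i j
  exact h _ i.2 _ j.2

theorem dS_map (φ : R →+* R') (N : ι → ι → R) (S : Finset ι) :
    φ (dS N S) = dS (fun i j => φ (N i j)) S := by
  rw [dS, RingHom.map_det]
  rfl

theorem dS_emb (N : ι → ι → R) (e : κ → ι) (S : Finset κ) (he : Set.InjOn e S) :
    dS N (S.image e) = dS (fun i j => N (e i) (e j)) S := by
  let f : S → S.image e := fun i => ⟨e i, mem_image_of_mem e i.2⟩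
  have hf : Function.Bijective f := ⟨fun i j h => Subtype.ext (he i.2 j.2 (congrArg Subtype.val h)),
    fun ⟨_, h⟩ => by
      obtain ⟨i, hi, rfl⟩ := mem_image.1 h
      exact ⟨⟨i, hi⟩, rfl⟩⟩
  rw [dS, ← Matrix.det_submatrix_equiv_self (Equiv.ofBijective f hf)]
  rfl

theorem dS_fac (N : ι → ι → R) (S : Finset ι) (p : ι → Prop) [DecidablePred p]
    (h : ∀ i ∈ S, ¬p i → ∀ j ∈ S, p j → N i j = 0) :
    dS N S = dS N (S.filter p) * dS N (S.filter fun i => ¬p i) := by
  have key : ∀ (q : ι → Prop) [DecidablePred q],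
      ((Matrix.of fun i j : S => N i j).toSquareBlockProp fun i => q i).det = dS N (S.filter q) := by
    intro q _
    let e : S.filter q ≃ {i : S // q i} :=
      ⟨fun i => ⟨⟨i, (mem_filter.1 i.2).1⟩, (mem_filter.1 i.2).2⟩,
        fun i => ⟨i.1, mem_filter.2 ⟨i.1.2, i.2⟩⟩, fun _ => rfl, fun _ => rfl⟩
    rw [← Matrix.det_submatrix_equiv_self e]
    rfl
  rw [← key, ← key]
  exact Matrix.twoBlockTriangular_det _ (fun i : S => p i) fun i hi j hj => h _ i.2 hi _ j.2 hj

theorem dS_adj (N : ι → ι → R) {S : Finset ι} (v : S) :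
    (Matrix.of fun i j : S => N i j).adjugate v v = dS N (S.erase v) := by
  have e1 : (Matrix.of fun i j : S => N i j).adjugate v v =
      dS (Function.update N v (Pi.single v.1 1)) S := by
    rw [Matrix.adjugate_apply, dS]
    congr 1
    ext i j
    by_cases h : i = v
    · subst h
      simp only [Matrix.updateRow_self, Matrix.of_apply, Function.update_self, Pi.single_apply,
        Subtype.coe_inj]
    · simp [h, Function.update_of_ne (Subtype.coe_ne_coe.2 h)]
  rw [e1, dS_fac _ S (fun i => i ≠ v.1) fun i _ hi j _ hj => by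
    rw [not_not.1 hi]
    simp [hj], filter_ne', dS_congr (N' := N) fun i hi j _ => by
      rw [Function.update_of_ne (mem_erase.1 hi).1]]
  have e2 : S.filter (fun i => ¬i ≠ v.1) = {v.1} := by
    ext i
    simp only [mem_filter, not_not, mem_singleton, and_iff_right_iff_imp]
    rintro rfl
    exact v.2
  rw [e2, dS, dS, Matrix.det_unique (n := ({v.1} : Finset ι))]
  simp

theorem dS_aff {N N' : ι → ι → R} {S : Finset ι} {v : ι} (hv : v ∈ S) {h : R}
    (H : ∀ i j, N' i j = N i j + if i = v ∧ j = v then h else 0) :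
    dS N' S = dS N S + h * dS N (S.erase v) := by
  have e : (Matrix.of fun i j : S => N' i j) = (Matrix.of fun i j : S => N i j).updateRow ⟨v, hv⟩
      ((Matrix.of fun i j : S => N i j) ⟨v, hv⟩ + h • Pi.single ⟨v, hv⟩ 1) := by
    ext i j
    by_cases hi : i = ⟨v, hv⟩
    · subst hi
      simp [H, Pi.single_apply, Subtype.ext_iff]
    · have : i.1 ≠ v := fun c => hi (Subtype.ext c)
      simp [H, hi, this]
  rw [dS, e, Matrix.det_updateRow_add, Matrix.det_updateRow_smul, Matrix.updateRow_eq_self,
    ← Matrix.adjugate_apply, dS_adj]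
  rfl

/-- The vertices of colour `c`. -/
def sl (F : Finset (ι × Fin r)) (c : Fin r) : Finset ι := (F.filter fun p => p.2 = c).image Prod.fst

@[simp] theorem mem_sl {F : Finset (ι × Fin r)} {c : Fin r} {i : ι} : i ∈ sl F c ↔ (i, c) ∈ F := by
  simp [sl]

/-- The matrix `diag z - y`. -/
def mat (z : ι × Fin r → R) (y : ι → ι → R) (c : Fin r) (i j : ι) : R :=
  (if i = j then z (i, c) else 0) - y i j

/-- The product of the principal minors. -/
def g0 (z : ι × Fin r → R) (y : ι → ι → R) (F : Finset (ι × Fin r)) : R :=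
  ∏ c, dS (mat z y c) (sl F c)

variable {z z' : ι × Fin r → R} {y : ι → ι → R}

theorem g0_congr {F : Finset (ι × Fin r)} (h : ∀ p ∈ F, z p = z' p) : g0 z y F = g0 z' y F :=
  prod_congr rfl fun c _ => dS_congr fun i hi j _ => by rw [mat, mat, h _ (mem_sl.1 hi)]

theorem GZ_congr (V : Finset ι) (F : Finset (ι × Fin r)) (h : ∀ p, p ∈ F ∨ p.1 ∈ V → z p = z' p) :
    G π (g0 z y) V F = G π (g0 z' y) V F :=
  G_congr' V F fun _ h' => g0_congr fun p hp => h p (h' p hp)

theorem GZ_map (φ : R →+* R') (V : Finset ι) (F : Finset (ι × Fin r)) :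
    φ (G π (g0 z y) V F) =
      G (fun v c => φ (π v c)) (g0 (fun p => φ (z p)) fun i j => φ (y i j)) V F := by
  rw [G_map]
  congr 1
  funext F
  simp only [g0, map_prod, dS_map, mat, map_sub, apply_ite φ, map_zero]
  rfl

theorem GZ_aff {j : ι × Fin r} (h : R) (V : Finset ι) (hV : j.1 ∉ V) (F : Finset (ι × Fin r))
    (hF : j ∈ F) (hz : ∀ p, p ∈ F ∨ p.1 ∈ V → z' p = z p + if p = j then h else 0) :
    G π (g0 z' y) V F = G π (g0 z y) V F + h * G π (g0 z y) V (F.erase j) := by
  rw [GZ_congr V F hz]
  refine G_aff (fun F hF => ?_) V hV F hF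
  obtain ⟨v, c⟩ := j
  simp only [g0, ← mul_prod_erase univ _ (mem_univ c)]
  have e1 : ∀ c' ∈ univ.erase c, dS (mat (fun p => z p + if p = (v, c) then h else 0) y c')
      (sl F c') = dS (mat z y c') (sl F c') := fun c' hc => dS_congr fun i _ j _ => by
    simp [mat, (mem_erase.1 hc).1]
  have e2 : ∀ c' ∈ univ.erase c, dS (mat z y c') (sl (F.erase (v, c)) c') =
      dS (mat z y c') (sl F c') := fun c' hc => by
    congr 1
    ext i
    simp [(mem_erase.1 hc).1]
  have e3 : sl (F.erase (v, c)) c = (sl F c).erase v := by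
    ext i
    simp
  rw [prod_congr rfl e1, prod_congr rfl e2, e3, dS_aff (N := mat z y c) (h := h) (mem_sl.2 hF)]
  · ring
  · intro i j
    by_cases hij : i = j
    · subst hij
      simp only [mat, if_true, Prod.mk.injEq, and_true, and_self]
      ring
    · have : ¬(i = v ∧ j = v) := fun c => hij (c.1.trans c.2.symm)
      simp [mat, hij, this]

theorem GZ_fac (p : ι → Prop) [DecidablePred p] (hy : ∀ i j, ¬p i → p j → y i j = 0)
    (V : Finset ι) : G π (g0 z y) V ∅ =
      G π (g0 z y) (V.filter p) ∅ * G π (g0 z y) (V.filter fun v => ¬p v) ∅ := by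
  refine G_fac p (fun F => ?_) V ∅
  simp only [g0, ← prod_mul_distrib]
  refine prod_congr rfl fun c _ => ?_
  rw [dS_fac _ _ p fun i _ hi j _ hj => by
    rw [mat, hy i j hi hj, if_neg fun e : i = j => hi (e ▸ hj), sub_zero]]
  congr 2 <;> ext i <;> simp

theorem GZ_cont {T : Type*} [TopologicalSpace T] {π : ι → Fin r → ℂ} {z : T → ι × Fin r → ℂ}
    {y : ι → ι → ℂ} (hz : ∀ p, Continuous fun t => z t p) (V : Finset ι)
    (F : Finset (ι × Fin r)) : Continuous fun t => G π (g0 (z t) y) V F := by
  refine G_cont (fun F => continuous_finsetProd _ fun c _ => Continuous.matrix_det ?_) V F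
  refine continuous_pi fun i => continuous_pi fun j => ?_
  simp only [Matrix.of_apply, mat]
  split_ifs
  · exact (hz _).sub continuous_const
  · exact continuous_const

end Vale.Agent.P078
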