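import Vale.Agent.P078.G1

/-! Zero-free regions and the barrier argument. -/

namespace Vale.Agent.P078

open Finset Polynomial Filter Topology
open scoped ComplexConjugate

variable {ι : Type*} [DecidableEq ι] {r : ℕ} {x : ι → ι → ℂ} {π : ι → Fin r → ℂ}

/-- The quadratic form. -/
noncomputable def qf (x : ι → ι → ℂ) (S : Finset ι) (ξ : ι → ℂ) : ℂ :=
  ∑ i ∈ S, ∑ j ∈ S, conj (ξ i) * x i j * ξ j

/-- Hermitian contractions. -/
structure HC (x : ι → ι → ℂ) : Prop where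
  herm : ∀ i j, x j i = conj (x i j)
  bd : ∀ S ξ, |(qf x S ξ).re| ≤ ∑ i ∈ S, ‖ξ i‖ ^ 2

/-- Probability weights. -/
def Prob (π : ι → Fin r → ℂ) : Prop :=
  ∀ v, (∀ c, ∃ t : ℝ, 0 ≤ t ∧ π v c = t) ∧ ∑ c, π v c = 1

omit [DecidableEq ι] in
theorem HC.im (hx : HC x) (S : Finset ι) (ξ : ι → ℂ) : (qf x S ξ).im = 0 := by
  rw [← Complex.conj_eq_iff_im, qf, map_sum, sum_comm]
  refine sum_congr rfl fun i _ => ?_
  rw [map_sum]
  refine sum_congr rfl fun j _ => ?_
  rw [hx.herm i j]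
  simp only [map_mul, Complex.conj_conj]
  ring

theorem ex_vec (z : ι × Fin r → ℂ) (c : Fin r) (S : Finset ι) (u : S → ℂ) :
    ∃ ξ : ι → ℂ, (∀ i : S, ξ i = u i) ∧ ∀ i : S, ((Matrix.of fun i j : S => mat z x c i j).mulVec u) i
      = z (i, c) * ξ i - ∑ j ∈ S, x i j * ξ j := by
  refine ⟨fun i => if h : i ∈ S then u ⟨i, h⟩ else 0, fun i => dif_pos i.2, fun i => ?_⟩
  rw [← sum_coe_sort S]
  simp [Matrix.mulVec, dotProduct, mat, sub_mul, Subtype.coe_inj]

omit [DecidableEq ι] in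
theorem sum_eq (z : ι → ℂ) (S : Finset ι) (ξ b : ι → ℂ)
    (h : ∀ i ∈ S, b i = z i * ξ i - ∑ j ∈ S, x i j * ξ j) :
    ∑ i ∈ S, conj (ξ i) * b i = ∑ i ∈ S, z i * ((‖ξ i‖ ^ 2 : ℝ) : ℂ) - qf x S ξ := by
  rw [qf, ← sum_sub_distrib]
  refine sum_congr rfl fun i hi => ?_
  rw [h i hi, mul_sub, mul_sum, Complex.ofReal_pow, ← Complex.conj_mul']
  simp only [mul_assoc, mul_left_comm (z i)]

section HP

variable {ω : ℂ} {k : ℝ}

/-- Nonvanishing on a half plane. -/
def NV (π : ι → Fin r → ℂ) (x : ι → ι → ℂ) (ω : ℂ) (k : ℝ) (V : Finset ι) : Prop :=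
  ∀ (F : Finset (ι × Fin r)) (z : ι × Fin r → ℂ), (∀ p ∈ F, p.1 ∉ V) →
    (∀ p, p ∈ F ∨ p.1 ∈ V → k < (ω * z p).re) → G π (g0 z x) V F ≠ 0

theorem NV.rat {V : Finset ι} (h : NV π x ω k V) {F : Finset (ι × Fin r)} {z : ι × Fin r → ℂ}
    {j : ι × Fin r} (hF : ∀ p ∈ F, p.1 ∉ V) (hj : j ∉ F) (hj' : j.1 ∉ V)
    (hz : ∀ p, p ∈ F ∨ p.1 ∈ V → k < (ω * z p).re) :
    (ω * z j).re - k ≤ (ω * (G π (g0 z x) V (insert j F) / G π (g0 z x) V F)).re := by
  by_contra hc
  set ρ := G π (g0 z x) V (insert j F) / G π (g0 z x) V F with hρ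
  refine h (insert j F) (fun p => z p + if p = j then -ρ else 0) (by simpa [hj'] using hF)
    (fun p hp => ?_) ?_
  · by_cases e : p = j
    · rw [if_pos e, e, mul_add, Complex.add_re, mul_neg, Complex.neg_re]
      linarith
    · rw [if_neg e, add_zero]
      exact hz p (by simpa [e] using hp)
  · rw [GZ_aff (-ρ) V hj' _ (mem_insert_self _ _) fun _ _ => rfl, erase_insert hj, hρ, neg_mul,
      div_mul_cancel₀ _ (h F z hF hz), add_neg_cancel]

theorem nv (hx : ∀ S ξ, (ω * qf x S ξ).re ≤ k * ∑ i ∈ S, ‖ξ i‖ ^ 2) (hπ : Prob π) (V : Finset ι) :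
    NV π x ω k V := by
  induction V using Finset.induction_on with
  | empty =>
    intro F z _ hz
    rw [G_empty, g0]
    refine prod_ne_zero_iff.2 fun c _ h0 => ?_
    obtain ⟨u, hu, h1⟩ := Matrix.exists_mulVec_eq_zero_iff.2 h0
    obtain ⟨ξ, e1, e2⟩ := ex_vec (x := x) z c _ u
    have h2 := sum_eq (x := x) (fun i => z (i, c)) (sl F c) ξ 0 fun i hi => by
      rw [← e2 ⟨i, hi⟩, h1]
      rfl
    simp only [Pi.zero_apply, mul_zero, sum_const_zero] at h2
    have h3 := hx (sl F c) ξ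
    rw [← sub_eq_zero.1 h2.symm, mul_sum, Complex.re_sum, mul_sum] at h3
    obtain ⟨i, hi⟩ := Function.ne_iff.1 hu
    refine absurd h3 (not_le.2 (sum_lt_sum (fun i hi => ?_) ⟨i, i.2, ?_⟩))
    · rw [← mul_assoc, Complex.re_mul_ofReal]
      exact mul_le_mul_of_nonneg_right (hz _ (.inl (mem_sl.1 hi))).le (sq_nonneg _)
    · rw [← mul_assoc, Complex.re_mul_ofReal]
      exact mul_lt_mul_of_pos_right (hz _ (.inl (mem_sl.1 i.2)))
        (pow_pos (norm_pos_iff.2 (by rwa [e1])) 2)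
  | insert v V hv ih =>
    intro F z hF hz h0
    have hF' : ∀ p ∈ F, p.1 ∉ V := fun p hp c => hF p hp (mem_insert_of_mem c)
    have hz' : ∀ p, p ∈ F ∨ p.1 ∈ V → k < (ω * z p).re := fun p hp =>
      hz p (hp.imp_right mem_insert_of_mem)
    choose t t0 ht using (hπ v).1
    have h1 : ∑ c, t c = 1 := by exact_mod_cast (by simpa only [ht] using (hπ v).2 : ∑ c, (t c : ℂ) = 1)
    have h2 : ∑ c, t c * (ω * (G π (g0 z x) V (insert (v, c) F) / G π (g0 z x) V F)).re = 0 := by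
      simp only [← Complex.re_ofReal_mul, ← Complex.re_sum, ← ht, mul_left_comm _ ω, ← mul_sum,
        ← mul_div_assoc, ← sum_div, ← G_insert hv, h0, zero_div, mul_zero, Complex.zero_re]
    have h3 : ∀ c, 0 < (ω * (G π (g0 z x) V (insert (v, c) F) / G π (g0 z x) V F)).re := fun c =>
      (sub_pos.2 (hz (v, c) (.inr (mem_insert_self _ _)))).trans_le
        (ih.rat hF' (fun h => hF _ h (mem_insert_self _ _)) hv hz')
    rw [sum_eq_zero_iff_of_nonneg fun c _ => mul_nonneg (t0 c) (h3 c).le] at h2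
    rw [sum_eq_zero fun c hc => (mul_eq_zero.1 (h2 c hc)).resolve_right (h3 c).ne'] at h1
    exact zero_ne_one h1

end HP

theorem HC.nvI (hx : HC x) (hπ : Prob π) (σ : ℝ) (V : Finset ι) :
    NV π x (-(σ * Complex.I)) 0 V :=
  nv (fun S ξ => by simp [hx.im]) hπ V

theorem HC.nvR (hx : HC x) (hπ : Prob π) {σ : ℝ} (hσ : |σ| = 1) (V : Finset ι) : NV π x σ 1 V :=
  nv (fun S ξ => by
    rw [Complex.re_ofReal_mul, one_mul]
    exact (le_abs_self _).trans (by rw [abs_mul, hσ, one_mul]; exact hx.bd S ξ)) hπ V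

theorem herg {a b : ℂ} (h : 0 ≤ (a / b).im) : (b * conj a).im ≤ 0 := by
  rcases eq_or_ne b 0 with rfl | hb
  · simp
  have : b * conj a = ((‖b‖ ^ 2 : ℝ) : ℂ) * conj (a / b) := by
    rw [Complex.ofReal_pow, ← Complex.mul_conj', mul_assoc, ← map_mul, mul_div_cancel₀ _ hb]
  rw [this, Complex.im_ofReal_mul, Complex.conj_im]
  exact mul_nonpos_of_nonneg_of_nonpos (sq_nonneg _) (neg_nonpos.2 h)

theorem qf_insert (hx : HC x) {v : ι} (h0 : x v v = 0) {S : Finset ι} (hv : v ∉ S) (ξ : ι → ℂ) :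
    (qf x (insert v S) ξ).re = 2 * (conj (ξ v) * ∑ j ∈ S, x v j * ξ j).re + (qf x S ξ).re := by
  have e : ∑ i ∈ S, conj (ξ i) * x i v * ξ v = conj (conj (ξ v) * ∑ j ∈ S, x v j * ξ j) := by
    simp only [map_mul, map_sum, Complex.conj_conj, mul_sum, ← hx.herm]
    exact sum_congr rfl fun i _ => by ring
  simp only [qf, sum_insert hv, h0, mul_zero, zero_mul, zero_add, sum_add_distrib, e,
    Complex.add_re, Complex.conj_re]
  simp only [mul_assoc, ← mul_sum]
  ring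

theorem base_rat (hx : HC x) (h0 : ∀ v, x v v = 0) {b : ℝ} (hb : 2 ≤ b) (z : ι → ℝ) (c : Fin r)
    {S : Finset ι} (hz : ∀ i ∈ S, b ≤ z i) {v : ι} (hv : v ∈ S)
    (hd : dS (mat (fun p => (z p.1 : ℂ)) x c) S ≠ 0) :
    (dS (mat (fun p => (z p.1 : ℂ)) x c) (S.erase v) / dS (mat (fun p => (z p.1 : ℂ)) x c) S).re ≤
      (b - 1) / (b * (b - 1) - 1) := by
  set N := Matrix.of fun i j : S => mat (fun p => (z p.1 : ℂ)) x c i j with hN
  obtain ⟨ξ, e1, e2⟩ := ex_vec (x := x) (fun p => (z p.1 : ℂ)) c S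
    fun i => N.adjugate i ⟨v, hv⟩ / N.det
  have e3 : ∀ i ∈ S, (if i = v then 1 else 0 : ℂ) = z i * ξ i - ∑ j ∈ S, x i j * ξ j := by
    intro i hi
    have := congrFun (congrFun (Matrix.mul_adjugate N) ⟨i, hi⟩) ⟨v, hv⟩
    rw [← e2 ⟨i, hi⟩, ← hN]
    simp only [Matrix.mulVec, dotProduct, ← mul_div_assoc, ← sum_div]
    rw [Matrix.mul_apply] at this
    rw [this, eq_div_iff (show N.det ≠ 0 from hd)]
    simp [Matrix.one_apply, Subtype.ext_iff]
  have e4 : dS (mat (fun p => (z p.1 : ℂ)) x c) (S.erase v) /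
      dS (mat (fun p => (z p.1 : ℂ)) x c) S = ξ v := by
    rw [e1 ⟨v, hv⟩, dS_adj]
    rfl
  have e5 := sum_eq (fun i => (z i : ℂ)) S ξ _ e3
  simp only [mul_ite, mul_one, mul_zero, sum_ite_eq', hv, if_true] at e5
  have e6 := e3 v hv
  rw [e4]
  obtain ⟨S', hS', rfl⟩ : ∃ S', v ∉ S' ∧ S = insert v S' :=
    ⟨S.erase v, notMem_erase _ _, (insert_erase hv).symm⟩
  have him : (ξ v).im = 0 := by
    have := congrArg Complex.im e5
    simpa [hx.im, Complex.im_sum, ← Complex.ofReal_pow] using this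
  obtain ⟨γ, hγ⟩ : ∃ γ : ℝ, ξ v = γ := ⟨(ξ v).re, Complex.ext rfl him⟩
  rw [if_pos rfl, sum_insert hS', h0, zero_mul, zero_add, hγ] at e6
  have e7 : ∑ j ∈ S', x v j * ξ j = ((z v * γ - 1 : ℝ) : ℂ) := by
    push_cast
    linear_combination e6
  have f1 := congrArg Complex.re e5
  rw [Complex.sub_re, qf_insert hx (h0 v) hS', sum_insert hS', e7, hγ] at f1
  simp only [Complex.conj_ofReal, ← Complex.ofReal_mul, ← Complex.ofReal_sum, ← Complex.ofReal_add,
    Complex.ofReal_re, Complex.norm_real, Real.norm_eq_abs, sq_abs] at f1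
  have f2 : b * ∑ i ∈ S', ‖ξ i‖ ^ 2 ≤ ∑ i ∈ S', z i * ‖ξ i‖ ^ 2 := by
    rw [mul_sum]
    exact sum_le_sum fun i hi =>
      mul_le_mul_of_nonneg_right (hz i (mem_insert_of_mem hi)) (sq_nonneg _)
  have f3 := (abs_le.1 (hx.bd S' ξ)).2
  have f4 : ∀ s : ℝ, |2 * (s * (z v * γ - 1)) + (qf x S' ξ).re| ≤ s ^ 2 + ∑ i ∈ S', ‖ξ i‖ ^ 2 := by
    intro s
    have u : ∀ i ∈ S', Function.update ξ v s i = ξ i := fun i hi =>
      Function.update_of_ne (fun e : i = v => hS' (e ▸ hi)) _ _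
    have := hx.bd (insert v S') (Function.update ξ v s)
    rw [qf_insert hx (h0 v) hS', sum_insert hS', Function.update_self,
      sum_congr rfl fun i hi => by rw [u i hi], e7,
      show qf x S' (Function.update ξ v s) = qf x S' ξ from
        sum_congr rfl fun i hi => sum_congr rfl fun j hj => by rw [u i hi, u j hj],
      sum_congr rfl (g := fun i => ‖ξ i‖ ^ 2) fun i hi => by rw [u i hi]] at this
    simpa only [Complex.conj_ofReal, ← Complex.ofReal_mul, Complex.ofReal_re, Complex.norm_real,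
      Real.norm_eq_abs, sq_abs] using this
  have f5 := (abs_le.1 (f4 (z v * γ - 1))).2
  have f6 := (abs_le.1 (f4 (-(z v * γ - 1)))).1
  have f7 := hz v (mem_insert_self _ _)
  rw [hγ, Complex.ofReal_re, le_div_iff₀ (by nlinarith)]
  set β := z v * γ - 1 with hβ
  have f8 : (b - 1) * β ^ 2 ≤ γ * β := by
    have : z v * γ ^ 2 = γ * (β + 1) := by rw [hβ]; ring
    nlinarith
  rcases le_or_gt γ 0 with h | h
  · nlinarith [mul_nonneg (neg_nonneg.2 h) (show 0 ≤ b * (b - 1) - 1 by nlinarith)]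
  · have f9 : (b - 1) * β ≤ γ := by
      rcases le_or_gt β 0 with h' | h'
      · nlinarith
      · nlinarith
    nlinarith [mul_le_mul_of_nonneg_right f7 h.le]

section Bar

variable (π x) (W : Finset ι) (v : ι)

/-- The slots of the vertex `v` with colour outside `T`. -/
def vs (T : Finset (Fin r)) : Finset (ι × Fin r) := Tᶜ.image fun c => (v, c)

/-- The dependence on the value at `v`. -/
noncomputable def pol (z : ι × Fin r → ℂ) (F : Finset (ι × Fin r)) : ℂ[X] :=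
  ∑ T : Finset (Fin r), C (G π (g0 z x) W (vs v T ∪ F)) * X ^ T.card

variable {π x W v}

theorem mem_vs {T : Finset (Fin r)} {p : ι × Fin r} : p ∈ vs v T ↔ p.1 = v ∧ p.2 ∉ T := by
  obtain ⟨i, c⟩ := p
  simp [vs, and_comm, eq_comm]

theorem eval_pol (hv : v ∉ W) {F : Finset (ι × Fin r)} (hF : ∀ p ∈ F, p.1 ≠ v)
    (z : ι × Fin r → ℂ) (h : ℂ) : (pol x π W v z F).eval h =
      G π (g0 (fun p => z p + if p.1 = v then h else 0) x) W (vs v ∅ ∪ F) := by
  have := expand (fun S T => G π (g0 (fun p => z p + if p.1 = v ∧ p.2 ∈ S then h else 0) x) W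
    (vs v T ∪ F)) h univ (fun S T a _ h1 h2 => ?_) univ Subset.rfl ∅ (disjoint_empty_right _)
  · simp only [mem_univ, and_true, powerset_univ, union_empty, notMem_empty, and_false, if_false,
      add_zero] at this
    simp only [this, pol, eval_finsetSum, eval_mul, eval_C, eval_pow, eval_X, mul_comm]
  · have e : (vs v T ∪ F).erase (v, a) = vs v (insert a T) ∪ F := by
      ext ⟨i, c⟩
      have := hF (i, c)
      simp only [mem_erase, mem_union, mem_vs, mem_insert, ne_eq, Prod.mk.injEq] at this ⊢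
      tauto
    rw [← e]
    refine GZ_aff h W (j := (v, a)) hv _ (mem_union_left _ (mem_vs.2 ⟨rfl, h2⟩)) fun ⟨i, c⟩ _ => ?_
    by_cases h3 : c = a
    · subst h3
      simp [h1]
    · simp [h3]

theorem coeff_pol (z : ι × Fin r → ℂ) (F : Finset (ι × Fin r)) (k : ℕ) :
    (pol x π W v z F).coeff k = ∑ T ∈ powersetCard k univ, G π (g0 z x) W (vs v T ∪ F) := by
  rw [powersetCard_eq_filter, powerset_univ, sum_filter]
  simp only [pol, finsetSum_coeff, coeff_C_mul_X_pow, eq_comm (a := k)]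

theorem pol_deg (z : ι × Fin r → ℂ) (F : Finset (ι × Fin r)) : (pol x π W v z F).natDegree ≤ r :=
  natDegree_le_iff_coeff_eq_zero.2 fun k hk => by
    rw [coeff_pol, powersetCard_eq_empty.2 (by simpa using hk), sum_empty]

theorem pol_zero (z : ι × Fin r → ℂ) (F : Finset (ι × Fin r)) :
    (pol x π W v z F).coeff 0 = G π (g0 z x) W (vs v ∅ ∪ F) := by
  rw [coeff_pol, powersetCard_zero, sum_singleton]

theorem pol_one (z : ι × Fin r → ℂ) {F : Finset (ι × Fin r)} (hF : ∀ p ∈ F, p.1 ≠ v) :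
    (pol x π W v z F).coeff 1 = ∑ c, G π (g0 z x) W ((vs v ∅ ∪ F).erase (v, c)) := by
  rw [coeff_pol, powersetCard_one, sum_map]
  refine sum_congr rfl fun c _ => congrArg _ ?_
  ext ⟨i, c'⟩
  have := hF (i, c')
  simp only [mem_erase, mem_union, mem_vs, ne_eq, Prod.mk.injEq, Function.Embedding.coeFn_mk,
    mem_singleton, notMem_empty] at this ⊢
  tauto

theorem pol_top (z : ι × Fin r → ℂ) (F : Finset (ι × Fin r)) :
    (pol x π W v z F).coeff r = G π (g0 z x) W F := by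
  have := powersetCard_self (univ : Finset (Fin r))
  rw [card_univ, Fintype.card_fin] at this
  rw [coeff_pol, this, sum_singleton, vs, compl_univ, image_empty, empty_union]

theorem pol_sub (hr : 1 ≤ r) (z : ι × Fin r → ℂ) (F : Finset (ι × Fin r)) :
    (pol x π W v z F).coeff (r - 1) = ∑ c, G π (g0 z x) W (insert (v, c) F) := by
  rw [coeff_pol]
  refine (sum_bij (fun c _ => {c}ᶜ) (fun c _ => by simp [card_compl]) (fun c _ c' _ h => by
    simpa using h) (fun T hT => ?_) fun c _ => by simp [vs]).symm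
  obtain ⟨c, hc⟩ := card_eq_one.1 (show Tᶜ.card = 1 by
    rw [card_compl, (mem_powersetCard.1 hT).2, Fintype.card_fin]
    omega)
  exact ⟨c, mem_univ _, by rw [← hc, compl_compl]⟩

end Bar

theorem le_lim {f g : ℝ → ℝ} (hf : Continuous f) (hg : Continuous g)
    (h : ∀ ε, 0 < ε → f ε ≤ g ε) : f 0 ≤ g 0 :=
  le_of_tendsto_of_tendsto (b := 𝓝[>] 0) ((hf.tendsto 0).mono_left nhdsWithin_le_nhds)
    ((hg.tendsto 0).mono_left nhdsWithin_le_nhds) (eventually_nhdsWithin_of_forall h)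

theorem g0_split {R : Type*} [CommRing R] (z : ι × Fin r → R) (y : ι → ι → R)
    (F : Finset (ι × Fin r)) (v : ι) (c : Fin r) : ∃ a, g0 z y F = dS (mat z y c) (sl F c) * a ∧
      g0 z y (F.erase (v, c)) = dS (mat z y c) ((sl F c).erase v) * a := by
  refine ⟨_, (mul_prod_erase univ _ (mem_univ c)).symm, ?_⟩
  rw [g0, ← mul_prod_erase univ _ (mem_univ c)]
  congr 1
  · congr 1
    ext i
    simp
  · refine prod_congr rfl fun c' hc => congrArg _ ?_
    ext i
    simp [(mem_erase.1 hc).1]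

section Pert

variable {W : Finset ι} {v : ι} {F : Finset (ι × Fin r)} (y : ι → ℝ)

theorem pert_cont (hv : v ∉ W) (h1 : ∀ p ∈ F, p.1 ≠ v) (σ : ℝ) (h : ℂ) : Continuous fun ε : ℝ =>
    (pol x π W v (fun p => y p.1 + ((σ * ε : ℝ) : ℂ) * Complex.I) F).eval h := by
  simp only [eval_pol hv h1]
  exact GZ_cont (fun p => by fun_prop) _ _

theorem pert_pos {σ ε : ℝ} {t : ℂ} (h1 : σ ≠ 0) (h2 : 0 < ε) (h3 : 0 < σ * t.im) (p : ι × Fin r) :
    0 < (-(σ * Complex.I) * (y p.1 + ((σ * ε : ℝ) : ℂ) * Complex.I +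
      if p.1 = v then t else 0)).re := by
  have := mul_pos (mul_self_pos.2 h1) h2
  split_ifs <;> simp <;> nlinarith

theorem pol_real (hH : HarStmt) (hx : HC x) (hP : Prob π) (hv : v ∉ W) (hFv : ∀ p ∈ F, p.1 ≠ v)
    (hF2 : ∀ p ∈ vs v ∅ ∪ F, p.1 ∉ W) (p0 : (pol x π W v (fun p => y p.1) F).eval 0 ≠ 0) {t : ℂ}
    (ht : (pol x π W v (fun p => y p.1) F).IsRoot t) : t.im = 0 := by
  by_contra h1
  obtain ⟨κ, hκ, H⟩ := hH r t.im t 0 (mul_self_pos.2 h1)
  have := le_lim (continuous_const.mul (pert_cont y hv hFv t.im 0).norm)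
    (pert_cont y hv hFv t.im t).norm
    fun ε hε => H _ (pol_deg _ _) fun s hs => not_lt.1 fun c => hx.nvI hP t.im W _ _ hF2
      (fun p _ => pert_pos y h1 hε c p) ((eval_pol hv hFv _ _).symm.trans hs)
  simp only [mul_zero, Complex.ofReal_zero, zero_mul, add_zero, ht.eq_zero, norm_zero,
    Pi.mul_apply] at this
  exact absurd this (not_le.2 (mul_pos hκ (norm_pos_iff.2 p0)))

theorem pol_herg (hx : HC x) (hP : Prob π) (hv : v ∉ W) (hFv : ∀ p ∈ F, p.1 ≠ v)
    (hF2 : ∀ p ∈ vs v ∅ ∪ F, p.1 ∉ W) {j : ι × Fin r} (hj : j ∈ F) {t : ℂ} (ht : 0 < t.im) :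
    ((pol x π W v (fun p => y p.1) (F.erase j)).eval t *
      conj ((pol x π W v (fun p => y p.1) F).eval t)).im ≤ 0 := by
  have hE : ∀ q ∈ F.erase j, q.1 ≠ v := fun q hq => hFv q (mem_of_mem_erase hq)
  have e : vs v ∅ ∪ F.erase j = (vs v ∅ ∪ F).erase j := by
    rw [erase_union_distrib, erase_eq_of_notMem fun h => hFv j hj (mem_vs.1 h).1]
  have := le_lim (Complex.continuous_im.comp ((pert_cont (x := x) (π := π) y hv hE 1 t).mul
    (Complex.continuous_conj.comp (pert_cont (x := x) (π := π) y hv hFv 1 t)))) continuous_const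
    (g := fun _ => 0) fun ε hε => ?_
  · simpa only [Function.comp_apply, mul_zero, Pi.mul_apply, Complex.ofReal_zero, zero_mul,
      add_zero] using this
  · have h2 := pert_pos (r := r) (v := v) y one_ne_zero hε (show 0 < 1 * t.im by rwa [one_mul])
    have h3 := (hx.nvI hP 1 W).rat (fun q hq => hF2 q (mem_of_mem_erase hq))
      (notMem_erase j _) (hF2 j (mem_union_right _ hj)) fun q _ => h2 q
    rw [insert_erase (mem_union_right _ hj)] at h3
    simp only [Function.comp_apply, Pi.mul_apply, eval_pol hv hFv, eval_pol hv hE, e]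
    refine herg ?_
    have h4 := (h2 j).le.trans ((sub_zero _).symm.trans_le h3)
    simpa using h4

theorem step_key (hr : 2 ≤ r) (hπ : ∀ v c, π v c = (r : ℂ)⁻¹) (hv : v ∉ W)
    (h1 : ∀ p ∈ F, p.1 ≠ v) (δ : ℝ) :
    G π (g0 (fun p => (y p.1 : ℂ)) x) (insert v W) F = (r : ℂ)⁻¹ *
      ((pol x π W v (fun p => ((y p.1 + if p.1 = v then δ + 0 else 0 : ℝ) : ℂ)) F).coeff (r - 1) -
        r * δ * (pol x π W v (fun p => ((y p.1 + if p.1 = v then δ + 0 else 0 : ℝ) : ℂ)) F).coeff r) := by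
  set Z : ι × Fin r → ℂ := fun p => ((y p.1 + if p.1 = v then δ + 0 else 0 : ℝ) : ℂ) with hZ
  rw [G_insert hv, pol_sub (by omega), pol_top]
  have e : ∀ c, G π (g0 (fun p => (y p.1 : ℂ)) x) W (insert (v, c) F) =
      G π (g0 Z x) W (insert (v, c) F) + -δ * G π (g0 Z x) W F := fun c => by
    rw [GZ_aff (z := Z) (-δ) W (j := (v, c)) hv _ (mem_insert_self _ _) fun q hq => ?_,
      erase_insert fun h => h1 _ h rfl]
    by_cases h2 : q = (v, c)
    · simp [h2, hZ]
    · have : q.1 ≠ v := hq.elim (fun h => h1 q (by simpa [h2] using h))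
        fun h e => hv (e ▸ h)
      simp [h2, hZ, this]
  simp only [hπ, e, ← mul_sum, sum_add_distrib, sum_const, card_univ, Fintype.card_fin,
    nsmul_eq_mul]
  ring

end Pert

theorem barrier (hH : HarStmt) (hB : BarStmt) (hx : HC x) (h0 : ∀ v, x v v = 0) (hr : 2 ≤ r)
    (hπ : ∀ v c, π v c = (r : ℂ)⁻¹) {b δ : ℝ} (hb : 2 ≤ b)
    (hδ : r * δ * (r * ((b - 1) / (b * (b - 1) - 1))) = ((r : ℝ) - 1) ^ 2) (W : Finset ι) :
    ∀ (F : Finset (ι × Fin r)) (z : ι → ℝ), (∀ p ∈ F, p.1 ∉ W) → (∀ v ∈ W, b - δ ≤ z v) →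
      (∀ p ∈ F, b ≤ z p.1) → G π (g0 (fun p => (z p.1 : ℂ)) x) W F ≠ 0 ∧ ∀ j ∈ F,
        (G π (g0 (fun p => (z p.1 : ℂ)) x) W (F.erase j) /
          G π (g0 (fun p => (z p.1 : ℂ)) x) W F).re ≤ (b - 1) / (b * (b - 1) - 1) := by
  have r0 : (r : ℂ) ≠ 0 := by exact_mod_cast (show r ≠ 0 by omega)
  have hP : Prob π := fun v => ⟨fun c => ⟨(r : ℝ)⁻¹, by positivity, by simp [hπ]⟩, by
    simp [hπ, r0]⟩
  set ψ := (b - 1) / (b * (b - 1) - 1) with hψ
  have ψ0 : 0 < ψ := div_pos (by linarith) (by nlinarith)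
  induction W using Finset.induction_on with
  | empty =>
    intro F z hF _ hz
    have h1 := hx.nvR hP abs_one ∅ F (fun p => (z p.1 : ℂ)) hF fun p hp => by
      have := hz p (by simpa using hp)
      simp only [Complex.ofReal_one, one_mul, Complex.ofReal_re]
      linarith
    refine ⟨h1, fun ⟨v, c⟩ hj => ?_⟩
    obtain ⟨a, e1, e2⟩ := g0_split (fun p => (z p.1 : ℂ)) x F v c
    rw [G_empty, e1] at h1
    rw [G_empty, e1, e2, mul_div_mul_right _ _ (right_ne_zero_of_mul h1)]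
    exact base_rat hx h0 hb z c (fun i hi => hz _ (mem_sl.1 hi)) (mem_sl.2 hj)
      (left_ne_zero_of_mul h1)
  | insert v W hv ih =>
    intro F z hF hW hz
    have hFv : ∀ p ∈ F, p.1 ≠ v := fun p hp e => hF p hp (e ▸ mem_insert_self _ _)
    have hFW : ∀ p ∈ F, p.1 ∉ W := fun p hp e => hF p hp (mem_insert_of_mem e)
    have hF2 : ∀ p ∈ vs v ∅ ∪ F, p.1 ∉ W := fun p hp =>
      (mem_union.1 hp).elim (fun h => (mem_vs.1 h).1 ▸ hv) (hFW p)
    let zz : ℝ → ι → ℝ := fun h i => z i + if i = v then δ + h else 0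
    have a1 : ∀ h, ∀ w ∈ W, b - δ ≤ zz h w := fun h w hw => by
      simp only [zz, if_neg fun e : w = v => hv (e ▸ hw), add_zero]
      exact hW w (mem_insert_of_mem hw)
    have a2 : ∀ h, ∀ p ∈ F, b ≤ zz h p.1 := fun h p hp => by
      simp only [zz, if_neg (hFv p hp), add_zero]
      exact hz p hp
    have ih' := fun h (h0 : 0 ≤ h) => ih _ (zz h) hF2 (a1 h) fun p hp => (mem_union.1 hp).elim
      (fun h => by
        simp only [zz, (mem_vs.1 h).1, if_true]
        linarith [hW v (mem_insert_self _ _)]) (a2 h p)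
    set p := pol x π W v (fun p => (zz 0 p.1 : ℂ)) F with hp
    have p0 : p.eval 0 ≠ 0 := by
      rw [← coeff_zero_eq_eval_zero, pol_zero]
      exact (ih' 0 le_rfl).1
    have hroot : ∀ t, p.IsRoot t → t.im = 0 ∧ t.re < 0 := fun t ht => by
      have h1 : t.im = 0 := pol_real (zz 0) hH hx hP hv hFv hF2 p0 ht
      refine ⟨h1, not_le.1 fun h2 => (ih' _ h2).1 ?_⟩
      rw [← ht.eq_zero, eval_pol hv hFv]
      refine GZ_congr _ _ fun q _ => ?_
      have : (t.re : ℂ) = t := Complex.ext rfl (by simp [h1])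
      simp only [zz]
      split_ifs <;> simp [this, add_assoc]
    have hbar := fun s h1 h2 => hB r p s (r * ψ) δ hr (pol_deg _ _) h1 (by
      rw [pol_top]
      exact (ih F (zz 0) hFW (a1 0) (a2 0)).1) hroot h2 (by positivity) (by
      rw [pol_one _ hFv, pol_zero, sum_div, Complex.re_sum]
      refine (sum_le_sum fun c _ => (ih' 0 le_rfl).2 _
        (mem_union_left _ (mem_vs.2 ⟨rfl, notMem_empty _⟩))).trans ?_
      simp) hδ
    refine ⟨?_, fun j hj => ?_⟩
    · rw [step_key z hr hπ hv hFv δ]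
      exact mul_ne_zero (inv_ne_zero r0) (hbar 0 (by simp) (by simp)).1
    · have hE : ∀ q ∈ F.erase j, q.1 ≠ v := fun q hq => hFv q (mem_of_mem_erase hq)
      rw [step_key z hr hπ hv hFv δ, step_key z hr hπ hv hE δ,
        mul_div_mul_left _ _ (inv_ne_zero r0)]
      refine (hbar _ (pol_deg _ _) fun t ht => pol_herg (zz 0) hx hP hv hFv hF2 hj ht).2.trans ?_
      rw [pol_zero, pol_zero, show vs v ∅ ∪ F.erase j = (vs v ∅ ∪ F).erase j by
        rw [erase_union_distrib, erase_eq_of_notMem fun h => hFv j hj (mem_vs.1 h).1]]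
      exact (ih' 0 le_rfl).2 j (mem_union_right _ hj)

end Vale.Agent.P078
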