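import Vale.Agent.P078.G2

/-! Local moments. -/

namespace Vale.Agent.P078

open Finset Polynomial
open scoped ComplexConjugate PowerSeries

variable {ι κ : Type*} [DecidableEq ι] [DecidableEq κ] {r : ℕ}

section Ring

variable {R R' : Type*} [CommRing R] [CommRing R'] (x : ι → ι → R) (π : ι → Fin r → R)

/-- The reversed expected characteristic polynomial. -/
noncomputable def Pw (V : Finset ι) : R⟦X⟧ :=
  G (fun v c => PowerSeries.C (π v c))
    (g0 (fun _ => 1) fun i j => PowerSeries.X * PowerSeries.C (x i j)) V ∅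

/-- The local Green function. -/
noncomputable def ser (V : Finset ι) (v : ι) : R⟦X⟧ :=
  Pw x π (V.erase v) * Ring.inverse (Pw x π V)

/-- The local moments. -/
noncomputable def mom (V : Finset ι) (v : ι) (k : ℕ) : R := PowerSeries.coeff k (ser x π V v)

variable {x π}

theorem Pw_unit (hπ : ∀ v, ∑ c, π v c = 1) (V : Finset ι) : IsUnit (Pw x π V) := by
  rw [PowerSeries.isUnit_iff_constantCoeff, Pw, GZ_map]
  have : (g0 (fun _ : ι × Fin r => PowerSeries.constantCoeff (1 : R⟦X⟧)) fun i j =>
      PowerSeries.constantCoeff (PowerSeries.X * PowerSeries.C (x i j))) = fun _ => 1 := by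
    funext F
    refine prod_eq_one fun c _ => ?_
    refine (congrArg Matrix.det ?_).trans (Matrix.det_one (n := sl F c))
    ext i j
    simp only [Matrix.of_apply, mat, map_one, map_mul, PowerSeries.constantCoeff_X, zero_mul,
      sub_zero, Matrix.one_apply, Subtype.coe_inj]
  rw [this, G_one _ (by simpa using fun v _ => hπ v)]
  exact isUnit_one

theorem ser_eq (hπ : ∀ v, ∑ c, π v c = 1) {V : Finset ι} {v : ι} {S : R⟦X⟧}
    (h : Pw x π V * S = Pw x π (V.erase v)) : ser x π V v = S := by
  rw [ser, ← h, mul_right_comm, Ring.mul_inverse_cancel _ (Pw_unit hπ V), one_mul]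

theorem mul_ser (hπ : ∀ v, ∑ c, π v c = 1) (V : Finset ι) (v : ι) :
    Pw x π V * ser x π V v = Pw x π (V.erase v) := by
  rw [ser, mul_left_comm, Ring.mul_inverse_cancel _ (Pw_unit hπ V), mul_one]

theorem mom_map (φ : R →+* R') (hπ : ∀ v, ∑ c, π v c = 1) (V : Finset ι) (v : ι) (k : ℕ) :
    φ (mom x π V v k) = mom (fun i j => φ (x i j)) (fun v c => φ (π v c)) V v k := by
  have h : ∀ V, PowerSeries.map φ (Pw x π V) =
      Pw (fun i j => φ (x i j)) (fun v c => φ (π v c)) V := fun V => by
    simp only [Pw, GZ_map, PowerSeries.map_C, map_one, map_mul, PowerSeries.map_X]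
  rw [mom, mom, ser_eq (S := PowerSeries.map φ (ser x π V v))
    (fun v => by rw [← map_sum, hπ, map_one]) (by rw [← h, ← h, ← map_mul, mul_ser hπ]),
    PowerSeries.coeff_map]

theorem mom_emb {x' : κ → κ → R} {π' : κ → Fin r → R} (e : κ → ι) (V : Finset κ)
    (he : Set.InjOn e V) (hπ : ∀ v ∈ V, π (e v) = π' v) (γ γ' : κ → R)
    (hγ : ∀ i ∈ V, γ' i * γ i = 1) (hx : ∀ i ∈ V, ∀ j ∈ V, x (e i) (e j) = γ' i * x' i j * γ j)
    {v : κ} (hv : v ∈ V) (k : ℕ) : mom x π (V.image e) (e v) k = mom x' π' V v k := by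
  have h : ∀ W ⊆ V, Pw x π (W.image e) = Pw x' π' W := fun W hW => by
    refine G_emb e V he (fun v hv => by rw [hπ v hv]) (fun F hF => prod_congr rfl fun c _ => ?_)
      W hW ∅ (by simp)
    have h1 : ∀ i ∈ sl F c, i ∈ V := fun i hi => hF _ (mem_sl.1 hi)
    have e1 : sl (F.image (Prod.map e id)) c = (sl F c).image e := by
      ext i
      simp
    have d : ∀ a b : κ → R, (∀ i ∈ V, a i * b i = 1) →
        (Matrix.diagonal fun i : sl F c => PowerSeries.C (a i)) *
          (Matrix.diagonal fun i : sl F c => PowerSeries.C (b i)) = 1 := fun a b hab => by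
      rw [Matrix.diagonal_mul_diagonal, ← Matrix.diagonal_one]
      congr 1
      funext i
      rw [← map_mul, hab _ (h1 _ i.2), map_one]
    rw [e1, dS_emb _ e _ (he.mono h1), dS, dS]
    refine Eq.trans ?_ (Matrix.det_conj_of_mul_eq_one (d γ' γ hγ)
      (d γ γ' fun i hi => by rw [mul_comm, hγ i hi]))
    · congr 1
      ext1 i j
      rw [Matrix.mul_diagonal, Matrix.diagonal_mul]
      simp only [Matrix.of_apply, mat, hx _ (h1 _ i.2) _ (h1 _ j.2), map_mul,
        he.eq_iff (h1 _ i.2) (h1 _ j.2)]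
      split_ifs with hij
      · rw [← hij, mul_sub, sub_mul, mul_one, ← map_mul _ (γ' i) (γ i), hγ _ (h1 _ i.2), map_one]
        ring
      · ring
  have e1 : (V.image e).erase (e v) = (V.erase v).image e := by
    ext i
    simp only [mem_erase, mem_image]
    constructor
    · rintro ⟨h1, j, hj, rfl⟩
      exact ⟨j, ⟨fun c => h1 (c ▸ rfl), hj⟩, rfl⟩
    · rintro ⟨j, ⟨h1, hj⟩, rfl⟩
      exact ⟨fun c => h1 (he hj hv c), j, hj, rfl⟩
  rw [mom, mom, ser, ser, e1, h _ (erase_subset _ _), h _ Subset.rfl]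

theorem GZ_affV {z z' : ι × Fin r → R} (hπ : ∀ v, ∑ c, π v c = 1) (h : R) {V : Finset ι} {a : ι}
    (ha : a ∈ V) (hz : ∀ p, z' p = z p + if p.1 = a then h else 0) :
    G π (g0 z' x) V ∅ = G π (g0 z x) V ∅ + h * G π (g0 z x) (V.erase a) ∅ := by
  have h1 := notMem_erase a V
  conv_lhs => rw [← insert_erase ha, G_insert h1]
  conv_rhs => rw [← one_mul (h * _), ← hπ a, sum_mul, ← insert_erase ha, G_insert h1,
    insert_erase ha, ← sum_add_distrib]
  refine sum_congr rfl fun c _ => ?_
  rw [GZ_aff (z := z) h _ (j := (a, c)) h1 _ (mem_insert_self _ _) fun p hp => ?_,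
    erase_insert (notMem_empty _), mul_add]
  rw [hz]
  rcases hp with hp | hp
  · simp [show p = (a, c) by simpa using hp]
  · rw [if_neg (mem_erase.1 hp).1, if_neg fun e => (mem_erase.1 hp).1 (by rw [e])]

/-- Weighted walks inside `S`. -/
noncomputable def wk (x : ι → ι → R) (S : Finset ι) (v : ι) : ℕ → ι → R
  | 0 => fun i => if i = v then 1 else 0
  | k + 1 => fun i => ∑ j ∈ S, x i j * wk x S v k j

theorem mom_det (col : ι → Fin r) (hπ : ∀ v c, π v c = if col v = c then 1 else 0) {V : Finset ι}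
    {v : ι} (hv : v ∈ V) (k : ℕ) :
    mom x π V v k = wk x (V.filter fun i => col i = col v) v k v := by
  set S := V.filter fun i => col i = col v with hS
  have hv' : v ∈ S := mem_filter.2 ⟨hv, rfl⟩
  rw [mom, ser_eq (S := PowerSeries.mk fun k => wk x S v k v) (fun v => by simp [hπ]),
    PowerSeries.coeff_mk]
  have h : ∀ v c, PowerSeries.C (π v c) = if col v = c then 1 else 0 := fun v c => by
    rw [hπ]
    split_ifs <;> simp
  have e1 : (V.erase v).image (fun v => (v, col v)) =
      (V.image fun v => (v, col v)).erase (v, col v) :=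
    image_erase (fun _ _ h => (Prod.ext_iff.1 h).1) _ _
  have e2 : sl (V.image fun v => (v, col v)) (col v) = S := by
    ext i
    simp [hS]
  obtain ⟨a, h1, h2⟩ := g0_split (fun _ => 1) (fun i j => PowerSeries.X * PowerSeries.C (x i j))
    (V.image fun v => (v, col v)) v (col v)
  rw [Pw, Pw, G_det col _ fun v _ => h v, G_det col _ fun v _ => h v, union_empty, union_empty, e1,
    h1, h2, e2, mul_right_comm, ← dS_adj _ ⟨v, hv'⟩]
  congr 1
  set N := Matrix.of fun i j : S => mat (fun _ => 1)
    (fun i j => PowerSeries.X * PowerSeries.C (x i j)) (col v) i j with hN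
  have h3 : N.mulVec (fun i => PowerSeries.mk fun k => wk x S v k i) = Pi.single ⟨v, hv'⟩ 1 := by
    funext i
    simp only [hN, Matrix.mulVec, dotProduct, Matrix.of_apply, mat, sub_mul, sum_sub_distrib,
      Subtype.coe_inj, ite_mul, one_mul, zero_mul, sum_ite_eq, mem_univ, if_true, mul_assoc,
      ← mul_sum]
    ext k
    cases k with
    | zero => by_cases h : i.1 = v <;> simp [wk, Pi.single_apply, Subtype.ext_iff, h]
    | succ k =>
      simp only [map_sub, PowerSeries.coeff_succ_X_mul, map_sum, PowerSeries.coeff_C_mul,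
        PowerSeries.coeff_mk, wk, Pi.single_apply, sum_coe_sort S fun j => x i j * wk x S v k j]
      split_ifs <;> simp [PowerSeries.coeff_one]
  have h4 := congrFun (congrArg N.adjugate.mulVec h3) ⟨v, hv'⟩
  rw [Matrix.mulVec_mulVec, Matrix.adjugate_mul, Matrix.smul_mulVec, Matrix.one_mulVec,
    Matrix.mulVec_single_one] at h4
  exact h4

end Ring

variable {x : ι → ι → ℂ} {π π' : ι → Fin r → ℂ}

theorem loc (hπ : ∀ v, ∑ c, π v c = 1) (hπ' : ∀ v, ∑ c, π' v c = 1) (l : ι → ℕ)
    (hx : ∀ i j, x i j ≠ 0 → l i ≤ l j + 1) {v : ι} (hv : l v = 0) {K : ℕ} {V V' : Finset ι}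
    (hV : ∀ i, l i < K → (i ∈ V ↔ i ∈ V')) (h : ∀ i, l i < K → π i = π' i) {k : ℕ} (hk : k < K) :
    mom x π V v k = mom x π' V' v k := by
  let y : ι → ι → MvPolynomial ℕ ℂ := fun i j =>
    MvPolynomial.X (if l i = l j + 1 then l i else 0) * MvPolynomial.C (x i j)
  let P : (ι → Fin r → ℂ) → Finset ι → MvPolynomial ℕ ℂ := fun π V =>
    G (fun v c => MvPolynomial.C (π v c)) (g0 (fun _ => 1) y) V ∅
  set D := P π (V.erase v) * P π' V' - P π' (V'.erase v) * P π V with hD
  have h1 : ∀ n ∈ Icc 1 K, MvPolynomial.X n ∣ D := fun n hn => by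
    obtain ⟨n1, n2⟩ := mem_Icc.1 hn
    let φ : MvPolynomial ℕ ℂ →ₐ[ℂ] MvPolynomial ℕ ℂ :=
      MvPolynomial.aeval fun m => if m = n then 0 else MvPolynomial.X m
    have h2 : ∀ q, MvPolynomial.X n ∣ q - φ q := fun q => by
      induction q using MvPolynomial.induction_on with
      | C a => simp [φ]
      | add p q hp hq =>
        rw [map_add, add_sub_add_comm]
        exact dvd_add hp hq
      | mul_X p m hp =>
        rw [map_mul, show φ (MvPolynomial.X m) = _ from MvPolynomial.aeval_X _ _]
        split_ifs with c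
        · simp [c]
        · rw [← sub_mul]
          exact hp.mul_right _
    let P' : (ι → Fin r → ℂ) → Finset ι → MvPolynomial ℕ ℂ := fun π V =>
      G (fun v c => MvPolynomial.C (π v c)) (g0 (fun _ => 1) fun i j => φ (y i j)) V ∅
    have h3 : ∀ π V, φ (P π V) = P' π (V.filter fun i => l i < n) *
        P' π (V.filter fun i => ¬l i < n) := fun π V => by
      refine (GZ_map φ.toRingHom V ∅).trans ?_
      simp only [AlgHom.toRingHom_eq_coe, RingHom.coe_coe, map_one, MvPolynomial.algHom_C,
        MvPolynomial.algebraMap_eq]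
      refine GZ_fac _ (fun i j hi hj => ?_) V
      by_cases c : x i j = 0
      · simp [y, c]
      · have := hx i j c
        simp [y, φ, show l i = l j + 1 by omega, show l j + 1 = n by omega]
    have h4 : ∀ W W' : Finset ι, (∀ i, l i < K → (i ∈ W ↔ i ∈ W')) →
        P' π (W.filter fun i => l i < n) = P' π' (W'.filter fun i => l i < n) := fun W W' hW => by
      rw [show W.filter (fun i => l i < n) = W'.filter fun i => l i < n by
        ext i
        simp only [mem_filter]
        exact and_congr_left fun hi => hW i (hi.trans_le n2)]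
      exact G_congr {i | l i < K} (fun i hi => by rw [h i hi]) _
        (fun i hi => (mem_filter.1 hi).2.trans_le n2) _
    have h5 : ∀ W : Finset ι, (W.erase v).filter (fun i => ¬l i < n) = W.filter fun i => ¬l i < n :=
      fun W => by
        ext i
        simp only [mem_filter, mem_erase, and_congr_left_iff, and_iff_right_iff_imp]
        rintro h - rfl
        omega
    have := h2 D
    rwa [hD, map_sub, map_mul, map_mul, h3, h3, h3, h3, h5, h5, h4 V V' hV,
      h4 (V.erase v) (V'.erase v) fun i hi => by simp only [mem_erase, hV i hi],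
      show ∀ a b c d : MvPolynomial ℕ ℂ, a * b * (c * d) - a * d * (c * b) = 0 by intros; ring,
      sub_zero] at this
  have h6 : ∀ s : Finset ℕ, (∀ n ∈ s, MvPolynomial.X n ∣ D) → ∏ n ∈ s, MvPolynomial.X n ∣ D := by
    intro s hs
    induction s using Finset.induction_on with
    | empty => simp
    | insert n s hn ih =>
      obtain ⟨E, hE⟩ := ih fun m hm => hs m (mem_insert_of_mem hm)
      have := hs n (mem_insert_self _ _)
      rw [hE] at this ⊢
      rw [prod_insert hn, mul_comm]
      refine mul_dvd_mul_left _ ((MvPolynomial.X_prime.dvd_or_dvd this).resolve_left fun c => ?_)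
      obtain ⟨m, hm, c⟩ := (MvPolynomial.X_prime.dvd_finsetProd_iff _).1 c
      exact hn (MvPolynomial.X_dvd_X.1 c ▸ hm)
  let ψ : MvPolynomial ℕ ℂ →ₐ[ℂ] ℂ⟦X⟧ := MvPolynomial.aeval fun _ => PowerSeries.X
  have h7 : ∀ π V, ψ (P π V) = Pw x π V := fun π V => by
    refine (GZ_map ψ.toRingHom V ∅).trans ?_
    simp only [AlgHom.toRingHom_eq_coe, RingHom.coe_coe, map_one, MvPolynomial.algHom_C, y, map_mul,
      ψ, MvPolynomial.aeval_X]
    rfl
  have h8 := map_dvd ψ (h6 _ h1)
  simp only [hD, map_prod, map_sub, map_mul, h7, ψ, MvPolynomial.aeval_X, prod_const, Nat.card_Icc,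
    Nat.add_sub_cancel] at h8
  rw [← mul_ser hπ V v, ← mul_ser hπ' V' v, show ∀ a b c d : ℂ⟦X⟧, a * b * c - c * d * a =
    (a * c) * (b - d) by intros; ring, ((Pw_unit hπ V).mul (Pw_unit hπ' V')).dvd_mul_left,
    PowerSeries.X_pow_dvd_iff] at h8
  exact sub_eq_zero.1 ((map_sub _ _ _).symm.trans (h8 k hk))

end Vale.Agent.P078
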