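import Vale.Agent.P078.G4

/-! Averages of products of principal minors of several matrices. -/

namespace Vale.Agent.P078.S

open Finset

variable {ι κ : Type*} [DecidableEq ι] [DecidableEq κ] {r : ℕ} {R R' : Type*} [CommRing R]
  [CommRing R'] {π π' : ι → Fin r → R}

/-- The product of the principal minors. -/
def g0 (z : ι × Fin r → R) (y : Fin r → ι → ι → R)
    (F : Finset (ι × Fin r)) : R :=
  ∏ c, dS (mat z (y c) c) (sl F c)

variable {z z' : ι × Fin r → R} {y : Fin r → ι → ι → R}

theorem g0_congr {F : Finset (ι × Fin r)} (h : ∀ p ∈ F, z p = z' p) : g0 z y F = g0 z' y F :=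
  prod_congr rfl fun c _ => dS_congr fun i hi j _ => by rw [mat, mat, h _ (mem_sl.1 hi)]

theorem GZ_congr (V : Finset ι) (F : Finset (ι × Fin r)) (h : ∀ p, p ∈ F ∨ p.1 ∈ V → z p = z' p) :
    G π (g0 z y) V F = G π (g0 z' y) V F :=
  G_congr' V F fun _ h' => g0_congr fun p hp => h p (h' p hp)

theorem GZ_map (φ : R →+* R') (V : Finset ι) (F : Finset (ι × Fin r)) :
    φ (G π (g0 z y) V F) =
      G (fun v c => φ (π v c)) (g0 (fun p => φ (z p)) fun c i j => φ (y c i j)) V F := by
  rw [G_map]
  congr 1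
  funext F
  simp only [g0, map_prod, dS_map, mat, map_sub, apply_ite φ, map_zero]
  rfl

theorem GZ_aff {j : ι × Fin r} (h : R) (V : Finset ι) (hV : j.1 ∉ V) (F : Finset (ι × Fin r))
    (hF : j ∈ F) (hz : ∀ p, p ∈ F ∨ p.1 ∈ V → z' p = z p + if p = j then h else 0) :
    G π (g0 z' y) V F = G π (g0 z y) V F + h * G π (g0 z y) V (F.erase j) := by
  rw [GZ_congr V F hz]
  refine G_aff (fun F hF => ?_) V hV F hF
  obtain ⟨v, c⟩ := j
  simp only [g0, ← mul_prod_erase univ _ (mem_univ c)]
  have e1 : ∀ c' ∈ univ.erase c, dS (mat (fun p => z p + if p = (v, c) then h else 0) (y c') c')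
      (sl F c') = dS (mat z (y c') c') (sl F c') := fun c' hc => dS_congr fun i _ j _ => by
    simp [mat, (mem_erase.1 hc).1]
  have e2 : ∀ c' ∈ univ.erase c, dS (mat z (y c') c') (sl (F.erase (v, c)) c') =
      dS (mat z (y c') c') (sl F c') := fun c' hc => by
    congr 1
    ext i
    simp [(mem_erase.1 hc).1]
  have e3 : sl (F.erase (v, c)) c = (sl F c).erase v := by
    ext i
    simp
  rw [prod_congr rfl e1, prod_congr rfl e2, e3, dS_aff (N := mat z (y c) c) (h := h) (mem_sl.2 hF)]
  · ring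
  · intro i j
    by_cases hij : i = j
    · subst hij
      simp only [mat, if_true, Prod.mk.injEq, and_true, and_self]
      ring
    · have : ¬(i = v ∧ j = v) := fun c => hij (c.1.trans c.2.symm)
      simp [mat, hij, this]

theorem GZ_fac (p : ι → Prop) [DecidablePred p] (hy : ∀ c i j, ¬p i → p j → y c i j = 0)
    (V : Finset ι) : G π (g0 z y) V ∅ =
      G π (g0 z y) (V.filter p) ∅ * G π (g0 z y) (V.filter fun v => ¬p v) ∅ := by
  refine G_fac p (fun F => ?_) V ∅
  simp only [g0, ← prod_mul_distrib]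
  refine prod_congr rfl fun c _ => ?_
  rw [dS_fac _ _ p fun i _ hi j _ hj => by
    rw [mat, hy c i j hi hj, if_neg fun e : i = j => hi (e ▸ hj), sub_zero]]
  congr 2 <;> ext i <;> simp

theorem GZ_cont {T : Type*} [TopologicalSpace T] {π : ι → Fin r → ℂ} {z : T → ι × Fin r → ℂ}
    {y : Fin r → ι → ι → ℂ} (hz : ∀ p, Continuous fun t => z t p) (V : Finset ι)
    (F : Finset (ι × Fin r)) : Continuous fun t => G π (g0 (z t) y) V F := by
  refine G_cont (fun F => continuous_finsetProd _ fun c _ => Continuous.matrix_det ?_) V F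
  refine continuous_pi fun i => continuous_pi fun j => ?_
  simp only [Matrix.of_apply, mat]
  split_ifs
  · exact (hz _).sub continuous_const
  · exact continuous_const

theorem g0_split (z : ι × Fin r → R) (y : Fin r → ι → ι → R)
    (F : Finset (ι × Fin r)) (v : ι) (c : Fin r) : ∃ a,
    g0 z y F = dS (mat z (y c) c) (sl F c) * a ∧
      g0 z y (F.erase (v, c)) = dS (mat z (y c) c) ((sl F c).erase v) * a := by
  refine ⟨_, (mul_prod_erase univ _ (mem_univ c)).symm, ?_⟩
  rw [g0, ← mul_prod_erase univ _ (mem_univ c)]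
  congr 1
  · congr 1
    ext i
    simp
  · refine prod_congr rfl fun c' hc => congrArg _ ?_
    ext i
    simp [(mem_erase.1 hc).1]

end Vale.Agent.P078.S
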