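import Vale.Agent.P078.H3

/-! Moments and roots of the expected characteristic polynomial. -/

namespace Vale.Agent.P078.S

open Finset Polynomial
open scoped ComplexConjugate PowerSeries

variable {ι : Type*} [DecidableEq ι] {r : ℕ} {x : Fin r → ι → ι → ℂ} {π : ι → Fin r → ℂ}

/-- The expected characteristic polynomial. -/
noncomputable def chi (x : Fin r → ι → ι → ℂ) (π : ι → Fin r → ℂ) (V : Finset ι) (F : Finset (ι × Fin r)) :
    ℂ[X] := G (fun v c => C (π v c)) (g0 (fun _ => X) fun c i j => C (x c i j)) V F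

theorem eval_chi (V : Finset ι) (F : Finset (ι × Fin r)) (t : ℂ) :
    (chi x π V F).eval t = G π (g0 (fun _ => t) x) V F := by
  refine (GZ_map (evalRingHom t) V F).trans ?_
  simp only [coe_evalRingHom, eval_C, eval_X]

theorem chi_spec (hπ : ∀ v, ∑ c, π v c = 1) (V : Finset ι) : ∀ F : Finset (ι × Fin r),
    (∀ p ∈ F, p.1 ∉ V) → IsMonicOfDegree (chi x π V F) (V.card + F.card) ∧
      G (fun v c => C (π v c)) (g0 (fun _ => 1) fun c i j => X * C (x c i j)) V F =
        reflect (V.card + F.card) (chi x π V F) := by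
  induction V using Finset.induction_on with
  | empty =>
    intro F _
    have e : F.card = ∑ c, (sl F c).card := by
      rw [card_eq_sum_card_fiberwise (f := Prod.snd) (t := univ) fun _ _ => mem_univ _]
      refine sum_congr rfl fun c _ => (card_image_of_injOn fun p hp q hq h => ?_).symm
      exact Prod.ext h ((mem_filter.1 hp).2.trans (mem_filter.1 hq).2.symm)
    simp only [chi, G_empty, g0, card_empty, zero_add, e]
    induction (univ : Finset (Fin r)) using Finset.induction_on with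
    | empty => simp
    | insert c s h ih =>
      have e1 : dS (mat (fun _ => X) (fun i j => C (x c i j)) c) (sl F c) =
          (Matrix.of fun i j : sl F c => x c i j).charpoly := by
        rw [dS, Matrix.charpoly]
        congr 1
        ext1 i j
        simp only [Matrix.of_apply, mat, Matrix.charmatrix_apply, Matrix.diagonal_apply,
          Subtype.coe_inj]
      have e2 : dS (mat (fun _ => 1) (fun i j => X * C (x c i j)) c) (sl F c) =
          (Matrix.of fun i j : sl F c => x c i j).charpolyRev := by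
        rw [dS, Matrix.charpolyRev]
        congr 1
        ext1 i j
        simp only [Matrix.of_apply, mat, Matrix.sub_apply, Matrix.one_apply, Subtype.coe_inj,
          Matrix.smul_apply, Matrix.map_apply, smul_eq_mul]
      have e3 : IsMonicOfDegree (Matrix.of fun i j : sl F c => x c i j).charpoly (sl F c).card :=
        ⟨by rw [Matrix.charpoly_natDegree_eq_dim, Fintype.card_coe], Matrix.charpoly_monic _⟩
      simp only [sum_insert h, prod_insert h, e1, e2]
      refine ⟨e3.mul ih.1, ?_⟩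
      rw [reflect_mul _ _ e3.1.le ih.1.1.le, ih.2, ← Matrix.reverse_charpoly, reverse, e3.1]
  | insert v V hv ih =>
    intro F hF
    have h : ∀ c, (v, c) ∉ F := fun c h => hF _ h (mem_insert_self _ _)
    have ih' := fun c => ih (insert (v, c) F) (by
      simpa [hv] using fun a b hab c => hF _ hab (mem_insert_of_mem c))
    simp only [card_insert_of_notMem (h _), ← add_assoc] at ih'
    simp only [chi] at ih' ⊢
    rw [G_insert hv, G_insert hv, card_insert_of_notMem hv, add_right_comm, reflect_sum]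
    refine ⟨(isMonicOfDegree_iff _ _).2 ⟨natDegree_sum_le_of_forall_le _ _ fun c _ =>
      (natDegree_C_mul_le _ _).trans (ih' c).1.1.le, ?_⟩, sum_congr rfl fun c _ => by
        rw [reflect_C_mul, (ih' c).2]⟩
    simp only [finsetSum_coeff, coeff_C_mul, ((isMonicOfDegree_iff _ _).1 (ih' _).1).2, mul_one, hπ]

theorem chi_monic (hπ : ∀ v, ∑ c, π v c = 1) (V : Finset ι) :
    IsMonicOfDegree (chi x π V ∅) V.card := (chi_spec hπ V ∅ (by simp)).1

theorem Pw_eq (hπ : ∀ v, ∑ c, π v c = 1) (V : Finset ι) :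
    Pw x π V = (reflect V.card (chi x π V ∅) : ℂ[X]) := by
  have := congrArg coeToPowerSeries.ringHom (chi_spec (x := x) hπ V ∅ (by simp)).2
  rw [GZ_map] at this
  simpa only [coeToPowerSeries.ringHom_apply, coe_C, Polynomial.coe_one, Polynomial.coe_mul, coe_X, card_empty,
    add_zero, Pw] using this

theorem chi_rat (hx : ∀ c, HC (x c)) (hπ : Prob π) {V : Finset ι} {v : ι} (hv : v ∉ V) (c : Fin r) {z : ℂ}
    (hz : 0 < z.im) : z.im ≤ ((chi x π V {(v, c)}).eval z / (chi x π V ∅).eval z).im := by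
  have := (nvI hx hπ 1 V).rat (F := ∅) (z := fun _ => z) (j := (v, c)) (by simp) (by simp) hv
    fun p _ => by simpa using hz
  rw [eval_chi, eval_chi]
  simpa using this

theorem chi_RR (hx : ∀ c, HC (x c)) (hπ : Prob π) (V : Finset ι) (F : Finset (ι × Fin r))
    (hF : ∀ p ∈ F, p.1 ∉ V) : RR (chi x π V F) := by
  refine ⟨(chi_spec (fun v => (hπ v).2) V F hF).1.2, fun z hz => ?_⟩
  rw [IsRoot, eval_chi] at hz
  refine ⟨by_contra fun h => nvI hx hπ z.im V F _ hF (fun p _ => ?_) hz, not_lt.1 fun h => ?_⟩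
  · simpa using h
  · rcases lt_abs.1 h with h | h
    · exact nvR hx hπ abs_one V F _ hF (fun p _ => by simpa using h) hz
    · exact nvR hx hπ (σ := -1) (by simp) V F _ hF (fun p _ => by simpa using h) hz

theorem mom_rep (hP : PFStmt) (hx : ∀ c, HC (x c)) (hπ : Prob π) {V : Finset ι} {v : ι} (hv : v ∈ V) :
    ∃ (Λ : Finset ℝ) (ρ : ℝ → ℝ), (∀ l ∈ Λ, 0 ≤ ρ l ∧ (chi x π V ∅).IsRoot l) ∧ ∑ l ∈ Λ, ρ l = 1 ∧
      ∀ k, mom x π V v k = ((∑ l ∈ Λ, ρ l * l ^ k : ℝ) : ℂ) := by
  have hs : ∀ v, ∑ c, π v c = 1 := fun v => (hπ v).2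
  have m1 := chi_monic (x := x) hs V
  have m2 := chi_monic (x := x) hs (V.erase v)
  rw [← card_erase_add_one hv] at m1
  set n := (V.erase v).card with hn
  obtain ⟨c, Λ, ρ, d, h1, h2⟩ := hP _ (chi x π (V.erase v) ∅) m1.ne_zero
    (fun z hz => ((chi_RR hx hπ V ∅ (by simp)).2 z hz).1) (by rw [m1.1, m2.1]; omega)
    fun z hz => herg (by
      choose t t0 ht using (hπ v).1
      have := fun c => chi_rat hx hπ (notMem_erase v V) c hz
      simp only [eval_chi] at this ⊢
      conv_rhs => rw [← insert_erase hv, G_insert (notMem_erase v V), insert_erase hv, sum_div,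
        Complex.im_sum]
      refine sum_nonneg fun c _ => ?_
      rw [ht, mul_div_assoc, Complex.im_ofReal_mul]
      exact mul_nonneg (t0 c) (hz.le.trans (this c)))
  have hd : ∀ l ∈ Λ, IsMonicOfDegree (d l) n := fun l hl =>
    (isMonicOfDegree_X_sub_one (l : ℂ)).of_mul_left (by rw [← (h1 l hl).2, add_comm]; exact m1)
  have c0 : c = 0 := by
    have := congrArg (coeff · (n + 1)) h2
    simp only [coeff_add, coeff_C_mul, finsetSum_coeff, ((isMonicOfDegree_iff _ _).1 m1).2,
      mul_one] at this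
    rw [coeff_eq_zero_of_natDegree_lt (by rw [m2.1]; omega), sum_eq_zero fun l hl => by
      rw [coeff_eq_zero_of_natDegree_lt (by rw [(hd l hl).1]; omega), mul_zero], add_zero] at this
    exact this.symm
  rw [c0, map_zero, zero_mul, zero_add] at h2
  refine ⟨Λ, ρ, fun l hl => ⟨(h1 l hl).1, by rw [(h1 l hl).2]; simp⟩, ?_, fun k => ?_⟩
  · have := congrArg (coeff · n) h2
    simp only [coeff_C_mul, finsetSum_coeff, ((isMonicOfDegree_iff _ _).1 m2).2] at this
    rw [sum_congr rfl fun l hl => by rw [((isMonicOfDegree_iff _ _).1 (hd l hl)).2, mul_one]] at this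
    exact_mod_cast this.symm
  · rw [mom, ser_eq hs (S := ∑ l ∈ Λ, PowerSeries.C (ρ l : ℂ) * PowerSeries.mk fun k => (l : ℂ) ^ k)]
    · simp
    · rw [Pw_eq hs, Pw_eq hs, ← card_erase_add_one hv, ← hn, h2, reflect_sum, mul_sum,
        ← coeToPowerSeries.ringHom_apply (φ := ∑ l ∈ Λ, _), map_sum]
      refine sum_congr rfl fun l hl => ?_
      rw [(h1 l hl).2, refl_lin _ (hd l hl).1.le, reflect_C_mul, coeToPowerSeries.ringHom_apply,
        Polynomial.coe_mul, Polynomial.coe_mul, coe_C, mul_left_comm, mul_right_comm, geo, one_mul]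

theorem deriv_chi (hπ : ∀ v, ∑ c, π v c = 1) (V : Finset ι) :
    derivative (chi x π V ∅) = ∑ v ∈ V, chi x π (V.erase v) ∅ := by
  refine Polynomial.funext fun t => ?_
  have := expand (fun S T => G (fun v c => C (π v c)) (g0 (fun p => C t + if p.1 ∈ S then X else 0)
    fun c i j => C (x c i j)) (V \ T) ∅) X V (fun S T a ha h1 h2 => ?_) V Subset.rfl ∅
    (disjoint_empty_right _)
  · have e1 : taylor t (chi x π V ∅) = G (fun v c => C (π v c))
        (g0 (fun p => C t + if p.1 ∈ V then X else 0) fun c i j => C (x c i j)) (V \ ∅) ∅ := by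
      refine (GZ_map (taylorAlgHom t).toRingHom V ∅).trans ?_
      simp only [AlgHom.toRingHom_eq_coe, RingHom.coe_coe, taylorAlgHom_apply, taylor_C, taylor_X,
        sdiff_empty]
      exact GZ_congr _ _ fun p hp => by simp [show p.1 ∈ V by simpa using hp, add_comm]
    have e2 : ∀ T, G (fun v c => C (π v c)) (g0 (fun p : ι × Fin r => C t +
        if p.1 ∈ (∅ : Finset ι) then X else 0) fun c i j => C (x c i j)) T ∅ =
        C ((chi x π T ∅).eval t) := fun T => by
      rw [eval_chi, GZ_map]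
      simp
    rw [← taylor_coeff_one, e1, this]
    simp only [e2, union_empty, finsetSum_coeff, mul_comm (X ^ _), coeff_C_mul_X_pow,
      eq_comm (a := 1), ← sum_filter, ← powersetCard_eq_filter, powersetCard_one, sum_map,
      Function.Embedding.coeFn_mk, sdiff_singleton_eq_erase, eval_finsetSum]
  · rw [sdiff_insert]
    refine GZ_affV (fun v => by rw [← map_sum, hπ, map_one]) X (mem_sdiff.2 ⟨ha, h2⟩) fun p => ?_
    by_cases h : p.1 = a
    · simp [h, h1]
    · simp [h]

theorem sum_mom (hπ : ∀ v, ∑ c, π v c = 1) (V : Finset ι) (k : ℕ) :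
    ∑ v ∈ V, mom x π V v k = ((chi x π V ∅).roots.map fun a => a ^ k).sum := by
  have m := chi_monic (x := x) hπ V
  have h := log_der (chi x π V ∅).roots
  rw [← (IsAlgClosed.splits _).eq_prod_roots_of_monic m.2,
    ← (IsAlgClosed.splits _).natDegree_eq_card_roots, m.1, ← Pw_eq hπ, deriv_chi hπ, mul_sum,
    reflect_sum, ← coeToPowerSeries.ringHom_apply, map_sum] at h
  have h2 : Pw x π V * ∑ v ∈ V, ser x π V v =
      Pw x π V * ((chi x π V ∅).roots.map fun a => PowerSeries.mk fun k => a ^ k).sum := by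
    rw [h, mul_sum]
    refine sum_congr rfl fun v hv => ?_
    rw [mul_ser hπ, Pw_eq hπ, ← card_erase_add_one hv, add_comm,
      reflect_mul _ _ natDegree_X_le (chi_monic hπ _).1.le, reflect_one_X, one_mul]
    rfl
  have h3 := congrArg (PowerSeries.coeff k) ((Pw_unit hπ V).mul_left_cancel h2)
  simpa only [map_sum, map_multiset_sum, Multiset.map_map, Function.comp_def,
    PowerSeries.coeff_mk, mom] using h3

/-- The local potential. -/
noncomputable def aQ (Q : ℝ[X]) (x : Fin r → ι → ι → ℂ) (π : ι → Fin r → ℂ) (V : Finset ι) (v : ι) : ℝ :=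
  ∑ k ∈ range (Q.natDegree + 1), Q.coeff k * (mom x π V v k).re

theorem aQ_rep (hP : PFStmt) (hx : ∀ c, HC (x c)) (hπ : Prob π) (Q : ℝ[X]) {V : Finset ι} {v : ι}
    (hv : v ∈ V) {a b : ℝ} (h : ∀ l : ℝ, (chi x π V ∅).IsRoot l → a ≤ Q.eval l ∧ Q.eval l ≤ b) :
    a ≤ aQ Q x π V v ∧ aQ Q x π V v ≤ b := by
  obtain ⟨Λ, ρ, h1, h2, h3⟩ := mom_rep hP hx hπ hv
  have e : aQ Q x π V v = ∑ l ∈ Λ, ρ l * Q.eval l := by
    simp only [aQ, h3, Complex.ofReal_re, mul_sum, eval_eq_sum_range]
    rw [sum_comm]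
    exact sum_congr rfl fun l _ => sum_congr rfl fun k _ => by ring
  rw [e, ← one_mul a, ← one_mul b, ← h2, sum_mul, sum_mul]
  exact ⟨sum_le_sum fun l hl => mul_le_mul_of_nonneg_left (h l (h1 l hl).2).1 (h1 l hl).1,
    sum_le_sum fun l hl => mul_le_mul_of_nonneg_left (h l (h1 l hl).2).2 (h1 l hl).1⟩

theorem sum_aQ (hx : ∀ c, HC (x c)) (hπ : Prob π) (Q : ℝ[X]) (V : Finset ι) :
    ∑ v ∈ V, aQ Q x π V v = trQ Q (chi x π V ∅) := by
  simp only [aQ]
  rw [sum_comm]
  simp only [← mul_sum, ← Complex.re_sum, sum_mom fun v => (hπ v).2, trQ, eval_eq_sum_range]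
  rw [Multiset.sum_map_sum]
  refine sum_congr rfl fun k _ => ?_
  rw [Multiset.sum_map_mul_left, ← Complex.reCLM_apply, map_multiset_sum, Multiset.map_map]
  congr 2
  refine Multiset.map_congr rfl fun a ha => ?_
  have h : (a.re : ℂ) = a := Complex.ext rfl (by
    simp [((chi_RR hx hπ V ∅ (by simp)).2 a (isRoot_of_mem_roots ha)).1])
  rw [Function.comp_apply, Complex.reCLM_apply]
  conv_lhs => rw [← h, ← Complex.ofReal_pow, Complex.ofReal_re]

theorem root_lt (hH : HarStmt) (hB : BarStmt) {m : ℕ} {x : Fin (m ^ 2) → ι → ι → ℂ}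
    (hx : ∀ c, HC (x c)) (h0 : ∀ c v, x c v v = 0) (hm : 2 ≤ m) (V : Finset ι) {l : ℝ}
    (hl : (chi x (fun _ (_ : Fin (m ^ 2)) => ((m ^ 2 : ℕ) : ℂ)⁻¹) V ∅).IsRoot l) : l ≤ 4 / m := by
  by_contra hc
  have m2 : (2 : ℝ) ≤ m := by exact_mod_cast hm
  have m0 : (0 : ℝ) < m := by linarith
  have d0 : (0 : ℝ) < (m + 1) * (m + 1 - 1) - 1 := by nlinarith
  refine (barrier hH hB hx h0 (r := m ^ 2) (by nlinarith) (fun _ _ => rfl) (b := m + 1)
    (δ := (((m : ℝ) ^ 2 - 1) / m ^ 2) ^ 2 * (((m + 1) * (m + 1 - 1) - 1) / m)) (by linarith) (by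
      push_cast
      field_simp
      ring) V ∅ (fun _ => l) (by simp) (fun _ _ => le_trans ?_ (not_le.1 hc).le) (by simp)).1
    ((eval_chi _ _ _).symm.trans hl)
  rw [sub_le_comm, div_pow, div_mul_div_comm, le_div_iff₀ (by positivity), sub_mul,
    show 4 / (m : ℝ) * ((m ^ 2) ^ 2 * m) = 4 * m ^ 4 by field_simp]
  nlinarith [pow_pos m0 2, pow_pos m0 3, pow_pos m0 4, mul_le_mul_of_nonneg_left m2 (pow_pos m0 3).le,
    mul_le_mul_of_nonneg_left m2 (pow_pos m0 2).le]

end Vale.Agent.P078.S
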