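import Vale.Agent.P078.H4
import Vale.Agent.P078.A3

/-! Monotonicity of shifted power sums. -/

namespace Vale.Agent.P078.S

open Finset Polynomial
open scoped ComplexConjugate PowerSeries ComplexOrder

/-- The reversed shifted polynomial. -/
noncomputable def sh (n : ℕ) (p : ℂ[X]) : ℂ⟦X⟧ := (reflect n (taylor (-1) p) : ℂ[X])

theorem sh_lin (a : ℂ) {d : ℂ[X]} {n : ℕ} (h : d.natDegree ≤ n) :
    sh (n + 1) ((X - C a) * d) = ((1 - C (a + 1) * X : ℂ[X]) : ℂ⟦X⟧) * sh n d := by
  rw [sh, taylor_mul, show taylor (-1) (X - C a) = X - C (a + 1) by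
    rw [map_sub, taylor_X, taylor_C, map_neg, map_add]; ring,
    refl_lin _ (by rwa [natDegree_taylor]), Polynomial.coe_mul, sh]

theorem sh_sum {σ : Type*} (s : Finset σ) (t : σ → ℂ) (f : σ → ℂ[X]) (n : ℕ) :
    sh n (∑ i ∈ s, C (t i) * f i) = ∑ i ∈ s, PowerSeries.C (t i) * sh n (f i) := by
  rw [sh, map_sum, reflect_sum, ← coeToPowerSeries.ringHom_apply, map_sum]
  refine sum_congr rfl fun i _ => ?_
  rw [taylor_mul, taylor_C, reflect_C_mul, coeToPowerSeries.ringHom_apply, Polynomial.coe_mul, coe_C,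
    sh]

theorem sh_sub (n : ℕ) (p q : ℂ[X]) : sh n (p - q) = sh n p - sh n q := by
  rw [sh, map_sub, reflect_sub, Polynomial.coe_sub, sh, sh]

/-- The shifted power sums. -/
noncomputable def ps (s : Multiset ℂ) : ℂ⟦X⟧ :=
  (s.map fun a => PowerSeries.mk fun k => (a + 1) ^ k).sum

theorem sh_log (s : Multiset ℂ) : sh s.card (s.map fun a => X - C a).prod ≠ 0 ∧
    sh s.card (s.map fun a => X - C a).prod * (ps s - (s.card : ℂ⟦X⟧)) =
      -PowerSeries.X * PowerSeries.derivative ℂ (sh s.card (s.map fun a => X - C a).prod) := by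
  induction s using Multiset.induction_on with
  | empty => simp [sh, ps]
  | cons a s ih =>
    have g := geo (a + 1)
    rw [Multiset.map_cons, Multiset.prod_cons, Multiset.card_cons,
      sh_lin _ (natDegree_multiset_prod_X_sub_C_eq_card s).le, ps, Multiset.map_cons,
      Multiset.sum_cons, ← ps]
    refine ⟨mul_ne_zero (left_ne_zero_of_mul_eq_one g) ih.1, ?_⟩
    rw [Derivation.leibniz, PowerSeries.derivative_coe]
    simp only [derivative_sub, derivative_one, derivative_mul, derivative_C, derivative_X, zero_mul,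
      zero_add, mul_one, zero_sub, smul_eq_mul, Polynomial.coe_neg, coe_C, Polynomial.coe_sub,
      Polynomial.coe_one, Polynomial.coe_mul, coe_X, Nat.cast_add, Nat.cast_one] at g ⊢
    linear_combination (1 - PowerSeries.C (a + 1) * PowerSeries.X) * ih.2 +
      sh s.card (s.map fun a => X - C a).prod * g

theorem ps_eq {p g : ℂ[X]} {n : ℕ} (hp : IsMonicOfDegree p n) (hg : IsMonicOfDegree g (n + 1))
    {u : ℂ⟦X⟧} (h : sh (n + 1) g = sh n p * (1 - u)) : ps g.roots - ps p.roots - 1 =
      PowerSeries.X * PowerSeries.derivative ℂ u + (ps g.roots - ps p.roots - 1) * u := by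
  have h1 := sh_log p.roots
  have h2 := (sh_log g.roots).2
  rw [← (IsAlgClosed.splits _).eq_prod_roots_of_monic hp.2,
    ← (IsAlgClosed.splits _).natDegree_eq_card_roots, hp.1] at h1
  rw [← (IsAlgClosed.splits _).eq_prod_roots_of_monic hg.2,
    ← (IsAlgClosed.splits _).natDegree_eq_card_roots, hg.1, h, Derivation.leibniz, map_sub,
    PowerSeries.derivative_one] at h2
  refine mul_left_cancel₀ h1.1 ?_
  simp only [smul_eq_mul, Nat.cast_add, Nat.cast_one] at h2
  linear_combination h2 - (1 - u) * h1.2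

theorem coeff_mono {W W' u u' : ℂ⟦X⟧}
    (h : W = PowerSeries.X * PowerSeries.derivative ℂ u + W * u)
    (h' : W' = PowerSeries.X * PowerSeries.derivative ℂ u' + W' * u')
    (h0 : PowerSeries.coeff 0 u = 0)
    (h1 : ∀ k, 0 ≤ PowerSeries.coeff k u' ∧ PowerSeries.coeff k u' ≤ PowerSeries.coeff k u) (k : ℕ) :
    0 ≤ PowerSeries.coeff k W' ∧ PowerSeries.coeff k W' ≤ PowerSeries.coeff k W := by
  induction k using Nat.strong_induction_on with
  | _ k ih =>
    have a : ∀ p ∈ antidiagonal k, 0 ≤ PowerSeries.coeff p.1 W' * PowerSeries.coeff p.2 u' ∧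
        PowerSeries.coeff p.1 W' * PowerSeries.coeff p.2 u' ≤
          PowerSeries.coeff p.1 W * PowerSeries.coeff p.2 u := fun p hp => by
      rcases p.2.eq_zero_or_pos with e | e
      · rw [e, h0, le_antisymm ((h1 0).2.trans_eq h0) (h1 0).1]
        simp
      · have := ih p.1 (by have := mem_antidiagonal.1 hp; omega)
        exact ⟨mul_nonneg this.1 (h1 _).1, mul_le_mul this.2 (h1 _).2 (h1 _).1 (this.1.trans this.2)⟩
    rw [h, h', map_add, map_add, PowerSeries.coeff_mul k W, PowerSeries.coeff_mul k W']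
    have b : 0 ≤ PowerSeries.coeff k (PowerSeries.X * PowerSeries.derivative ℂ u') ∧
        PowerSeries.coeff k (PowerSeries.X * PowerSeries.derivative ℂ u') ≤
          PowerSeries.coeff k (PowerSeries.X * PowerSeries.derivative ℂ u) := by
      cases k with
      | zero => simp
      | succ k =>
        simp only [PowerSeries.coeff_succ_X_mul, PowerSeries.coeff_derivative]
        exact ⟨mul_nonneg (h1 _).1 (by positivity),
          mul_le_mul_of_nonneg_right (h1 _).2 (by positivity)⟩
    exact ⟨add_nonneg b.1 (sum_nonneg fun p hp => (a p hp).1),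
      add_le_add b.2 (sum_le_sum fun p hp => (a p hp).2)⟩

theorem trQ_ps {g : ℂ[X]} (hg : RR g) (N : ℕ) :
    trQ ((X + C 1) ^ N) g = (PowerSeries.coeff N (ps g.roots)).re := by
  rw [trQ, ps, map_multiset_sum, Multiset.map_map, ← Complex.reCLM_apply, map_multiset_sum,
    Multiset.map_map]
  refine congrArg _ (Multiset.map_congr rfl fun a ha => ?_)
  have h : (a.re : ℂ) = a := Complex.ext rfl (by simp [(hg.2 a (isRoot_of_mem_roots ha)).1])
  simp only [Function.comp_apply, Complex.reCLM_apply, PowerSeries.coeff_mk, eval_pow, eval_add,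
    eval_X, eval_C]
  conv_rhs => rw [← h, ← Complex.ofReal_one, ← Complex.ofReal_add, ← Complex.ofReal_pow,
    Complex.ofReal_re]

variable {ι : Type*} [DecidableEq ι] {r : ℕ} {x : Fin r → ι → ι → ℂ} {π : ι → Fin r → ℂ}

theorem G_zero {R : Type*} [CommRing R] {π : ι → Fin r → R} {z : ι × Fin r → R}
    {y : Fin r → ι → ι → R} {j : ι × Fin r} (hy : y j.2 = 0) (V : Finset ι) (hV : j.1 ∉ V)
    (F : Finset (ι × Fin r)) (hF : j ∉ F) :
    G π (g0 z y) V (insert j F) = z j * G π (g0 z y) V F := by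
  induction V using Finset.induction_on generalizing F with
  | empty =>
    obtain ⟨a, h1, h2⟩ := g0_split z y (insert j F) j.1 j.2
    have k : ∀ S, dS (mat z (y j.2) j.2) S = ∏ i ∈ S, z (i, j.2) := fun S => by
      rw [← prod_coe_sort, ← Matrix.det_diagonal, dS]
      congr 1
      ext i i'
      simp [mat, hy, Matrix.diagonal_apply, Subtype.coe_inj]
    rw [erase_insert hF] at h2
    rw [G_empty, h1, h2, k, k, ← mul_assoc,
      mul_prod_erase _ (fun i => z (i, j.2)) (mem_sl.2 (mem_insert_self _ _))]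
  | insert v V hv ih =>
    simp only [G_insert hv, mul_sum]
    refine sum_congr rfl fun c _ => ?_
    have : j ≠ (v, c) := fun e => hV (by rw [e]; exact mem_insert_self _ _)
    rw [Finset.insert_comm, ih (fun c => hV (mem_insert_of_mem c)) _ (by simp [this, hF]),
      mul_left_comm]

theorem card_sl (F : Finset (ι × Fin r)) : F.card = ∑ c, (sl F c).card := by
  rw [card_eq_sum_card_fiberwise (f := Prod.snd) (t := univ) fun _ _ => mem_univ _]
  refine sum_congr rfl fun c _ => (card_image_of_injOn fun p hp q hq h => ?_).symm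
  exact Prod.ext h ((mem_filter.1 hp).2.trans (mem_filter.1 hq).2.symm)

theorem chi_next (h0 : ∀ c v, x c v v = 0) (hπ : ∀ v, ∑ c, π v c = 1) (V : Finset ι) :
    ∀ F : Finset (ι × Fin r), (∀ p ∈ F, p.1 ∉ V) → (chi x π V F).nextCoeff = 0 := by
  induction V using Finset.induction_on with
  | empty =>
    intro F _
    have e1 : ∀ c, dS (mat (fun _ => X) (fun i j => C (x c i j)) c) (sl F c) =
        (Matrix.of fun i j : sl F c => x c i j).charpoly := fun c => by
      rw [dS, Matrix.charpoly]
      congr 1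
      ext1 i j
      simp only [Matrix.of_apply, mat, Matrix.charmatrix_apply, Matrix.diagonal_apply,
        Subtype.coe_inj]
    simp only [chi, G_empty, g0, e1]
    rw [Monic.nextCoeff_prod _ _ fun c _ => Matrix.charpoly_monic _]
    refine sum_eq_zero fun c _ => neg_eq_zero.1 ?_
    rw [← Matrix.trace_eq_neg_charpoly_nextCoeff]
    simp [Matrix.trace, h0]
  | insert v V hv ih =>
    intro F hF
    have h : ∀ c, (v, c) ∉ F := fun c h => hF _ h (mem_insert_self _ _)
    have h1 : ∀ c, ∀ p ∈ insert (v, c) F, p.1 ∉ V := fun _ => by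
      simpa [hv] using fun a b hab c => hF _ hab (mem_insert_of_mem c)
    have h2 := (chi_spec (x := x) hπ _ F hF).1.1
    rw [nextCoeff_of_natDegree_pos (by rw [h2, card_insert_of_notMem hv]; omega), h2, chi,
      G_insert hv, finsetSum_coeff]
    refine sum_eq_zero fun c _ => ?_
    have h3 := (chi_spec (x := x) hπ V _ (h1 c)).1.1
    have h4 := ih _ (h1 c)
    rw [card_insert_of_notMem (h c)] at h3
    rw [nextCoeff_of_natDegree_pos (by omega), h3] at h4
    rw [coeff_C_mul, card_insert_of_notMem hv, add_right_comm, add_assoc]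
    exact mul_eq_zero_of_right _ h4

theorem sh_slot (hx : ∀ c, HC (x c)) (h0 : ∀ c v, x c v v = 0) (hπ : Prob π) {V : Finset ι} {v : ι}
    (hv : v ∉ V) (c : Fin r) : ∃ U : ℂ⟦X⟧, (∀ k, 0 ≤ PowerSeries.coeff k U) ∧ (x c = 0 → U = 0) ∧
      sh (V.card + 1) (chi x π V {(v, c)}) =
        sh V.card (chi x π V ∅) * (1 - PowerSeries.X - PowerSeries.X * (PowerSeries.X * U)) := by
  have hs : ∀ v, ∑ c, π v c = 1 := fun v => (hπ v).2
  have m1 := chi_monic (x := x) hs V
  have k : sh (V.card + 1) (X * chi x π V ∅) = sh V.card (chi x π V ∅) * (1 - PowerSeries.X) := by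
    simpa [mul_comm] using sh_lin 0 m1.1.le
  by_cases a : x c = 0
  · refine ⟨0, by simp, fun _ => rfl, ?_⟩
    rw [mul_zero, mul_zero, sub_zero, ← k]
    exact congrArg _ (G_zero (j := (v, c)) (by ext; simp [a]) V hv ∅ (notMem_empty _))
  have hF : ∀ p ∈ ({(v, c)} : Finset (ι × Fin r)), p.1 ∉ V := by simpa using hv
  have m2 := (chi_spec (x := x) hs V _ hF).1
  rw [card_singleton] at m2
  have r1 := chi_RR hx hπ V ∅ (by simp)
  have n1 := chi_next h0 hs V ∅ (by simp)
  have n2 := chi_next h0 hs V _ hF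
  rw [nextCoeff_of_natDegree_pos (by rw [m2.1]; omega), m2.1, Nat.add_sub_cancel] at n2
  have m3 : (X * chi x π V ∅ - chi x π V {(v, c)}).natDegree ≤ V.card :=
    natDegree_le_iff_coeff_eq_zero.2 fun k hk => by
      obtain ⟨k, rfl⟩ : ∃ j, k = j + 1 := ⟨k - 1, by omega⟩
      rw [coeff_sub, coeff_X_mul]
      rcases (Nat.lt_succ_iff.1 hk).eq_or_lt with e | e
      · rw [← e, ((isMonicOfDegree_iff _ _).1 m1).2, ((isMonicOfDegree_iff _ _).1 m2).2, sub_self]
      · rw [coeff_eq_zero_of_natDegree_lt (by rw [m1.1]; omega),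
          coeff_eq_zero_of_natDegree_lt (by rw [m2.1]; omega), sub_self]
  obtain ⟨b, Λ, ρ, d, h1, h2⟩ := pf _ (X * chi x π V ∅ - chi x π V {(v, c)}) m1.ne_zero
    (fun z hz => (r1.2 z hz).1) (by rwa [m1.1]) fun z hz => by
      have p0 : (chi x π V ∅).eval z ≠ 0 := fun e => hz.ne' (r1.2 z e).1
      have := chi_rat hx hπ hv c hz
      rw [eval_sub, eval_mul, eval_X, ← div_mul_cancel₀ (eval z (chi x π V {(v, c)})) p0, ← sub_mul,
        mul_assoc, Complex.mul_conj, Complex.im_mul_ofReal, Complex.sub_im]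
      exact mul_nonpos_of_nonpos_of_nonneg (sub_nonpos.2 this) (Complex.normSq_nonneg _)
  have hd : ∀ l ∈ Λ, (d l).natDegree + 1 = V.card := fun l hl => by
    rw [← m1.1, (h1 l hl).2, (monic_X_sub_C _).natDegree_mul' (fun e => m1.ne_zero (by
      rw [(h1 l hl).2, e, mul_zero])), natDegree_X_sub_C, add_comm]
  have b0 : b = 0 := by
    have := congrArg (coeff · V.card) h2
    simp only [coeff_add, coeff_C_mul, finsetSum_coeff, ((isMonicOfDegree_iff _ _).1 m1).2,
      mul_one, coeff_sub, n2, sub_zero] at this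
    rw [sum_eq_zero fun l hl => by
      rw [coeff_eq_zero_of_natDegree_lt (by have := hd l hl; omega), mul_zero], add_zero] at this
    rw [← this]
    rcases V.card.eq_zero_or_pos with e | e
    · simp [e]
    · rw [nextCoeff_of_natDegree_pos (by rwa [m1.1]), m1.1] at n1
      rw [← n1, ← coeff_X_mul _ (V.card - 1), Nat.sub_add_cancel e]
  rw [b0, map_zero, zero_mul, zero_add, sub_eq_iff_eq_add', ← sub_eq_iff_eq_add] at h2
  refine ⟨∑ l ∈ Λ, PowerSeries.C (ρ l : ℂ) * PowerSeries.mk fun k => ((l : ℂ) + 1) ^ k,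
    fun k => ?_, fun e => absurd e a, ?_⟩
  · rw [map_sum]
    refine sum_nonneg fun l hl => ?_
    have : -1 ≤ l := by
      simpa using (abs_le.1 (r1.2 l (by rw [(h1 l hl).2]; simp)).2).1
    rw [PowerSeries.coeff_C_mul, PowerSeries.coeff_mk]
    exact_mod_cast mul_nonneg (h1 l hl).1 (pow_nonneg (by linarith) k)
  · rw [← h2, sh_sub, k, sh_sum, mul_sub _ (1 - _), mul_sum, mul_sum, mul_sum]
    refine congrArg _ (sum_congr rfl fun l hl => ?_)
    have e1 := sh_lin l (d := d l) le_rfl
    have e2 : sh ((d l).natDegree + 1 + 1) (d l) =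
        PowerSeries.X * (PowerSeries.X * sh (d l).natDegree (d l)) := by
      rw [sh, sh, add_assoc, add_comm, ← one_mul (taylor _ _), reflect_mul (F := 1 + 1) 1 _ (by simp)
        (natDegree_taylor _ _).le, one_mul, reflect_one, Polynomial.coe_mul, Polynomial.coe_pow, coe_X]
      ring
    rw [← (h1 l hl).2] at e1
    rw [← hd l hl, e1, e2]
    linear_combination (-PowerSeries.X * PowerSeries.X * PowerSeries.C (ρ l : ℂ) *
      sh (d l).natDegree (d l)) * geo ((l : ℂ) + 1)

theorem prob_upd (hπ : Prob π) (u : ι) {μ : Fin r → ℂ} (h : Prob fun _ : Unit => μ) :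
    Prob (Function.update π u μ) := fun v => by
  by_cases a : v = u
  · rw [a, Function.update_self]
    exact h ()
  · rw [Function.update_of_ne a]
    exact hπ v

theorem chi_upd {V : Finset ι} {u : ι} (hu : u ∈ V) (μ : Fin r → ℂ) :
    chi x (Function.update π u μ) V ∅ = ∑ s, C (μ s) * chi x π (V.erase u) {(u, s)} := by
  conv_lhs => rw [← insert_erase hu, chi, G_insert (notMem_erase u V)]
  refine sum_congr rfl fun s _ => ?_
  rw [Function.update_self]
  exact congrArg _ (G_congr {v | v ≠ u} (fun v hv => by rw [Function.update_of_ne hv]) _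
    (fun v hv => (mem_erase.1 hv).1) _)

theorem upd2 (hx : ∀ c, HC (x c)) (h0 : ∀ c v, x c v v = 0) (hπ : Prob π) {V : Finset ι} {u : ι}
    (hu : u ∈ V) {μ : Fin r → ℂ} (hμ : Prob fun _ : Unit => μ) (h : ∀ s, x s = 0 ∨ μ s ≤ π u s)
    (N : ℕ) : ∑ v ∈ V, aQ ((X + C 1) ^ N) x (Function.update π u μ) V v ≤
      ∑ v ∈ V, aQ ((X + C 1) ^ N) x π V v := by
  have h1 := prob_upd hπ u hμ
  choose U U1 U2 U3 using sh_slot hx h0 hπ (notMem_erase u V)
  have k : ∀ ν : Fin r → ℂ, ∑ s, ν s = 1 →
      sh ((V.erase u).card + 1) (chi x (Function.update π u ν) V ∅) =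
        sh (V.erase u).card (chi x π (V.erase u) ∅) * (1 - (PowerSeries.X + PowerSeries.X *
          (PowerSeries.X * ∑ s, PowerSeries.C (ν s) * U s))) := fun ν hν => by
    rw [chi_upd hu, sh_sum]
    have e : ∑ s, PowerSeries.C (ν s) = (1 : ℂ⟦X⟧) := by rw [← map_sum, hν, map_one]
    rw [sum_congr rfl (g := fun s => PowerSeries.C (ν s) * (sh (V.erase u).card
      (chi x π (V.erase u) ∅) * (1 - PowerSeries.X)) - sh (V.erase u).card (chi x π (V.erase u) ∅) *
      PowerSeries.X * PowerSeries.X * (PowerSeries.C (ν s) * U s)) fun s _ => by rw [U3]; ring,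
      sum_sub_distrib, ← sum_mul, ← mul_sum, e]
    ring
  have k1 := k _ (hπ u).2
  rw [Function.update_eq_self] at k1
  have m : ∀ {π : ι → Fin r → ℂ}, Prob π → IsMonicOfDegree (chi x π V ∅) ((V.erase u).card + 1) :=
    fun h => card_erase_add_one hu ▸ chi_monic (fun v => (h v).2) V
  have m0 := chi_monic (x := x) (fun v => (hπ v).2) (V.erase u)
  have n : ∀ s, 0 ≤ μ s := fun s => by
    obtain ⟨t, t0, e⟩ := (hμ ()).1 s
    rw [show μ s = t from e]
    exact_mod_cast t0
  have := (coeff_mono (ps_eq m0 (m hπ) k1) (ps_eq m0 (m h1) (k _ (hμ ()).2)) (by simp)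
    (fun k => ?_) N).2
  · rw [sum_aQ hx hπ, sum_aQ hx h1, trQ_ps (chi_RR hx hπ _ _ (by simp)),
      trQ_ps (chi_RR hx h1 _ _ (by simp))]
    simp only [map_sub, sub_le_sub_iff_right] at this
    exact (Complex.le_def.1 this).1
  · rcases k with _ | _ | k
    · simp
    · simp [PowerSeries.coeff_succ_X_mul]
    · simp only [map_add, PowerSeries.coeff_succ_X_mul, map_sum, PowerSeries.coeff_C_mul,
        PowerSeries.coeff_X, Nat.add_eq_right, Nat.succ_ne_zero, if_false, zero_add]
      refine ⟨sum_nonneg fun s _ => mul_nonneg (n s) (U1 s k), sum_le_sum fun s _ => ?_⟩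
      rcases h s with a | a
      · simp [U2 s a]
      · exact mul_le_mul_of_nonneg_right a (U1 s k)

theorem upd (hx : ∀ c, HC (x c)) (hπ : Prob π) {Q : ℝ[X]} {θ : ℝ} (hQ : QP Q θ) {V : Finset ι}
    {u : ι} (hu : u ∈ V) {n : ℕ} {w : Fin n → ℝ} (w0 : ∀ c, 0 ≤ w c) (w1 : ∑ c, w c = 1)
    {ν : Fin n → Fin r → ℂ} (hν : Prob ν) (h : ∀ s, π u s = ∑ c, w c * ν c s) :
    ∃ c, ∑ v ∈ V, aQ Q x (Function.update π u (ν c)) V v ≤ ∑ v ∈ V, aQ Q x π V v + θ := by
  have h1 := fun c => prob_upd hπ u (μ := ν c) fun _ => hν c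
  have m : ∀ {π : ι → Fin r → ℂ}, Prob π →
      (chi x π V ∅).natDegree = (chi x π (V.erase u) ∅).natDegree + 1 := fun h => by
    rw [(chi_monic (fun v => (h v).2) _).1, (chi_monic (fun v => (h v).2) _).1,
      card_erase_add_one hu]
  obtain ⟨c, hc⟩ := hQ n w (chi x π (V.erase u) ∅) (chi x π V ∅)
    (fun c => chi x (Function.update π u (ν c)) V ∅) w0 w1
    (by
      rw [← Function.update_eq_self u π, chi_upd hu]
      simp only [Function.update_idem, chi_upd hu, h, map_sum, sum_mul, mul_sum, map_mul, mul_assoc]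
      exact sum_comm) (chi_RR hx hπ _ _ (by simp)) (chi_RR hx hπ _ _ (by simp))
    (fun c => chi_RR hx (h1 c) _ _ (by simp))
    (fun c => by rw [(chi_monic (fun v => (h1 c v).2) _).1, (chi_monic (fun v => (hπ v).2) _).1,
      card_erase_add_one hu]) (m hπ) fun c z hz => by
      choose t t0 ht using (hν c).1
      have e : ∑ s, t s = 1 := by
        exact_mod_cast (by simpa only [ht] using (hν c).2 : ∑ s, (t s : ℂ) = 1)
      rw [chi_upd hu, eval_finsetSum, sum_div, Complex.im_sum]
      refine hz.trans_le ?_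
      rw [← one_mul z.im, ← e, sum_mul]
      refine sum_le_sum fun s _ => ?_
      rw [eval_mul, eval_C, ht, mul_div_assoc, Complex.im_ofReal_mul]
      exact mul_le_mul_of_nonneg_left (chi_rat hx hπ (notMem_erase u V) s hz) (t0 s)
  exact ⟨c, by rwa [sum_aQ hx hπ, sum_aQ hx (h1 c)]⟩

theorem mom_scale {α β : ℂ} (hα : α * β = 1) (sc : ι → Fin r) (hπ : ∀ v, ∑ c, π v c = 1)
    (h1 : ∀ v, π v (sc v) = α) (h2 : ∀ v s, s ≠ sc v → π v s = 0 ∨ x s = 0) (V : Finset ι) (v : ι)
    (k : ℕ) : mom x π V v k =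
      mom (fun c i j => α * x c i j) (fun v c => if sc v = c then 1 else 0) V v k := by
  let δ : ι → Fin r → ℂ⟦X⟧ := fun v c => PowerSeries.C (if sc v = c then 1 else 0)
  have hδ : ∀ v c, δ v c = if sc v = c then 1 else 0 := fun v c => by
    simp only [δ]
    split_ifs <;> simp
  let y : Fin r → ι → ι → ℂ⟦X⟧ := fun c i j => PowerSeries.X * PowerSeries.C (x c i j)
  have k1 : ∀ (V : Finset ι) F, (∀ p ∈ F, p.1 ∉ V) →
      G (fun v c => PowerSeries.C (π v c)) (g0 (fun _ => 1) y) V F = PowerSeries.C α ^ V.card *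
        G δ (g0 (fun p => if p.1 ∈ V then PowerSeries.C β else 1) y) V F := fun V => by
    induction V using Finset.induction_on with
    | empty => simp
    | insert v V hv ih =>
      intro F hF
      have a1 : ∀ c, (v, c) ∉ F := fun c h => hF _ h (mem_insert_self _ _)
      have a2 : ∀ c, ∀ p ∈ insert (v, c) F, p.1 ∉ V := fun _ => by
        simpa [hv] using fun a b hab c => hF _ hab (mem_insert_of_mem c)
      have a3 := hπ v
      rw [← add_sum_erase _ _ (mem_univ (sc v)), h1, ← eq_sub_iff_add_eq'] at a3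
      rw [G_insert hv, G_insert hv, ← add_sum_erase _ _ (mem_univ (sc v)), ih _ (a2 _), h1,
        sum_congr rfl (g := fun c => PowerSeries.C (π v c) * (PowerSeries.C α ^ V.card *
          G δ (g0 (fun p => if p.1 ∈ V then PowerSeries.C β else 1) y) V F)) fun c hc => ?_,
        ← sum_mul, ← map_sum, a3]
      · simp only [hδ, ite_mul, one_mul, zero_mul, sum_ite_eq, mem_univ, if_true]
        rw [GZ_aff (z := fun p => if p.1 ∈ V then PowerSeries.C β else 1)
          (z' := fun p => if p.1 ∈ insert v V then PowerSeries.C β else 1) (PowerSeries.C β - 1) V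
          (j := (v, sc v)) hv _ (mem_insert_self _ _) fun p hp => ?_, erase_insert (a1 _),
          card_insert_of_notMem hv, map_sub, map_one]
        · have := congrArg PowerSeries.C hα
          rw [map_mul, map_one] at this
          linear_combination (-PowerSeries.C α ^ V.card *
            G δ (g0 (fun p => if p.1 ∈ V then PowerSeries.C β else 1) y) V F) * this
        · by_cases e : p = (v, sc v)
          · simp [e, hv]
          · have : p.1 ≠ v := hp.elim (fun h c => hF p (by simpa [e] using h) (by simp [c]))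
              fun h c => hv (c ▸ h)
            simp [e, this]
      · rcases h2 v c (mem_erase.1 hc).1 with a | a
        · simp [a]
        · rw [ih _ (a2 _), G_zero (j := (v, c)) (by ext; simp [y, a]) V hv F (a1 c), if_neg hv, one_mul]
  have k2 : ∀ V, Pw x π V = Pw (fun c i j => α * x c i j) (fun v c => if sc v = c then 1 else 0) V :=
    fun V => by
      rw [Pw, Pw, k1 V ∅ (by simp), G_det sc _ fun v _ => hδ v, G_det sc _ fun v _ => hδ v,
        union_empty, ← card_image_of_injective V (f := fun v => (v, sc v))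
          fun _ _ h => (Prod.ext_iff.1 h).1, card_sl, g0, g0, ← prod_pow_eq_pow_sum, ← prod_mul_distrib]
      refine prod_congr rfl fun c _ => ?_
      rw [← Fintype.card_coe, dS, dS, ← Matrix.det_smul]
      congr 1
      ext1 i j
      have : i.1 ∈ V := by
        obtain ⟨a, b, e⟩ := mem_image.1 (mem_sl.1 i.2)
        exact (show a = i.1 from (Prod.ext_iff.1 e).1) ▸ b
      simp only [Matrix.smul_apply, Matrix.of_apply, mat, this, if_true, smul_eq_mul, y, map_mul,
        mul_sub, mul_ite, mul_zero, ← map_mul _ α β, hα, map_one, mul_left_comm]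
  rw [mom, mom, ser, ser, k2, k2]

end Vale.Agent.P078.S
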