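import Vale.Agent.P078.Stm3
import Vale.Agent.P078.PF

/-! Convex traces are monotone in the coupling. -/

namespace Vale.Agent.P078

open scoped ComplexConjugate
open Polynomial Matrix

namespace Mono

variable {n : Type*} [Fintype n] [DecidableEq n]

theorem row_sum {W : Matrix n n ℂ} (h : W * star W = 1) (i : n) :
    ∑ j, Complex.normSq (W i j) = 1 := by
  have := congrFun (congrFun h i) i
  simp only [Matrix.mul_apply, Matrix.star_apply, Matrix.one_apply_eq, RCLike.star_def,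
    Complex.mul_conj] at this
  exact_mod_cast this

theorem col_sum {W : Matrix n n ℂ} (h : star W * W = 1) (j : n) :
    ∑ i, Complex.normSq (W i j) = 1 := by
  have := congrFun (congrFun h j) j
  simp only [Matrix.mul_apply, Matrix.star_apply, Matrix.one_apply_eq, RCLike.star_def] at this
  have e : ∀ i, conj (W i j) * W i j = (Complex.normSq (W i j) : ℂ) := fun i => by
    rw [mul_comm, Complex.mul_conj]
  simp only [e] at this
  exact_mod_cast this

theorem diag_entry (W : Matrix n n ℂ) (μ : n → ℝ) (i : n) :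
    ((W * diagonal (RCLike.ofReal ∘ μ) * star W : Matrix n n ℂ) i i).re =
      ∑ j, Complex.normSq (W i j) * μ j := by
  rw [Matrix.mul_apply, Complex.re_sum]
  refine Finset.sum_congr rfl fun j _ => ?_
  rw [Matrix.mul_diagonal, Matrix.star_apply, RCLike.star_def, mul_right_comm, Complex.mul_conj]
  simp

theorem peierls {s : Set ℝ} {f : ℝ → ℝ} (hf : ConvexOn ℝ s f) {B : Matrix n n ℂ}
    (hB : B.IsHermitian) (hs : ∀ j, hB.eigenvalues j ∈ s) (U : unitary (Matrix n n ℂ)) :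
    (∀ i, ((star (U : Matrix n n ℂ) * B * (U : Matrix n n ℂ)) i i).re ∈ s) ∧
      ∑ i, f ((star (U : Matrix n n ℂ) * B * (U : Matrix n n ℂ)) i i).re ≤ ∑ j, f (hB.eigenvalues j) := by
  set V := hB.eigenvectorUnitary with hV
  set W : Matrix n n ℂ := star (U : Matrix n n ℂ) * (V : Matrix n n ℂ) with hW
  have hWu : W ∈ unitary (Matrix n n ℂ) := mul_mem (Unitary.star_mem U.2) V.2
  have e : star (U : Matrix n n ℂ) * B * (U : Matrix n n ℂ) =
      W * diagonal (RCLike.ofReal ∘ hB.eigenvalues) * star W := by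
    conv_lhs => rw [hB.spectral_theorem, Unitary.conjStarAlgAut_apply]
    simp only [hW, star_mul, star_star, mul_assoc, hV]
  have r := row_sum (Unitary.mul_star_self_of_mem hWu)
  have c := col_sum (Unitary.star_mul_self_of_mem hWu)
  simp only [e, diag_entry]
  refine ⟨fun i => ?_, ?_⟩
  · have := hf.1.sum_mem (t := Finset.univ) (w := fun j => Complex.normSq (W i j))
      (z := hB.eigenvalues) (fun j _ => Complex.normSq_nonneg _) (r i) (fun j _ => hs j)
    simpa only [smul_eq_mul] using this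
  · calc ∑ i, f (∑ j, Complex.normSq (W i j) * hB.eigenvalues j)
        ≤ ∑ i, ∑ j, Complex.normSq (W i j) * f (hB.eigenvalues j) := by
          refine Finset.sum_le_sum fun i _ => ?_
          have := hf.map_sum_le (t := Finset.univ) (w := fun j => Complex.normSq (W i j))
            (p := hB.eigenvalues) (fun j _ => Complex.normSq_nonneg _) (r i) (fun j _ => hs j)
          simpa only [smul_eq_mul] using this
      _ = ∑ j, f (hB.eigenvalues j) := by
          rw [Finset.sum_comm]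
          refine Finset.sum_congr rfl fun j _ => ?_
          rw [← Finset.sum_mul, c j, one_mul]

theorem mid {s : Set ℝ} {f : ℝ → ℝ} (hf : ConvexOn ℝ s f) {A B₁ B₂ : Matrix n n ℂ}
    (hA : A.IsHermitian) (h₁ : B₁.IsHermitian) (h₂ : B₂.IsHermitian)
    (s₁ : ∀ j, h₁.eigenvalues j ∈ s) (s₂ : ∀ j, h₂.eigenvalues j ∈ s)
    (e : A = (1 / 2 : ℂ) • (B₁ + B₂)) :
    2 * ∑ i, f (hA.eigenvalues i) ≤ ∑ j, f (h₁.eigenvalues j) + ∑ j, f (h₂.eigenvalues j) := by
  set U := hA.eigenvectorUnitary with hU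
  obtain ⟨m₁, p₁⟩ := peierls hf h₁ s₁ U
  obtain ⟨m₂, p₂⟩ := peierls hf h₂ s₂ U
  have d : star (U : Matrix n n ℂ) * A * (U : Matrix n n ℂ) = diagonal (RCLike.ofReal ∘ hA.eigenvalues) := by
    rw [← hA.conjStarAlgAut_star_eigenvectorUnitary, Unitary.conjStarAlgAut_star_apply]
  have k : ∀ i, hA.eigenvalues i = (1 / 2 : ℝ) • ((star (U : Matrix n n ℂ) * B₁ * (U : Matrix n n ℂ)) i i).re +
      (1 / 2 : ℝ) • ((star (U : Matrix n n ℂ) * B₂ * (U : Matrix n n ℂ)) i i).re := fun i => by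
    have := congrArg Complex.re (congrFun (congrFun d i) i)
    rw [diagonal_apply_eq] at this
    have t : (((RCLike.ofReal ∘ hA.eigenvalues) i : ℂ)).re = hA.eigenvalues i := by simp
    rw [t] at this
    rw [← this]
    conv_lhs => rw [e]
    simp only [Matrix.mul_smul, Matrix.smul_mul, mul_add, add_mul, Matrix.smul_apply,
      Matrix.add_apply, smul_eq_mul]
    simp
  have : ∀ i, 2 * f (hA.eigenvalues i) ≤ f ((star (U : Matrix n n ℂ) * B₁ * (U : Matrix n n ℂ)) i i).re +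
      f ((star (U : Matrix n n ℂ) * B₂ * (U : Matrix n n ℂ)) i i).re := fun i => by
    have := hf.2 (m₁ i) (m₂ i) (show (0 : ℝ) ≤ 1 / 2 by norm_num)
      (show (0 : ℝ) ≤ 1 / 2 by norm_num) (by norm_num)
    rw [← k i] at this
    simp only [smul_eq_mul] at this
    linarith
  calc 2 * ∑ i, f (hA.eigenvalues i) = ∑ i, 2 * f (hA.eigenvalues i) := Finset.mul_sum _ _ _
    _ ≤ _ := Finset.sum_le_sum fun i _ => this i
    _ ≤ _ := by rw [Finset.sum_add_distrib]; exact add_le_add p₁ p₂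

/-- The arrowhead matrix. -/
def ar (b l : n → ℂ) : Matrix (Unit ⊕ n) (Unit ⊕ n) ℂ :=
  fromBlocks 0 (Matrix.of fun _ j => conj (b j)) (Matrix.of fun i _ => b i) (diagonal l)

theorem ar_herm (b l : n → ℂ) (hl : ∀ i, (l i).im = 0) : (ar b l).IsHermitian := by
  refine Matrix.IsHermitian.fromBlocks isHermitian_zero ?_ ?_
  · ext i j
    simp
  · rw [isHermitian_diagonal_iff]
    exact fun i => Complex.conj_eq_iff_im.2 (hl i)

theorem ar_eval (b l : n → ℂ) (z : ℂ) (hz : ∀ i, z ≠ l i) :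
    (ar b l).charpoly.eval z =
      (∏ i, (z - l i)) * (z - ∑ i, (Complex.normSq (b i) : ℂ) / (z - l i)) := by
  have hz' : ∀ i, z - l i ≠ 0 := fun i => sub_ne_zero.2 (hz i)
  have e : Matrix.scalar (Unit ⊕ n) z - ar b l =
      fromBlocks (Matrix.of fun _ _ => z) (Matrix.of fun _ j => -conj (b j))
        (Matrix.of fun i _ => -b i) (diagonal fun i => z - l i) := by
    ext (i | i) (j | j)
    · simp [ar]
    · simp [ar]
    · simp [ar]
    · by_cases h : i = j
      · subst h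
        simp [ar]
      · simp [ar, h]
  letI : Invertible (diagonal fun i => z - l i : Matrix n n ℂ) :=
    ⟨diagonal fun i => (z - l i)⁻¹, by
      rw [diagonal_mul_diagonal, ← diagonal_one]
      congr 1
      funext i
      exact inv_mul_cancel₀ (hz' i), by
      rw [diagonal_mul_diagonal, ← diagonal_one]
      congr 1
      funext i
      exact mul_inv_cancel₀ (hz' i)⟩
  have hi : ⅟(diagonal fun i => z - l i : Matrix n n ℂ) = diagonal fun i => (z - l i)⁻¹ := rfl
  rw [eval_charpoly, e, det_fromBlocks₂₂, det_diagonal, hi, det_unique, Matrix.sub_apply,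
    Matrix.mul_apply]
  congr 2
  refine Finset.sum_congr rfl fun i _ => ?_
  rw [Matrix.mul_diagonal, Matrix.of_apply, Matrix.of_apply, ← Complex.mul_conj, div_eq_mul_inv]
  ring

theorem pf0 (N s : ℂ[X]) (hN : N.Monic) (hr : ∀ z, N.IsRoot z → z.im = 0)
    (hd : s.degree < N.degree)
    (h : ∀ z : ℂ, 0 < z.im → (s.eval z * conj (N.eval z)).im ≤ 0) :
    ∃ w : ℂ → ℝ, (∀ l, 0 ≤ w l) ∧ ∀ z, ¬ N.IsRoot z →
      s.eval z = N.eval z * ∑ l ∈ N.roots.toFinset, (w l : ℂ) / (z - l) := by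
  classical
  obtain ⟨c, Λ, ρ, d, h1, h2⟩ := pf N s hN.ne_zero hr (natDegree_le_natDegree hd.le) h
  have hc : c = 0 := by
    have e := congrArg (fun p => p.coeff N.natDegree) h2
    simp only [coeff_add, coeff_C_mul, finset_sum_coeff, hN.coeff_natDegree, mul_one] at e
    rw [coeff_eq_zero_of_degree_lt (by rwa [← degree_eq_natDegree hN.ne_zero]),
      Finset.sum_eq_zero, add_zero] at e
    · exact e.symm
    · intro l hl
      have hd0 : d l ≠ 0 := fun h0 => hN.ne_zero (by rw [(h1 l hl).2, h0, mul_zero])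
      have : N.natDegree = 1 + (d l).natDegree := by
        conv_lhs => rw [(h1 l hl).2]
        rw [natDegree_mul (X_sub_C_ne_zero _) hd0, natDegree_X_sub_C]
      rw [coeff_eq_zero_of_natDegree_lt (by omega), mul_zero]
  have root : ∀ l ∈ Λ, N.IsRoot (l : ℂ) := fun l hl => by
    rw [(h1 l hl).2]
    simp
  refine ⟨fun l => if l.re ∈ Λ then ρ l.re else 0, fun l => ?_, fun z hz => ?_⟩
  · dsimp only
    split_ifs with hl
    · exact (h1 _ hl).1
    · exact le_rfl
  have e1 : ∑ l ∈ N.roots.toFinset, ((if l.re ∈ Λ then ρ l.re else 0 : ℝ) : ℂ) / (z - l) =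
      ∑ l ∈ Λ, (ρ l : ℂ) / (z - l) := by
    symm
    refine Finset.sum_bij_ne_zero (fun l _ _ => (l : ℂ)) ?_ ?_ ?_ ?_
    · intro l hl _
      exact Multiset.mem_toFinset.2 ((mem_roots hN.ne_zero).2 (root l hl))
    · intro a _ _ b _ _ e
      exact_mod_cast e
    · intro t ht h0
      have ht' := hr t ((mem_roots hN.ne_zero).1 (Multiset.mem_toFinset.1 ht))
      have et : ((t.re : ℝ) : ℂ) = t := Complex.ext rfl (by simp [ht'])
      by_cases hl : t.re ∈ Λ
      · refine ⟨t.re, hl, ?_, et⟩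
        rw [if_pos hl] at h0
        rwa [et]
      · rw [if_neg hl] at h0
        simp at h0
    · intro l hl _
      simp [hl]
  rw [e1, h2, hc, Finset.mul_sum]
  simp only [map_zero, zero_mul, zero_add, eval_finset_sum, eval_mul, eval_C]
  refine Finset.sum_congr rfl fun l hl => ?_
  have hzl : z - l ≠ 0 := sub_ne_zero.2 fun e => hz (e ▸ root l hl)
  have := congrArg (eval z) (h1 l hl).2
  simp only [eval_mul, eval_sub, eval_X, eval_C] at this
  rw [this]
  field_simp

theorem factor (N N' s : ℂ[X]) (hN : N ≠ 0)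
    (e : N = (∏ l ∈ N.roots.toFinset, (X - C l)) * N') (w : ℂ → ℝ)
    (h : ∀ z, ¬ N.IsRoot z → s.eval z = N.eval z * ∑ l ∈ N.roots.toFinset, (w l : ℂ) / (z - l))
    (b : N.roots.toFinset → ℂ) (hb : ∀ i, Complex.normSq (b i) = w i) :
    X * N - s = N' * (ar b fun i => (i : ℂ)).charpoly := by
  refine eq_of_infinite_eval_eq _ _ ?_
  refine ((N.roots.toFinset.finite_toSet).infinite_compl).mono fun z hz => ?_
  have hz1 : ¬ N.IsRoot z := fun hr =>
    hz (Finset.mem_coe.2 (Multiset.mem_toFinset.2 ((mem_roots hN).2 hr)))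
  have hz2 : ∀ i : N.roots.toFinset, z ≠ (i : ℂ) := fun i e' => hz (e' ▸ Finset.mem_coe.2 i.2)
  have e2 := congrArg (eval z) e
  rw [eval_mul, eval_prod] at e2
  simp only [eval_sub, eval_X, eval_C] at e2
  simp only [Set.mem_setOf_eq, eval_sub, eval_mul, eval_X, h z hz1, ar_eval _ _ z hz2, hb]
  rw [Finset.prod_coe_sort N.roots.toFinset (fun l => z - l),
    Finset.sum_coe_sort N.roots.toFinset (fun l => (w l : ℂ) / (z - l)), e2]
  ring

theorem trQ_mul (Q : ℝ[X]) {p : ℂ[X]} (hp : p ≠ 0) {A : Matrix n n ℂ} (hA : A.IsHermitian) :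
    trQ Q (p * A.charpoly) = trQ Q p + ∑ i, Q.eval (hA.eigenvalues i) := by
  unfold trQ
  rw [roots_mul (mul_ne_zero hp A.charpoly_monic.ne_zero), Multiset.map_add, Multiset.sum_add,
    hA.roots_charpoly_eq_eigenvalues, Multiset.map_map]
  rfl

theorem eig_mem {p : ℂ[X]} {A : Matrix n n ℂ} (hA : A.IsHermitian)
    (h : RR (p * A.charpoly)) (i : n) : hA.eigenvalues i ∈ Set.Icc (-1 : ℝ) 1 := by
  have m : ((hA.eigenvalues i : ℝ) : ℂ) ∈ A.charpoly.roots := by
    rw [hA.roots_charpoly_eq_eigenvalues]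
    exact Multiset.mem_map.2 ⟨i, Finset.mem_univ_val i, rfl⟩
  have r : (p * A.charpoly).IsRoot ((hA.eigenvalues i : ℝ) : ℂ) := by
    have := (mem_roots A.charpoly_monic.ne_zero).1 m
    rw [IsRoot.def, eval_mul, this.eq_zero, mul_zero]
  have := (h.2 _ r).2
  rw [Complex.ofReal_re] at this
  exact abs_le.1 this

end Mono

open Mono in
theorem mono : MonoStmt := by
  intro Q hQ N s₀ s hN hr d₀ d₁ h₀ h₁ hRR
  classical
  obtain ⟨w₀, p₀, e₀⟩ := pf0 N s₀ hN hr d₀ h₀
  obtain ⟨w₁, p₁, e₁⟩ := pf0 N s hN hr d₁ h₁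
  obtain ⟨N', hN'⟩ : (∏ l ∈ N.roots.toFinset, (X - C l)) ∣ N := by
    refine (Multiset.prod_X_sub_C_dvd_iff_le_roots hN.ne_zero _).2 ?_
    rw [Multiset.toFinset_val]
    exact Multiset.dedup_le _
  have n0 : N' ≠ 0 := fun h => hN.ne_zero (by rw [hN', h, mul_zero])
  have hl : ∀ i : N.roots.toFinset, (i : ℂ).im = 0 := fun i =>
    hr _ ((mem_roots hN.ne_zero).1 (Multiset.mem_toFinset.1 i.2))
  have e₂ : ∀ z, ¬ N.IsRoot z → (s₀ + s).eval z =
      N.eval z * ∑ l ∈ N.roots.toFinset, ((w₀ l + w₁ l : ℝ) : ℂ) / (z - l) := fun z hz => by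
    rw [eval_add, e₀ z hz, e₁ z hz, ← mul_add, ← Finset.sum_add_distrib]
    congr 1
    refine Finset.sum_congr rfl fun l _ => ?_
    rw [Complex.ofReal_add, add_div]
  let b₀ : N.roots.toFinset → ℂ := fun i => ⟨√(w₀ i), 0⟩
  let b₁ : N.roots.toFinset → ℂ := fun i => ⟨√(w₀ i), √(w₁ i)⟩
  let b₂ : N.roots.toFinset → ℂ := fun i => ⟨√(w₀ i), -√(w₁ i)⟩
  have f₀ := factor N N' s₀ hN.ne_zero hN' w₀ e₀ b₀ fun i => by
    simp [b₀, Complex.normSq_mk, Real.mul_self_sqrt (p₀ i)]
  have f₁ := factor N N' (s₀ + s) hN.ne_zero hN' (fun l => w₀ l + w₁ l) e₂ b₁ fun i => by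
    simp [b₁, Complex.normSq_mk, Real.mul_self_sqrt (p₀ i), Real.mul_self_sqrt (p₁ i)]
  have f₂ := factor N N' (s₀ + s) hN.ne_zero hN' (fun l => w₀ l + w₁ l) e₂ b₂ fun i => by
    simp [b₂, Complex.normSq_mk, Real.mul_self_sqrt (p₀ i), Real.mul_self_sqrt (p₁ i)]
  rw [sub_sub] at hRR ⊢
  have a₀ := ar_herm b₀ _ hl
  have a₁ := ar_herm b₁ _ hl
  have a₂ := ar_herm b₂ _ hl
  have m := mid hQ a₀ a₁ a₂ (eig_mem a₁ (f₁ ▸ hRR)) (eig_mem a₂ (f₂ ▸ hRR)) (by
    ext (i | i) (j | j)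
    · simp [ar]
    · apply Complex.ext <;> simp [ar, b₀, b₁, b₂]
      ring
    · apply Complex.ext <;> simp [ar, b₀, b₁, b₂]
      ring
    · simp only [ar, Matrix.smul_apply, Matrix.add_apply, fromBlocks_apply₂₂, smul_eq_mul]
      ring)
  have t₀ := trQ_mul Q n0 a₀
  have t₁ := trQ_mul Q n0 a₁
  have t₂ := trQ_mul Q n0 a₂
  rw [← f₀] at t₀
  rw [← f₁] at t₁
  rw [← f₂] at t₂
  linarith

end Vale.Agent.P078
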