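import Vale.Agent.P078.N1

/-! Elements orthogonal to the normalizer have no atoms: the case of a centralizer. -/

namespace Vale.Agent.P078

open scoped InnerProductSpace ComplexConjugate ComplexOrder
open Vale.Agent.P104 Vale.Agent.P082 Finset Filter Topology

universe u

variable {H : Type u} [NormedAddCommGroup H] [InnerProductSpace ℂ H] [CompleteSpace H]
  {A M : VonNeumannAlgebra H} {ξ : H}

namespace NT

open R W CutA

theorem orth_cut (hA : IsMasa A M) (ht : CV A M ξ) {y r g : H →L[ℂ] H} (hy : y ∈ M)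
    (ho : ∀ b ∈ nsp A M, ⟪b ξ, y ξ⟫_ℂ = 0) (hr : r ∈ A) (hg : g ∈ A) {b : H →L[ℂ] H}
    (hb : b ∈ nsp A M) : ⟪b ξ, (r * y * g) ξ⟫_ℂ = 0 := by
  have := ho _ (mul_mem (mul_mem (le_nsp hA (star_mem hr)) hb) (le_nsp hA (star_mem hg)))
  rw [← inner_star_right, ← ContinuousLinearMap.mul_apply] at this ⊢
  rw [← mul_assoc, ht.r (mul_mem (star_mem (nsp_le hb)) (mul_mem (hA.1 r hr) hy)) hg]
  simpa only [star_mul, star_star, mul_assoc] using this

theorem steps (hA : IsMasa A M) (ht : CV A M ξ) {y : H →L[ℂ] H} (hy : y ∈ M)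
    (hn : ¬NoAtom A ξ y) : ∃ κ : ℝ, 0 < κ ∧ ∃ θ : (H →L[ℂ] H) → H →L[ℂ] H,
      (∀ p ∈ A, IsStarProjection p → θ p ∈ A ∧ IsStarProjection (θ p)) ∧
      ∀ F : Finset (H →L[ℂ] H), ∃ (ι : Type) (_ : Fintype ι) (r g : ι → H →L[ℂ] H),
        (∀ i, r i ∈ A) ∧ (∀ i, g i ∈ A) ∧ ‖∑ i, r i * y * g i‖ ≤ ‖y‖ ∧
        κ ≤ (⟪y ξ, (∑ i, r i * y * g i) ξ⟫_ℂ).re ∧ ∀ p ∈ F, p ∈ A → IsStarProjection p →
          p * ∑ i, r i * y * g i = (∑ i, r i * y * g i) * θ p := by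
  obtain ⟨T, hT⟩ := exT hA ht hy
  obtain ⟨f, fA, pf, hf⟩ := loc hA hT hn
  have o := one_mem A
  obtain ⟨h, hh⟩ : ∃ h, h = T f := ⟨_, rfl⟩
  obtain ⟨a, ha⟩ : ∃ a : (H →L[ℂ] H) → H →L[ℂ] H, a = fun p => T (f * p) := ⟨_, rfl⟩
  have hA' : h ∈ A := hh ▸ (hT f fA).1
  have h0 : 0 ≤ h := hh ▸ T_nn hA ht hy hT fA pf
  have aA : ∀ p ∈ A, a p ∈ A := fun p hp => ha ▸ (hT _ (mul_mem fA hp)).1
  have a0 : ∀ p ∈ A, IsStarProjection p → 0 ≤ a p := fun p hp pp =>
    ha ▸ T_nn hA ht hy hT (mul_mem fA hp) (hA.proj_mul fA hp pf pp)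
  have aa : ∀ p ∈ A, ∀ q ∈ A, a (p + q) = a p + a q := fun p hp q hq => by
    simp only [ha, mul_add]
    exact T_add hA ht hT (mul_mem fA hp) (mul_mem fA hq)
  have a1 : ∀ p ∈ A, a p + a (1 - p) = h := fun p hp => by
    rw [← aa p hp _ (sub_mem o hp), add_sub_cancel, ha, hh]
    simp only [mul_one]
  have a2 : ∀ p ∈ A, ∀ q ∈ A, IsStarProjection p → IsStarProjection q → p * q = 0 →
      a p + a q ≤ h := fun p hp q hq pp pq e => by
    rw [← aa p hp q hq, ← a1 _ (add_mem hp hq)]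
    exact le_add_of_nonneg_right (a0 _ (sub_mem o (add_mem hp hq)) (pp.add pq e).one_sub)
  have p0 : 0 < ‖h ξ‖ ^ 2 := by
    have := hf _ _ _ Part.one
    simp only [mul_one, univ_unique, sum_singleton, ← hh] at this
    linarith
  obtain ⟨κ, hκ⟩ : ∃ κ : ℝ, κ = ‖h ξ‖ ^ 2 / (12 * (‖h‖ + 1)) := ⟨_, rfl⟩
  have κ0 : 0 < κ := by rw [hκ]; positivity
  have κ1 : 12 * (‖h‖ + 1) * κ = ‖h ξ‖ ^ 2 := by rw [hκ]; field_simp
  obtain ⟨e, eA, pe, -, e1, e2⟩ := spec H A (h - (κ : ℂ) • 1) (sub_mem hA' (vn_smul_mem _ o))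
    (h0.isSelfAdjoint.sub ((show IsSelfAdjoint (κ : ℂ) from Complex.conj_ofReal _).smul (.one _)))
  have : ∀ p, ∃ t, p ∈ A → IsStarProjection p → t ∈ A ∧ IsStarProjection t ∧
      0 ≤ t * (a p + a p - h) * t ∧ (1 - t) * (a p + a p - h) * (1 - t) ≤ 0 := fun p => by
    by_cases hp : p ∈ A ∧ IsStarProjection p
    · have s := (a0 p hp.1 hp.2).isSelfAdjoint
      obtain ⟨t, t1, t2, -, t3⟩ := spec H A _ (sub_mem (add_mem (aA p hp.1) (aA p hp.1)) hA')
        ((s.add s).sub h0.isSelfAdjoint)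
      exact ⟨t, fun _ _ => ⟨t1, t2, t3⟩⟩
    · exact ⟨0, fun a b => absurd ⟨a, b⟩ hp⟩
  choose θ hθ using this
  refine ⟨κ, κ0, θ, fun p hp pp => ⟨(hθ p hp pp).1, (hθ p hp pp).2.1⟩, fun F => ?_⟩
  obtain ⟨ι, _, Q, hQ, hF⟩ := refine hA F
  have qA := fun i => aA _ (hQ.mem i)
  have q0 := fun i => a0 _ (hQ.mem i) (hQ.proj i)
  choose g gA pg gc g1 g2 using fun i => spec H A _ (sub_mem (add_mem (add_mem (qA i) (qA i)) (qA i))
    (add_mem hA' hA')) ((((q0 i).isSelfAdjoint.add (q0 i).isSelfAdjoint).add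
      (q0 i).isSelfAdjoint).sub (h0.isSelfAdjoint.add h0.isSelfAdjoint))
  have GA := fun i => mul_mem (gA i) eA
  have pG := fun i => hA.proj_mul (gA i) eA (pg i) pe
  have rA := fun i => mul_mem fA (hQ.mem i)
  have ge : ∀ i, g i * e * e = g i * e := fun i => by rw [mul_assoc, pe.isIdempotentElem.eq]
  have gg : ∀ i, g i * e * g i = g i * e := fun i => by
    rw [hA.2.1 _ (GA i) _ (gA i), ← mul_assoc, (pg i).isIdempotentElem.eq]
  have K : ∀ i, ∀ t ∈ A, IsStarProjection t → ∀ b, a (Q i) + b ≤ h →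
      0 ≤ 3 • (t * (g i * e) * (b + b - h) * (t * (g i * e))) → t * (g i * e) = 0 :=
    fun i t tA pt b hb h3 => by
      have pπ := hA.proj_mul tA (GA i) pt (pG i)
      exact kill pπ κ0 (on_sub pπ pe e1 (by rw [mul_assoc, ge]))
        (on_sub pπ (pg i) (g1 i) (by rw [mul_assoc, gg])) h3 hb
  have K2 : ∀ i, ∀ t ∈ A, IsStarProjection t → ∀ b, a (Q i) + b ≤ h →
      0 ≤ t * (b + b - h) * t → g i * e * t = 0 := fun i t tA pt b hb h3 => by
    rw [hA.2.1 _ (GA i) t tA]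
    refine K i t tA pt b hb (nsmul_nonneg (on_sub (hA.proj_mul tA (GA i) pt (pG i)) pt h3 ?_) 3)
    rw [hA.2.1 t tA _ (GA i), mul_assoc, pt.isIdempotentElem.eq]
  refine ⟨ι, inferInstance, fun i => f * Q i, fun i => g i * e, rA, GA, norm_cut
    (fun i => hA.proj_mul fA (hQ.mem i) pf (hQ.proj i)) (fun i j ij => ?_) pG (fun i j ij => ?_) y,
    ?_, fun p hp pA pp => ?_⟩
  · rw [hA.2.1 f fA _ (hQ.mem j), mul_assoc, ← mul_assoc (Q i), hQ.orth i j ij, zero_mul, mul_zero]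
  · refine K j _ (GA i) (pG i) _ (a2 _ (hQ.mem j) _ (hQ.mem i) (hQ.proj j) (hQ.proj i)
      (hQ.orth j i ij.symm)) ?_
    have pπ := hA.proj_mul (GA i) (GA j) (pG i) (pG j)
    have s1 := on_sub pπ (pg i) (g1 i) (by
      rw [hA.2.1 _ (GA i) _ (GA j), mul_assoc, gg])
    refine (add_nonneg (nsmul_nonneg s1 2) (pπ.isSelfAdjoint.conjugate_nonneg h0)).trans_eq ?_
    generalize g i * e * (g j * e) = π
    simp only [mul_sub, sub_mul, mul_add, add_mul]
    module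
  · have s1 := sum_le_sum fun i (_ : i ∈ univ) => ptw (ξ := ξ) hA κ0.le (qA i) hA' (gA i) eA (pg i)
      pe (q0 i) ((le_add_of_nonneg_right (a0 _ (sub_mem o (hQ.mem i)) (hQ.proj i).one_sub)).trans_eq
        (a1 _ (hQ.mem i))) (g2 i) e2
    have s2 : ∑ i, a (Q i) = h := by
      simp only [ha]
      rw [← T_sum hA ht hT rA, ← mul_sum, hQ.sum, mul_one, hh]
    have s3 : ∑ i, (⟪ξ, (h * a (Q i)) ξ⟫_ℂ).re = ‖h ξ‖ ^ 2 := by
      rw [← Complex.re_sum, ← inner_sum, ← ContinuousLinearMap.sum_apply, ← mul_sum, s2,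
        norm_sq_apply, h0.isSelfAdjoint.star_eq]
    have s4 : ∑ i, (⟪ξ, a (Q i) ξ⟫_ℂ).re ≤ ‖h‖ := by
      rw [← Complex.re_sum, ← inner_sum, ← ContinuousLinearMap.sum_apply, s2]
      refine (Complex.re_le_norm _).trans ((norm_inner_le_norm _ _).trans ?_)
      simpa only [ht.1, one_mul, mul_one] using h.le_opNorm ξ
    have s5 : (⟪y ξ, (∑ i, f * Q i * y * (g i * e)) ξ⟫_ℂ).re =
        ∑ i, (⟪ξ, (g i * e * a (Q i)) ξ⟫_ℂ).re := by
      rw [ContinuousLinearMap.sum_apply, inner_sum, Complex.re_sum]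
      refine sum_congr rfl fun i _ => ?_
      rw [ha, (hT _ (rA i)).2 _ (GA i), ← inner_star_right, ← ContinuousLinearMap.mul_apply,
        ht.l (GA i) (mul_mem (mul_mem (star_mem hy) (hA.1 _ (rA i))) hy)]
      simp only [mul_assoc]
    have s6 := hf _ _ _ hQ
    rw [← hh] at s6
    simp only [sum_add_distrib, ← mul_sum, s3] at s1
    rw [s5]
    have s7 : ∑ i, ‖T (f * Q i) ξ‖ ^ 2 = ∑ i, ‖a (Q i) ξ‖ ^ 2 := by rw [ha]
    by_contra hc
    have s8 := mul_le_mul_of_nonneg_left (not_le.1 hc).le (norm_nonneg h)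
    have s9 := mul_le_mul_of_nonneg_left s4 κ0.le
    have s10 := mul_nonneg (norm_nonneg h) κ0.le
    linarith
  · obtain ⟨tA, pt, t1, t2⟩ := hθ p pA pp
    rw [mul_sum, sum_mul]
    refine sum_congr rfl fun i _ => ?_
    have e0 : p * (f * Q i * y * (g i * e)) = f * (Q i * p) * y * (g i * e) := by
      rw [← mul_assoc f, ← hA.2.1 p pA _ (rA i)]
      simp only [mul_assoc]
    rw [e0, mul_assoc _ _ (θ p)]
    rcases hF p hp pA pp i with c | c
    · have := K2 i _ (sub_mem o tA) pt.one_sub (a (1 - p)) (a2 _ (hQ.mem i) _ (sub_mem o pA)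
        (hQ.proj i) pp.one_sub (by rw [mul_sub, mul_one, c, sub_self])) (by
          rw [show a (1 - p) + a (1 - p) - h = -(a p + a p - h) by rw [← a1 p pA]; abel, mul_neg,
            neg_mul]
          exact neg_nonneg.2 t2)
      rw [mul_sub, mul_one, sub_eq_zero] at this
      rw [c, ← this]
    · rw [c, K2 i _ tA pt (a p) (a2 _ (hQ.mem i) _ pA (hQ.proj i) pp c) t1]
      simp

theorem atom (hA : IsMasa A M) (ht : CV A M ξ) {y : H →L[ℂ] H} (hy : y ∈ M)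
    (ho : ∀ b ∈ nsp A M, ⟪b ξ, y ξ⟫_ℂ = 0) (hn : ¬NoAtom A ξ y) : ∃ w ∈ M, w ≠ 0 ∧
      (∀ b ∈ nsp A M, ⟪b ξ, w ξ⟫_ℂ = 0) ∧ (∀ a ∈ A, ∀ b ∈ A, a * y = y * b → a * w = w * b) ∧
      ∀ p ∈ A, IsStarProjection p → ∃ t ∈ A, IsStarProjection t ∧ p * w = w * t := by
  classical
  obtain ⟨κ, κ0, θ, hθ, h⟩ := steps hA ht hy hn
  choose ι _ r g rA gA v1 v2 v3 using h
  obtain ⟨w, hw⟩ := exists_wlim (M := M) (Ultrafilter.of (atTop : Filter (Finset (H →L[ℂ] H))))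
    (fun F => ⟨∑ i, r F i * y * g F i, sum_mem fun i _ =>
      mul_mem (mul_mem (hA.1 _ (rA F i)) hy) (hA.1 _ (gA F i))⟩) ‖y‖ v1
  dsimp only at hw
  have lim : ∀ a b : H →L[ℂ] H, (∀ᶠ F in atTop,
      a * ∑ i, r F i * y * g F i = (∑ i, r F i * y * g F i) * b) → a * w.1 = w.1 * b :=
    fun a b hab => by
      ext ζ
      refine ext_inner_left ℂ fun η => ?_
      rw [ContinuousLinearMap.mul_apply, ContinuousLinearMap.mul_apply, ← inner_star_left]
      refine tendsto_nhds_unique (hw ζ (star a η)) ((hw (b ζ) η).congr'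
        ((hab.filter_mono (Ultrafilter.of_le _)).mono fun F hF => ?_))
      dsimp only
      rw [inner_star_left, ← ContinuousLinearMap.mul_apply, ← hF, ContinuousLinearMap.mul_apply]
  refine ⟨w.1, w.2, fun h0 => ?_, fun b hb => ?_, fun a ha b hb e => lim a b
    (Eventually.of_forall fun F => ?_), fun p hp pp => ⟨θ p, (hθ p hp pp).1, (hθ p hp pp).2,
      lim _ _ ((eventually_ge_atTop {p}).mono fun F hF => v3 F p (hF (mem_singleton_self p)) hp pp)⟩⟩
  · have := ge_of_tendsto' ((Complex.continuous_re.tendsto _).comp (hw ξ (y ξ))) v2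
    rw [h0] at this
    simp only [ContinuousLinearMap.zero_apply, inner_zero_right, Complex.zero_re] at this
    linarith
  · refine tendsto_nhds_unique (hw ξ (b ξ)) (tendsto_const_nhds.congr fun F => ?_)
    rw [ContinuousLinearMap.sum_apply, inner_sum]
    exact (sum_eq_zero fun i _ => orth_cut hA ht hy ho (rA F i) (gA F i) hb).symm
  · rw [mul_sum, sum_mul]
    refine sum_congr rfl fun i _ => ?_
    rw [← mul_assoc, ← mul_assoc, hA.2.1 a ha _ (rA F i), mul_assoc _ a, e, mul_assoc _ (g F i),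
      hA.2.1 _ (gA F i) b hb]
    simp only [mul_assoc]

theorem superadd (hA : IsMasa A M) {ι : Type*} (S : Finset ι) (X : ι → H →L[ℂ] H)
    (hX : ∀ i, X i ∈ A) (h0 : ∀ i, 0 ≤ X i) :
    ∑ i ∈ S, ‖X i ξ‖ ^ 2 ≤ ‖(∑ i ∈ S, X i) ξ‖ ^ 2 := by
  classical
  induction S using Finset.induction_on with
  | empty => simp
  | insert i S hi ih =>
    rw [sum_insert hi, sum_insert hi, ContinuousLinearMap.add_apply, @norm_add_sq ℂ]
    have := re_nonneg (ξ := ξ) (Commute.mul_nonneg (h0 i) (sum_nonneg fun j (_ : j ∈ S) => h0 j)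
      (hA.2.1 _ (hX i) _ (sum_mem fun j (_ : j ∈ S) => hX j)))
    have e : ⟪X i ξ, (∑ j ∈ S, X j) ξ⟫_ℂ = ⟪ξ, (X i * ∑ j ∈ S, X j) ξ⟫_ℂ := by
      conv_lhs => rw [← (h0 i).isSelfAdjoint.star_eq]
      rw [inner_star_left]
      rfl
    rw [e, RCLike.re_to_complex]
    linarith

theorem has_atom (hA : IsMasa A M) (ht : CV A M ξ) {w : H →L[ℂ] H} (hw : w ∈ M) (w0 : w ≠ 0)
    (h : ∀ a ∈ A, w * a * star w ∈ A) : ¬NoAtom A ξ (star w) := fun hn => by
  classical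
  have gM := mul_mem (star_mem hw) hw
  obtain ⟨k, kA, kn, hk⟩ := ce hA ht _ gM
  have kM := hA.1 _ kA
  have k0 : 0 ≤ k := nonneg hA ht gM (star_mul_self_nonneg w) ⟨kA, hk⟩
  have ks := k0.isSelfAdjoint.star_eq
  obtain ⟨c, hc⟩ : ∃ c, c = (⟪ξ, (w * k * star w) ξ⟫_ℂ).re := ⟨_, rfl⟩
  have c0 : 0 < c := by
    by_contra hc0
    have a1 := eq_zero ht (hA.1 _ (h k kA)) (star_right_conjugate_nonneg k0 w)
      (hc ▸ not_lt.1 hc0)
    obtain ⟨s, hs⟩ := CStarAlgebra.nonneg_iff_eq_star_mul_self.1 k0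
    have a2 : s * star w = 0 := (CStarRing.star_mul_self_eq_zero_iff _).1 (by
      rw [← a1, hs]
      simp only [star_mul, star_star, mul_assoc])
    have a3 : k * star w = 0 := by rw [hs, mul_assoc, a2, mul_zero]
    have a4 := hk k kA
    rw [← mul_assoc, a3, zero_mul] at a4
    have a5 := norm_sq_apply k ξ
    rw [ks, a4] at a5
    have a6 : k = 0 := ht.2.2 _ kM (by simpa using a5)
    have a7 := hk 1 (one_mem _)
    have a8 := norm_sq_apply w ξ
    rw [one_mul, one_mul, a6] at a7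
    rw [← a7] at a8
    exact w0 (ht.2.2 _ hw (by simpa using a8))
  obtain ⟨θ, t0, hθ⟩ := P132.strong_of_sep ht.2.2 (star w ξ) (‖star w * w - k‖)
    (c / 2 / (‖star w ξ‖ + 1)) (by positivity)
  have gs : IsSelfAdjoint (star w * w) := IsSelfAdjoint.star_mul_self w
  obtain ⟨N, e, he, h3⟩ := lq hA ht gM gs ⟨kA, hk⟩ t0
  obtain ⟨n, f, t, hf, h1, h2⟩ := hn (c / 4) (by positivity)
  obtain ⟨P, hP, r1, r2⟩ := prod_rf hA he hf
  have dM := sub_mem gM kM
  have b1 : ‖pin P (star w * w - k) ξ‖ ≤ θ := by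
    rw [← pin_rf hA hP he r1]
    exact (pin_le hA ht hP (pin_mem hA he dM)).trans h3
  have b2 := hθ _ (pin_mem hA hP dM) (pin_norm hP (gs.sub k0.isSelfAdjoint)) b1
  have b3 : |(⟪star w ξ, pin P (star w * w - k) (star w ξ)⟫_ℂ).re| ≤ c / 2 := by
    refine (Complex.abs_re_le_norm _).trans ((norm_inner_le_norm _ _).trans ?_)
    refine (mul_le_mul_of_nonneg_left b2 (norm_nonneg _)).trans ?_
    rw [← mul_div_assoc, div_le_iff₀ (by positivity)]
    nlinarith [norm_nonneg (star w ξ)]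
  have b4 : (⟪star w ξ, pin P (star w * w) (star w ξ)⟫_ℂ).re =
      ∑ i, ‖(w * P i * star w) ξ‖ ^ 2 := by
    rw [pin, ContinuousLinearMap.sum_apply, inner_sum, Complex.re_sum]
    refine sum_congr rfl fun i _ => ?_
    rw [norm_sq_apply, inner_star_left]
    simp only [star_mul, star_star, (hP.1 i).2.isSelfAdjoint.star_eq, mul_assoc]
    rfl
  have b5 : (⟪star w ξ, k (star w ξ)⟫_ℂ).re = c := by
    rw [hc, inner_star_left]
    rfl
  rw [pin_sub, pin_fix hP (z := k) fun i => hA.2.1 _ (hP.1 i).1 _ kA,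
    ContinuousLinearMap.sub_apply, inner_sub_right, Complex.sub_re, b4, b5] at b3
  choose γ hγ using r2
  have b6 : ∀ l, f l = ∑ i with γ i = l, P i := fun l => by
    rw [← one_mul (f l), ← hP.2.2, sum_mul, sum_filter]
    refine sum_congr rfl fun i _ => ?_
    split_ifs with h
    · rw [← h, hγ]
    · rw [← hγ i, mul_assoc, hf.2.1 _ _ h, mul_zero]
  have b7 : ∑ i, ‖(w * P i * star w) ξ‖ ^ 2 ≤ ∑ l, ‖t l ξ‖ ^ 2 := by
    rw [← sum_fiberwise univ γ]
    refine sum_le_sum fun l _ => ?_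
    refine (superadd hA _ _ (fun i => h _ (hP.1 i).1)
      fun i => star_right_conjugate_nonneg (hP.1 i).2.nonneg w).trans_eq ?_
    rw [uniq hA ht (h1 l) ⟨by rw [star_star]; exact h _ (hf.1 l).1, fun _ _ => rfl⟩, star_star,
      b6 l]
    simp only [mul_sum, sum_mul]
  linarith [(abs_le.1 b3).1]

theorem wm (hA : IsMasa A M) (ht : CV A M ξ)
    (hN : ∀ b ∈ nsp A M, ∀ x ∈ M, ⟪ξ, (x * b) ξ⟫_ℂ = ⟪ξ, (b * x) ξ⟫_ℂ) {y : H →L[ℂ] H}
    (hy : y ∈ M) (ho : ∀ b ∈ nsp A M, ⟪b ξ, y ξ⟫_ℂ = 0) : NoAtom A ξ y := by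
  by_contra hn
  obtain ⟨w, wM, w0, w1, -, w2⟩ := atom hA ht hy ho hn
  obtain ⟨v, vM, v0, v1, v2, v3⟩ := atom hA ht (star_mem wM) (fun b hb => by
    have := congrArg conj (w1 _ (star_mem hb))
    rw [inner_conj_symm, map_zero, ← inner_star_right, ← ContinuousLinearMap.mul_apply,
      hN _ (star_mem hb) _ (star_mem wM)] at this
    rwa [← inner_star_right, ← ContinuousLinearMap.mul_apply])
    (has_atom hA ht wM w0 (conj_mem hA wM w2))
  obtain ⟨s, sA, s0, hs⟩ := nz hA vM v0 (conj_mem hA vM v3) (by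
    simpa only [star_star] using conj_mem hA (star_mem vM) fun p hp pp => by
      obtain ⟨t, tA, pt, e⟩ := w2 p hp pp
      refine ⟨t, tA, pt, ?_⟩
      simpa only [star_mul, pp.isSelfAdjoint.star_eq, pt.isSelfAdjoint.star_eq] using
        (congrArg star (v2 t tA p hp (by
          simpa only [star_mul, pp.isSelfAdjoint.star_eq, pt.isSelfAdjoint.star_eq] using
            (congrArg star e).symm))).symm)
  have := orth_cut hA ht vM v1 (one_mem A) sA hs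
  rw [one_mul, inner_self_eq_zero] at this
  exact s0 (ht.2.2 _ (mul_mem vM (hA.1 s sA)) this)

end NT

end Vale.Agent.P078
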