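import Vale.Agent.P078.N3
import Vale.Agent.P078.Fin4
import Vale.Agent.P078.Core2

/-! Paving when the normalizer lies in the centralizer of a faithful state. -/

namespace Vale.Agent.P078

open scoped InnerProductSpace InnerProduct ComplexConjugate ComplexOrder
open Vale.Agent.P104 Vale.Agent.P082 ContinuousLinearMap Finset Filter Topology

universe u

variable {H : Type u} [NormedAddCommGroup H] [InnerProductSpace ℂ H] [CompleteSpace H]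
  {A M N : VonNeumannAlgebra H} {ξ : H}

/-- `ξ` is a separating unit vector whose state has the normalizer of `A` in its centralizer. -/
def NCV (A M : VonNeumannAlgebra H) (ξ : H) : Prop :=
  ‖ξ‖ = 1 ∧ (∀ u, Normalizes A M u → ∀ x ∈ M, ⟪ξ, (u * x) ξ⟫_ℂ = ⟪ξ, (x * u) ξ⟫_ℂ) ∧
    ∀ x ∈ M, x ξ = 0 → x = 0

namespace NT

open R F2 FN

theorem star_eq {x n : H →L[ℂ] H} (hx : x ∈ M) (xs : IsSelfAdjoint x) (hn : n ∈ M)
    (h : ∀ y ∈ M, ⟪ξ, (n * y) ξ⟫_ℂ = ⟪ξ, (y * n) ξ⟫_ℂ) : ‖(x - star n) ξ‖ = ‖(x - n) ξ‖ := by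
  rw [← sq_eq_sq₀ (norm_nonneg _) (norm_nonneg _), norm_sq_apply, norm_sq_apply]
  have a1 := h x hx
  have a2 := h _ (star_mem hn)
  have a3 := congrArg conj a1
  rw [inner_conj_symm, inner_conj_symm, ← inner_star_right, ← inner_star_right, star_mul,
    star_mul, xs.star_eq] at a3
  simp only [star_sub, star_star, xs.star_eq, mul_sub, sub_mul, sub_apply, inner_sub_right, a1, a2,
    a3]
  congr 1
  ring

theorem NCV.nsp (ht : NCV A M ξ) {b : H →L[ℂ] H} (hb : b ∈ nsp A M) :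
    ∀ x ∈ M, ⟪ξ, (b * x) ξ⟫_ℂ = ⟪ξ, (x * b) ξ⟫_ℂ :=
  Submodule.span_induction (p := fun b _ => ∀ x ∈ M, ⟪ξ, (b * x) ξ⟫_ℂ = ⟪ξ, (x * b) ξ⟫_ℂ)
    ht.2.1 (by simp) (fun a b _ _ h1 h2 x hx => by
      simp only [add_mul, mul_add, add_apply, inner_add_right, h1 x hx, h2 x hx])
    (fun c a _ h x hx => by
      simp only [smul_mul_assoc, mul_smul_comm, smul_apply, inner_smul_right, h x hx]) hb

theorem NCV.cv (hA : IsMasa A M) (ht : NCV A M ξ) : CV A M ξ :=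
  ⟨ht.1, fun _ ha => NCV.nsp ht (le_nsp hA ha), ht.2.2⟩

theorem cen_sa (ht : NCV A M ξ) (hN : ∀ z ∈ N, z ∈ M)
    (hr : ∀ T : H →L[ℂ] H, (∀ u, Normalizes A M u → T * u = u * T) → ∀ z ∈ N, T * z = z * T)
    {z : H →L[ℂ] H} (hz : z ∈ N) (zs : IsSelfAdjoint z) (z1 : ‖z‖ ≤ 1) {x : H →L[ℂ] H}
    (hx : x ∈ M) : ⟪ξ, (z * x) ξ⟫_ℂ = ⟪ξ, (x * z) ξ⟫_ℂ := by
  have cl := (nsp A M).isClosed_topologicalClosure
  rw [← sub_eq_zero, ← norm_le_zero_iff]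
  refine le_of_forall_pos_le_add fun ε hε => ?_
  obtain ⟨κ, hκ⟩ : ∃ κ, κ = ε / (4 * (‖x‖ + 1)) := ⟨_, rfl⟩
  have k0 : 0 < κ := by rw [hκ]; positivity
  obtain ⟨n, -, n2⟩ := P096.kap_sa (ρ := (nsp A M).topologicalClosure.subtype) (ζ := ξ) (x := z)
    (VonNeumannAlgebra.mem_commutant_iff.2 fun T hT => hr T (fun u hu => (P096.mem_com.1 hT
      ⟨u, (nsp A M).le_topologicalClosure (Submodule.subset_span hu)⟩).symm) z hz) zs z1 k0
  obtain ⟨b, hb, e⟩ := Metric.mem_closure_iff.1 n.2 κ k0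
  rw [dist_eq_norm] at e
  have b2 : ‖(z - b) ξ‖ ≤ 2 * κ := by
    have := (n.1 - b).le_opNorm ξ
    rw [ht.1, mul_one] at this
    rw [show (z - b) ξ = (z ξ - n.1 ξ) + (n.1 - b) ξ by simp]
    exact (norm_add_le _ _).trans (by change ‖z ξ - n.1 ξ‖ ≤ κ at n2; linarith)
  have b3 := star_eq (hN z hz) zs (nsp_le hb) (NCV.nsp ht hb)
  have e1 : ⟪ξ, (z * x) ξ⟫_ℂ - ⟪ξ, (x * z) ξ⟫_ℂ =
      ⟪(z - star b) ξ, x ξ⟫_ℂ - ⟪star x ξ, (z - b) ξ⟫_ℂ := by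
    have := NCV.nsp ht hb x hx
    rw [← inner_star_right (z - star b), inner_star_left, star_sub, star_star, zs.star_eq]
    simp only [mul_apply_eq_comp, sub_apply, map_sub, inner_sub_right] at this ⊢
    rw [this]
    ring
  have x1 : ‖x ξ‖ ≤ ‖x‖ := by simpa only [ht.1, mul_one] using x.le_opNorm ξ
  have x2 : ‖star x ξ‖ ≤ ‖x‖ := by simpa only [ht.1, mul_one, norm_star] using (star x).le_opNorm ξ
  have c1 := (norm_inner_le_norm (𝕜 := ℂ) ((z - star b) ξ) (x ξ)).trans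
    (mul_le_mul (b3.le.trans b2) x1 (norm_nonneg _) (by positivity))
  have c2 := (norm_inner_le_norm (𝕜 := ℂ) (star x ξ) ((z - b) ξ)).trans
    (mul_le_mul x2 b2 (norm_nonneg _) (norm_nonneg _))
  have c3 : 4 * κ * ‖x‖ ≤ ε := by
    rw [hκ, ← mul_div_assoc, div_mul_eq_mul_div, div_le_iff₀ (by positivity)]
    nlinarith [norm_nonneg x]
  rw [e1]
  linarith [norm_sub_le ⟪(z - star b) ξ, x ξ⟫_ℂ ⟪star x ξ, (z - b) ξ⟫_ℂ]

theorem cen_all (ht : NCV A M ξ) (hN : ∀ z ∈ N, z ∈ M)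
    (hr : ∀ T : H →L[ℂ] H, (∀ u, Normalizes A M u → T * u = u * T) → ∀ z ∈ N, T * z = z * T) :
    CV N M ξ := by
  have k : ∀ z ∈ N, IsSelfAdjoint z → ∀ x ∈ M, ⟪ξ, (z * x) ξ⟫_ℂ = ⟪ξ, (x * z) ξ⟫_ℂ :=
    fun z hz zs x hx => by
      have p : 0 < ‖z‖ + 1 := by positivity
      have := cen_sa ht hN hr (vn_smul_mem (((‖z‖ + 1)⁻¹ : ℝ) : ℂ) hz)
        ((show IsSelfAdjoint (((‖z‖ + 1)⁻¹ : ℝ) : ℂ) from Complex.conj_ofReal _).smul zs) (by
          rw [norm_smul, Complex.norm_real, Real.norm_of_nonneg (by positivity),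
            inv_mul_le_iff₀ p]
          linarith) hx
      simp only [smul_mul_assoc, mul_smul_comm, smul_apply, inner_smul_right] at this
      exact mul_left_cancel₀ (by exact_mod_cast (inv_pos.2 p).ne') this
  refine ⟨ht.1, fun z hz x hx => ?_, ht.2.2⟩
  have a1 := k _ (add_mem hz (star_mem hz)) (by simp [IsSelfAdjoint, add_comm]) x hx
  have a2 := k _ (vn_smul_mem Complex.I (sub_mem hz (star_mem hz)))
    (by simp [IsSelfAdjoint, smul_sub]; abel) x hx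
  simp only [add_mul, mul_add, add_apply, inner_add_right, smul_mul_assoc, mul_smul_comm,
    smul_apply, inner_smul_right, sub_mul, mul_sub, sub_apply, inner_sub_right] at a1 a2
  have a3 : ⟪ξ, (z * x) ξ⟫_ℂ - ⟪ξ, (star z * x) ξ⟫_ℂ = ⟪ξ, (x * z) ξ⟫_ℂ - ⟪ξ, (x * star z) ξ⟫_ℂ :=
    mul_left_cancel₀ Complex.I_ne_zero (by linear_combination a2)
  linear_combination (a1 + a3) / 2

theorem tr_nn (hN : ∀ z ∈ N, z ∈ M) (ht : CV N M ξ) {h k : H →L[ℂ] H} (hh : h ∈ N) (hk : k ∈ M)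
    (h0 : 0 ≤ h) (k0 : 0 ≤ k) : 0 ≤ (⟪ξ, (h * k) ξ⟫_ℂ).re := by
  obtain ⟨s, hs⟩ := CStarAlgebra.nonneg_iff_eq_star_mul_self.1
    (show (0 : Alg N) ≤ ⟨h, hh⟩ from h0)
  have hs' : h = star s.1 * s.1 := congrArg Subtype.val hs
  rw [hs', mul_assoc, ht.l (star_mem s.2) (mul_mem (hN _ s.2) hk)]
  exact R.re_nonneg (star_right_conjugate_nonneg k0 s.1)

theorem clampU (hN : ∀ z ∈ N, z ∈ M) (ht : CV N M ξ) {x b : H →L[ℂ] H} (hx : x ∈ M)
    (x1 : x ≤ 1) (hb : b ∈ N) (hs : IsSelfAdjoint b) :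
    ∃ g ∈ N, IsSelfAdjoint g ∧ g ≤ 1 ∧ (-1 ≤ b → -1 ≤ g) ∧ ‖(x - g) ξ‖ ≤ ‖(x - b) ξ‖ := by
  obtain ⟨e, eN, pe, c, h0, h1⟩ := spec H N (b - 1) (sub_mem hb (one_mem _))
    (hs.sub (IsSelfAdjoint.one _))
  have ee := pe.isIdempotentElem.eq
  have cb : b * e = e * b := by
    rw [mul_sub, sub_mul, mul_one, one_mul] at c
    exact (sub_left_injective c).symm
  have eb : e * (e * b) = e * b := by rw [← mul_assoc, ee]
  have fN : 1 - e ∈ N := sub_mem (one_mem _) eN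
  have hN' : e * (b - 1) * e ∈ N := mul_mem (mul_mem eN (sub_mem hb (one_mem _))) eN
  have fs := pe.one_sub.isSelfAdjoint
  refine ⟨e + (1 - e) * b * (1 - e), add_mem eN (mul_mem (mul_mem fN hb) fN),
    pe.isSelfAdjoint.add (by simpa only [fs.star_eq] using hs.conjugate (1 - e)), ?_,
    fun h => ?_, ?_⟩
  · rw [← sub_nonneg]
    convert neg_nonneg.2 h1 using 1
    simp only [mul_sub, sub_mul, one_mul, mul_one, mul_assoc, cb, eb, ee]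
    abel
  · have := add_nonneg (add_nonneg pe.nonneg pe.nonneg)
      (star_left_conjugate_nonneg (sub_nonneg.2 h) (1 - e))
    rw [← sub_nonneg]
    convert this using 1
    simp only [fs.star_eq, mul_sub, sub_mul, one_mul, mul_one, mul_assoc, cb, eb, ee, mul_neg,
      neg_mul]
    abel
  · set g := e + (1 - e) * b * (1 - e) with hg
    set h := e * (b - 1) * e with hh
    have e1 : x - b = x - g - h := by
      simp only [hg, hh, mul_sub, sub_mul, one_mul, mul_one, mul_assoc, cb, eb, ee]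
      abel
    have e2 : h * (x - g) = -(h * (1 - x)) := by
      have : h * g = h := by
        have k : e * (1 - e) = 0 := by rw [mul_sub, mul_one, ee, sub_self]
        rw [hg, hh, mul_add, mul_assoc _ e e, ee, mul_assoc _ e, ← mul_assoc e, ← mul_assoc e, k]
        simp
      rw [mul_sub, mul_sub, this, mul_one, neg_sub]
    have e3 := tr_nn hN ht hN' (sub_mem (one_mem _) hx) h0 (sub_nonneg.2 x1)
    have e4 : (⟪(x - g) ξ, h ξ⟫_ℂ).re ≤ 0 := by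
      rw [← inner_conj_symm, Complex.conj_re, ← (IsSelfAdjoint.of_nonneg h0).star_eq,
        inner_star_left, ← mul_apply_eq_comp, e2, neg_apply, inner_neg_right, Complex.neg_re]
      linarith
    rw [e1, sub_apply (x - g) h]
    refine le_of_sq_le (norm_nonneg _) ?_
    rw [@norm_sub_sq ℂ]
    simp only [RCLike.re_to_complex]
    nlinarith [sq_nonneg ‖h ξ‖]

theorem clamp (hN : ∀ z ∈ N, z ∈ M) (ht : CV N M ξ) {x b : H →L[ℂ] H} (hx : x ∈ M)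
    (xs : IsSelfAdjoint x) (x1 : ‖x‖ ≤ 1) (hb : b ∈ N) (hs : IsSelfAdjoint b) :
    ∃ g ∈ N, ‖g‖ ≤ 1 ∧ ‖(x - g) ξ‖ ≤ ‖(x - b) ξ‖ := by
  have k : ∀ x : H →L[ℂ] H, IsSelfAdjoint x → ‖x‖ ≤ 1 → x ≤ 1 := fun x xs x1 =>
    xs.le_algebraMap_norm_self.trans (by
      rw [← map_one (algebraMap ℝ (H →L[ℂ] H))]
      exact algebraMap_mono _ x1)
  obtain ⟨g, gN, gs, g1, -, g2⟩ := clampU hN ht hx (k x xs x1) hb hs
  obtain ⟨g', gN', gs', g1', g3, g2'⟩ := clampU hN ht (neg_mem hx)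
    (k _ xs.neg (by rwa [norm_neg])) (neg_mem gN) gs.neg
  refine ⟨-g', neg_mem gN', ?_, ?_⟩
  · rw [norm_neg]
    exact R.norm_le_of_le gs' zero_le_one (by simpa using g1')
      (by simpa using neg_le.1 (g3 (neg_le_neg g1)))
  · rw [show -x - g' = -(x - -g') by abel, show -x - -g = -(x - g) by abel, neg_apply, neg_apply,
      norm_neg, norm_neg] at g2'
    exact g2'.trans g2

theorem cexp (hN : ∀ z ∈ N, z ∈ M) (ht : CV N M ξ) {x : H →L[ℂ] H} (hx : x ∈ M)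
    (xs : IsSelfAdjoint x) (x1 : ‖x‖ ≤ 1) :
    ∃ z ∈ N, IsSelfAdjoint z ∧ ‖z‖ ≤ 1 ∧ ∀ b ∈ N, ⟪b ξ, (x - z) ξ⟫_ℂ = 0 := by
  let K : Set (H →L[ℂ] H) := {z | z ∈ N ∧ ‖z‖ ≤ 1}
  have hne : ((fun z : H →L[ℂ] H => ‖(x - z) ξ‖) '' K).Nonempty :=
    Set.Nonempty.image _ ⟨0, zero_mem _, by simp⟩
  have hbd : BddBelow ((fun z : H →L[ℂ] H => ‖(x - z) ξ‖) '' K) :=
    ⟨0, by rintro _ ⟨z, -, rfl⟩; exact norm_nonneg _⟩
  obtain ⟨r, -, hr, hrK⟩ := exists_seq_tendsto_sInf hne hbd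
  set m := sInf ((fun z : H →L[ℂ] H => ‖(x - z) ξ‖) '' K)
  have hm : ∀ z ∈ K, m ≤ ‖(x - z) ξ‖ := fun z hz => csInf_le hbd ⟨z, hz, rfl⟩
  choose v hv hvr using hrK
  let v' : ℕ → Alg N := fun n => ⟨v n, (hv n).1⟩
  have hb : ∀ n, ‖v' n‖ ≤ 1 := fun n => (hv n).2
  obtain ⟨w, hw⟩ : ∃ w, w = wlim (hyperfilter ℕ) v' := ⟨_, rfl⟩
  have hs : ∀ η, Tendsto (fun n => ⟪η, (x - v n) ξ⟫_ℂ) (hyperfilter ℕ) (𝓝 ⟪η, (x - w.1) ξ⟫_ℂ) :=
    fun η => by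
      simp only [sub_apply, inner_sub_right]
      exact tendsto_const_nhds.sub (hw ▸ wlim_spec hb ξ η)
  have w1 : ‖w.1‖ ≤ 1 := hw ▸ wlim_norm_le hb
  have hzm : ‖(x - w.1) ξ‖ ≤ m := by
    have h1 := (hs ((x - w.1) ξ)).norm
    have h2 : Tendsto (fun n => ‖(x - w.1) ξ‖ * r n) (hyperfilter ℕ) (𝓝 (‖(x - w.1) ξ‖ * m)) :=
      (hr.mono_left Nat.hyperfilter_le_atTop).const_mul _
    have h3 := le_of_tendsto_of_tendsto' h1 h2 fun n => by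
      rw [← hvr n]; exact norm_inner_le_norm _ _
    rw [inner_self_eq_norm_sq_to_K, norm_pow, RCLike.norm_ofReal, abs_norm, sq] at h3
    rcases (norm_nonneg ((x - w.1) ξ)).eq_or_lt with h | h
    · rw [← h]; exact le_csInf hne (by rintro _ ⟨z, -, rfl⟩; exact norm_nonneg _)
    · exact le_of_mul_le_mul_left h3 h
  have b3 := star_eq hx xs (hN _ w.2) (ht.2.1 _ w.2)
  obtain ⟨z, hz⟩ : ∃ z, z = (2⁻¹ : ℂ) • (w.1 + star w.1) := ⟨_, rfl⟩
  have zN : z ∈ N := hz ▸ vn_smul_mem _ (add_mem w.2 (star_mem w.2))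
  have zs : IsSelfAdjoint z := hz ▸ R.half_sa _
  have z2 : ‖(x - z) ξ‖ ≤ m := by
    rw [show (x - z) ξ = (2⁻¹ : ℂ) • ((x - w.1) ξ + (x - star w.1) ξ) by
      simp only [hz, sub_apply, smul_apply, add_apply]; module, norm_smul, norm_inv,
      Complex.norm_ofNat]
    linarith [norm_add_le ((x - w.1) ξ) ((x - star w.1) ξ)]
  have k1 : ∀ c ∈ N, IsSelfAdjoint c → (⟪(x - z) ξ, c ξ⟫_ℂ).re = 0 := fun c cN cs => by
    have k : ∀ t : ℝ, 0 ≤ -2 * t * (⟪(x - z) ξ, c ξ⟫_ℂ).re + t ^ 2 * ‖c ξ‖ ^ 2 := fun t => by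
      obtain ⟨g, gN, g1, g2⟩ := clamp hN ht hx xs x1 (add_mem zN (vn_smul_mem (t : ℂ) cN))
        (zs.add ((show IsSelfAdjoint (t : ℂ) from Complex.conj_ofReal _).smul cs))
      have := pow_le_pow_left₀ (norm_nonneg _) ((z2.trans (hm g ⟨gN, g1⟩)).trans g2) 2
      rw [← sub_sub, sub_apply (x - z), @norm_sub_sq ℂ, smul_apply, inner_smul_right, norm_smul,
        Complex.norm_real, mul_pow, Real.norm_eq_abs, sq_abs] at this
      simp only [RCLike.re_to_complex, Complex.re_ofReal_mul] at this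
      linarith
    set a := (⟪(x - z) ξ, c ξ⟫_ℂ).re
    set B := ‖c ξ‖ ^ 2
    have B0 : 0 ≤ B := by positivity
    have := k (a / (B + 1))
    rw [show -2 * (a / (B + 1)) * a + (a / (B + 1)) ^ 2 * B = -(a ^ 2 * (B + 2)) / (B + 1) ^ 2 by
      field_simp; ring, le_div_iff₀ (by positivity)] at this
    exact pow_eq_zero_iff two_ne_zero |>.1 (le_antisymm (by nlinarith [sq_nonneg a]) (sq_nonneg a))
  have ys := xs.sub zs
  have yM := sub_mem hx (hN z zN)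
  have k2 : ∀ b ∈ N, (⟪(x - z) ξ, b ξ⟫_ℂ).re = 0 := fun b bN => by
    have e1 : (⟪(x - z) ξ, star b ξ⟫_ℂ).re = (⟪(x - z) ξ, b ξ⟫_ℂ).re := by
      rw [← inner_conj_symm, Complex.conj_re, inner_star_left, ← mul_apply_eq_comp,
        ht.l bN yM, mul_apply_eq_comp, ← inner_star_left, ys.star_eq]
    have := k1 _ (add_mem bN (star_mem bN)) (by simp [IsSelfAdjoint, add_comm])
    rw [add_apply, inner_add_right, Complex.add_re, e1] at this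
    linarith
  refine ⟨z, zN, zs, hz ▸ (R.half_norm _).trans w1, fun b bN => ?_⟩
  have := k2 _ (vn_smul_mem Complex.I bN)
  rw [smul_apply, inner_smul_right, Complex.I_mul_re, neg_eq_zero] at this
  rw [← inner_conj_symm, show ⟪(x - z) ξ, b ξ⟫_ℂ = 0 from Complex.ext (k2 b bN) this]
  simp

theorem eb (hA : IsMasa A M) (ht : NCV A M ξ) : ∃ N : VonNeumannAlgebra H, (∀ z ∈ N, z ∈ M) ∧
    IsMasa A N ∧ TraceVec N ξ ∧ ∀ x ∈ M, IsSelfAdjoint x → ‖x‖ ≤ 1 → ∀ η : ℝ, 0 < η →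
    ∃ x₀ ∈ R.nsp A N, ∃ y ∈ M, IsSelfAdjoint x₀ ∧ IsSelfAdjoint y ∧ ‖x₀‖ ≤ 1 ∧ ‖y‖ ≤ 2 ∧
    (∀ b ∈ R.nsp A M, ⟪b ξ, y ξ⟫_ℂ = 0) ∧ ‖(x - x₀ - y) ξ‖ ≤ η := by
  let N0 : VonNeumannAlgebra H := ⟨StarSubalgebra.centralizer ℂ {u | Normalizes A M u}, by simp⟩
  have m0 : ∀ T, T ∈ N0 ↔ ∀ u, Normalizes A M u → u * T = T * u := fun T => by
    change T ∈ StarSubalgebra.centralizer ℂ {u | Normalizes A M u} ↔ _
    rw [StarSubalgebra.mem_centralizer_iff]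
    exact ⟨fun h u hu => (h u hu).1, fun h u hu => ⟨h u hu, h _ ⟨star_mem hu.1,
      Unitary.star_mem hu.2.1, by simpa using hu.2.2.2, by simpa using hu.2.2.1⟩⟩⟩
  have hN : ∀ z ∈ N0.commutant, z ∈ M := fun z hz => by
    rw [← M.commutant_commutant]
    exact VonNeumannAlgebra.mem_commutant_iff.2 fun T hT => VonNeumannAlgebra.mem_commutant_iff.1
      hz T ((m0 T).2 fun u hu => VonNeumannAlgebra.mem_commutant_iff.1 hT u hu.1)
  have up : ∀ u, Normalizes A M u → Normalizes A N0.commutant u := fun u hu =>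
    ⟨VonNeumannAlgebra.mem_commutant_iff.2 fun T hT => ((m0 T).1 hT u hu).symm, hu.2⟩
  have hc : CV N0.commutant M ξ := cen_all ht hN fun T hT w hw =>
    VonNeumannAlgebra.mem_commutant_iff.1 hw T ((m0 T).2 fun u hu => (hT u hu).symm)
  have htN : TraceVec N0.commutant ξ :=
    ⟨ht.1, fun a ha b hb => hc.l ha (hN b hb), fun a ha => ht.2.2 a (hN a ha)⟩
  refine ⟨N0.commutant, hN, ⟨fun a ha => R.nsp_le (A := A) (Submodule.span_mono
    (fun u hu => up u hu) (le_nsp hA ha)), hA.2.1, fun x hx => hA.2.2 x (hN x hx)⟩, htN,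
    fun x hx xs x1 η hη => ?_⟩
  obtain ⟨z, zN, zs, z1, hz⟩ := cexp hN hc hx xs x1
  obtain ⟨y, y0, ys, y1, y2⟩ := R.kap (A := A) (M := N0.commutant) (ξ := ξ)
    (fun T hT w hw => VonNeumannAlgebra.mem_commutant_iff.1 hw T
      ((m0 T).2 fun u hu => (hT u (up u hu)).symm)) htN
    zN zs z1 (show 0 < η / 3 by positivity)
  refine ⟨y, y0, x - z, sub_mem hx (hN z zN), ys, xs.sub zs, y1,
    (norm_sub_le _ _).trans (by linarith), fun b hb => hz b (R.nsp_le (A := A)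
      (Submodule.span_mono (fun u hu => up u hu) hb)), ?_⟩
  rw [show x - y - (x - z) = z - y by abel]
  linarith

theorem tb_pin (hA : IsMasa A M) (ht : CV A M ξ) {r : ℕ} {p : Fin r → H →L[ℂ] H}
    (pp : IsPartition A p) {T : H →L[ℂ] H} {c η : ℝ} (h : Tb M ξ T c η) :
    Tb M ξ (pin p T) c η := by
  obtain ⟨W, a1, a2, a3, a4, a5⟩ := h
  refine ⟨R.pin p W, pin_mem hA pp a1, pin_nonneg pp a2, by rwa [pin_tr hA ht pp a1], ?_, ?_⟩
  · rw [← pin_one pp, ← pin_add]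
    exact pin_mono pp a4
  · rw [← pin_one pp, ← pin_add, ← pin_neg]
    exact pin_mono pp a5

theorem oneN (hA : IsMasa A M) (ht : NCV A M ξ) {m : ℕ} (hm : 2 ≤ m) {η : ℝ}
    (hη : 0 < η) {x : H →L[ℂ] H} (hx : x ∈ M) (hs : IsSelfAdjoint x) (hn : ‖x‖ ≤ 1) {θ : ℝ}
    (hθ : 0 < θ) : ∃ p : Fin (3 * m ^ 2 * m ^ 2) → H →L[ℂ] H, IsPartition A p ∧ ∃ a ∈ A,
      IsSelfAdjoint a ∧ ‖a‖ ≤ 1 ∧ ∃ q ∈ M, IsStarProjection q ∧ ‖(1 - q) ξ‖ ≤ θ ∧
        ‖q * (pin p x - a) * q‖ ≤ 22 / m + 2 * η := by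
  have hc := NCV.cv hA ht
  obtain ⟨N, hN, hAN, htN, h⟩ := eb hA ht
  obtain ⟨x0, x1, Y, YM, x2, Y2, x3, Y3, Y4, x4⟩ := h x hx hs hn _
    (show 0 < η * θ / 2 by positivity)
  obtain ⟨a, aA, as, an, y, y1, y2, y3, y4, e⟩ := F4.half hAN htN x1 x2 x3
  obtain ⟨z, hz⟩ : ∃ z, z = (2⁻¹ : ℂ) • Y := ⟨_, rfl⟩
  have z1 : z ∈ M := hz ▸ vn_smul_mem _ YM
  have z2 : IsSelfAdjoint z := by
    rw [hz]
    simp [IsSelfAdjoint, Y2.star_eq]
  have z3 : ‖z‖ ≤ 1 := by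
    rw [hz, norm_smul, norm_inv, Complex.norm_ofNat]
    linarith
  have p0 : 0 < η * θ ^ 2 * (3 / 16) := by positivity
  obtain ⟨p, pp, w, wN, w0, w1, w2, w3⟩ := core2 (show 1 ≤ m by omega) H A N ξ hAN htN y y1 y2 y3
    y4 _ p0
  have b1 : Tb M ξ (pin p y) (6 / m) (η * θ ^ 2 * (3 / 16)) := ⟨w, hN w wN, w0, w1, w2, w3⟩
  obtain ⟨p', pp', b2⟩ := wpave hA hc hm z1 z2 z3 (wm hA hc
    (fun b hb x hx => (NCV.nsp ht hb x hx).symm) z1 fun b hb => by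
      rw [hz, smul_apply, inner_smul_right, Y4 b hb, mul_zero]) p0
  obtain ⟨P, PP, P1, P2⟩ := prod_part hA pp pp'
  obtain ⟨d, hd⟩ : ∃ d, d = x - x0 - Y := ⟨_, rfl⟩
  have dM : d ∈ M := hd ▸ sub_mem (sub_mem hx (hN _ (nsp_le x1))) YM
  have ds : IsSelfAdjoint d := hd ▸ (hs.sub x2).sub Y2
  have e0 : 1 * (pin P x - a) * 1 = pin P y + pin P y + (pin P z + pin P z) + pin P d := by
    have : x = y + y + (z + z) + d + a := by rw [hd, e, hz]; module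
    rw [one_mul, mul_one, this, pin_add, pin_add, pin_add, pin_add, pin_add,
      pin_fix PP fun i => hA.2.1 _ (PP.1 i).1 _ aA, add_sub_cancel_right]
  have c1 : Tb M ξ (pin P y) _ _ := P1 y ▸ tb_pin hA hc pp' b1
  have c2 : Tb M ξ (pin P z) _ _ := P2 z ▸ tb_pin hA hc pp b2
  have c3 : Tb M ξ (pin P d) η (η * θ ^ 2 / 4) := tb_pin hA hc PP (Tb.sq dM ds hη (by
    have : ‖d ξ‖ ^ 2 ≤ (η * θ / 2) ^ 2 := by
      rw [hd]
      exact pow_le_pow_left₀ (norm_nonneg _) x4 2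
    rw [inv_mul_le_iff₀ hη]
    nlinarith))
  have c4 := ((c1.add c1).add (c2.add c2)).add c3
  rw [← e0, show ∀ t : ℝ, t * (3 / 16) + t * (3 / 16) + (t * (3 / 16) + t * (3 / 16)) + t / 4 = t
    from fun t => by ring] at c4
  obtain ⟨q, qM, q1, -, q2, q3⟩ := cutg (one_mem M) (.one _) (fun y hy => by simp)
    ((pin_sa PP hs).sub as) (by positivity) hη hθ c4
  exact ⟨P, PP, a, aA, as, an, q, qM, q1, q2, q3.trans (le_of_eq (by ring))⟩

theorem central (hA : IsMasa A M) (ht : NCV A M ξ) {ε : ℝ} (e0 : 0 < ε) (e1 : ε < 1) :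
    ∃ r : ℕ, 1 ≤ r ∧ (r : ℝ) ≤ 3 * 45 ^ 4 / ε ^ 4 ∧
      ∀ x ∈ M, IsSelfAdjoint x → SoPavable A M x ε r := by
  have m0 : 1 ≤ 1 / ε := by rw [le_div_iff₀ e0]; linarith
  obtain ⟨m, hm⟩ : ∃ m, m = ⌈44 / ε⌉₊ := ⟨_, rfl⟩
  have m1 : 44 / ε ≤ m := hm ▸ Nat.le_ceil _
  have m2 : (m : ℝ) < 44 / ε + 1 := hm ▸ Nat.ceil_lt_add_one (by positivity)
  have m3 : 44 ≤ 44 / ε := by rw [le_div_iff₀ e0]; linarith
  have m4 : 2 ≤ m := by exact_mod_cast (show (2 : ℝ) ≤ m by linarith)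
  have m5 : (m : ℝ) ≤ 45 / ε := by
    rw [show 45 / ε = 44 / ε + 1 / ε by ring]
    linarith
  have m6 : 22 / (m : ℝ) ≤ ε / 2 := by
    rw [div_le_iff₀ (by linarith)]
    rw [div_le_iff₀ e0] at m1
    linarith
  have η0 : 0 < ε / 4 := by positivity
  refine ⟨3 * m ^ 2 * m ^ 2, Nat.one_le_iff_ne_zero.2 (by positivity), ?_,
    tail fun x hx hs hn F δ d0 => ?_⟩
  · have a1 := pow_le_pow_left₀ (by positivity) m5 4
    rw [div_pow] at a1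
    rw [mul_div_assoc]
    push_cast
    linarith
  obtain ⟨θ, t0, hθ⟩ := sepF ht.2.2 F d0
  obtain ⟨p, pp, a, aA, as, an, q, qM, q1, q2, q3⟩ := oneN hA ht m4 η0 hx hs hn t0
  exact ⟨p, pp, a, aA, as, an, q, qM, q1, hθ _ (sub_mem (one_mem _) qM) q1.one_sub.norm_le q2,
    q3.trans (by linarith)⟩

end NT

end Vale.Agent.P078
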