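import Vale.Agent.P078.N3

/-! A Radon-Nikodym lemma for an abelian von Neumann algebra. -/

namespace Vale.Agent.P078

open scoped InnerProductSpace InnerProduct ComplexConjugate ComplexOrder
open Vale.Agent.P104 Vale.Agent.P082 ContinuousLinearMap Finset Filter Topology

universe u

variable {H : Type u} [NormedAddCommGroup H] [InnerProductSpace ℂ H] [CompleteSpace H]
  {A M : VonNeumannAlgebra H} {η ζ : H}

namespace NT

open R F2 FN

/-- The derivative of the energy. -/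
noncomputable def LL (s : H →L[ℂ] H) (η ζ : H) (d : H →L[ℂ] H) : ℝ :=
  (⟪(1 + s) ζ, d ζ⟫_ℂ).re - (⟪(1 - s) η, d η⟫_ℂ).re

theorem exmin (A : VonNeumannAlgebra H) (η ζ : H) : ∃ s ∈ A, IsSelfAdjoint s ∧ ‖s‖ ≤ 1 ∧
    ∀ g ∈ A, IsSelfAdjoint g → ‖g‖ ≤ 1 → 0 ≤ LL s η ζ (g - s) := by
  let F : (H →L[ℂ] H) → ℝ := fun s => ‖(1 - s) η‖ ^ 2 + ‖(1 + s) ζ‖ ^ 2
  let K : Set (H →L[ℂ] H) := {s | s ∈ A ∧ IsSelfAdjoint s ∧ ‖s‖ ≤ 1}
  have hne : (F '' K).Nonempty := Set.Nonempty.image _ ⟨0, zero_mem _, .zero _, by simp⟩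
  have hbd : BddBelow (F '' K) := ⟨0, by rintro _ ⟨z, -, rfl⟩; positivity⟩
  obtain ⟨r, -, hr, hrK⟩ := exists_seq_tendsto_sInf hne hbd
  have hm : ∀ z ∈ K, sInf (F '' K) ≤ F z := fun z hz => csInf_le hbd ⟨z, hz, rfl⟩
  generalize sInf (F '' K) = m at hr hm
  choose v hv hvr using hrK
  let v' : ℕ → Alg A := fun n => ⟨v n, (hv n).1⟩
  have hb : ∀ n, ‖v' n‖ ≤ 1 := fun n => (hv n).2.2
  obtain ⟨w, hw⟩ : ∃ w, w = wlim (hyperfilter ℕ) v' := ⟨_, rfl⟩
  have hs : ∀ x y, Tendsto (fun n => ⟪y, v n x⟫_ℂ) (hyperfilter ℕ) (𝓝 ⟪y, w.1 x⟫_ℂ) :=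
    fun x y => hw ▸ wlim_spec hb x y
  have w1 : ‖w.1‖ ≤ 1 := hw ▸ wlim_norm_le hb
  have ws : IsSelfAdjoint w.1 := by
    refine ContinuousLinearMap.ext fun x => ext_inner_left ℂ fun y => ?_
    rw [inner_star_right, ← inner_conj_symm]
    refine tendsto_nhds_unique ((Complex.continuous_conj.tendsto _).comp (hs y x))
      ((hs x y).congr fun n => ?_)
    simp only [Function.comp_apply, inner_conj_symm]
    rw [← inner_star_right, (hv n).2.1.star_eq]
  have wm : F w.1 ≤ m := by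
    have h1 : Tendsto (fun n => (⟪(1 - w.1) η, (1 - v n) η⟫_ℂ + ⟪(1 + w.1) ζ, (1 + v n) ζ⟫_ℂ).re)
        (hyperfilter ℕ) (𝓝 (⟪(1 - w.1) η, (1 - w.1) η⟫_ℂ + ⟪(1 + w.1) ζ, (1 + w.1) ζ⟫_ℂ).re) := by
      refine (Complex.continuous_re.tendsto _).comp (Tendsto.add ?_ ?_)
      · have k : ∀ (y : H) (T : H →L[ℂ] H), ⟪y, (1 - T) η⟫_ℂ = ⟪y, η⟫_ℂ - ⟪y, T η⟫_ℂ :=
          fun y T => by rw [sub_apply, inner_sub_right, one_apply_eq_self]
        simp only [k]
        exact tendsto_const_nhds.sub (hs _ _)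
      · have k : ∀ (y : H) (T : H →L[ℂ] H), ⟪y, (1 + T) ζ⟫_ℂ = ⟪y, ζ⟫_ℂ + ⟪y, T ζ⟫_ℂ :=
          fun y T => by rw [add_apply, inner_add_right, one_apply_eq_self]
        simp only [k]
        exact tendsto_const_nhds.add (hs _ _)
    have h2 : Tendsto (fun n => (F w.1 + r n) / 2) (hyperfilter ℕ) (𝓝 ((F w.1 + m) / 2)) :=
      ((hr.mono_left Nat.hyperfilter_le_atTop).const_add _).div_const _
    have k : ∀ x y : H, (⟪x, y⟫_ℂ).re ≤ (‖x‖ ^ 2 + ‖y‖ ^ 2) / 2 := fun x y => by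
      have := (Complex.re_le_norm _).trans (norm_inner_le_norm (𝕜 := ℂ) x y)
      nlinarith [sq_nonneg (‖x‖ - ‖y‖)]
    have h3 := le_of_tendsto_of_tendsto' h1 h2 fun n => by
      rw [← hvr n, Complex.add_re]
      simp only [F]
      linarith [k ((1 - w.1) η) ((1 - v n) η), k ((1 + w.1) ζ) ((1 + v n) ζ)]
    have e : ∀ x : H, (⟪x, x⟫_ℂ).re = ‖x‖ ^ 2 := fun x => inner_self_eq_norm_sq (𝕜 := ℂ) x
    rw [Complex.add_re, e, e] at h3
    simp only [F] at h3 ⊢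
    linarith
  refine ⟨w.1, w.2, ws, w1, fun g gA gs g1 => ?_⟩
  obtain ⟨d, hd⟩ : ∃ d, d = g - w.1 := ⟨_, rfl⟩
  rw [← hd]
  have k : ∀ τ : ℝ, 0 < τ → τ ≤ 1 → 0 ≤ 2 * LL w.1 η ζ d + τ * (‖d η‖ ^ 2 + ‖d ζ‖ ^ 2) :=
    fun τ t0 t1 => by
    have m1 : w.1 + (τ : ℂ) • d ∈ K := by
      refine ⟨add_mem w.2 (vn_smul_mem _ (hd ▸ sub_mem gA w.2)), ws.add
        ((show IsSelfAdjoint (τ : ℂ) from Complex.conj_ofReal _).smul (hd ▸ gs.sub ws)), ?_⟩
      rw [show w.1 + (τ : ℂ) • d = ((1 - τ : ℝ) : ℂ) • w.1 + (τ : ℂ) • g by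
        rw [hd]; push_cast; module]
      refine (norm_add_le _ _).trans ?_
      rw [norm_smul, norm_smul, Complex.norm_real, Complex.norm_real,
        Real.norm_of_nonneg (by linarith), Real.norm_of_nonneg t0.le]
      nlinarith
    have := wm.trans (hm _ m1)
    simp only [F] at this
    rw [show (1 - (w.1 + (τ : ℂ) • d)) η = (1 - w.1) η - (τ : ℂ) • d η by simp [sub_sub],
      show (1 + (w.1 + (τ : ℂ) • d)) ζ = (1 + w.1) ζ + (τ : ℂ) • d ζ by simp [add_assoc],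
      @norm_sub_sq ℂ, @norm_add_sq ℂ, inner_smul_right, inner_smul_right, norm_smul, norm_smul,
      Complex.norm_real, Real.norm_of_nonneg t0.le] at this
    simp only [RCLike.re_to_complex, Complex.re_ofReal_mul] at this
    refine le_of_mul_le_mul_left (a := τ) ?_ t0
    unfold LL
    nlinarith
  by_contra h
  obtain ⟨B, hB⟩ : ∃ B, B = ‖d η‖ ^ 2 + ‖d ζ‖ ^ 2 := ⟨_, rfl⟩
  have B0 : 0 ≤ B := by rw [hB]; positivity
  rw [← hB] at k
  have l0 : 0 < -LL w.1 η ζ d := by linarith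
  have := k (min 1 (-LL w.1 η ζ d / (B + 1))) (lt_min one_pos (by positivity)) (min_le_left _ _)
  have a1 := mul_le_mul_of_nonneg_right (min_le_right 1 (-LL w.1 η ζ d / (B + 1))) B0
  have a2 : -LL w.1 η ζ d / (B + 1) * B ≤ -LL w.1 η ζ d := by
    rw [div_mul_eq_mul_div, div_le_iff₀ (by positivity)]
    nlinarith
  linarith

theorem side (hA : IsMasa A M) {s : H →L[ℂ] H} (sA : s ∈ A) (ss : IsSelfAdjoint s) (s1 : ‖s‖ ≤ 1)
    (h : ∀ g ∈ A, IsSelfAdjoint g → ‖g‖ ≤ 1 → 0 ≤ LL s η ζ (g - s)) {t : ℝ} (t0 : 0 < t)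
    (t1 : t ≤ 1) : ∃ e ∈ A, IsStarProjection e ∧ 0 ≤ e * (1 + s - (t : ℂ) • 1) * e ∧
      ‖(1 - e) η‖ ^ 2 ≤ t * ‖ζ‖ ^ 2 := by
  have o := one_mem A
  have ts : IsSelfAdjoint ((t : ℂ) • (1 : H →L[ℂ] H)) :=
    (show IsSelfAdjoint (t : ℂ) from Complex.conj_ofReal _).smul (.one _)
  obtain ⟨e, eA, pe, -, e1, e2⟩ := spec H A (1 + s - (t : ℂ) • 1)
    (sub_mem (add_mem o sA) (vn_smul_mem _ o)) (((IsSelfAdjoint.one _).add ss).sub ts)
  refine ⟨e, eA, pe, e1, ?_⟩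
  obtain ⟨p, hp⟩ : ∃ p, p = 1 - e := ⟨_, rfl⟩
  rw [← hp] at e2 ⊢
  have pA : p ∈ A := hp ▸ sub_mem o eA
  have pp : IsStarProjection p := hp ▸ pe.one_sub
  have p2 := pp.isIdempotentElem.eq
  have c : s * p = p * s := hA.2.1 _ sA _ pA
  have c' : p * s * p = s * p := by rw [← c, mul_assoc, p2]
  have e3 : p + s * p ≤ (t : ℂ) • p := by
    simpa only [mul_sub, sub_mul, mul_add, add_mul, mul_one, p2, c', mul_smul_comm, smul_mul_assoc,
      sub_nonpos] using e2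
  have e4 : (t : ℂ) • p ≤ p := by
    have := smul_nn (sub_nonneg.2 t1) pp.nonneg
    rwa [Complex.ofReal_sub, Complex.ofReal_one, sub_smul, one_smul, sub_nonneg] at this
  have e5 : 0 ≤ -(s * p) := by
    have := e3.trans e4
    rwa [add_le_iff_nonpos_right, ← neg_nonneg] at this
  have a1 : s ≤ 1 := by simpa using le_nrm ss s1
  have a2 : -s ≤ 1 := by simpa using le_nrm (c := 1) ss.neg (by rwa [norm_neg])
  have g1 : s + p ≤ 1 := by
    have := add_nonneg (pp.one_sub.isSelfAdjoint.conjugate_nonneg (sub_nonneg.2 a1)) e5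
    rw [← sub_nonneg]
    convert this using 1
    simp only [mul_sub, sub_mul, mul_one, one_mul, p2, c', ← c, mul_assoc]
    abel
  have := h (s + p) (add_mem sA pA) (ss.add pp.isSelfAdjoint) (norm_le_of_le
    (ss.add pp.isSelfAdjoint) zero_le_one (by simpa using g1) (by
      rw [neg_add]
      simpa using (add_le_of_nonpos_right (neg_nonpos.2 pp.nonneg)).trans a2))
  rw [add_sub_cancel_left, LL, ← inner_star_right, ← inner_star_right, star_add, star_sub, star_one,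
    ss.star_eq, ← mul_apply_eq_comp, ← mul_apply_eq_comp] at this
  have b1 := re_nonneg (ξ := ζ) (sub_nonneg.2 e3)
  have b2 := re_nonneg (ξ := η) e5
  have b3 := proj_inner pp ζ
  have b4 := proj_inner pp η
  have b5 : ‖p ζ‖ ^ 2 ≤ ‖ζ‖ ^ 2 := pow_le_pow_left₀ (norm_nonneg _)
    ((p.le_opNorm ζ).trans (mul_le_of_le_one_left (norm_nonneg _) pp.norm_le)) 2
  simp only [add_mul, sub_mul, one_mul, sub_apply, add_apply, neg_apply, smul_apply,
    inner_sub_right, inner_add_right, inner_neg_right, inner_smul_right, Complex.sub_re,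
    Complex.add_re, Complex.neg_re, Complex.re_ofReal_mul] at this b1 b2
  nlinarith

theorem flat (hA : IsMasa A M) {s : H →L[ℂ] H} (sA : s ∈ A) (ss : IsSelfAdjoint s) (s1 : ‖s‖ ≤ 1)
    (h : ∀ g ∈ A, IsSelfAdjoint g → ‖g‖ ≤ 1 → 0 ≤ LL s η ζ (g - s)) {b : H →L[ℂ] H} (bA : b ∈ A)
    (bs : IsSelfAdjoint b) : LL s η ζ ((1 + s) * (1 - s) * b) = 0 := by
  have o := one_mem A
  have a1 : 0 ≤ 1 - s := sub_nonneg.2 (by simpa using le_nrm ss s1)
  have a2 : 0 ≤ 1 + s := by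
    have : -s ≤ 1 := by simpa using le_nrm (c := 1) ss.neg (by rwa [norm_neg])
    rwa [← sub_nonneg, sub_neg_eq_add] at this
  have PA := add_mem o sA
  have QA := sub_mem o sA
  have lin : ∀ (c : ℝ) d, LL s η ζ ((c : ℂ) • d) = c * LL s η ζ d := fun c d => by
    simp only [LL, smul_apply, inner_smul_right, Complex.re_ofReal_mul]
    ring
  have k : ∀ b ∈ A, IsSelfAdjoint b → ‖b‖ ≤ 1 / 2 → 0 ≤ LL s η ζ ((1 + s) * (1 - s) * b) :=
    fun b bA bs b1 => by
    have n : ∀ X ∈ A, 0 ≤ X → ‖X‖ ≤ 2 → 0 ≤ 1 - X * b ∧ 0 ≤ 1 + X * b := fun X XA X0 X2 => by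
      have xs : IsSelfAdjoint (X * b) := by
        rw [IsSelfAdjoint, star_mul, bs.star_eq, X0.isSelfAdjoint.star_eq, hA.2.1 _ bA _ XA]
      have xn : ‖X * b‖ ≤ 1 := (norm_mul_le _ _).trans (by nlinarith [norm_nonneg X, norm_nonneg b])
      refine ⟨sub_nonneg.2 (by simpa using le_nrm xs xn), ?_⟩
      have : -(X * b) ≤ 1 := by simpa using le_nrm (c := 1) xs.neg (by rwa [norm_neg])
      rwa [← sub_nonneg, sub_neg_eq_add] at this
    have n1 : ‖(1 : H →L[ℂ] H)‖ ≤ 1 := ContinuousLinearMap.norm_id_le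
    have u1 := Commute.mul_nonneg a1 (n _ PA a2 ((norm_add_le _ _).trans (by linarith))).1
      (hA.2.1 _ QA _ (sub_mem o (mul_mem PA bA)))
    have u2 := Commute.mul_nonneg a2 (n _ QA a1 ((norm_sub_le _ _).trans (by linarith))).2
      (hA.2.1 _ PA _ (add_mem o (mul_mem QA bA)))
    have gs : IsSelfAdjoint (s + (1 + s) * (1 - s) * b) := by
      have := u2.isSelfAdjoint.sub (.one _)
      rwa [show (1 + s) * (1 + (1 - s) * b) - 1 = s + (1 + s) * (1 - s) * b by noncomm_ring] at this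
    have := h (s + (1 + s) * (1 - s) * b) (add_mem sA (mul_mem (mul_mem PA QA) bA)) gs
      (norm_le_of_le gs zero_le_one (by
        rw [Complex.ofReal_one, one_smul, ← sub_nonneg]
        convert u1 using 1
        noncomm_ring) (by
        rw [Complex.ofReal_one, one_smul, ← sub_nonneg]
        convert u2 using 1
        noncomm_ring))
    rwa [add_sub_cancel_left] at this
  have p : 0 < (2 * (‖b‖ + 1))⁻¹ := by positivity
  have nb : ∀ c : ℝ, |c| = (2 * (‖b‖ + 1))⁻¹ → 0 ≤ c * LL s η ζ ((1 + s) * (1 - s) * b) :=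
    fun c hc => by
    rw [← lin, ← mul_smul_comm]
    refine k _ (vn_smul_mem _ bA)
      ((show IsSelfAdjoint (c : ℂ) from Complex.conj_ofReal _).smul bs) ?_
    rw [norm_smul, Complex.norm_real, Real.norm_eq_abs, hc, inv_mul_le_iff₀ (by positivity)]
    linarith
  have c1 := nb _ (abs_of_pos p)
  have c2 := nb (-(2 * (‖b‖ + 1))⁻¹) (by rw [abs_neg, abs_of_pos p])
  exact (mul_eq_zero.1 (le_antisymm (by linarith) c1)).resolve_left p.ne'

theorem rn (hA : IsMasa A M) (hη : ∀ a ∈ A, a η = 0 → a = 0) (ζ : H) {κ : ℝ} (k0 : 0 < κ) :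
    ∃ e ∈ A, IsStarProjection e ∧ ‖(1 - e) ζ‖ ≤ κ ∧ ∃ k ∈ A, ∃ k' ∈ A, k * k' = e ∧
      IsSelfAdjoint k ∧ ∀ a ∈ A, IsSelfAdjoint a → e * a = a →
        (⟪ζ, (k * a * k) ζ⟫_ℂ).re = (⟪η, a η⟫_ℂ).re := by
  obtain ⟨s, sA, ss, s1, h⟩ := exmin A η ζ
  obtain ⟨δ, d0, hδ⟩ := P132.strong_of_sep hη ζ 1 (κ / 2) (half_pos k0)
  obtain ⟨t, ht⟩ : ∃ t, t = min 1 (min (δ ^ 2 / (‖ζ‖ ^ 2 + 1)) ((κ / 2) ^ 2 / (‖η‖ ^ 2 + 1))) :=
    ⟨_, rfl⟩
  have t0 : 0 < t := ht ▸ lt_min one_pos (lt_min (by positivity) (by positivity))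
  have t1 : t ≤ 1 := ht ▸ min_le_left _ _
  have t2 : t * (‖ζ‖ ^ 2 + 1) ≤ δ ^ 2 := (le_div_iff₀ (by positivity)).1
    (ht ▸ (min_le_right _ _).trans (min_le_left _ _))
  have t3 : t * (‖η‖ ^ 2 + 1) ≤ (κ / 2) ^ 2 := (le_div_iff₀ (by positivity)).1
    (ht ▸ (min_le_right _ _).trans (min_le_right _ _))
  obtain ⟨e, eA, pe, e1, e2⟩ := side hA sA ss s1 h t0 t1
  obtain ⟨f, fA, pf, f1, f2⟩ := side (η := ζ) (ζ := η) hA (neg_mem sA) ss.neg (by rwa [norm_neg])
    (fun g gA gs g1 => by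
      have := h (-g) (neg_mem gA) gs.neg (by rwa [norm_neg])
      rw [show -g - s = -(g - -s) by abel] at this
      simp only [LL, neg_apply, inner_neg_right, Complex.neg_re, sub_neg_eq_add,
        ← sub_eq_add_neg] at this ⊢
      linarith) t0 t1
  have o := one_mem A
  have m1 := mul_mem (mul_mem eA (sub_mem (add_mem o sA) (vn_smul_mem (t : ℂ) o))) eA
  have m2 := mul_mem (mul_mem fA (sub_mem (add_mem o (neg_mem sA)) (vn_smul_mem (t : ℂ) o))) fA
  obtain ⟨α, α', as, as', α1, α2, -, -⟩ := exists_sqrt_inv (a := (⟨_, m1⟩ : Alg A)) e1 t0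
  obtain ⟨β, β', bs, bs', β1, β2, -, -⟩ := exists_sqrt_inv (a := (⟨_, m2⟩ : Alg A)) f1 t0
  have n1 : ‖(1 - e) ζ‖ ≤ κ / 2 := hδ _ (sub_mem o eA) pe.one_sub.norm_le
    (le_of_sq_le d0.le (by nlinarith))
  have n2 : ‖(1 - f) ζ‖ ≤ κ / 2 := le_of_sq_le (by positivity) (by nlinarith)
  letI : CommRing (Alg A) := { (inferInstance : Ring (Alg A)) with
    mul_comm := fun a b => Subtype.ext (hA.2.1 _ a.2 _ b.2) }
  let E : Alg A := ⟨e, eA⟩
  let G : Alg A := ⟨f, fA⟩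
  let S : Alg A := ⟨s, sA⟩
  have EE : E * E = E := Subtype.ext pe.isIdempotentElem.eq
  have GG : G * G = G := Subtype.ext pf.isIdempotentElem.eq
  obtain ⟨T, hT⟩ : ∃ T : Alg A, T = t • 1 := ⟨_, rfl⟩
  have α3 : α * α = E * (1 + S - T) * E + T := by rw [α1, hT]; rfl
  have β3 : β * β = G * (1 + -S - T) * G + T := by rw [β1, hT]; rfl
  have α4 : E * (α * α) = E * (1 + S) := by rw [α3]; linear_combination (1 + S - T) * (E + 1) * EE
  have β4 : G * (β * β) = G * (1 - S) := by rw [β3]; linear_combination (1 - S - T) * (G + 1) * GG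
  have sa : ∀ x y : Alg A, star x = x → star y = y → star (x * y) = x * y := fun x y h1 h2 => by
    rw [star_mul, h1, h2, mul_comm]
  have Es : star E = E := Subtype.ext pe.isSelfAdjoint.star_eq
  have Gs : star G = G := Subtype.ext pf.isSelfAdjoint.star_eq
  refine ⟨e * f, mul_mem eA fA, hA.proj_mul eA fA pe pf, ?_, (E * G * α * β').1, Subtype.prop _,
    (E * G * α' * β).1, Subtype.prop _, congrArg Subtype.val (show
      E * G * α * β' * (E * G * α' * β) = E * G by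
        linear_combination (G * G * α * α' * β * β') * EE + (E * α * α' * β * β') * GG +
          E * G * (β * β') * α2 + E * G * β2),
    congrArg Subtype.val (sa _ _ (sa _ _ (sa _ _ Es Gs) as) bs'), fun a aA as'' ea => ?_⟩
  · rw [show (1 - e * f) ζ = (1 - e) ζ + e ((1 - f) ζ) by simp]
    have := (e.le_opNorm ((1 - f) ζ)).trans (mul_le_of_le_one_left (norm_nonneg _) pe.norm_le)
    linarith [norm_add_le ((1 - e) ζ) (e ((1 - f) ζ))]
  let X : Alg A := ⟨a, aA⟩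
  have EX : E * G * X = X := Subtype.ext ea
  have EX1 : E * X = X := by linear_combination (E - 1) * (-EX) + G * X * EE
  have GX1 : G * X = X := by linear_combination (G - 1) * (-EX) + E * X * GG
  have Xs : star X = X := Subtype.ext as''.star_eq
  have z := flat hA sA ss s1 h (b := (α' * α' * (β' * β') * (β' * β' * X)).1) (Subtype.prop _)
    (congrArg Subtype.val (sa _ _ (sa _ _ (sa _ _ as' as') (sa _ _ bs' bs'))
      (sa _ _ (sa _ _ bs' bs') Xs)))
  have P1 : (1 + S) * X = α * α * X := by linear_combination (α * α - (1 + S)) * EX1 - X * α4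
  have Q1 : (1 - S) * X = β * β * X := by linear_combination (β * β - (1 - S)) * GX1 - X * β4
  have y1 : (1 + S) * (1 - S) * (α' * α' * (β' * β') * (β' * β' * X)) = β' * β' * X := by
    linear_combination ((1 + S) * (α' * α' * (β' * β') * (β' * β'))) * Q1 +
      (β * β * (α' * α' * (β' * β') * (β' * β'))) * P1 +
      (β * β * (β' * β') * (β' * β') * X * (α * α' + 1)) * α2 +
      (β' * β' * X * (β * β' + 1)) * β2
  have y2 : (1 + S) * (β' * β' * X) = E * G * α * β' * X * (E * G * α * β') := by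
    linear_combination (β' * β') * P1 - (α * α * β' * β' * (E * G + 1)) * EX
  have y3 : (1 - S) * (β' * β' * X) = X := by
    linear_combination (β' * β') * Q1 + (X * (β * β' + 1)) * β2
  have y1' : (1 + s) * (1 - s) * (α' * α' * (β' * β') * (β' * β' * X)).1 = (β' * β' * X).1 :=
    congrArg Subtype.val y1
  have y2' : (1 + s) * (β' * β' * X).1 = (E * G * α * β').1 * a * (E * G * α * β').1 :=
    congrArg Subtype.val y2
  have y3' : (1 - s) * (β' * β' * X).1 = a := congrArg Subtype.val y3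
  rw [y1', LL, ← inner_star_right, ← inner_star_right, star_add, star_sub, star_one,
    ss.star_eq, ← mul_apply_eq_comp, ← mul_apply_eq_comp, y2', y3'] at z
  linarith

end NT

end Vale.Agent.P078
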