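import Vale.Agent.P078.N4
import Vale.Agent.P078.N5
import Vale.Agent.P078.DefsInv

/-! Paving when the normalizer preserves a faithful normal state. -/

namespace Vale.Agent.P078

open scoped InnerProductSpace InnerProduct ComplexConjugate ComplexOrder
open Vale.Agent.P104 Vale.Agent.P082 ContinuousLinearMap Finset Filter Topology

universe u

variable {H : Type u} [NormedAddCommGroup H] [InnerProductSpace ℂ H] [CompleteSpace H]
  {A M : VonNeumannAlgebra H} {ξ : H}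

namespace NT

open R F2 FN

theorem ext_sa {ξ' : H} (h : ∀ x ∈ M, IsSelfAdjoint x → ‖x‖ ≤ 1 →
    (⟪ξ, x ξ⟫_ℂ).re = (⟪ξ', x ξ'⟫_ℂ).re) : ∀ x ∈ M, ⟪ξ, x ξ⟫_ℂ = ⟪ξ', x ξ'⟫_ℂ := by
  have k : ∀ x ∈ M, IsSelfAdjoint x → (⟪ξ, x ξ⟫_ℂ).re = (⟪ξ', x ξ'⟫_ℂ).re := fun z hz zs => by
    have p : 0 < ‖z‖ + 1 := by positivity
    have := h _ (vn_smul_mem (((‖z‖ + 1)⁻¹ : ℝ) : ℂ) hz)
      ((show IsSelfAdjoint (((‖z‖ + 1)⁻¹ : ℝ) : ℂ) from Complex.conj_ofReal _).smul zs) (by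
        rw [norm_smul, Complex.norm_real, Real.norm_of_nonneg (by positivity),
          inv_mul_le_iff₀ p]
        linarith)
    simp only [smul_apply, inner_smul_right, Complex.re_ofReal_mul] at this
    exact mul_left_cancel₀ (inv_pos.2 p).ne' this
  have s : ∀ (v : H) (x : H →L[ℂ] H), (⟪v, star x v⟫_ℂ).re = (⟪v, x v⟫_ℂ).re := fun v x => by
    rw [inner_star_right, ← inner_conj_symm, Complex.conj_re]
  have r : ∀ x ∈ M, (⟪ξ, x ξ⟫_ℂ).re = (⟪ξ', x ξ'⟫_ℂ).re := fun x hx => by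
    have := k _ (add_mem hx (star_mem hx)) (by simp [IsSelfAdjoint, add_comm])
    simp only [add_apply, inner_add_right, Complex.add_re, s] at this
    linarith
  intro x hx
  have := r _ (vn_smul_mem Complex.I hx)
  simp only [smul_apply, inner_smul_right, Complex.I_mul_re, neg_inj] at this
  exact Complex.ext (r x hx) this

theorem inv_cen (hA : IsMasa A M) (ht : CV A M ξ) {u : H →L[ℂ] H} (hu : Normalizes A M u)
    (h : ∀ a ∈ A, IsSelfAdjoint a → (⟪ξ, (star u * a * u) ξ⟫_ℂ).re = (⟪ξ, a ξ⟫_ℂ).re) :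
    ∀ y ∈ M, ⟪ξ, (u * y) ξ⟫_ℂ = ⟪ξ, (y * u) ξ⟫_ℂ := by
  have u1 := hu.2.1.1
  have u2 := hu.2.1.2
  have k : ∀ x : H →L[ℂ] H, ⟪u ξ, x (u ξ)⟫_ℂ = ⟪ξ, (star u * x * u) ξ⟫_ℂ := fun x => by
    rw [← inner_star_right]
    rfl
  have m : ∀ x y : H →L[ℂ] H, star u * (x * y) * u = star u * x * u * (star u * y * u) :=
    fun x y => by
      calc star u * (x * y) * u = star u * x * (u * star u) * y * u := by
            rw [u2, mul_one]; simp only [mul_assoc]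
        _ = _ := by simp only [mul_assoc]
  have n1 : ‖u ξ‖ = 1 := by
    rw [← sq_eq_sq₀ (norm_nonneg _) zero_le_one, norm_sq_apply, u1, one_apply_eq_self, one_pow,
      ← one_pow 2, ← ht.1]
    exact inner_self_eq_norm_sq (𝕜 := ℂ) ξ
  have ht' : CV A M (u ξ) := ⟨n1, fun a ha x hx => by
    rw [k, k, m, m, ht.l (hu.2.2.2 a ha) (mul_mem (mul_mem (star_mem hu.1) hx) hu.1)],
    fun x hx e => by
      have := ht.2.2 _ (mul_mem hx hu.1) e
      rw [← mul_one x, ← u2, ← mul_assoc, this, zero_mul]⟩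
  have key := ext_sa (M := M) (ξ := u ξ) (ξ' := ξ) fun x hx xs x1 => by
    obtain ⟨a, aA, as, an, y, yM, -, -, y4, e⟩ := half hA ht hx xs x1
    have hE : IsE A ξ x a := ⟨aA, fun b hb => by
      rw [e, mul_add, mul_add, add_apply, add_apply, inner_add_right, inner_add_right, y4 b hb]
      simp⟩
    have e1 := hE.2 1 (one_mem _)
    rw [one_mul, one_mul] at e1
    have e2 := h a aA as
    rw [← k] at e2
    rw [← e1, ← e2, ← sub_eq_zero, ← Complex.sub_re, ← inner_sub_right, ← sub_apply,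
      ← abs_nonpos_iff]
    refine le_of_forall_pos_le_add fun ε hε => ?_
    obtain ⟨θ, t0, hθ⟩ := P132.strong_of_sep ht.2.2 (u ξ) ‖x - a‖ ε hε
    obtain ⟨n, p, pp, hp⟩ := lq hA ht hx xs hE t0
    have dM := sub_mem hx (hA.1 _ aA)
    have := hθ _ (pin_mem hA pp dM) (CutA.pin_norm pp (xs.sub as)) hp
    rw [← pin_tr hA ht' pp dM, zero_add]
    refine (Complex.abs_re_le_norm _).trans ((norm_inner_le_norm _ _).trans ?_)
    rwa [n1, one_mul]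
  intro y hy
  rw [← key _ (mul_mem hu.1 hy), k, ← mul_assoc, u1, one_mul]

section corner

open Cor

theorem genD {ζ : H} {f : H →L[ℂ] H} {r : ℕ} (k₀ : Fin r) {c : ℝ} (hc : 0 ≤ c)
    (one : ∀ (K : Type u) [NormedAddCommGroup K] [InnerProductSpace ℂ K] [CompleteSpace K]
      (V : K →L[ℂ] H) (ξ : K), Iso V → ex V 1 = f → (∃ c : ℝ, ξ = (c : ℂ) • (V†) ζ) → CV (corner A V) (corner M V) ξ →
      ∀ x ∈ corner M V, IsSelfAdjoint x →
      ‖x‖ ≤ 1 → ∀ θ : ℝ, 0 < θ → ∃ p : Fin r → K →L[ℂ] K, IsPartition (corner A V) p ∧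
        ∃ a ∈ corner A V, IsSelfAdjoint a ∧ ‖a‖ ≤ 1 ∧ ∃ q ∈ corner M V, IsStarProjection q ∧
          ‖(1 - q) ξ‖ ≤ θ ∧ ‖q * (R.pin p x - a) * q‖ ≤ c)
    (hA : IsMasa A M) (fA : f ∈ A) (hf : IsStarProjection f)
    (h1 : f ζ = ζ)
    (h2 : ∀ a ∈ A, ∀ x ∈ M, ⟪ζ, (a * x) ζ⟫_ℂ = ⟪ζ, (x * a) ζ⟫_ℂ)
    (h3 : ∀ x ∈ M, (f * x * f) ζ = 0 → f * x * f = 0) {x : H →L[ℂ] H} (hx : x ∈ M)
    (hs : IsSelfAdjoint x) (hn : ‖x‖ ≤ 1) (v : H) {θ : ℝ} (hθ : 0 < θ) :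
    ∃ p : Fin r → H →L[ℂ] H, IsPartition A p ∧ ∃ a ∈ A, IsSelfAdjoint a ∧
      ‖a‖ ≤ 1 ∧ f * a = a ∧ ∃ q ∈ M, IsStarProjection q ∧ f * q = q ∧ ‖(f - q) v‖ ≤ θ ∧
        ‖q * (R.pin p x - a) * q‖ ≤ c := by
  classical
  by_cases h0 : ζ = 0
  · have f0 : f = 0 := by
      have := h3 1 (one_mem _) (by rw [h0, map_zero])
      rwa [mul_one, hf.1.eq] at this
    refine ⟨fun k => if k = k₀ then 1 else 0, ⟨fun i => ?_, fun i j hij => ?_, by simp⟩, 0,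
      zero_mem _, .zero _, by simp, by simp, 0, zero_mem _, .zero _, by simp, ?_, by simpa using hc⟩
    · dsimp only
      split_ifs
      · exact ⟨one_mem _, .one _⟩
      · exact ⟨zero_mem _, .zero _⟩
    · dsimp only
      split_ifs with a b
      · exact absurd (a.trans b.symm) hij
      all_goals simp
    · simpa [f0] using hθ.le
  obtain ⟨K, _, _, _, V, h, rfl⟩ := exists_range hf
  have fM := hA.1 _ fA
  have ht := cv h hA fA h0 h1 h2 h3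
  obtain ⟨θ₀, t0, hθ₀⟩ := sepF ht.2.2 {(V†) v} hθ
  obtain ⟨p, pp, a, aA, as, an, q, qM, q1, q2, q3⟩ := one K V _ h rfl ⟨_, rfl⟩ ht (cp V x)
    (h.cp_mem fM hx) (by rw [IsSelfAdjoint, ← cp_star, hs.star_eq]) ((h.cp_le x).trans hn) θ₀ t0
  have z1 : ∀ T, ex V T * (1 - ex V 1) = 0 := fun T => by rw [mul_sub, mul_one, h.ex_one, sub_self]
  have z2 : ∀ T, (1 - ex V 1) * ex V T = 0 := fun T => by rw [sub_mul, one_mul, h.one_ex, sub_self]
  let g : Fin r → H →L[ℂ] H := fun k => if k = k₀ then 1 - ex V 1 else 0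
  have g1 : ∀ T k, ex V T * g k = 0 := fun T k => by
    simp only [g]
    split_ifs
    · exact z1 T
    · exact mul_zero _
  have g2 : ∀ T k, g k * ex V T = 0 := fun T k => by
    simp only [g]
    split_ifs
    · exact z2 T
    · exact zero_mul _
  have g3 : ∀ k, g k ∈ A ∧ IsStarProjection (g k) := fun k => by
    simp only [g]
    split_ifs
    · exact ⟨sub_mem (one_mem _) fA, hf.one_sub⟩
    · exact ⟨zero_mem _, .zero _⟩
  refine ⟨fun k => ex V (p k) + g k, ⟨fun i => ⟨add_mem (h.ex_mem fA (pp.1 i).1) (g3 i).1,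
      (h.proj (pp.1 i).2).add (g3 i).2 (g1 _ _)⟩, fun i j hij => ?_, ?_⟩, ex V a, h.ex_mem fA aA,
    by rw [IsSelfAdjoint, ← ex_star, as.star_eq], (h.ex_le a).trans an, h.one_ex a, ex V q,
    h.ex_mem fM qM, h.proj q1, h.one_ex q, ?_, ?_⟩
  · have : g i * g j = 0 := by
      simp only [g]
      split_ifs with a b
      · exact absurd (a.trans b.symm) hij
      all_goals simp
    rw [add_mul, mul_add, mul_add, g1, g2, this, ← h.ex_mul, pp.2.1 i j hij, ex_zero]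
    simp
  · rw [Finset.sum_add_distrib, ← ex_sum, pp.2.2]
    simp [g]
  · rw [← ex_sub, ex_apply, h.norm]
    exact (hθ₀ _ (sub_mem (one_mem _) qM) q1.one_sub.norm_le q2 _ (Finset.mem_singleton_self _)).le
  · have e : ex V q * (R.pin (fun k => ex V (p k) + g k) x - ex V a) * ex V q =
        ex V (q * (R.pin p (cp V x) - a) * q) := by
      simp only [R.pin, mul_sub, sub_mul, Finset.mul_sum, Finset.sum_mul, ex_sub, ex_sum]
      congr 1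
      · refine Finset.sum_congr rfl fun i _ => ?_
        calc ex V q * ((ex V (p i) + g i) * x * (ex V (p i) + g i)) * ex V q
            = ex V q * (ex V (p i) + g i) * x * ((ex V (p i) + g i) * ex V q) := by
              simp only [mul_assoc]
          _ = _ := by
              rw [mul_add, add_mul (ex V (p i)), g1, g2, add_zero, add_zero, ← h.ex_mul,
                ← h.ex_mul, ex_mid]
              simp only [mul_assoc]
      · rw [h.ex_mul, h.ex_mul]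
    rw [e]
    exact (h.ex_le _).trans q3

theorem ncv {K : Type u} [NormedAddCommGroup K] [InnerProductSpace ℂ K] [CompleteSpace K]
    {V : K →L[ℂ] H} (h : Iso V) (hA : IsMasa A M) (he : ex V 1 ∈ A) {ζ η : H} {c : ℝ}
    (ht : CV (corner A V) (corner M V) ((c : ℂ) • (V†) ζ))
    (h1 : ∀ u, Normalizes A M u → ∀ a ∈ A, ⟪η, (star u * a * u) η⟫_ℂ = ⟪η, a η⟫_ℂ)
    (h2 : ∀ a ∈ A, IsSelfAdjoint a → ex V 1 * a = a → (⟪ζ, a ζ⟫_ℂ).re = (⟪η, a η⟫_ℂ).re) :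
    NCV (corner A V) (corner M V) ((c : ℂ) • (V†) ζ) := by
  refine ⟨ht.1, fun u hu => inv_cen (masa h hA he) ht hu fun a ha as => ?_, ht.2.2⟩
  have k : ∀ T : K →L[ℂ] K, ⟪(V†) ζ, T ((V†) ζ)⟫_ℂ = ⟪ζ, ex V T ζ⟫_ℂ := fun T => by
    rw [adjoint_inner_left, ex_apply]
  have sa : ∀ T : K →L[ℂ] K, IsSelfAdjoint T → IsSelfAdjoint (ex V T) := fun T hT => by
    rw [IsSelfAdjoint, ← ex_star, hT.star_eq]
  have z1 : ∀ T, ex V T * (1 - ex V 1) = 0 := fun T => by rw [mul_sub, mul_one, h.ex_one, sub_self]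
  have z2 : ∀ T, (1 - ex V 1) * ex V T = 0 := fun T => by rw [sub_mul, one_mul, h.one_ex, sub_self]
  have a1 := h1 _ (nrm_ext h hA he hu) _ (h.ex_mem he ha)
  rw [star_add, ← ex_star, (h.proj (.one _)).one_sub.isSelfAdjoint.star_eq, add_mul, z2, add_zero,
    ← h.ex_mul, mul_add, z1, add_zero, ← h.ex_mul] at a1
  have a2 := h2 _ (h.ex_mem he ha) (sa _ as) (h.one_ex _)
  have a3 := h2 _ (h.ex_mem he (hu.2.2.2 a ha)) (sa _ (as.conjugate' u)) (h.one_ex _)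
  simp only [map_smul, inner_smul_left, inner_smul_right, k, Complex.conj_ofReal,
    Complex.re_ofReal_mul, a2, a3, a1]

end corner

theorem mixed2 (hS : SingStmt.{u}) (hP : ProjStmt.{u}) (hA : IsMasa A M) (hξ : StdVec M ξ)
    {η₀ : H} (h₀ : ∀ a ∈ A, a η₀ = 0 → a = 0) {r : ℕ} {c η : ℝ}
    (hC : ∀ f ∈ A, IsStarProjection f →
      ∀ ζ : H, f ζ = ζ → (∀ a ∈ A, ∀ x ∈ M, ⟪ζ, (a * x) ζ⟫_ℂ = ⟪ζ, (x * a) ζ⟫_ℂ) →
      (∀ x ∈ M, (f * x * f) ζ = 0 → f * x * f = 0) →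
      (∀ a ∈ A, IsSelfAdjoint a → f * a = a → (⟪ζ, a ζ⟫_ℂ).re = (⟪η₀, a η₀⟫_ℂ).re) →
      ∀ x ∈ M, IsSelfAdjoint x → ‖x‖ ≤ 1 → ∀ (v : H) (θ : ℝ), 0 < θ →
      ∃ p : Fin r → H →L[ℂ] H, IsPartition A p ∧ ∃ a ∈ A, IsSelfAdjoint a ∧
        ‖a‖ ≤ 1 ∧ f * a = a ∧ ∃ q ∈ M, IsStarProjection q ∧ f * q = q ∧ ‖(f - q) v‖ ≤ θ ∧
          ‖q * (R.pin p x - a) * q‖ ≤ c) (s : ℕ) (hη : 0 < η) : ∀ x ∈ M, IsSelfAdjoint x →
      SoPavable A M x (c + (1 / 2) ^ s + 3 * η) (r + 2 ^ s) := by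
  refine tail fun x hx hs hn F δ d0 => ?_
  obtain ⟨g, hg1⟩ : ∃ g : H →L[ℂ] H, g = 1 := ⟨_, rfl⟩
  have hg : g ∈ M := hg1 ▸ one_mem M
  have pg : IsStarProjection g := hg1 ▸ .one _
  have gF : ∀ v ∈ F, ‖(1 - g) v‖ < δ / 2 := fun v _ => by simpa [hg1] using d0
  obtain ⟨m⟩ := P132.tt P132.t1 P132.bi P132.filt H M ξ hξ
  obtain ⟨θ, t0, hθ⟩ := sepF hξ.2 F (half_pos d0)
  have gg := pg.isIdempotentElem.eq
  obtain ⟨κ, k0, hκ⟩ := hS H A M ξ m hA hξ g hg pg (by rw [hg1, m.R_one]) s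
    (min η (η * θ ^ 2 / 2)) (lt_min hη (by positivity))
  obtain ⟨ζ₀, z0, z4⟩ := hP H A M ξ m hA ξ
  obtain ⟨f₀, hf₀, pf₀, y1, y3⟩ := supp hA m z0
  have y2 : ∀ a ∈ A, ∀ y ∈ M, ⟪ζ₀, (a * y) ζ₀⟫_ℂ = ⟪ζ₀, (y * a) ζ₀⟫_ℂ := fun a ha y hy => by
    rw [mul_apply_eq_comp, mul_apply_eq_comp, ← star_star a, inner_star_right,
      z0 _ (star_mem ha), m.R_star, ← inner_star_right, star_star, star_star, z0 a ha,
      m.comm_R hy (hA.1 a ha)]
  obtain ⟨e₀, he₀, pe₀, y4, k₁, k1A, k₂, k2A, y5, k1s, y6⟩ := rn hA h₀ ζ₀ (half_pos k0)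
  obtain ⟨f, hfd⟩ : ∃ f, f = f₀ * e₀ := ⟨_, rfl⟩
  have hf : f ∈ A := hfd ▸ mul_mem hf₀ he₀
  have pf : IsStarProjection f := hfd ▸ hA.proj_mul hf₀ he₀ pf₀ pe₀
  have f1 : f₀ * f = f := by rw [hfd, ← mul_assoc, pf₀.isIdempotentElem.eq]
  have f2 : f * e₀ = f := by rw [hfd, mul_assoc, pe₀.isIdempotentElem.eq]
  obtain ⟨b, hb⟩ : ∃ b, b = f * k₁ := ⟨_, rfl⟩
  have bA : b ∈ A := hb ▸ mul_mem hf k1A
  have bs : star b = b := by
    rw [hb, star_mul, k1s.star_eq, pf.isSelfAdjoint.star_eq, hA.2.1 _ k1A _ hf]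
  have fb : f * b = b := by rw [hb, ← mul_assoc, pf.isIdempotentElem.eq]
  obtain ⟨ζ, hζ⟩ : ∃ ζ, ζ = b ζ₀ := ⟨_, rfl⟩
  have kζ : ∀ T : H →L[ℂ] H, ⟪ζ, T ζ⟫_ℂ = ⟪ζ₀, (b * T * b) ζ₀⟫_ℂ := fun T => by
    rw [hζ, ← inner_star_right, bs]
    rfl
  have z1 : f ζ = ζ := by rw [hζ, ← mul_apply_eq_comp, fb]
  have z2 : ∀ a ∈ A, ∀ y ∈ M, ⟪ζ, (a * y) ζ⟫_ℂ = ⟪ζ, (y * a) ζ⟫_ℂ := fun a ha y hy => by
    have := y2 a ha _ (mul_mem (mul_mem (hA.1 _ bA) hy) (hA.1 _ bA))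
    rw [kζ, kζ, ← mul_assoc b a, hA.2.1 _ bA _ ha, ← mul_assoc b y, mul_assoc _ a b,
      hA.2.1 _ ha _ bA, ← mul_assoc (b * y), ← this, hA.2.1 _ bA _ ha]
    simp only [mul_assoc]
  have z3 : ∀ x ∈ M, (f * x * f) ζ = 0 → f * x * f = 0 := fun x hx h0 => by
    have c1 : f₀ * (f * x * b) * f₀ = f * x * b := by
      rw [← mul_assoc, ← mul_assoc, f1, mul_assoc _ b, hA.2.1 _ bA _ hf₀, hb, ← mul_assoc f₀, f1]
    have c2 := y3 (f * x * b) (mul_mem (mul_mem (hA.1 _ hf) hx) (hA.1 _ bA)) (by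
      rw [c1, ← h0, hζ, ← mul_apply_eq_comp, mul_assoc _ f b, fb])
    rw [c1] at c2
    calc f * x * f = f * x * b * k₂ := by rw [hb, mul_assoc _ (f * k₁), mul_assoc f k₁, y5, f2]
      _ = 0 := by rw [c2, zero_mul]
  have z5 : ∀ a ∈ A, IsSelfAdjoint a → f * a = a → (⟪ζ, a ζ⟫_ℂ).re = (⟪η₀, a η₀⟫_ℂ).re :=
    fun a ha as fa => by
      have c1 : b * a * b = k₁ * a * k₁ := by
        rw [hb, hA.2.1 _ hf _ k1A, mul_assoc k₁ f, fa, ← hA.2.1 _ hf _ k1A, ← mul_assoc,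
          mul_assoc k₁ a f, ← hA.2.1 _ hf _ ha, fa]
      rw [kζ, c1, y6 a ha as (by rw [← fa, ← mul_assoc, hA.2.1 _ he₀ _ hf, f2])]
  obtain ⟨n, e, pe, he'⟩ := z4 _ (half_pos k0)
  have he : ‖∑ i, (1 - f) (e i (m.R (e i) (g ξ)))‖ ≤ κ := by
    have a1 := he' n e pe fun j => ⟨j, (pe.1 j).2.isIdempotentElem.eq⟩
    have a2 : (1 - f) ζ₀ = (1 - e₀) ζ₀ := by
      rw [hfd, hA.2.1 _ hf₀ _ he₀, sub_apply, sub_apply, mul_apply_eq_comp, y1]
    rw [← map_sum, hg1, one_apply_eq_self, ← sub_add_cancel (∑ i, _) ζ₀, map_add, a2]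
    have := ((1 - f).le_opNorm (∑ j, e j (m.R (e j) ξ) - ζ₀)).trans
      ((mul_le_of_le_one_left (norm_nonneg _) pf.one_sub.norm_le).trans a1)
    exact (norm_add_le _ _).trans (by linarith)
  have fM := hA.1 f hf
  have kA : 1 - f ∈ A := sub_mem (one_mem _) hf
  have kM := hA.1 _ kA
  have ff := pf.isIdempotentElem.eq
  have kk := pf.one_sub.isIdempotentElem.eq
  obtain ⟨p', pp', a', aA', as', an', fa', b2⟩ := hκ _ kA pf.one_sub n e pe he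
    ((1 - f) * x * (1 - f)) (mul_mem (mul_mem kM hx) kM)
    (hs.conjugate_self pf.one_sub.isSelfAdjoint)
    ((norm_mul₃_le.trans (mul_le_one₀ (mul_le_one₀ pf.one_sub.norm_le (norm_nonneg _) hn)
      (norm_nonneg _) pf.one_sub.norm_le)))
    (by rw [← mul_assoc, ← mul_assoc, kk, mul_assoc, kk])
  obtain ⟨p, pp, a, aA, as, an, fa, q, qM, q1, fq, q2, q3⟩ := hC f hf pf ζ z1 z2 z3 z5 x hx hs hn
    (g ξ) (η * θ / 6) (by positivity)
  obtain ⟨P, PP, hP⟩ := app hA hf pf pp pp'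
  have af : f * a * f = a := by rw [fa, ← hA.2.1 _ hf _ aA, fa]
  have af' : (1 - f) * a' * (1 - f) = a' := by rw [fa', ← hA.2.1 _ kA _ aA', fa']
  have qf : q * f = q := by
    simpa only [star_mul, q1.isSelfAdjoint.star_eq, pf.isSelfAdjoint.star_eq] using
      congrArg star fq
  obtain ⟨S, hSd⟩ : ∃ S, S = pin p x - a := ⟨_, rfl⟩
  have SM : S ∈ M := hSd ▸ sub_mem (pin_mem hA pp hx) (hA.1 _ aA)
  have Ss : IsSelfAdjoint S := hSd ▸ (pin_sa pp hs).sub as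
  have Sn : ‖S‖ ≤ 2 := by
    rw [hSd]
    linarith [norm_sub_le (pin p x) a, CutA.pin_norm pp hs]
  rw [← hSd] at q3
  obtain ⟨y, hy⟩ : ∃ y, y = (f - q) * (S * ((2⁻¹ : ℂ) • (f + q))) := ⟨_, rfl⟩
  have sy : star y = (2⁻¹ : ℂ) • (f + q) * (S * (f - q)) := by
    simp [hy, Ss.star_eq, pf.isSelfAdjoint.star_eq, q1.isSelfAdjoint.star_eq, mul_assoc]
  have b1 := cross (ξ := ξ) (η' := η * θ ^ 2 / 2) hg pg (y := y)
    (hy ▸ mul_mem (sub_mem fM qM) (mul_mem SM (vn_smul_mem _ (add_mem fM qM)))) hη (by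
      have n1 : ‖(2⁻¹ : ℂ) • (f + q)‖ ≤ 1 := by
        rw [norm_smul, norm_inv, Complex.norm_ofNat]
        linarith [norm_add_le f q, pf.norm_le, q1.norm_le]
      have n2 : ‖star y (g ξ)‖ ≤ 2 * (η * θ / 6) := by
        rw [sy, mul_apply_eq_comp, mul_apply_eq_comp]
        exact ((le_opNorm _ _).trans (mul_le_of_le_one_left (norm_nonneg _) n1)).trans
          ((le_opNorm _ _).trans (mul_le_mul Sn q2 (norm_nonneg _) zero_le_two))
      have := pow_le_pow_left₀ (norm_nonneg _) n2 2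
      rw [inv_mul_le_iff₀ hη]
      nlinarith [sq_nonneg (η * θ)])
  have b0 := ofNorm (M := M) (ξ := ξ) pg (Ss.conjugate_self q1.isSelfAdjoint) q3
  have e0 : g * (pin P x - (a + a')) * g = g * (q * S * q) * g + g * (y + star y) * g +
      g * (pin p' ((1 - f) * x * (1 - f)) - a') * g := by
    have : f * S * f = q * S * q + (y + star y) := by
      rw [sy, hy]
      simp only [mul_smul_comm, smul_mul_assoc, mul_add, add_mul, mul_sub, sub_mul, mul_assoc]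
      module
    rw [← add_mul, ← add_mul, ← mul_add, ← mul_add, ← this, hP, hSd, mul_sub f, sub_mul (f * _),
      af]
    congr 2
    abel
  have b3 := (b0.add b1).add b2
  rw [← e0] at b3
  have c0 : 0 ≤ c := (norm_nonneg _).trans q3
  obtain ⟨Q, QM, Q1, Q0, Q2, Q3⟩ := cutg (c := c + (1 / 2) ^ s + 2 * η) hg pg
    (fun y hy => by simp [hg1]) ((pin_sa PP hs).sub (as.add as'))
    (by positivity) hη t0 (mono b3 (by linarith [min_le_left η (η * θ ^ 2 / 2)])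
      (by linarith [min_le_right η (η * θ ^ 2 / 2)]))
  have k : ∀ {a f : H →L[ℂ] H}, IsStarProjection f → IsSelfAdjoint a → ‖a‖ ≤ 1 →
      f * a * f = a → a ≤ f := fun {a f} pf as an h => by
    have := pf.isSelfAdjoint.conjugate_le_conjugate (le_nrm as an)
    simpa [h, pf.isIdempotentElem.eq] using this
  refine ⟨P, PP, a + a', add_mem aA aA', as.add as', norm_le_of_le (as.add as') zero_le_one ?_ ?_,
    Q, QM, Q1, fun v hv => ?_, Q3.trans (le_of_eq (by ring))⟩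
  · simpa using add_le_add (k pf as an af) (k pf.one_sub as' an' af')
  · simpa [add_comm] using add_le_add (k pf as.neg (by rwa [norm_neg]) (by simp [af]))
      (k pf.one_sub as'.neg (by rwa [norm_neg]) (by rw [mul_neg, neg_mul, af']))
  · rw [show (1 - Q) v = (1 - g) v + (g - Q) v by simp]
    linarith [norm_add_le ((1 - g) v) ((g - Q) v), gF v hv, hθ _ (sub_mem hg QM) Q0 Q2 v hv]

theorem invariant (hS : SingStmt.{u}) (hP : ProjStmt.{u}) (hA : IsMasa A M) (hξ : StdVec M ξ)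
    (hI : InvState A M) {ε : ℝ} (e0 : 0 < ε) (e1 : ε < 1) :
    ∃ r : ℕ, 1 ≤ r ∧ (r : ℝ) ≤ (3 * 45 ^ 4 + 8) / ε ^ 4 ∧
      ∀ x ∈ M, IsSelfAdjoint x → SoPavable A M x ε r := by
  obtain ⟨η₀, h₀, h₁⟩ := hI
  have m0 : 1 ≤ 1 / ε := by rw [le_div_iff₀ e0]; linarith
  have a2 : 1 / ε ≤ (1 / ε) ^ 4 := le_self_pow₀ m0 (by norm_num)
  rw [div_pow] at a2
  obtain ⟨s, s1, s2⟩ := ex_s (show 0 < ε / 4 by positivity) (by linarith)
  obtain ⟨m, hm⟩ : ∃ m, m = ⌈44 / ε⌉₊ := ⟨_, rfl⟩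
  have m1 : 44 / ε ≤ m := hm ▸ Nat.le_ceil _
  have m2 : (m : ℝ) < 44 / ε + 1 := hm ▸ Nat.ceil_lt_add_one (by positivity)
  have m3 : 44 ≤ 44 / ε := by rw [le_div_iff₀ e0]; linarith
  have m4 : 2 ≤ m := by exact_mod_cast (show (2 : ℝ) ≤ m by linarith)
  have m5 : (m : ℝ) ≤ 45 / ε := by
    rw [show 45 / ε = 44 / ε + 1 / ε by ring]
    linarith
  have m6 : 22 / (m : ℝ) ≤ ε / 2 := by
    rw [div_le_iff₀ (by linarith)]
    rw [div_le_iff₀ e0] at m1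
    linarith
  have η0 : 0 < ε / 20 := by positivity
  have r0 : 0 < 3 * m ^ 2 * m ^ 2 := by positivity
  refine ⟨3 * m ^ 2 * m ^ 2 + 2 ^ s, le_add_left Nat.one_le_two_pow, ?_, fun x hx hx' =>
    So.mono (mixed2 hS hP hA hξ h₀ (c := 22 / m + 2 * (ε / 20))
      (fun f hf pf ζ z1 z2 z3 z5 x hx hx' hn v θ hθ => genD ⟨0, r0⟩ (by positivity)
        (fun K _ _ _ V ξ h fe ⟨c, hc⟩ ht x hx hx' hn θ hθ => by
          subst fe hc
          exact oneN (Cor.masa h hA hf) (ncv h hA hf ht h₁ z5) m4 η0 hx hx' hn hθ)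
        hA hf pf z1 z2 z3 hx hx' hn v hθ) s η0 x hx hx') (by linarith)⟩
  have a1 := pow_le_pow_left₀ (by positivity) m5 4
  rw [show 2 / (ε / 4) = 8 * (1 / ε) by field_simp; norm_num] at s2
  rw [div_pow] at a1
  rw [show (3 * 45 ^ 4 + 8) / ε ^ 4 = 3 * (45 ^ 4 / ε ^ 4) + 8 * (1 ^ 4 / ε ^ 4) by ring]
  push_cast
  linarith

end NT

end Vale.Agent.P078
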