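import Vale.Agent.P078.N6
import Vale.Agent.P078.Rep2
import Vale.Agent.P078.DefsIN
import Vale.Agent.P078.Sing
import Vale.Agent.P078.Proj

/-! Normalizers preserving a faithful normal state, in an arbitrary representation. -/

namespace Vale.Agent.P078.RP

open scoped InnerProductSpace
open Finset ContinuousLinearMap

universe u

variable {H : Type u} [NormedAddCommGroup H] [InnerProductSpace ℂ H] [CompleteSpace H]
  {A M : VonNeumannAlgebra H}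

theorem invN (hA : IsMasa A M) (hI : InvNormal A M) {ε : ℝ} (e0 : 0 < ε) (e1 : ε < 1) :
    ∃ r : ℕ, 1 ≤ r ∧ (r : ℝ) ≤ (3 * 45 ^ 4 + 8) / ε ^ 4 ∧
      ∀ x ∈ M, IsSelfAdjoint x → SoPavable A M x ε r := by
  obtain ⟨t, t1, t2, t3⟩ := hI
  obtain ⟨K, _, _, _, A', M', π, ξ, V, hR, hξ, V1, -, V3, V4⟩ := ex_rep hA.1 0
    (⟨t, mem2.2 t1⟩ : lp (fun _ : ℕ => H) 2) t2
  have f0 : ∀ x : H →L[ℂ] H, ∑' n, ⟪t n, x (t n)⟫_ℂ = ⟪ξ, π x ξ⟫_ℂ := fun x => by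
    have := V3 x ξ
    rw [V1] at this
    exact this.tsum_eq
  have hI' : InvState A' M' := by
    refine ⟨ξ, fun a ha e => hξ.2 a ((hR.masa hA).1 a ha) e, fun v hv a' ha' => ?_⟩
    obtain ⟨w, hw, rfl⟩ := (hR.memM v).1 hv.1
    obtain ⟨a, ha, rfl⟩ := (hR.memA a').1 ha'
    have sw := star_mem hw
    have k : ∀ a ∈ A, ∀ y ∈ M, ∀ z, π y * π a * π z ∈ A' → z ∈ M → y * a * z ∈ A :=
      fun a ha y hy z e hz => by
        have m := mul_mem hy (hA.1 a ha)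
        rw [← hR.mul _ hy, ← hR.mul _ m] at e
        obtain ⟨b, hb, e'⟩ := (hR.memA _).1 e
        exact hR.inj (hA.1 b hb) (mul_mem m hz) e' ▸ hb
    have hn : Normalizes A M w := by
      refine ⟨hw, ⟨hR.inj (mul_mem sw hw) (one_mem _) ?_,
        hR.inj (mul_mem hw sw) (one_mem _) ?_⟩, fun a ha => k a ha w hw _ ?_ sw,
        fun a ha => k a ha _ sw w ?_ hw⟩
      · rw [hR.mul _ sw, hR.st, hR.one]
        exact hv.2.1.1
      · rw [hR.mul _ hw, hR.st, hR.one]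
        exact hv.2.1.2
      · rw [hR.st]
        exact hv.2.2.1 _ ((hR.memA _).2 ⟨a, ha, rfl⟩)
      · rw [hR.st]
        exact hv.2.2.2 _ ((hR.memA _).2 ⟨a, ha, rfl⟩)
    have := t3 w hn a ha
    rwa [f0, f0, hR.mul _ (mul_mem sw (hA.1 a ha)), hR.mul _ sw, hR.st] at this
  obtain ⟨r, r1, r2, h⟩ := NT.invariant sing proj (hR.masa hA) hξ hI' e0 e1
  refine ⟨r, r1, r2, fun x hx hs F δ d0 => ?_⟩
  classical
  obtain ⟨θ, t0, hθ⟩ := V4 F δ d0
  obtain ⟨P, PP, a, aA, as, an, Q, QM, Q1, Q2, Q3⟩ := h _ (hR.mem hx) ((hR.sa hx).2 hs) {ξ} θ t0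
  obtain ⟨p, pp, b, bA, bs, bn, q, qM, q1, rfl, q3⟩ := hR.pull hA hx PP aA as QM Q1
  rw [hR.nm x hx] at an Q3
  refine ⟨p, pp, b, bA, bs, bn.trans_le an, q, qM, q1,
    hθ _ (sub_mem (one_mem _) qM) q1.one_sub.norm_le ?_, q3.trans_le Q3⟩
  rw [map_sub, hR.one]
  exact (Q2 ξ (mem_singleton_self _)).le

end Vale.Agent.P078.RP
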