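import Vale.Agent.P078.FinN
import Vale.Agent.P096.Semi

/-! Passing to a standard representation. -/

namespace Vale.Agent.P078.RP

open scoped InnerProductSpace InnerProduct ComplexConjugate ComplexOrder
open Vale.Agent.P104 Vale.Agent.P082 Finset ContinuousLinearMap R

universe u

variable {H K : Type u} [NormedAddCommGroup H] [InnerProductSpace ℂ H] [CompleteSpace H]
  [NormedAddCommGroup K] [InnerProductSpace ℂ K] [CompleteSpace K]
  {A M : VonNeumannAlgebra H} {A' M' : VonNeumannAlgebra K}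
  {π : (H →L[ℂ] H) →ₗ[ℂ] (K →L[ℂ] K)}

/-- A faithful representation of the pair. -/
structure Rp (A M : VonNeumannAlgebra H) (A' M' : VonNeumannAlgebra K)
    (π : (H →L[ℂ] H) →ₗ[ℂ] (K →L[ℂ] K)) : Prop where
  mul : ∀ x ∈ M, ∀ y, π (x * y) = π x * π y
  st : ∀ x, π (star x) = star (π x)
  one : π 1 = 1
  nm : ∀ x ∈ M, ‖π x‖ = ‖x‖
  memM : ∀ T, T ∈ M' ↔ ∃ x ∈ M, π x = T
  memA : ∀ T, T ∈ A' ↔ ∃ x ∈ A, π x = T

namespace Rp

theorem inj (h : Rp A M A' M' π) {x y : H →L[ℂ] H} (hx : x ∈ M) (hy : y ∈ M) (e : π x = π y) :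
    x = y := by
  rw [← sub_eq_zero, ← norm_eq_zero, ← h.nm _ (sub_mem hx hy), map_sub, e, sub_self, norm_zero]

theorem mem (h : Rp A M A' M' π) {x : H →L[ℂ] H} (hx : x ∈ M) : π x ∈ M' :=
  (h.memM _).2 ⟨x, hx, rfl⟩

theorem masa (h : Rp A M A' M' π) (hA : IsMasa A M) : IsMasa A' M' := by
  refine ⟨fun T hT => ?_, fun S hS T hT => ?_, fun T hT c => ?_⟩
  · obtain ⟨x, hx, rfl⟩ := (h.memA T).1 hT
    exact h.mem (hA.1 x hx)
  · obtain ⟨x, hx, rfl⟩ := (h.memA T).1 hT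
    obtain ⟨y, hy, rfl⟩ := (h.memA S).1 hS
    rw [← h.mul _ (hA.1 x hx), ← h.mul _ (hA.1 y hy), hA.2.1 x hx y hy]
  · obtain ⟨x, hx, rfl⟩ := (h.memM T).1 hT
    refine (h.memA _).2 ⟨x, hA.2.2 x hx fun a ha => ?_, rfl⟩
    have aM := hA.1 a ha
    refine h.inj (mul_mem aM hx) (mul_mem hx aM) ?_
    rw [h.mul _ aM, h.mul _ hx]
    exact c _ ((h.memA _).2 ⟨a, ha, rfl⟩)

theorem sa (h : Rp A M A' M' π) {x : H →L[ℂ] H} (hx : x ∈ M) :
    IsSelfAdjoint (π x) ↔ IsSelfAdjoint x :=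
  ⟨fun e => h.inj (star_mem hx) hx (by rw [h.st, e.star_eq]),
    fun e => by rw [IsSelfAdjoint, ← h.st, e.star_eq]⟩

theorem proj (h : Rp A M A' M' π) {x : H →L[ℂ] H} (hx : x ∈ M) :
    IsStarProjection (π x) ↔ IsStarProjection x :=
  ⟨fun e => ⟨h.inj (mul_mem hx hx) hx (by rw [h.mul _ hx, e.1.eq]), (h.sa hx).1 e.2⟩,
    fun e => ⟨by rw [IsIdempotentElem, ← h.mul _ hx, e.1.eq], (h.sa hx).2 e.2⟩⟩

theorem pull (h : Rp A M A' M' π) (hA : IsMasa A M) {x : H →L[ℂ] H} (hx : x ∈ M) {r : ℕ}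
    {P : Fin r → K →L[ℂ] K} (PP : IsPartition A' P) {a' Q : K →L[ℂ] K} (aA : a' ∈ A')
    (as : IsSelfAdjoint a') (QM : Q ∈ M') (Q1 : IsStarProjection Q) :
    ∃ p : Fin r → H →L[ℂ] H, IsPartition A p ∧ ∃ a ∈ A, IsSelfAdjoint a ∧ ‖a‖ = ‖a'‖ ∧
      ∃ q ∈ M, IsStarProjection q ∧ π q = Q ∧
        ‖q * (pin p x - a) * q‖ = ‖Q * (pin P (π x) - a') * Q‖ := by
  choose p p1 p2 using fun i => (h.memA _).1 (PP.1 i).1
  obtain ⟨a, a1, rfl⟩ := (h.memA _).1 aA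
  obtain ⟨q, q1, rfl⟩ := (h.memM _).1 QM
  have pM := fun i => hA.1 _ (p1 i)
  have aM := hA.1 _ a1
  have pp : IsPartition A p := by
    refine ⟨fun i => ⟨p1 i, (h.proj (pM i)).1 (p2 i ▸ (PP.1 i).2)⟩, fun i j e => ?_, ?_⟩
    · refine h.inj (mul_mem (pM i) (pM j)) (zero_mem _) ?_
      rw [h.mul _ (pM i), p2, p2, PP.2.1 i j e, map_zero]
    · refine h.inj (sum_mem fun i _ => pM i) (one_mem _) ?_
      simp only [map_sum, p2, PP.2.2, h.one]
  have zM := sub_mem (pin_mem hA pp hx) aM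
  refine ⟨p, pp, a, a1, (h.sa aM).1 as, (h.nm a aM).symm, q, q1, (h.proj q1).1 Q1, rfl, ?_⟩
  rw [← h.nm _ (mul_mem (mul_mem q1 zM) q1), h.mul _ (mul_mem q1 zM), h.mul _ q1, map_sub]
  simp only [pin, map_sum, h.mul _ (mul_mem (pM _) hx), h.mul _ (pM _), p2]

end Rp

theorem ex_amp (H : Type u) [NormedAddCommGroup H] [InnerProductSpace ℂ H] [CompleteSpace H]
    {I : Type} (i₀ : I) :
    ∃ (am : (H →L[ℂ] H) →⋆ₐ[ℂ] (lp (fun _ : I => H) 2 →L[ℂ] lp (fun _ : I => H) 2))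
      (ι : H →L[ℂ] lp (fun _ : I => H) 2)
      (F : VonNeumannAlgebra H → VonNeumannAlgebra (lp (fun _ : I => H) 2)),
      (∀ x ψ n, am x ψ n = x (ψ n)) ∧ (∀ x v, ‖am x (ι v)‖ = ‖x v‖) ∧
        ∀ B T, T ∈ F B ↔ ∃ x ∈ B, am x = T := by
  classical
  let L := lp (fun _ : I => H) 2
  let d : (H →L[ℂ] H) → L →L[ℂ] L := fun x => lp.mapCLM 2 (fun _ => x) (norm_nonneg x) fun _ => le_rfl
  let am : (H →L[ℂ] H) →⋆ₐ[ℂ] (L →L[ℂ] L) :=
    { toFun := d
      map_one' := by ext ζ i; rfl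
      map_mul' := fun a b => by ext ζ i; rfl
      map_zero' := by ext ζ i; rfl
      map_add' := fun a b => by ext ζ i; rfl
      commutes' := fun z => by ext ζ i; rfl
      map_star' := fun a => (eq_adjoint_iff _ _).2 fun a b => by
        rw [lp.inner_eq_tsum, lp.inner_eq_tsum]
        exact tsum_congr fun n => adjoint_inner_left _ _ _ }
  have a1 : ∀ x ψ n, am x ψ n = x (ψ n) := fun _ _ _ => rfl
  obtain ⟨ι, ι1, ι2⟩ : ∃ ι : I → H →L[ℂ] L, (∀ n ψ, ((ι n)†) ψ = ψ n) ∧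
      ∀ n η, ι n η = lp.single (E := fun _ : I => H) 2 n η :=
    ⟨fun n => lp.singleContinuousLinearMap ℂ (fun _ : I => H) 2 n, fun n ψ =>
      ext_inner_left ℂ fun η => by
        rw [adjoint_inner_right]
        exact lp.inner_single_left (𝕜 := ℂ) (G := fun _ : I => H) n η ψ, fun _ _ => rfl⟩
  have ι3 : ∀ n m η, ι n η m = if m = n then η else 0 := fun n m η => by
    rw [ι2, lp.single_apply, Pi.single_apply]
  have d3 : ∀ x n η, am x (ι n η) = ι n (x η) := fun x n η => by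
    ext m
    rw [a1, ι3, ι3]
    split_ifs with e
    · rfl
    · rw [map_zero]
  let S : VonNeumannAlgebra H → Set (L →L[ℂ] L) := fun B =>
    am '' (B.commutant : Set (H →L[ℂ] H)) ∪ Set.range fun p : I × I => ι p.1 ∘L (ι p.2)†
  refine ⟨am, ι i₀, fun B => ⟨StarSubalgebra.centralizer ℂ (S B), by simp⟩, a1, fun x v => ?_,
    fun B T => ?_⟩
  · rw [d3, ι2, lp.norm_single (by norm_num)]
  change T ∈ StarSubalgebra.centralizer ℂ _ ↔ _
  rw [StarSubalgebra.mem_centralizer_iff]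
  constructor
  · intro h
    have k : ∀ ψ n, T (ι i₀ (ψ n)) i₀ = T ψ n := fun ψ n => by
      have := congrArg (fun z : L →L[ℂ] L => z ψ i₀) (h _ (Or.inr ⟨(i₀, n), rfl⟩)).1
      simp only [mul_apply_eq_comp, comp_apply, ι1, ι3, if_true] at this
      exact this.symm
    refine ⟨(ι i₀)† ∘L T ∘L ι i₀, mem_of_commute fun y hy => ?_, ?_⟩
    · ext v
      have := congrArg (fun z : L →L[ℂ] L => z (ι i₀ v) i₀) (h _ (Or.inl ⟨y, hy, rfl⟩)).1
      simpa only [mul_apply_eq_comp, comp_apply, ι1, a1, d3] using this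
    · ext ψ n
      simp only [a1, comp_apply, ι1, k]
  · rintro ⟨x, hx, rfl⟩
    have e : ∀ i j, (ι i ∘L (ι j)†) * am x = am x * (ι i ∘L (ι j)†) := fun i j => by
      ext1 ψ
      simp only [mul_apply_eq_comp, comp_apply, ι1, a1, d3]
    rintro _ (⟨y, hy, rfl⟩ | ⟨p, rfl⟩)
    · rw [← map_star, ← map_mul, ← map_mul, ← map_mul, ← map_mul, commute_of_mem hx hy,
        commute_of_mem hx (star_mem hy)]
      exact ⟨rfl, rfl⟩
    · refine ⟨e _ _, ?_⟩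
      rw [star_eq_adjoint, adjoint_comp, adjoint_adjoint]
      exact e _ _

open P096 in
theorem ex_rep (hAM : ∀ a ∈ A, a ∈ M) {I : Type} (i₀ : I) (u : lp (fun _ : I => H) 2)
    (hu : ∀ x ∈ M, (∀ i, x (u i) = 0) → x = 0) : ∃ (K : Type u) (_ : NormedAddCommGroup K)
      (_ : InnerProductSpace ℂ K) (_ : CompleteSpace K) (A' M' : VonNeumannAlgebra K)
      (π : (H →L[ℂ] H) →ₗ[ℂ] (K →L[ℂ] K)) (ξ : K) (V : K → lp (fun _ : I => H) 2),
      Rp A M A' M' π ∧ StdVec M' ξ ∧ V ξ = u ∧ (∀ ζ, ‖V ζ‖ = ‖ζ‖) ∧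
      (∀ x ζ, HasSum (fun i => ⟪V ζ i, x (V ζ i)⟫_ℂ) ⟪ζ, π x ζ⟫_ℂ) ∧
      ∀ (F : Finset H) (δ : ℝ), 0 < δ → ∃ θ > 0, ∀ z ∈ M, ‖z‖ ≤ 1 → ‖π z ξ‖ ≤ θ →
        ∀ v ∈ F, ‖z v‖ < δ := by
  classical
  obtain ⟨am, ι, F, a1, a2, hF⟩ := ex_amp H i₀
  obtain ⟨e, e1, e2, e3, e4⟩ := cyc_proj (F M) u
  obtain ⟨K, _, _, _, V, h, rfl, -⟩ := exists_range e2
  have aM : ∀ x ∈ M, am x ∈ F M := fun x hx => (hF _ _).2 ⟨x, hx, rfl⟩
  have sep : ∀ y ∈ F M, y u = 0 → y = 0 := fun y hy e => by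
    obtain ⟨x, hx, rfl⟩ := (hF _ _).1 hy
    rw [hu x hx fun i => by rw [← a1, e]; rfl, map_zero]
  have Vu : V ((V†) u) = u := e3
  have nV : ∀ y ∈ F M, ‖cp V y ((V†) u)‖ = ‖y u‖ := fun y hy => by
    rw [← h.norm, cp_apply, Vu]
    change ‖(ex V 1 * y) u‖ = _
    rw [← commute_of_mem hy e1, mul_apply_eq_comp, e3]
  have mem : ∀ B : VonNeumannAlgebra H, (∀ a ∈ B, a ∈ M) → ∀ T,
      T ∈ (corner (F B).commutant V).commutant ↔ ∃ x ∈ B, cp V (am x) = T := fun B hB T => by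
    have he : ex V 1 ∈ (F B).commutant := VonNeumannAlgebra.mem_commutant_iff.2 fun y hy => by
      obtain ⟨x, hx, rfl⟩ := (hF _ _).1 hy
      exact commute_of_mem (aM x (hB x hx)) e1
    constructor
    · intro hT
      obtain ⟨z, hz, rfl⟩ := induce h he hT
      rw [VonNeumannAlgebra.commutant_commutant] at hz
      obtain ⟨x, hx, rfl⟩ := (hF _ _).1 hz
      exact ⟨x, hx, rfl⟩
    · rintro ⟨x, hx, rfl⟩
      exact cp_mem' (by rw [VonNeumannAlgebra.commutant_commutant]; exact (hF _ _).2 ⟨x, hx, rfl⟩)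
  have i1 : ∀ y ∈ (F M).commutant.commutant, cp V y = 0 → y = 0 := fun y hy c => by
    rw [VonNeumannAlgebra.commutant_commutant] at hy
    refine sep y hy (norm_eq_zero.1 ?_)
    rw [← nV y hy, c, zero_apply, norm_zero]
  have i2 : Function.Injective am := (injective_iff_map_eq_zero _).2 fun x c => by
    ext v
    rw [zero_apply, ← norm_eq_zero, ← a2, c, zero_apply, norm_zero]
  refine ⟨K, inferInstance, inferInstance, inferInstance, (corner (F A).commutant V).commutant,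
    (corner (F M).commutant V).commutant,
    { toFun := fun x => cp V (am x)
      map_add' := fun x y => by rw [map_add, cp_add]
      map_smul' := fun c x => by rw [map_smul, cp_smul]; rfl }, (V†) u, V,
    ⟨fun x hx y => ?_, fun x => ?_, ?_, fun x hx => ?_, mem M fun _ h => h, mem A hAM⟩,
    ⟨fun k => ?_, fun T hT c => ?_⟩, Vu, h.norm, fun x ζ => ?_, fun G δ d0 => ?_⟩
  · change cp V (am (x * y)) = cp V (am x) * cp V (am y)
    rw [map_mul, h.cp_mul _ (commute_of_mem (aM x hx) e1).symm]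
  · change cp V (am (star x)) = star (cp V (am x))
    rw [map_star, cp_star]
  · change cp V (am 1) = 1
    rw [map_one, h.cp_one]
  · exact (ind_iso h e1 i1 ⟨am x, by
      rw [VonNeumannAlgebra.commutant_commutant]; exact aM x hx⟩).trans
      (NonUnitalStarAlgHom.norm_map am i2 x)
  · have := map_mem_closure (f := V†) (t := {η | ∃ x ∈ (corner (F M).commutant V).commutant,
      x ((V†) u) = η}) (V†).continuous (e4 (show ex V 1 (V k) = V k by
        rw [ex_apply, h k]; rfl)) (by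
      rintro _ ⟨y, hy, rfl⟩
      obtain ⟨x, hx, rfl⟩ := (hF _ _).1 hy
      exact ⟨_, (mem M (fun _ h => h) _).2 ⟨x, hx, rfl⟩, by rw [cp_apply, Vu]⟩)
    rwa [h k] at this
  · obtain ⟨x, hx, rfl⟩ := (mem M (fun _ h => h) _).1 hT
    rw [sep _ (aM x hx) (norm_eq_zero.1 (by rw [← nV _ (aM x hx), c, norm_zero])), cp_zero]
  · have := lp.hasSum_inner (𝕜 := ℂ) (V ζ) (am x (V ζ))
    change HasSum _ ⟪ζ, cp V (am x) ζ⟫_ℂ
    rw [cp_apply, adjoint_inner_right]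
    simpa only [a1] using this
  · obtain ⟨θ, t0, hθ⟩ := FN.sepF sep (G.image ι) d0
    refine ⟨θ, t0, fun z hz z1 z2 v hv => ?_⟩
    rw [← a2]
    exact hθ _ (aM z hz) ((NonUnitalStarAlgHom.norm_map am i2 z).trans_le z1)
      ((nV _ (aM z hz)).symm.trans_le z2) _ (mem_image_of_mem _ hv)

end Vale.Agent.P078.RP
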