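import Vale.Agent.P078.Rep2
import Vale.Agent.P078.N6

/-! Transfer of an invariant state to the standard representation. -/

namespace Vale.Agent.P078.RP

open scoped InnerProductSpace InnerProduct ComplexConjugate ComplexOrder
open Vale.Agent.P104 Vale.Agent.P082 Finset ContinuousLinearMap R

universe u

variable {H K : Type u} [NormedAddCommGroup H] [InnerProductSpace ℂ H] [CompleteSpace H]
  [NormedAddCommGroup K] [InnerProductSpace ℂ K] [CompleteSpace K]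
  {A M : VonNeumannAlgebra H} {A' M' : VonNeumannAlgebra K}
  {π : (H →L[ℂ] H) →ₗ[ℂ] (K →L[ℂ] K)}

theorem nrm (hA : IsMasa A M) (hR : Rp A M A' M' π) {w : H →L[ℂ] H} (hw : w ∈ M)
    (hv : Normalizes A' M' (π w)) : Normalizes A M w := by
  have sw := star_mem hw
  have k : ∀ a ∈ A, ∀ y ∈ M, ∀ z, π y * π a * π z ∈ A' → z ∈ M → y * a * z ∈ A :=
    fun a ha y hy z e hz => by
      have m := mul_mem hy (hA.1 a ha)
      rw [← hR.mul _ hy, ← hR.mul _ m] at e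
      obtain ⟨b, hb, e'⟩ := (hR.memA _).1 e
      exact hR.inj (hA.1 b hb) (mul_mem m hz) e' ▸ hb
  refine ⟨hw, ⟨hR.inj (mul_mem sw hw) (one_mem _) ?_,
    hR.inj (mul_mem hw sw) (one_mem _) ?_⟩, fun a ha => k a ha w hw _ ?_ sw,
    fun a ha => k a ha _ sw w ?_ hw⟩
  · rw [hR.mul _ sw, hR.st, hR.one]
    exact hv.2.1.1
  · rw [hR.mul _ hw, hR.st, hR.one]
    exact hv.2.1.2
  · rw [hR.st]
    exact hv.2.2.1 _ ((hR.memA _).2 ⟨a, ha, rfl⟩)
  · rw [hR.st]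
    exact hv.2.2.2 _ ((hR.memA _).2 ⟨a, ha, rfl⟩)

theorem vec (hR : Rp A M A' M' π) {ξ : K} (hξ : StdVec M' ξ) {η : H}
    (h : ∀ x ∈ M, ‖x η‖ ≤ ‖π x ξ‖) : ∃ ζ : K, ∀ x ∈ M, ⟪ζ, π x ζ⟫_ℂ = ⟪η, x η⟫_ℂ := by
  let E := M.toStarSubalgebra.toSubalgebra.toSubmodule
  let f : E →ₗ[ℂ] H :=
    { toFun := fun x => x.1 η
      map_add' := fun _ _ => rfl
      map_smul' := fun _ _ => rfl }
  let e : E →ₗ[ℂ] K :=
    { toFun := fun x => π x.1 ξ
      map_add' := fun x y => by rw [Submodule.coe_add, map_add, add_apply]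
      map_smul' := fun c x => by rw [Submodule.coe_smul, map_smul, smul_apply, RingHom.id_apply] }
  have de : DenseRange e := hξ.1.mono (by
    rintro _ ⟨y, hy, rfl⟩
    obtain ⟨x, hx, rfl⟩ := (hR.memM y).1 hy
    exact ⟨⟨x, hx⟩, rfl⟩)
  obtain ⟨W, w1⟩ : ∃ W : K →L[ℂ] H, ∀ x ∈ M, W (π x ξ) = x η :=
    ⟨f.extendOfNorm e, fun x hx => LinearMap.extendOfNorm_eq de
      ⟨1, fun x => by rw [one_mul]; exact h x.1 x.2⟩ ⟨x, hx⟩⟩
  have w3 : ∀ b ∈ M, ∀ y, W (π b y) = b (W y) := fun b hb y =>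
    de.induction_on y (isClosed_eq (by fun_prop) (by fun_prop)) fun x => by
      change W (π b (π x.1 ξ)) = b (W (π x.1 ξ))
      rw [← mul_apply_eq_comp, ← hR.mul _ hb, w1 _ (mul_mem hb x.2), w1 _ x.2, mul_apply_eq_comp]
  obtain ⟨T, hT⟩ : ∃ T : K →L[ℂ] K, T = W† ∘L W := ⟨_, rfl⟩
  have T0 : 0 ≤ T := hT ▸ (nonneg_iff_isPositive _).2 (isPositive_adjoint_comp_self W)
  have T1 : ∀ x y, ⟪x, T y⟫_ℂ = ⟪W x, W y⟫_ℂ := fun x y => hT ▸ adjoint_inner_right W x (W y)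
  have T2 : ∀ b ∈ M, Commute T (π b) := fun b hb => ContinuousLinearMap.ext fun y =>
    ext_inner_left ℂ fun x => by
      rw [mul_apply_eq_comp, mul_apply_eq_comp, T1, w3 _ hb, ← inner_star_left (π b), ← hR.st, T1,
        w3 _ (star_mem hb), inner_star_left]
  have S1 : ∀ b ∈ M, Commute (CFC.sqrt T) (π b) := fun b hb => by
    rw [CFC.sqrt_eq_cfc]; exact (T2 b hb).cfc_nnreal _
  have S2 : star (CFC.sqrt T) = CFC.sqrt T := (CFC.sqrt_nonneg T).isSelfAdjoint.star_eq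
  have S3 : CFC.sqrt T * CFC.sqrt T = T := CFC.sqrt_mul_sqrt_self T T0
  have w0 : W ξ = η := by simpa [hR.one] using w1 1 (one_mem _)
  refine ⟨CFC.sqrt T ξ, fun x hx => ?_⟩
  nth_rw 1 [← S2]
  rw [inner_star_left, ← mul_apply_eq_comp (π x), ← (S1 x hx).eq, ← mul_apply_eq_comp, ← mul_assoc,
    S3, mul_apply_eq_comp, T1, w1 x hx, w0]

/-- Transfer of an invariant state to a standard representation. -/
theorem stdI (hA : IsMasa A M) (hσ : SigmaFinite M) (hI : InvState A M) :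
    ∃ (K : Type u) (_ : NormedAddCommGroup K) (_ : InnerProductSpace ℂ K) (_ : CompleteSpace K)
      (A' M' : VonNeumannAlgebra K) (ξ : K), IsMasa A' M' ∧ StdVec M' ξ ∧ InvState A' M' ∧
        ∀ (ε : ℝ) (r : ℕ), (∀ x ∈ M', IsSelfAdjoint x → SoPavable A' M' x ε r) →
          ∀ x ∈ M, IsSelfAdjoint x → SoPavable A M x ε r := by
  obtain ⟨s, hs⟩ := hσ
  obtain ⟨η, h0, h1⟩ := hI
  obtain ⟨k, k0, k1⟩ := ex_c s
  let u : lp (fun _ : Unit ⊕ ℕ => H) 2 := ⟨Sum.elim (fun _ => η) fun n => k n • s n,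
    mem2.2 (Summable.sum _ Summable.of_finite k1)⟩
  obtain ⟨K, _, _, _, A', M', π, ξ, V, hR, hξ, V1, -, V3, V4⟩ := ex_rep hA.1 (Sum.inl ()) u
    fun x hx e => hs x hx fun n => by
      have := e (.inr n)
      change x (k n • s n) = 0 at this
      rw [map_smul, smul_eq_zero] at this
      exact this.resolve_left (k0 n)
  have sq : ∀ {L : Type u} [NormedAddCommGroup L] [InnerProductSpace ℂ L] [CompleteSpace L]
      (x : L →L[ℂ] L) (v : L), ⟪v, (star x * x) v⟫_ℂ = ((‖x v‖ ^ 2 : ℝ) : ℂ) := fun x v => by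
    rw [mul_apply_eq_comp, inner_star_right, inner_self_eq_norm_sq_to_K]
    simp
  obtain ⟨ζ, hζ⟩ := vec hR hξ (η := η) fun x hx => by
    have := V3 (star x * x) ξ
    rw [hR.mul _ (star_mem hx), hR.st, V1, sq] at this
    simp only [sq] at this
    exact (pow_le_pow_iff_left₀ (norm_nonneg _) (norm_nonneg _) two_ne_zero).1
      (le_hasSum (Complex.hasSum_ofReal.1 this) (Sum.inl ()) fun _ _ => sq_nonneg _)
  refine ⟨K, _, _, _, A', M', ξ, hR.masa hA, hξ, ⟨ζ, fun a ha e => ?_, fun v hv a ha => ?_⟩,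
    fun ε r h x hx hs F δ d0 => ?_⟩
  · obtain ⟨b, hb, rfl⟩ := (hR.memA a).1 ha
    have bM := hA.1 b hb
    have := hζ _ (mul_mem (star_mem bM) bM)
    rw [hR.mul _ (star_mem bM), hR.st, sq, sq, e, norm_zero] at this
    rw [h0 b hb (by simpa using this.symm), map_zero]
  · obtain ⟨w, hw, rfl⟩ := (hR.memM v).1 hv.1
    obtain ⟨b, hb, rfl⟩ := (hR.memA a).1 ha
    have m := mul_mem (star_mem hw) (hA.1 b hb)
    rw [← hR.st, ← hR.mul _ (star_mem hw), ← hR.mul _ m, hζ _ (mul_mem m hw), hζ _ (hA.1 b hb)]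
    exact h1 w (nrm hA hR hw hv) b hb
  · classical
    obtain ⟨θ, t0, hθ⟩ := V4 F δ d0
    obtain ⟨P, PP, a, aA, as, an, Q, QM, Q1, Q2, Q3⟩ := h _ (hR.mem hx) ((hR.sa hx).2 hs) {ξ} θ t0
    obtain ⟨p, pp, b, bA, bs, bn, q, qM, q1, rfl, q3⟩ := hR.pull hA hx PP aA as QM Q1
    rw [hR.nm x hx] at an Q3
    refine ⟨p, pp, b, bA, bs, bn.trans_le an, q, qM, q1,
      hθ _ (sub_mem (one_mem _) qM) q1.one_sub.norm_le ?_, q3.trans_le Q3⟩
    rw [map_sub, hR.one]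
    exact (Q2 ξ (mem_singleton_self _)).le

theorem invariant (hS : SingStmt.{u}) (hP : ProjStmt.{u}) (hA : IsMasa A M)
    (hσ : SigmaFinite M) (hI : InvState A M) {ε : ℝ} (e0 : 0 < ε) (e1 : ε < 1) :
    ∃ r : ℕ, 1 ≤ r ∧ (r : ℝ) ≤ (3 * 45 ^ 4 + 8) / ε ^ 4 ∧
      ∀ x ∈ M, IsSelfAdjoint x → SoPavable A M x ε r := by
  obtain ⟨K, _, _, _, A', M', ξ, h1, h2, h3, h4⟩ := stdI hA hσ hI
  obtain ⟨r, r1, r2, r3⟩ := NT.invariant hS hP h1 h2 h3 e0 e1
  exact ⟨r, r1, r2, h4 ε r r3⟩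

end Vale.Agent.P078.RP
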