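import Vale.Agent.P078.StmN
import Vale.Agent.P132.T2
import Vale.Agent.P096.Erg

/-! Tools for the random sign argument. -/

namespace Vale.Agent.P078

open scoped InnerProductSpace ComplexConjugate ComplexOrder BoundedContinuousFunction
open Vale.Agent.P104 Vale.Agent.P082 Finset Filter Topology
open Vale.Agent.P096 (av av_map av_sub av_const₂)

universe u

namespace Sg

section ES

variable {E : Type*} [NormedAddCommGroup E] [InnerProductSpace ℂ E] {Λ : Type} [Fintype Λ]
  [Nonempty Λ]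

theorem card_av (f : Λ → E) : (Fintype.card Λ : ℂ) • av univ f = ∑ l, f l := by
  rw [av, smul_smul, card_univ, mul_inv_cancel₀ (by simp), one_smul]

theorem vard (f : Λ → E) (μ : E) : ∑ l, ‖f l - μ‖ ^ 2 =
    ∑ l, ‖f l - av univ f‖ ^ 2 + Fintype.card Λ * ‖av univ f - μ‖ ^ 2 := by
  have h0 : ∑ l, (f l - av univ f) = 0 := by
    rw [sum_sub_distrib, sum_const, card_univ, ← Nat.cast_smul_eq_nsmul ℂ, card_av, sub_self]
  have h1 : ∀ l, ‖f l - μ‖ ^ 2 = ‖f l - av univ f‖ ^ 2 +
      2 * (⟪f l - av univ f, av univ f - μ⟫_ℂ).re + ‖av univ f - μ‖ ^ 2 := fun l => by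
    rw [← sub_add_sub_cancel (f l) (av univ f) μ, norm_add_sq (𝕜 := ℂ)]
    rfl
  simp only [h1, sum_add_distrib]
  rw [← mul_sum, ← Complex.re_sum, ← sum_inner, h0, inner_zero_left]
  simp

theorem jen (f : Λ → E) : Fintype.card Λ * ‖av univ f‖ ^ 2 ≤ ∑ l, ‖f l‖ ^ 2 := by
  have := vard f 0
  simp only [sub_zero] at this
  rw [this]
  exact le_add_of_nonneg_left (by positivity)

omit [Nonempty Λ] in
theorem sm {N : ℕ} {V : Type*} [AddCommMonoid V] (φ : (Fin (N + 1) → Λ) → V) :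
    ∑ ω, φ ω = ∑ w : Fin N → Λ, ∑ l, φ (Fin.cons l w) := by
  rw [← (Fin.consEquiv fun _ => Λ).sum_comp, Fintype.sum_prod_type, sum_comm]
  rfl

theorem es (N : ℕ) : ∀ F : (Fin N → Λ) → E, Fintype.card Λ * ∑ ω, ‖F ω - av univ F‖ ^ 2 ≤
    ∑ B, ∑ ω, ∑ l, ‖F ω - F (Function.update ω B l)‖ ^ 2 := by
  induction N with
  | zero =>
    intro F
    have : ∀ ω, F ω = av univ F := fun ω => by
      rw [show F = fun _ => F ω from funext fun _ => congrArg F (Subsingleton.elim _ _),
        av_const₂ univ_nonempty]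
    simp only [fun ω => sub_eq_zero.2 (this ω)]
    simp
  | succ N ih =>
    intro F
    let G : (Fin N → Λ) → E := fun w => av univ fun l => F (Fin.cons l w)
    have e1 : av univ F = av univ G := by
      simp only [G, av, sm F, ← smul_sum, smul_smul, card_univ, Fintype.card_fun,
        Fintype.card_fin]
      congr 1
      push_cast
      rw [pow_succ, mul_inv]
    have c0 : (0 : ℝ) ≤ Fintype.card Λ := Nat.cast_nonneg _
    rw [e1, sm, Fin.sum_univ_succ]
    simp only [vard (fun l => F (Fin.cons l _)) (av univ G)]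
    rw [sum_add_distrib, mul_add, ← mul_sum]
    refine add_le_add ?_ ((mul_le_mul_of_nonneg_left (ih G) c0).trans ?_)
    · rw [sm, mul_sum]
      refine sum_le_sum fun w _ => ?_
      rw [mul_sum]
      refine sum_le_sum fun l _ => ?_
      simp only [Fin.update_cons_zero]
      have := jen fun l' => F (Fin.cons l w) - F (Fin.cons l' w)
      rwa [av_sub, av_const₂ univ_nonempty] at this
    · rw [mul_sum]
      refine sum_le_sum fun B _ => ?_
      rw [sm, mul_sum]
      refine sum_le_sum fun w _ => ?_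
      rw [mul_sum, sum_comm]
      refine sum_le_sum fun l' _ => ?_
      simp only [← Fin.cons_update]
      have := jen fun l => F (Fin.cons l w) - F (Fin.cons l (Function.update w B l'))
      rwa [av_sub] at this

theorem es_ex {N : ℕ} (F : (Fin N → Λ) → E) (φ : Fin N → (Fin N → Λ) → ℝ) {c : ℝ}
    (h : ∀ B ω l, ‖F ω - F (Function.update ω B l)‖ ^ 2 ≤ φ B ω) (hc : ∀ ω, ∑ B, φ B ω ≤ c) :
    ∃ ω, ‖F ω - av univ F‖ ^ 2 ≤ c := by
  have c0 : (0 : ℝ) < Fintype.card Λ := Nat.cast_pos.2 Fintype.card_pos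
  refine exists_le_of_sum_le (s := univ) univ_nonempty (le_of_mul_le_mul_left ((es N F).trans ?_) c0)
    |>.imp fun ω hω => hω.2
  rw [sum_comm, mul_sum]
  refine sum_le_sum fun ω _ => le_trans (sum_le_sum fun B _ => sum_le_sum fun l _ => h B ω l) ?_
  simp only [sum_const, card_univ, nsmul_eq_mul, ← mul_sum]
  exact mul_le_mul_of_nonneg_left (hc ω) c0.le

theorem av_coord {V : Type*} [AddCommGroup V] [Module ℂ V] {N : ℕ} (B : Fin N) (f : Λ → V) :
    av univ (fun ω : Fin N → Λ => f (ω B)) = av univ f := by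
  have e := (Equiv.funSplitAt B Λ).symm.sum_comp fun ω : Fin N → Λ => f (ω B)
  have c := Fintype.card_congr (Equiv.funSplitAt B Λ)
  simp only [Equiv.funSplitAt_symm_apply, dite_true, Fintype.sum_prod_type, sum_const,
    card_univ] at e
  rw [av, av, ← e, card_univ, card_univ, c, Fintype.card_prod, ← smul_sum,
    ← Nat.cast_smul_eq_nsmul ℂ, smul_smul]
  congr 1
  have : (Fintype.card ({ j // j ≠ B } → Λ) : ℂ) ≠ 0 := by simp
  push_cast
  field_simp

end ES

variable {H : Type u} [NormedAddCommGroup H] [InnerProductSpace ℂ H] [CompleteSpace H]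
  {A M : VonNeumannAlgebra H} {ξ : H}

theorem exG (m : P132.Mod M ξ) : ∃ L : H →L[ℂ] H, ‖L‖ ≤ 1 ∧
    (∀ z ∈ M, ‖L (z ξ)‖ ^ 2 ≤ (⟪z ξ, m.R z ξ⟫_ℂ).re) ∧
    ∀ T ∈ M, IsSelfAdjoint T → (L (T ξ), T ξ - L (T ξ)) ∈ P132.graphS M ξ := by
  obtain ⟨G, hG⟩ := P132.exists_fr one_pos one_pos (one_mul 1) zero_le_one le_rfl
  obtain ⟨w, hw⟩ := P132.exists_fr one_pos one_pos (one_mul 1) (r := 3 / 4) (by norm_num)
    (by norm_num)
  have nb : ∀ (f : ℝ →ᵇ ℂ) (r : ℝ), 0 ≤ r → r ≤ 1 →
      (∀ s, f s = ((Real.exp (r * s) / (1 + 1 * Real.exp s) : ℝ) : ℂ)) → ‖f‖ ≤ 1 :=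
    fun f r h0 h1 hf => (BoundedContinuousFunction.norm_le zero_le_one).2 fun s => by
      rw [hf, Complex.norm_real, Real.norm_of_nonneg (by positivity), div_le_one (by positivity)]
      rcases le_total s 0 with hs | hs
      · linarith [Real.exp_le_one_iff.2 (mul_nonpos_of_nonneg_of_nonpos h0 hs), Real.exp_pos s]
      · linarith [Real.exp_le_exp.2 (mul_le_of_le_one_left hs h1)]
  refine ⟨m.Φ G, (m.norm_Φ_le G).trans (nb G 1 zero_le_one le_rfl hG), fun z hz => ?_,
    fun T hT hs => ?_⟩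
  · refine le_of_tendsto_of_tendsto' ((m.cut (m.Φ G (z ξ))).norm.pow 2)
      ((Complex.continuous_re.tendsto _).comp ((m.cut (z ξ)).inner (m.cut (m.R z ξ)))) fun n => ?_
    obtain ⟨k, -, sk, ek⟩ := P132.exists_cm n (φ := fun s => Real.exp (s / 4)) (by fun_prop)
    have e1 : P132.chi n * G = w * k := by
      ext s
      simp only [BoundedContinuousFunction.mul_apply, hG, hw, ek]
      rw [mul_left_comm, ← Complex.ofReal_mul, div_mul_eq_mul_div, ← Real.exp_add]
      congr 4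
      ring
    have e2 : ∀ s, (k * k) s = (P132.chi n * P132.chi n) s * (Real.exp (s / 2) : ℝ) := fun s => by
      simp only [BoundedContinuousFunction.mul_apply, ek]
      rw [mul_mul_mul_comm, ← Complex.ofReal_mul, ← Real.exp_add]
      congr 3
      ring
    have b1 : ‖m.Φ (P132.chi n) (m.Φ G (z ξ))‖ ≤ ‖m.Φ k (z ξ)‖ := by
      rw [← m.Φ_mul_apply, e1, m.Φ_mul_apply]
      exact (m.norm_Φ_apply_le _ _).trans (mul_le_of_le_one_left (norm_nonneg _)
        (nb w _ (by norm_num) (by norm_num) hw))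
    refine (pow_le_pow_left₀ (norm_nonneg _) b1 2).trans (le_of_eq ?_)
    rw [Function.comp_apply, m.inner_sa (P132.star_chi n), ← m.Φ_mul_apply, m.Φ_R_ξ hz _ _ e2,
      m.Φ_mul_apply, ← m.inner_sa sk, ← RCLike.re_to_complex, inner_self_eq_norm_sq]
  · have l1 := m.cut (m.Φ G (T ξ))
    have l2 := m.cut (T ξ - m.Φ G (T ξ))
    refine isClosed_closure.mem_of_tendsto (l1.prodMk_nhds l2) (Eventually.of_forall fun n => ?_)
    obtain ⟨k, -, ek⟩ := P132.exists_exp (f := P132.chi n * G) (P132.chi_supp0 n).mul_right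
    have a1 := m.core _ k ek (T ξ)
    have a2 := m.graph _ (P132.mem_graphS (ξ := ξ) hT) _ k ek
    rw [hs.star_eq] at a2
    rw [← a2, m.JΦ _ (P132.chi n * (1 - G)) (fun s => ?_), m.JJ, m.Φ_mul_apply, m.Φ_mul_apply,
      map_sub, map_one] at a1
    · exact a1
    · have : 1 + Real.exp s ≠ 0 := by positivity
      have h2 : 1 + (Real.exp s)⁻¹ ≠ 0 := by positivity
      simp only [BoundedContinuousFunction.mul_apply, BoundedContinuousFunction.sub_apply,
        BoundedContinuousFunction.coe_one, Pi.one_apply, hG, P132.chi_apply, abs_neg, map_mul,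
        Complex.conj_ofReal, one_mul, Real.exp_neg]
      congr 1
      norm_cast
      field_simp
      ring

open R F2 in
theorem tb_of {T : H →L[ℂ] H} (hT : T ∈ M) (hs : IsSelfAdjoint T) {v : H}
    (hv : (v, T ξ - v) ∈ P132.graphS M ξ) {c τ : ℝ} (hc : 0 < c) (hτ : 0 < τ) (h : ‖v‖ ≤ τ) :
    Tb M ξ T (c + c) (c⁻¹ * (2 * τ) ^ 2 + c⁻¹ * (2 * τ) ^ 2) := by
  obtain ⟨_, ⟨a, ha, rfl⟩, hd⟩ := Metric.mem_closure_iff.1 hv τ hτ
  rw [dist_eq_norm] at hd
  have b1 : ‖v - a ξ‖ ≤ τ := (norm_fst_le ((v, T ξ - v) - (a ξ, star a ξ))).trans hd.le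
  have b2 : ‖T ξ - v - star a ξ‖ ≤ τ := (norm_snd_le ((v, T ξ - v) - (a ξ, star a ξ))).trans hd.le
  have k : ∀ a : H →L[ℂ] H, a + star a ≤ (c : ℂ) • 1 + ((c⁻¹ : ℝ) : ℂ) • (star a * a) := fun a => by
    have := smul_nn (inv_nonneg.2 hc.le) (star_mul_self_nonneg (a - (c : ℂ) • 1))
    have c0 : (c : ℂ) ≠ 0 := Complex.ofReal_ne_zero.2 hc.ne'
    rw [← sub_nonneg]
    convert this using 1
    simp only [star_sub, star_smul, star_one, Complex.star_def, Complex.conj_ofReal, sub_mul,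
      mul_sub, smul_mul_assoc, mul_smul_comm, one_mul, mul_one, Complex.ofReal_inv]
    match_scalars <;> field_simp <;> ring
  have t1 : Tb M ξ (a + star a) c (c⁻¹ * (2 * τ) ^ 2) := by
    refine ⟨((c⁻¹ : ℝ) : ℂ) • (star a * a), vn_smul_mem _ (mul_mem (star_mem ha) ha),
      smul_nn (inv_nonneg.2 hc.le) (star_mul_self_nonneg a), ?_, k a, ?_⟩
    · rw [ContinuousLinearMap.smul_apply, inner_smul_right, Complex.re_ofReal_mul, ← norm_sq_apply]
      gcongr
      have := norm_sub_norm_le (a ξ) v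
      rw [norm_sub_rev] at this
      linarith
    · simpa only [star_neg, neg_mul_neg, neg_add] using k (-a)
  have t2 : Tb M ξ (T - (a + star a)) c (c⁻¹ * (2 * τ) ^ 2) := by
    refine Tb.sq (sub_mem hT (add_mem ha (star_mem ha))) (hs.sub (IsSelfAdjoint.add_star_self a))
      hc ?_
    gcongr
    rw [show (T - (a + star a)) ξ = (v - a ξ) + (T ξ - v - star a ξ) by simp; abel]
    linarith [norm_add_le (v - a ξ) (T ξ - v - star a ξ)]
  simpa only [add_sub_cancel] using t1.add t2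

end Sg

end Vale.Agent.P078
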