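import Vale.Agent.P078.Sing0

/-! Averaging over the symmetries of the subalgebra. -/

namespace Vale.Agent.P078

open scoped InnerProductSpace ComplexConjugate ComplexOrder
open Vale.Agent.P104 Vale.Agent.P082 Finset Filter Topology
open Vale.Agent.P096 (av av_map av_sub av_const₂)

universe u

namespace Sg

section

variable {E : Type*} [NormedAddCommGroup E] [NormedSpace ℂ E]

theorem convex_mid {S : Set E} (hc : IsClosed S)
    (hm : ∀ a ∈ S, ∀ b ∈ S, (2⁻¹ : ℝ) • (a + b) ∈ S) : Convex ℝ S := by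
  intro a ha b hb s t hs ht hst
  let T : Set ℝ := {x | (1 - x) • a + x • b ∈ S}
  have cT : IsClosed T := hc.preimage (f := fun x : ℝ => (1 - x) • a + x • b) (by fun_prop)
  have mT : ∀ x ∈ T, ∀ y ∈ T, (x + y) / 2 ∈ T := fun x hx y hy => by
    have := hm _ hx _ hy
    change (1 - (x + y) / 2) • a + ((x + y) / 2) • b ∈ S
    convert this using 1
    module
  have bis : ∀ n : ℕ, ∃ x ∈ T, ∃ y ∈ T, x ≤ t ∧ t ≤ y ∧ y - x ≤ (1 / 2) ^ n := fun n => by
    induction n with
    | zero => exact ⟨0, by simpa [T] using ha, 1, by simpa [T] using hb, ht, by linarith, by simp⟩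
    | succ n ih =>
      obtain ⟨x, hx, y, hy, h1, h2, h3⟩ := ih
      rcases le_total t ((x + y) / 2) with h | h
      · exact ⟨x, hx, _, mT x hx y hy, h1, h, by rw [pow_succ]; linarith⟩
      · exact ⟨_, mT x hx y hy, y, hy, h, h2, by rw [pow_succ]; linarith⟩
  have : t ∈ T := by
    rw [← cT.closure_eq]
    refine Metric.mem_closure_iff.2 fun ε hε => ?_
    obtain ⟨n, hn⟩ := exists_pow_lt_of_lt_one hε (show (1 / 2 : ℝ) < 1 by norm_num)
    obtain ⟨x, hx, y, -, h1, h2, h3⟩ := bis n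
    exact ⟨x, hx, by rw [Real.dist_eq, abs_of_nonneg (by linarith)]; linarith⟩
  rw [show s = 1 - t by linarith]
  exact this

/-- Uniform averages of points of `O`. -/
def Dy (O : Set E) : Set E := {p | ∃ (ι : Type) (_ : Fintype ι) (_ : Nonempty ι) (f : ι → E),
  (∀ i, f i ∈ O) ∧ p = av univ f}

theorem hull_sub (O : Set E) : closure (convexHull ℝ O) ⊆ closure (Dy O) := by
  refine closure_minimal (convexHull_min (fun p hp => subset_closure
    ⟨Unit, inferInstance, inferInstance, fun _ => p, fun _ => hp, (av_const₂ univ_nonempty p).symm⟩)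
    (convex_mid isClosed_closure fun a ha b hb => ?_)) isClosed_closure
  refine map_mem_closure₂ (f := fun a b : E => (2⁻¹ : ℝ) • (a + b)) (by fun_prop) ha hb ?_
  rintro _ ⟨ι, _, _, f, h1, rfl⟩ _ ⟨κ, _, _, g, h2, rfl⟩
  refine ⟨(ι × κ) ⊕ (ι × κ), inferInstance, inferInstance,
    Sum.elim (fun x => f x.1) fun x => g x.2, ?_, ?_⟩
  · rintro (x | x)
    · exact h1 _
    · exact h2 _
  · have c1 : (Fintype.card ι : ℂ) ≠ 0 := by simp
    have c2 : (Fintype.card κ : ℂ) ≠ 0 := by simp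
    simp only [av, Fintype.sum_sum_type, Sum.elim_inl, Sum.elim_inr, Fintype.sum_prod_type,
      sum_const, card_univ, ← smul_sum, ← Nat.cast_smul_eq_nsmul ℂ, ← Complex.coe_smul, smul_add,
      smul_smul, Fintype.card_sum, Fintype.card_prod]
    congr 2
    · push_cast
      rw [← two_mul]
      field_simp
    · push_cast
      rw [← two_mul]
      field_simp

end

variable {H : Type u} [NormedAddCommGroup H] [InnerProductSpace ℂ H] [CompleteSpace H]
  {A M : VonNeumannAlgebra H} {ξ : H}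

/-- A symmetry of `A`. -/
def Sy (A : VonNeumannAlgebra H) (u : H →L[ℂ] H) : Prop := u ∈ A ∧ star u = u ∧ u * u = 1

theorem Sy.norm {u : H →L[ℂ] H} (h : Sy A u) : ‖u‖ ≤ 1 := P096.norm_iso_le (by rw [h.2.1, h.2.2])

theorem Sy.mul (hA : IsMasa A M) {u v : H →L[ℂ] H} (h : Sy A u) (h' : Sy A v) : Sy A (u * v) := by
  have c := hA.2.1 _ h.1 _ h'.1
  refine ⟨mul_mem h.1 h'.1, by rw [star_mul, h.2.1, h'.2.1, c], ?_⟩
  nth_rw 2 [c]
  rw [mul_assoc, ← mul_assoc v, h'.2.2, one_mul, h.2.2]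

theorem half_le {y z : H →L[ℂ] H} (hy : ‖y‖ ≤ 1) (hz : ‖z‖ ≤ 1) : ‖(2⁻¹ : ℂ) • (y + z)‖ ≤ 1 := by
  rw [norm_smul, norm_inv, Complex.norm_ofNat]
  linarith [norm_add_le y z]

theorem Sy.conj_le {u y : H →L[ℂ] H} (h : Sy A u) (hy : ‖y‖ ≤ 1) : ‖u * y * u‖ ≤ 1 := by
  simpa using P096.nm_le (P096.nm_le h.norm hy) h.norm

/-- Iterated averaging. -/
noncomputable def El (x : H →L[ℂ] H) : List (H →L[ℂ] H) → H →L[ℂ] H
  | [] => x
  | u :: l => (2⁻¹ : ℂ) • (El x l + u * El x l * u)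

theorem el (hA : IsMasa A M) {x h : H →L[ℂ] H} (hx : x ∈ M) (hs : star x = x) (hn : ‖x‖ ≤ 1)
    (hh : h ∈ A) (e : h * x = x) (ζ : H) (l : List (H →L[ℂ] H)) (hl : ∀ u ∈ l, Sy A u) :
    El x l ∈ M ∧ star (El x l) = El x l ∧ ‖El x l‖ ≤ 1 ∧ h * El x l = El x l ∧
      (∀ v, Sy A v → (v * El x l * v) ζ ∈ convexHull ℝ {η | ∃ u, Sy A u ∧ η = (u * x * u) ζ}) ∧
      ∀ u ∈ l, u * El x l = El x l * u := by
  induction l with
  | nil => exact ⟨hx, hs, hn, e, fun v hv => subset_convexHull _ _ ⟨v, hv, rfl⟩, by simp⟩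
  | cons w l ih =>
    obtain ⟨a1, a2, a3, a4, a5, a6⟩ := ih fun u hu => hl u (List.mem_cons_of_mem _ hu)
    have hw := hl w List.mem_cons_self
    have wM := hA.1 _ hw.1
    refine ⟨vn_smul_mem _ (add_mem a1 (mul_mem (mul_mem wM a1) wM)), ?_, half_le a3 (hw.conj_le a3),
      ?_, fun v hv => ?_, fun u hu => ?_⟩
    · simp [El, a2, hw.2.1, mul_assoc]
    · rw [El, mul_smul_comm, mul_add, a4, ← mul_assoc, ← mul_assoc, hA.2.1 _ hh _ hw.1,
        mul_assoc w, a4]
    · have := convex_convexHull ℝ _ (a5 v hv) (a5 _ (hv.mul hA hw)) (a := 2⁻¹) (b := 2⁻¹)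
        (by norm_num) (by norm_num) (by norm_num)
      convert this using 1
      nth_rw 2 [hA.2.1 _ hv.1 _ hw.1]
      simp only [El, mul_smul_comm, smul_mul_assoc, mul_add, add_mul, mul_assoc,
        ContinuousLinearMap.smul_apply, ContinuousLinearMap.add_apply, ← Complex.coe_smul]
      push_cast
      rw [smul_add]
    · rcases List.mem_cons.1 hu with rfl | hu
      · simp only [El, mul_smul_comm, smul_mul_assoc, mul_add, add_mul, ← mul_assoc, hw.2.2, one_mul]
        rw [mul_assoc _ u u, hw.2.2, mul_one, add_comm]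
      · have c := hA.2.1 _ (hl u (List.mem_cons_of_mem _ hu)).1 _ hw.1
        simp only [El, mul_smul_comm, smul_mul_assoc, mul_add, add_mul, a6 u hu]
        rw [← mul_assoc, ← mul_assoc, c, mul_assoc w, a6 u hu, mul_assoc, mul_assoc, c]
        simp only [mul_assoc]

theorem avgA (hA : IsMasa A M) {x h : H →L[ℂ] H} (hx : x ∈ M) (hs : star x = x) (hn : ‖x‖ ≤ 1)
    (hh : h ∈ A) (e : h * x = x) (ζ : H) {τ : ℝ} (hτ : 0 < τ) :
    ∃ a ∈ A, IsSelfAdjoint a ∧ ‖a‖ ≤ 1 ∧ h * a = a ∧ ∃ (ι : Type) (_ : Fintype ι) (_ : Nonempty ι)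
      (u : ι → H →L[ℂ] H), (∀ i, Sy A (u i)) ∧ ‖av univ (fun i => (u i * x * u i) ζ) - a ζ‖ ≤ τ := by
  classical
  let D := Finset {u // Sy A u}
  have k := fun S : D => el hA hx hs hn hh e ζ (S.toList.map Subtype.val) (by
    intro u hu
    obtain ⟨v, -, rfl⟩ := List.mem_map.1 hu
    exact v.2)
  let y : D → Alg M := fun S => ⟨_, (k S).1⟩
  have hb : ∀ S, ‖y S‖ ≤ 1 := fun S => (k S).2.2.1
  let U := Ultrafilter.of (atTop : Filter D)
  have sp := wlim_spec (U := U) hb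
  have nb : ∀ (z : Alg M) S, ‖z * y S‖ ≤ ‖z‖ * 1 ∧ ‖y S * z‖ ≤ 1 * ‖z‖ := fun z S =>
    ⟨P096.nm_le le_rfl (hb S), P096.nm_le (hb S) le_rfl⟩
  have aA : (wlim U y).1 ∈ A := hA.mem_of_proj (wlim U y).2 fun p hp pp => by
    have su : Sy A (1 - (p + p)) := ⟨sub_mem (one_mem _) (add_mem hp hp), by
      rw [star_sub, star_add, star_one, pp.isSelfAdjoint.star_eq], by
      simp only [mul_sub, sub_mul, mul_add, add_mul, pp.isIdempotentElem.eq, one_mul, mul_one]
      abel⟩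
    let z : Alg M := ⟨_, hA.1 _ su.1⟩
    have c : wlim U (fun S => z * y S) = wlim U fun S => y S * z :=
      wlim_congr (fun S => (nb z S).1) (fun S => (nb z S).2) (Ultrafilter.of_le _
        ((eventually_ge_atTop ({⟨_, su⟩} : D)).mono fun S hS => Subtype.ext ((k S).2.2.2.2.2 _
          (List.mem_map.2 ⟨⟨_, su⟩, mem_toList.2 (hS (mem_singleton_self _)), rfl⟩))))
    rw [wlim_mul_left hb, wlim_mul_right hb] at c
    have c' : (1 - (p + p)) * (wlim U y).1 = (wlim U y).1 * (1 - (p + p)) := congrArg Subtype.val c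
    rw [sub_mul, mul_sub, one_mul, mul_one, sub_right_inj, add_mul, mul_add, ← two_smul ℂ,
      ← two_smul ℂ] at c'
    exact smul_right_injective _ two_ne_zero c'
  have cl : (wlim U y).1 ζ ∈ closure (convexHull ℝ {η | ∃ u, Sy A u ∧ η = (u * x * u) ζ}) := by
    have o1 : Sy A 1 := ⟨one_mem _, star_one _, one_mul _⟩
    refine P132.mem_closure_of_inner _ ⟨_, (k ∅).2.2.2.2.1 1 o1⟩
      (fun p hp q hq s t hs ht hst => ?_) _ fun p _ ε hε => ?_
    · simpa only [Complex.coe_smul] using convex_convexHull ℝ _ hp hq hs ht hst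
    · have := (Complex.continuous_re.tendsto _).comp ((sp ζ ((wlim U y).1 ζ - p)).sub_const
        ⟪(wlim U y).1 ζ - p, (wlim U y).1 ζ⟫_ℂ)
      rw [sub_self, Complex.zero_re] at this
      obtain ⟨S, hS⟩ := (this.eventually (lt_mem_nhds (neg_lt_zero.2 hε))).exists
      refine ⟨(y S).1 ζ, by simpa only [one_mul, mul_one] using (k S).2.2.2.2.1 1 o1, ?_⟩
      rw [inner_sub_right]
      exact hS.le
  obtain ⟨_, ⟨ι, i1, i2, f, hf, rfl⟩, hd⟩ := Metric.mem_closure_iff.1 (hull_sub _ cl) τ hτ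
  choose u hu e' using hf
  refine ⟨_, aA, ?_, wlim_norm_le hb, ?_, ι, i1, i2, u, hu, ?_⟩
  · ext η
    refine ext_inner_left ℂ fun θ => ?_
    rw [inner_star_right, ← inner_conj_symm]
    refine tendsto_nhds_unique ((Complex.continuous_conj.tendsto _).comp (sp θ η))
      ((sp η θ).congr fun S => ?_)
    rw [Function.comp_apply, inner_conj_symm, ← inner_star_right]
    exact congrArg (fun T : H →L[ℂ] H => ⟪θ, T η⟫_ℂ) (k S).2.1.symm
  · have c := wlim_mul_left (U := U) hb ⟨h, hA.1 _ hh⟩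
    rw [show (fun S => (⟨h, hA.1 _ hh⟩ : Alg M) * y S) = y from
      funext fun S => Subtype.ext (k S).2.2.2.1] at c
    exact (congrArg Subtype.val c).symm
  · rw [dist_comm, dist_eq_norm, funext e'] at hd
    exact hd.le

end Sg

end Vale.Agent.P078
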