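import Vale.Agent.P078.Fin
import Vale.Agent.P078.VN

/-! Interfaces for the extension to all maximal abelian subalgebras of tracial algebras. -/

namespace Vale.Agent.P078

open scoped InnerProductSpace

universe u

/-- `a` is the conditional expectation of `z` onto `A`. -/
def IsE {H : Type u} [NormedAddCommGroup H] [InnerProductSpace ℂ H] [CompleteSpace H]
    (A : VonNeumannAlgebra H) (ξ : H) (z a : H →L[ℂ] H) : Prop :=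
  a ∈ A ∧ ∀ b ∈ A, ⟪ξ, (b * a) ξ⟫_ℂ = ⟪ξ, (b * z) ξ⟫_ℂ

/-- The fibre measures of `y` have no atoms. -/
def NoAtom {H : Type u} [NormedAddCommGroup H] [InnerProductSpace ℂ H] [CompleteSpace H]
    (A : VonNeumannAlgebra H) (ξ : H) (y : H →L[ℂ] H) : Prop :=
  ∀ η : ℝ, 0 < η → ∃ (n : ℕ) (f t : Fin n → H →L[ℂ] H), IsPartition A f ∧
    (∀ l, IsE A ξ (star y * f l * y) (t l)) ∧ ∑ l, ‖t l ξ‖ ^ 2 ≤ η

/-- WP B: a random colouring of small blocks. -/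
def BlockStmt : Prop := ∀ r n : ℕ, 4 ≤ r → ∃ C : ℝ, ∀ (H : Type u) [NormedAddCommGroup H]
  [InnerProductSpace ℂ H] [CompleteSpace H] (N : ℕ) (e : Fin N → H →L[ℂ] H),
  (∀ a, IsStarProjection (e a)) → (∀ a b, a ≠ b → e a * e b = 0) → ∑ a, e a = 1 →
  ∀ y : H →L[ℂ] H, IsSelfAdjoint y → ‖y‖ ≤ 1 → ∀ ε : ℝ, (∀ a b, ‖e a * y * e b‖ ≤ ε) →
  ∀ ξ : H, ‖ξ‖ = 1 → ∃ ω : Fin N → Fin r,
    (⟪ξ, (R.pin (fun k => ∑ a with ω a = k, e a) y ^ n) ξ⟫_ℂ).re ≤ (2 / √r) ^ n + C * ε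

/-- WP W: an element orthogonal to the normalizer has no atoms. -/
def WMStmt : Prop := ∀ (H : Type u) [NormedAddCommGroup H] [InnerProductSpace ℂ H]
  [CompleteSpace H] (A M : VonNeumannAlgebra H) (ξ : H), IsMasa A M → TraceVec M ξ →
  ∀ y ∈ M, (∀ b ∈ R.nsp A M, ⟪b ξ, y ξ⟫_ℂ = 0) → NoAtom A ξ y

/-- WP L: small blocks after a small cut. -/
def CutStmt : Prop := ∀ (H : Type u) [NormedAddCommGroup H] [InnerProductSpace ℂ H]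
  [CompleteSpace H] (A M : VonNeumannAlgebra H) (ξ : H), IsMasa A M → TraceVec M ξ →
  ∀ y ∈ M, NoAtom A ξ y → ∀ ε : ℝ, 0 < ε → ∃ (N : ℕ) (e : Fin N → H →L[ℂ] H), IsPartition A e ∧
    ∃ q ∈ M, IsStarProjection q ∧ ‖(1 - q) ξ‖ ≤ ε ∧ ∀ a b, ‖e a * (q * y * q) * e b‖ ≤ ε

/-- WP E: splitting along the algebra of the normalizer. -/
def EBStmt : Prop := ∀ (H : Type u) [NormedAddCommGroup H] [InnerProductSpace ℂ H]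
  [CompleteSpace H] (A M : VonNeumannAlgebra H) (ξ : H), IsMasa A M → TraceVec M ξ →
  ∀ x ∈ M, IsSelfAdjoint x → ‖x‖ ≤ 1 → ∀ η : ℝ, 0 < η → ∃ x₀ ∈ R.nsp A M, ∃ y ∈ M,
    IsSelfAdjoint x₀ ∧ IsSelfAdjoint y ∧ ‖x₀‖ ≤ 1 ∧ ‖y‖ ≤ 2 ∧
    (∀ b ∈ R.nsp A M, ⟪b ξ, y ξ⟫_ℂ = 0) ∧ ‖(x - x₀ - y) ξ‖ ≤ η

/-- WP G: two-sided paving of elements without atoms. -/
def WPaveStmt : Prop := ∀ (H : Type u) [NormedAddCommGroup H] [InnerProductSpace ℂ H]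
  [CompleteSpace H] (A M : VonNeumannAlgebra H) (ξ : H), IsMasa A M → TraceVec M ξ →
  ∀ m : ℕ, 2 ≤ m → ∀ y ∈ M, IsSelfAdjoint y → ‖y‖ ≤ 1 → NoAtom A ξ y → ∀ η : ℝ, 0 < η →
  ∃ p : Fin (m ^ 2) → H →L[ℂ] H, IsPartition A p ∧ ∃ w ∈ M, 0 ≤ w ∧ (⟪ξ, w ξ⟫_ℂ).re ≤ η ∧
    R.pin p y ≤ ((5 / m : ℝ) : ℂ) • 1 + w ∧ -R.pin p y ≤ ((5 / m : ℝ) : ℂ) • 1 + w

/-- The final statement for all tracial inclusions. -/
def Final2Stmt : Prop := ∃ C : ℝ, ∀ (H : Type u) [NormedAddCommGroup H] [InnerProductSpace ℂ H]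
  [CompleteSpace H] (A M : VonNeumannAlgebra H) (ξ : H), IsMasa A M →
  TraceVec M ξ → ∀ ε : ℝ, 0 < ε → ε < 1 → ∃ r : ℕ, 1 ≤ r ∧ (r : ℝ) ≤ C / ε ^ 6 ∧
    ∀ x ∈ M, IsSelfAdjoint x → SoPavable A M x ε r

end Vale.Agent.P078
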