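import Vale.Agent.P078.Stm2

/-! Interfaces for the optimal number of pieces. -/

namespace Vale.Agent.P078

open scoped InnerProductSpace ComplexConjugate
open Polynomial

universe u

/-- WP M: convex traces are monotone in the coupling. -/
def MonoStmt : Prop := ∀ Q : ℝ[X], ConvexOn ℝ (Set.Icc (-1 : ℝ) 1) (fun t => Q.eval t) →
  ∀ N s₀ s : ℂ[X], N.Monic → (∀ z, N.IsRoot z → z.im = 0) → s₀.degree < N.degree →
  s.degree < N.degree → (∀ z : ℂ, 0 < z.im → (s₀.eval z * conj (N.eval z)).im ≤ 0) →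
  (∀ z : ℂ, 0 < z.im → (s.eval z * conj (N.eval z)).im ≤ 0) → RR (X * N - s₀ - s) →
  trQ Q (X * N - s₀) ≤ trQ Q (X * N - s₀ - s)

/-- Two-sided paving of finite combinations of normalizing unitaries. -/
def Core2Stmt : Prop := ∀ (H : Type u) [NormedAddCommGroup H] [InnerProductSpace ℂ H]
  [CompleteSpace H] (A M : VonNeumannAlgebra H) (ξ : H), IsMasa A M → TraceVec M ξ →
  ∀ m : ℕ, 2 ≤ m → ∀ x ∈ Submodule.span ℂ {u | Normalizes A M u}, IsSelfAdjoint x → ‖x‖ ≤ 1 →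
  (∀ a ∈ A, ⟪ξ, (a * x) ξ⟫_ℂ = 0) → ∀ η : ℝ, 0 < η →
  ∃ p : Fin (m ^ 2) → H →L[ℂ] H, IsPartition A p ∧ ∃ w ∈ M, 0 ≤ w ∧ (⟪ξ, w ξ⟫_ℂ).re ≤ η ∧
    R.pin p x ≤ ((12 / m : ℝ) : ℂ) • 1 + w ∧ -R.pin p x ≤ ((12 / m : ℝ) : ℂ) • 1 + w

/-- The final statement: order `ε⁻⁴` in general and the optimal order `ε⁻²` for regular ones. -/
def Final3Stmt : Prop := ∃ C : ℝ, ∀ (H : Type u) [NormedAddCommGroup H] [InnerProductSpace ℂ H]
  [CompleteSpace H] (A M : VonNeumannAlgebra H) (ξ : H), IsMasa A M →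
  TraceVec M ξ → ∀ ε : ℝ, 0 < ε → ε < 1 →
    (∃ r : ℕ, 1 ≤ r ∧ (r : ℝ) ≤ C / ε ^ 4 ∧ ∀ x ∈ M, IsSelfAdjoint x → SoPavable A M x ε r) ∧
    (Regular A M → ∃ r : ℕ, 1 ≤ r ∧ (r : ℝ) ≤ C / ε ^ 2 ∧
      ∀ x ∈ M, IsSelfAdjoint x → SoPavable A M x ε r)

end Vale.Agent.P078
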