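import Vale.Agent.P078.Fin2
import Vale.Agent.P078.Defs3
import Vale.Agent.P132.Tools

/-! Interfaces for the non-tracial extension. -/

namespace Vale.Agent.P078

open scoped InnerProductSpace

universe u

/-- WP Sing: two-level random signs when the central part of the vector is small. -/
def SingStmt : Prop := ∀ (H : Type u) [NormedAddCommGroup H] [InnerProductSpace ℂ H]
  [CompleteSpace H] (A M : VonNeumannAlgebra H) (ξ : H) (m : P132.Mod M ξ), IsMasa A M →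
  P132.CycSep M ξ → ∀ g ∈ M, IsStarProjection g → m.R g ξ = g ξ → ∀ (s : ℕ) (η : ℝ), 0 < η →
  ∃ κ : ℝ, 0 < κ ∧ ∀ h ∈ A, IsStarProjection h → ∀ (n : ℕ) (e : Fin n → H →L[ℂ] H),
    IsPartition A e → ‖∑ i, h (e i (m.R (e i) (g ξ)))‖ ≤ κ → ∀ x ∈ M, IsSelfAdjoint x → ‖x‖ ≤ 1 →
    h * x * h = x → ∃ p : Fin (2 ^ s) → H →L[ℂ] H, IsPartition A p ∧ ∃ a ∈ A, IsSelfAdjoint a ∧
      ‖a‖ ≤ 1 ∧ h * a = a ∧ F2.Tb M ξ (g * (R.pin p x - a) * g) ((1 / 2) ^ s + η) η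

/-- WP Proj: pinchings of a vector converge to a central vector. -/
def ProjStmt : Prop := ∀ (H : Type u) [NormedAddCommGroup H] [InnerProductSpace ℂ H]
  [CompleteSpace H] (A M : VonNeumannAlgebra H) (ξ : H) (m : P132.Mod M ξ), IsMasa A M →
  ∀ v : H, ∃ ζ : H, (∀ a ∈ A, a ζ = m.R a ζ) ∧ ∀ κ : ℝ, 0 < κ →
    ∃ (n : ℕ) (e : Fin n → H →L[ℂ] H), IsPartition A e ∧ ∀ (n' : ℕ) (e' : Fin n' → H →L[ℂ] H),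
      IsPartition A e' → (∀ j, ∃ i, e i * e' j = e' j) → ‖∑ j, e' j (m.R (e' j) v) - ζ‖ ≤ κ

/-- WP Avg: a tracial corner over `A`. -/
def AvgStmt : Prop := ∀ (H : Type u) [NormedAddCommGroup H] [InnerProductSpace ℂ H]
  [CompleteSpace H] (A M : VonNeumannAlgebra H) (ξ : H) (m : P132.Mod M ξ), IsMasa A M →
  P132.CycSep M ξ → ∀ g ∈ M, IsStarProjection g → (∀ x ∈ M, m.R (g * x * g) ξ = (g * x * g) ξ) →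
  ∀ κ : ℝ, 0 < κ → ∃ f ∈ A, IsStarProjection f ∧ ∃ ζ : H, f ζ = ζ ∧
    (∀ x ∈ M, ∀ y ∈ M, ⟪ζ, (f * x * f * y * f) ζ⟫_ℂ = ⟪ζ, (f * y * f * x * f) ζ⟫_ℂ) ∧
    (∀ x ∈ M, (f * x * f) ζ = 0 → f * x * f = 0) ∧ ∃ (n : ℕ) (e : Fin n → H →L[ℂ] H),
      IsPartition A e ∧ ‖∑ i, (1 - f) (e i (m.R (e i) (g ξ)))‖ ≤ κ

/-- WP Cor: paving in a tracial corner. -/
def CorStmt : Prop := ∀ (H : Type u) [NormedAddCommGroup H] [InnerProductSpace ℂ H]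
  [CompleteSpace H] (A M : VonNeumannAlgebra H), IsMasa A M → ∀ f ∈ A, IsStarProjection f →
  ∀ ζ : H, f ζ = ζ →
  (∀ x ∈ M, ∀ y ∈ M, ⟪ζ, (f * x * f * y * f) ζ⟫_ℂ = ⟪ζ, (f * y * f * x * f) ζ⟫_ℂ) →
  (∀ x ∈ M, (f * x * f) ζ = 0 → f * x * f = 0) → ∀ m : ℕ, 2 ≤ m → ∀ η : ℝ, 0 < η →
  ∀ x ∈ M, IsSelfAdjoint x → ‖x‖ ≤ 1 → ∀ (v : H) (θ : ℝ), 0 < θ →
  ∃ p : Fin (m ^ 2 * m ^ 2 * m ^ 2) → H →L[ℂ] H, IsPartition A p ∧ ∃ a ∈ A, IsSelfAdjoint a ∧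
    ‖a‖ ≤ 1 ∧ f * a = a ∧ ∃ q ∈ M, IsStarProjection q ∧ f * q = q ∧ ‖(f - q) v‖ ≤ θ ∧
      ‖q * (R.pin p x - a) * q‖ ≤ 20 / m + 2 * η

/-- The final statement. -/
def FinalNStmt : Prop := ∃ C : ℝ, ∀ (H : Type u) [NormedAddCommGroup H] [InnerProductSpace ℂ H]
  [CompleteSpace H] (A M : VonNeumannAlgebra H), IsMasa A M → ∀ ε : ℝ, 0 < ε → ε < 1 →
  (((∃ ξ, TraceVec M ξ) ∨ StdSemifinite M) → ∃ r : ℕ, 1 ≤ r ∧ (r : ℝ) ≤ C / ε ^ 6 ∧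
    ∀ x ∈ M, IsSelfAdjoint x → SoPavable A M x ε r) ∧
  ((∃ ξ, StdVec M ξ) → NoExp A M → ∃ r : ℕ, 1 ≤ r ∧ (r : ℝ) ≤ C / ε ∧
    ∀ x ∈ M, IsSelfAdjoint x → SoPavable A M x ε r)

end Vale.Agent.P078
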