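import Vale.Agent.P078.Defs

/-! Interfaces of the work packages. -/

namespace Vale.Agent.P078

open scoped InnerProductSpace ComplexConjugate
open Polynomial

universe u

/-- WP P, part 1: fractions with nonnegative residues. -/
def PFStmt : Prop := ∀ p s : ℂ[X], p ≠ 0 → (∀ z, p.IsRoot z → z.im = 0) →
  s.natDegree ≤ p.natDegree → (∀ z : ℂ, 0 < z.im → (s.eval z * conj (p.eval z)).im ≤ 0) →
  ∃ (c : ℂ) (Λ : Finset ℝ) (ρ : ℝ → ℝ) (d : ℝ → ℂ[X]),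
    (∀ l ∈ Λ, 0 ≤ ρ l ∧ p = (X - C (l : ℂ)) * d l) ∧ s = C c * p + ∑ l ∈ Λ, C (ρ l : ℂ) * d l

/-- WP P, part 2: a Harnack inequality replacing the theorem of Hurwitz. -/
def HarStmt : Prop := ∀ (n : ℕ) (σ : ℝ) (z w : ℂ), 0 < σ * z.im → ∃ κ : ℝ, 0 < κ ∧ ∀ p : ℂ[X],
  p.natDegree ≤ n → (∀ t, p.IsRoot t → σ * t.im ≤ 0) → κ * ‖p.eval w‖ ≤ ‖p.eval z‖

/-- WP P, part 3: one step of the barrier argument. -/
def BarStmt : Prop := ∀ (r : ℕ) (p s : ℂ[X]) (φ δ : ℝ), 2 ≤ r → p.natDegree ≤ r →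
  s.natDegree ≤ r → p.coeff r ≠ 0 → (∀ z, p.IsRoot z → z.im = 0 ∧ z.re < 0) →
  (∀ z : ℂ, 0 < z.im → (s.eval z * conj (p.eval z)).im ≤ 0) → 0 < φ →
  (p.coeff 1 / p.coeff 0).re ≤ φ → r * δ * φ = ((r : ℝ) - 1) ^ 2 →
  p.coeff (r - 1) - r * δ * p.coeff r ≠ 0 ∧
    ((s.coeff (r - 1) - r * δ * s.coeff r) / (p.coeff (r - 1) - r * δ * p.coeff r)).re ≤
      (s.coeff 0 / p.coeff 0).re

/-- The sum of the values of `Q` at the roots of `p`. -/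
noncomputable def trQ (Q : ℝ[X]) (p : ℂ[X]) : ℝ := (p.roots.map fun z => Q.eval z.re).sum

/-- Monic with all roots in `[-1, 1]`. -/
def RR (p : ℂ[X]) : Prop := p.Monic ∧ ∀ z, p.IsRoot z → z.im = 0 ∧ |z.re| ≤ 1

/-- WP Q: the potential. -/
def QStmt : Prop := ∀ b E θ : ℝ, b < E → 0 < θ → θ ≤ 1 / 2 → ∃ Q : ℝ[X],
  (∀ t, |t| ≤ 1 → -θ ≤ Q.eval t ∧ Q.eval t ≤ 4 ∧ (t ≤ b → Q.eval t ≤ θ) ∧
    (E ≤ t → 1 ≤ Q.eval t)) ∧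
  ∀ (r : ℕ) (w : Fin r → ℝ) (p₀ p : ℂ[X]) (q : Fin r → ℂ[X]), (∀ c, 0 ≤ w c) → ∑ c, w c = 1 →
    p = ∑ c, C (w c : ℂ) * q c → RR p₀ → RR p → (∀ c, RR (q c)) →
    (∀ c, (q c).natDegree = p₀.natDegree + 1) → p.natDegree = p₀.natDegree + 1 →
    (∀ c (z : ℂ), 0 < z.im → 0 < ((q c).eval z / p₀.eval z).im) →
    ∃ c, trQ Q (q c) ≤ trQ Q p + θ

/-- WP V, part 1: the conditional expectation. -/
def CEStmt : Prop := ∀ (H : Type u) [NormedAddCommGroup H] [InnerProductSpace ℂ H]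
  [CompleteSpace H] (A M : VonNeumannAlgebra H) (ξ : H), IsMasa A M → TraceVec M ξ →
  ∀ y ∈ M, ∃ a ∈ A, ‖a‖ ≤ ‖y‖ ∧ ∀ b ∈ A, ⟪ξ, (b * a) ξ⟫_ℂ = ⟪ξ, (b * y) ξ⟫_ℂ

/-- WP V, part 2: a spectral projection. -/
def SpecStmt : Prop := ∀ (H : Type u) [NormedAddCommGroup H] [InnerProductSpace ℂ H]
  [CompleteSpace H] (M : VonNeumannAlgebra H), ∀ t ∈ M, IsSelfAdjoint t →
  ∃ e ∈ M, IsStarProjection e ∧ e * t = t * e ∧ 0 ≤ e * t * e ∧ (1 - e) * t * (1 - e) ≤ 0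

/-- WP V, part 3: separated projections. -/
def SepStmt : Prop := ∀ (H : Type u) [NormedAddCommGroup H] [InnerProductSpace ℂ H]
  [CompleteSpace H] (A M : VonNeumannAlgebra H) (ξ : H), IsMasa A M → TraceVec M ξ →
  ∀ B : Finset (H →L[ℂ] H), (∀ g ∈ B, Normalizes A M g) → ∀ η : ℝ, 0 < η →
  ∃ (n : ℕ) (e : Fin n → H →L[ℂ] H), (∀ j, e j ∈ A ∧ IsStarProjection (e j)) ∧
    (∀ i j, i ≠ j → e i * e j = 0) ∧ (⟪ξ, (1 - ∑ j, e j) ξ⟫_ℂ).re ≤ η ∧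
    ∀ j, ∀ g ∈ B, e j * g * e j ∈ A

/-- One-sided paving of finite combinations of normalizing unitaries. -/
def CoreStmt : Prop := ∀ (H : Type u) [NormedAddCommGroup H] [InnerProductSpace ℂ H]
  [CompleteSpace H] (A M : VonNeumannAlgebra H) (ξ : H), IsMasa A M → TraceVec M ξ →
  ∀ m : ℕ, 2 ≤ m → ∀ x ∈ Submodule.span ℂ {u | Normalizes A M u}, IsSelfAdjoint x → ‖x‖ ≤ 1 →
  (∀ a ∈ A, ⟪ξ, (a * x) ξ⟫_ℂ = 0) → ∀ η : ℝ, 0 < η →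
  ∃ p : Fin (m ^ 2) → H →L[ℂ] H, IsPartition A p ∧ ∃ w ∈ M, 0 ≤ w ∧ (⟪ξ, w ξ⟫_ℂ).re ≤ η ∧
    ∑ i, p i * x * p i ≤ ((5 / m : ℝ) : ℂ) • 1 + w

/-- The final statement. -/
def FinalStmt : Prop := ∃ C : ℝ, ∀ (H : Type u) [NormedAddCommGroup H] [InnerProductSpace ℂ H]
  [CompleteSpace H] (A M : VonNeumannAlgebra H) (ξ : H), IsMasa A M → Regular A M →
  TraceVec M ξ → ∀ ε : ℝ, 0 < ε → ε < 1 → ∃ r : ℕ, 1 ≤ r ∧ (r : ℝ) ≤ C / ε ^ 4 ∧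
    ∀ x ∈ M, IsSelfAdjoint x → SoPavable A M x ε r

end Vale.Agent.P078
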