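import Vale.Agent.P078.T4
import Vale.Agent.P078.Mono

/-! Local moves for mixed products. -/

namespace Vale.Agent.P078.T

open Finset Polynomial
open scoped ComplexConjugate PowerSeries

variable {ι : Type*} [DecidableEq ι] {r n : ℕ}

section Ring

variable {R : Type*} [CommRing R]

theorem dS_row {N N' : ι → ι → R} {S : Finset ι} {v : ι} (hv : v ∈ S) {w : R}
    (H : ∀ i j, i ≠ v → N' i j = N i j)
    (H' : ∀ j, N' v j = w * N v j + (1 - w) * if v = j then 1 else 0) :
    dS N' S = w * dS N S + (1 - w) * dS N (S.erase v) := by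
  have e : (Matrix.of fun i j : S => N' i j) = (Matrix.of fun i j : S => N i j).updateRow ⟨v, hv⟩
      (w • (Matrix.of fun i j : S => N i j) ⟨v, hv⟩ + (1 - w) • Pi.single ⟨v, hv⟩ 1) := by
    ext i j
    by_cases hi : i = ⟨v, hv⟩
    · subst hi
      simp [H', Pi.single_apply, Subtype.ext_iff, eq_comm]
    · have : i.1 ≠ v := fun c => hi (Subtype.ext c)
      simp [H _ _ this, hi]
  rw [dS, e, Matrix.det_updateRow_add, Matrix.det_updateRow_smul, Matrix.det_updateRow_smul,
    Matrix.updateRow_eq_self, ← Matrix.adjugate_apply, dS_adj]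
  rfl

/-- Products of minors with scaled rows. -/
def PP (col : ι → Fin n) (Y : ι → ι → R) (γ : ι → R) (W : Finset ι) : R :=
  ∏ c, dS (fun i j => (if i = j then 1 else 0) - γ i * Y i j) (W.filter fun i => col i = c)

theorem PP_step (col : ι → Fin n) (Y : ι → ι → R) (γ : ι → R) {W : Finset ι} {v : ι}
    (hv : v ∉ W) : PP col Y γ (insert v W) =
      γ v * PP col Y (Function.update γ v 1) (insert v W) + (1 - γ v) * PP col Y γ W := by
  have k : ∀ c, dS (fun i j => (if i = j then 1 else 0) - Function.update γ v 1 i * Y i j)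
      (W.filter fun i => col i = c) = dS (fun i j => (if i = j then 1 else 0) - γ i * Y i j)
      (W.filter fun i => col i = c) := fun c => dS_congr fun i hi j _ => by
    rw [Function.update_of_ne fun e : i = v => hv (e ▸ (mem_filter.1 hi).1)]
  have e1 : ∀ c ∈ univ.erase (col v), (insert v W).filter (fun i => col i = c) =
      W.filter fun i => col i = c := fun c hc => by
    rw [filter_insert, if_neg (ne_of_mem_erase hc).symm]
  have e2 : ((insert v W).filter fun i => col i = col v).erase v =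
      W.filter fun i => col i = col v := by
    rw [filter_insert, if_pos rfl, erase_insert fun h => hv (mem_filter.1 h).1]
  have e3 : ∀ N : ι → ι → R, ∏ c ∈ univ.erase (col v), dS N ((insert v W).filter fun i => col i = c) =
      ∏ c ∈ univ.erase (col v), dS N (W.filter fun i => col i = c) := fun N =>
    prod_congr rfl fun c hc => by rw [e1 c hc]
  have e4 := dS_row (N := fun i j => (if i = j then 1 else 0) - Function.update γ v 1 i * Y i j)
    (N' := fun i j => (if i = j then 1 else 0) - γ i * Y i j)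
    (S := (insert v W).filter fun i => col i = col v)
    (w := γ v) (mem_filter.2 ⟨mem_insert_self v W, rfl⟩)
    (fun i j h => by rw [Function.update_of_ne h])
    (fun j => by rw [Function.update_self]; ring)
  simp only [PP, ← mul_prod_erase univ _ (mem_univ (col v)), e3, k, e4, e2]
  ring

theorem half {π : ι → Fin r → R} {y : ι → ι → R} (col : ι → Fin n) (κ : Fin n → Fin r)
    (hκ : Function.Injective κ) {s : ℤ} (hs : s ≠ 0) (h1 : ∀ c, sg (κ c) = s) {w : R}
    (h2 : ∀ v, π v (κ (col v)) = w) (h3 : ∀ v c, c ≠ κ (col v) → sg c ≠ 0 → π v c = 0)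
    (h4 : ∀ v, ∑ c, π v c = 1) (V : Finset ι) : ∀ (F : Finset (ι × Fin r)) (S : Finset ι)
    (γ : ι → R), (∀ p ∈ F, p.1 ∉ V) → (∀ i c, (i, c) ∈ F → sg c = 0 ∨ c = κ (col i)) →
    (∀ i, i ∈ S ↔ (i, κ (col i)) ∈ F) → (∀ i ∈ V, γ i = w) → (∀ i ∈ S, γ i = 1) →
    G π (g0 (fun _ => 1) y) V F = PP col (fun i j => s * y i j) γ (V ∪ S) := by
  induction V using Finset.induction_on with
  | empty =>
    intro F S γ _ a1 a2 _ a3
    rw [G_empty, g0, empty_union, PP, ← prod_subset (subset_univ (univ.image κ)) fun c _ hc => ?_,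
      prod_image fun _ _ _ _ h => hκ h]
    · refine prod_congr rfl fun c _ => ?_
      have e : sl F (κ c) = S.filter fun i => col i = c := by
        ext i
        rw [mem_sl, mem_filter, a2]
        refine ⟨fun h => ?_, fun h => h.2 ▸ h.1⟩
        have := hκ ((a1 _ _ h).resolve_left (h1 c ▸ hs))
        exact ⟨this ▸ h, this.symm⟩
      rw [e]
      exact dS_congr fun i hi j _ => by rw [mat, sy, h1, a3 i (mem_filter.1 hi).1, one_mul]
    · refine (congrArg Matrix.det ?_).trans (Matrix.det_one (n := sl F c))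
      ext i j
      have := (a1 _ _ (mem_sl.1 i.2)).resolve_right fun e => hc (e ▸ mem_image_of_mem _ (mem_univ _))
      simp only [Matrix.of_apply, mat, sy, this, Int.cast_zero, zero_mul, sub_zero,
        Matrix.one_apply, Subtype.coe_inj]
  | insert v V hv ih =>
    intro F S γ a0 a1 a2 a3 a4
    have b0 : ∀ c, (v, c) ∉ F := fun c h => a0 _ h (mem_insert_self _ _)
    have b1 : v ∉ S := fun h => b0 _ ((a2 v).1 h)
    have b2 : ∀ c, ∀ p ∈ insert (v, c) F, p.1 ∉ V := fun c p hp => by
      rcases mem_insert.1 hp with rfl | hp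
      exacts [hv, fun h => a0 p hp (mem_insert_of_mem h)]
    rw [G_insert hv, insert_union, PP_step _ _ _ (by simp [hv, b1]), a3 v (mem_insert_self _ _),
      ← add_sum_erase _ _ (mem_univ (κ (col v))), h2,
      ih _ (insert v S) (Function.update γ v 1) (b2 _) (fun i c h => ?_) (fun i => ?_)
        (fun i hi => ?_) fun i hi => ?_, union_insert]
    · congr 1
      rw [show 1 - w = ∑ c ∈ univ.erase (κ (col v)), π v c by
        rw [← h4 v, ← add_sum_erase _ _ (mem_univ (κ (col v))), h2, add_sub_cancel_left], sum_mul]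
      refine sum_congr rfl fun c hc => ?_
      by_cases hz : sg c = 0
      · rw [ih _ S γ (b2 _) (fun i d h => ?_) (fun i => ?_)
          (fun i hi => a3 i (mem_insert_of_mem hi)) a4]
        · rcases mem_insert.1 h with e | h
          · exact .inl ((show d = c from (Prod.ext_iff.1 e).2) ▸ hz)
          · exact a1 _ _ h
        · rw [a2, mem_insert, or_iff_right fun e => ?_]
          obtain ⟨rfl, e⟩ := Prod.ext_iff.1 e
          exact ne_of_mem_erase hc e.symm
      · rw [h3 v c (ne_of_mem_erase hc) hz, zero_mul, zero_mul]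
    · rcases mem_insert.1 h with e | h
      · obtain ⟨rfl, e⟩ := Prod.ext_iff.1 e
        exact .inr e
      · exact a1 _ _ h
    · rw [mem_insert, mem_insert, a2]
      refine or_congr_left ⟨fun e => by rw [e], fun e => (Prod.ext_iff.1 e).1⟩
    · rw [Function.update_of_ne fun e : i = v => hv (e ▸ hi)]
      exact a3 i (mem_insert_of_mem hi)
    · rcases mem_insert.1 hi with rfl | hi
      · exact Function.update_self ..
      · rw [Function.update_of_ne fun e : i = v => b1 (e ▸ hi)]
        exact a4 i hi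

theorem wk_smul (a : R) (x : ι → ι → R) (S : Finset ι) (v : ι) :
    ∀ k i, wk (fun i j => a * x i j) S v k i = a ^ k * wk x S v k i
  | 0, i => by simp [wk]
  | k + 1, i => by
    simp only [wk, wk_smul a x S v k, mul_sum]
    exact sum_congr rfl fun j _ => by ring

theorem mom_half {π : ι → Fin r → R} {x : ι → ι → R} (col : ι → Fin n) (κ : Fin n → Fin r)
    (hκ : Function.Injective κ) {s : ℤ} (hs : s ≠ 0) (h1 : ∀ c, sg (κ c) = s) {w : R}
    (h2 : ∀ v, π v (κ (col v)) = w) (h3 : ∀ v c, c ≠ κ (col v) → sg c ≠ 0 → π v c = 0)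
    (h4 : ∀ v, ∑ c, π v c = 1) {V : Finset ι} {v : ι} (hv : v ∈ V) (k : ℕ) :
    mom x π V v k = (w * s) ^ k * wk x (V.filter fun i => col i = col v) v k v := by
  have e : ∀ V, Pw x π V = P078.Pw (fun i j => (w * s) * x i j)
      (fun v c => if col v = c then 1 else 0) V := fun V => by
    rw [Pw, half col κ hκ hs h1 (w := PowerSeries.C w) (fun v => by rw [h2])
      (fun v c a b => by rw [h3 v c a b, map_zero]) (fun v => by rw [← map_sum, h4, map_one]) V ∅ ∅
      (fun _ => PowerSeries.C w) (by simp) (by simp) (by simp) (by simp) (by simp), P078.Pw,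
      G_det col V fun v _ c => by split_ifs <;> simp, union_empty, union_empty, PP, P078.g0]
    refine prod_congr rfl fun c _ => ?_
    have : sl (V.image fun v => (v, col v)) c = V.filter fun i => col i = c := by
      ext i
      simp
    rw [this]
    refine dS_congr fun i _ j _ => ?_
    simp only [mat, map_mul, map_intCast]
    ring
  rw [← wk_smul, ← mom_det col (fun _ _ => rfl) hv, mom, P078.mom, ser, P078.ser, e, e]

theorem G_zero {π : ι → Fin r → R} {g : Finset (ι × Fin r) → R} {j : ι × Fin r}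
    (hg : ∀ F, j ∈ F → g F = 0) (V : Finset ι) : ∀ F, j ∈ F → G π g V F = 0 := by
  induction V using Finset.induction_on with
  | empty => exact hg
  | insert v V hv ih =>
    intro F hF
    rw [G_insert hv]
    exact sum_eq_zero fun c _ => by rw [ih _ (mem_insert_of_mem hF), mul_zero]

end Ring

variable {x : ι → ι → ℂ} {π : ι → Fin r → ℂ}

theorem chi_zero {W : Finset ι} {u : ι} (hu : u ∉ W) {d : Fin r} (hd : sg d = 0) :
    chi x π W {(u, d)} = X * chi x π W ∅ := by
  rw [chi, GZ_aff (z := fun p => if p = (u, d) then 0 else X) X W (j := (u, d)) hu _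
    (mem_singleton_self _) fun p _ => by split_ifs <;> simp,
    G_zero (j := (u, d)) (fun F hF => ?_) _ _ (mem_singleton_self _), zero_add, erase_singleton]
  · congr 1
    exact GZ_congr _ _ fun p hp => if_neg fun e => hu (by simpa [e] using hp)
  · refine prod_eq_zero (mem_univ d) (Matrix.det_eq_zero_of_row_eq_zero ⟨u, mem_sl.2 hF⟩ fun j => ?_)
    simp [mat, sy, hd]

theorem next0 (h0 : ∀ v, x v v = 0) (hπ : ∀ v, ∑ c, π v c = 1) (V : Finset ι) :
    ∀ F : Finset (ι × Fin r), (∀ p ∈ F, p.1 ∉ V) → (chi x π V F).nextCoeff = 0 := by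
  induction V using Finset.induction_on with
  | empty =>
    intro F _
    have e1 : ∀ c, dS (mat (fun _ => X) (sy (fun i j => C (x i j)) c) c) (sl F c) =
        (Matrix.of fun i j : sl F c => sy x c i j).charpoly := fun c => by
      rw [dS, Matrix.charpoly]
      congr 1
      ext1 i j
      simp only [Matrix.of_apply, mat, Matrix.charmatrix_apply, Matrix.diagonal_apply,
        Subtype.coe_inj, sy, map_mul, map_intCast]
    simp only [chi, G_empty, g0, e1]
    rw [Monic.nextCoeff_prod _ _ fun c _ => Matrix.charpoly_monic _]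
    refine sum_eq_zero fun c _ => ?_
    rw [← neg_eq_zero, ← Matrix.trace_eq_neg_charpoly_nextCoeff]
    simp [Matrix.trace, sy, h0]
  | insert v V hv ih =>
    intro F hF
    have h : ∀ c, (v, c) ∉ F := fun c h => hF _ h (mem_insert_self _ _)
    have b : ∀ c, ∀ p ∈ insert (v, c) F, p.1 ∉ V := fun c => by
      simpa [hv] using fun a b hab c => hF _ hab (mem_insert_of_mem c)
    have d := (chi_spec (x := x) hπ _ F hF).1.1
    rw [card_insert_of_notMem hv] at d
    rw [nextCoeff_of_natDegree_pos (by omega), d, chi, G_insert hv, finsetSum_coeff]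
    refine sum_eq_zero fun c _ => ?_
    have d' := (chi_spec (x := x) hπ _ _ (b c)).1.1
    have := ih _ (b c)
    rw [card_insert_of_notMem (h c)] at d'
    rw [nextCoeff_of_natDegree_pos (by omega), d', ← add_assoc, add_right_comm] at this
    rw [coeff_C_mul, show G _ _ V _ = chi x π V (insert (v, c) F) from rfl, this, mul_zero]

theorem prob_upd (hπ : Prob π) (u : ι) {t : Fin r → ℂ} (ht : Prob fun _ : Unit => t) :
    Prob (Function.update π u t) := fun v => by
  by_cases h : v = u
  · subst h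
    rw [Function.update_self]
    exact ht ()
  · rw [Function.update_of_ne h]
    exact hπ v

theorem chi_upd {V : Finset ι} {u : ι} (hu : u ∈ V) (t : Fin r → ℂ) :
    chi x (Function.update π u t) V ∅ = ∑ d, C (t d) * chi x π (V.erase u) {(u, d)} := by
  conv_lhs => rw [← insert_erase hu, chi, G_insert (notMem_erase u V)]
  simp only [Function.update_self]
  refine sum_congr rfl fun d _ => congrArg _ ?_
  exact G_congr {v | v ≠ u} (fun v hv => by rw [Function.update_of_ne hv]) _
    (fun v hv => (mem_erase.1 hv).1) _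

theorem rat1 (hx : HC x) (hπ : Prob π) {W : Finset ι} {u : ι} (hu : u ∉ W) (c : Fin r) {z : ℂ}
    (hz : 0 < z.im) : (chi x π W ∅).eval z ≠ 0 ∧
      z.im ≤ ((chi x π W {(u, c)}).eval z / (chi x π W ∅).eval z).im := by
  have := (nvI hx hπ 1 W).rat (F := ∅) (z := fun _ => z) (j := (u, c)) (by simp) (by simp) hu
    fun p _ => by simpa using hz
  rw [eval_chi, eval_chi]
  exact ⟨nvI hx hπ 1 W _ _ (by simp) fun p _ => by simpa using hz, by simpa using this⟩

theorem upd (hx : HC x) (hπ : Prob π) {Q : ℝ[X]} {θ : ℝ} (hQ : QP Q θ) {V : Finset ι} {u : ι}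
    (hu : u ∈ V) (b : Fin n → Fin r → ℂ) (hb : ∀ c, Prob fun _ : Unit => b c) (w : Fin n → ℝ)
    (w0 : ∀ c, 0 ≤ w c) (w1 : ∑ c, w c = 1) (hw : ∀ d, π u d = ∑ c, w c * b c d) :
    ∃ c, ∑ v ∈ V, aQ Q x (Function.update π u (b c)) V v ≤ ∑ v ∈ V, aQ Q x π V v + θ := by
  have hs : ∀ v, ∑ c, π v c = 1 := fun v => (hπ v).2
  have hp := fun c => prob_upd hπ u (hb c)
  obtain ⟨c, hc⟩ := hQ n w (chi x π (V.erase u) ∅) (chi x π V ∅)
    (fun c => chi x (Function.update π u (b c)) V ∅) w0 w1
    (by
      conv_lhs => rw [← Function.update_eq_self u π, chi_upd hu]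
      simp only [chi_upd hu, hw, map_sum, map_mul, sum_mul, mul_sum, mul_assoc]
      rw [sum_comm])
    (chi_RR hx hπ _ _ (by simp)) (chi_RR hx hπ _ _ (by simp))
    (fun c => chi_RR hx (hp c) _ _ (by simp))
    (fun c => by
      rw [(chi_monic (fun v => (hp c v).2) _).1, (chi_monic hs _).1, card_erase_add_one hu])
    (by rw [(chi_monic hs _).1, (chi_monic hs _).1, card_erase_add_one hu])
    fun c z hz => by
      choose t t0 ht using (hb c ()).1
      have t1 : ∑ d, t d = 1 := by
        exact_mod_cast (by simpa only [ht] using (hb c ()).2 : ∑ d, (t d : ℂ) = 1)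
      simp only [chi_upd hu, eval_finsetSum, eval_mul, eval_C, sum_div, ht, mul_div_assoc,
        Complex.im_sum, Complex.im_ofReal_mul]
      refine hz.trans_le ?_
      rw [← one_mul z.im, ← t1, sum_mul]
      exact sum_le_sum fun d _ =>
        mul_le_mul_of_nonneg_left (rat1 hx hπ (notMem_erase u V) d hz).2 (t0 d)
  exact ⟨c, by rwa [sum_aQ hx hπ, sum_aQ hx (hp c)]⟩

theorem unmix (hx : HC x) (h0 : ∀ v, x v v = 0) (hπ : Prob π) {Q : ℝ[X]}
    (hQ : ConvexOn ℝ (Set.Icc (-1 : ℝ) 1) fun t => Q.eval t) {V : Finset ι} {u : ι}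
    (hu : u ∈ V) {t : Fin r → ℂ} (ht : Prob fun _ : Unit => t) {d₁ d₂ : Fin r}
    (h1 : ∀ q : Fin r → ℂ[X], (∀ d, sg d = 0 → q d = q d₂) →
      ∑ d, C (t d) * q d = q d₂ - C (1 / 4) * (q d₂ - q d₁)) (hd : sg d₂ = 0) {d₃ : Fin r}
    (h2 : ∀ q : Fin r → ℂ[X], ∑ d, C (π u d) * q d =
      ∑ d, C (t d) * q d - C (1 / 4) * (q d₂ - q d₃)) :
    ∑ v ∈ V, aQ Q x (Function.update π u t) V v ≤ ∑ v ∈ V, aQ Q x π V v := by
  have hs : ∀ v, ∑ c, π v c = 1 := fun v => (hπ v).2
  have hv := notMem_erase u V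
  set N := chi x π (V.erase u) ∅ with hN
  have mN := chi_monic (x := x) hs (V.erase u)
  have k1 : ∀ d, (C (1 / 4) * (X * N - chi x π (V.erase u) {(u, d)})).degree < N.degree :=
    fun d => by
      have hF : ∀ p ∈ ({(u, d)} : Finset (ι × Fin r)), p.1 ∉ V.erase u := by simp
      have m1 := (chi_spec (x := x) hs _ _ hF).1
      have m2 : (X * N).IsMonicOfDegree ((V.erase u).card + 1) :=
        add_comm 1 _ ▸ (isMonicOfDegree_X ℂ).mul mN
      rw [card_singleton] at m1
      have n1 := next0 h0 hs _ _ hF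
      have n2 : (X * N).nextCoeff = 0 := by
        rw [monic_X.nextCoeff_mul mN.2, next0 h0 hs _ _ (by simp), add_zero]
        simpa using nextCoeff_X_add_C (0 : ℂ)
      rw [nextCoeff_of_natDegree_pos (by rw [m1.1]; omega), m1.1, Nat.add_sub_cancel] at n1
      rw [nextCoeff_of_natDegree_pos (by rw [m2.1]; omega), m2.1, Nat.add_sub_cancel] at n2
      rw [degree_eq_natDegree mN.2.ne_zero, mN.1, degree_lt_iff_coeff_zero]
      intro m hm
      rw [coeff_C_mul, coeff_sub]
      rcases hm.eq_or_lt with rfl | hm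
      · rw [n1, n2, sub_zero, mul_zero]
      · rw [m2.coeff_eq m1 hm, sub_self, mul_zero]
  have k2 : ∀ d (z : ℂ), 0 < z.im → ((C (1 / 4) * (X * N - chi x π (V.erase u) {(u, d)})).eval z *
      conj (N.eval z)).im ≤ 0 := fun d z hz => by
    obtain ⟨a, b⟩ := rat1 hx hπ hv d hz
    rw [← hN] at a b
    have : (C (1 / 4) * (X * N - chi x π (V.erase u) {(u, d)})).eval z * conj (N.eval z) =
        ((‖N.eval z‖ ^ 2 / 4 : ℝ) : ℂ) * (z - (chi x π (V.erase u) {(u, d)}).eval z / N.eval z) := by
      simp only [eval_mul, eval_C, eval_sub, eval_X]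
      push_cast
      rw [← Complex.mul_conj']
      field_simp
    rw [this, Complex.im_ofReal_mul, Complex.sub_im]
    exact mul_nonpos_of_nonneg_of_nonpos (by positivity) (sub_nonpos.2 b)
  have e1 : chi x (Function.update π u t) V ∅ =
      X * N - C (1 / 4) * (X * N - chi x π (V.erase u) {(u, d₁)}) := by
    rw [chi_upd hu, h1 _ fun d h => by rw [chi_zero hv h, chi_zero hv hd], chi_zero hv hd]
  have e2 : chi x π V ∅ = X * N - C (1 / 4) * (X * N - chi x π (V.erase u) {(u, d₁)}) -
      C (1 / 4) * (X * N - chi x π (V.erase u) {(u, d₃)}) := by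
    conv_lhs => rw [← Function.update_eq_self u π, chi_upd hu]
    rw [h2, ← chi_upd hu, e1, chi_zero hv hd]
  rw [sum_aQ hx hπ, sum_aQ hx (prob_upd hπ u ht), e1, e2]
  exact mono Q hQ N _ _ mN.2 (fun z hz => ((chi_RR hx hπ _ _ (by simp)).2 z hz).1) (k1 _) (k1 _)
    (k2 _) (k2 _) (e2 ▸ chi_RR hx hπ _ _ (by simp))

theorem aQ_cmp (hx : HC x) (hπ : Prob π) {Q Q' : ℝ[X]} {V : Finset ι} {v : ι} (hv : v ∈ V)
    {a b : ℝ} (h : ∀ l : ℝ, |l| ≤ 1 → Q'.eval l ≤ a + b * Q.eval l) :
    aQ Q' x π V v ≤ a + b * aQ Q x π V v := by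
  obtain ⟨Λ, ρ, h1, h2, h3⟩ := mom_rep pf hx hπ hv
  have e : ∀ Q : ℝ[X], aQ Q x π V v = ∑ l ∈ Λ, ρ l * Q.eval l := fun Q => by
    simp only [aQ, h3, Complex.ofReal_re, mul_sum, eval_eq_sum_range]
    rw [sum_comm]
    exact sum_congr rfl fun l _ => sum_congr rfl fun k _ => by ring
  rw [e, e, ← one_mul a, ← h2, sum_mul, mul_sum, ← sum_add_distrib]
  refine sum_le_sum fun l hl => ?_
  have := mul_le_mul_of_nonneg_left
    (h l ((chi_RR hx hπ _ _ (by simp)).2 _ (h1 l hl).2).2) (h1 l hl).1
  linarith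

end Vale.Agent.P078.T
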