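import Vale.Agent.P078.T5

/-! Sweeps through a field of fibres. -/

namespace Vale.Agent.P078.T

open Finset Polynomial Filter Topology
open scoped ComplexConjugate Pointwise Classical

variable {Ω Γ R : Type*} [TopologicalSpace Ω] [Group Γ] [MulAction Γ Ω] [Ring R]
  [StarRing R] [Algebra ℂ R] {F : Fib Ω Γ R} {ω : Ω} {g h k : Γ} {m : ℕ} {σ σ' : Ω → Fin m → ℂ}

variable (F) in
/-- The local potential at the root. -/
noncomputable def a (Q : ℝ[X]) (σ : Ω → Fin m → ℂ) (ω : Ω) : ℝ :=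
  aQ Q (F.X ω) (fun g => σ (g • ω)) (F.V ω Q.natDegree) (F.r ω 1)

theorem aQ_loc (Q : ℝ[X]) {π π' : Γ → Fin m → ℂ} (h1 : ∀ v, ∑ c, π v c = 1)
    (h2 : ∀ v, ∑ c, π' v c = 1) {W W' : Finset Γ}
    (hW : ∀ b ∈ F.B ^ Q.natDegree, (F.r ω (b * g) ∈ W ↔ F.r ω (b * g) ∈ W') ∧
      π (F.r ω (b * g)) = π' (F.r ω (b * g))) :
    aQ Q (F.X ω) π W (F.r ω g) = aQ Q (F.X ω) π' W' (F.r ω g) := by
  obtain ⟨l, l1, l2, l3⟩ := Fib.dist (F := F) ω g Q.natDegree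
  refine sum_congr rfl fun k hk => ?_
  rw [loc h1 h2 l l1 l2 (fun i hi => ?_) (fun i hi => ?_) (mem_range.1 hk)]
  all_goals obtain ⟨b, hb, rfl⟩ := l3 i hi
  exacts [(hW b hb).1, (hW b hb).2]

theorem aQ_tr (Q : ℝ[X]) {π : Γ → Fin m → ℂ} (h1 : ∀ v, ∑ c, π v c = 1) {W : Finset Γ}
    (hW : ∀ b ∈ F.B ^ Q.natDegree, F.r ω (b * g) ∈ W ∧ π (F.r ω (b * g)) = σ ((b * g) • ω)) :
    aQ Q (F.X ω) π W (F.r ω g) = a F Q σ (g • ω) := by
  have k : ∀ b, F.r ω (F.r (g • ω) b * g) = F.r ω (b * g) := fun b =>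
    (Fib.rel_act.1 (Fib.rel_r _ b)).r_eq.symm
  rw [aQ_loc Q h1 h1 (W' := (F.V (g • ω) Q.natDegree).image fun h => F.r ω (h * g))
    fun b hb => ⟨iff_of_true (hW b hb).1
      (mem_image.2 ⟨_, mem_image_of_mem _ hb, k b⟩), rfl⟩]
  refine sum_congr rfl fun n _ => ?_
  have := mom_emb (x := F.X ω) (π := π) (x' := F.X (g • ω)) (π' := fun h => σ (h • g • ω))
    (fun h => F.r ω (h * g)) (F.V (g • ω) Q.natDegree) ?_ ?_
    (fun i => F.φ ω (F.ρ ((i * g)⁻¹ * F.r ω (i * g))))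
    (fun i => conj (F.φ ω (F.ρ ((i * g)⁻¹ * F.r ω (i * g))))) (fun i _ => (Fib.rel_r ω _).norm) ?_
    (mem_image_of_mem _ (Fib.one_mem Q.natDegree)) n
  · rw [k, one_mul] at this
    rw [this]
  · intro i hi j hj e
    obtain ⟨b, -, rfl⟩ := mem_image.1 hi
    obtain ⟨c, -, rfl⟩ := mem_image.1 hj
    rw [← Fib.r_r, (Fib.rel_act.2 (Fib.rel_of_r e)).r_eq, Fib.r_r]
  · intro i hi
    obtain ⟨b, hb, rfl⟩ := mem_image.1 hi
    rw [k, (hW b hb).2, Fib.r_smul, mul_smul]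
  · intro i hi j hj
    obtain ⟨b, -, rfl⟩ := mem_image.1 hi
    obtain ⟨c, -, rfl⟩ := mem_image.1 hj
    rw [Fib.X_rr, Fib.X_rr, F.act, (Fib.rel_r ω _).mulr, mul_assoc (F.ρ _), mul_assoc (F.ρ _),
      (Fib.rel_r ω _).mull]
    simp only [mul_inv_rev, map_mul, mul_assoc]

theorem a_congr (Q : ℝ[X]) (h1 : ∀ ω, ∑ c, σ ω c = 1)
    (h : ∀ b ∈ F.B ^ Q.natDegree, σ (b • ω) = σ' (b • ω)) : a F Q σ ω = a F Q σ' ω := by
  rw [a, aQ_tr (σ := σ') Q (fun _ => h1 _) fun b hb => ?_, one_smul]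
  rw [mul_one, Fib.r_smul]
  exact ⟨mem_image_of_mem _ hb, h b hb⟩

theorem a_cont (Q : ℝ[X]) (h1 : ∀ ω, ∑ c, σ ω c = 1) (h : IsLocallyConstant σ) :
    Continuous (a F Q σ) := by
  refine continuous_iff_continuousAt.2 fun ω => ?_
  set W := F.V ω Q.natDegree
  let y : Γ → Γ → C(Ω, ℂ) := fun i j => ⟨_, F.cont (F.ρ i⁻¹ * F.x * F.ρ j)⟩
  let p : Γ → Fin m → C(Ω, ℂ) := fun i c => ContinuousMap.const _ (σ (i • ω) c)
  have hp : ∀ v, ∑ c, p v c = 1 := fun v => by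
    ext
    simp [p, h1]
  refine ContinuousAt.congr (f := fun ω' => ∑ k ∈ range (Q.natDegree + 1),
    Q.coeff k * (mom y p W (F.r ω 1) k ω').re) (by fun_prop) ?_
  filter_upwards [(Fib.V_lc (F := F) Q.natDegree).eventually_eq ω, Fib.r_ev (F := F) ω 1,
    (eventually_all_finset W).2 fun b _ => Fib.r_ev (F := F) ω b,
    (eventually_all_finset W).2 fun b _ => (h.comp_continuous (F.cact b)).eventually_eq ω]
    with ω' e1 e2 e3 e4
  rw [a, e1, e2]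
  refine sum_congr rfl fun k _ => ?_
  have := mom_map ((Pi.evalRingHom (fun _ => ℂ) ω').comp ContinuousMap.coeFnRingHom) (x := y) hp W
    (F.r ω 1) k
  have e5 : ∀ i ∈ W, F.r ω' i = i := fun i hi => by
    obtain ⟨b, -, e⟩ := mem_image.1 hi
    rw [e3 i hi, ← e, Fib.r_r]
  have e6 := mom_emb (x := F.X ω') (π := fun g => σ (g • ω')) (x' := fun i j => y i j ω')
    (π' := fun i c => p i c ω') id W (Set.injOn_id _) e4 1 1 (by simp)
    (fun i hi j hj => by simp [Fib.X, e5 i hi, e5 j hj, y])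
    (mem_image_of_mem _ (Fib.one_mem Q.natDegree)) k
  rw [image_id] at e6
  exact congrArg (fun t : ℂ => Q.coeff k * t.re) (this.trans e6.symm)


/-- Overwrite the state on `e`. -/
noncomputable def ow {Ω : Type*} (e : Set Ω) (τ σ : Ω → Fin m → ℂ) (ω : Ω) : Fin m → ℂ :=
  if ω ∈ e then τ ω else σ ω

variable {e : Set Ω} {τ : Ω → Fin m → ℂ} {Q : ℝ[X]} {θ : ℝ}

omit [TopologicalSpace Ω] in
theorem ow_prob (hτ : Prob τ) (hσ : Prob σ) (e : Set Ω) : Prob (ow e τ σ) := fun ω => by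
  rw [ow]
  split_ifs
  exacts [hτ ω, hσ ω]

theorem ow_lc (he : IsClopen e) (hτ : IsLocallyConstant τ) (h : IsLocallyConstant σ) :
    IsLocallyConstant (ow e τ σ) :=
  (IsLocallyConstant.iff_eventually_eq _).2 fun ω => by
    filter_upwards [(lc_mem he).eventually_eq ω, hτ.eventually_eq ω, h.eventually_eq ω]
      with _ e1 e2 e3
    simp only [ow, e1, e2, e3]

theorem cost (hσ : Prob σ) (hs : F.Sep Q.natDegree e) (hω : ω ∈ e) : ∃ W : Finset Γ,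
    F.r ω 1 ∈ W ∧ ∀ t : Fin m → ℂ, (Prob fun _ : Unit => t) → ∑ w ∈ F.V ω Q.natDegree,
      (a F Q (ow e (fun _ => t) σ) (w • ω) - a F Q σ (w • ω)) =
      ∑ v ∈ W, aQ Q (F.X ω) (Function.update (fun g : Γ => σ (g • ω)) (F.r ω 1) t) W v -
        ∑ v ∈ W, aQ Q (F.X ω) (fun g : Γ => σ (g • ω)) W v := by
  set K := Q.natDegree
  have hπ : Prob fun g : Γ => σ (g • ω) := fun g => hσ _
  have hm : ∀ b ∈ F.B ^ K, ∀ b' ∈ F.B ^ K,
      F.r ω (b * b') ∈ (F.B ^ K * F.B ^ K).image (F.r ω) := fun b hb b' hb' =>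
    mem_image_of_mem _ (mul_mem_mul hb hb')
  refine ⟨(F.B ^ K * F.B ^ K).image (F.r ω),
    mul_one (1 : Γ) ▸ hm 1 (Fib.one_mem K) 1 (Fib.one_mem K), fun t ht => ?_⟩
  have h1 := fun v => (prob_upd hπ (F.r ω 1) ht v).2
  have h2 := fun v => (hπ v).2
  rw [← sum_sub_distrib, ← sum_subset (s₁ := F.V ω K) (image_subset_image fun b hb => by
    simpa using Finset.mul_mem_mul (Fib.one_mem K) hb) fun v hv hn => ?_]
  · refine sum_congr rfl fun v hv => ?_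
    obtain ⟨b, hb, rfl⟩ := mem_image.1 hv
    rw [Fib.r_smul, aQ_tr (σ := ow e (fun _ => t) σ) Q h1 fun b' hb' => ⟨hm b' hb' b hb, ?_⟩,
      aQ_tr (σ := σ) Q h2 fun b' hb' => ⟨hm b' hb' b hb, by rw [Fib.r_smul]⟩]
    by_cases a : F.r ω (b' * b) = F.r ω 1
    · rw [a, Function.update_self, (Fib.rel_of_r a).smul, one_smul, ow, if_pos hω]
    · rw [Function.update_of_ne a, ow, if_neg fun a' => a (hs b' hb' b hb ω hω a').r_eq.symm,
        Fib.r_smul]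
  · obtain ⟨g, -, rfl⟩ := mem_image.1 hv
    rw [sub_eq_zero]
    refine aQ_loc Q h1 h2 fun b hb => ⟨Iff.rfl, Function.update_of_ne (fun a => hn ?_) _ _⟩
    have := ((Fib.rel_of_r a).left b⁻¹).r_eq
    rw [inv_mul_cancel_left, mul_one] at this
    exact this ▸ mem_image_of_mem _ (Fib.inv_mem hb)

theorem sum_cont {K : ℕ} {d : Ω → ℝ} (hd : Continuous d) :
    Continuous fun ω => ∑ w ∈ F.V ω K, d (w • ω) :=
  cont_lc (Fib.V_lc (F := F) _) (f := fun W ω => ∑ w ∈ W, d (w • ω)) fun W =>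
    continuous_finsetSum _ fun w _ => hd.comp (F.cact w)

theorem stepH [CompactSpace Ω] (hσ : Prob σ) (hl : IsLocallyConstant σ) (hτ : Prob τ)
    (hl' : IsLocallyConstant τ) (he : IsClopen e) (hs : F.Sep Q.natDegree e)
    (h : ∀ ω ∈ e, ∑ w ∈ F.V ω Q.natDegree,
      (a F Q (ow e (fun _ => τ ω) σ) (w • ω) - a F Q σ (w • ω)) ≤ θ) :
    F.I (a F Q (ow e τ σ)) ≤ F.I (a F Q σ) + θ * F.I (ind e) := by
  have c0 := a_cont (F := F) Q (fun ω => (hσ ω).2) hl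
  have hp := ow_prob hτ hσ e
  have c3 := (a_cont (F := F) Q (fun ω => (hp ω).2) (ow_lc he hl' hl)).fun_sub c0
  rw [show a F Q (ow e τ σ) = fun ω => a F Q σ ω + (a F Q (ow e τ σ) ω - a F Q σ ω) by simp,
    F.I_add c0 c3, Fib.transport c3 he hs fun ω h => sub_eq_zero.2 (a_congr Q
      (fun ω => (hp ω).2) fun b hb => if_neg (h b hb)), ← F.I_smul _ (ind_cont he)]
  refine add_le_add_right (F.I_mono ((ind_cont he).fun_mul (sum_cont c3))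
    ((ind_cont he).const_mul _) fun ω => ?_) _
  by_cases a : ω ∈ e
  · rw [ind, if_pos a, one_mul, mul_one]
    refine le_of_eq_of_le (sum_congr rfl fun w hw => ?_) (h ω a)
    obtain ⟨b, hb, rfl⟩ := mem_image.1 hw
    rw [Fib.r_smul, a_congr (σ' := ow e (fun _ => τ ω) σ) Q (fun ω => (hp ω).2) fun b' hb' => ?_]
    rw [ow, ow, ← mul_smul]
    split_ifs with a'
    · rw [← (hs b' hb' b hb ω a a').smul, one_smul]
    · rfl
  · simp [ind, a]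

variable [StarModule ℂ R]

theorem a_bd (hσ : Prob σ) {lo hi : ℝ} (h : ∀ t, |t| ≤ 1 → lo ≤ Q.eval t ∧ Q.eval t ≤ hi) (ω : Ω) :
    lo ≤ a F Q σ ω ∧ a F Q σ ω ≤ hi :=
  aQ_rep pf (Fib.X_hc ω) (fun _ => hσ _) Q (mem_image_of_mem _ (Fib.one_mem _)) fun l hl =>
    h l ((chi_RR (Fib.X_hc ω) (fun _ => hσ _) _ _ (by simp)).2 _ hl).2

theorem left {lo hi D : ℝ} (hD : hi - lo ≤ D) (D0 : 0 ≤ D)
    (h : ∀ t, |t| ≤ 1 → lo ≤ Q.eval t ∧ Q.eval t ≤ hi) (hσ : Prob σ) (hl : IsLocallyConstant σ)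
    (hτ : Prob τ) (hl' : IsLocallyConstant τ) (he : IsClopen e) : F.I (a F Q (ow e τ σ)) ≤
      F.I (a F Q σ) + D * #(F.B ^ Q.natDegree) * F.I (ind e) := by
  have c0 := a_cont (F := F) Q (fun ω => (hσ ω).2) hl
  have c1 : ∀ b : Γ, Continuous fun ω => ind e (b • ω) := fun b => (ind_cont he).comp (F.cact b)
  have c2 := continuous_finsetSum (F.B ^ Q.natDegree) fun b _ => c1 b
  have hp := ow_prob hτ hσ e
  refine (F.I_mono (a_cont Q (fun ω => (hp ω).2) (ow_lc he hl' hl))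
    (c0.fun_add (c2.const_mul D)) fun ω => ?_).trans_eq ?_
  · by_cases a : ∃ b ∈ F.B ^ Q.natDegree, b • ω ∈ e
    · obtain ⟨b, hb, a⟩ := a
      have := single_le_sum (f := fun b => ind e (b • ω)) (fun _ _ => ind_nn _) hb
      rw [ind, if_pos a] at this
      nlinarith [(a_bd (F := F) hσ h ω).1, (a_bd (F := F) hp h ω).2]
    · rw [a_congr (σ' := σ) Q (fun ω => (hp ω).2) fun b hb => if_neg fun a' => a ⟨b, hb, a'⟩]
      exact le_add_of_nonneg_right (mul_nonneg D0 (sum_nonneg fun b _ => ind_nn _))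
  · rw [F.I_add c0 (c2.const_mul D), F.I_smul _ c2, Fib.I_sum _ c1]
    simp only [F.I_act _ (ind_cont he), sum_const, nsmul_eq_mul, mul_assoc]

/-- A sweep through all the separated sets. -/
theorem sweep (P P' : (Ω → Fin m → ℂ) → Ω → Prop)
    (hP : ∀ σ τ ω, σ ω = τ ω → (P σ ω → P τ ω) ∧ (P' σ ω → P' τ ω)) (hP' : ∀ σ ω, P' σ ω → P σ ω)
    {lo hi D : ℝ} (hD : hi - lo ≤ D) (D0 : 0 ≤ D)
    (h : ∀ t, |t| ≤ 1 → lo ≤ Q.eval t ∧ Q.eval t ≤ hi) (h0 : 0 ≤ θ)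
    (st : ∀ σ e, Prob σ → IsLocallyConstant σ → (∀ ω, P σ ω) → IsClopen e →
      F.Sep Q.natDegree e → ∃ τ, Prob τ ∧ IsLocallyConstant τ ∧ (∀ ω, P' τ ω) ∧
        F.I (a F Q (ow e τ σ)) ≤ F.I (a F Q σ) + θ * F.I (ind e))
    (hs : ∀ η : ℝ, 0 < η → ∃ (n : ℕ) (e : Fin n → Set Ω),
      (∀ j, IsClopen (e j) ∧ F.Sep Q.natDegree (e j)) ∧
      (∀ i j, i ≠ j → ∀ ω ∈ e i, ω ∉ e j) ∧ 1 - η ≤ ∑ j, F.I (ind (e j)))
    (hσ : Prob σ) (hl : IsLocallyConstant σ) (hσP : ∀ ω, P σ ω) {η : ℝ} (hη : 0 < η) :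
    ∃ σ', Prob σ' ∧ IsLocallyConstant σ' ∧ (∀ ω, P' σ' ω) ∧
      F.I (a F Q σ') ≤ F.I (a F Q σ) + θ + η := by
  obtain ⟨N, hN⟩ : ∃ N : ℝ, N = #(F.B ^ Q.natDegree) := ⟨_, rfl⟩
  have N0 : 0 ≤ N := hN ▸ Nat.cast_nonneg _
  obtain ⟨n, e, e1, e2, e3⟩ := hs (η / (D * N + 1)) (by positivity)
  have k : ∀ (e : Set Ω) (τ σ : Ω → Fin m → ℂ) ω, (ω ∈ e → ow e τ σ ω = τ ω) ∧
      (ω ∉ e → ow e τ σ ω = σ ω) := fun e τ σ ω => ⟨fun a => if_pos a, fun a => if_neg a⟩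
  have steps : ∀ J : Finset (Fin n), ∃ σ', Prob σ' ∧ IsLocallyConstant σ' ∧ (∀ ω, P σ' ω) ∧
      (∀ j ∈ J, ∀ ω ∈ e j, P' σ' ω) ∧
      F.I (a F Q σ') ≤ F.I (a F Q σ) + θ * ∑ j ∈ J, F.I (ind (e j)) := fun J => by
    induction J using Finset.induction_on with
    | empty => exact ⟨σ, hσ, hl, hσP, by simp, by simp⟩
    | insert i J hi ih =>
      obtain ⟨ρ, t1, t2, t0, t3, t4⟩ := ih
      obtain ⟨τ, u1, u2, u3, u4⟩ := st ρ _ t1 t2 t0 (e1 i).1 (e1 i).2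
      refine ⟨_, ow_prob u1 t1 (e i), ow_lc (e1 i).1 u2 t2, fun ω => ?_, fun j hj ω hω => ?_, by
        rw [sum_insert hi]; linarith⟩
      · by_cases a : ω ∈ e i
        · exact (hP _ _ _ ((k _ _ _ _).1 a).symm).1 (hP' _ _ (u3 ω))
        · exact (hP _ _ _ ((k _ _ _ _).2 a).symm).1 (t0 ω)
      · by_cases a : ω ∈ e i
        · exact (hP _ _ _ ((k _ _ _ _).1 a).symm).2 (u3 ω)
        · exact (hP _ _ _ ((k _ _ _ _).2 a).symm).2
            (t3 j ((mem_insert.1 hj).resolve_left fun a' => a (a' ▸ hω)) ω hω)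
  obtain ⟨ρ, s1, s2, s0, s3, s4⟩ := steps univ
  obtain ⟨τ, u1, u2, u3, -⟩ := st ρ ∅ s1 s2 s0 isClopen_empty fun _ _ _ _ _ h => h.elim
  have hL : IsClopen (⋃ j, e j)ᶜ := (isClopen_iUnion_of_finite fun j => (e1 j).1).compl
  have s6 := left (F := F) hD D0 h s1 s2 u1 u2 hL
  have s7 : (fun _ => 1) = fun ω => ind (⋃ j, e j)ᶜ ω + ∑ j, ind (e j) ω := funext fun ω => by
    simp only [ind]
    by_cases a : ∃ j, ω ∈ e j
    · obtain ⟨j, a⟩ := a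
      rw [sum_eq_single j (fun i _ h => if_neg (e2 _ _ h.symm ω a)) (by simp), if_pos a,
        if_neg fun h => h (Set.mem_iUnion.2 ⟨j, a⟩), zero_add]
    · rw [if_pos (by simpa using a), sum_eq_zero fun j _ => if_neg fun h => a ⟨j, h⟩, add_zero]
  have s8 := F.I_one
  rw [s7, F.I_add (ind_cont hL) (continuous_finsetSum _ fun j _ => ind_cont (e1 j).1),
    Fib.I_sum _ fun j => ind_cont (e1 j).1] at s8
  have s9 := F.I_mono continuous_const (ind_cont hL) ind_nn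
  rw [Fib.I_const] at s9
  refine ⟨_, ow_prob u1 s1 _, ow_lc hL u2 s2, fun ω => ?_, ?_⟩
  · by_cases a : ω ∈ (⋃ j, e j)ᶜ
    · exact (hP _ _ _ ((k _ _ _ _).1 a).symm).2 (u3 ω)
    · obtain ⟨j, a'⟩ := Set.mem_iUnion.1 (not_not.1 a)
      exact (hP _ _ _ ((k _ _ _ _).2 a).symm).2 (s3 j (mem_univ _) ω a')
  · have t1 : D * N * F.I (ind (⋃ j, e j)ᶜ) ≤ η := by
      have : F.I (ind (⋃ j, e j)ᶜ) * (D * N + 1) ≤ η := by
        rw [← le_div_iff₀ (by positivity)]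
        linarith
      linarith
    rw [← hN] at s6
    nlinarith

theorem a_cmp (hσ : Prob σ) {Q' : ℝ[X]} {α β : ℝ}
    (h : ∀ l : ℝ, |l| ≤ 1 → Q'.eval l ≤ α + β * Q.eval l) (ω : Ω) :
    a F Q' σ ω ≤ α + β * a F Q σ ω := by
  have k : ∀ P : ℝ[X], P.natDegree ≤ Q.natDegree + Q'.natDegree →
      aQ P (F.X ω) (fun g => σ (g • ω)) (F.V ω (Q.natDegree + Q'.natDegree)) (F.r ω 1) =
        a F P σ ω := fun P hP => by
    rw [aQ_tr (σ := σ) P (fun _ => (hσ _).2) fun b hb => ?_, one_smul]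
    rw [mul_one, Fib.r_smul]
    exact ⟨mem_image_of_mem _ (pow_subset_pow_right F.B_one hP hb), rfl⟩
  rw [← k Q (by omega), ← k Q' (by omega)]
  exact aQ_cmp (Fib.X_hc ω) (fun _ => hσ _) (mem_image_of_mem _ (Fib.one_mem _)) h

omit [StarModule ℂ R] in
theorem a_half {n : ℕ} {col : Ω → Fin n} {p : Fin n → R}
    (hp : ∀ c ω w, F.φ ω (w * p c) = if col ω = c then F.φ ω w else 0) (κ : Fin n → Fin m)
    (hκ : Function.Injective κ) {s : ℤ} (hs : s ≠ 0) (h1 : ∀ c, sg (κ c) = s) {w : ℝ}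
    (h2 : ∀ ω, σ ω (κ (col ω)) = w) (h3 : ∀ ω c, c ≠ κ (col ω) → sg c ≠ 0 → σ ω c = 0)
    (h4 : Prob σ) (ω : Ω) : a F Q σ ω = ∑ k ∈ range (Q.natDegree + 1),
      Q.coeff k * (F.φ ω ((((w * s : ℝ) : ℂ) • ∑ c, p c * F.x * p c) ^ k)).re := by
  rw [a, aQ]
  refine sum_congr rfl fun k hk => ?_
  have o : F.r ω 1 ∈ F.V ω Q.natDegree := mem_image_of_mem _ (Fib.one_mem _)
  have := Fib.pw (ω := ω) hp (Nat.lt_succ_iff.1 (mem_range.1 hk)) (F.ρ (F.r ω 1)⁻¹)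
  rw [← F.act, sum_eq_single_of_mem (F.r ω 1) (by exact mem_filter.2 ⟨o, rfl⟩) fun j hj e => ?_,
    ← map_mul, inv_mul_cancel, map_one, F.one, one_mul] at this
  · rw [mom_half (fun i => col (i • ω)) κ hκ hs h1 (fun v => h2 _) (fun v => h3 _)
      (fun v => (h4 _).2) o, ← this, Fib.r_smul, one_smul, _root_.smul_pow, map_smul, smul_eq_mul]
    push_cast
    rfl
  · have : ¬F.rel ω (F.r ω 1) j := fun a => e (by
      rw [← Fib.V_rep (mem_filter.1 hj).1, ← a.r_eq, Fib.r_r])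
    rw [← map_mul, not_not.1 this, zero_mul]

end Vale.Agent.P078.T
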