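import Vale.Agent.P078.T6

/-! Two-sided paving with the optimal number of pieces. -/

namespace Vale.Agent.P078

open Finset Polynomial Filter Topology WeakDual
open scoped ComplexConjugate Pointwise Classical InnerProductSpace

namespace T

variable {m : ℕ}

/-- Blocks of four colours. -/
def eqv (m : ℕ) : Fin (m ^ 2) × Fin 4 ≃ Fin ((2 * m) ^ 2) :=
  finProdFinEquiv.trans (finCongr (by ring))

theorem sg_eqv (c : Fin (m ^ 2)) (j : Fin 4) : sg (eqv m (c, j)) = ![1, -1, 0, 0] j := by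
  have : (eqv m (c, j)).1 % 4 = j.1 := by
    show (j.1 + 4 * c.1) % 4 = j.1
    omega
  rw [sg, this]
  fin_cases j <;> rfl

/-- Weights on a block. -/
noncomputable def bw (t : Fin 4 → ℝ) (c : Fin (m ^ 2)) (d : Fin ((2 * m) ^ 2)) : ℂ :=
  if ((eqv m).symm d).1 = c then t ((eqv m).symm d).2 else 0

theorem bw_eqv (t : Fin 4 → ℝ) (c c' : Fin (m ^ 2)) (j : Fin 4) :
    bw t c (eqv m (c', j)) = if c' = c then (t j : ℂ) else 0 := by
  simp only [bw, Equiv.symm_apply_apply]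

theorem sum_bw {M : Type*} [AddCommMonoid M] (t : Fin 4 → ℝ) (c : Fin (m ^ 2))
    (f : ℂ → Fin ((2 * m) ^ 2) → M) (hf : ∀ d, f 0 d = 0) :
    ∑ d, f (bw t c d) d = ∑ j, f (t j) (eqv m (c, j)) := by
  rw [← (eqv m).sum_comp, Fintype.sum_prod_type, sum_eq_single c]
  · simp only [bw_eqv, if_true]
  · exact fun c' _ h => sum_eq_zero fun j _ => by rw [bw_eqv, if_neg h, hf]
  · simp

theorem bw_prob {α : Type*} {t : Fin 4 → ℝ} (h0 : ∀ j, 0 ≤ t j) (h1 : ∑ j, t j = 1)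
    (col : α → Fin (m ^ 2)) : Prob fun a => bw t (col a) := fun a => by
  refine ⟨fun d => ?_, ?_⟩
  · simp only [bw]
    split_ifs
    exacts [⟨_, h0 _, rfl⟩, ⟨0, le_rfl, rfl⟩]
  · rw [sum_bw t (col a) (fun z _ => z) fun _ => rfl, ← Complex.ofReal_sum, h1, Complex.ofReal_one]

variable {Ω Γ R : Type*} [TopologicalSpace Ω] [Group Γ] [MulAction Γ Ω] [Ring R]
  [StarRing R] [Algebra ℂ R] {F : Fib Ω Γ R} {Q Q' : ℝ[X]} {θ α D : ℝ}

theorem main [StarModule ℂ R] [CompactSpace Ω] [T2Space Ω] [TotallyDisconnectedSpace Ω]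
    (hm : 2 ≤ m) (h0 : 0 < θ) (h1 : θ ≤ 1) (hQ : QP Q θ)
    (hb : ∀ t, |t| ≤ 1 → -θ ≤ Q.eval t ∧ Q.eval t ≤ 4 ∧ (t ≤ 2 / m → Q.eval t ≤ θ))
    (hc : ConvexOn ℝ (Set.Icc (-1 : ℝ) 1) fun t => Q'.eval t) (D0 : 0 ≤ D)
    (hb' : ∀ t, |t| ≤ 1 → 0 ≤ Q'.eval t ∧ Q'.eval t ≤ D)
    (hcmp : ∀ t, |t| ≤ 1 → Q'.eval t ≤ α + D * Q.eval t)
    (hs : ∀ (K : ℕ) (η : ℝ), 0 < η → ∃ (n : ℕ) (e : Fin n → Set Ω),
      (∀ j, IsClopen (e j) ∧ F.Sep K (e j)) ∧
      (∀ i j, i ≠ j → ∀ ω ∈ e i, ω ∉ e j) ∧ 1 - η ≤ ∑ j, F.I (ind (e j))) :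
    ∃ col : Ω → Fin (m ^ 2), IsLocallyConstant col ∧ ∀ p : Fin (m ^ 2) → R,
      (∀ c ω w, F.φ ω (w * p c) = if col ω = c then F.φ ω w else 0) → ∀ s : ℤ, s = 1 ∨ s = -1 →
      F.I (fun ω => ∑ k ∈ range (Q'.natDegree + 1), Q'.coeff k *
        (F.φ ω ((((1 / 4 * s : ℝ) : ℂ) • ∑ c, p c * F.x * p c) ^ k)).re) ≤ α + D * (4 * θ) + θ := by
  have : NeZero (m ^ 2) := ⟨by positivity⟩
  have m0 : (m : ℂ) ≠ 0 := Nat.cast_ne_zero.2 (by omega)
  have hu : Prob fun (_ : Ω) (_ : Fin ((2 * m) ^ 2)) => (((2 * m) ^ 2 : ℕ) : ℂ)⁻¹ := fun _ =>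
    ⟨fun _ => ⟨(((2 * m) ^ 2 : ℕ) : ℝ)⁻¹, by positivity, by simp⟩, by
      rw [sum_const, card_univ, Fintype.card_fin, nsmul_eq_mul,
        mul_inv_cancel₀ (Nat.cast_ne_zero.2 (by positivity))]⟩
  have pb : ∀ {α : Type _} (col : α → Fin (m ^ 2)), Prob fun a => bw (fun _ => 1 / 4) (col a) :=
    fun col => bw_prob (fun _ => by norm_num) (by norm_num) col
  have pb' : ∀ c : Fin (m ^ 2), Prob fun _ : Unit => bw (fun _ => 1 / 4) c :=
    fun c => bw_prob (fun _ => by norm_num) (by norm_num) fun _ => c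
  have ro : ∀ ω : Ω, F.r ω 1 • ω = ω := fun ω => by rw [Fib.r_smul, one_smul]
  obtain ⟨σ, s1, s2, s3, s4⟩ := sweep (F := F) (Q := Q) (θ := 2 * θ)
    (fun σ ω => ∃ w : Fin (m ^ 2) → ℝ, (∀ c, 0 ≤ w c) ∧ ∑ c, w c = 1 ∧
      ∀ d, σ ω d = ∑ c, w c * bw (fun _ => 1 / 4) c d)
    (fun σ ω => ∃ c, σ ω = bw (fun _ => 1 / 4) c) (fun σ τ ω h => by rw [h]; exact ⟨id, id⟩)
    (fun σ ω ⟨c, h⟩ => ⟨Pi.single c 1, fun c' => by rw [Pi.single_apply]; positivity, by simp,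
      fun d => by simp [h, Pi.single_apply, apply_ite Complex.ofReal]⟩)
    (D := 5) (lo := -θ) (hi := 4) (by linarith) (by norm_num)
    (fun t ht => ⟨(hb t ht).1, (hb t ht).2.1⟩) (by positivity)
    (fun σ e t1 t2 t3 he hs => by
      obtain ⟨col, c1, c2⟩ := ex_col (fun c : Fin (m ^ 2) => sum_cont (F := F) (K := Q.natDegree)
        ((a_cont (F := F) Q (fun ω => (ow_prob (pb fun _ => c) t1 e ω).2)
          (ow_lc he (IsLocallyConstant.const _) t2)).fun_sub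
          (a_cont (F := F) Q (fun ω => (t1 ω).2) t2))) h0
      refine ⟨_, pb col, c1.comp (bw fun _ => 1 / 4), fun ω => ⟨_, rfl⟩,
        stepH t1 t2 (pb col) (c1.comp (bw fun _ => 1 / 4)) he hs fun ω hω => ?_⟩
      obtain ⟨W, w1, w2⟩ := cost t1 hs hω
      obtain ⟨w, a0, a1, a2⟩ := t3 ω
      obtain ⟨c, hc⟩ := upd (Fib.X_hc (F := F) ω) (π := fun g : Γ => σ (g • ω)) (fun _ => t1 _)
        hQ w1 _ pb' w a0 a1 (by simpa only [ro] using a2)
      have := c2 ω c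
      rw [w2 _ (pb' c)] at this
      linarith) (hs _) hu (IsLocallyConstant.const _)
    (fun ω => ⟨fun _ => ((m : ℝ) ^ 2)⁻¹, fun _ => by positivity, by
      have : (m : ℝ) ≠ 0 := Nat.cast_ne_zero.2 (by omega)
      simp [this], fun d => by
        simp only [bw, ← mul_sum, sum_ite_eq, mem_univ, if_true]
        push_cast
        field_simp
        norm_num⟩) h0
  have s5 := F.I_mono (a_cont (F := F) Q (fun ω => (hu ω).2) (IsLocallyConstant.const _))
    (continuous_const (y := θ)) fun ω => (aQ_rep (a := -θ) pf (Fib.X_hc ω) (fun _ => hu ω) Q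
      (mem_image_of_mem _ (Fib.one_mem _)) fun l hl => by
        have := hb l ((chi_RR (Fib.X_hc ω) (fun _ => hu ω) _ _ (by simp)).2 _ hl).2
        refine ⟨this.1, this.2.2 ((root_lt har bar (Fib.X_hc ω) (Fib.X_diag ω)
          (by omega : 2 ≤ 2 * m) _ hl).trans_eq ?_)⟩
        push_cast
        ring).2
  rw [Fib.I_const] at s5
  let k : (Fin ((2 * m) ^ 2) → ℂ) → Fin (m ^ 2) := fun π =>
    if h : ∃ c, π = bw (fun _ => 1 / 4) c then h.choose else 0
  have t0 : ∀ ω, σ ω = bw (fun _ => 1 / 4) ((k ∘ σ) ω) := fun ω =>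
    (s3 ω).choose_spec.trans (congrArg (bw fun _ => 1 / 4) (dif_pos (s3 ω)).symm)
  have lc := s2.comp k
  generalize k ∘ σ = col at t0 lc
  refine ⟨col, lc, fun p hp => ?_⟩
  have s6 := F.I_mono (a_cont (F := F) Q' (fun ω => (s1 ω).2) s2) (continuous_const.fun_add
    ((a_cont (F := F) Q (fun ω => (s1 ω).2) s2).const_mul D)) (a_cmp s1 hcmp)
  rw [F.I_add continuous_const ((a_cont (F := F) Q (fun ω => (s1 ω).2) s2).const_mul D),
    Fib.I_const, F.I_smul _ (a_cont (F := F) Q (fun ω => (s1 ω).2) s2)] at s6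
  have key : ∀ (i j : Fin 4) (t : Fin 4 → ℝ) (s : ℤ), (∀ j, 0 ≤ t j) → ∑ j, t j = 1 →
      t i = 1 / 4 → s ≠ 0 → ![1, -1, 0, 0] i = s →
      (∀ l, l ≠ i → ![(1 : ℤ), -1, 0, 0] l ≠ 0 → t l = 0) →
      (∀ q : Fin 4 → ℂ[X], q 3 = q 2 →
        ∑ l, C (t l : ℂ) * q l = q 2 - C (1 / 4) * (q 2 - q i)) →
      (∀ q : Fin 4 → ℂ[X], ∑ l, C ((1 / 4 : ℝ) : ℂ) * q l =
        ∑ l, C (t l : ℂ) * q l - C (1 / 4) * (q 2 - q j)) →
      F.I (fun ω => ∑ k ∈ range (Q'.natDegree + 1), Q'.coeff k *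
        (F.φ ω ((((1 / 4 * s : ℝ) : ℂ) • ∑ c, p c * F.x * p c) ^ k)).re) ≤
        α + D * (4 * θ) + θ := by
    intro i j t s b0 b1 b2 b3 b4 b5 b6 b7
    obtain ⟨ρ, r1, -, r3, r4⟩ := sweep (F := F) (Q := Q') (θ := 0)
      (fun σ ω => σ ω = bw (fun _ => 1 / 4) (col ω) ∨ σ ω = bw t (col ω))
      (fun σ ω => σ ω = bw t (col ω)) (fun σ τ ω h => by rw [h]; exact ⟨id, id⟩)
      (fun σ ω h => .inr h) (D := D) (lo := 0) (hi := D) (by linarith) D0 hb' le_rfl
      (fun σ e t1 t2 t3 he hs => by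
        refine ⟨_, bw_prob b0 b1 col, lc.comp (bw t), fun ω => rfl,
          stepH t1 t2 (bw_prob b0 b1 col) (lc.comp (bw t)) he hs fun ω hω => ?_⟩
        obtain ⟨W, w1, w2⟩ := cost t1 hs hω
        rw [w2 _ (bw_prob b0 b1 fun _ => col ω), sub_nonpos]
        rcases t3 ω with a | a
        · refine unmix (Fib.X_hc ω) (Fib.X_diag ω) (fun _ => t1 _) hc w1
            (bw_prob b0 b1 fun _ => col ω) (d₁ := eqv m (col ω, i)) (d₂ := eqv m (col ω, 2))
            (d₃ := eqv m (col ω, j)) (fun q hq => ?_) (sg_eqv _ _) fun q => ?_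
          · rw [sum_bw t _ (fun z d => C z * q d) fun _ => by simp]
            exact b6 (fun l => q (eqv m (col ω, l))) (hq _ (sg_eqv _ _))
          · simp only [ro, a]
            rw [sum_bw t _ (fun z d => C z * q d) fun _ => by simp,
              sum_bw _ _ (fun z d => C z * q d) fun _ => by simp]
            exact b7 fun l => q (eqv m (col ω, l))
        · rw [← a, ← ro ω]
          simp only [ro]
          rw [show Function.update (fun g : Γ => σ (g • ω)) (F.r ω 1) (σ ω) =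
            fun g : Γ => σ (g • ω) from Function.update_eq_self_iff.2 (by rw [ro])])
      (hs _) s1 s2 (fun ω => .inl (t0 ω)) h0
    rw [← funext (a_half (σ := ρ) hp (fun c => eqv m (c, i))
      (fun _ _ h => (Prod.ext_iff.1 ((eqv m).injective h)).1) b3 (fun c => (sg_eqv c i).trans b4)
      (fun ω => by rw [r3, bw_eqv, if_pos rfl, b2]) (fun ω d a b => ?_) r1)]
    · nlinarith
    · obtain ⟨⟨c, l⟩, rfl⟩ := (eqv m).surjective d
      rw [r3, bw_eqv]
      split_ifs with h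
      · rw [b5 l (fun e => a (by rw [h, e])) (sg_eqv c l ▸ b), Complex.ofReal_zero]
      · rfl
  rintro s (rfl | rfl)
  · refine key 0 1 ![1 / 4, 0, 1 / 2, 1 / 4] 1 (fun j => by fin_cases j <;> norm_num)
      (by simp only [Fin.sum_univ_four, Matrix.cons_val]; norm_num) rfl one_ne_zero rfl
      (fun l => by fin_cases l <;> simp) (fun q h => ?_) fun q => ?_
    · simp only [Fin.sum_univ_four, C_mul', h, Matrix.cons_val]
      push_cast
      module
    · simp only [Fin.sum_univ_four, C_mul', Matrix.cons_val]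
      push_cast
      module
  · refine key 1 0 ![0, 1 / 4, 1 / 2, 1 / 4] (-1) (fun j => by fin_cases j <;> norm_num)
      (by simp only [Fin.sum_univ_four, Matrix.cons_val]; norm_num) rfl (by norm_num) rfl
      (fun l => by fin_cases l <;> simp) (fun q h => ?_) fun q => ?_
    · simp only [Fin.sum_univ_four, C_mul', h, Matrix.cons_val]
      push_cast
      module
    · simp only [Fin.sum_univ_four, C_mul', Matrix.cons_val]
      push_cast
      module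

end T

end Vale.Agent.P078
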