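import Vale.Agent.P078.Stm2

/-! Two-sided intertwiners and the normalizer; basic facts on the expectation. -/

namespace Vale.Agent.P078

open scoped InnerProductSpace ComplexConjugate ComplexOrder
open Vale.Agent.P104 Vale.Agent.P082 Finset R

universe u

variable {H : Type u} [NormedAddCommGroup H] [InnerProductSpace ℂ H] [CompleteSpace H]
  {A M : VonNeumannAlgebra H} {ξ : H}

namespace W

theorem eq_zero (ht : TraceVec M ξ) {x : H →L[ℂ] H} (hx : x ∈ M) (h0 : 0 ≤ x)
    (h : (⟪ξ, x ξ⟫_ℂ).re ≤ 0) : x = 0 := by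
  obtain ⟨s, rfl⟩ := CStarAlgebra.nonneg_iff_eq_star_mul_self.1 h0
  rw [← norm_sq_apply] at h
  have : s ξ = 0 := by simpa using le_antisymm h (sq_nonneg _)
  exact ht.2.2 _ hx (by rw [ContinuousLinearMap.mul_apply, this, map_zero])

theorem cj (hA : IsMasa A M) {r x : H →L[ℂ] H} (hr : r ∈ A) (pr : IsStarProjection r)
    (hx : x ∈ A) : r * x * r = x * r := by
  rw [hA.2.1 r hr x hx, mul_assoc, pr.isIdempotentElem.eq]

theorem uniq (hA : IsMasa A M) (ht : TraceVec M ξ) {z a a' : H →L[ℂ] H} (h : IsE A ξ z a)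
    (h' : IsE A ξ z a') : a = a' := by
  have m := sub_mem h.1 h'.1
  have e := norm_sq_apply (a - a') ξ
  rw [mul_sub, ContinuousLinearMap.sub_apply (star (a - a') * a), inner_sub_right,
    h.2 _ (star_mem m), h'.2 _ (star_mem m), sub_self, Complex.zero_re] at e
  exact sub_eq_zero.1 (ht.2.2 _ (hA.1 _ m) (by simpa using e))

theorem cut_tr (hA : IsMasa A M) (ht : TraceVec M ξ) {r z : H →L[ℂ] H} (hr : r ∈ A)
    (pr : IsStarProjection r) (hz : z ∈ M) : ⟪ξ, (r * z * r) ξ⟫_ℂ = ⟪ξ, (r * z) ξ⟫_ℂ := by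
  rw [ht.2.1 _ (mul_mem (hA.1 _ hr) hz) _ (hA.1 _ hr), ← mul_assoc, pr.isIdempotentElem.eq]

theorem nonneg (hA : IsMasa A M) (ht : TraceVec M ξ) {z a : H →L[ℂ] H} (hz : z ∈ M) (z0 : 0 ≤ z)
    (h : IsE A ξ z a) : 0 ≤ a := by
  have hs : IsSelfAdjoint a := by
    refine uniq hA ht ⟨star_mem h.1, fun b hb => ?_⟩ h
    have := congrArg conj (h.2 _ (star_mem hb))
    rw [inner_conj_symm, inner_conj_symm, ← inner_star_right, ← inner_star_right, star_mul,
      star_mul, star_star, z0.isSelfAdjoint.star_eq] at this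
    rw [hA.2.1 _ hb _ (star_mem h.1), this, ht.2.1 _ hz _ (hA.1 _ hb)]
  obtain ⟨e, eA, pe, -, e1, e2⟩ := spec H A a h.1 hs
  have rA := sub_mem (one_mem A) eA
  have t := re_nonneg (ξ := ξ) (pe.one_sub.isSelfAdjoint.conjugate_nonneg z0)
  rw [cut_tr hA ht rA pe.one_sub hz, ← h.2 _ rA, ← cut_tr hA ht rA pe.one_sub (hA.1 _ h.1)] at t
  have e3 := eq_zero ht (neg_mem (hA.1 _ (mul_mem (mul_mem rA h.1) rA))) (neg_nonneg.2 e2)
    (by rw [ContinuousLinearMap.neg_apply, inner_neg_right, Complex.neg_re]; linarith)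
  rw [cj hA rA pe.one_sub h.1, neg_eq_zero, mul_sub, mul_one, sub_eq_zero] at e3
  rwa [cj hA eA pe h.1, ← e3] at e1

theorem nu (hA : IsMasa A M) {j : H →L[ℂ] H} (hj : j ∈ M) (js : star j = j) (qA : j * j ∈ A)
    (jq : j * (j * j) = j) (h : ∀ a ∈ A, j * a * j ∈ A) : j ∈ nsp A M := by
  have gA := sub_mem (one_mem A) qA
  have e1 : j * (1 - j * j) = 0 := by rw [mul_sub, mul_one, jq, sub_self]
  have e2 : (1 - j * j) * j = 0 := by rw [sub_mul, one_mul, mul_assoc, jq, sub_self]
  have us : star (j + (1 - j * j)) = j + (1 - j * j) := by simp [js]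
  have uu : (j + (1 - j * j)) * (j + (1 - j * j)) = 1 := by
    rw [add_mul, mul_add, mul_add, e1, e2, sub_mul, one_mul, mul_assoc, e1]
    simp
  have k : ∀ a ∈ A, (j + (1 - j * j)) * a * (j + (1 - j * j)) ∈ A := fun a ha => by
    have c := hA.2.1 a ha _ gA
    rw [add_mul, add_mul, mul_add, mul_add, mul_assoc j a (1 - j * j), c, ← mul_assoc j, e1,
      zero_mul, add_zero, ← c, mul_assoc a _ j, e2, mul_zero, zero_add]
    exact add_mem (h a ha) (mul_mem (mul_mem ha gA) gA)
  have : j + (1 - j * j) ∈ nsp A M := Submodule.subset_span ⟨add_mem hj (hA.1 _ gA),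
    ⟨by rw [us, uu], by rw [us, uu]⟩, by rwa [us], by rwa [us]⟩
  simpa using sub_mem this (le_nsp hA gA)

theorem pi (hA : IsMasa A M) (ht : TraceVec M ξ) {v e : H →L[ℂ] H} (hv : v ∈ M) (he : e ∈ A)
    (pe : IsStarProjection e) (e0 : e ≠ 0) (u1 : star v * v = e) (ve : v * e = v)
    (h1 : ∀ a ∈ A, v * a * star v ∈ A) (h2 : ∀ a ∈ A, star v * a * v ∈ A) :
    ∃ s ∈ A, e * s ≠ 0 ∧ v * s ∈ nsp A M := by
  have fe : ∀ f ∈ A, e * f = f → f * e = f := fun f hf h => by rw [hA.2.1 f hf e he, h]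
  have hqg : ∀ f ∈ A, e * f = f → v * f * star v * v = v * f := fun f hf h => by
    rw [mul_assoc, u1, mul_assoc, fe f hf h]
  have pq : ∀ f ∈ A, IsStarProjection f → e * f = f → IsStarProjection (v * f * star v) :=
    fun f hf pf h => ⟨by
      rw [IsIdempotentElem, ← mul_assoc, ← mul_assoc, hqg f hf h, mul_assoc v f f,
        pf.isIdempotentElem.eq], pf.isSelfAdjoint.conjugate v⟩
  by_cases h : ∃ f ∈ A, IsStarProjection f ∧ e * f = f ∧ f * (1 - v * f * star v) ≠ 0
  · obtain ⟨f, hf, pf, hef, h0⟩ := h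
    have hq := sub_mem (one_mem A) (h1 f hf)
    obtain ⟨s, hs⟩ : ∃ s, s = f * (1 - v * f * star v) := ⟨_, rfl⟩
    have sA : s ∈ A := hs ▸ mul_mem hf hq
    have ps : IsStarProjection s := hs ▸ hA.proj_mul hf hq pf (pq f hf pf hef).one_sub
    have es : e * s = s := by rw [hs, ← mul_assoc, hef]
    have ss := ps.isIdempotentElem.eq
    have e1 : (1 - v * f * star v) * v * f = 0 := by
      rw [sub_mul, one_mul, hqg f hf hef, sub_mul, mul_assoc v f f, pf.isIdempotentElem.eq, sub_self]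
    have e2 : s * (v * s) = 0 := by
      have : s * (v * s) = f * ((1 - v * f * star v) * v * f) * (1 - v * f * star v) := by
        rw [hs]; simp only [mul_assoc]
      rw [this, e1, mul_zero, zero_mul]
    obtain ⟨x, hx⟩ : ∃ x, x = v * s := ⟨_, rfl⟩
    have xM : x ∈ M := hx ▸ mul_mem hv (hA.1 _ sA)
    have xa : ∀ a ∈ A, x * a * x = 0 := fun a ha => by
      rw [hx, mul_assoc v, hA.2.1 s sA a ha, mul_assoc, mul_assoc, e2, mul_zero, mul_zero]
    have xb : ∀ a ∈ A, star x * a * star x = 0 := fun a ha => by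
      simpa only [star_mul, star_star, star_zero, mul_assoc] using
        congrArg star (xa _ (star_mem ha))
    have xc : ∀ a ∈ A, x * a * star x ∈ A := fun a ha => by
      simpa only [hx, star_mul, ps.isSelfAdjoint.star_eq, mul_assoc] using
        h1 _ (mul_mem (mul_mem sA ha) sA)
    have xd : ∀ a ∈ A, star x * a * x ∈ A := fun a ha => by
      simpa only [hx, star_mul, ps.isSelfAdjoint.star_eq, mul_assoc] using
        mul_mem (mul_mem sA (h2 a ha)) sA
    have k : ∀ a ∈ A, (x + star x) * a * (x + star x) ∈ A := fun a ha => by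
      rw [add_mul, add_mul, mul_add, mul_add, xa a ha, xb a ha, zero_add, add_zero]
      exact add_mem (xc a ha) (xd a ha)
    have x1 : x * x = 0 := by simpa using xa 1 (one_mem A)
    have x2 : star x * star x = 0 := by simpa using xb 1 (one_mem A)
    have x3 : star x * x = s := by
      rw [hx, star_mul, ps.isSelfAdjoint.star_eq, mul_assoc, ← mul_assoc (star v), u1, es, ss]
    have x4 : x * s = x := by rw [hx, mul_assoc, ss]
    have x5 : s * star x = star x := by
      simpa only [star_mul, ps.isSelfAdjoint.star_eq] using congrArg star x4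
    have x6 : star x * s = 0 := by rw [← x3, ← mul_assoc, x2, zero_mul]
    have j := nu hA (add_mem xM (star_mem xM)) (by simp [add_comm])
      (by simpa using k 1 (one_mem A)) (by
        rw [add_mul x (star x) (x + star x), mul_add x, mul_add (star x), x1, x2, x3, zero_add,
          add_zero, add_mul, mul_add, mul_add, x4, x6, ← mul_assoc, ← mul_assoc, x1, x3, x5]
        simp) k
    refine ⟨s, sA, by rwa [es, hs], ?_⟩
    have := mul_mem j (le_nsp hA sA)
    rwa [add_mul, x4, x6, add_zero, hx] at this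
  push Not at h
  have hc : ∀ f ∈ A, IsStarProjection f → e * f = f → v * f = f * v := by
    intro f hf pf hef
    have g1 := h f hf pf hef
    rw [mul_sub, mul_one, sub_eq_zero] at g1
    have g2 : v * f * star v * (1 - f) = v * f * star v - f := by
      rw [mul_sub, mul_one, hA.2.1 _ (h1 f hf) f hf, ← g1]
    have p3 := hA.proj_mul (h1 f hf) (sub_mem (one_mem A) hf) (pq f hf pf hef) pf.one_sub
    rw [g2] at p3
    have g4 := proj_inner p3 ξ
    rw [ContinuousLinearMap.sub_apply, inner_sub_right,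
      ht.2.1 _ (mul_mem hv (hA.1 f hf)) _ (star_mem hv), ← mul_assoc, u1, hef, sub_self,
      Complex.zero_re] at g4
    have g5 : v * f * star v - f = 0 := ht.2.2 _ (sub_mem (hA.1 _ (h1 f hf)) (hA.1 f hf))
      (by rw [ContinuousLinearMap.sub_apply]; simpa using g4.symm)
    rw [← hqg f hf hef, sub_eq_zero.1 g5]
  have hee := pe.isIdempotentElem.eq
  refine ⟨1, one_mem A, by rwa [mul_one], ?_⟩
  rw [mul_one]
  refine le_nsp hA (hA.mem_of_proj hv fun E hE pE => ?_)
  have g := hc (e * E) (mul_mem he hE) (hA.proj_mul he hE pe pE) (by rw [← mul_assoc, hee])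
  rw [← mul_assoc, ve, hA.2.1 e he E hE, mul_assoc, ← hc e he pe hee, ve] at g
  exact g.symm

theorem nz (hA : IsMasa A M) (ht : TraceVec M ξ) {z : H →L[ℂ] H} (hz : z ∈ M) (z0 : z ≠ 0)
    (h1 : ∀ a ∈ A, z * a * star z ∈ A) (h2 : ∀ a ∈ A, star z * a * z ∈ A) :
    ∃ s ∈ A, z * s ≠ 0 ∧ z * s ∈ nsp A M := by
  have kA : star z * z ∈ A := by simpa using h2 1 (one_mem A)
  have n0 : 0 < ‖z‖ := norm_pos_iff.2 z0
  obtain ⟨c, hc⟩ : ∃ c : ℝ, c = ‖z‖ ^ 2 / 2 := ⟨_, rfl⟩
  have c0 : 0 < c := by rw [hc]; positivity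
  have tA : star z * z - (c : ℂ) • 1 ∈ A := sub_mem kA (vn_smul_mem _ (one_mem A))
  obtain ⟨e, eA, pe, -, e1, e2⟩ := spec H A _ tA ((IsSelfAdjoint.star_mul_self z).sub
    ((show IsSelfAdjoint (c : ℂ) from Complex.conj_ofReal _).smul (.one _)))
  have e0 : e ≠ 0 := by
    rintro rfl
    rw [sub_zero, one_mul, mul_one, sub_nonpos, Complex.coe_smul] at e2
    have := norm_sq_le_of_le c0.le e2
    nlinarith
  obtain ⟨h, k, -, ks, hh, hk, kh, -⟩ := exists_sqrt_inv
    (a := (⟨_, mul_mem (mul_mem eA tA) eA⟩ : Alg A)) e1 c0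
  have ks' : star k.1 = k.1 := congrArg Subtype.val ks
  have hh' : h.1 * h.1 = e * (star z * z - (c : ℂ) • 1) * e + (c : ℂ) • 1 :=
    congrArg Subtype.val hh
  have hk' : h.1 * k.1 = 1 := congrArg Subtype.val hk
  have kh' : k.1 * h.1 = 1 := congrArg Subtype.val kh
  have ee := pe.isIdempotentElem.eq
  have kA' : k.1 ∈ A := k.2
  have ek := hA.2.1 e eA _ k.2
  have u : e * (star z * z) * e = h.1 * h.1 * e := by
    rw [hh']
    simp only [mul_sub, sub_mul, add_mul, mul_smul_comm, smul_mul_assoc, mul_one, one_mul,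
      mul_assoc, ee, sub_add_cancel]
  have u1 : star (z * e * k.1) * (z * e * k.1) = e := by
    calc _ = k.1 * (e * (star z * z) * e) * k.1 := by
          simp only [star_mul, ks', pe.isSelfAdjoint.star_eq, mul_assoc]
      _ = k.1 * h.1 * (h.1 * (e * k.1)) := by rw [u]; simp only [mul_assoc]
      _ = e := by rw [kh', one_mul, ek, ← mul_assoc, hk', one_mul]
  obtain ⟨s, sA, s0, hs⟩ := pi hA ht (mul_mem (mul_mem hz (hA.1 _ eA)) (hA.1 _ k.2)) eA pe e0 u1
    (by rw [mul_assoc, ← ek, ← mul_assoc, mul_assoc z e e, ee]) (fun a ha => by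
      simpa only [star_mul, ks', pe.isSelfAdjoint.star_eq, mul_assoc] using
        h1 _ (mul_mem (mul_mem (mul_mem (mul_mem eA k.2) ha) k.2) eA)) (fun a ha => by
      simpa only [star_mul, ks', pe.isSelfAdjoint.star_eq, mul_assoc] using
        mul_mem (mul_mem (mul_mem (mul_mem kA' eA) (h2 a ha)) eA) kA')
  refine ⟨e * k.1 * s, mul_mem (mul_mem eA k.2) sA, fun h0 => s0 ?_, by
    simpa only [mul_assoc] using hs⟩
  rw [← u1, mul_assoc, mul_assoc z e, mul_assoc z, h0, mul_zero]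

end W

end Vale.Agent.P078
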